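import Mathlib

/-!
# Row 260: almost complex manifolds with real charts (helper580)

`ACM V Z` : real charts of the topological space `Z` with values in a real normed space `V`,
            a smooth almost complex structure `J i` in each chart, compatible with the transitions
`Nij`     : the Nijenhuis tensor of a matrix field (coordinate form)
`ACM.Int` : integrability
`NNat`    : the local Newlander-Nirenberg theorem (a Prop; proved elsewhere)
-/

set_option autoImplicit false

open Set Filter Topology Complex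
open scoped ContDiff

namespace Crest.Agent.R260.ACM_580

noncomputable section

/-- Nijenhuis tensor of the field of endomorphisms `J` -/
def Nij {V : Type*} [NormedAddCommGroup V] [NormedSpace ℝ V] (J : V → V →L[ℝ] V) (z v w : V) : V :=
  fderiv ℝ J z (J z v) w - fderiv ℝ J z (J z w) v - J z (fderiv ℝ J z v w) +
    J z (fderiv ℝ J z w v)

/-- a topological space with smooth real charts and a smooth almost complex structure -/
structure ACM (V Z : Type) [NormedAddCommGroup V] [NormedSpace ℝ V] [TopologicalSpace Z] where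
  ι : Type
  e : ι → OpenPartialHomeomorph Z V
  cover : ∀ x, ∃ i, x ∈ (e i).source
  sm : ∀ i j, ContDiffOn ℝ ∞ (fun z => e j ((e i).symm z))
    {z | z ∈ (e i).target ∧ (e i).symm z ∈ (e j).source}
  J : ι → V → V →L[ℝ] V
  J_sm : ∀ i, ContDiffOn ℝ ∞ (J i) (e i).target
  J_sq : ∀ i, ∀ z ∈ (e i).target, ∀ v, J i z (J i z v) = -v
  J_tr : ∀ i j, ∀ z, z ∈ (e i).target → (e i).symm z ∈ (e j).source → ∀ v,
    fderiv ℝ (fun z => e j ((e i).symm z)) z (J i z v) =
      J j (e j ((e i).symm z)) (fderiv ℝ (fun z => e j ((e i).symm z)) z v)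

namespace ACM

variable {V Z : Type} [NormedAddCommGroup V] [NormedSpace ℝ V] [TopologicalSpace Z]

/-- the overlap of the charts `i`, `j`, seen in the chart `i` -/
def ov (C : ACM V Z) (i j : C.ι) : Set V :=
  {z | z ∈ (C.e i).target ∧ (C.e i).symm z ∈ (C.e j).source}

theorem isOpen_ov (C : ACM V Z) (i j : C.ι) : IsOpen (C.ov i j) :=
  (C.e i).isOpen_inter_preimage_symm (C.e j).open_source

/-- the Nijenhuis tensor vanishes in all charts -/
def Int (C : ACM V Z) : Prop :=
  ∀ i, ∀ z ∈ (C.e i).target, ∀ v w, Nij (C.J i) z v w = 0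

end ACM

/-- local Newlander-Nirenberg theorem for fields of endomorphisms of `V`, `dim V = 2 d` -/
def NNat (V : Type) [NormedAddCommGroup V] [NormedSpace ℝ V] (d : ℕ) : Prop :=
  ∀ U : Set V, IsOpen U → ∀ p ∈ U, ∀ J : V → V →L[ℝ] V, ContDiffOn ℝ ∞ J U →
    (∀ z ∈ U, ∀ v, J z (J z v) = -v) → (∀ z ∈ U, ∀ v w, Nij J z v w = 0) →
    ∃ W : Set V, IsOpen W ∧ p ∈ W ∧ W ⊆ U ∧ ∃ F : V → EuclideanSpace ℂ (Fin d),
      ContDiffOn ℝ ∞ F W ∧ ∀ x ∈ W, Function.Bijective (fderiv ℝ F x) ∧
        ∀ v, fderiv ℝ F x (J x v) = I • fderiv ℝ F x v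

end

end Crest.Agent.R260.ACM_580
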