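import Mathlib

/-! # Bochner-Kodaira estimate for exact forms (row 260, Newlander-Nirenberg), part 1:
complex vector fields on Euclidean space, formal adjoints in `L²(exp(-Φ))`, the integrated identity. -/

namespace Crest.Agent.R260.BKX_680

open MeasureTheory Complex Set
open scoped ContDiff ComplexConjugate BigOperators

set_option linter.unusedSectionVars false

noncomputable section

variable {E : Type} [NormedAddCommGroup E] [NormedSpace ℝ E]
variable {κ : Type} [Fintype κ] {e : κ → E}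

/-- derivative of a complex valued function in the direction `a` -/
def pd (a : E) (u : E → ℂ) : E → ℂ := fun x => fderiv ℝ u x a

/-- derivative along the complex vector field `∑ ξ a ∂_a` -/
def Xd (e : κ → E) (ξ : κ → E → ℂ) (u : E → ℂ) : E → ℂ := fun x => ∑ a, ξ a x * pd (e a) u x

/-- divergence -/
def dv (e : κ → E) (ξ : κ → E → ℂ) : E → ℂ := fun x => ∑ a, pd (e a) (ξ a) x

/-- conjugate vector field -/
def cj (ξ : κ → E → ℂ) : κ → E → ℂ := fun a x => conj (ξ a x)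

/-- a real function as a complex one -/
def rc (Φ : E → ℝ) : E → ℂ := fun x => (Φ x : ℂ)

/-- test functions -/
structure Tst (u : E → ℂ) : Prop where
  smooth : ContDiff ℝ ∞ u
  supp : HasCompactSupport u

/-- formal adjoint of `Xd e ξ` in `L²(exp(-Φ) dx)` -/
def Ls (e : κ → E) (Φ : E → ℝ) (ξ : κ → E → ℂ) (v : E → ℂ) : E → ℂ :=
  fun x => -(Xd e (cj ξ) v x) - dv e (cj ξ) x * v x + Xd e (cj ξ) (rc Φ) x * v x

/-- the weighted inner product, linear in the first variable -/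
def ip [MeasurableSpace E] (μ : Measure E) (Φ : E → ℝ) (u v : E → ℂ) : ℂ :=
  ∫ x, u x * conj (v x) * ((Real.exp (-Φ x) : ℝ) : ℂ) ∂μ

/-! ### smoothness -/

theorem smooth_diff {u : E → ℂ} (hu : ContDiff ℝ ∞ u) : Differentiable ℝ u :=
  hu.differentiable (by simp)

theorem pd_smooth {u : E → ℂ} (hu : ContDiff ℝ ∞ u) (a : E) : ContDiff ℝ ∞ (pd a u) := by
  have h1 : ContDiff ℝ ∞ (fderiv ℝ u) := hu.fderiv_right (m := ∞) (by simp)
  exact h1.clm_apply contDiff_const

theorem Xd_smooth {ξ : κ → E → ℂ} (hξ : ∀ a, ContDiff ℝ ∞ (ξ a)) {u : E → ℂ}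
    (hu : ContDiff ℝ ∞ u) : ContDiff ℝ ∞ (Xd e ξ u) := by
  unfold Xd
  exact ContDiff.sum fun a _ => (hξ a).mul (pd_smooth hu (e a))

theorem dv_smooth {ξ : κ → E → ℂ} (hξ : ∀ a, ContDiff ℝ ∞ (ξ a)) :
    ContDiff ℝ ∞ (dv e ξ) := by
  unfold dv
  exact ContDiff.sum fun a _ => pd_smooth (hξ a) (e a)

theorem conj_smooth {u : E → ℂ} (hu : ContDiff ℝ ∞ u) :
    ContDiff ℝ ∞ (fun x => conj (u x)) :=
  (Complex.conjCLE.contDiff (n := ∞)).comp hu

theorem cj_smooth {ξ : κ → E → ℂ} (hξ : ∀ a, ContDiff ℝ ∞ (ξ a)) (a : κ) :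
    ContDiff ℝ ∞ (cj ξ a) := conj_smooth (hξ a)

theorem rc_smooth {Φ : E → ℝ} (hΦ : ContDiff ℝ ∞ Φ) : ContDiff ℝ ∞ (rc Φ) :=
  (Complex.ofRealCLM.contDiff (n := ∞)).comp hΦ

theorem Ls_smooth {Φ : E → ℝ} (hΦ : ContDiff ℝ ∞ Φ) {ξ : κ → E → ℂ}
    (hξ : ∀ a, ContDiff ℝ ∞ (ξ a)) {v : E → ℂ} (hv : ContDiff ℝ ∞ v) :
    ContDiff ℝ ∞ (Ls e Φ ξ v) := by
  unfold Ls
  exact (((Xd_smooth (cj_smooth hξ) hv).neg).sub ((dv_smooth (cj_smooth hξ)).mul hv)).add
    ((Xd_smooth (cj_smooth hξ) (rc_smooth hΦ)).mul hv)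

/-! ### calculus rules -/

theorem pd_add {u v : E → ℂ} (hu : Differentiable ℝ u) (hv : Differentiable ℝ v) (a : E)
    (x : E) : pd a (fun y => u y + v y) x = pd a u x + pd a v x := by
  unfold pd
  rw [fderiv_fun_add (hu x) (hv x)]; rfl

theorem pd_sub {u v : E → ℂ} (hu : Differentiable ℝ u) (hv : Differentiable ℝ v) (a : E)
    (x : E) : pd a (fun y => u y - v y) x = pd a u x - pd a v x := by
  unfold pd
  rw [fderiv_fun_sub (hu x) (hv x)]; rfl

theorem pd_neg {u : E → ℂ} (a : E)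
    (x : E) : pd a (fun y => -u y) x = -pd a u x := by
  unfold pd
  rw [fderiv_fun_neg]; rfl

theorem pd_mul {u v : E → ℂ} (hu : Differentiable ℝ u) (hv : Differentiable ℝ v) (a : E)
    (x : E) : pd a (fun y => u y * v y) x = u x * pd a v x + pd a u x * v x := by
  unfold pd
  rw [fderiv_fun_mul (hu x) (hv x)]
  simp [mul_comm]

theorem pd_conj {u : E → ℂ} (hu : Differentiable ℝ u) (a : E) (x : E) :
    pd a (fun y => conj (u y)) x = conj (pd a u x) := by
  unfold pd
  have h := (Complex.conjCLE.toContinuousLinearMap.hasFDerivAt (x := u x)).comp x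
    (hu x).hasFDerivAt
  have h2 : HasFDerivAt (fun y => conj (u y))
      (Complex.conjCLE.toContinuousLinearMap.comp (fderiv ℝ u x)) x := h
  rw [h2.fderiv]
  rfl

theorem Xd_add {ξ : κ → E → ℂ} {u v : E → ℂ} (hu : Differentiable ℝ u)
    (hv : Differentiable ℝ v) (x : E) :
    Xd e ξ (fun y => u y + v y) x = Xd e ξ u x + Xd e ξ v x := by
  unfold Xd
  rw [← Finset.sum_add_distrib]
  exact Finset.sum_congr rfl fun a _ => by rw [pd_add hu hv]; ring

theorem Xd_sub {ξ : κ → E → ℂ} {u v : E → ℂ} (hu : Differentiable ℝ u)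
    (hv : Differentiable ℝ v) (x : E) :
    Xd e ξ (fun y => u y - v y) x = Xd e ξ u x - Xd e ξ v x := by
  unfold Xd
  rw [← Finset.sum_sub_distrib]
  exact Finset.sum_congr rfl fun a _ => by rw [pd_sub hu hv]; ring

theorem Xd_neg {ξ : κ → E → ℂ} {u : E → ℂ} (x : E) :
    Xd e ξ (fun y => - u y) x = - Xd e ξ u x := by
  unfold Xd
  rw [← Finset.sum_neg_distrib]
  exact Finset.sum_congr rfl fun a _ => by rw [pd_neg]; ring

theorem Xd_mul {ξ : κ → E → ℂ} {u v : E → ℂ} (hu : Differentiable ℝ u)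
    (hv : Differentiable ℝ v) (x : E) :
    Xd e ξ (fun y => u y * v y) x = u x * Xd e ξ v x + Xd e ξ u x * v x := by
  unfold Xd
  rw [Finset.mul_sum, Finset.sum_mul, ← Finset.sum_add_distrib]
  exact Finset.sum_congr rfl fun a _ => by rw [pd_mul hu hv]; ring

theorem Xd_conj {ξ : κ → E → ℂ} {u : E → ℂ} (hu : Differentiable ℝ u) (x : E) :
    Xd e (cj ξ) (fun y => conj (u y)) x = conj (Xd e ξ u x) := by
  unfold Xd cj
  rw [map_sum]
  exact Finset.sum_congr rfl fun a _ => by rw [pd_conj hu, map_mul]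

theorem cj_cj (ξ : κ → E → ℂ) : cj (cj ξ) = ξ := by
  funext a x; simp [cj]

theorem Xd_conj' {ξ : κ → E → ℂ} {u : E → ℂ} (hu : Differentiable ℝ u) (x : E) :
    Xd e ξ (fun y => conj (u y)) x = conj (Xd e (cj ξ) u x) := by
  have h := Xd_conj (e := e) (ξ := cj ξ) hu x
  rwa [cj_cj] at h

theorem dv_cj {ξ : κ → E → ℂ} (hξ : ∀ a, ContDiff ℝ ∞ (ξ a)) (x : E) :
    dv e (cj ξ) x = conj (dv e ξ x) := by
  unfold dv cj
  rw [map_sum]
  exact Finset.sum_congr rfl fun a _ => pd_conj (smooth_diff (hξ a)) (e a) x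

theorem Xd_rc {ξ : κ → E → ℂ} {Φ : E → ℝ} (hΦ : ContDiff ℝ ∞ Φ) (x : E) :
    Xd e (cj ξ) (rc Φ) x = conj (Xd e ξ (rc Φ) x) := by
  rw [← Xd_conj (smooth_diff (rc_smooth hΦ)) x]
  congr 1
  funext y
  simp [rc]

/-! ### test functions -/

variable [FiniteDimensional ℝ E] [MeasurableSpace E] [BorelSpace E] {μ : Measure E}
  [μ.IsAddHaarMeasure]

theorem Tst.diff {u : E → ℂ} (hu : Tst u) : Differentiable ℝ u := smooth_diff hu.smooth

theorem pd_supp {u : E → ℂ} (hu : HasCompactSupport u) (a : E) :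
    HasCompactSupport (pd a u) := by
  have h := hu.fderiv (𝕜 := ℝ)
  refine h.mono ?_
  intro x hx hx2
  apply hx
  have : fderiv ℝ u x = 0 := hx2
  simp [pd, this]

theorem Tst.xd {u : E → ℂ} (hu : Tst u) {ξ : κ → E → ℂ}
    (hξ : ∀ a, ContDiff ℝ ∞ (ξ a)) : Tst (Xd e ξ u) := by
  refine ⟨Xd_smooth hξ hu.smooth, ?_⟩
  have h := hu.supp.fderiv (𝕜 := ℝ)
  refine h.mono ?_
  intro x hx hx2
  apply hx
  have : fderiv ℝ u x = 0 := hx2
  simp [Xd, pd, this]

theorem Tst.mul_left {u w : E → ℂ} (hu : Tst u) (hw : ContDiff ℝ ∞ w) :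
    Tst (fun x => w x * u x) :=
  ⟨hw.mul hu.smooth, hu.supp.mul_left⟩

theorem Tst.add {u v : E → ℂ} (hu : Tst u) (hv : Tst v) : Tst (fun x => u x + v x) :=
  ⟨hu.smooth.add hv.smooth, hu.supp.add hv.supp⟩

theorem Tst.neg {u : E → ℂ} (hu : Tst u) : Tst (fun x => - u x) := by
  refine ⟨hu.smooth.neg, hu.supp.mono ?_⟩
  intro x hx h0
  apply hx
  have : u x = 0 := h0
  simp [this]

theorem Tst.sub {u v : E → ℂ} (hu : Tst u) (hv : Tst v) : Tst (fun x => u x - v x) := by
  simpa [sub_eq_add_neg] using hu.add hv.neg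

theorem Tst.sum {κ : Type} (s : Finset κ) {f : κ → E → ℂ} (hf : ∀ i ∈ s, Tst (f i)) :
    Tst (fun x => ∑ i ∈ s, f i x) := by
  classical
  induction s using Finset.induction_on with
  | empty =>
    refine ⟨by simpa using contDiff_const, ?_⟩
    have h0 : HasCompactSupport (0 : E → ℂ) := HasCompactSupport.zero
    have h1 : (fun x : E => ∑ i ∈ (∅ : Finset κ), f i x) = 0 := by
      funext x; simp
    rw [h1]; exact h0
  | insert a s ha ih =>
    have h1 := (hf a (Finset.mem_insert_self a s)).add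
      (ih fun i hi => hf i (Finset.mem_insert_of_mem hi))
    simpa [Finset.sum_insert ha] using h1

theorem Tst.ls {u : E → ℂ} (hu : Tst u) {Φ : E → ℝ} (hΦ : ContDiff ℝ ∞ Φ)
    {ξ : κ → E → ℂ} (hξ : ∀ a, ContDiff ℝ ∞ (ξ a)) : Tst (Ls e Φ ξ u) := by
  unfold Ls
  exact (((hu.xd (cj_smooth hξ)).neg).sub (hu.mul_left (dv_smooth (cj_smooth hξ)))).add
    (hu.mul_left (Xd_smooth (cj_smooth hξ) (rc_smooth hΦ)))

theorem ip_integrable {Φ : E → ℝ} (hΦ : Continuous Φ) {u v : E → ℂ}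
    (hu : Continuous u) (hv : Tst v) :
    Integrable (fun x => u x * conj (v x) * ((Real.exp (-Φ x) : ℝ) : ℂ)) μ := by
  have hc : Continuous (fun x => u x * conj (v x) * ((Real.exp (-Φ x) : ℝ) : ℂ)) := by
    have := hv.smooth.continuous
    fun_prop
  refine hc.integrable_of_hasCompactSupport ?_
  refine hv.supp.mono ?_
  intro x hx h0
  apply hx
  have : v x = 0 := h0
  simp [this]

theorem ip_conj {Φ : E → ℝ} (u v : E → ℂ) : conj (ip μ Φ u v) = ip μ Φ v u := by
  unfold ip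
  rw [← integral_conj]
  congr 1
  funext x
  simp only [map_mul, Complex.conj_conj, Complex.conj_ofReal]
  ring

theorem ip_add_left {Φ : E → ℝ} (hΦ : Continuous Φ) {u u' v : E → ℂ}
    (hu : Continuous u) (hu' : Continuous u') (hv : Tst v) :
    ip μ Φ (fun x => u x + u' x) v = ip μ Φ u v + ip μ Φ u' v := by
  unfold ip
  rw [← integral_add (ip_integrable hΦ hu hv) (ip_integrable hΦ hu' hv)]
  congr 1
  funext x
  ring

theorem ip_sub_left {Φ : E → ℝ} (hΦ : Continuous Φ) {u u' v : E → ℂ}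
    (hu : Continuous u) (hu' : Continuous u') (hv : Tst v) :
    ip μ Φ (fun x => u x - u' x) v = ip μ Φ u v - ip μ Φ u' v := by
  unfold ip
  rw [← integral_sub (ip_integrable hΦ hu hv) (ip_integrable hΦ hu' hv)]
  congr 1
  funext x
  ring

theorem ip_sum_left {Φ : E → ℝ} (hΦ : Continuous Φ) {κ : Type} (s : Finset κ)
    {f : κ → E → ℂ} {v : E → ℂ}
    (hf : ∀ i ∈ s, Continuous (f i)) (hv : Tst v) :
    ip μ Φ (fun x => ∑ i ∈ s, f i x) v = ∑ i ∈ s, ip μ Φ (f i) v := by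
  unfold ip
  rw [← integral_finsetSum _ (fun i hi => ip_integrable hΦ (hf i hi) hv)]
  congr 1
  funext x
  rw [Finset.sum_mul, Finset.sum_mul]

theorem ip_sum_right {Φ : E → ℝ} (hΦ : Continuous Φ) {κ : Type} (s : Finset κ)
    {f : κ → E → ℂ} {v : E → ℂ}
    (hf : ∀ i ∈ s, Tst (f i)) (hv : Continuous v) :
    ip μ Φ v (fun x => ∑ i ∈ s, f i x) = ∑ i ∈ s, ip μ Φ v (f i) := by
  unfold ip
  rw [← integral_finsetSum _ (fun i hi => ip_integrable hΦ hv (hf i hi))]
  congr 1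
  funext x
  rw [map_sum, Finset.mul_sum, Finset.sum_mul]

/-! ### adjointness -/

theorem pd_exp {Φ : E → ℝ} (hΦ : ContDiff ℝ ∞ Φ) (a : E) (x : E) :
    pd a (fun y => ((Real.exp (-Φ y) : ℝ) : ℂ)) x
      = - pd a (rc Φ) x * ((Real.exp (-Φ x) : ℝ) : ℂ) := by
  have hd : DifferentiableAt ℝ Φ x := (hΦ.differentiable (by simp)) x
  have h1 : HasFDerivAt (fun y => Real.exp (-Φ y)) (Real.exp (-Φ x) • (-(fderiv ℝ Φ x))) x :=
    (hd.hasFDerivAt.neg).exp
  have h2 : HasFDerivAt (fun y => ((Real.exp (-Φ y) : ℝ) : ℂ))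
      (Complex.ofRealCLM.comp (Real.exp (-Φ x) • (-(fderiv ℝ Φ x)))) x :=
    (Complex.ofRealCLM.hasFDerivAt (x := Real.exp (-Φ x))).comp x h1
  have h3 : HasFDerivAt (rc Φ) (Complex.ofRealCLM.comp (fderiv ℝ Φ x)) x :=
    (Complex.ofRealCLM.hasFDerivAt (x := Φ x)).comp x hd.hasFDerivAt
  unfold pd
  rw [h2.fderiv, h3.fderiv]
  simp [mul_comm]

theorem adj {Φ : E → ℝ} (hΦ : ContDiff ℝ ∞ Φ) {ξ : κ → E → ℂ}
    (hξ : ∀ a, ContDiff ℝ ∞ (ξ a)) {u v : E → ℂ} (hu : ContDiff ℝ ∞ u)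
    (hv : ContDiff ℝ ∞ v) (hc : HasCompactSupport u ∨ HasCompactSupport v) :
    ip μ Φ (Xd e ξ u) v = ip μ Φ u (Ls e Φ ξ v) := by
  have hρ : ContDiff ℝ ∞ (fun y => ((Real.exp (-Φ y) : ℝ) : ℂ)) :=
    (Complex.ofRealCLM.contDiff (n := ∞)).comp (Real.contDiff_exp.comp hΦ.neg)
  have hvc := conj_smooth hv
  have hF : ∀ a, ContDiff ℝ ∞ (fun x => ξ a x * conj (v x) * ((Real.exp (-Φ x) : ℝ) : ℂ)) :=
    fun a => ((hξ a).mul hvc).mul hρ
  have key : ∀ a, ∫ x, (ξ a x * conj (v x) * ((Real.exp (-Φ x) : ℝ) : ℂ)) * pd (e a) u x ∂μ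
      = - ∫ x, pd (e a) (fun x => ξ a x * conj (v x) * ((Real.exp (-Φ x) : ℝ) : ℂ)) x * u x ∂μ := by
    intro a
    have hpu := (pd_smooth hu (e a)).continuous
    have hpF := (pd_smooth (hF a) (e a)).continuous
    have hFc := (hF a).continuous
    have huc := hu.continuous
    refine integral_mul_fderiv_eq_neg_fderiv_mul_of_integrable
      (v := e a) ?_ ?_ ?_
      (fun x _ => smooth_diff (hF a) x) (fun x _ => smooth_diff hu x)
    · refine (hpF.mul huc).integrable_of_hasCompactSupport ?_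
      rcases hc with hc | hc
      · exact hc.mul_left
      · refine (HasCompactSupport.mul_right (pd_supp ?_ (e a)))
        refine hc.mono ?_
        intro x hx h0
        apply hx
        have : v x = 0 := h0
        simp [this]
    · refine (hFc.mul hpu).integrable_of_hasCompactSupport ?_
      rcases hc with hc | hc
      · exact (pd_supp hc (e a)).mul_left
      · refine HasCompactSupport.mul_right ?_
        refine hc.mono ?_
        intro x hx h0
        apply hx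
        have : v x = 0 := h0
        simp [this]
    · refine (hFc.mul huc).integrable_of_hasCompactSupport ?_
      rcases hc with hc | hc
      · exact hc.mul_left
      · refine HasCompactSupport.mul_right ?_
        refine hc.mono ?_
        intro x hx h0
        apply hx
        have : v x = 0 := h0
        simp [this]
  have hint1 : ∀ a, Integrable
      (fun x => (ξ a x * conj (v x) * ((Real.exp (-Φ x) : ℝ) : ℂ)) * pd (e a) u x) μ := by
    intro a
    have hpu := (pd_smooth hu (e a)).continuous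
    have hFc := (hF a).continuous
    refine (hFc.mul hpu).integrable_of_hasCompactSupport ?_
    rcases hc with hc | hc
    · exact (pd_supp hc (e a)).mul_left
    · refine HasCompactSupport.mul_right ?_
      refine hc.mono ?_
      intro x hx h0
      apply hx
      have : v x = 0 := h0
      simp [this]
  have hint2 : ∀ a, Integrable
      (fun x => pd (e a) (fun x => ξ a x * conj (v x) * ((Real.exp (-Φ x) : ℝ) : ℂ)) x * u x) μ := by
    intro a
    have hpF := (pd_smooth (hF a) (e a)).continuous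
    have huc := hu.continuous
    refine (hpF.mul huc).integrable_of_hasCompactSupport ?_
    rcases hc with hc | hc
    · exact hc.mul_left
    · refine (HasCompactSupport.mul_right (pd_supp ?_ (e a)))
      refine hc.mono ?_
      intro x hx h0
      apply hx
      have : v x = 0 := h0
      simp [this]
  have e1 : ip μ Φ (Xd e ξ u) v
      = ∑ a, ∫ x, (ξ a x * conj (v x) * ((Real.exp (-Φ x) : ℝ) : ℂ)) * pd (e a) u x ∂μ := by
    rw [← integral_finsetSum _ (fun a _ => hint1 a)]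
    unfold ip Xd
    congr 1
    funext x
    rw [Finset.sum_mul, Finset.sum_mul]
    exact Finset.sum_congr rfl fun a _ => by ring
  rw [e1, Finset.sum_congr rfl (fun a _ => key a), Finset.sum_neg_distrib,
    ← integral_finsetSum _ (fun a _ => hint2 a), ← integral_neg]
  unfold ip
  congr 1
  funext x
  have hpt : ∀ a, pd (e a) (fun x => ξ a x * conj (v x) * ((Real.exp (-Φ x) : ℝ) : ℂ)) x
      = (ξ a x * conj (pd (e a) v x) + pd (e a) (ξ a) x * conj (v x)
          - ξ a x * pd (e a) (rc Φ) x * conj (v x)) * ((Real.exp (-Φ x) : ℝ) : ℂ) := by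
    intro a
    rw [pd_mul (smooth_diff ((hξ a).mul hvc)) (smooth_diff hρ),
      pd_mul (smooth_diff (hξ a)) (smooth_diff hvc), pd_conj (smooth_diff hv), pd_exp hΦ]
    ring
  simp_rw [hpt]
  unfold Ls
  rw [map_add, map_sub, map_neg, map_mul, map_mul, dv_cj hξ, Xd_rc hΦ]
  simp only [Complex.conj_conj]
  have hX : conj (Xd e (cj ξ) v x) = ∑ a, ξ a x * conj (pd (e a) v x) := by
    unfold Xd cj
    rw [map_sum]
    exact Finset.sum_congr rfl fun a _ => by simp
  rw [hX]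
  unfold dv Xd
  rw [← Finset.sum_mul, ← Finset.sum_mul]
  rw [show (fun a => ξ a x * conj (pd (e a) v x) + pd (e a) (ξ a) x * conj (v x)
          - ξ a x * pd (e a) (rc Φ) x * conj (v x)) = fun a => (ξ a x * conj (pd (e a) v x)
          + pd (e a) (ξ a) x * conj (v x)) - ξ a x * pd (e a) (rc Φ) x * conj (v x) from rfl,
    Finset.sum_sub_distrib, Finset.sum_add_distrib, ← Finset.sum_mul, ← Finset.sum_mul]
  ring

theorem adj' {Φ : E → ℝ} (hΦ : ContDiff ℝ ∞ Φ) {ξ : κ → E → ℂ}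
    (hξ : ∀ a, ContDiff ℝ ∞ (ξ a)) {u v : E → ℂ} (hu : ContDiff ℝ ∞ u)
    (hv : ContDiff ℝ ∞ v) (hc : HasCompactSupport u ∨ HasCompactSupport v) :
    ip μ Φ (Ls e Φ ξ u) v = ip μ Φ u (Xd e ξ v) := by
  rw [← ip_conj, ← adj hΦ hξ hv hu hc.symm, ip_conj]

end

end Crest.Agent.R260.BKX_680
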