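import Crest.Agent.R260.BKX1_680

/-! # Bochner-Kodaira estimate for exact forms, part 2: the commutator identity, the integrated
identity for `∑ j, Lⱼ* hⱼ` and the pointwise inequality. -/

namespace Crest.Agent.R260.BKX_680

open MeasureTheory Complex Set
open scoped ContDiff ComplexConjugate BigOperators

set_option linter.unusedSectionVars false

noncomputable section

variable {E : Type} [NormedAddCommGroup E] [NormedSpace ℝ E]
variable {κ : Type} [Fintype κ] {e : κ → E}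
variable {ι : Type} [Fintype ι]

/-- the Levi form of `Φ` in the family `ξ`; `β k j l` are the coefficients of the `(1,0)` part of
`[ξ k, conj (ξ j)]` -/
def Hco (e : κ → E) (ξ : ι → κ → E → ℂ) (β : ι → ι → ι → E → ℂ) (Φ : E → ℝ) (k j : ι) :
    E → ℂ := fun x =>
  Xd e (ξ k) (Xd e (cj (ξ j)) (rc Φ)) x - ∑ l, β k j l x * Xd e (cj (ξ l)) (rc Φ) x

/-- the zero order error term -/
def eco (e : κ → E) (ξ : ι → κ → E → ℂ) (β : ι → ι → ι → E → ℂ) (k j : ι) : E → ℂ := fun x =>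
  ∑ l, (Xd e (cj (ξ l)) (β k j l) x + β k j l x * dv e (cj (ξ l)) x)
    - Xd e (ξ k) (dv e (cj (ξ j))) x

theorem Hco_smooth {ξ : ι → κ → E → ℂ} {β : ι → ι → ι → E → ℂ} {Φ : E → ℝ}
    (hξ : ∀ j a, ContDiff ℝ ∞ (ξ j a)) (hβ : ∀ k j l, ContDiff ℝ ∞ (β k j l))
    (hΦ : ContDiff ℝ ∞ Φ) (k j : ι) : ContDiff ℝ ∞ (Hco e ξ β Φ k j) := by
  unfold Hco
  refine (Xd_smooth (hξ k) (Xd_smooth (cj_smooth (hξ j)) (rc_smooth hΦ))).sub ?_
  exact ContDiff.sum fun l _ => (hβ k j l).mul (Xd_smooth (cj_smooth (hξ l)) (rc_smooth hΦ))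

theorem eco_smooth {ξ : ι → κ → E → ℂ} {β : ι → ι → ι → E → ℂ}
    (hξ : ∀ j a, ContDiff ℝ ∞ (ξ j a)) (hβ : ∀ k j l, ContDiff ℝ ∞ (β k j l)) (k j : ι) :
    ContDiff ℝ ∞ (eco e ξ β k j) := by
  unfold eco
  refine ContDiff.sub ?_ (Xd_smooth (hξ k) (dv_smooth (cj_smooth (hξ j))))
  exact ContDiff.sum fun l _ => (Xd_smooth (cj_smooth (hξ l)) (hβ k j l)).add
    ((hβ k j l).mul (dv_smooth (cj_smooth (hξ l))))

theorem comm_pt {ξ : ι → κ → E → ℂ} {α β : ι → ι → ι → E → ℂ} {Φ : E → ℝ}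
    (hξ : ∀ j a, ContDiff ℝ ∞ (ξ j a)) (hβ : ∀ k j l, ContDiff ℝ ∞ (β k j l))
    (hΦ : ContDiff ℝ ∞ Φ) {h : E → ℂ} (hh : ContDiff ℝ ∞ h) (k j : ι) (x : E)
    (hc : Xd e (ξ k) (Xd e (cj (ξ j)) h) x - Xd e (cj (ξ j)) (Xd e (ξ k) h) x
      = ∑ l, (α k j l x * Xd e (ξ l) h x + β k j l x * Xd e (cj (ξ l)) h x)) :
    Xd e (ξ k) (Ls e Φ (ξ j) h) x
      = Ls e Φ (ξ j) (Xd e (ξ k) h) x - ∑ l, α k j l x * Xd e (ξ l) h x
        + ∑ l, Ls e Φ (ξ l) (fun y => β k j l y * h y) x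
        + (Hco e ξ β Φ k j x + eco e ξ β k j x) * h x := by
  have h1 := smooth_diff (Xd_smooth (e := e) (cj_smooth (hξ j)) hh)
  have h2 := smooth_diff (dv_smooth (e := e) (cj_smooth (hξ j)))
  have h3 := smooth_diff (Xd_smooth (e := e) (cj_smooth (hξ j)) (rc_smooth hΦ))
  have hd := smooth_diff hh
  have e1 : Xd e (ξ k) (Ls e Φ (ξ j) h) x
      = -(Xd e (ξ k) (Xd e (cj (ξ j)) h) x)
        - (dv e (cj (ξ j)) x * Xd e (ξ k) h x + Xd e (ξ k) (dv e (cj (ξ j))) x * h x)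
        + (Xd e (cj (ξ j)) (rc Φ) x * Xd e (ξ k) h x
          + Xd e (ξ k) (Xd e (cj (ξ j)) (rc Φ)) x * h x) := by
    unfold Ls
    rw [Xd_add (u := fun x => -(Xd e (cj (ξ j)) h x) - dv e (cj (ξ j)) x * h x)
      (v := fun x => Xd e (cj (ξ j)) (rc Φ) x * h x) (h1.neg.sub (h2.mul hd)) (h3.mul hd),
      Xd_sub (u := fun x => -(Xd e (cj (ξ j)) h x)) (v := fun x => dv e (cj (ξ j)) x * h x)
        h1.neg (h2.mul hd), Xd_neg, Xd_mul h2 hd, Xd_mul h3 hd]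
  have e2 : ∀ l, Ls e Φ (ξ l) (fun y => β k j l y * h y) x
      = -(β k j l x * Xd e (cj (ξ l)) h x) - Xd e (cj (ξ l)) (β k j l) x * h x
        - β k j l x * dv e (cj (ξ l)) x * h x
        + β k j l x * Xd e (cj (ξ l)) (rc Φ) x * h x := by
    intro l
    unfold Ls
    rw [Xd_mul (smooth_diff (hβ k j l)) hd]
    ring
  have hc' : Xd e (ξ k) (Xd e (cj (ξ j)) h) x = Xd e (cj (ξ j)) (Xd e (ξ k) h) x
      + (∑ l, α k j l x * Xd e (ξ l) h x + ∑ l, β k j l x * Xd e (cj (ξ l)) h x) := by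
    rw [← Finset.sum_add_distrib, ← hc]; ring
  rw [e1, hc']
  simp_rw [e2]
  unfold Hco eco
  rw [show Ls e Φ (ξ j) (Xd e (ξ k) h) x = -(Xd e (cj (ξ j)) (Xd e (ξ k) h) x)
    - dv e (cj (ξ j)) x * Xd e (ξ k) h x + Xd e (cj (ξ j)) (rc Φ) x * Xd e (ξ k) h x from rfl]
  have e3 : ∑ l, (-(β k j l x * Xd e (cj (ξ l)) h x) - Xd e (cj (ξ l)) (β k j l) x * h x
        - β k j l x * dv e (cj (ξ l)) x * h x
        + β k j l x * Xd e (cj (ξ l)) (rc Φ) x * h x)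
      = - ∑ l, β k j l x * Xd e (cj (ξ l)) h x
        - (∑ l, (Xd e (cj (ξ l)) (β k j l) x + β k j l x * dv e (cj (ξ l)) x)) * h x
        + (∑ l, β k j l x * Xd e (cj (ξ l)) (rc Φ) x) * h x := by
    rw [Finset.sum_mul, Finset.sum_mul, ← Finset.sum_neg_distrib, ← Finset.sum_sub_distrib,
      ← Finset.sum_add_distrib]
    exact Finset.sum_congr rfl fun l _ => by ring
  rw [e3]
  ring

/-! ### the integrated identity -/

/-- the integrand of the identity -/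
def Gf (e : κ → E) (ξ : ι → κ → E → ℂ) (α β : ι → ι → ι → E → ℂ) (Φ : E → ℝ) (h : ι → E → ℂ) :
    E → ℂ := fun x =>
  ∑ k, ∑ j, (Xd e (ξ k) (h j) x * conj (Xd e (ξ j) (h k) x)
    - ∑ l, α k j l x * Xd e (ξ l) (h j) x * conj (h k x)
    + ∑ l, β k j l x * h j x * conj (Xd e (ξ l) (h k) x)
    + (Hco e ξ β Φ k j x + eco e ξ β k j x) * h j x * conj (h k x))

variable [FiniteDimensional ℝ E] [MeasurableSpace E] [BorelSpace E] {μ : Measure E}
  [μ.IsAddHaarMeasure]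

theorem hr4 (a b c d r : ℂ) : (a - b + c + d) * r = a * r - b * r + c * r + d * r := by ring

theorem est_id {ξ : ι → κ → E → ℂ} {α β : ι → ι → ι → E → ℂ} {Φ : E → ℝ}
    (hξ : ∀ j a, ContDiff ℝ ∞ (ξ j a)) (hα : ∀ k j l, ContDiff ℝ ∞ (α k j l))
    (hβ : ∀ k j l, ContDiff ℝ ∞ (β k j l))
    (hΦ : ContDiff ℝ ∞ Φ) {h : ι → E → ℂ} (hh : ∀ j, Tst (h j)) (O : Set E)
    (hO : ∀ j x, x ∉ O → h j x = 0)
    (hc : ∀ k j i, ∀ x ∈ O, Xd e (ξ k) (Xd e (cj (ξ j)) (h i)) x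
        - Xd e (cj (ξ j)) (Xd e (ξ k) (h i)) x
      = ∑ l, (α k j l x * Xd e (ξ l) (h i) x + β k j l x * Xd e (cj (ξ l)) (h i) x)) :
    ip μ Φ (fun x => ∑ j, Ls e Φ (ξ j) (h j) x) (fun x => ∑ j, Ls e Φ (ξ j) (h j) x)
      = ∫ x, Gf e ξ α β Φ h x * ((Real.exp (-Φ x) : ℝ) : ℂ) ∂μ := by
  have hΦc := hΦ.continuous
  have hLs : ∀ j, Tst (Ls e Φ (ξ j) (h j)) := fun j => (hh j).ls hΦ (hξ j)
  -- expand
  have s1 : ip μ Φ (fun x => ∑ j, Ls e Φ (ξ j) (h j) x) (fun x => ∑ j, Ls e Φ (ξ j) (h j) x)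
      = ∑ k, ∑ j, ip μ Φ (Ls e Φ (ξ j) (h j)) (Ls e Φ (ξ k) (h k)) := by
    rw [ip_sum_right hΦc Finset.univ (fun i _ => hLs i)
      (Tst.sum Finset.univ fun i _ => hLs i).smooth.continuous]
    exact Finset.sum_congr rfl fun k _ =>
      ip_sum_left hΦc Finset.univ (fun i _ => (hLs i).smooth.continuous) (hLs k)
  -- one term
  have s2 : ∀ k j, ip μ Φ (Ls e Φ (ξ j) (h j)) (Ls e Φ (ξ k) (h k))
      = ip μ Φ (Xd e (ξ k) (h j)) (Xd e (ξ j) (h k))
        - ∑ l, ip μ Φ (fun x => α k j l x * Xd e (ξ l) (h j) x) (h k)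
        + ∑ l, ip μ Φ (fun x => β k j l x * h j x) (Xd e (ξ l) (h k))
        + ip μ Φ (fun x => (Hco e ξ β Φ k j x + eco e ξ β k j x) * h j x) (h k) := by
    intro k j
    have t1 := hLs j
    have t2 : Tst (Ls e Φ (ξ j) (Xd e (ξ k) (h j))) := ((hh j).xd (hξ k)).ls hΦ (hξ j)
    have t3 : ∀ l, Tst (fun x => α k j l x * Xd e (ξ l) (h j) x) := fun l =>
      ((hh j).xd (hξ l)).mul_left (hα k j l)
    have t4 : ∀ l, Tst (fun x => β k j l x * h j x) := fun l => (hh j).mul_left (hβ k j l)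
    have t5 : ∀ l, Tst (Ls e Φ (ξ l) (fun x => β k j l x * h j x)) := fun l =>
      (t4 l).ls hΦ (hξ l)
    have t6 : Tst (fun x => (Hco e ξ β Φ k j x + eco e ξ β k j x) * h j x) :=
      (hh j).mul_left ((Hco_smooth hξ hβ hΦ k j).add (eco_smooth hξ hβ k j))
    have a1 : ip μ Φ (Ls e Φ (ξ j) (h j)) (Ls e Φ (ξ k) (h k))
        = ip μ Φ (Xd e (ξ k) (Ls e Φ (ξ j) (h j))) (h k) :=
      (adj hΦ (hξ k) t1.smooth (hh k).smooth (Or.inl t1.supp)).symm
    have a2 : ip μ Φ (Xd e (ξ k) (Ls e Φ (ξ j) (h j))) (h k)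
        = ip μ Φ (fun x => ((Ls e Φ (ξ j) (Xd e (ξ k) (h j)) x
            - ∑ l, α k j l x * Xd e (ξ l) (h j) x)
          + ∑ l, Ls e Φ (ξ l) (fun y => β k j l y * h j y) x)
          + (Hco e ξ β Φ k j x + eco e ξ β k j x) * h j x) (h k) := by
      unfold ip
      congr 1
      funext x
      by_cases hx : x ∈ O
      · rw [comm_pt hξ hβ hΦ (hh j).smooth k j x (hc k j j x hx)]
      · rw [hO k x hx]; simp
    rw [a1, a2, ip_add_left hΦc
      (((t2.sub (Tst.sum Finset.univ fun l _ => t3 l)).add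
        (Tst.sum Finset.univ fun l _ => t5 l)).smooth.continuous) t6.smooth.continuous (hh k),
      ip_add_left hΦc ((t2.sub (Tst.sum Finset.univ fun l _ => t3 l)).smooth.continuous)
        (Tst.sum Finset.univ fun l _ => t5 l).smooth.continuous (hh k),
      ip_sub_left hΦc t2.smooth.continuous
        (Tst.sum Finset.univ fun l _ => t3 l).smooth.continuous (hh k),
      ip_sum_left hΦc Finset.univ (fun l _ => (t3 l).smooth.continuous) (hh k),
      ip_sum_left hΦc Finset.univ (fun l _ => (t5 l).smooth.continuous) (hh k)]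
    rw [adj' hΦ (hξ j) ((hh j).xd (hξ k)).smooth (hh k).smooth (Or.inr (hh k).supp)]
    rw [Finset.sum_congr rfl fun l _ => adj' hΦ (hξ l) (t4 l).smooth (hh k).smooth
      (Or.inr (hh k).supp)]
  rw [s1]
  simp_rw [s2]
  -- collect
  have i1 : ∀ k j, Integrable (fun x => Xd e (ξ k) (h j) x * conj (Xd e (ξ j) (h k) x)
      * ((Real.exp (-Φ x) : ℝ) : ℂ)) μ := fun k j =>
    ip_integrable hΦc ((hh j).xd (hξ k)).smooth.continuous ((hh k).xd (hξ j))
  have i2 : ∀ k j l, Integrable (fun x => α k j l x * Xd e (ξ l) (h j) x * conj (h k x)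
      * ((Real.exp (-Φ x) : ℝ) : ℂ)) μ := fun k j l =>
    ip_integrable hΦc ((hα k j l).continuous.mul ((hh j).xd (hξ l)).smooth.continuous) (hh k)
  have i3 : ∀ k j l, Integrable (fun x => β k j l x * h j x * conj (Xd e (ξ l) (h k) x)
      * ((Real.exp (-Φ x) : ℝ) : ℂ)) μ := fun k j l =>
    ip_integrable hΦc ((hβ k j l).continuous.mul (hh j).smooth.continuous) ((hh k).xd (hξ l))
  have i4 : ∀ k j, Integrable (fun x => (Hco e ξ β Φ k j x + eco e ξ β k j x) * h j x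
      * conj (h k x) * ((Real.exp (-Φ x) : ℝ) : ℂ)) μ := fun k j =>
    ip_integrable hΦc (((Hco_smooth hξ hβ hΦ k j).add (eco_smooth hξ hβ k j)).continuous.mul
      (hh j).smooth.continuous) (hh k)
  have key : ∀ (f1 f2 f3 f4 : E → ℂ), Integrable f1 μ → Integrable f2 μ → Integrable f3 μ →
      Integrable f4 μ → ∫ x, f1 x ∂μ - ∫ x, f2 x ∂μ + ∫ x, f3 x ∂μ + ∫ x, f4 x ∂μ
        = ∫ x, (f1 x - f2 x + f3 x + f4 x) ∂μ := by
    intro f1 f2 f3 f4 h1 h2 h3 h4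
    rw [integral_add (f := fun x => f1 x - f2 x + f3 x) (g := f4) ((h1.sub h2).add h3) h4,
      integral_add (f := fun x => f1 x - f2 x) (g := f3) (h1.sub h2) h3, integral_sub h1 h2]
  have c1 : ∀ k j, ip μ Φ (Xd e (ξ k) (h j)) (Xd e (ξ j) (h k))
        - ∑ l, ip μ Φ (fun x => α k j l x * Xd e (ξ l) (h j) x) (h k)
        + ∑ l, ip μ Φ (fun x => β k j l x * h j x) (Xd e (ξ l) (h k))
        + ip μ Φ (fun x => (Hco e ξ β Φ k j x + eco e ξ β k j x) * h j x) (h k)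
      = ∫ x, ((Xd e (ξ k) (h j) x * conj (Xd e (ξ j) (h k) x)
    - ∑ l, α k j l x * Xd e (ξ l) (h j) x * conj (h k x)
    + ∑ l, β k j l x * h j x * conj (Xd e (ξ l) (h k) x)
    + (Hco e ξ β Φ k j x + eco e ξ β k j x) * h j x * conj (h k x))
      * ((Real.exp (-Φ x) : ℝ) : ℂ)) ∂μ := by
    intro k j
    unfold ip
    rw [← integral_finsetSum _ (fun l _ => i2 k j l), ← integral_finsetSum _ (fun l _ => i3 k j l)]
    rw [key _ _ _ _ (i1 k j) (integrable_finsetSum _ fun l _ => i2 k j l)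
      (integrable_finsetSum _ fun l _ => i3 k j l) (i4 k j)]
    congr 1
    funext x
    rw [hr4, Finset.sum_mul, Finset.sum_mul]
  simp_rw [c1]
  have i5 : ∀ k j, Integrable (fun x => ((Xd e (ξ k) (h j) x * conj (Xd e (ξ j) (h k) x)
    - ∑ l, α k j l x * Xd e (ξ l) (h j) x * conj (h k x)
    + ∑ l, β k j l x * h j x * conj (Xd e (ξ l) (h k) x)
    + (Hco e ξ β Φ k j x + eco e ξ β k j x) * h j x * conj (h k x))
      * ((Real.exp (-Φ x) : ℝ) : ℂ))) μ := by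
    intro k j
    refine ((((i1 k j).sub (integrable_finsetSum Finset.univ fun l _ => i2 k j l)).add
        (integrable_finsetSum Finset.univ fun l _ => i3 k j l)).add (i4 k j)).congr ?_
    refine Filter.Eventually.of_forall fun x => ?_
    simp only [Pi.sub_apply, Pi.add_apply]
    rw [hr4, Finset.sum_mul, Finset.sum_mul]
  rw [Finset.sum_congr rfl fun k _ => (integral_finsetSum _ (fun j _ => i5 k j)).symm,
    ← integral_finsetSum _ (fun k _ => integrable_finsetSum _ fun j _ => i5 k j)]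
  congr 1
  funext x
  unfold Gf
  rw [Finset.sum_mul]
  exact Finset.sum_congr rfl fun k _ => by rw [Finset.sum_mul]

end

end Crest.Agent.R260.BKX_680
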