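import Crest.Agent.R260.BKX2_680

/-! # Bochner-Kodaira estimate for exact forms, part 3: the pointwise inequality and the estimate
with general smooth data. -/

namespace Crest.Agent.R260.BKX_680

open MeasureTheory Complex Set
open scoped ContDiff ComplexConjugate BigOperators

set_option linter.unusedSectionVars false

noncomputable section

section pointwise

variable {ι : Type} [Fintype ι]

/-- the pointwise inequality -/
theorem pw_ineq (a : ι → ι → ℂ) (h : ι → ℂ) (α β : ι → ι → ι → ℂ) (H z : ι → ι → ℂ)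
    {W E0 T : ℝ} (hα : ∀ k j l, ‖α k j l‖ ≤ W) (hβ : ∀ k j l, ‖β k j l‖ ≤ W)
    (hz : ∀ k j, ‖z k j‖ ≤ E0) (hT : ∀ k j, ‖a k j - a j k‖ ≤ T * ∑ i, ‖h i‖) :
    (1 / 2) * ∑ k, ∑ j, ‖a k j‖ ^ 2 + (∑ k, ∑ j, H k j * h j * conj (h k)).re
      - ((Fintype.card ι : ℝ) ^ 2 * T ^ 2 + 4 * (Fintype.card ι : ℝ) ^ 2 * W ^ 2 + E0)
          * (∑ i, ‖h i‖) ^ 2
    ≤ (∑ k, ∑ j, (a k j * conj (a j k) - ∑ l, α k j l * a l j * conj (h k)
        + ∑ l, β k j l * h j * conj (a l k) + (H k j + z k j) * h j * conj (h k))).re := by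
  set p : ℝ := ∑ i, ‖h i‖ with hp
  have hp0 : 0 ≤ p := Finset.sum_nonneg fun i _ => norm_nonneg _
  set N : ℝ := (Fintype.card ι : ℝ) with hN
  -- the real part as a sum
  have hre : (∑ k, ∑ j, (a k j * conj (a j k) - ∑ l, α k j l * a l j * conj (h k)
        + ∑ l, β k j l * h j * conj (a l k) + (H k j + z k j) * h j * conj (h k))).re
      = ∑ k, ∑ j, (a k j * conj (a j k)).re - ∑ k, ∑ j, ∑ l, (α k j l * a l j * conj (h k)).re
        + ∑ k, ∑ j, ∑ l, (β k j l * h j * conj (a l k)).re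
        + (∑ k, ∑ j, H k j * h j * conj (h k)).re + ∑ k, ∑ j, (z k j * h j * conj (h k)).re := by
    rw [Complex.re_sum, Complex.re_sum, ← Finset.sum_sub_distrib, ← Finset.sum_add_distrib,
      ← Finset.sum_add_distrib, ← Finset.sum_add_distrib]
    refine Finset.sum_congr rfl fun k _ => ?_
    rw [Complex.re_sum, Complex.re_sum, ← Finset.sum_sub_distrib, ← Finset.sum_add_distrib,
      ← Finset.sum_add_distrib, ← Finset.sum_add_distrib]
    refine Finset.sum_congr rfl fun j _ => ?_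
    rw [Complex.add_re, Complex.add_re, Complex.sub_re, Complex.re_sum, Complex.re_sum, add_mul,
      add_mul, Complex.add_re]
    ring
  have t1 : ∀ k j, (3 / 4) * ‖a k j‖ ^ 2 - T ^ 2 * p ^ 2 ≤ (a k j * conj (a j k)).re := by
    intro k j
    have e1 : a k j * conj (a j k)
        = ((‖a k j‖ ^ 2 : ℝ) : ℂ) - a k j * conj (a k j - a j k) := by
      rw [map_sub, mul_sub, Complex.mul_conj, Complex.normSq_eq_norm_sq]
      push_cast; ring
    rw [e1, Complex.sub_re, Complex.ofReal_re]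
    have e2 : (a k j * conj (a k j - a j k)).re ≤ ‖a k j‖ * (T * p) := by
      refine (Complex.re_le_norm _).trans ?_
      rw [norm_mul, RCLike.norm_conj]
      exact mul_le_mul_of_nonneg_left (hT k j) (norm_nonneg _)
    nlinarith [sq_nonneg (‖a k j‖ / 2 - T * p)]
  have t2 : ∀ k j l, (α k j l * a l j * conj (h k)).re ≤ W * ‖a l j‖ * ‖h k‖ := by
    intro k j l
    refine (Complex.re_le_norm _).trans ?_
    rw [norm_mul, norm_mul, RCLike.norm_conj]
    exact mul_le_mul_of_nonneg_right (mul_le_mul_of_nonneg_right (hα k j l) (norm_nonneg _))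
      (norm_nonneg _)
  have t3 : ∀ k j l, -(W * ‖a l k‖ * ‖h j‖) ≤ (β k j l * h j * conj (a l k)).re := by
    intro k j l
    have h1 : -(β k j l * h j * conj (a l k)).re ≤ ‖β k j l * h j * conj (a l k)‖ := by
      rw [← Complex.neg_re, ← norm_neg]
      exact Complex.re_le_norm _
    rw [norm_mul, norm_mul, RCLike.norm_conj] at h1
    have h2 : ‖β k j l‖ * ‖h j‖ * ‖a l k‖ ≤ W * ‖h j‖ * ‖a l k‖ :=
      mul_le_mul_of_nonneg_right (mul_le_mul_of_nonneg_right (hβ k j l) (norm_nonneg _))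
        (norm_nonneg _)
    nlinarith
  have t4 : ∀ k j, -(E0 * ‖h j‖ * ‖h k‖) ≤ (z k j * h j * conj (h k)).re := by
    intro k j
    have h1 : -(z k j * h j * conj (h k)).re ≤ ‖z k j * h j * conj (h k)‖ := by
      rw [← Complex.neg_re, ← norm_neg]
      exact Complex.re_le_norm _
    rw [norm_mul, norm_mul, RCLike.norm_conj] at h1
    have h2 : ‖z k j‖ * ‖h j‖ * ‖h k‖ ≤ E0 * ‖h j‖ * ‖h k‖ :=
      mul_le_mul_of_nonneg_right (mul_le_mul_of_nonneg_right (hz k j) (norm_nonneg _))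
        (norm_nonneg _)
    linarith
  -- sums
  have hcard : ∀ c : ℝ, ∑ _k : ι, ∑ _j : ι, c = N ^ 2 * c := by
    intro c
    simp [hN]; ring
  have s1 : (3 / 4) * ∑ k, ∑ j, ‖a k j‖ ^ 2 - N ^ 2 * (T ^ 2 * p ^ 2)
      ≤ ∑ k, ∑ j, (a k j * conj (a j k)).re := by
    rw [← hcard, Finset.mul_sum, ← Finset.sum_sub_distrib]
    refine Finset.sum_le_sum fun k _ => ?_
    rw [Finset.mul_sum, ← Finset.sum_sub_distrib]
    exact Finset.sum_le_sum fun j _ => t1 k j
  have am : ∀ l j, W * ‖a l j‖ * p ≤ (1 / 8) * ‖a l j‖ ^ 2 + 2 * W ^ 2 * p ^ 2 := by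
    intro l j
    nlinarith [sq_nonneg (‖a l j‖ / 4 - W * p), sq_nonneg (‖a l j‖ - 4 * W * p)]
  have s2 : ∑ k, ∑ j, ∑ l, (α k j l * a l j * conj (h k)).re
      ≤ (1 / 8) * ∑ k, ∑ j, ‖a k j‖ ^ 2 + N ^ 2 * (2 * W ^ 2 * p ^ 2) := by
    calc ∑ k, ∑ j, ∑ l, (α k j l * a l j * conj (h k)).re
        ≤ ∑ k, ∑ j, ∑ l, W * ‖a l j‖ * ‖h k‖ :=
          Finset.sum_le_sum fun k _ => Finset.sum_le_sum fun j _ => Finset.sum_le_sum
            fun l _ => t2 k j l
      _ = ∑ j, ∑ l, W * ‖a l j‖ * p := by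
          rw [Finset.sum_comm]
          refine Finset.sum_congr rfl fun j _ => ?_
          rw [Finset.sum_comm]
          refine Finset.sum_congr rfl fun l _ => ?_
          rw [hp, Finset.mul_sum]
      _ ≤ ∑ j, ∑ l, ((1 / 8) * ‖a l j‖ ^ 2 + 2 * W ^ 2 * p ^ 2) :=
          Finset.sum_le_sum fun j _ => Finset.sum_le_sum fun l _ => am l j
      _ = (1 / 8) * ∑ k, ∑ j, ‖a k j‖ ^ 2 + N ^ 2 * (2 * W ^ 2 * p ^ 2) := by
          rw [← hcard, Finset.mul_sum]
          simp_rw [Finset.sum_add_distrib]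
          rw [Finset.sum_comm]
          simp_rw [Finset.mul_sum]
  have s3 : -((1 / 8) * ∑ k, ∑ j, ‖a k j‖ ^ 2 + N ^ 2 * (2 * W ^ 2 * p ^ 2))
      ≤ ∑ k, ∑ j, ∑ l, (β k j l * h j * conj (a l k)).re := by
    have h1 : ∑ k, ∑ j, ∑ l, -(W * ‖a l k‖ * ‖h j‖)
        ≤ ∑ k, ∑ j, ∑ l, (β k j l * h j * conj (a l k)).re :=
      Finset.sum_le_sum fun k _ => Finset.sum_le_sum fun j _ => Finset.sum_le_sum
            fun l _ => t3 k j l
    refine le_trans ?_ h1
    have h2 : ∑ k, ∑ j, ∑ l, -(W * ‖a l k‖ * ‖h j‖) = -∑ k, ∑ l, W * ‖a l k‖ * p := by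
      rw [← Finset.sum_neg_distrib]
      refine Finset.sum_congr rfl fun k _ => ?_
      rw [Finset.sum_comm, ← Finset.sum_neg_distrib]
      refine Finset.sum_congr rfl fun l _ => ?_
      rw [hp, Finset.mul_sum, ← Finset.sum_neg_distrib]
    rw [h2, neg_le_neg_iff]
    calc ∑ k, ∑ l, W * ‖a l k‖ * p
        ≤ ∑ k, ∑ l, ((1 / 8) * ‖a l k‖ ^ 2 + 2 * W ^ 2 * p ^ 2) :=
          Finset.sum_le_sum fun j _ => Finset.sum_le_sum fun l _ => am l j
      _ = (1 / 8) * ∑ k, ∑ j, ‖a k j‖ ^ 2 + N ^ 2 * (2 * W ^ 2 * p ^ 2) := by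
          rw [← hcard, Finset.mul_sum]
          simp_rw [Finset.sum_add_distrib]
          rw [Finset.sum_comm]
          simp_rw [Finset.mul_sum]
  have s4 : -(E0 * p ^ 2) ≤ ∑ k, ∑ j, (z k j * h j * conj (h k)).re := by
    have h1 : ∑ k, ∑ j, -(E0 * ‖h j‖ * ‖h k‖)
        ≤ ∑ k, ∑ j, (z k j * h j * conj (h k)).re :=
      Finset.sum_le_sum fun k _ => Finset.sum_le_sum fun j _ => t4 k j
    refine le_trans (le_of_eq ?_) h1
    have h2 : p ^ 2 = ∑ k, ∑ j, ‖h j‖ * ‖h k‖ := by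
      rw [sq]
      nth_rewrite 2 [hp]
      rw [Finset.mul_sum]
      refine Finset.sum_congr rfl fun k _ => ?_
      rw [hp, Finset.sum_mul]
    rw [h2, Finset.mul_sum, ← Finset.sum_neg_distrib]
    refine Finset.sum_congr rfl fun k _ => ?_
    rw [Finset.mul_sum, ← Finset.sum_neg_distrib]
    exact Finset.sum_congr rfl fun j _ => by ring
  rw [hre]
  nlinarith [s1, s2, s3, s4]

/-- `(∑ ‖h‖)² ≤ card · ∑ ‖h‖²` -/
theorem sq_sum_le (h : ι → ℂ) :
    (∑ i, ‖h i‖) ^ 2 ≤ (Fintype.card ι : ℝ) * ∑ i, ‖h i‖ ^ 2 := by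
  have := sq_sum_le_card_mul_sum_sq (s := (Finset.univ : Finset ι)) (f := fun i => ‖h i‖)
  simpa using this

end pointwise

variable {E : Type} [NormedAddCommGroup E] [NormedSpace ℝ E]
variable {κ : Type} [Fintype κ] {e : κ → E}
variable {ι : Type} [Fintype ι]

/-- the constant of the estimate -/
def C1 (N V D W E0 : ℝ) : ℝ := N * (N ^ 2 * (V + 4 * D) ^ 2 + 4 * N ^ 2 * W ^ 2 + E0)

theorem Xd_zero_of_notMem {ξ : κ → E → ℂ} {u : E → ℂ} {x : E} (hx : x ∉ tsupport u) :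
    Xd e ξ u x = 0 := by
  have h : fderiv ℝ u x = 0 := by
    have := notMem_tsupport_iff_eventuallyEq.mp hx
    rw [this.fderiv_eq]
    simp
  simp [Xd, pd, h]

theorem zero_of_notMem {u : E → ℂ} {x : E} (hx : x ∉ tsupport u) : u x = 0 :=
  image_eq_zero_of_notMem_tsupport hx

theorem tsupport_Xd {ξ : κ → E → ℂ} {u : E → ℂ} : tsupport (Xd e ξ u) ⊆ tsupport u := by
  refine closure_minimal ?_ (isClosed_tsupport u)
  intro x hx
  by_contra h
  exact hx (Xd_zero_of_notMem h)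

theorem tsupport_mul_right' {u w : E → ℂ} : tsupport (fun x => w x * u x) ⊆ tsupport u := by
  refine closure_minimal ?_ (isClosed_tsupport u)
  intro x hx
  by_contra h
  apply hx
  simp [zero_of_notMem h]

variable [FiniteDimensional ℝ E] [MeasurableSpace E] [BorelSpace E] {μ : Measure E}
  [μ.IsAddHaarMeasure]

theorem est_main {ξ : ι → κ → E → ℂ} {α β γ : ι → ι → ι → E → ℂ} {Φ δ : E → ℝ}
    (hξ : ∀ j a, ContDiff ℝ ∞ (ξ j a)) (hα : ∀ k j l, ContDiff ℝ ∞ (α k j l))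
    (hβ : ∀ k j l, ContDiff ℝ ∞ (β k j l))
    (hΦ : ContDiff ℝ ∞ Φ) (hδ : ContDiff ℝ ∞ δ) {φ : E → ℂ} (hφ : Tst φ) {O : Set E}
    (hφO : tsupport φ ⊆ O) (hδ0 : ∀ x ∈ O, 0 < δ x) (hδ1 : ∀ x ∈ O, δ x ≤ 1)
    (hcomm : ∀ k j, ∀ u : E → ℂ, ContDiff ℝ ∞ u → ∀ x ∈ O,
      Xd e (ξ k) (Xd e (cj (ξ j)) u) x - Xd e (cj (ξ j)) (Xd e (ξ k) u) x
      = ∑ l, (α k j l x * Xd e (ξ l) u x + β k j l x * Xd e (cj (ξ l)) u x))
    (hint : ∀ k j, ∀ u : E → ℂ, ContDiff ℝ ∞ u → ∀ x ∈ O,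
      Xd e (ξ k) (Xd e (ξ j) u) x - Xd e (ξ j) (Xd e (ξ k) u) x
      = ∑ l, γ k j l x * Xd e (ξ l) u x)
    {W V E0 D : ℝ} (hV0 : 0 ≤ V) (hD0 : 0 ≤ D) (hE0 : 0 ≤ E0)
    (hαW : ∀ k j l, ∀ x ∈ O, ‖α k j l x‖ ≤ W) (hβW : ∀ k j l, ∀ x ∈ O, ‖β k j l x‖ ≤ W)
    (hγV : ∀ k j l, ∀ x ∈ O, ‖γ k j l x‖ ≤ V) (heE : ∀ k j, ∀ x ∈ O, ‖eco e ξ β k j x‖ ≤ E0)
    (hδD : ∀ k, ∀ x ∈ O, ‖Xd e (ξ k) (rc δ) x‖ ≤ D)
    (hpos : ∀ x ∈ O, (C1 (Fintype.card ι) V D W E0 + 1) * ((δ x)⁻¹) ^ 2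
        * ∑ j, ‖(rc δ x) ^ 2 * Xd e (ξ j) φ x‖ ^ 2
      ≤ (∑ k, ∑ j, Hco e ξ β Φ k j x * ((rc δ x) ^ 2 * Xd e (ξ j) φ x)
          * conj ((rc δ x) ^ 2 * Xd e (ξ k) φ x)).re) :
    ∫ x, (∑ j, ‖Xd e (ξ j) φ x‖ ^ 2) * ((δ x) ^ 2 * Real.exp (-Φ x)) ∂μ
      ≤ ∫ x, ‖∑ j, Ls e Φ (ξ j) (fun y => (rc δ y) ^ 2 * Xd e (ξ j) φ y) x‖ ^ 2
          * Real.exp (-Φ x) ∂μ := by
  classical
  set h : ι → E → ℂ := fun j y => (rc δ y) ^ 2 * Xd e (ξ j) φ y with hh
  have hΦc := hΦ.continuous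
  have hδ2 : ContDiff ℝ ∞ (fun y => (rc δ y) ^ 2) := (rc_smooth hδ).pow 2
  have hT : ∀ j, Tst (h j) := fun j => (hφ.xd (hξ j)).mul_left hδ2
  have hTs : ∀ j, tsupport (h j) ⊆ O := fun j =>
    (tsupport_mul_right'.trans tsupport_Xd).trans hφO
  have hO : ∀ j x, x ∉ O → h j x = 0 := fun j x hx =>
    zero_of_notMem fun hx2 => hx (hTs j hx2)
  have key := est_id (μ := μ) hξ hα hβ hΦ hT O hO
    (fun k j i x hx => hcomm k j (h i) (hT i).smooth x hx)
  -- the left side is real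
  have hPT : Tst (fun x => ∑ j, Ls e Φ (ξ j) (h j) x) :=
    Tst.sum Finset.univ fun j _ => (hT j).ls hΦ (hξ j)
  have hl : (ip μ Φ (fun x => ∑ j, Ls e Φ (ξ j) (h j) x) (fun x => ∑ j, Ls e Φ (ξ j) (h j) x)).re
      = ∫ x, ‖∑ j, Ls e Φ (ξ j) (h j) x‖ ^ 2 * Real.exp (-Φ x) ∂μ := by
    have h1 : ip μ Φ (fun x => ∑ j, Ls e Φ (ξ j) (h j) x) (fun x => ∑ j, Ls e Φ (ξ j) (h j) x)
        = ∫ x, ((‖∑ j, Ls e Φ (ξ j) (h j) x‖ ^ 2 * Real.exp (-Φ x) : ℝ) : ℂ) ∂μ := by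
      unfold ip
      congr 1
      funext x
      rw [Complex.mul_conj, Complex.normSq_eq_norm_sq]
      push_cast; ring
    rw [h1, integral_complex_ofReal, Complex.ofReal_re]
  rw [← hl, key]
  -- continuity and integrability of the right side
  have hcX : ∀ j k, Continuous (Xd e (ξ k) (h j)) := fun j k => ((hT j).xd (hξ k)).smooth.continuous
  have hch : ∀ j, Continuous (h j) := fun j => (hT j).smooth.continuous
  have hGc : Continuous (Gf e ξ α β Φ h) := by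
    unfold Gf
    refine continuous_finsetSum _ fun k _ => continuous_finsetSum _ fun j _ => ?_
    refine ((((hcX j k).mul (Complex.continuous_conj.comp (hcX k j))).sub ?_).add ?_).add ?_
    · exact continuous_finsetSum _ fun l _ => ((hα k j l).continuous.mul (hcX j l)).mul
        (Complex.continuous_conj.comp (hch k))
    · exact continuous_finsetSum _ fun l _ => ((hβ k j l).continuous.mul (hch j)).mul
        (Complex.continuous_conj.comp (hcX k l))
    · exact ((((Hco_smooth hξ hβ hΦ k j).add (eco_smooth hξ hβ k j)).continuous.mul (hch j))).mul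
        (Complex.continuous_conj.comp (hch k))
  have hG0 : ∀ x, x ∉ tsupport φ → Gf e ξ α β Φ h x = 0 := by
    intro x hx
    have hx1 : ∀ j, x ∉ tsupport (h j) := fun j hx2 =>
      hx ((tsupport_mul_right'.trans tsupport_Xd) hx2)
    unfold Gf
    refine Finset.sum_eq_zero fun k _ => Finset.sum_eq_zero fun j _ => ?_
    rw [zero_of_notMem (hx1 j), zero_of_notMem (hx1 k), Xd_zero_of_notMem (hx1 j)]
    simp [Xd_zero_of_notMem (hx1 j)]
  have hGs : HasCompactSupport (Gf e ξ α β Φ h) := by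
    refine hφ.supp.of_isClosed_subset (isClosed_tsupport _) ?_
    refine closure_minimal ?_ (isClosed_tsupport φ)
    intro x hx
    by_contra hx2
    exact hx (hG0 x hx2)
  have hE : Continuous fun x => ((Real.exp (-Φ x) : ℝ) : ℂ) := by fun_prop
  have hGi : Integrable (fun x => Gf e ξ α β Φ h x * ((Real.exp (-Φ x) : ℝ) : ℂ)) μ :=
    (hGc.mul hE).integrable_of_hasCompactSupport hGs.mul_right
  have hr : (∫ x, Gf e ξ α β Φ h x * ((Real.exp (-Φ x) : ℝ) : ℂ) ∂μ).re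
      = ∫ x, (Gf e ξ α β Φ h x).re * Real.exp (-Φ x) ∂μ := by
    have h2 := Complex.reCLM.integral_comp_comm hGi
    have h3 : (∫ x, Gf e ξ α β Φ h x * ((Real.exp (-Φ x) : ℝ) : ℂ) ∂μ).re
        = ∫ x, (Gf e ξ α β Φ h x * ((Real.exp (-Φ x) : ℝ) : ℂ)).re ∂μ := h2.symm
    rw [h3]
    congr 1
    funext x
    rw [Complex.re_mul_ofReal]
  rw [hr]
  have hXc : ∀ j, Continuous (Xd e (ξ j) φ) := fun j => (hφ.xd (hξ j)).smooth.continuous
  refine integral_mono ?_ ?_ ?_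
  · have hc : Continuous fun x => (∑ j, ‖Xd e (ξ j) φ x‖ ^ 2) * ((δ x) ^ 2 * Real.exp (-Φ x)) := by
      have := hδ.continuous
      refine (continuous_finsetSum _ fun j _ => ((hXc j).norm.pow 2)).mul ?_
      fun_prop
    refine hc.integrable_of_hasCompactSupport ?_
    refine hφ.supp.of_isClosed_subset (isClosed_tsupport _) ?_
    refine closure_minimal ?_ (isClosed_tsupport φ)
    intro x hx
    by_contra hx2
    apply hx
    simp [Xd_zero_of_notMem hx2]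
  · have hc : Continuous fun x => (Gf e ξ α β Φ h x).re * Real.exp (-Φ x) := by
      have := Complex.continuous_re.comp hGc
      exact this.mul (by fun_prop)
    refine hc.integrable_of_hasCompactSupport ?_
    refine hφ.supp.of_isClosed_subset (isClosed_tsupport _) ?_
    refine closure_minimal ?_ (isClosed_tsupport φ)
    intro x hx
    by_contra hx2
    apply hx
    simp [hG0 x hx2]
  · intro x
    by_cases hxO : x ∈ O
    swap
    · have hx2 : x ∉ tsupport φ := fun h' => hxO (hφO h')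
      simp [hG0 x hx2, Xd_zero_of_notMem hx2]
    simp only
    rw [← mul_assoc]
    refine mul_le_mul_of_nonneg_right ?_ (Real.exp_pos _).le
    have hd := hδ0 x hxO
    have hd1 := hδ1 x hxO
    set N : ℝ := (Fintype.card ι : ℝ) with hN
    have hN0 : 0 ≤ N := Nat.cast_nonneg _
    set b : ℝ := (δ x)⁻¹ with hb
    have hb1 : 1 ≤ b := (one_le_inv₀ hd).mpr hd1
    set p : ℝ := ∑ i, ‖h i x‖ with hp
    have hp0 : 0 ≤ p := Finset.sum_nonneg fun i _ => norm_nonneg _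
    have hhp : ∀ i, ‖h i x‖ ≤ p := fun i =>
      Finset.single_le_sum (f := fun i => ‖h i x‖) (fun i _ => norm_nonneg _) (Finset.mem_univ i)
    -- the torsion term
    have hdc : (rc δ x) ≠ 0 := by
      simp only [rc]; exact_mod_cast hd.ne'
    have htor : ∀ k j, ‖Xd e (ξ k) (h j) x - Xd e (ξ j) (h k) x‖ ≤ ((V + 4 * D) * b) * p := by
      intro k j
      have e1 : ∀ k j, Xd e (ξ k) (h j) x = (rc δ x) ^ 2 * Xd e (ξ k) (Xd e (ξ j) φ) x
          + 2 * Xd e (ξ k) (rc δ) x * (rc δ x * Xd e (ξ j) φ x) := by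
        intro k j
        have h1 : h j = fun y => (rc δ y * rc δ y) * Xd e (ξ j) φ y := by
          funext y; simp only [hh]; ring
        rw [h1, Xd_mul (u := fun y => rc δ y * rc δ y)
          (smooth_diff ((rc_smooth hδ).mul (rc_smooth hδ)))
          (smooth_diff (Xd_smooth (hξ j) hφ.smooth)),
          Xd_mul (smooth_diff (rc_smooth hδ)) (smooth_diff (rc_smooth hδ))]
        ring
      have e2 : ∀ j, rc δ x * Xd e (ξ j) φ x = (b : ℂ) * h j x := by
        intro j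
        simp only [hh, hb]
        push_cast
        rw [show ((δ x : ℝ) : ℂ) = rc δ x from rfl]
        field_simp
      have e3 : Xd e (ξ k) (h j) x - Xd e (ξ j) (h k) x
          = ∑ l, γ k j l x * h l x + 2 * Xd e (ξ k) (rc δ) x * ((b : ℂ) * h j x)
            - 2 * Xd e (ξ j) (rc δ) x * ((b : ℂ) * h k x) := by
        rw [e1 k j, e1 j k, e2 j, e2 k]
        have h2 : ∑ l, γ k j l x * h l x
            = (rc δ x) ^ 2 * (Xd e (ξ k) (Xd e (ξ j) φ) x - Xd e (ξ j) (Xd e (ξ k) φ) x) := by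
          rw [hint k j φ hφ.smooth x hxO, Finset.mul_sum]
          exact Finset.sum_congr rfl fun l _ => by simp only [hh]; ring
        rw [h2]; ring
      rw [e3]
      have n1 : ‖∑ l, γ k j l x * h l x‖ ≤ V * p := by
        refine (norm_sum_le _ _).trans ?_
        rw [hp, Finset.mul_sum]
        refine Finset.sum_le_sum fun l _ => ?_
        rw [norm_mul]
        exact mul_le_mul_of_nonneg_right (hγV k j l x hxO) (norm_nonneg _)
      have n2 : ∀ k j, ‖2 * Xd e (ξ k) (rc δ) x * ((b : ℂ) * h j x)‖ ≤ 2 * D * b * p := by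
        intro k j
        rw [norm_mul, norm_mul, norm_mul, Complex.norm_real, Real.norm_of_nonneg (by linarith)]
        have h1 := hδD k x hxO
        have h2 := hhp j
        have h3 : ‖(2 : ℂ)‖ = 2 := by simp
        rw [h3]
        have h4 : 2 * ‖Xd e (ξ k) (rc δ) x‖ * (b * ‖h j x‖) ≤ 2 * D * (b * p) := by
          apply mul_le_mul (by linarith) (mul_le_mul_of_nonneg_left h2 (by linarith))
            (by positivity) (by positivity)
        linarith
      calc ‖∑ l, γ k j l x * h l x + 2 * Xd e (ξ k) (rc δ) x * ((b : ℂ) * h j x)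
            - 2 * Xd e (ξ j) (rc δ) x * ((b : ℂ) * h k x)‖
          ≤ V * p + 2 * D * b * p + 2 * D * b * p :=
            (norm_sub_le _ _).trans (add_le_add ((norm_add_le _ _).trans
              (add_le_add n1 (n2 k j))) (n2 j k))
        _ ≤ ((V + 4 * D) * b) * p := by nlinarith [mul_nonneg hV0 hp0]
    have hpw := pw_ineq (fun k j => Xd e (ξ k) (h j) x) (fun j => h j x) (fun k j l => α k j l x)
      (fun k j l => β k j l x) (fun k j => Hco e ξ β Φ k j x) (fun k j => eco e ξ β k j x)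
      (W := W) (E0 := E0) (T := (V + 4 * D) * b) (fun k j l => hαW k j l x hxO)
      (fun k j l => hβW k j l x hxO) (fun k j => heE k j x hxO) htor
    have hpos' := hpos x hxO
    have hS : 0 ≤ ∑ k, ∑ j, ‖Xd e (ξ k) (h j) x‖ ^ 2 :=
      Finset.sum_nonneg fun k _ => Finset.sum_nonneg fun j _ => by positivity
    set q : ℝ := ∑ j, ‖h j x‖ ^ 2 with hq
    have hq0 : 0 ≤ q := Finset.sum_nonneg fun j _ => by positivity
    have hpq : p ^ 2 ≤ N * q := sq_sum_le fun i => h i x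
    have hqe : (∑ j, ‖Xd e (ξ j) φ x‖ ^ 2) * (δ x) ^ 2 = b ^ 2 * q := by
      rw [hq, Finset.sum_mul, Finset.mul_sum]
      refine Finset.sum_congr rfl fun j _ => ?_
      simp only [hh]
      rw [norm_mul, norm_pow, show rc δ x = ((δ x : ℝ) : ℂ) from rfl, Complex.norm_real,
        Real.norm_of_nonneg hd.le, hb]
      field_simp
    rw [hqe]
    have hb2 : 1 ≤ b ^ 2 := one_le_pow₀ hb1
    have hC : (N ^ 2 * ((V + 4 * D) * b) ^ 2 + 4 * N ^ 2 * W ^ 2 + E0) * p ^ 2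
        ≤ C1 N V D W E0 * b ^ 2 * q := by
      have h1 : N ^ 2 * ((V + 4 * D) * b) ^ 2 + 4 * N ^ 2 * W ^ 2 + E0
          ≤ (N ^ 2 * (V + 4 * D) ^ 2 + 4 * N ^ 2 * W ^ 2 + E0) * b ^ 2 := by
        have h2 : 0 ≤ 4 * N ^ 2 * W ^ 2 + E0 := by positivity
        nlinarith [mul_le_mul_of_nonneg_left hb2 h2]
      have h3 : 0 ≤ (N ^ 2 * (V + 4 * D) ^ 2 + 4 * N ^ 2 * W ^ 2 + E0) * b ^ 2 := by positivity
      calc (N ^ 2 * ((V + 4 * D) * b) ^ 2 + 4 * N ^ 2 * W ^ 2 + E0) * p ^ 2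
          ≤ ((N ^ 2 * (V + 4 * D) ^ 2 + 4 * N ^ 2 * W ^ 2 + E0) * b ^ 2) * (N * q) :=
            mul_le_mul h1 hpq (by positivity) h3
        _ = C1 N V D W E0 * b ^ 2 * q := by unfold C1; ring
    have hGe : (Gf e ξ α β Φ h x).re
        = (∑ k, ∑ j, (Xd e (ξ k) (h j) x * conj (Xd e (ξ j) (h k) x)
            - ∑ l, α k j l x * Xd e (ξ l) (h j) x * conj (h k x)
            + ∑ l, β k j l x * h j x * conj (Xd e (ξ l) (h k) x)
            + (Hco e ξ β Φ k j x + eco e ξ β k j x) * h j x * conj (h k x))).re := rfl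
    rw [hGe]
    refine le_trans ?_ hpw
    have hp2 : (C1 N V D W E0 + 1) * b ^ 2 * q
      ≤ (∑ k, ∑ j, Hco e ξ β Φ k j x * h j x * conj (h k x)).re := hpos'
    nlinarith [hC, hp2, hS]

end

end Crest.Agent.R260.BKX_680
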