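import Crest.Agent.R260.BKX3_680

/-! # Bochner-Kodaira estimate for exact forms, part 4: the redundant frame of an integrable
almost complex structure on Euclidean space. -/

namespace Crest.Agent.R260.BKX_680

open MeasureTheory Complex Set
open scoped ContDiff ComplexConjugate BigOperators

set_option linter.unusedSectionVars false

noncomputable section

section comm

variable {E : Type} [NormedAddCommGroup E] [NormedSpace ℝ E]
variable {κ : Type} [Fintype κ] {e : κ → E}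

theorem pd_comm {u : E → ℂ} (hu : ContDiff ℝ ∞ u) (a b : E) (x : E) :
    pd a (pd b u) x = pd b (pd a u) x := by
  have h1 : ∀ a b : E, pd a (pd b u) x = fderiv ℝ (fderiv ℝ u) x a b := by
    intro a b
    have hd : DifferentiableAt ℝ (fderiv ℝ u) x :=
      ((hu.fderiv_right (m := ∞) (by simp)).differentiable (by simp)) x
    unfold pd
    have := (hd.hasFDerivAt.clm_apply (hasFDerivAt_const b x)).fderiv
    rw [this]
    simp
  have hs : IsSymmSndFDerivAt ℝ u x := by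
    refine (hu.contDiffAt (x := x)).isSymmSndFDerivAt ?_
    simp only [minSmoothness_of_isRCLikeNormedField]
    exact ENat.LEInfty.out
  rw [h1 a b, h1 b a]
  exact hs.eq a b

theorem Xd_Xd {ξ η : κ → E → ℂ} (hη : ∀ a, ContDiff ℝ ∞ (η a)) {u : E → ℂ}
    (hu : ContDiff ℝ ∞ u) (x : E) :
    Xd e ξ (Xd e η u) x = ∑ b, Xd e ξ (η b) x * pd (e b) u x
      + ∑ a, ∑ b, ξ a x * η b x * pd (e a) (pd (e b) u) x := by
  have h1 : Xd e ξ (Xd e η u) x = ∑ a, ξ a x * ∑ b, (η b x * pd (e a) (pd (e b) u) x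
      + pd (e a) (η b) x * pd (e b) u x) := by
    conv_lhs => unfold Xd
    refine Finset.sum_congr rfl fun a _ => ?_
    congr 1
    have h2 : pd (e a) (fun x => ∑ b, η b x * pd (e b) u x) x
        = ∑ b, pd (e a) (fun x => η b x * pd (e b) u x) x := by
      unfold pd
      rw [fderiv_fun_sum]
      · simp
      · intro b _
        exact ((smooth_diff (hη b)).mul (smooth_diff (pd_smooth hu (e b)))) x
    rw [h2]
    exact Finset.sum_congr rfl fun b _ => pd_mul (smooth_diff (hη b))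
      (smooth_diff (pd_smooth hu (e b))) (e a) x
  rw [h1]
  have h3 : ∑ b, Xd e ξ (η b) x * pd (e b) u x
      = ∑ a, ∑ b, ξ a x * (pd (e a) (η b) x * pd (e b) u x) := by
    rw [Finset.sum_comm]
    refine Finset.sum_congr rfl fun b _ => ?_
    unfold Xd
    rw [Finset.sum_mul]
    exact Finset.sum_congr rfl fun a _ => by ring
  rw [h3, ← Finset.sum_add_distrib]
  refine Finset.sum_congr rfl fun a _ => ?_
  rw [← Finset.sum_add_distrib, Finset.mul_sum]
  exact Finset.sum_congr rfl fun b _ => by ring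

theorem Xd_comm {ξ η : κ → E → ℂ} (hξ : ∀ a, ContDiff ℝ ∞ (ξ a))
    (hη : ∀ a, ContDiff ℝ ∞ (η a)) {u : E → ℂ} (hu : ContDiff ℝ ∞ u) (x : E) :
    Xd e ξ (Xd e η u) x - Xd e η (Xd e ξ u) x
      = ∑ b, (Xd e ξ (η b) x - Xd e η (ξ b) x) * pd (e b) u x := by
  rw [Xd_Xd hη hu, Xd_Xd hξ hu]
  have h1 : ∑ a, ∑ b, η a x * ξ b x * pd (e a) (pd (e b) u) x
      = ∑ a, ∑ b, ξ a x * η b x * pd (e a) (pd (e b) u) x := by
    rw [Finset.sum_comm]
    refine Finset.sum_congr rfl fun a _ => Finset.sum_congr rfl fun b _ => ?_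
    rw [pd_comm hu (e b) (e a)]
    ring
  rw [h1]
  simp_rw [sub_mul]
  rw [Finset.sum_sub_distrib]
  ring

end comm

/-- Euclidean space -/
abbrev Eu (N : ℕ) := EuclideanSpace ℝ (Fin N)

variable {N : ℕ}

/-- the standard basis -/
def eb (N : ℕ) (b : Fin N) : Eu N := EuclideanSpace.single b (1 : ℝ)

/-- an integrable almost complex structure on `O`, with global smooth coefficients -/
structure JG (J : Eu N → Eu N →L[ℝ] Eu N) (O : Set (Eu N)) : Prop where
  smooth : ContDiff ℝ ∞ J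
  sq : ∀ x ∈ O, ∀ v, J x (J x v) = -v
  nij : ∀ x ∈ O, ∀ v w, fderiv ℝ J x (J x v) w - fderiv ℝ J x (J x w) v
    - J x (fderiv ℝ J x v w) + J x (fderiv ℝ J x w v) = 0

/-- the matrix of `J` -/
def Jm (J : Eu N → Eu N →L[ℝ] Eu N) (b j : Fin N) : Eu N → ℝ := fun x => (J x (eb N j)) b

/-- the redundant frame `X_j = (∂_j + i J ∂_j)/2` -/
def fr (J : Eu N → Eu N →L[ℝ] Eu N) (j b : Fin N) : Eu N → ℂ := fun x =>
  (1 / 2 : ℂ) * ((if b = j then 1 else 0) + I * rc (Jm J b j) x)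

theorem Jm_smooth {J : Eu N → Eu N →L[ℝ] Eu N} (hJ : ContDiff ℝ ∞ J) (b j : Fin N) :
    ContDiff ℝ ∞ (Jm J b j) := by
  have h1 : ContDiff ℝ ∞ fun x => J x (eb N j) := hJ.clm_apply contDiff_const
  exact (EuclideanSpace.proj (𝕜 := ℝ) b).contDiff.comp h1

theorem fr_smooth {J : Eu N → Eu N →L[ℝ] Eu N} (hJ : ContDiff ℝ ∞ J) (j b : Fin N) :
    ContDiff ℝ ∞ (fr J j b) := by
  unfold fr
  exact contDiff_const.mul (contDiff_const.add (contDiff_const.mul (rc_smooth (Jm_smooth hJ b j))))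

theorem cj_fr (J : Eu N → Eu N →L[ℝ] Eu N) (j b : Fin N) (x : Eu N) :
    cj (fr J j) b x = (1 / 2 : ℂ) * ((if b = j then 1 else 0) - I * rc (Jm J b j) x) := by
  unfold cj fr rc
  rw [map_mul, map_add, map_mul, Complex.conj_I, Complex.conj_ofReal]
  have h1 : (starRingEnd ℂ) (1 / 2 : ℂ) = 1 / 2 := by
    rw [map_div₀, map_one, map_ofNat]
  have h2 : (starRingEnd ℂ) (if b = j then (1 : ℂ) else 0) = if b = j then 1 else 0 := by
    split_ifs <;> simp
  rw [h1, h2]; ring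

theorem fr_add (J : Eu N → Eu N →L[ℝ] Eu N) (j : Fin N) (u : Eu N → ℂ) (x : Eu N) :
    Xd (eb N) (fr J j) u x + Xd (eb N) (cj (fr J j)) u x = pd (eb N j) u x := by
  unfold Xd
  rw [← Finset.sum_add_distrib]
  rw [Finset.sum_eq_single j]
  · rw [cj_fr]; unfold fr; simp; ring
  · intro b _ hb
    rw [cj_fr]; unfold fr; simp [hb]
  · intro h; exact absurd (Finset.mem_univ j) h

/-- coefficients of `[X_k, Y_j]` -/
def wc (J : Eu N → Eu N →L[ℝ] Eu N) (k j l : Fin N) : Eu N → ℂ := fun x =>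
  Xd (eb N) (fr J k) (cj (fr J j) l) x - Xd (eb N) (cj (fr J j)) (fr J k l) x

/-- coefficients of `[X_k, X_j]` -/
def vc (J : Eu N → Eu N →L[ℝ] Eu N) (k j l : Fin N) : Eu N → ℂ := fun x =>
  Xd (eb N) (fr J k) (fr J j l) x - Xd (eb N) (fr J j) (fr J k l) x

theorem wc_smooth {J : Eu N → Eu N →L[ℝ] Eu N} (hJ : ContDiff ℝ ∞ J) (k j l : Fin N) :
    ContDiff ℝ ∞ (wc J k j l) := by
  unfold wc
  exact (Xd_smooth (fr_smooth hJ k) (cj_smooth (fr_smooth hJ j) l)).sub
    (Xd_smooth (cj_smooth (fr_smooth hJ j)) (fr_smooth hJ k l))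

theorem vc_smooth {J : Eu N → Eu N →L[ℝ] Eu N} (hJ : ContDiff ℝ ∞ J) (k j l : Fin N) :
    ContDiff ℝ ∞ (vc J k j l) := by
  unfold vc
  exact (Xd_smooth (fr_smooth hJ k) (fr_smooth hJ j l)).sub
    (Xd_smooth (fr_smooth hJ j) (fr_smooth hJ k l))

theorem comm_fr {J : Eu N → Eu N →L[ℝ] Eu N} (hJ : ContDiff ℝ ∞ J) (k j : Fin N) {u : Eu N → ℂ}
    (hu : ContDiff ℝ ∞ u) (x : Eu N) :
    Xd (eb N) (fr J k) (Xd (eb N) (cj (fr J j)) u) x
      - Xd (eb N) (cj (fr J j)) (Xd (eb N) (fr J k) u) x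
    = ∑ l, (wc J k j l x * Xd (eb N) (fr J l) u x
      + wc J k j l x * Xd (eb N) (cj (fr J l)) u x) := by
  rw [Xd_comm (fr_smooth hJ k) (cj_smooth (fr_smooth hJ j)) hu]
  refine Finset.sum_congr rfl fun l _ => ?_
  rw [← fr_add J l u x]
  unfold wc
  ring

/-- derivative of the matrix entries -/
theorem pd_Jm {J : Eu N → Eu N →L[ℝ] Eu N} (hJ : ContDiff ℝ ∞ J) (b j : Fin N) (v x : Eu N) :
    pd v (rc (Jm J b j)) x = (((fderiv ℝ J x v (eb N j)) b : ℝ) : ℂ) := by
  have hd : DifferentiableAt ℝ J x := (hJ.differentiable (by simp)) x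
  have h1 : HasFDerivAt (fun y => J y (eb N j))
      ((ContinuousLinearMap.apply ℝ (Eu N) (eb N j)).comp (fderiv ℝ J x)) x :=
    (ContinuousLinearMap.apply ℝ (Eu N) (eb N j)).hasFDerivAt.comp x hd.hasFDerivAt
  have h2 : HasFDerivAt (Jm J b j) ((EuclideanSpace.proj (𝕜 := ℝ) b).comp
      ((ContinuousLinearMap.apply ℝ (Eu N) (eb N j)).comp (fderiv ℝ J x))) x :=
    (EuclideanSpace.proj (𝕜 := ℝ) b).hasFDerivAt.comp x h1
  have h3 : HasFDerivAt (rc (Jm J b j)) (Complex.ofRealCLM.comp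
      ((EuclideanSpace.proj (𝕜 := ℝ) b).comp
      ((ContinuousLinearMap.apply ℝ (Eu N) (eb N j)).comp (fderiv ℝ J x)))) x :=
    (Complex.ofRealCLM.hasFDerivAt (x := Jm J b j x)).comp x h2
  unfold pd
  rw [h3.fderiv]
  rfl

theorem pd_fr {J : Eu N → Eu N →L[ℝ] Eu N} (hJ : ContDiff ℝ ∞ J) (j b : Fin N) (v x : Eu N) :
    pd v (fr J j b) x = (I / 2) * pd v (rc (Jm J b j)) x := by
  have h1 : fr J j b = fun y => (fun _ => ((1 / 2 : ℂ) * (if b = j then 1 else 0))) y
      + (fun y => (fun _ => I / 2) y * rc (Jm J b j) y) y := by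
    funext y; unfold fr; ring
  have hs := smooth_diff (rc_smooth (Jm_smooth hJ b j))
  rw [h1, pd_add (u := fun _ => ((1 / 2 : ℂ) * (if b = j then 1 else 0)))
    (v := fun y => (fun _ => I / 2) y * rc (Jm J b j) y) (differentiable_const _)
    ((differentiable_const _).mul hs),
    pd_mul (u := fun _ => I / 2) (differentiable_const _) hs]
  simp [pd]

theorem pd_cjfr {J : Eu N → Eu N →L[ℝ] Eu N} (hJ : ContDiff ℝ ∞ J) (j b : Fin N) (v x : Eu N) :
    pd v (cj (fr J j) b) x = -(I / 2) * pd v (rc (Jm J b j)) x := by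
  have h1 : pd v (cj (fr J j) b) x = conj (pd v (fr J j b) x) :=
    pd_conj (smooth_diff (fr_smooth hJ j b)) v x
  rw [h1, pd_fr hJ, pd_Jm hJ, map_mul, Complex.conj_ofReal, map_div₀, Complex.conj_I, map_ofNat]
  ring

theorem basis_sum (v : Eu N) : v = ∑ c, v c • eb N c := by
  ext i
  simp [eb, Finset.sum_apply, Pi.single_apply]

/-- the `(1,0)` part of `[X_k, X_j]` vanishes -/
theorem vc_type {J : Eu N → Eu N →L[ℝ] Eu N} {O : Set (Eu N)} (hJ : JG J O) (k j b : Fin N)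
    {x : Eu N} (hx : x ∈ O) :
    ∑ l, rc (Jm J b l) x * vc J k j l x = -I * vc J k j b x := by
  set P : Eu N := fderiv ℝ J x (eb N k) (eb N j) - fderiv ℝ J x (eb N j) (eb N k) with hP
  set Q : Eu N := fderiv ℝ J x (J x (eb N k)) (eb N j) - fderiv ℝ J x (J x (eb N j)) (eb N k)
    with hQ
  have hJP : J x P = Q := by
    have := hJ.nij x hx (eb N k) (eb N j)
    rw [hP, hQ, map_sub]
    have h2 : fderiv ℝ J x (J x (eb N k)) (eb N j) - fderiv ℝ J x (J x (eb N j)) (eb N k)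
      = J x (fderiv ℝ J x (eb N k) (eb N j)) - J x (fderiv ℝ J x (eb N j) (eb N k)) := by
      have h3 := this
      rw [sub_add] at h3
      exact sub_eq_zero.mp h3
    exact h2.symm
  have hJQ : J x Q = -P := by rw [← hJP]; exact hJ.sq x hx P
  -- derivative along the frame
  have hX : ∀ k l j : Fin N, Xd (eb N) (fr J k) (rc (Jm J l j)) x
      = (1 / 2 : ℂ) * ((((fderiv ℝ J x (eb N k) (eb N j)) l : ℝ) : ℂ)
        + I * (((fderiv ℝ J x (J x (eb N k)) (eb N j)) l : ℝ) : ℂ)) := by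
    intro k l j
    have h1 : ((fderiv ℝ J x (J x (eb N k)) (eb N j)) l : ℝ)
        = ∑ c, Jm J c k x * (fderiv ℝ J x (eb N c) (eb N j)) l := by
      conv_lhs => rw [basis_sum (J x (eb N k))]
      rw [map_sum]
      simp only [map_smul]
      simp [Jm, Finset.sum_apply]
    unfold Xd
    simp_rw [pd_Jm hJ.smooth]
    rw [h1]
    push_cast
    have h2 : ∑ a, fr J k a x * (((fderiv ℝ J x (eb N a) (eb N j)) l : ℝ) : ℂ)
        = ∑ a, ((1 / 2 : ℂ) * (if a = k then (((fderiv ℝ J x (eb N a) (eb N j)) l : ℝ) : ℂ) else 0)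
          + (I / 2) * ((Jm J a k x : ℂ) * (((fderiv ℝ J x (eb N a) (eb N j)) l : ℝ) : ℂ))) := by
      refine Finset.sum_congr rfl fun a _ => ?_
      unfold fr rc
      split_ifs <;> ring
    rw [h2, Finset.sum_add_distrib, ← Finset.mul_sum, ← Finset.mul_sum, Finset.sum_ite_eq']
    simp
    ring
  have hv : ∀ l, vc J k j l x = (I / 4) * ((P l : ℂ) + I * (Q l : ℂ)) := by
    intro l
    unfold vc
    have h1 : ∀ k j, Xd (eb N) (fr J k) (fr J j l) x
        = (I / 2) * Xd (eb N) (fr J k) (rc (Jm J l j)) x := by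
      intro k j
      unfold Xd
      rw [Finset.mul_sum]
      refine Finset.sum_congr rfl fun a _ => ?_
      rw [pd_fr hJ.smooth]; ring
    rw [h1, h1, hX, hX, hP, hQ]
    simp only [PiLp.sub_apply]
    push_cast
    ring
  have hsum : ∀ R : Eu N, ∑ l, rc (Jm J b l) x * (R l : ℂ) = (((J x R) b : ℝ) : ℂ) := by
    intro R
    have h1 : ((J x R) b : ℝ) = ∑ l, R l * Jm J b l x := by
      conv_lhs => rw [basis_sum R]
      rw [map_sum]
      simp [Jm, Finset.sum_apply]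
    rw [h1]
    push_cast
    exact Finset.sum_congr rfl fun l _ => by unfold rc; ring
  simp_rw [hv]
  have h2 : ∑ l, rc (Jm J b l) x * ((I / 4) * ((P l : ℂ) + I * (Q l : ℂ)))
      = (I / 4) * (∑ l, rc (Jm J b l) x * (P l : ℂ) + I * ∑ l, rc (Jm J b l) x * (Q l : ℂ)) := by
    rw [Finset.mul_sum, ← Finset.sum_add_distrib, Finset.mul_sum]
    exact Finset.sum_congr rfl fun l _ => by ring
  rw [h2, hsum, hsum, hJP, hJQ]
  simp only [PiLp.neg_apply]
  push_cast
  have hI : I * I = -1 := Complex.I_mul_I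
  linear_combination ((I / 4) * (Q b : ℂ)) * hI

/-- the commutation relation of the frame -/
theorem int_fr {J : Eu N → Eu N →L[ℝ] Eu N} {O : Set (Eu N)} (hJ : JG J O) (k j : Fin N)
    {u : Eu N → ℂ} (hu : ContDiff ℝ ∞ u) {x : Eu N} (hx : x ∈ O) :
    Xd (eb N) (fr J k) (Xd (eb N) (fr J j) u) x
      - Xd (eb N) (fr J j) (Xd (eb N) (fr J k) u) x
    = ∑ l, vc J k j l x * Xd (eb N) (fr J l) u x := by
  rw [Xd_comm (fr_smooth hJ.smooth k) (fr_smooth hJ.smooth j) hu]
  have h1 : ∀ b, (Xd (eb N) (fr J k) (fr J j b) x - Xd (eb N) (fr J j) (fr J k b) x)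
      * pd (eb N b) u x = vc J k j b x * Xd (eb N) (fr J b) u x
        + vc J k j b x * Xd (eb N) (cj (fr J b)) u x := by
    intro b
    rw [← fr_add J b u x]; unfold vc; ring
  rw [Finset.sum_congr rfl fun b _ => h1 b, Finset.sum_add_distrib]
  have h2 : ∑ l, vc J k j l x * Xd (eb N) (cj (fr J l)) u x = 0 := by
    unfold Xd
    simp_rw [Finset.mul_sum]
    rw [Finset.sum_comm]
    refine Finset.sum_eq_zero fun b _ => ?_
    have h3 : ∑ l, vc J k j l x * (cj (fr J l) b x * pd (eb N b) u x)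
        = (1 / 2 : ℂ) * (∑ l, (if b = l then vc J k j l x else 0)
            - I * ∑ l, rc (Jm J b l) x * vc J k j l x) * pd (eb N b) u x := by
      rw [Finset.mul_sum, ← Finset.sum_sub_distrib, Finset.mul_sum, Finset.sum_mul]
      refine Finset.sum_congr rfl fun l _ => ?_
      rw [cj_fr]
      split_ifs <;> ring
    rw [h3, vc_type hJ k j b hx, Finset.sum_ite_eq]
    simp only [Finset.mem_univ, if_true]
    have hI : I * I = -1 := Complex.I_mul_I
    linear_combination (1 / 2 : ℂ) * vc J k j b x * pd (eb N b) u x * hI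
  rw [h2, add_zero]

/-- the values `X_j u` form a `(0,1)` covector -/
theorem type_fr {J : Eu N → Eu N →L[ℝ] Eu N} {O : Set (Eu N)} (hJ : JG J O) (j : Fin N)
    (u : Eu N → ℂ) {x : Eu N} (hx : x ∈ O) :
    ∑ c, rc (Jm J c j) x * Xd (eb N) (fr J c) u x = -I * Xd (eb N) (fr J j) u x := by
  have hX : ∀ j : Fin N, Xd (eb N) (fr J j) u x
      = (1 / 2 : ℂ) * (fderiv ℝ u x (eb N j) + I * fderiv ℝ u x (J x (eb N j))) := by
    intro j
    have h1 : fderiv ℝ u x (J x (eb N j)) = ∑ c, (Jm J c j x : ℂ) * fderiv ℝ u x (eb N c) := by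
      conv_lhs => rw [basis_sum (J x (eb N j))]
      rw [map_sum]
      refine Finset.sum_congr rfl fun c _ => ?_
      rw [map_smul]
      simp [Jm]
    unfold Xd
    rw [h1]
    have h2 : ∑ a, fr J j a x * pd (eb N a) u x
        = ∑ a, ((1 / 2 : ℂ) * (if a = j then fderiv ℝ u x (eb N a) else 0)
          + (I / 2) * ((Jm J a j x : ℂ) * fderiv ℝ u x (eb N a))) := by
      refine Finset.sum_congr rfl fun a _ => ?_
      unfold fr rc pd
      split_ifs <;> ring
    rw [h2, Finset.sum_add_distrib, ← Finset.mul_sum, ← Finset.mul_sum, Finset.sum_ite_eq']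
    simp
    ring
  have hsum : ∀ L : Eu N →L[ℝ] ℂ, ∑ c, rc (Jm J c j) x * L (eb N c) = L (J x (eb N j)) := by
    intro L
    conv_rhs => rw [basis_sum (J x (eb N j))]
    rw [map_sum]
    refine Finset.sum_congr rfl fun c _ => ?_
    rw [map_smul]
    simp [Jm, rc]
  simp_rw [hX]
  have h2 : ∑ c, rc (Jm J c j) x * ((1 / 2 : ℂ) * (fderiv ℝ u x (eb N c)
        + I * fderiv ℝ u x (J x (eb N c))))
      = (1 / 2 : ℂ) * (∑ c, rc (Jm J c j) x * fderiv ℝ u x (eb N c)
        + I * ∑ c, rc (Jm J c j) x * ((fderiv ℝ u x).comp (J x)) (eb N c)) := by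
    rw [Finset.mul_sum, ← Finset.sum_add_distrib, Finset.mul_sum]
    refine Finset.sum_congr rfl fun c _ => ?_
    simp only [ContinuousLinearMap.comp_apply]
    ring
  rw [h2, hsum, hsum, ContinuousLinearMap.comp_apply, hJ.sq x hx, map_neg]
  have hI : I * I = -1 := Complex.I_mul_I
  linear_combination (1 / 2 : ℂ) * fderiv ℝ u x (J x (eb N j)) * hI

end

end Crest.Agent.R260.BKX_680
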