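import Crest.Agent.R260.BKX4_680

/-! # Bochner-Kodaira estimate for exact forms, part 5: bounds and positivity of the Levi form of
`|x|²` for an almost complex structure which is standard up to second order. -/

namespace Crest.Agent.R260.BKX_680

open MeasureTheory Complex Set
open scoped ContDiff ComplexConjugate BigOperators

set_option linter.unusedSectionVars false

noncomputable section

variable {N : ℕ}

/-! ### order of vanishing -/

/-- `‖f x‖ ≤ C ‖x‖ ^ k` on the closed ball of radius `r` -/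
def BO (r : ℝ) (k : ℕ) (f : Eu N → ℂ) : Prop :=
  ∃ C, 0 ≤ C ∧ ∀ x, ‖x‖ ≤ r → ‖f x‖ ≤ C * ‖x‖ ^ k

theorem BO.mul {r : ℝ} {k l : ℕ} {f g : Eu N → ℂ} (hf : BO r k f) (hg : BO r l g) :
    BO r (k + l) (fun x => f x * g x) := by
  obtain ⟨C, hC, h⟩ := hf
  obtain ⟨D, hD, h'⟩ := hg
  refine ⟨C * D, by positivity, fun x hx => ?_⟩
  rw [norm_mul]
  calc ‖f x‖ * ‖g x‖ ≤ (C * ‖x‖ ^ k) * (D * ‖x‖ ^ l) :=
        mul_le_mul (h x hx) (h' x hx) (norm_nonneg _) (by positivity)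
    _ = C * D * ‖x‖ ^ (k + l) := by rw [pow_add]; ring

theorem BO.add {r : ℝ} {k : ℕ} {f g : Eu N → ℂ} (hf : BO r k f) (hg : BO r k g) :
    BO r k (fun x => f x + g x) := by
  obtain ⟨C, hC, h⟩ := hf
  obtain ⟨D, hD, h'⟩ := hg
  refine ⟨C + D, by positivity, fun x hx => ?_⟩
  calc ‖f x + g x‖ ≤ C * ‖x‖ ^ k + D * ‖x‖ ^ k :=
        (norm_add_le _ _).trans (add_le_add (h x hx) (h' x hx))
    _ = (C + D) * ‖x‖ ^ k := by ring

theorem BO.neg {r : ℝ} {k : ℕ} {f : Eu N → ℂ} (hf : BO r k f) : BO r k (fun x => - f x) := by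
  obtain ⟨C, hC, h⟩ := hf
  exact ⟨C, hC, fun x hx => by rw [norm_neg]; exact h x hx⟩

theorem BO.sub {r : ℝ} {k : ℕ} {f g : Eu N → ℂ} (hf : BO r k f) (hg : BO r k g) :
    BO r k (fun x => f x - g x) := by
  simpa [sub_eq_add_neg] using hf.add hg.neg

theorem BO.sum {r : ℝ} {k : ℕ} {κ : Type} (s : Finset κ) {f : κ → Eu N → ℂ}
    (hf : ∀ i ∈ s, BO r k (f i)) : BO r k (fun x => ∑ i ∈ s, f i x) := by
  classical
  induction s using Finset.induction_on with
  | empty => exact ⟨0, le_rfl, fun x _ => by simp⟩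
  | insert a s ha ih =>
    have h1 := (hf a (Finset.mem_insert_self a s)).add
      (ih fun i hi => hf i (Finset.mem_insert_of_mem hi))
    simpa [Finset.sum_insert ha] using h1

theorem BO.conj' {r : ℝ} {k : ℕ} {f : Eu N → ℂ} (hf : BO r k f) :
    BO r k (fun x => conj (f x)) := by
  obtain ⟨C, hC, h⟩ := hf
  exact ⟨C, hC, fun x hx => by rw [RCLike.norm_conj]; exact h x hx⟩

theorem BO.const_mul {r : ℝ} {k : ℕ} {f : Eu N → ℂ} (hf : BO r k f) (c : ℂ) :
    BO r k (fun x => c * f x) := by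
  obtain ⟨C, hC, h⟩ := hf
  refine ⟨‖c‖ * C, by positivity, fun x hx => ?_⟩
  rw [norm_mul, mul_assoc]
  exact mul_le_mul_of_nonneg_left (h x hx) (norm_nonneg _)

theorem BO.of_continuous (r : ℝ) {f : Eu N → ℂ} (hf : Continuous f) : BO r 0 f := by
  obtain ⟨C, hC⟩ := (isCompact_closedBall (0 : Eu N) r).exists_bound_of_continuousOn
    hf.continuousOn
  refine ⟨max C 0, le_max_right _ _, fun x hx => ?_⟩
  have := hC x (by simpa using hx)
  rw [pow_zero, mul_one]
  exact this.trans (le_max_left _ _)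

theorem BO.congr {r : ℝ} {k : ℕ} {f g : Eu N → ℂ} (hf : BO r k f)
    (h : ∀ x, ‖x‖ ≤ r → g x = f x) : BO r k g := by
  obtain ⟨C, hC, h'⟩ := hf
  exact ⟨C, hC, fun x hx => by rw [h x hx]; exact h' x hx⟩

/-- uniform constant for a finite family -/
theorem BO.unif {r : ℝ} {k : ℕ} {κ : Type} [Fintype κ] {f : κ → Eu N → ℂ}
    (hf : ∀ i, BO r k (f i)) : ∃ C, 0 ≤ C ∧ ∀ i x, ‖x‖ ≤ r → ‖f i x‖ ≤ C * ‖x‖ ^ k := by
  choose C hC h using hf
  refine ⟨∑ i, C i, Finset.sum_nonneg fun i _ => hC i, fun i x hx => ?_⟩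
  refine (h i x hx).trans (mul_le_mul_of_nonneg_right ?_ (by positivity))
  exact Finset.single_le_sum (fun i _ => hC i) (Finset.mem_univ i)

theorem BO.of_smooth_zero {r : ℝ} {f : Eu N → ℂ} (hf : ContDiff ℝ ∞ f) (h0 : f 0 = 0) :
    BO r 1 f := by
  have hc : Continuous (fderiv ℝ f) := (hf.fderiv_right (m := ∞) (by simp)).continuous
  obtain ⟨C, hC⟩ := (isCompact_closedBall (0 : Eu N) r).exists_bound_of_continuousOn
    hc.continuousOn
  refine ⟨max C 0, le_max_right _ _, fun x hx => ?_⟩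
  have h1 := (convex_closedBall (0 : Eu N) r).norm_image_sub_le_of_norm_fderiv_le (𝕜 := ℝ)
    (f := f) (C := max C 0) (fun y _ => (smooth_diff hf) y)
    (fun y hy => (hC y hy).trans (le_max_left _ _)) (x := 0) (y := x)
    (Metric.mem_closedBall_self (le_trans (norm_nonneg x) hx)) (by simpa using hx)
  simpa [h0] using h1

/-! ### the almost complex structure -/

/-- standard up to second order -/
structure JN (J : Eu N → Eu N →L[ℝ] Eu N) (r0 C : ℝ) : Prop where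
  jg : JG J (Metric.ball 0 r0)
  pos : 0 < r0
  orth : ∀ v, ‖J 0 v‖ = ‖v‖
  near : ∀ x, ‖x‖ < r0 → ∀ v, ‖J x v - J 0 v‖ ≤ C * ‖x‖ ^ 2 * ‖v‖

theorem JN.skew {J : Eu N → Eu N →L[ℝ] Eu N} {r0 C : ℝ} (h : JN J r0 C) (v w : Eu N) :
    inner ℝ (J 0 v) w = - inner ℝ v (J 0 w) := by
  have h1 : ∀ v w, inner ℝ (J 0 v) (J 0 w) = inner ℝ v w := by
    intro v w
    rw [real_inner_eq_norm_add_mul_self_sub_norm_mul_self_sub_norm_mul_self_div_two,
      real_inner_eq_norm_add_mul_self_sub_norm_mul_self_sub_norm_mul_self_div_two,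
      ← map_add, h.orth, h.orth, h.orth]
  have h2 := h1 v (J 0 w)
  rw [h.jg.sq 0 (Metric.mem_ball_self h.pos), inner_neg_right] at h2
  linarith

theorem Jm_inner (J : Eu N → Eu N →L[ℝ] Eu N) (b j : Fin N) (x : Eu N) :
    Jm J b j x = inner ℝ (eb N b) (J x (eb N j)) := by
  simp [Jm, eb, EuclideanSpace.inner_single_left]

theorem norm_eb (b : Fin N) : ‖eb N b‖ = 1 := by simp [eb]

theorem JN.anti {J : Eu N → Eu N →L[ℝ] Eu N} {r0 C : ℝ} (h : JN J r0 C) (b j : Fin N) :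
    Jm J b j 0 = - Jm J j b 0 := by
  rw [Jm_inner, Jm_inner, real_inner_comm, h.skew, real_inner_comm]

theorem JN.entry {J : Eu N → Eu N →L[ℝ] Eu N} {r0 C : ℝ} (h : JN J r0 C) (b j : Fin N)
    {x : Eu N} (hx : ‖x‖ < r0) : |Jm J b j x - Jm J b j 0| ≤ C * ‖x‖ ^ 2 := by
  rw [Jm_inner, Jm_inner, ← inner_sub_right]
  refine (abs_real_inner_le_norm _ _).trans ?_
  rw [norm_eb, one_mul]
  simpa [norm_eb] using h.near x hx (eb N j)

theorem JN.fderiv_zero {J : Eu N → Eu N →L[ℝ] Eu N} {r0 C : ℝ} (h : JN J r0 C) (b j : Fin N)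
    (v : Eu N) : pd v (rc (Jm J b j)) 0 = 0 := by
  have hd : HasFDerivAt (Jm J b j) (0 : Eu N →L[ℝ] ℝ) 0 := by
    rw [hasFDerivAt_iff_isLittleO_nhds_zero]
    have h1 : (fun x : Eu N => Jm J b j (0 + x) - Jm J b j 0 - (0 : Eu N →L[ℝ] ℝ) x)
        =O[nhds 0] fun x => ‖x‖ ^ 2 := by
      refine Asymptotics.IsBigO.of_bound C ?_
      filter_upwards [Metric.ball_mem_nhds (0 : Eu N) h.pos] with x hx
      have := h.entry b j (x := x) (by simpa using hx)
      simpa using this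
    refine h1.trans_isLittleO ?_
    have h2 := Asymptotics.isLittleO_norm_pow_id (E' := Eu N) (n := 2) (by norm_num)
    exact h2
  have h3 : HasFDerivAt (rc (Jm J b j)) (Complex.ofRealCLM.comp (0 : Eu N →L[ℝ] ℝ)) 0 :=
    (Complex.ofRealCLM.hasFDerivAt (x := Jm J b j 0)).comp 0 hd
  unfold pd
  rw [h3.fderiv]
  simp

section bounds

variable {J : Eu N → Eu N →L[ℝ] Eu N} {r0 C : ℝ}

theorem bo_fr (hJ : ContDiff ℝ ∞ J) (r : ℝ) (j b : Fin N) : BO r 0 (fr J j b) :=
  BO.of_continuous r (fr_smooth hJ j b).continuous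

theorem bo_cjfr (hJ : ContDiff ℝ ∞ J) (r : ℝ) (j b : Fin N) : BO r 0 (cj (fr J j) b) :=
  BO.of_continuous r (cj_smooth (fr_smooth hJ j) b).continuous

theorem JN.bo_pd (h : JN J r0 C) (r : ℝ) (b j : Fin N) (v : Eu N) :
    BO r 1 (pd v (rc (Jm J b j))) :=
  BO.of_smooth_zero (pd_smooth (rc_smooth (Jm_smooth h.jg.smooth b j)) v) (h.fderiv_zero b j v)

theorem JN.bo_Xd_cj (h : JN J r0 C) (r : ℝ) (k j b : Fin N) :
    BO r 1 (Xd (eb N) (fr J k) (cj (fr J j) b)) := by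
  have h1 : BO r 1 (fun x => ∑ a, fr J k a x * (-(I / 2) * pd (eb N a) (rc (Jm J b j)) x)) := by
    refine BO.sum _ fun a _ => ?_
    have := (bo_fr h.jg.smooth r k a).mul ((h.bo_pd r b j (eb N a)).const_mul (-(I / 2)))
    simpa using this
  refine h1.congr fun x _ => ?_
  unfold Xd
  exact Finset.sum_congr rfl fun a _ => by rw [pd_cjfr h.jg.smooth]

theorem JN.bo_Xdcj_fr (h : JN J r0 C) (r : ℝ) (k j b : Fin N) :
    BO r 1 (Xd (eb N) (cj (fr J j)) (fr J k b)) := by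
  have h1 : BO r 1 (fun x => ∑ a, cj (fr J j) a x * ((I / 2) * pd (eb N a) (rc (Jm J b k)) x)) := by
    refine BO.sum _ fun a _ => ?_
    have := (bo_cjfr h.jg.smooth r j a).mul ((h.bo_pd r b k (eb N a)).const_mul (I / 2))
    simpa using this
  refine h1.congr fun x _ => ?_
  unfold Xd
  exact Finset.sum_congr rfl fun a _ => by rw [pd_fr h.jg.smooth]

theorem JN.bo_wc (h : JN J r0 C) (r : ℝ) (k j l : Fin N) : BO r 1 (wc J k j l) :=
  ((h.bo_Xd_cj r k j l).sub (h.bo_Xdcj_fr r k j l))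

/-- `‖x‖²` -/
def qq (x : Eu N) : ℝ := ‖x‖ ^ 2

theorem qq_smooth : ContDiff ℝ ∞ (qq (N := N)) := by
  unfold qq
  exact contDiff_norm_sq ℝ

/-- the coordinate functions -/
def co (b : Fin N) : Eu N → ℂ := fun x => ((x b : ℝ) : ℂ)

theorem co_smooth (b : Fin N) : ContDiff ℝ ∞ (co (N := N) b) :=
  (Complex.ofRealCLM.contDiff (n := ∞)).comp (EuclideanSpace.proj (𝕜 := ℝ) b).contDiff

theorem pd_co (b : Fin N) (v x : Eu N) : pd v (co b) x = ((v b : ℝ) : ℂ) := by
  have h3 : HasFDerivAt (co (N := N) b) (Complex.ofRealCLM.comp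
      (EuclideanSpace.proj (𝕜 := ℝ) b)) x :=
    (Complex.ofRealCLM.hasFDerivAt (x := x b)).comp x
      (EuclideanSpace.proj (𝕜 := ℝ) b : Eu N →L[ℝ] ℝ).hasFDerivAt
  unfold pd
  rw [h3.fderiv]
  simp

theorem pd_qq (v x : Eu N) : pd v (rc qq) x = ((2 * inner ℝ x v : ℝ) : ℂ) := by
  have h2 : HasFDerivAt (qq (N := N)) (2 • (innerSL ℝ x)) x := by
    unfold qq
    exact (hasStrictFDerivAt_norm_sq x).hasFDerivAt
  have h3 : HasFDerivAt (rc (qq (N := N))) (Complex.ofRealCLM.comp (2 • (innerSL ℝ x))) x :=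
    (Complex.ofRealCLM.hasFDerivAt (x := qq x)).comp x h2
  unfold pd
  rw [h3.fderiv]
  simp

theorem pd_qq' (b : Fin N) (x : Eu N) : pd (eb N b) (rc qq) x = 2 * co b x := by
  rw [pd_qq]
  simp [eb, co, EuclideanSpace.inner_single_right]

theorem bo_co (r : ℝ) (b : Fin N) : BO r 1 (co (N := N) b) :=
  BO.of_smooth_zero (co_smooth b) (by simp [co])

/-- `Y_j |x|²` -/
theorem Xd_cj_qq (J : Eu N → Eu N →L[ℝ] Eu N) (j : Fin N) :
    Xd (eb N) (cj (fr J j)) (rc qq) = fun x => ∑ b, cj (fr J j) b x * (2 * co b x) := by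
  funext x
  unfold Xd
  exact Finset.sum_congr rfl fun b _ => by rw [pd_qq']

theorem bo_Xd_cj_qq (hJ : ContDiff ℝ ∞ J) (r : ℝ) (j : Fin N) :
    BO r 1 (Xd (eb N) (cj (fr J j)) (rc qq)) := by
  rw [Xd_cj_qq]
  refine BO.sum _ fun b _ => ?_
  have := (bo_cjfr hJ r j b).mul ((bo_co r b).const_mul 2)
  simpa using this

/-- remainder of the Levi form of `|x|²` -/
def Rm2 (J : Eu N → Eu N →L[ℝ] Eu N) (k j : Fin N) : Eu N → ℂ := fun x =>
  ∑ b, Xd (eb N) (fr J k) (cj (fr J j) b) x * (2 * co b x)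
    - ∑ l, wc J k j l x * Xd (eb N) (cj (fr J l)) (rc qq) x

theorem Hco_qq (hJ : ContDiff ℝ ∞ J) (k j : Fin N) (x : Eu N) :
    Hco (eb N) (fr J) (wc J) qq k j x
      = 2 * ∑ b, fr J k b x * cj (fr J j) b x + Rm2 J k j x := by
  unfold Hco Rm2
  rw [Xd_cj_qq J j]
  have h1 : Xd (eb N) (fr J k) (fun x => ∑ b, cj (fr J j) b x * (2 * co b x)) x
      = ∑ b, Xd (eb N) (fr J k) (cj (fr J j) b) x * (2 * co b x)
        + 2 * ∑ b, fr J k b x * cj (fr J j) b x := by
    have hterm : ∀ b, Differentiable ℝ (fun x => cj (fr J j) b x * (2 * co b x)) := fun b =>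
      (smooth_diff (cj_smooth (fr_smooth hJ j) b)).mul
        ((differentiable_const _).mul (smooth_diff (co_smooth b)))
    have h2 : Xd (eb N) (fr J k) (fun x => ∑ b, cj (fr J j) b x * (2 * co b x)) x
        = ∑ b, Xd (eb N) (fr J k) (fun x => cj (fr J j) b x * (2 * co b x)) x := by
      unfold Xd
      rw [Finset.sum_comm]
      refine Finset.sum_congr rfl fun a _ => ?_
      rw [← Finset.mul_sum]
      congr 1
      unfold pd
      rw [fderiv_fun_sum (fun b _ => hterm b x)]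
      simp
    have h3 : ∀ b, Xd (eb N) (fr J k) (fun x => cj (fr J j) b x * (2 * co b x)) x
        = Xd (eb N) (fr J k) (cj (fr J j) b) x * (2 * co b x)
          + 2 * (fr J k b x * cj (fr J j) b x) := by
      intro b
      have h4 : Xd (eb N) (fr J k) (fun x => 2 * co b x) x = 2 * fr J k b x := by
        have h5 : ∀ a, pd (eb N a) (fun x => 2 * co b x) x = if a = b then 2 else 0 := by
          intro a
          have h6 : (fun x : Eu N => 2 * co b x) = fun x => (fun _ => (2 : ℂ)) x * co b x := rfl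
          rw [h6, pd_mul (u := fun _ => (2 : ℂ)) (differentiable_const _)
            (smooth_diff (co_smooth b)), pd_co]
          by_cases hab : a = b
          · subst hab; simp [pd, eb]
          · simp [pd, eb, hab, Ne.symm hab]
        unfold Xd
        simp_rw [h5]
        simp [mul_comm]
      rw [Xd_mul (u := cj (fr J j) b) (v := fun x => 2 * co b x)
        (smooth_diff (cj_smooth (fr_smooth hJ j) b))
        ((differentiable_const _).mul (smooth_diff (co_smooth b))), h4]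
      ring
    rw [h2, Finset.sum_congr rfl fun b _ => h3 b, Finset.sum_add_distrib, Finset.mul_sum]
  rw [h1]
  ring

theorem JN.bo_Rm2 (h : JN J r0 C) (r : ℝ) (k j : Fin N) : BO r 2 (Rm2 J k j) := by
  unfold Rm2
  refine BO.sub (BO.sum _ fun b _ => ?_) (BO.sum _ fun l _ => ?_)
  · exact (h.bo_Xd_cj r k j b).mul ((bo_co r b).const_mul 2)
  · exact (h.bo_wc r k j l).mul (bo_Xd_cj_qq h.jg.smooth r l)

end bounds

end

end Crest.Agent.R260.BKX_680
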