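import Crest.Agent.R260.BKX5_680

/-! # Bochner-Kodaira estimate for exact forms, part 6: positivity of the Levi form of `|x|²` on
`(0,1)` covectors, chain rule, positivity for the weights `K/(r²-|x|²) + M log(|x|²+ε)`. -/

namespace Crest.Agent.R260.BKX_680

open MeasureTheory Complex Set
open scoped ContDiff ComplexConjugate BigOperators

set_option linter.unusedSectionVars false

noncomputable section

variable {N : ℕ} {J : Eu N → Eu N →L[ℝ] Eu N} {r0 C : ℝ}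

theorem JN.absC (h : JN J r0 C) : JN J r0 |C| :=
  ⟨h.jg, h.pos, h.orth, fun x hx v => (h.near x hx v).trans (by
    gcongr; exact le_abs_self C)⟩

theorem cs_sum (a h : Fin N → ℂ) :
    ‖∑ j, a j * h j‖ ^ 2 ≤ (∑ j, ‖a j‖ ^ 2) * ∑ j, ‖h j‖ ^ 2 := by
  have h1 : ‖∑ j, a j * h j‖ ≤ ∑ j, ‖a j‖ * ‖h j‖ := by
    refine (norm_sum_le _ _).trans (le_of_eq ?_)
    exact Finset.sum_congr rfl fun j _ => norm_mul _ _
  calc ‖∑ j, a j * h j‖ ^ 2 ≤ (∑ j, ‖a j‖ * ‖h j‖) ^ 2 :=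
        pow_le_pow_left₀ (norm_nonneg _) h1 2
    _ ≤ _ := Finset.sum_mul_sq_le_sq_mul_sq _ _ _

/-- `Y_j |x|² = x_j - i (J x)^T_j` -/
theorem Yqq (J : Eu N → Eu N →L[ℝ] Eu N) (j : Fin N) (x : Eu N) :
    Xd (eb N) (cj (fr J j)) (rc qq) x
      = ((x j : ℝ) : ℂ) - I * ((inner ℝ (J x (eb N j)) x : ℝ) : ℂ) := by
  rw [Xd_cj_qq]
  have h1 : (inner ℝ (J x (eb N j)) x : ℝ) = ∑ b, Jm J b j x * x b := by
    simp [PiLp.inner_apply, Jm, mul_comm]
  rw [h1]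
  push_cast
  have h2 : ∑ b, cj (fr J j) b x * (2 * co b x)
      = ∑ b, ((if b = j then ((x b : ℝ) : ℂ) else 0) - I * ((Jm J b j x : ℂ) * (x b : ℂ))) := by
    refine Finset.sum_congr rfl fun b _ => ?_
    rw [cj_fr]; unfold co rc
    split_ifs <;> ring
  rw [h2, Finset.sum_sub_distrib, Finset.sum_ite_eq', ← Finset.mul_sum]
  simp

theorem JN.p2 (h : JN J r0 C) (x : Eu N) (hx : ‖x‖ < r0) (hx1 : ‖x‖ ≤ 1) (η : Fin N → ℂ) :
    ‖∑ j, Xd (eb N) (cj (fr J j)) (rc qq) x * η j‖ ^ 2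
      ≤ (2 * ‖x‖ ^ 2 + ((N : ℝ) * (2 * |C| + |C| ^ 2)) * ‖x‖ ^ 4) * ∑ j, ‖η j‖ ^ 2 := by
  refine (cs_sum _ _).trans ?_
  refine mul_le_mul_of_nonneg_right ?_ (Finset.sum_nonneg fun j _ => by positivity)
  have h' := h.absC
  set D : ℝ := |C| with hD
  have hD0 : 0 ≤ D := abs_nonneg C
  set z : Eu N := J 0 x with hz
  have hz1 : ‖z‖ = ‖x‖ := h.orth x
  have hn : ∀ y : Eu N, ∑ j, (y j) ^ 2 = ‖y‖ ^ 2 := fun y => by
    rw [EuclideanSpace.norm_sq_eq]; simp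
  have hy : ∀ j, (inner ℝ (J x (eb N j)) x : ℝ) ^ 2 ≤ (z j) ^ 2 + (2 * D + D ^ 2) * ‖x‖ ^ 4 := by
    intro j
    set d : ℝ := inner ℝ (J x (eb N j) - J 0 (eb N j)) x with hd
    have e1 : (inner ℝ (J x (eb N j)) x : ℝ) = d - z j := by
      rw [hd, inner_sub_left, h.skew (eb N j) x]
      simp [hz, eb, EuclideanSpace.inner_single_left]
    have e2 : |d| ≤ D * ‖x‖ ^ 3 := by
      refine (abs_real_inner_le_norm _ _).trans ?_
      have h3 := h'.near x hx (eb N j)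
      rw [norm_eb, mul_one] at h3
      calc ‖J x (eb N j) - J 0 (eb N j)‖ * ‖x‖ ≤ (D * ‖x‖ ^ 2) * ‖x‖ :=
            mul_le_mul_of_nonneg_right h3 (norm_nonneg _)
        _ = D * ‖x‖ ^ 3 := by ring
    have e3 : |z j| ≤ ‖x‖ := by
      rw [← hz1]
      exact (EuclideanSpace.norm_eq z) ▸ (by
        have := PiLp.norm_apply_le z j
        simpa [EuclideanSpace.norm_eq] using this)
    rw [e1]
    have hx0 := norm_nonneg x
    have e4 : (d - z j) ^ 2 ≤ (z j) ^ 2 + 2 * |z j| * |d| + |d| ^ 2 := by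
      have e5 : -(z j * d) ≤ |z j| * |d| := by rw [← abs_mul]; exact neg_le_abs _
      rw [sq_abs]; nlinarith
    have e6 : |z j| * |d| ≤ ‖x‖ * (D * ‖x‖ ^ 3) :=
      mul_le_mul e3 e2 (abs_nonneg _) hx0
    have e7 : |d| ^ 2 ≤ (D * ‖x‖ ^ 3) ^ 2 := pow_le_pow_left₀ (abs_nonneg _) e2 2
    have e8 : (D * ‖x‖ ^ 3) ^ 2 ≤ D ^ 2 * ‖x‖ ^ 4 := by
      have : ‖x‖ ^ 6 ≤ ‖x‖ ^ 4 := pow_le_pow_of_le_one hx0 hx1 (by norm_num)
      calc (D * ‖x‖ ^ 3) ^ 2 = D ^ 2 * ‖x‖ ^ 6 := by ring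
        _ ≤ D ^ 2 * ‖x‖ ^ 4 := mul_le_mul_of_nonneg_left this (by positivity)
    nlinarith
  have hnorm : ∀ j, ‖Xd (eb N) (cj (fr J j)) (rc qq) x‖ ^ 2
      = (x j) ^ 2 + (inner ℝ (J x (eb N j)) x : ℝ) ^ 2 := by
    intro j
    rw [Yqq, ← Complex.normSq_eq_norm_sq, Complex.normSq_apply]
    simp; ring
  calc ∑ j, ‖Xd (eb N) (cj (fr J j)) (rc qq) x‖ ^ 2
      = ∑ j, ((x j) ^ 2 + (inner ℝ (J x (eb N j)) x : ℝ) ^ 2) :=
        Finset.sum_congr rfl fun j _ => hnorm j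
    _ ≤ ∑ j, ((x j) ^ 2 + ((z j) ^ 2 + (2 * D + D ^ 2) * ‖x‖ ^ 4)) :=
        Finset.sum_le_sum fun j _ => by linarith [hy j]
    _ = 2 * ‖x‖ ^ 2 + ((N : ℝ) * (2 * D + D ^ 2)) * ‖x‖ ^ 4 := by
        rw [Finset.sum_add_distrib, Finset.sum_add_distrib, hn, hn, hz1]
        simp; ring

theorem JN.p1 (h : JN J r0 C) {r1 : ℝ} (hr1 : r1 < r0) :
    ∃ C2, 0 ≤ C2 ∧ ∀ x, ‖x‖ ≤ r1 → ∀ η : Fin N → ℂ,
      (∀ j, ∑ c, rc (Jm J c j) x * η c = -I * η j) →
      (2 - C2 * ‖x‖ ^ 2) * ∑ j, ‖η j‖ ^ 2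
        ≤ (∑ k, ∑ j, Hco (eb N) (fr J) (wc J) qq k j x * η j * conj (η k)).re := by
  obtain ⟨CR, hCR, hR⟩ := BO.unif (κ := Fin N × Fin N) (r := r1) (k := 2)
    (f := fun p => Rm2 J p.1 p.2) (fun p => h.bo_Rm2 r1 p.1 p.2)
  have h' := h.absC
  set D : ℝ := |C| with hD
  have hD0 : 0 ≤ D := abs_nonneg C
  refine ⟨(N : ℝ) * (4 * D + CR), by positivity, fun x hx η hη => ?_⟩
  set p : ℝ := ∑ i, ‖η i‖ with hp
  have hp0 : 0 ≤ p := Finset.sum_nonneg fun i _ => norm_nonneg _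
  set Q : ℝ := ∑ i, ‖η i‖ ^ 2 with hQ
  have hpQ : p ^ 2 ≤ (N : ℝ) * Q := by
    have := sq_sum_le η
    simpa using this
  set g : Fin N → ℂ := fun b => ∑ j, cj (fr J j) b x * η j with hg
  have e1 : ∑ k, ∑ j, Hco (eb N) (fr J) (wc J) qq k j x * η j * conj (η k)
      = 2 * ∑ b, g b * conj (g b) + ∑ k, ∑ j, Rm2 J k j x * η j * conj (η k) := by
    have h1 : ∀ b, g b * conj (g b)
        = ∑ k, ∑ j, fr J k b x * cj (fr J j) b x * η j * conj (η k) := by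
      intro b
      have h2 : conj (g b) = ∑ k, fr J k b x * conj (η k) := by
        rw [hg, map_sum]
        refine Finset.sum_congr rfl fun k _ => ?_
        rw [map_mul]
        simp [cj]
      rw [h2, Finset.mul_sum]
      refine Finset.sum_congr rfl fun k _ => ?_
      rw [hg, Finset.sum_mul]
      exact Finset.sum_congr rfl fun j _ => by ring
    have h3 : ∑ b, g b * conj (g b)
        = ∑ k, ∑ j, ∑ b, fr J k b x * cj (fr J j) b x * η j * conj (η k) := by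
      rw [Finset.sum_congr rfl fun b _ => h1 b, Finset.sum_comm]
      exact Finset.sum_congr rfl fun k _ => Finset.sum_comm
    rw [h3, Finset.mul_sum, ← Finset.sum_add_distrib]
    refine Finset.sum_congr rfl fun k _ => ?_
    rw [Finset.mul_sum, ← Finset.sum_add_distrib]
    refine Finset.sum_congr rfl fun j _ => ?_
    rw [Hco_qq h.jg.smooth, add_mul, add_mul]
    congr 1
    rw [Finset.mul_sum, Finset.sum_mul, Finset.sum_mul, Finset.mul_sum]
    exact Finset.sum_congr rfl fun b _ => by ring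
  have e2 : (2 * ∑ b, g b * conj (g b) : ℂ).re = 2 * ∑ b, ‖g b‖ ^ 2 := by
    have : ∀ b, g b * conj (g b) = ((‖g b‖ ^ 2 : ℝ) : ℂ) := fun b => by
      rw [Complex.mul_conj, Complex.normSq_eq_norm_sq]
    simp_rw [this]
    rw [← Complex.ofReal_sum, show (2 : ℂ) = ((2 : ℝ) : ℂ) by norm_cast, ← Complex.ofReal_mul,
      Complex.ofReal_re]
  have e3 : ∀ b, ‖g b - η b‖ ≤ D * ‖x‖ ^ 2 * p := by
    intro b
    have h1 : g b = (1 / 2 : ℂ) * (η b - I * ∑ j, rc (Jm J b j) x * η j) := by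
      have h2 : ∀ j, cj (fr J j) b x * η j
          = (1 / 2 : ℂ) * ((if b = j then η j else 0) - I * (rc (Jm J b j) x * η j)) := by
        intro j
        rw [cj_fr]; split_ifs <;> ring
      rw [hg]
      simp only
      rw [Finset.sum_congr rfl fun j _ => h2 j, ← Finset.mul_sum, Finset.sum_sub_distrib,
        Finset.sum_ite_eq, ← Finset.mul_sum]
      simp
    have h3 : η b = I * ∑ j, rc (Jm J j b) x * η j := by
      rw [hη b]
      have hI : I * I = -1 := Complex.I_mul_I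
      linear_combination (η b) * hI
    have h4 : g b - η b = -(I / 2) * ∑ j, ((Jm J j b x + Jm J b j x : ℝ) : ℂ) * η j := by
      have h5 : ∑ j, ((Jm J j b x + Jm J b j x : ℝ) : ℂ) * η j
          = ∑ j, rc (Jm J j b) x * η j + ∑ j, rc (Jm J b j) x * η j := by
        rw [← Finset.sum_add_distrib]
        refine Finset.sum_congr rfl fun j _ => ?_
        unfold rc; push_cast; ring
      rw [h5, h1]
      linear_combination (-(1 / 2 : ℂ)) * h3
    rw [h4, norm_mul]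
    have h6 : ‖-(I / 2)‖ = 1 / 2 := by simp
    rw [h6]
    have h7 : ‖∑ j, ((Jm J j b x + Jm J b j x : ℝ) : ℂ) * η j‖ ≤ 2 * (D * ‖x‖ ^ 2) * p := by
      refine (norm_sum_le _ _).trans ?_
      rw [hp, Finset.mul_sum]
      refine Finset.sum_le_sum fun j _ => ?_
      rw [norm_mul, Complex.norm_real, Real.norm_eq_abs]
      refine mul_le_mul_of_nonneg_right ?_ (norm_nonneg _)
      have h8 := h'.entry j b (x := x) (lt_of_le_of_lt hx hr1)
      have h9 := h'.entry b j (x := x) (lt_of_le_of_lt hx hr1)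
      have h10 := h'.anti j b
      have h11 : Jm J j b x + Jm J b j x
          = (Jm J j b x - Jm J j b 0) + (Jm J b j x - Jm J b j 0) := by rw [h10]; ring
      rw [h11]
      refine (abs_add_le _ _).trans ?_
      linarith
    linarith
  have e4 : Q - 2 * (D * ‖x‖ ^ 2) * p ^ 2 ≤ ∑ b, ‖g b‖ ^ 2 := by
    have h1 : ∀ b, ‖η b‖ ^ 2 - 2 * (D * ‖x‖ ^ 2 * p) * ‖η b‖ ≤ ‖g b‖ ^ 2 := by
      intro b
      have h2 : ‖η b‖ ≤ ‖g b‖ + D * ‖x‖ ^ 2 * p := by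
        have h3 : η b = g b - (g b - η b) := by ring
        calc ‖η b‖ = ‖g b - (g b - η b)‖ := by rw [← h3]
          _ ≤ ‖g b‖ + ‖g b - η b‖ := norm_sub_le _ _
          _ ≤ _ := by linarith [e3 b]
      have h4 : 0 ≤ D * ‖x‖ ^ 2 * p := by positivity
      have h5 := norm_nonneg (g b)
      have h6 := norm_nonneg (η b)
      by_cases h7 : ‖η b‖ ≤ D * ‖x‖ ^ 2 * p
      · nlinarith
      · push Not at h7
        have h8 : ‖η b‖ - D * ‖x‖ ^ 2 * p ≤ ‖g b‖ := by linarith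
        have h9 : (‖η b‖ - D * ‖x‖ ^ 2 * p) ^ 2 ≤ ‖g b‖ ^ 2 :=
          pow_le_pow_left₀ (by linarith) h8 2
        nlinarith
    calc Q - 2 * (D * ‖x‖ ^ 2) * p ^ 2
        = ∑ b, (‖η b‖ ^ 2 - 2 * (D * ‖x‖ ^ 2 * p) * ‖η b‖) := by
          rw [Finset.sum_sub_distrib, ← Finset.mul_sum]; ring
      _ ≤ _ := Finset.sum_le_sum fun b _ => h1 b
  have e5 : -(CR * ‖x‖ ^ 2 * p ^ 2) ≤ (∑ k, ∑ j, Rm2 J k j x * η j * conj (η k)).re := by
    have h1 : ‖∑ k, ∑ j, Rm2 J k j x * η j * conj (η k)‖ ≤ CR * ‖x‖ ^ 2 * p ^ 2 := by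
      calc ‖∑ k, ∑ j, Rm2 J k j x * η j * conj (η k)‖
          ≤ ∑ k, ∑ j, (CR * ‖x‖ ^ 2) * (‖η j‖ * ‖η k‖) := by
            refine (norm_sum_le _ _).trans (Finset.sum_le_sum fun k _ => ?_)
            refine (norm_sum_le _ _).trans (Finset.sum_le_sum fun j _ => ?_)
            rw [norm_mul, norm_mul, RCLike.norm_conj, mul_assoc]
            exact mul_le_mul_of_nonneg_right (hR (k, j) x hx) (by positivity)
        _ = CR * ‖x‖ ^ 2 * p ^ 2 := by
            have h2 : p ^ 2 = ∑ k, ∑ j, ‖η j‖ * ‖η k‖ := by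
              rw [sq]
              nth_rewrite 2 [hp]
              rw [Finset.mul_sum]
              refine Finset.sum_congr rfl fun k _ => ?_
              rw [hp, Finset.sum_mul]
            rw [h2, Finset.mul_sum]
            exact Finset.sum_congr rfl fun k _ => by rw [Finset.mul_sum]
    have h3 : -(∑ k, ∑ j, Rm2 J k j x * η j * conj (η k)).re
        ≤ ‖∑ k, ∑ j, Rm2 J k j x * η j * conj (η k)‖ := by
      rw [← Complex.neg_re, ← norm_neg]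
      exact Complex.re_le_norm _
    linarith
  rw [e1, Complex.add_re, e2]
  have h6 : (4 * D + CR) * ‖x‖ ^ 2 * p ^ 2 ≤ (4 * D + CR) * ‖x‖ ^ 2 * ((N : ℝ) * Q) :=
    mul_le_mul_of_nonneg_left hpQ (by positivity)
  nlinarith [e4, e5, h6]

end

end Crest.Agent.R260.BKX_680
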