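import Crest.Agent.R260.BKX6_680

/-! # Bochner-Kodaira estimate for exact forms, part 7: chain rule for the Levi form and positivity
for the radial weights `K/(r²-|x|²) + M log(|x|²+ε)`. -/

namespace Crest.Agent.R260.BKX_680

open MeasureTheory Complex Set Filter Topology
open scoped ContDiff ComplexConjugate BigOperators

set_option linter.unusedSectionVars false

noncomputable section

section chain

variable {E : Type} [NormedAddCommGroup E] [NormedSpace ℝ E]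
variable {κ : Type} [Fintype κ] {e : κ → E}
variable {ι : Type} [Fintype ι]

theorem Xd_congr {ξ : κ → E → ℂ} {u v : E → ℂ} {x : E} (h : u =ᶠ[𝓝 x] v) :
    Xd e ξ u x = Xd e ξ v x := by
  unfold Xd pd
  rw [h.fderiv_eq]

theorem Xd_congr_ev {ξ : κ → E → ℂ} {u v : E → ℂ} {x : E} (h : u =ᶠ[𝓝 x] v) :
    Xd e ξ u =ᶠ[𝓝 x] Xd e ξ v := by
  filter_upwards [h.eventuallyEq_nhds] with y hy
  exact Xd_congr hy

theorem Xd_congr_field {ξ η : κ → E → ℂ} {u : E → ℂ} {x : E} (h : ∀ a, ξ a x = η a x) :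
    Xd e ξ u x = Xd e η u x := by
  unfold Xd
  exact Finset.sum_congr rfl fun a _ => by rw [h a]

theorem rc_congr {Φ Ψ : E → ℝ} {x : E} (h : Φ =ᶠ[𝓝 x] Ψ) : rc Φ =ᶠ[𝓝 x] rc Ψ := by
  filter_upwards [h] with y hy
  simp [rc, hy]

theorem pd_rc_comp {q Φ : E → ℝ} (hq : ContDiff ℝ ∞ q) {F F1 : ℝ → ℝ} {x : E}
    (hF : HasDerivAt F (F1 (q x)) (q x)) (hΦ : Φ =ᶠ[𝓝 x] fun y => F (q y)) (v : E) :
    pd v (rc Φ) x = ((F1 (q x) : ℝ) : ℂ) * pd v (rc q) x := by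
  have hqd : HasFDerivAt q (fderiv ℝ q x) x := ((hq.differentiable (by simp)) x).hasFDerivAt
  have h1 : HasFDerivAt (fun y => F (q y)) (F1 (q x) • fderiv ℝ q x) x :=
    hF.comp_hasFDerivAt x hqd
  have h2 : HasFDerivAt Φ (F1 (q x) • fderiv ℝ q x) x := h1.congr_of_eventuallyEq hΦ
  have h3 : HasFDerivAt (rc Φ) (Complex.ofRealCLM.comp (F1 (q x) • fderiv ℝ q x)) x :=
    (Complex.ofRealCLM.hasFDerivAt (x := Φ x)).comp x h2
  have h4 : HasFDerivAt (rc q) (Complex.ofRealCLM.comp (fderiv ℝ q x)) x :=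
    (Complex.ofRealCLM.hasFDerivAt (x := q x)).comp x hqd
  unfold pd
  rw [h3.fderiv, h4.fderiv]
  simp

theorem Hco_comp {ξ : ι → κ → E → ℂ} {β : ι → ι → ι → E → ℂ} {q Φ : E → ℝ}
    (hξ : ∀ j a, ContDiff ℝ ∞ (ξ j a)) (hq : ContDiff ℝ ∞ q)
    {F F1 F2 : ℝ → ℝ} {x : E} (hF : ∀ᶠ y in 𝓝 x, HasDerivAt F (F1 (q y)) (q y))
    (hF1 : HasDerivAt F1 (F2 (q x)) (q x)) (hΦ : Φ =ᶠ[𝓝 x] fun y => F (q y)) (k j : ι) :
    Hco e ξ β Φ k j x = ((F1 (q x) : ℝ) : ℂ) * Hco e ξ β q k j x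
      + ((F2 (q x) : ℝ) : ℂ) * (Xd e (ξ k) (rc q) x * Xd e (cj (ξ j)) (rc q) x) := by
  have hstep : ∀ j, Xd e (cj (ξ j)) (rc Φ) =ᶠ[𝓝 x]
      fun y => rc (fun z => F1 (q z)) y * Xd e (cj (ξ j)) (rc q) y := by
    intro j
    filter_upwards [hF, hΦ.eventuallyEq_nhds] with y hy1 hy2
    unfold Xd
    rw [Finset.mul_sum]
    refine Finset.sum_congr rfl fun a _ => ?_
    rw [pd_rc_comp hq hy1 hy2]
    unfold rc
    ring
  have hqd : HasFDerivAt q (fderiv ℝ q x) x := ((hq.differentiable (by simp)) x).hasFDerivAt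
  have hA : HasFDerivAt (rc fun z => F1 (q z))
      (Complex.ofRealCLM.comp (F2 (q x) • fderiv ℝ q x)) x :=
    (Complex.ofRealCLM.hasFDerivAt (x := F1 (q x))).comp x (hF1.comp_hasFDerivAt x hqd)
  have hB : HasFDerivAt (rc q) (Complex.ofRealCLM.comp (fderiv ℝ q x)) x :=
    (Complex.ofRealCLM.hasFDerivAt (x := q x)).comp x hqd
  have hC : DifferentiableAt ℝ (Xd e (cj (ξ j)) (rc q)) x :=
    smooth_diff (Xd_smooth (cj_smooth (hξ j)) (rc_smooth hq)) x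
  have h1 : Xd e (ξ k) (Xd e (cj (ξ j)) (rc Φ)) x
      = ((F1 (q x) : ℝ) : ℂ) * Xd e (ξ k) (Xd e (cj (ξ j)) (rc q)) x
        + ((F2 (q x) : ℝ) : ℂ) * (Xd e (ξ k) (rc q) x * Xd e (cj (ξ j)) (rc q) x) := by
    rw [Xd_congr (hstep j)]
    have h2 : ∀ a, pd (e a) (fun y => rc (fun z => F1 (q z)) y * Xd e (cj (ξ j)) (rc q) y) x
        = ((F1 (q x) : ℝ) : ℂ) * pd (e a) (Xd e (cj (ξ j)) (rc q)) x
          + ((F2 (q x) : ℝ) : ℂ) * (pd (e a) (rc q) x * Xd e (cj (ξ j)) (rc q) x) := by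
      intro a
      unfold pd
      rw [fderiv_fun_mul hA.differentiableAt hC, hA.fderiv, hB.fderiv]
      simp [rc]
      ring
    conv_lhs => unfold Xd
    conv_rhs => unfold Xd
    rw [Finset.mul_sum, Finset.sum_mul, Finset.mul_sum, ← Finset.sum_add_distrib]
    refine Finset.sum_congr rfl fun a _ => ?_
    have h3 := h2 a
    unfold Xd at h3
    rw [h3]
    ring
  unfold Hco
  rw [h1]
  have h4 : ∀ l, β k j l x * Xd e (cj (ξ l)) (rc Φ) x
      = ((F1 (q x) : ℝ) : ℂ) * (β k j l x * Xd e (cj (ξ l)) (rc q) x) := by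
    intro l
    rw [(hstep l).eq_of_nhds]
    unfold rc
    ring
  rw [Finset.sum_congr rfl fun l _ => h4 l, ← Finset.mul_sum]
  ring

end chain

/-! ### positivity -/

variable {N : ℕ} {J : Eu N → Eu N →L[ℝ] Eu N} {r0 C : ℝ}

/-- elementary inequality -/
theorem scal_pos {t ε δ K M C2 C3 A T Q Cc : ℝ} (ht : 0 ≤ t) (hε : 0 < ε) (hδ : 0 < δ)
    (hδ1 : δ ≤ 1) (hK : 0 ≤ K) (hM : 0 ≤ M) (hC2 : 0 ≤ C2) (hC3 : 0 ≤ C3)
    (hQ : 0 ≤ Q) (hC2t : C2 * t ≤ 1)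
    (hA : (2 - C2 * t) * Q ≤ A) (hT0 : 0 ≤ T) (hT : T ≤ (2 * t + C3 * t ^ 2) * Q)
    (hKC : Cc + M * (C2 + C3) ≤ K) :
    Cc * (δ⁻¹) ^ 2 * Q
      ≤ (K / δ ^ 2 + M / (t + ε)) * A + (2 * K / δ ^ 3 - M / (t + ε) ^ 2) * T := by
  have hte : 0 < t + ε := by linarith
  set b : ℝ := (δ⁻¹) ^ 2 with hb
  have hb1 : 1 ≤ b := one_le_pow₀ ((one_le_inv₀ hδ).mpr hδ1)
  have hKb : K / δ ^ 2 = K * b := by rw [hb]; field_simp
  set s : ℝ := (t + ε)⁻¹ with hs
  have hs0 : 0 < s := inv_pos.mpr hte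
  have e1 : M / (t + ε) = M * s := by rw [hs, div_eq_mul_inv]
  have e2 : M / (t + ε) ^ 2 = M * s ^ 2 := by rw [hs, div_eq_mul_inv, inv_pow]
  have hts : t * s ≤ 1 := by
    rw [hs, ← div_eq_mul_inv]
    exact (div_le_one hte).mpr (by linarith)
  have hts0 : 0 ≤ t * s := mul_nonneg ht hs0.le
  rw [hKb, e1, e2]
  -- the K part
  have hA1 : Q ≤ A := by
    refine le_trans ?_ hA
    nlinarith
  have hk : K * b * Q ≤ K * b * A := mul_le_mul_of_nonneg_left hA1 (by positivity)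
  have hk2 : 0 ≤ 2 * K / δ ^ 3 * T := by positivity
  -- the M part
  have hm : -(M * (C2 + C3)) * Q ≤ M * s * A - M * s ^ 2 * T := by
    have h1 : M * s * ((2 - C2 * t) * Q) ≤ M * s * A :=
      mul_le_mul_of_nonneg_left hA (by positivity)
    have h2 : M * s ^ 2 * T ≤ M * s ^ 2 * ((2 * t + C3 * t ^ 2) * Q) :=
      mul_le_mul_of_nonneg_left hT (by positivity)
    have h3 : -(C2 + C3) ≤ s * (2 - C2 * t) - s ^ 2 * (2 * t + C3 * t ^ 2) := by
      have h4 : s * (2 - C2 * t) - s ^ 2 * (2 * t + C3 * t ^ 2)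
          = 2 * s * (1 - t * s) - C2 * (t * s) - C3 * (t * s) ^ 2 := by ring
      rw [h4]
      have h5 : (t * s) ^ 2 ≤ 1 := pow_le_one₀ hts0 hts
      nlinarith [mul_nonneg hs0.le (sub_nonneg.mpr hts)]
    have h6 : 0 ≤ M * Q := mul_nonneg hM hQ
    nlinarith [mul_le_mul_of_nonneg_left h3 h6]
  have h7 : (Cc + M * (C2 + C3)) * b * Q ≤ K * b * Q := by
    have : 0 ≤ b * Q := by positivity
    nlinarith
  have h8 : M * (C2 + C3) * Q ≤ M * (C2 + C3) * b * Q := by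
    have h9 : 0 ≤ M * (C2 + C3) * Q := by positivity
    nlinarith
  have h10 : (K * b + M * s) * A + (2 * K / δ ^ 3 - M * s ^ 2) * T
      = K * b * A + 2 * K / δ ^ 3 * T + (M * s * A - M * s ^ 2 * T) := by ring
  rw [h10]
  linarith

/-- the weight -/
def wt (r K M ε : ℝ) (x : Eu N) : ℝ := K / (r ^ 2 - ‖x‖ ^ 2) + M * Real.log (‖x‖ ^ 2 + ε)

/-- positivity of the Levi form of the weight -/
theorem JN.pos_wt (h : JN J r0 C) {r1 : ℝ} (hr1 : r1 < r0) (hr1' : r1 ≤ 1) :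
    ∃ C2 C3, 0 ≤ C2 ∧ 0 ≤ C3 ∧ ∀ r K M ε Cc : ℝ, 0 < r → r ≤ r1 → C2 * r ^ 2 ≤ 1 → 0 ≤ M →
      0 < ε → 0 ≤ Cc → Cc + M * (C2 + C3) ≤ K →
      ∀ x, ‖x‖ < r → ∀ Φ : Eu N → ℝ, Φ =ᶠ[𝓝 x] wt r K M ε → ∀ η : Fin N → ℂ,
      (∀ j, ∑ c, rc (Jm J c j) x * η c = -I * η j) →
      Cc * ((r ^ 2 - ‖x‖ ^ 2)⁻¹) ^ 2 * ∑ j, ‖η j‖ ^ 2
        ≤ (∑ k, ∑ j, Hco (eb N) (fr J) (wc J) Φ k j x * η j * conj (η k)).re := by
  obtain ⟨C2, hC2, hp1⟩ := h.p1 hr1
  refine ⟨C2, (N : ℝ) * (2 * |C| + |C| ^ 2), hC2, by positivity, ?_⟩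
  intro r K M ε Cc hr hrr hC2r hM hε hCc hKC x hx Φ hΦ η hη
  set C3 : ℝ := (N : ℝ) * (2 * |C| + |C| ^ 2) with hC3
  have hC30 : 0 ≤ C3 := by positivity
  have hK : 0 ≤ K := le_trans (by positivity) hKC
  set t : ℝ := ‖x‖ ^ 2 with ht
  have ht0 : 0 ≤ t := by positivity
  have htr : t < r ^ 2 := by
    rw [ht]; exact pow_lt_pow_left₀ hx (norm_nonneg _) (by norm_num)
  set δ : ℝ := r ^ 2 - t with hδ
  have hδ0 : 0 < δ := by linarith
  have hr1r : r ^ 2 ≤ 1 := pow_le_one₀ hr.le (hrr.trans hr1')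
  have hδ1 : δ ≤ 1 := by linarith
  -- the profile
  set F : ℝ → ℝ := fun s => K / (r ^ 2 - s) + M * Real.log (s + ε) with hF
  set F1 : ℝ → ℝ := fun s => K / (r ^ 2 - s) ^ 2 + M / (s + ε) with hF1
  set F2 : ℝ → ℝ := fun s => 2 * K / (r ^ 2 - s) ^ 3 - M / (s + ε) ^ 2 with hF2
  have hFd : ∀ s, s < r ^ 2 → 0 < s + ε → HasDerivAt F (F1 s) s := by
    intro s hs hs2
    have h1 : HasDerivAt (fun s : ℝ => r ^ 2 - s) (-1) s := (hasDerivAt_id s).const_sub (r ^ 2)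
    have h2 : HasDerivAt (fun s : ℝ => K / (r ^ 2 - s)) (K / (r ^ 2 - s) ^ 2) s := by
      have := (hasDerivAt_const s K).fun_div h1 (by linarith)
      refine this.congr_deriv ?_
      simp
    have h3 : HasDerivAt (fun s : ℝ => M * Real.log (s + ε)) (M / (s + ε)) s := by
      have h4 : HasDerivAt (fun s : ℝ => s + ε) 1 s := (hasDerivAt_id s).add_const ε
      have := (h4.log hs2.ne').const_mul M
      refine this.congr_deriv ?_
      ring
    exact h2.add h3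
  have hF1d : ∀ s, s < r ^ 2 → 0 < s + ε → HasDerivAt F1 (F2 s) s := by
    intro s hs hs2
    have hne : r ^ 2 - s ≠ 0 := by linarith
    have h1 : HasDerivAt (fun s : ℝ => r ^ 2 - s) (-1) s := (hasDerivAt_id s).const_sub (r ^ 2)
    have h2 : HasDerivAt (fun s : ℝ => K / (r ^ 2 - s) ^ 2) (2 * K / (r ^ 2 - s) ^ 3) s := by
      have := (hasDerivAt_const s K).fun_div (h1.fun_pow 2) (pow_ne_zero 2 hne)
      refine this.congr_deriv ?_
      field_simp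
      ring
    have h3 : HasDerivAt (fun s : ℝ => M / (s + ε)) (-(M / (s + ε) ^ 2)) s := by
      have h4 : HasDerivAt (fun s : ℝ => s + ε) 1 s := (hasDerivAt_id s).add_const ε
      have := (hasDerivAt_const s M).fun_div h4 hs2.ne'
      refine this.congr_deriv ?_
      ring
    have := h2.add h3
    exact this
  have hev : ∀ᶠ y in 𝓝 x, HasDerivAt F (F1 (qq y)) (qq y) := by
    have ho : IsOpen {y : Eu N | qq y < r ^ 2} := isOpen_lt qq_smooth.continuous continuous_const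
    filter_upwards [ho.mem_nhds (show x ∈ {y : Eu N | qq y < r ^ 2} from htr)] with y hy
    exact hFd _ hy (by have : 0 ≤ qq y := by unfold qq; positivity
                       linarith)
  have hΦ' : Φ =ᶠ[𝓝 x] fun y => F (qq y) := hΦ
  have hH : ∀ k j, Hco (eb N) (fr J) (wc J) Φ k j x
      = ((F1 t : ℝ) : ℂ) * Hco (eb N) (fr J) (wc J) qq k j x
        + ((F2 t : ℝ) : ℂ) * (Xd (eb N) (fr J k) (rc qq) x
          * Xd (eb N) (cj (fr J j)) (rc qq) x) := fun k j =>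
    Hco_comp (fun j a => fr_smooth h.jg.smooth j a) qq_smooth hev
      (hF1d _ htr (by positivity)) hΦ' k j
  set A : ℝ := (∑ k, ∑ j, Hco (eb N) (fr J) (wc J) qq k j x * η j * conj (η k)).re with hA
  set T : ℝ := ‖∑ j, Xd (eb N) (cj (fr J j)) (rc qq) x * η j‖ ^ 2 with hT
  have hsum : (∑ k, ∑ j, Hco (eb N) (fr J) (wc J) Φ k j x * η j * conj (η k)).re
      = F1 t * A + F2 t * T := by
    have h1 : ∑ k, ∑ j, Hco (eb N) (fr J) (wc J) Φ k j x * η j * conj (η k)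
        = ((F1 t : ℝ) : ℂ) * ∑ k, ∑ j, Hco (eb N) (fr J) (wc J) qq k j x * η j * conj (η k)
          + ((F2 t : ℝ) : ℂ) * ((∑ j, Xd (eb N) (cj (fr J j)) (rc qq) x * η j)
            * conj (∑ k, Xd (eb N) (cj (fr J k)) (rc qq) x * η k)) := by
      have h2 : conj (∑ k, Xd (eb N) (cj (fr J k)) (rc qq) x * η k)
          = ∑ k, Xd (eb N) (fr J k) (rc qq) x * conj (η k) := by
        rw [map_sum]
        refine Finset.sum_congr rfl fun k _ => ?_
        rw [map_mul, Xd_rc qq_smooth, Complex.conj_conj]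
      rw [h2, Finset.mul_sum, Finset.mul_sum, Finset.mul_sum, ← Finset.sum_add_distrib]
      refine Finset.sum_congr rfl fun k _ => ?_
      rw [Finset.sum_mul, Finset.mul_sum, Finset.mul_sum, ← Finset.sum_add_distrib]
      refine Finset.sum_congr rfl fun j _ => ?_
      rw [hH k j]
      ring
    rw [h1, Complex.add_re, Complex.re_ofReal_mul, Complex.re_ofReal_mul, Complex.mul_conj,
      Complex.normSq_eq_norm_sq, Complex.ofReal_re]
  rw [hsum]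
  have hA' : (2 - C2 * t) * ∑ j, ‖η j‖ ^ 2 ≤ A := hp1 x (le_of_lt (lt_of_lt_of_le hx hrr)) η hη
  have hT' : T ≤ (2 * t + C3 * t ^ 2) * ∑ j, ‖η j‖ ^ 2 := by
    have := h.p2 x (lt_of_lt_of_le hx (hrr.trans hr1.le)) (le_of_lt (lt_of_lt_of_le hx
      (hrr.trans hr1'))) η
    rw [ht, ← pow_mul]
    exact this
  have hC2t : C2 * t ≤ 1 := le_trans (mul_le_mul_of_nonneg_left htr.le hC2) hC2r
  have := scal_pos (A := A) (T := T) (Q := ∑ j, ‖η j‖ ^ 2) ht0 hε hδ0 hδ1 hK hM hC2 hC30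
    (Finset.sum_nonneg fun j _ => by positivity) hC2t hA' (by positivity) hT' hKC
  exact this

end

end Crest.Agent.R260.BKX_680
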