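import Mathlib

/-!
Row 260, NN (P1) of helper680's #6155 (helper250): the cut-off functions `eta r ν` of the ball of radius `r`:
`eta = 1` where `2 / ν ≤ s`, `eta = 0` where `s ≤ 1 / ν`, `s x = r² - |x|²`, and `|D eta (v)| s ≤ C |v|` with
`C` independent of `ν`.
-/

set_option autoImplicit false
set_option linter.unusedSectionVars false

open Set Filter Topology Metric
open scoped ContDiff

noncomputable section

namespace Crest.Agent.R260.CutNu_250

lemma st_deriv_bd : ∃ M : ℝ, 0 < M ∧ ∀ t : ℝ, |deriv Real.smoothTransition t| ≤ M := by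
  have hc : Continuous (deriv Real.smoothTransition) :=
    (Real.smoothTransition.contDiff (n := 1)).continuous_deriv le_rfl
  obtain ⟨M, hM⟩ := (isCompact_Icc (a := (0 : ℝ)) (b := 1)).exists_bound_of_continuousOn
    hc.continuousOn
  refine ⟨max M 1, by positivity, fun t => ?_⟩
  by_cases ht : t ∈ Icc (0 : ℝ) 1
  · exact (hM t ht).trans (le_max_left _ _)
  · have h1 : deriv Real.smoothTransition t = 0 := by
      rcases lt_or_ge t 0 with h | h
      · have h2 : Real.smoothTransition =ᶠ[𝓝 t] fun _ => (0 : ℝ) := by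
          filter_upwards [Iio_mem_nhds h] with u hu
          exact Real.smoothTransition.zero_of_nonpos (le_of_lt hu)
        rw [h2.deriv_eq]; simp
      · have h3 : 1 < t := not_le.1 fun h3 => ht ⟨h, h3⟩
        have h2 : Real.smoothTransition =ᶠ[𝓝 t] fun _ => (1 : ℝ) := by
          filter_upwards [Ioi_mem_nhds h3] with u hu
          exact Real.smoothTransition.one_of_one_le (le_of_lt hu)
        rw [h2.deriv_eq]; simp
    rw [h1, abs_zero]
    positivity

variable {V : Type*} [NormedAddCommGroup V] [InnerProductSpace ℝ V]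

/-- the defining function of the ball -/
def sr (r : ℝ) (x : V) : ℝ := r ^ 2 - ‖x‖ ^ 2

/-- the cut-off function -/
def eta (r ν : ℝ) (x : V) : ℝ := Real.smoothTransition (ν * sr r x - 1)

/-- the cut-off function, complex valued -/
def etaC (r ν : ℝ) (x : V) : ℂ := (eta r ν x : ℂ)

variable {r ν : ℝ}

lemma sr_smooth : ContDiff ℝ ∞ (sr r : V → ℝ) := contDiff_const.sub (contDiff_norm_sq ℝ)

lemma eta_smooth : ContDiff ℝ ∞ (eta r ν : V → ℝ) :=
  Real.smoothTransition.contDiff.comp ((contDiff_const.mul sr_smooth).sub contDiff_const)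

lemma etaC_smooth : ContDiff ℝ ∞ (etaC r ν : V → ℂ) := Complex.ofRealCLM.contDiff.comp eta_smooth

lemma eta_nonneg (x : V) : 0 ≤ eta r ν x := Real.smoothTransition.nonneg _

lemma eta_le_one (x : V) : eta r ν x ≤ 1 := Real.smoothTransition.le_one _

lemma norm_etaC_le (x : V) : ‖etaC r ν x‖ ≤ 1 := by
  unfold etaC
  rw [Complex.norm_real, Real.norm_of_nonneg (eta_nonneg x)]
  exact eta_le_one x

lemma eta_one (hν : 0 < ν) {x : V} (h : 2 / ν ≤ sr r x) : eta r ν x = 1 := by
  refine Real.smoothTransition.one_of_one_le ?_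
  rw [div_le_iff₀' hν] at h
  linarith

lemma eta_zero (hν : 0 < ν) {x : V} (h : sr r x ≤ 1 / ν) : eta r ν x = 0 := by
  refine Real.smoothTransition.zero_of_nonpos ?_
  rw [le_div_iff₀' hν] at h
  linarith

lemma etaC_one (hν : 0 < ν) {x : V} (h : 2 / ν ≤ sr r x) : etaC r ν x = 1 := by
  unfold etaC; rw [eta_one hν h, Complex.ofReal_one]

lemma etaC_zero (hν : 0 < ν) {x : V} (h : sr r x ≤ 1 / ν) : etaC r ν x = 0 := by
  unfold etaC; rw [eta_zero hν h, Complex.ofReal_zero]

/-- for every point of the ball `eta = 1` near the point, for all large `ν` -/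
lemma eta_one_ev {x : V} (hx : x ∈ ball (0 : V) r) :
    ∃ ν₀ : ℝ, 0 < ν₀ ∧ ∀ ν ≥ ν₀, ∀ᶠ y in 𝓝 x, eta r ν y = 1 := by
  have hx' : ‖x‖ < r := by simpa using hx
  have hs : 0 < sr r x := by
    have h0 := norm_nonneg x
    unfold sr; nlinarith
  refine ⟨4 / sr r x, by positivity, fun ν hν => ?_⟩
  have hν0 : 0 < ν := lt_of_lt_of_le (by positivity) hν
  have h1 : ∀ᶠ y in 𝓝 x, sr r x / 2 < sr r y :=
    (sr_smooth (V := V) (r := r)).continuous.continuousAt.eventually
      (lt_mem_nhds (by linarith : sr r x / 2 < sr r x))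
  filter_upwards [h1] with y hy
  refine eta_one hν0 ?_
  rw [div_le_iff₀' hν0]
  rw [ge_iff_le, div_le_iff₀ hs] at hν
  have h3 : ν * (sr r x / 2) ≤ ν * sr r y := mul_le_mul_of_nonneg_left hy.le hν0.le
  linarith

lemma tsupport_sub (hν : 0 < ν) : tsupport (eta r ν : V → ℝ) ⊆ {x | 1 / ν ≤ sr r x} := by
  refine closure_minimal (fun x hx => ?_) (isClosed_le continuous_const sr_smooth.continuous)
  by_contra h
  exact hx (eta_zero hν (not_le.1 h).le)

lemma tsupportC_sub (hν : 0 < ν) : tsupport (etaC r ν : V → ℂ) ⊆ {x | 1 / ν ≤ sr r x} := by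
  refine closure_minimal (fun x hx => ?_) (isClosed_le continuous_const sr_smooth.continuous)
  by_contra h
  exact hx (etaC_zero hν (not_le.1 h).le)

lemma sub_ball (hr : 0 < r) (hν : 0 < ν) : {x : V | 1 / ν ≤ sr r x} ⊆ ball (0 : V) r := by
  intro x hx
  have h1 : 0 < 1 / ν := by positivity
  have h2 : 0 < sr r x := h1.trans_le hx
  unfold sr at h2
  rw [mem_ball_zero_iff]
  by_contra h
  push Not at h
  nlinarith

/-- the support lies in the open ball -/
lemma tsupport_ball (hr : 0 < r) (hν : 0 < ν) : tsupport (eta r ν : V → ℝ) ⊆ ball (0 : V) r :=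
  (tsupport_sub hν).trans (sub_ball hr hν)

lemma tsupportC_ball (hr : 0 < r) (hν : 0 < ν) : tsupport (etaC r ν : V → ℂ) ⊆ ball (0 : V) r :=
  (tsupportC_sub hν).trans (sub_ball hr hν)

lemma hasCompactSupport [FiniteDimensional ℝ V] (hr : 0 < r) (hν : 0 < ν) :
    HasCompactSupport (eta r ν : V → ℝ) :=
  (isCompact_closedBall (0 : V) r).of_isClosed_subset (isClosed_tsupport _)
    ((tsupport_ball hr hν).trans ball_subset_closedBall)

lemma hasCompactSupportC [FiniteDimensional ℝ V] (hr : 0 < r) (hν : 0 < ν) :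
    HasCompactSupport (etaC r ν : V → ℂ) :=
  (isCompact_closedBall (0 : V) r).of_isClosed_subset (isClosed_tsupport _)
    ((tsupportC_ball hr hν).trans ball_subset_closedBall)

/-- `TestC (ball 0 r) (etaC r ν)`, unfolded -/
lemma testC [FiniteDimensional ℝ V] (hr : 0 < r) (hν : 0 < ν) :
    ContDiff ℝ ∞ (etaC r ν : V → ℂ) ∧ HasCompactSupport (etaC r ν : V → ℂ) ∧
      tsupport (etaC r ν : V → ℂ) ⊆ ball (0 : V) r :=
  ⟨etaC_smooth, hasCompactSupportC hr hν, tsupportC_ball hr hν⟩

lemma sr_fderiv (x v : V) : fderiv ℝ (sr r) x v = -(2 * inner ℝ x v) := by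
  have h1 : HasFDerivAt (fun x : V => ‖x‖ ^ 2) (2 • (innerSL ℝ x)) x :=
    (hasStrictFDerivAt_norm_sq x).hasFDerivAt
  have h2 : HasFDerivAt (sr r : V → ℝ) (-(2 • (innerSL ℝ x))) x := h1.const_sub _
  rw [h2.fderiv]
  simp

lemma abs_sr_fderiv (x v : V) : |fderiv ℝ (sr r) x v| ≤ 2 * ‖x‖ * ‖v‖ := by
  rw [sr_fderiv, abs_neg, abs_mul, abs_of_pos (by norm_num : (0 : ℝ) < 2), mul_assoc]
  exact mul_le_mul_of_nonneg_left (abs_real_inner_le_norm x v) (by norm_num)

lemma eta_fderiv (x v : V) : fderiv ℝ (eta r ν) x v =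
    deriv Real.smoothTransition (ν * sr r x - 1) * (ν * fderiv ℝ (sr r) x v) := by
  have hs : HasFDerivAt (sr r : V → ℝ) (fderiv ℝ (sr r) x) x :=
    (sr_smooth.differentiable (by simp)).differentiableAt.hasFDerivAt
  have h1 : HasFDerivAt (fun x : V => ν * sr r x - 1) (ν • fderiv ℝ (sr r) x) x :=
    (hs.const_mul ν).sub_const 1
  have h2 : HasDerivAt Real.smoothTransition (deriv Real.smoothTransition (ν * sr r x - 1))
      (ν * sr r x - 1) :=
    ((Real.smoothTransition.contDiff (n := 1)).differentiable (by simp)).differentiableAt.hasDerivAt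
  have h3 := h2.comp_hasFDerivAt x h1
  have h4 : fderiv ℝ (eta r ν) x = _ := h3.fderiv
  rw [h4]
  simp

/-- **the bound of the derivative**, independent of `ν` -/
theorem exists_C (r : ℝ) (hr : 0 < r) : ∃ C : ℝ, 0 < C ∧ ∀ ν > 0, ∀ x v : V,
    |fderiv ℝ (eta r ν) x v| * |sr r x| ≤ C * ‖v‖ := by
  obtain ⟨M, hM0, hM⟩ := st_deriv_bd
  refine ⟨4 * M * r, by positivity, fun ν hν x v => ?_⟩
  by_cases hs : ν * sr r x - 1 ∈ Icc (0 : ℝ) 1
  · have hs1 : 0 < sr r x := by
      by_contra h
      push Not at h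
      have : ν * sr r x ≤ 0 := mul_nonpos_of_nonneg_of_nonpos hν.le h
      linarith [hs.1]
    have hx : ‖x‖ ≤ r := by
      unfold sr at hs1
      by_contra h
      push Not at h
      nlinarith
    rw [eta_fderiv, abs_mul, abs_mul, abs_of_pos hν, abs_of_pos hs1]
    have h1 := abs_sr_fderiv (r := r) x v
    have h2 : |fderiv ℝ (sr r) x v| ≤ 2 * r * ‖v‖ :=
      h1.trans (by have := norm_nonneg v; gcongr)
    have h3 : ν * sr r x ≤ 2 := by linarith [hs.2]
    calc |deriv Real.smoothTransition (ν * sr r x - 1)| * (ν * |fderiv ℝ (sr r) x v|) * sr r x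
        = |deriv Real.smoothTransition (ν * sr r x - 1)| * |fderiv ℝ (sr r) x v| *
          (ν * sr r x) := by ring
      _ ≤ M * (2 * r * ‖v‖) * 2 := by
          have := hM (ν * sr r x - 1)
          gcongr
      _ = _ := by ring
  · have h1 : fderiv ℝ (eta r ν) x v = 0 := by
      rw [eta_fderiv]
      have h2 : deriv Real.smoothTransition (ν * sr r x - 1) = 0 := by
        set t := ν * sr r x - 1 with ht
        rcases lt_or_ge t 0 with h | h
        · have h2 : Real.smoothTransition =ᶠ[𝓝 t] fun _ => (0 : ℝ) := by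
            filter_upwards [Iio_mem_nhds h] with u hu
            exact Real.smoothTransition.zero_of_nonpos (le_of_lt hu)
          rw [h2.deriv_eq]; simp
        · have h3 : 1 < t := not_le.1 fun h3 => hs ⟨h, h3⟩
          have h2 : Real.smoothTransition =ᶠ[𝓝 t] fun _ => (1 : ℝ) := by
            filter_upwards [Ioi_mem_nhds h3] with u hu
            exact Real.smoothTransition.one_of_one_le (le_of_lt hu)
          rw [h2.deriv_eq]; simp
      rw [h2, zero_mul]
    rw [h1, abs_zero, zero_mul]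
    positivity

lemma etaC_fderiv (x v : V) : fderiv ℝ (etaC r ν) x v = (fderiv ℝ (eta r ν) x v : ℂ) := by
  have h0 : HasFDerivAt (eta r ν : V → ℝ) (fderiv ℝ (eta r ν) x) x :=
    (eta_smooth.differentiable (by simp)).differentiableAt.hasFDerivAt
  have h1 : HasFDerivAt (etaC r ν : V → ℂ) (Complex.ofRealCLM.comp (fderiv ℝ (eta r ν) x)) x :=
    Complex.ofRealCLM.hasFDerivAt.comp x h0
  rw [h1.fderiv]
  rfl

/-- the bound for the complex valued function -/
theorem exists_CC (r : ℝ) (hr : 0 < r) : ∃ C : ℝ, 0 < C ∧ ∀ ν > 0, ∀ x v : V,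
    ‖fderiv ℝ (etaC r ν) x v‖ * |sr r x| ≤ C * ‖v‖ := by
  obtain ⟨C, hC, h⟩ := exists_C (V := V) r hr
  refine ⟨C, hC, fun ν hν x v => ?_⟩
  rw [etaC_fderiv, Complex.norm_real]
  exact h ν hν x v

end Crest.Agent.R260.CutNu_250
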