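import Crest.Agent.R260.NN0_900
import Crest.Agent.R260.CutNu_250

/-!
# Row 260, Newlander-Nirenberg: the redundant J-frame (helper250)

`V = EuclideanSpace ℝ (Fin N)`, `X_j = (1/2) (e_j + i J e_j)`.
-/

set_option autoImplicit false
set_option linter.unusedSectionVars false
set_option linter.deprecated false

noncomputable section

open MeasureTheory Filter Topology Set Metric
open scoped ContDiff ComplexConjugate

namespace Crest.Agent.R260.JFr_250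

open NN0_900 CutNu_250

variable {N : ℕ}

/-- abbreviation for the space -/
abbrev VV (N : ℕ) := EuclideanSpace ℝ (Fin N)

/-- the standard basis vector -/
abbrev ee (j : Fin N) : VV N := EuclideanSpace.single j (1 : ℝ)

/-- the redundant frame of `(0,1)` fields of `J` -/
def jfam (J : VV N → VV N →L[ℝ] VV N) : Fam (Fin N) (VV N) :=
  ⟨fun j _ => (1 / 2 : ℝ) • EuclideanSpace.single j (1 : ℝ),
    fun j x => (1 / 2 : ℝ) • J x (EuclideanSpace.single j (1 : ℝ))⟩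

variable (J : VV N → VV N →L[ℝ] VV N)

lemma jfam_A (j : Fin N) (x : VV N) : (jfam J).A j x = (1 / 2 : ℝ) • ee j := rfl

lemma jfam_B (j : Fin N) (x : VV N) : (jfam J).B j x = (1 / 2 : ℝ) • J x (ee j) := rfl

lemma sum_ee (v : VV N) : ∑ j, v j • ee j = v := by
  have h := (EuclideanSpace.basisFun (Fin N) ℝ).sum_repr v
  simpa using h

/-- a real linear map killing the basis is zero -/
lemma lin_ext {W : Type*} [AddCommGroup W] [Module ℝ W] {L : VV N →ₗ[ℝ] W}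
    (h : ∀ j, L (ee j) = 0) (v : VV N) : L v = 0 := by
  rw [← sum_ee v, map_sum]
  exact Finset.sum_eq_zero fun j _ => by rw [map_smul, h j, smul_zero]

/-- **(b)** the family is elliptic everywhere -/
theorem jfam_ell (Ω : Set (VV N)) : (jfam J).Ell Ω := by
  intro x _ L hL
  ext v
  have h : ∀ j, (L : VV N →ₗ[ℝ] ℝ) (ee j) = 0 := fun j => by
    have h1 := (hL j).1
    rw [jfam_A, map_smul, smul_eq_mul] at h1
    simpa using h1
  simpa using lin_ext h v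

/-- smoothness -/
theorem jfam_sm {Ω : Set (VV N)} (hJ : ContDiffOn ℝ ∞ J Ω) : (jfam J).Sm Ω :=
  ⟨fun _ => contDiffOn_const, fun j => by
    have h : ContDiffOn ℝ ∞ (fun x => (1 / 2 : ℝ) • J x (EuclideanSpace.single j (1 : ℝ))) Ω :=
      (hJ.clm_apply contDiffOn_const).const_smul _
    exact h⟩

/-- formula for `X_j` -/
theorem X_eq (j : Fin N) (g : VV N → ℂ) (x : VV N) : (jfam J).X j g x =
    (1 / 2) * (fderiv ℝ g x (ee j) + Complex.I * fderiv ℝ g x (J x (ee j))) := by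
  simp only [Fam.X, NN0_900.cd, jfam_A, jfam_B, map_smul, Complex.real_smul]
  push_cast
  ring

/-- formula for `Y_j` -/
theorem Y_eq (j : Fin N) (g : VV N → ℂ) (x : VV N) : (jfam J).Y j g x =
    (1 / 2) * (fderiv ℝ g x (ee j) - Complex.I * fderiv ℝ g x (J x (ee j))) := by
  simp only [Fam.Y, NN0_900.cd, jfam_A, jfam_B, map_neg, map_smul, Complex.real_smul]
  push_cast
  ring

/-- the frame in any direction: `(1/2)(g'(v) + i g'(J v)) = ∑ v_j X_j g` -/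
theorem sum_X (g : VV N → ℂ) (x v : VV N) :
    (1 / 2) * (fderiv ℝ g x v + Complex.I * fderiv ℝ g x (J x v)) =
      ∑ j, (v j : ℂ) * (jfam J).X j g x := by
  have h1 : fderiv ℝ g x v = ∑ j, (v j : ℂ) * fderiv ℝ g x (ee j) := by
    conv_lhs => rw [← sum_ee v, map_sum]
    exact Finset.sum_congr rfl fun j _ => by rw [map_smul, Complex.real_smul]
  have h2 : fderiv ℝ g x (J x v) = ∑ j, (v j : ℂ) * fderiv ℝ g x (J x (ee j)) := by
    conv_lhs => rw [← sum_ee v, map_sum, map_sum]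
    exact Finset.sum_congr rfl fun j _ => by rw [map_smul, map_smul, Complex.real_smul]
  rw [h1, h2, Finset.mul_sum, ← Finset.sum_add_distrib, Finset.mul_sum]
  exact Finset.sum_congr rfl fun j _ => by rw [X_eq]; ring

/-- the same for the conjugate frame -/
theorem sum_Y (g : VV N → ℂ) (x v : VV N) :
    (1 / 2) * (fderiv ℝ g x v - Complex.I * fderiv ℝ g x (J x v)) =
      ∑ j, (v j : ℂ) * (jfam J).Y j g x := by
  have h1 : fderiv ℝ g x v = ∑ j, (v j : ℂ) * fderiv ℝ g x (ee j) := by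
    conv_lhs => rw [← sum_ee v, map_sum]
    exact Finset.sum_congr rfl fun j _ => by rw [map_smul, Complex.real_smul]
  have h2 : fderiv ℝ g x (J x v) = ∑ j, (v j : ℂ) * fderiv ℝ g x (J x (ee j)) := by
    conv_lhs => rw [← sum_ee v, map_sum, map_sum]
    exact Finset.sum_congr rfl fun j _ => by rw [map_smul, map_smul, Complex.real_smul]
  rw [h1, h2, Finset.mul_sum, ← Finset.sum_sub_distrib, Finset.mul_sum]
  exact Finset.sum_congr rfl fun j _ => by rw [Y_eq]; ring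

/-- **(a)** `X_j g = 0` for all `j` at `x` iff `g` satisfies the Cauchy-Riemann equation of `J`
at `x` -/
theorem X_zero_iff (g : VV N → ℂ) (x : VV N) : (∀ j, (jfam J).X j g x = 0) ↔
    ∀ v, fderiv ℝ g x (J x v) = Complex.I * fderiv ℝ g x v := by
  constructor
  · intro h v
    have h1 := sum_X J g x v
    rw [Finset.sum_eq_zero fun j _ => by rw [h j, mul_zero]] at h1
    have h2 : fderiv ℝ g x v + Complex.I * fderiv ℝ g x (J x v) = 0 := by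
      simpa using h1
    have h3 : Complex.I * (fderiv ℝ g x v + Complex.I * fderiv ℝ g x (J x v)) = 0 := by
      rw [h2, mul_zero]
    rw [mul_add, ← mul_assoc, Complex.I_mul_I] at h3
    linear_combination -h3
  · intro h j
    rw [X_eq, h, ← mul_assoc, Complex.I_mul_I]
    ring

/-- full gradient from `X` and `Y` (the frame spans): `g'(v) = ∑ v_j (X_j g + Y_j g)` -/
theorem fderiv_eq_sum (g : VV N → ℂ) (x v : VV N) :
    fderiv ℝ g x v = ∑ j, (v j : ℂ) * ((jfam J).X j g x + (jfam J).Y j g x) := by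
  have h1 := sum_X J g x v
  have h2 := sum_Y J g x v
  simp only [mul_add, Finset.sum_add_distrib]
  rw [← h1, ← h2]
  ring

/-- norm of the frame vectors -/
lemma norm_X_le (j : Fin N) (g : VV N → ℂ) (x : VV N) {M : ℝ}
    (h : ∀ v, ‖fderiv ℝ g x v‖ ≤ M * ‖v‖) : ‖(jfam J).X j g x‖ ≤ (M / 2) * (1 + ‖J x (ee j)‖) := by
  rw [X_eq, norm_mul]
  have h1 : ‖(1 / 2 : ℂ)‖ = 1 / 2 := by norm_num
  have h2 : ‖ee j‖ = 1 := by simp [ee]
  have h3 : ‖fderiv ℝ g x (ee j) + Complex.I * fderiv ℝ g x (J x (ee j))‖ ≤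
      M * 1 + M * ‖J x (ee j)‖ := by
    refine (norm_add_le _ _).trans (add_le_add ?_ ?_)
    · simpa [h2] using h (ee j)
    · rw [norm_mul, Complex.norm_I, one_mul]
      exact h _
  rw [h1]
  calc 1 / 2 * ‖fderiv ℝ g x (ee j) + Complex.I * fderiv ℝ g x (J x (ee j))‖
      ≤ 1 / 2 * (M * 1 + M * ‖J x (ee j)‖) := mul_le_mul_of_nonneg_left h3 (by norm_num)
    _ = (M / 2) * (1 + ‖J x (ee j)‖) := by ring

/-- bound of `J x e_j` from the quadratic closeness and `J 0` isometric -/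
lemma norm_J_le {R C : ℝ} (hC : 0 ≤ C) (h0 : ∀ v, ‖J 0 v‖ = ‖v‖)
    (hq : ∀ x ∈ ball (0 : VV N) R, ∀ v, ‖J x v - J 0 v‖ ≤ C * ‖x‖ ^ 2 * ‖v‖)
    {x : VV N} (hx : x ∈ ball (0 : VV N) R) (v : VV N) : ‖J x v‖ ≤ (1 + C * R ^ 2) * ‖v‖ := by
  have h1 : ‖J x v‖ ≤ ‖J x v - J 0 v‖ + ‖J 0 v‖ := by
    simpa using norm_add_le (J x v - J 0 v) (J 0 v)
  have h2 := hq x hx v
  have h3 : ‖x‖ ≤ R := (mem_ball_zero_iff.1 hx).le
  have h4 : C * ‖x‖ ^ 2 * ‖v‖ ≤ C * R ^ 2 * ‖v‖ := by gcongr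
  rw [h0] at h1
  linarith

/-- **(c)** the cut-offs: `‖X_j η_ν‖ |s| ≤ C'`, `C'` independent of `ν` -/
theorem X_eta_le {R C : ℝ} (hC : 0 ≤ C) (h0 : ∀ v, ‖J 0 v‖ = ‖v‖)
    (hq : ∀ x ∈ ball (0 : VV N) R, ∀ v, ‖J x v - J 0 v‖ ≤ C * ‖x‖ ^ 2 * ‖v‖) {r : ℝ}
    (hr : 0 < r) : ∃ C' : ℝ, 0 < C' ∧ ∀ ν > 0, ∀ x ∈ ball (0 : VV N) R, ∀ j,
      ‖(jfam J).X j (etaC r ν) x‖ * |sr r x| ≤ C' := by
  obtain ⟨D, hD, h⟩ := exists_CC (V := VV N) r hr
  refine ⟨(D / 2) * (1 + (1 + C * R ^ 2)), by positivity, fun ν hν x hx j => ?_⟩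
  have hJ : ‖J x (ee j)‖ ≤ 1 + C * R ^ 2 := by
    simpa [ee] using norm_J_le J hC h0 hq hx (ee j)
  rw [X_eq, norm_mul, mul_assoc]
  have h1 : ‖(1 / 2 : ℂ)‖ = 1 / 2 := by norm_num
  have h2 : ‖ee j‖ = 1 := by simp [ee]
  have h3 : ‖fderiv ℝ (etaC r ν) x (ee j) + Complex.I * fderiv ℝ (etaC r ν) x (J x (ee j))‖ *
      |sr r x| ≤ D * 1 + D * ‖J x (ee j)‖ := by
    calc ‖fderiv ℝ (etaC r ν) x (ee j) + Complex.I * fderiv ℝ (etaC r ν) x (J x (ee j))‖ * |sr r x|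
        ≤ (‖fderiv ℝ (etaC r ν) x (ee j)‖ +
            ‖Complex.I * fderiv ℝ (etaC r ν) x (J x (ee j))‖) * |sr r x| :=
          mul_le_mul_of_nonneg_right (norm_add_le _ _) (abs_nonneg _)
      _ = ‖fderiv ℝ (etaC r ν) x (ee j)‖ * |sr r x| +
            ‖fderiv ℝ (etaC r ν) x (J x (ee j))‖ * |sr r x| := by
          rw [norm_mul, Complex.norm_I, one_mul, add_mul]
      _ ≤ D * 1 + D * ‖J x (ee j)‖ := by
          refine add_le_add ?_ (h ν hν x _)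
          simpa [h2] using h ν hν x (ee j)
  rw [h1]
  calc 1 / 2 * (‖fderiv ℝ (etaC r ν) x (ee j) + Complex.I * fderiv ℝ (etaC r ν) x (J x (ee j))‖ *
      |sr r x|) ≤ 1 / 2 * (D * 1 + D * ‖J x (ee j)‖) :=
        mul_le_mul_of_nonneg_left h3 (by norm_num)
    _ = (D / 2) * (1 + ‖J x (ee j)‖) := by ring
    _ ≤ (D / 2) * (1 + (1 + C * R ^ 2)) := by gcongr

/-- (c), squared and summed: `s² ∑_j |X_j η_ν|² ≤ C'` on the ball -/
theorem sum_X_eta_le {R C : ℝ} (hC : 0 ≤ C) (h0 : ∀ v, ‖J 0 v‖ = ‖v‖)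
    (hq : ∀ x ∈ ball (0 : VV N) R, ∀ v, ‖J x v - J 0 v‖ ≤ C * ‖x‖ ^ 2 * ‖v‖) {r : ℝ}
    (hr : 0 < r) : ∃ C' : ℝ, 0 < C' ∧ ∀ ν > 0, ∀ x ∈ ball (0 : VV N) R,
      (∑ j, ‖(jfam J).X j (etaC r ν) x‖ ^ 2) * sr r x ^ 2 ≤ C' := by
  obtain ⟨D, hD, h⟩ := X_eta_le J hC h0 hq hr
  refine ⟨N * D ^ 2 + 1, by positivity, fun ν hν x hx => ?_⟩
  rw [Finset.sum_mul]
  have h1 : ∀ j ∈ (Finset.univ : Finset (Fin N)),
      ‖(jfam J).X j (etaC r ν) x‖ ^ 2 * sr r x ^ 2 ≤ D ^ 2 := by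
    intro j _
    rw [← sq_abs (sr r x), ← mul_pow]
    exact pow_le_pow_left₀ (by positivity) (h ν hν x hx j) 2
  have h2 := Finset.sum_le_sum h1
  simp only [Finset.sum_const, Finset.card_univ, Fintype.card_fin, nsmul_eq_mul] at h2
  linarith

/-- **(d)** the frame on a `J 0`-complex linear function -/
theorem X_lin_eq (s₀ : VV N →L[ℝ] ℂ) (hs : ∀ v, s₀ (J 0 v) = Complex.I * s₀ v) (j : Fin N)
    (x : VV N) : (jfam J).X j (fun y => s₀ y) x =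
      (1 / 2) * (Complex.I * s₀ (J x (ee j) - J 0 (ee j))) := by
  rw [X_eq]
  have h1 : fderiv ℝ (fun y => s₀ y) x = s₀ := s₀.hasFDerivAt.fderiv
  rw [h1, map_sub, hs]
  linear_combination ((1 / 2) * s₀ (ee j)) * Complex.I_mul_I

theorem X_lin_le {R C : ℝ} (s₀ : VV N →L[ℝ] ℂ) (hs : ∀ v, s₀ (J 0 v) = Complex.I * s₀ v)
    (hq : ∀ x ∈ ball (0 : VV N) R, ∀ v, ‖J x v - J 0 v‖ ≤ C * ‖x‖ ^ 2 * ‖v‖) (j : Fin N)
    {x : VV N} (hx : x ∈ ball (0 : VV N) R) :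
    ‖(jfam J).X j (fun y => s₀ y) x‖ ≤ (‖s₀‖ * C / 2) * ‖x‖ ^ 2 := by
  rw [X_lin_eq J s₀ hs, norm_mul, norm_mul, Complex.norm_I, one_mul]
  have h1 : ‖(1 / 2 : ℂ)‖ = 1 / 2 := by norm_num
  have h2 : ‖s₀ (J x (ee j) - J 0 (ee j))‖ ≤ ‖s₀‖ * (C * ‖x‖ ^ 2 * ‖ee j‖) :=
    (s₀.le_opNorm _).trans (mul_le_mul_of_nonneg_left (hq x hx _) (norm_nonneg _))
  have h3 : ‖ee j‖ = 1 := by simp [ee]
  rw [h3] at h2
  rw [h1]
  linarith

/-- the sum of the squares: `∑_j |X_j s₀|² ≤ N (‖s₀‖ C / 2)² |x|⁴` -/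
theorem sum_X_lin_le {R C : ℝ} (s₀ : VV N →L[ℝ] ℂ) (hs : ∀ v, s₀ (J 0 v) = Complex.I * s₀ v)
    (hq : ∀ x ∈ ball (0 : VV N) R, ∀ v, ‖J x v - J 0 v‖ ≤ C * ‖x‖ ^ 2 * ‖v‖)
    {x : VV N} (hx : x ∈ ball (0 : VV N) R) :
    ∑ j, ‖(jfam J).X j (fun y => s₀ y) x‖ ^ 2 ≤ N * (‖s₀‖ * C / 2) ^ 2 * ‖x‖ ^ 4 := by
  have h1 : ∀ j ∈ (Finset.univ : Finset (Fin N)),
      ‖(jfam J).X j (fun y => s₀ y) x‖ ^ 2 ≤ ((‖s₀‖ * C / 2) * ‖x‖ ^ 2) ^ 2 := fun j _ =>
    pow_le_pow_left₀ (norm_nonneg _) (X_lin_le J s₀ hs hq j hx) 2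
  refine (Finset.sum_le_sum h1).trans (le_of_eq ?_)
  simp only [Finset.sum_const, Finset.card_univ, Fintype.card_fin, nsmul_eq_mul]
  ring

end Crest.Agent.R260.JFr_250
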