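import Crest.Agent.R260.BKX7_680
import Crest.Agent.R260.JFr_250
import Crest.Agent.R260.ACM_580

/-! # Bochner-Kodaira estimate for exact forms, part 8: the final a priori estimate in the notation
of `NN0_900` / `JFr_250`, with the weights `K/(r²-|x|²) + M log(|x|²+ε)`, uniform in `ε`. -/

namespace Crest.Agent.R260.BKX_680

open MeasureTheory Complex Set Filter Topology Metric
open scoped ContDiff ComplexConjugate BigOperators

open Crest.Agent.R260.NN0_900 Crest.Agent.R260.JFr_250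

set_option linter.unusedSectionVars false

noncomputable section

variable {N : ℕ}

theorem Xd_fr_eq (J : Eu N → Eu N →L[ℝ] Eu N) (j : Fin N) (u : Eu N → ℂ) (x : Eu N) :
    Xd (eb N) (fr J j) u x
      = (1 / 2 : ℂ) * (fderiv ℝ u x (eb N j) + I * fderiv ℝ u x (J x (eb N j))) := by
  have h1 : fderiv ℝ u x (J x (eb N j)) = ∑ c, (Jm J c j x : ℂ) * fderiv ℝ u x (eb N c) := by
    conv_lhs => rw [basis_sum (J x (eb N j))]
    rw [map_sum]
    refine Finset.sum_congr rfl fun c _ => ?_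
    rw [map_smul]
    simp [Jm]
  unfold Xd
  rw [h1]
  have h2 : ∑ a, fr J j a x * pd (eb N a) u x
      = ∑ a, ((1 / 2 : ℂ) * (if a = j then fderiv ℝ u x (eb N a) else 0)
        + (I / 2) * ((Jm J a j x : ℂ) * fderiv ℝ u x (eb N a))) := by
    refine Finset.sum_congr rfl fun a _ => ?_
    unfold fr rc pd
    split_ifs <;> ring
  rw [h2, Finset.sum_add_distrib, ← Finset.mul_sum, ← Finset.mul_sum, Finset.sum_ite_eq']
  simp
  ring

theorem Xd_cjfr_eq (J : Eu N → Eu N →L[ℝ] Eu N) (j : Fin N) (u : Eu N → ℂ) (x : Eu N) :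
    Xd (eb N) (cj (fr J j)) u x
      = (1 / 2 : ℂ) * (fderiv ℝ u x (eb N j) - I * fderiv ℝ u x (J x (eb N j))) := by
  have h1 := fr_add J j u x
  rw [Xd_fr_eq] at h1
  have h2 : pd (eb N j) u x = fderiv ℝ u x (eb N j) := rfl
  rw [h2] at h1
  linear_combination h1

theorem X_jfam_eq (J J' : Eu N → Eu N →L[ℝ] Eu N) (j : Fin N) (g : Eu N → ℂ) {x : Eu N}
    (h : J' x = J x) : (jfam J).X j g x = Xd (eb N) (fr J' j) g x := by
  rw [X_eq, Xd_fr_eq, h]; rfl

theorem Y_jfam_eq (J J' : Eu N → Eu N →L[ℝ] Eu N) (j : Fin N) (g : Eu N → ℂ) {x : Eu N}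
    (h : J' x = J x) : (jfam J).Y j g x = Xd (eb N) (cj (fr J' j)) g x := by
  rw [Y_eq, Xd_cjfr_eq, h]; rfl

theorem dY_jfam_eq (J J' : Eu N → Eu N →L[ℝ] Eu N) (hJ' : ContDiff ℝ ∞ J') (j : Fin N) {x : Eu N}
    (h : J' =ᶠ[𝓝 x] J) : (jfam J).dY j x = dv (eb N) (cj (fr J' j)) x := by
  have hd : DifferentiableAt ℝ J' x := (hJ'.differentiable (by simp)) x
  have hA : dvg ((jfam J).A j) x = 0 := by
    unfold dvg
    have : (jfam J).A j = fun _ => (1 / 2 : ℝ) • ee j := rfl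
    rw [this]
    simp
  have hB0 : HasFDerivAt (fun y => (1 / 2 : ℝ) • J' y (eb N j))
      ((1 / 2 : ℝ) • (ContinuousLinearMap.apply ℝ (Eu N) (eb N j)).comp (fderiv ℝ J' x)) x :=
    HasFDerivAt.fun_const_smul
      ((ContinuousLinearMap.apply ℝ (Eu N) (eb N j)).hasFDerivAt.comp x hd.hasFDerivAt) _
  have hB1 : HasFDerivAt ((jfam J).B j)
      ((1 / 2 : ℝ) • (ContinuousLinearMap.apply ℝ (Eu N) (eb N j)).comp (fderiv ℝ J' x)) x := by
    refine hB0.congr_of_eventuallyEq ?_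
    filter_upwards [h] with y hy
    rw [jfam_B, hy]; rfl
  have hB : dvg ((jfam J).B j) x = (1 / 2 : ℝ) * ∑ b, (fderiv ℝ J' x (eb N b) (eb N j)) b := by
    unfold dvg
    rw [hB1.fderiv, LinearMap.trace_eq_sum_inner _ (EuclideanSpace.basisFun (Fin N) ℝ),
      Finset.mul_sum]
    refine Finset.sum_congr rfl fun b _ => ?_
    simp [eb, EuclideanSpace.inner_single_left]
  unfold Fam.dY dv
  rw [hA, hB]
  simp_rw [pd_cjfr hJ', pd_Jm hJ']
  rw [← Finset.mul_sum]
  push_cast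
  ring

theorem wt_smooth {r K M ε : ℝ} (hε : 0 < ε) : ContDiffOn ℝ ∞ (wt (N := N) r K M ε) (ball 0 r) := by
  unfold wt
  have hq : ContDiff ℝ ∞ (fun x : Eu N => ‖x‖ ^ 2) := contDiff_norm_sq ℝ
  refine ContDiffOn.add ?_ ?_
  · refine ContDiffOn.div contDiffOn_const (contDiffOn_const.sub hq.contDiffOn) ?_
    intro x hx
    have h1 : ‖x‖ < r := by simpa using hx
    have h2 : ‖x‖ ^ 2 < r ^ 2 := pow_lt_pow_left₀ h1 (norm_nonneg _) (by norm_num)
    linarith
  · refine contDiffOn_const.mul ?_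
    refine ContDiffOn.log (hq.contDiffOn.add contDiffOn_const) ?_
    intro x _
    positivity

/-- compact subsets of an open ball are contained in a smaller ball -/
theorem exists_smaller {K : Set (Eu N)} {r : ℝ} (hr : 0 < r) (hK : IsCompact K)
    (hKr : K ⊆ ball 0 r) : ∃ ρ, 0 < ρ ∧ ρ < r ∧ K ⊆ ball 0 ρ := by
  rcases K.eq_empty_or_nonempty with h | h
  · exact ⟨r / 2, by linarith, by linarith, by rw [h]; exact empty_subset _⟩
  · obtain ⟨x0, hx0, hm⟩ := hK.exists_isMaxOn h continuous_norm.continuousOn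
    have h1 : ‖x0‖ < r := by simpa using hKr hx0
    refine ⟨(‖x0‖ + r) / 2, by linarith [norm_nonneg x0], by linarith, fun x hx => ?_⟩
    have h2 : ‖x‖ ≤ ‖x0‖ := hm hx
    simp only [mem_ball_zero_iff]
    linarith

/-- the weight `exp(-Φ)` -/
def w1 (r K M ε : ℝ) (x : Eu N) : ℝ := Real.exp (-(wt r K M ε x))

/-- the weight `s² exp(-Φ)` -/
def w2 (r K M ε : ℝ) (x : Eu N) : ℝ := (r ^ 2 - ‖x‖ ^ 2) ^ 2 * Real.exp (-(wt r K M ε x))

/-- cut off almost complex structure -/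
theorem exists_JN {J : Eu N → Eu N →L[ℝ] Eu N} {R C : ℝ} (hR : 0 < R)
    (hJ : ContDiffOn ℝ ∞ J (ball 0 R)) (hsq : ∀ x ∈ ball (0 : Eu N) R, ∀ v, J x (J x v) = -v)
    (hnij : ∀ x ∈ ball (0 : Eu N) R, ∀ v w, ACM_580.Nij J x v w = 0)
    (horth : ∀ v, ‖J 0 v‖ = ‖v‖)
    (hnear : ∀ x ∈ ball (0 : Eu N) R, ∀ v, ‖J x v - J 0 v‖ ≤ C * ‖x‖ ^ 2 * ‖v‖) :
    ∃ J' : Eu N → Eu N →L[ℝ] Eu N, JN J' (R / 2) C ∧ ∀ x, ‖x‖ < R / 2 → J' =ᶠ[𝓝 x] J := by
  set f : ContDiffBump (0 : Eu N) := ⟨R / 2, 3 * R / 4, by linarith, by linarith⟩ with hf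
  set J' : Eu N → Eu N →L[ℝ] Eu N := fun x => f x • J x with hJ'
  have hev : ∀ x, ‖x‖ < R / 2 → J' =ᶠ[𝓝 x] J := by
    intro x hx
    have hx' : x ∈ ball (0 : Eu N) (R / 2) := by simpa using hx
    filter_upwards [isOpen_ball.mem_nhds hx'] with y hy
    have : f y = 1 := f.one_of_mem_closedBall (ball_subset_closedBall hy)
    simp only [hJ', this, one_smul]
  have hsm : ContDiff ℝ ∞ J' := by
    refine contDiff_of_zero isOpen_ball (K := closedBall 0 (3 * R / 4)) isClosed_closedBall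
      (closedBall_subset_ball (by linarith)) ((f.contDiff (n := ⊤)).contDiffOn.smul hJ) ?_
    intro x hx
    have h0 : f x = 0 := by
      refine f.zero_of_le_dist ?_
      simp only [mem_closedBall, not_le] at hx
      exact hx.le
    show f x • J x = 0
    rw [h0]
    exact zero_smul ℝ (J x)
  have hR2 : R / 2 < R := by linarith
  have heq : ∀ x, ‖x‖ < R / 2 → J' x = J x := fun x hx => (hev x hx).eq_of_nhds
  have hb : ∀ x, ‖x‖ < R / 2 → x ∈ ball (0 : Eu N) R := fun x hx => by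
    simp only [mem_ball_zero_iff]; linarith
  have h00 : ‖(0 : Eu N)‖ < R / 2 := by rw [norm_zero]; linarith
  refine ⟨J', ⟨⟨hsm, ?_, ?_⟩, by linarith, ?_, ?_⟩, hev⟩
  · intro x hx v
    have hx' : ‖x‖ < R / 2 := by simpa using hx
    rw [heq x hx']
    exact hsq x (hb x hx') v
  · intro x hx v w
    have hx' : ‖x‖ < R / 2 := by simpa using hx
    rw [heq x hx', (hev x hx').fderiv_eq]
    exact hnij x (hb x hx') v w
  · intro v
    rw [heq 0 h00]; exact horth v
  · intro x hx v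
    rw [heq 0 h00, heq x hx]
    exact hnear x (hb x hx) v

/-- **The a priori estimate.** -/
theorem est_W {J : Eu N → Eu N →L[ℝ] Eu N} {R C : ℝ} (hR : 0 < R)
    (hJ : ContDiffOn ℝ ∞ J (ball 0 R)) (hsq : ∀ x ∈ ball (0 : Eu N) R, ∀ v, J x (J x v) = -v)
    (hnij : ∀ x ∈ ball (0 : Eu N) R, ∀ v w, ACM_580.Nij J x v w = 0)
    (horth : ∀ v, ‖J 0 v‖ = ‖v‖)
    (hnear : ∀ x ∈ ball (0 : Eu N) R, ∀ v, ‖J x v - J 0 v‖ ≤ C * ‖x‖ ^ 2 * ‖v‖)
    (M : ℝ) (hM : 0 ≤ M) :
    ∃ r K : ℝ, 0 < r ∧ r ≤ 1 ∧ r < R ∧ 0 ≤ K ∧ ∀ ε : ℝ, 0 < ε →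
      ∀ g : Eu N → ℂ, TestC (ball 0 r) g →
      ∫ x, (∑ j, ‖(jfam J).X j g x‖ ^ 2) * w2 r K M ε x
        ≤ ∫ x, ‖(jfam J).PP (w2 r K M ε) g x‖ ^ 2 / w1 r K M ε x := by
  classical
  obtain ⟨J', hJN, hev⟩ := exists_JN hR hJ hsq hnij horth hnear
  have hJs := hJN.jg.smooth
  set r1 : ℝ := min (R / 4) 1 with hr1
  have hr1a : r1 < R / 2 := lt_of_le_of_lt (min_le_left _ _) (by linarith)
  have hr1b : r1 ≤ 1 := min_le_right _ _
  have hr10 : 0 < r1 := lt_min (by linarith) one_pos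
  -- constants
  obtain ⟨W, hW0, hW⟩ := BO.unif (κ := Fin N × Fin N × Fin N) (r := r1) (k := 0)
    (f := fun p => wc J' p.1 p.2.1 p.2.2) (fun p => BO.of_continuous r1
      (wc_smooth hJs p.1 p.2.1 p.2.2).continuous)
  obtain ⟨V, hV0, hV⟩ := BO.unif (κ := Fin N × Fin N × Fin N) (r := r1) (k := 0)
    (f := fun p => vc J' p.1 p.2.1 p.2.2) (fun p => BO.of_continuous r1
      (vc_smooth hJs p.1 p.2.1 p.2.2).continuous)
  obtain ⟨E0, hE00, hE0⟩ := BO.unif (κ := Fin N × Fin N) (r := r1) (k := 0)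
    (f := fun p => eco (eb N) (fr J') (wc J') p.1 p.2) (fun p => BO.of_continuous r1
      (eco_smooth (fun j a => fr_smooth hJs j a) (fun k j l => wc_smooth hJs k j l)
        p.1 p.2).continuous)
  obtain ⟨D, hD0, hD⟩ := BO.unif (κ := Fin N) (r := r1) (k := 0)
    (f := fun k => Xd (eb N) (fr J' k) (rc qq)) (fun k => BO.of_continuous r1
      (Xd_smooth (fr_smooth hJs k) (rc_smooth qq_smooth)).continuous)
  simp only [pow_zero, mul_one] at hW hV hE0 hD
  obtain ⟨C2, C3, hC2, hC3, hpw⟩ := hJN.pos_wt hr1a hr1b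
  set Cc : ℝ := C1 N V D W E0 + 1 with hCc
  have hC10 : 0 ≤ C1 N V D W E0 := by unfold C1; positivity
  have hCc0 : 0 ≤ Cc := by linarith
  set r : ℝ := min r1 (1 / (1 + C2)) with hr
  have hr0 : 0 < r := lt_min hr10 (by positivity)
  have hrr1 : r ≤ r1 := min_le_left _ _
  have hr1' : r ≤ 1 := hrr1.trans hr1b
  have hC2r : C2 * r ^ 2 ≤ 1 := by
    have h1 : r ≤ 1 / (1 + C2) := min_le_right _ _
    have h2 : r ^ 2 ≤ r := by nlinarith
    have h3 : C2 * r ^ 2 ≤ C2 * (1 / (1 + C2)) := mul_le_mul_of_nonneg_left (h2.trans h1) hC2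
    have h4 : C2 * (1 / (1 + C2)) ≤ 1 := by
      rw [mul_one_div, div_le_one (by positivity)]; linarith
    exact h3.trans h4
  set K : ℝ := Cc + M * (C2 + C3) with hK
  refine ⟨r, K, hr0, hr1', by linarith, by positivity, ?_⟩
  intro ε hε g hg
  obtain ⟨ρ, hρ0, hρr, hgρ⟩ := exists_smaller hr0 hg.2.1.isCompact hg.2.2
  -- cut off weight
  set f : ContDiffBump (0 : Eu N) := ⟨ρ, (ρ + r) / 2, hρ0, by linarith⟩ with hf
  set Φ : Eu N → ℝ := fun x => f x * wt r K M ε x with hΦ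
  have hΦs : ContDiff ℝ ∞ Φ := by
    refine contDiff_of_zero isOpen_ball (K := closedBall 0 ((ρ + r) / 2)) isClosed_closedBall
      (closedBall_subset_ball (by linarith)) ((f.contDiff (n := ⊤)).contDiffOn.mul
        (wt_smooth hε)) ?_
    intro x hx
    have h0 : f x = 0 := by
      refine f.zero_of_le_dist ?_
      simp only [mem_closedBall, not_le] at hx
      exact hx.le
    simp only [hΦ, h0, zero_mul]
  have hΦe : ∀ x ∈ ball (0 : Eu N) ρ, Φ =ᶠ[𝓝 x] wt r K M ε := by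
    intro x hx
    filter_upwards [isOpen_ball.mem_nhds hx] with y hy
    have : f y = 1 := f.one_of_mem_closedBall (ball_subset_closedBall hy)
    simp only [hΦ, this, one_mul]
  set δ : Eu N → ℝ := fun x => r ^ 2 - ‖x‖ ^ 2 with hδ
  have hδs : ContDiff ℝ ∞ δ := contDiff_const.sub (contDiff_norm_sq ℝ)
  have hxr : ∀ x ∈ ball (0 : Eu N) ρ, ‖x‖ < r := fun x hx => by
    have : ‖x‖ < ρ := by simpa using hx
    linarith
  have hxR : ∀ x ∈ ball (0 : Eu N) ρ, ‖x‖ < R / 2 := fun x hx => by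
    have := hxr x hx
    linarith
  have hxb : ∀ x ∈ ball (0 : Eu N) ρ, x ∈ ball (0 : Eu N) (R / 2) := fun x hx => by
    simpa using hxR x hx
  have hx1 : ∀ x ∈ ball (0 : Eu N) ρ, ‖x‖ ≤ r1 := fun x hx => ((hxr x hx).le).trans hrr1
  have hgT : Tst g := ⟨hg.1, hg.2.1⟩
  have hmain := est_main (μ := (volume : Measure (Eu N))) (e := eb N) (ξ := fr J') (α := wc J')
    (β := wc J') (γ := vc J') (Φ := Φ) (δ := δ) (fun j a => fr_smooth hJs j a)
    (fun k j l => wc_smooth hJs k j l) (fun k j l => wc_smooth hJs k j l) hΦs hδs hgT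
    (O := ball 0 ρ) hgρ
    (by
      intro x hx
      have h1 : ‖x‖ ^ 2 < r ^ 2 := pow_lt_pow_left₀ (hxr x hx) (norm_nonneg _) (by norm_num)
      simp only [hδ]; linarith)
    (by
      intro x hx
      have h1 : r ^ 2 ≤ 1 := pow_le_one₀ hr0.le hr1'
      have h2 : 0 ≤ ‖x‖ ^ 2 := by positivity
      simp only [hδ]; linarith)
    (fun k j u hu x _ => comm_fr hJs k j hu x)
    (fun k j u hu x hx => int_fr hJN.jg k j hu (hxb x hx))
    (W := W) (V := V) (E0 := E0) (D := D) hV0 hD0 hE00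
    (fun k j l x hx => hW (k, j, l) x (hx1 x hx)) (fun k j l x hx => hW (k, j, l) x (hx1 x hx))
    (fun k j l x hx => hV (k, j, l) x (hx1 x hx)) (fun k j x hx => hE0 (k, j) x (hx1 x hx))
    (by
      intro k x hx
      have h1 : Xd (eb N) (fr J' k) (rc δ) x = - Xd (eb N) (fr J' k) (rc qq) x := by
        have h2 : rc δ = fun y => (fun _ => ((r ^ 2 : ℝ) : ℂ)) y - rc qq y := by
          funext y
          simp only [rc, hδ, qq]
          push_cast
          ring
        rw [h2, Xd_sub (u := fun _ => ((r ^ 2 : ℝ) : ℂ)) (differentiable_const _)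
          (smooth_diff (rc_smooth qq_smooth))]
        have h3 : Xd (eb N) (fr J' k) (fun _ => ((r ^ 2 : ℝ) : ℂ)) x = 0 := by
          unfold Xd pd
          simp
        rw [h3, zero_sub]
      rw [h1, norm_neg]
      exact hD k x (hx1 x hx))
    (by
      intro x hx
      have h1 := hpw r K M ε Cc hr0 hrr1 hC2r hM hε hCc0 le_rfl x (hxr x hx) Φ (hΦe x hx)
        (fun j => (rc δ x) ^ 2 * Xd (eb N) (fr J' j) g x) (by
          intro j
          have h2 := type_fr hJN.jg j g (hxb x hx)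
          have h3 : ∑ c, rc (Jm J' c j) x * ((rc δ x) ^ 2 * Xd (eb N) (fr J' c) g x)
              = (rc δ x) ^ 2 * ∑ c, rc (Jm J' c j) x * Xd (eb N) (fr J' c) g x := by
            rw [Finset.mul_sum]
            exact Finset.sum_congr rfl fun c _ => by ring
          rw [h3, h2]; ring)
      have h4 : C1 (Fintype.card (Fin N)) V D W E0 + 1 = Cc := by
        rw [hCc, Fintype.card_fin]
      rw [h4]
      exact h1)
  -- convert
  have hL : ∀ x, (∑ j, ‖(jfam J).X j g x‖ ^ 2) * w2 r K M ε x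
      = (∑ j, ‖Xd (eb N) (fr J' j) g x‖ ^ 2) * ((δ x) ^ 2 * Real.exp (-Φ x)) := by
    intro x
    by_cases hx : x ∈ tsupport g
    · have hxρ := hgρ hx
      have h1 : ∀ j, (jfam J).X j g x = Xd (eb N) (fr J' j) g x := fun j =>
        X_jfam_eq J J' j g (hev x (hxR x hxρ)).eq_of_nhds
      simp_rw [h1]
      unfold w2
      rw [(hΦe x hxρ).eq_of_nhds]
    · have h1 : fderiv ℝ g x = 0 := hg.fderiv_eq_zero hx
      have h2 : ∀ j, (jfam J).X j g x = 0 := fun j => by rw [X_eq, h1]; simp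
      have h3 : ∀ j, Xd (eb N) (fr J' j) g x = 0 := fun j => Xd_zero_of_notMem hx
      simp_rw [h2, h3]
      simp
  have hRR : ∀ x, ‖(jfam J).PP (w2 r K M ε) g x‖ ^ 2 / w1 r K M ε x
      = ‖∑ j, Ls (eb N) Φ (fr J' j) (fun y => (rc δ y) ^ 2 * Xd (eb N) (fr J' j) g y) x‖ ^ 2
          * Real.exp (-Φ x) := by
    intro x
    by_cases hx : x ∈ tsupport g
    · have hxρ := hgρ hx
      have hPP : (jfam J).PP (w2 r K M ε) g x
          = -((Real.exp (-Φ x) : ℝ) : ℂ) * ∑ j, Ls (eb N) Φ (fr J' j)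
              (fun y => (rc δ y) ^ 2 * Xd (eb N) (fr J' j) g y) x := by
        unfold Fam.PP
        rw [Finset.mul_sum]
        refine Finset.sum_congr rfl fun j _ => ?_
        set h : Eu N → ℂ := fun y => (rc δ y) ^ 2 * Xd (eb N) (fr J' j) g y with hh
        have hhs : ContDiff ℝ ∞ h := ((rc_smooth hδs).pow 2).mul (Xd_smooth (fr_smooth hJs j) hg.1)
        have hρs : ContDiff ℝ ∞ (fun y => ((Real.exp (-Φ y) : ℝ) : ℂ)) :=
          (Complex.ofRealCLM.contDiff (n := ∞)).comp (Real.contDiff_exp.comp hΦs.neg)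
        have hloc : (fun y => ((w2 r K M ε y : ℝ) : ℂ) * (jfam J).X j g y)
            =ᶠ[𝓝 x] fun y => h y * ((Real.exp (-Φ y) : ℝ) : ℂ) := by
          filter_upwards [isOpen_ball.mem_nhds hxρ] with y hy
          rw [X_jfam_eq J J' j g (hev y (hxR y hy)).eq_of_nhds]
          simp only [hh, w2, rc, hδ]
          rw [(hΦe y hy).eq_of_nhds]
          push_cast
          ring
        unfold Fam.Yt
        rw [Y_jfam_eq J J' j _ (hev x (hxR x hxρ)).eq_of_nhds,
          dY_jfam_eq J J' hJs j (hev x (hxR x hxρ)), Xd_congr hloc]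
        have hv : ((w2 r K M ε x : ℝ) : ℂ) * (jfam J).X j g x
            = h x * ((Real.exp (-Φ x) : ℝ) : ℂ) := hloc.eq_of_nhds
        beta_reduce
        rw [hv, Xd_mul (smooth_diff hhs) (smooth_diff hρs)]
        have hE : Xd (eb N) (cj (fr J' j)) (fun y => ((Real.exp (-Φ y) : ℝ) : ℂ)) x
            = - Xd (eb N) (cj (fr J' j)) (rc Φ) x * ((Real.exp (-Φ x) : ℝ) : ℂ) := by
          unfold Xd
          rw [← Finset.sum_neg_distrib, Finset.sum_mul]
          refine Finset.sum_congr rfl fun a _ => ?_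
          rw [pd_exp hΦs]; ring
        rw [hE]
        unfold Ls
        ring
      rw [hPP, norm_mul, norm_neg, Complex.norm_real, Real.norm_of_nonneg (Real.exp_pos _).le]
      have hw : w1 r K M ε x = Real.exp (-Φ x) := by
        unfold w1
        rw [(hΦe x hxρ).eq_of_nhds]
      rw [hw]
      have := Real.exp_pos (-Φ x)
      field_simp
    · have h1 : ∀ j, Ls (eb N) Φ (fr J' j) (fun y => (rc δ y) ^ 2 * Xd (eb N) (fr J' j) g y) x
          = 0 := by
        intro j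
        have hs : x ∉ tsupport (fun y => (rc δ y) ^ 2 * Xd (eb N) (fr J' j) g y) := fun hx2 =>
          hx ((tsupport_mul_right'.trans tsupport_Xd) hx2)
        unfold Ls
        rw [Xd_zero_of_notMem hs]
        simp only [Xd_zero_of_notMem hx]
        simp
      have h2 : (jfam J).PP (w2 r K M ε) g x = 0 := by
        unfold Fam.PP
        refine Finset.sum_eq_zero fun j _ => ?_
        have h3 : (fun y => ((w2 r K M ε y : ℝ) : ℂ) * (jfam J).X j g y) =ᶠ[𝓝 x] fun _ => 0 := by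
          filter_upwards [(isClosed_tsupport g).isOpen_compl.mem_nhds hx] with y hy
          have h4 : fderiv ℝ g y = 0 := hg.fderiv_eq_zero hy
          rw [X_eq, h4]; simp
        unfold Fam.Yt
        have h5 : ((w2 r K M ε x : ℝ) : ℂ) * (jfam J).X j g x = 0 := h3.eq_of_nhds
        rw [Y_eq, h3.fderiv_eq]
        beta_reduce
        rw [h5]
        simp
      rw [h2]
      simp_rw [h1]
      simp
  simp_rw [hL, hRR]
  exact hmain

end

end Crest.Agent.R260.BKX_680
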