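import Mathlib

/-!
# Row 260: Bochner-Kodaira inequality for exact forms (helper40), part 1

Covariant derivatives `D A v f = df(v) + i A(v) f` of complex functions on a finite dimensional real
vector space; product rules, commutator, integration by parts.
-/

set_option autoImplicit false
set_option linter.unusedSectionVars false

open MeasureTheory Complex Set
open scoped ContDiff ComplexConjugate

namespace Crest.Agent.R260.Bk_40

noncomputable section

variable {V : Type*} [NormedAddCommGroup V] [NormedSpace ℝ V]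

/-- covariant derivative of `f` in the direction `v` for the connection form `A` -/
def D (A : V → V →L[ℝ] ℝ) (v : V) (f : V → ℂ) (x : V) : ℂ :=
  fderiv ℝ f x v + I * (A x v : ℂ) * f x

/-- curvature of the connection form `A` -/
def Fc (A : V → V →L[ℝ] ℝ) (x v w : V) : ℝ := fderiv ℝ A x v w - fderiv ℝ A x w v

theorem D_add_vec (A : V → V →L[ℝ] ℝ) (v w : V) (f : V → ℂ) (x : V) :
    D A (v + w) f x = D A v f x + D A w f x := by
  simp [D]; ring

theorem D_smul_vec (A : V → V →L[ℝ] ℝ) (c : ℝ) (v : V) (f : V → ℂ) (x : V) :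
    D A (c • v) f x = c * D A v f x := by
  simp [D]; ring

theorem D_neg_vec (A : V → V →L[ℝ] ℝ) (v : V) (f : V → ℂ) (x : V) :
    D A (-v) f x = - D A v f x := by
  simp [D]; ring

theorem D_sub_vec (A : V → V →L[ℝ] ℝ) (v w : V) (f : V → ℂ) (x : V) :
    D A (v - w) f x = D A v f x - D A w f x := by
  simp [D]; ring

theorem D_zero_vec (A : V → V →L[ℝ] ℝ) (f : V → ℂ) (x : V) : D A 0 f x = 0 := by
  simp [D]

theorem D_sum_vec {ι : Type*} (s : Finset ι) (A : V → V →L[ℝ] ℝ) (c : ι → ℝ) (v : ι → V) (f : V → ℂ)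
    (x : V) : D A (∑ i ∈ s, c i • v i) f x = ∑ i ∈ s, (c i : ℂ) * D A (v i) f x := by
  classical
  induction s using Finset.induction_on with
  | empty => simp [D_zero_vec]
  | insert a s ha ih => rw [Finset.sum_insert ha, Finset.sum_insert ha, D_add_vec, D_smul_vec, ih]

theorem D_add {A : V → V →L[ℝ] ℝ} {v : V} {f g : V → ℂ} {x : V} (hf : DifferentiableAt ℝ f x)
    (hg : DifferentiableAt ℝ g x) : D A v (fun y => f y + g y) x = D A v f x + D A v g x := by
  have : fderiv ℝ (fun y => f y + g y) x = fderiv ℝ f x + fderiv ℝ g x := fderiv_fun_add hf hg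
  simp only [D, this, _root_.add_apply]; ring

theorem D_sub {A : V → V →L[ℝ] ℝ} {v : V} {f g : V → ℂ} {x : V} (hf : DifferentiableAt ℝ f x)
    (hg : DifferentiableAt ℝ g x) : D A v (fun y => f y - g y) x = D A v f x - D A v g x := by
  have : fderiv ℝ (fun y => f y - g y) x = fderiv ℝ f x - fderiv ℝ g x := fderiv_fun_sub hf hg
  simp only [D, this, _root_.sub_apply]; ring

theorem D_const_mul {A : V → V →L[ℝ] ℝ} {v : V} {f : V → ℂ} {x : V} (c : ℂ)
    (hf : DifferentiableAt ℝ f x) : D A v (fun y => c * f y) x = c * D A v f x := by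
  have : fderiv ℝ (fun y => c * f y) x = c • fderiv ℝ f x := fderiv_const_mul hf c
  simp only [D, this, _root_.smul_apply, smul_eq_mul]; ring

theorem D_sum {ι : Type*} (s : Finset ι) {A : V → V →L[ℝ] ℝ} {v : V} {f : ι → V → ℂ} {x : V}
    (hf : ∀ i ∈ s, DifferentiableAt ℝ (f i) x) :
    D A v (fun y => ∑ i ∈ s, f i y) x = ∑ i ∈ s, D A v (f i) x := by
  have : fderiv ℝ (fun y => ∑ i ∈ s, f i y) x = ∑ i ∈ s, fderiv ℝ (f i) x := by
    rw [fderiv_fun_sum hf]
  simp only [D, this, _root_.sum_apply, Finset.sum_add_distrib, Finset.mul_sum]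

theorem fderiv_ofReal {χ : V → ℝ} {x : V} (hχ : DifferentiableAt ℝ χ x) (v : V) :
    fderiv ℝ (fun y => (χ y : ℂ)) x v = (fderiv ℝ χ x v : ℂ) := by
  have h := (ofRealCLM.hasFDerivAt (x := χ x)).comp x hχ.hasFDerivAt
  have h' : HasFDerivAt (fun y => (χ y : ℂ)) (ofRealCLM.comp (fderiv ℝ χ x)) x := h
  rw [h'.fderiv]; rfl

theorem D_real_mul {A : V → V →L[ℝ] ℝ} {v : V} {χ : V → ℝ} {f : V → ℂ} {x : V}
    (hχ : DifferentiableAt ℝ χ x) (hf : DifferentiableAt ℝ f x) :
    D A v (fun y => (χ y : ℂ) * f y) x = (fderiv ℝ χ x v : ℂ) * f x + χ x * D A v f x := by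
  have h1 : DifferentiableAt ℝ (fun y => (χ y : ℂ)) x := ofRealCLM.differentiableAt.comp x hχ
  have h2 : fderiv ℝ (fun y => (χ y : ℂ) * f y) x v =
      (χ x : ℂ) * fderiv ℝ f x v + f x * fderiv ℝ (fun y => (χ y : ℂ)) x v := by
    rw [fderiv_fun_mul h1 hf]
    simp
  simp only [D, h2, fderiv_ofReal hχ]; ring

variable {A : V → V →L[ℝ] ℝ}

theorem contDiff_fderiv_apply {F : Type*} [NormedAddCommGroup F] [NormedSpace ℝ F] {f : V → F}
    (hf : ContDiff ℝ ∞ f) (v : V) : ContDiff ℝ ∞ (fun x => fderiv ℝ f x v) :=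
  (hf.fderiv_right (m := ∞) (by simp)).clm_apply contDiff_const

theorem contDiff_ofReal {f : V → ℝ} (hf : ContDiff ℝ ∞ f) : ContDiff ℝ ∞ (fun x => (f x : ℂ)) :=
  ofRealCLM.contDiff.comp hf

theorem contDiff_D (hA : ContDiff ℝ ∞ A) {f : V → ℂ} (hf : ContDiff ℝ ∞ f) (v : V) :
    ContDiff ℝ ∞ (D A v f) := by
  have h1 := contDiff_fderiv_apply hf v
  have h2 : ContDiff ℝ ∞ (fun x => (A x v : ℂ)) := contDiff_ofReal (hA.clm_apply contDiff_const)
  exact h1.add ((contDiff_const.mul h2).mul hf)

theorem D_comm (hA : ContDiff ℝ ∞ A) {f : V → ℂ} (hf : ContDiff ℝ ∞ f) (v w : V) (x : V) :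
    D A v (D A w f) x - D A w (D A v f) x = I * (Fc A x v w : ℂ) * f x := by
  have hd : Differentiable ℝ f := hf.differentiable (by simp)
  have hAd : Differentiable ℝ A := hA.differentiable (by simp)
  have key : ∀ a b : V, D A a (D A b f) x = fderiv ℝ (fderiv ℝ f) x a b +
      I * (fderiv ℝ A x a b : ℂ) * f x + I * (A x b : ℂ) * fderiv ℝ f x a +
      I * (A x a : ℂ) * (fderiv ℝ f x b + I * (A x b : ℂ) * f x) := by
    intro a b
    have h1 : DifferentiableAt ℝ (fun y => fderiv ℝ f y b) x :=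
      (contDiff_fderiv_apply hf b).differentiable (by simp) x
    have h2 : DifferentiableAt ℝ (fun y => A y b) x := hAd.clm_apply (differentiable_const _) x
    have h3 : DifferentiableAt ℝ (fun y => ((A y b : ℝ) : ℂ)) x :=
      ofRealCLM.differentiableAt.comp x h2
    have h4 : DifferentiableAt ℝ (fun y => I * ((A y b : ℝ) : ℂ)) x := h3.const_mul I
    have e1 : fderiv ℝ (fun y => fderiv ℝ f y b) x a = fderiv ℝ (fderiv ℝ f) x a b := by
      have hff : DifferentiableAt ℝ (fderiv ℝ f) x :=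
        (hf.fderiv_right (m := ∞) (by simp)).differentiable (by simp) x
      rw [fderiv_clm_apply hff (differentiableAt_const _)]
      simp
    have e2 : fderiv ℝ (fun y => ((A y b : ℝ) : ℂ)) x a = ((fderiv ℝ A x a b : ℝ) : ℂ) := by
      rw [fderiv_ofReal h2, fderiv_clm_apply (hAd x) (differentiableAt_const _)]
      simp
    have e3 : fderiv ℝ (fun y => I * ((A y b : ℝ) : ℂ) * f y) x a =
        I * (fderiv ℝ A x a b : ℂ) * f x + I * (A x b : ℂ) * fderiv ℝ f x a := by
      rw [fderiv_fun_mul h4 (hd x), fderiv_const_mul h3]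
      simp only [_root_.add_apply, _root_.smul_apply, smul_eq_mul, e2]
      ring
    have e4 : fderiv ℝ (D A b f) x a = fderiv ℝ (fderiv ℝ f) x a b +
        (I * (fderiv ℝ A x a b : ℂ) * f x + I * (A x b : ℂ) * fderiv ℝ f x a) := by
      have : D A b f = fun y => fderiv ℝ f y b + I * ((A y b : ℝ) : ℂ) * f y := rfl
      have h5 : DifferentiableAt ℝ (fun y => I * ((A y b : ℝ) : ℂ) * f y) x := h4.mul (hd x)
      rw [this, fderiv_fun_add h1 h5, _root_.add_apply, e1, e3]
    rw [D, e4]
    simp only [D]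
    ring
  have hsymm : fderiv ℝ (fderiv ℝ f) x v w = fderiv ℝ (fderiv ℝ f) x w v := by
    have h2 : (2 : WithTop ℕ∞) ≤ ∞ := by
      change ((2 : ℕ∞) : WithTop ℕ∞) ≤ ((⊤ : ℕ∞) : WithTop ℕ∞)
      exact WithTop.coe_le_coe.mpr le_top
    have hs : IsSymmSndFDerivAt ℝ f x :=
      hf.contDiffAt.isSymmSndFDerivAt (by
        rw [minSmoothness_of_isRCLikeNormedField]; exact h2)
    exact hs v w
  rw [key v w, key w v, hsymm, Fc]
  push_cast
  ring

theorem continuous_D (hA : ContDiff ℝ ∞ A) {f : V → ℂ} (hf : ContDiff ℝ ∞ f) (v : V) :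
    Continuous (D A v f) := (contDiff_D hA hf v).continuous

theorem hasCompactSupport_D {f : V → ℂ} (hf : HasCompactSupport f) (v : V) :
    HasCompactSupport (D A v f) := by
  have h1 : HasCompactSupport (fun x => fderiv ℝ f x v) := hf.fderiv_apply (𝕜 := ℝ) v
  have h2 : HasCompactSupport (fun x => I * (A x v : ℂ) * f x) := hf.mul_left
  exact h1.add h2

variable [FiniteDimensional ℝ V] [MeasurableSpace V] [BorelSpace V] (μ : Measure V)
  [μ.IsAddHaarMeasure]

theorem integral_fderiv_zero {h : V → ℂ} (hh : ContDiff ℝ ∞ h) (hc : HasCompactSupport h) (v : V) :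
    ∫ x, fderiv ℝ h x v ∂μ = 0 := by
  have hd : Differentiable ℝ h := hh.differentiable (by simp)
  have h1 : Integrable (fun x => fderiv ℝ h x v) μ :=
    (contDiff_fderiv_apply hh v).continuous.integrable_of_hasCompactSupport
      (hc.fderiv_apply (𝕜 := ℝ) v)
  have key := integral_mul_fderiv_eq_neg_fderiv_mul_of_integrable (μ := μ) (𝕜 := ℂ)
    (f := fun _ : V => (1 : ℂ)) (g := h) (v := v) (by simp) (by simpa using h1)
    (by simpa using hh.continuous.integrable_of_hasCompactSupport hc)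
    (fun x _ => differentiableAt_const _) (fun x _ => hd x)
  simpa using key

/-- the `L²` pairing -/
def ip (f g : V → ℂ) : ℂ := ∫ x, f x * conj (g x) ∂μ

theorem integrable_ip {f g : V → ℂ} (hf : Continuous f) (hg : Continuous g)
    (hc : HasCompactSupport f) : Integrable (fun x => f x * conj (g x)) μ :=
  (hf.mul (continuous_conj.comp hg)).integrable_of_hasCompactSupport hc.mul_right

theorem contDiff_conj {g : V → ℂ} (hg : ContDiff ℝ ∞ g) : ContDiff ℝ ∞ (fun x => conj (g x)) :=
  conjCLE.toContinuousLinearMap.contDiff.comp hg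

theorem fderiv_conj_apply {g : V → ℂ} {x : V} (hg : DifferentiableAt ℝ g x) (v : V) :
    fderiv ℝ (fun y => conj (g y)) x v = conj (fderiv ℝ g x v) := by
  have h := (conjCLE.toContinuousLinearMap.hasFDerivAt (x := g x)).comp x hg.hasFDerivAt
  have h' : HasFDerivAt (fun y => conj (g y))
      (conjCLE.toContinuousLinearMap.comp (fderiv ℝ g x)) x := h
  rw [h'.fderiv]; rfl

/-- integration by parts for the covariant derivative -/
theorem ip_D (hA : ContDiff ℝ ∞ A) {f g : V → ℂ} (hf : ContDiff ℝ ∞ f) (hg : ContDiff ℝ ∞ g)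
    (hc : HasCompactSupport f) (v : V) : ip μ (D A v f) g = - ip μ f (D A v g) := by
  have hfd : Differentiable ℝ f := hf.differentiable (by simp)
  have hgd : Differentiable ℝ g := hg.differentiable (by simp)
  have i1 := integrable_ip μ (continuous_D hA hf v) hg.continuous (hasCompactSupport_D (A := A) hc v)
  have i2 := integrable_ip μ hf.continuous (continuous_D hA hg v) hc
  have hprod : ContDiff ℝ ∞ (fun x => f x * conj (g x)) := hf.mul (contDiff_conj hg)
  have hz := integral_fderiv_zero μ hprod hc.mul_right v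
  have e : ∀ x, fderiv ℝ (fun x => f x * conj (g x)) x v =
      D A v f x * conj (g x) + f x * conj (D A v g x) := by
    intro x
    rw [fderiv_fun_mul (hfd x) ((contDiff_conj hg).differentiable (by simp) x)]
    simp only [_root_.add_apply, _root_.smul_apply, smul_eq_mul,
      fderiv_conj_apply (hgd x), D, map_add, map_mul, conj_I, conj_ofReal]
    ring
  simp only [e] at hz
  rw [integral_add i1 i2] at hz
  unfold ip
  linear_combination hz

end

end Crest.Agent.R260.Bk_40
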