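import Crest.Agent.R260.Bk1_40

/-!
# Row 260: Bochner-Kodaira inequality for exact forms (helper40), part 2

The exact identity for constant frames.
-/

set_option autoImplicit false
set_option linter.unusedSectionVars false

open MeasureTheory Complex Set
open scoped ContDiff ComplexConjugate

namespace Crest.Agent.R260.Bk_40

noncomputable section

variable {V : Type*} [NormedAddCommGroup V] [NormedSpace ℝ V]

/-- `D_v - i D_w` -/
def Dm (A : V → V →L[ℝ] ℝ) (v w : V) (f : V → ℂ) (p : V) : ℂ := D A v f p - I * D A w f p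

/-- `D_v + i D_w` -/
def Dp (A : V → V →L[ℝ] ℝ) (v w : V) (f : V → ℂ) (p : V) : ℂ := D A v f p + I * D A w f p

/-- the commutator of `Dm A v w` and `Dp A v' w'` -/
def Kc (A : V → V →L[ℝ] ℝ) (v w v' w' : V) (p : V) : ℂ :=
  I * ((Fc A p v v' : ℂ) + I * (Fc A p v w' : ℂ) - I * (Fc A p w v' : ℂ) + (Fc A p w w' : ℂ))

variable {A : V → V →L[ℝ] ℝ}

theorem contDiff_Dm (hA : ContDiff ℝ ∞ A) {f : V → ℂ} (hf : ContDiff ℝ ∞ f) (v w : V) :
    ContDiff ℝ ∞ (Dm A v w f) := (contDiff_D hA hf v).sub (contDiff_const.mul (contDiff_D hA hf w))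

theorem contDiff_Dp (hA : ContDiff ℝ ∞ A) {f : V → ℂ} (hf : ContDiff ℝ ∞ f) (v w : V) :
    ContDiff ℝ ∞ (Dp A v w f) := (contDiff_D hA hf v).add (contDiff_const.mul (contDiff_D hA hf w))

theorem hasCompactSupport_Dm {f : V → ℂ} (hf : HasCompactSupport f) (v w : V) :
    HasCompactSupport (Dm A v w f) :=
  (hasCompactSupport_D (A := A) hf v).sub ((hasCompactSupport_D (A := A) hf w).mul_left)

theorem hasCompactSupport_Dp {f : V → ℂ} (hf : HasCompactSupport f) (v w : V) :
    HasCompactSupport (Dp A v w f) :=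
  (hasCompactSupport_D (A := A) hf v).add ((hasCompactSupport_D (A := A) hf w).mul_left)

theorem Dm_Dp (hA : ContDiff ℝ ∞ A) {f : V → ℂ} (hf : ContDiff ℝ ∞ f) (v w v' w' : V) (p : V) :
    Dm A v w (Dp A v' w' f) p = Dp A v' w' (Dm A v w f) p + Kc A v w v' w' p * f p := by
  have hd : ∀ a, DifferentiableAt ℝ (D A a f) p := fun a =>
    (contDiff_D hA hf a).differentiable (by simp) p
  have hc : ∀ a, DifferentiableAt ℝ (fun q => I * D A a f q) p := fun a => (hd a).const_mul I
  have e1 : ∀ a, D A a (Dp A v' w' f) p = D A a (D A v' f) p + I * D A a (D A w' f) p := by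
    intro a
    have : Dp A v' w' f = fun q => D A v' f q + I * D A w' f q := rfl
    rw [this, D_add (hd v') (hc w'), D_const_mul I (hd w')]
  have e2 : ∀ a, D A a (Dm A v w f) p = D A a (D A v f) p - I * D A a (D A w f) p := by
    intro a
    have : Dm A v w f = fun q => D A v f q - I * D A w f q := rfl
    rw [this, D_sub (hd v) (hc w), D_const_mul I (hd w)]
  have c1 := D_comm hA hf v v' p
  have c2 := D_comm hA hf v w' p
  have c3 := D_comm hA hf w v' p
  have c4 := D_comm hA hf w w' p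
  simp only [Dm, Dp] at *
  rw [e1, e1, e2, e2, Kc]
  linear_combination c1 + I * c2 - I * c3 - I * I * c4 + (-(Fc A p w w' : ℂ) * I * f p) * (I_mul_I)

/-- the pointwise curvature term -/
theorem curv_sum {κ : Type*} [Fintype κ] (F : V →ₗ[ℝ] V →ₗ[ℝ] ℝ) (hF : ∀ v, F v v = 0)
    (x y : κ → V) (β : κ → ℂ) :
    ∑ i, ∑ j, I * ((F (x j) (x i) : ℂ) + I * (F (x j) (y i) : ℂ) - I * (F (y j) (x i) : ℂ) +
      (F (y j) (y i) : ℂ)) * β j * conj (β i) =
      ((-2 * F (∑ j, ((β j).re • x j + (β j).im • y j))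
        (∑ j, ((β j).re • y j - (β j).im • x j)) : ℝ) : ℂ) := by
  have lin1 : ∀ l : V →ₗ[ℝ] ℂ, ∑ j, β j * (l (x j) - I * l (y j)) =
      l (∑ j, ((β j).re • x j + (β j).im • y j)) -
        I * l (∑ j, ((β j).re • y j - (β j).im • x j)) := by
    intro l
    rw [map_sum, map_sum, Finset.mul_sum, ← Finset.sum_sub_distrib]
    refine Finset.sum_congr rfl fun j _ => ?_
    simp only [map_add, map_sub, map_smul, real_smul]
    have : β j = (β j).re + (β j).im * I := (re_add_im (β j)).symm
    conv_lhs => rw [this]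
    linear_combination (-(β j).im * l (y j)) * I_mul_I
  have lin2 : ∀ l : V →ₗ[ℝ] ℂ, ∑ j, conj (β j) * (l (x j) + I * l (y j)) =
      l (∑ j, ((β j).re • x j + (β j).im • y j)) +
        I * l (∑ j, ((β j).re • y j - (β j).im • x j)) := by
    intro l
    rw [map_sum, map_sum, Finset.mul_sum, ← Finset.sum_add_distrib]
    refine Finset.sum_congr rfl fun j _ => ?_
    simp only [map_add, map_sub, map_smul, real_smul]
    have : conj (β j) = (β j).re - (β j).im * I := by
      conv_lhs => rw [← re_add_im (β j)]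
      simp only [map_add, map_mul, conj_ofReal, conj_I]
      ring
    rw [this]
    linear_combination (-(β j).im * l (y j)) * I_mul_I
  set ξ := ∑ j, ((β j).re • x j + (β j).im • y j) with hξ
  set η := ∑ j, ((β j).re • y j - (β j).im • x j) with hη
  -- the functional `G v = F(v, ξ) + i F(v, η)`
  have hG : ∀ v : V, ∑ i, conj (β i) * ((F v (x i) : ℂ) + I * (F v (y i) : ℂ)) =
      (F v ξ : ℂ) + I * (F v η : ℂ) := by
    intro v
    exact lin2 (ofRealCLM.toLinearMap.comp (F v))
  have hanti : ∀ v w, F v w = - F w v := by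
    intro v w
    have h := hF (v + w)
    simp only [map_add, LinearMap.add_apply, hF] at h
    linarith
  let G : V →ₗ[ℝ] ℂ := ofRealCLM.toLinearMap.comp (F.flip ξ) +
    (I • ofRealCLM.toLinearMap.comp (F.flip η))
  have hGv : ∀ v, G v = (F v ξ : ℂ) + I * (F v η : ℂ) := by
    intro v
    simp [G]
  have e1 : ∀ i j : κ, I * ((F (x j) (x i) : ℂ) + I * (F (x j) (y i) : ℂ) -
      I * (F (y j) (x i) : ℂ) + (F (y j) (y i) : ℂ)) * β j * conj (β i) =
      I * (β j * (conj (β i) * ((F (x j) (x i) : ℂ) + I * (F (x j) (y i) : ℂ)) -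
        I * (conj (β i) * ((F (y j) (x i) : ℂ) + I * (F (y j) (y i) : ℂ))))) := by
    intro i j
    linear_combination (-I * (F (y j) (y i) : ℂ) * β j * conj (β i)) * (-I_mul_I)
  rw [Finset.sum_comm]
  have e2 : ∀ j : κ, ∑ i, I * ((F (x j) (x i) : ℂ) + I * (F (x j) (y i) : ℂ) -
      I * (F (y j) (x i) : ℂ) + (F (y j) (y i) : ℂ)) * β j * conj (β i) =
      I * (β j * (G (x j) - I * G (y j))) := by
    intro j
    rw [Finset.sum_congr rfl fun i _ => e1 i j, ← Finset.mul_sum, ← Finset.mul_sum,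
      Finset.sum_sub_distrib, ← Finset.mul_sum, hG, hG, hGv, hGv]
  rw [Finset.sum_congr rfl fun j _ => e2 j, ← Finset.mul_sum, lin1 G, hGv, hGv, hF, hF,
    hanti η ξ]
  push_cast
  linear_combination (2 * (F ξ η : ℂ)) * I_mul_I

variable [FiniteDimensional ℝ V] [MeasurableSpace V] [BorelSpace V] (μ : Measure V)
  [μ.IsAddHaarMeasure]

/-- squared `L²` norm -/
def N2 (f : V → ℂ) : ℝ := ∫ x, ‖f x‖ ^ 2 ∂μ

theorem integrable_N2 {f : V → ℂ} (hf : Continuous f) (hc : HasCompactSupport f) :
    Integrable (fun x => ‖f x‖ ^ 2) μ := by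
  have h1 : Continuous (fun x => ‖f x‖ ^ 2) := hf.norm.pow 2
  have h2 : HasCompactSupport (fun x => ‖f x‖ ^ 2) :=
    hc.comp_left (g := fun z : ℂ => ‖z‖ ^ 2) (by simp)
  exact h1.integrable_of_hasCompactSupport h2

theorem ip_self (f : V → ℂ) : ip μ f f = (N2 μ f : ℂ) := by
  have h : ∫ x, ((‖f x‖ ^ 2 : ℝ) : ℂ) ∂μ = ((∫ x, ‖f x‖ ^ 2 ∂μ : ℝ) : ℂ) := integral_ofReal
  unfold ip N2
  rw [← h]
  congr 1
  ext x
  rw [mul_conj, normSq_eq_norm_sq]

theorem ip_add_left {f g h : V → ℂ} (hf : Continuous f) (hg : Continuous g) (hh : Continuous h)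
    (cf : HasCompactSupport f) (cg : HasCompactSupport g) :
    ip μ (fun x => f x + g x) h = ip μ f h + ip μ g h := by
  unfold ip
  rw [← integral_add (integrable_ip μ hf hh cf) (integrable_ip μ hg hh cg)]
  congr 1; ext x; ring

theorem ip_conj (f g : V → ℂ) : conj (ip μ f g) = ip μ g f := by
  unfold ip
  rw [← integral_conj]
  congr 1; ext x
  simp [mul_comm]

theorem ip_const_mul (c : ℂ) (f g : V → ℂ) : ip μ (fun x => c * f x) g = c * ip μ f g := by
  unfold ip
  rw [← integral_const_mul]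
  congr 1; ext x; ring

theorem ip_mul_const (c : ℂ) (f g : V → ℂ) : ip μ f (fun x => c * g x) = conj c * ip μ f g := by
  unfold ip
  rw [← integral_const_mul]
  congr 1; ext x
  simp only [map_mul]; ring

theorem ip_Dp (hA : ContDiff ℝ ∞ A) {f g : V → ℂ} (hf : ContDiff ℝ ∞ f) (hg : ContDiff ℝ ∞ g)
    (cf : HasCompactSupport f) (v w : V) : ip μ (Dp A v w f) g = - ip μ f (Dm A v w g) := by
  have c1 := continuous_D hA hf v
  have c2 := continuous_D hA hf w
  have s1 := hasCompactSupport_D (A := A) cf v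
  have s2 := hasCompactSupport_D (A := A) cf w
  have e1 : ip μ (Dp A v w f) g = ip μ (D A v f) g + I * ip μ (D A w f) g := by
    have h := ip_add_left μ (g := fun x => I * D A w f x) c1 (continuous_const.mul c2)
      hg.continuous s1 s2.mul_left
    rw [ip_const_mul] at h
    exact h
  have e2 : ip μ f (Dm A v w g) = ip μ f (D A v g) + I * ip μ f (D A w g) := by
    have h1 : ip μ f (Dm A v w g) = conj (ip μ (Dm A v w g) f) := (ip_conj μ _ _).symm
    have i1 := integrable_ip μ hf.continuous (continuous_D hA hg v) cf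
    have i2 := integrable_ip μ hf.continuous (continuous_D hA hg w) cf
    unfold ip at *
    rw [← integral_const_mul, ← integral_add i1 (i2.const_mul I)]
    congr 1; ext x
    simp only [Dm, map_sub, map_mul, conj_I]
    ring
  rw [e1, e2, ip_D μ hA hf hg cf v, ip_D μ hA hf hg cf w]
  ring

theorem ip_Dm (hA : ContDiff ℝ ∞ A) {f g : V → ℂ} (hf : ContDiff ℝ ∞ f) (hg : ContDiff ℝ ∞ g)
    (cf : HasCompactSupport f) (v w : V) : ip μ (Dm A v w f) g = - ip μ f (Dp A v w g) := by
  have c1 := continuous_D hA hf v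
  have c2 := continuous_D hA hf w
  have s1 := hasCompactSupport_D (A := A) cf v
  have s2 := hasCompactSupport_D (A := A) cf w
  have e1 : ip μ (Dm A v w f) g = ip μ (D A v f) g + (-I) * ip μ (D A w f) g := by
    have h := ip_add_left μ (g := fun x => (-I) * D A w f x) c1 (continuous_const.mul c2)
      hg.continuous s1 s2.mul_left
    rw [ip_const_mul] at h
    rw [← h]
    unfold ip
    congr 1; ext x
    simp only [Dm]; ring
  have e2 : ip μ f (Dp A v w g) = ip μ f (D A v g) - I * ip μ f (D A w g) := by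
    have i1 := integrable_ip μ hf.continuous (continuous_D hA hg v) cf
    have i2 := integrable_ip μ hf.continuous (continuous_D hA hg w) cf
    unfold ip at *
    rw [← integral_const_mul, ← integral_sub i1 (i2.const_mul I)]
    congr 1; ext x
    simp only [Dp, map_add, map_mul, conj_I]
    ring
  rw [e1, e2, ip_D μ hA hf hg cf v, ip_D μ hA hf hg cf w]
  ring

end

end Crest.Agent.R260.Bk_40
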