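import Crest.Agent.R260.Bk2_40

/-!
# Row 260: Bochner-Kodaira inequality for exact forms (helper40), part 3

The exact identity for constant frames (integrated).
-/

set_option autoImplicit false
set_option linter.unusedSectionVars false

open MeasureTheory Complex Set
open scoped ContDiff ComplexConjugate

namespace Crest.Agent.R260.Bk_40

noncomputable section

variable {V : Type*} [NormedAddCommGroup V] [NormedSpace ℝ V]

/-- the curvature as a bilinear map -/
def FL (A : V → V →L[ℝ] ℝ) (p : V) : V →ₗ[ℝ] V →ₗ[ℝ] ℝ :=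
  LinearMap.mk₂ ℝ (fun v w => Fc A p v w)
    (by intro a b c; simp [Fc]; ring) (by intro c a b; simp [Fc]; ring)
    (by intro a b c; simp [Fc]; ring) (by intro c a b; simp [Fc]; ring)

theorem FL_apply (A : V → V →L[ℝ] ℝ) (p v w : V) : FL A p v w = Fc A p v w := rfl

theorem Fc_self (A : V → V →L[ℝ] ℝ) (p v : V) : Fc A p v v = 0 := by simp [Fc]

theorem Fc_anti (A : V → V →L[ℝ] ℝ) (p v w : V) : Fc A p v w = - Fc A p w v := by simp [Fc]

theorem continuous_Fc {A : V → V →L[ℝ] ℝ} (hA : ContDiff ℝ ∞ A) (v w : V) :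
    Continuous (fun p => Fc A p v w) := by
  have h : Continuous (fderiv ℝ A) := (hA.fderiv_right (m := ∞) (by simp)).continuous
  exact ((h.clm_apply continuous_const).clm_apply continuous_const).sub
    ((h.clm_apply continuous_const).clm_apply continuous_const)

theorem continuous_Kc {A : V → V →L[ℝ] ℝ} (hA : ContDiff ℝ ∞ A) (v w v' w' : V) :
    Continuous (Kc A v w v' w') := by
  unfold Kc
  have h := fun a b => continuous_ofReal.comp (continuous_Fc hA a b)
  exact continuous_const.mul ((((h v v').add (continuous_const.mul (h v w'))).sub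
    (continuous_const.mul (h w v'))).add (h w w'))

variable {A : V → V →L[ℝ] ℝ}
variable [FiniteDimensional ℝ V] [MeasurableSpace V] [BorelSpace V] (μ : Measure V)
  [μ.IsAddHaarMeasure]

theorem ip_sum {κ : Type*} [Fintype κ] {f g : κ → V → ℂ} (hf : ∀ j, Continuous (f j))
    (hg : ∀ j, Continuous (g j)) (cf : ∀ j, HasCompactSupport (f j)) :
    ip μ (fun x => ∑ j, f j x) (fun x => ∑ i, g i x) = ∑ i, ∑ j, ip μ (f j) (g i) := by
  have hi : ∀ i j, Integrable (fun x => f j x * conj (g i x)) μ := fun i j =>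
    integrable_ip μ (hf j) (hg i) (cf j)
  have h1 : ∀ x, (∑ j, f j x) * conj (∑ i, g i x) = ∑ i, ∑ j, f j x * conj (g i x) := by
    intro x
    rw [map_sum, Finset.mul_sum]
    refine Finset.sum_congr rfl fun i _ => ?_
    rw [Finset.sum_mul]
  unfold ip
  rw [integral_congr_ae (Filter.Eventually.of_forall h1),
    integral_finsetSum _ fun i _ => integrable_finsetSum _ fun j _ => hi i j]
  refine Finset.sum_congr rfl fun i _ => ?_
  rw [integral_finsetSum _ fun j _ => hi i j]

theorem N2_sub {f g : V → ℂ} (hf : Continuous f) (hg : Continuous g)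
    (cf : HasCompactSupport f) (cg : HasCompactSupport g) :
    N2 μ (fun x => f x - g x) = N2 μ f + N2 μ g - 2 * (ip μ f g).re := by
  have i1 := integrable_N2 μ hf cf
  have i2 := integrable_N2 μ hg cg
  have i3 := integrable_ip μ hf hg cf
  have h3 : (ip μ f g).re = ∫ x, (f x * conj (g x)).re ∂μ := by
    unfold ip
    exact (integral_re i3).symm
  have i4 : Integrable (fun x => 2 * (f x * conj (g x)).re) μ := i3.re.const_mul 2
  have i5 : Integrable (fun x => ‖f x‖ ^ 2 + ‖g x‖ ^ 2) μ := i1.add i2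
  rw [h3]
  unfold N2
  rw [← integral_const_mul, ← integral_add i1 i2, ← integral_sub i5 i4]
  congr 1; ext x
  have : ‖f x - g x‖ ^ 2 = ‖f x‖ ^ 2 + ‖g x‖ ^ 2 - 2 * (f x * conj (g x)).re := by
    rw [← normSq_eq_norm_sq, ← normSq_eq_norm_sq, ← normSq_eq_norm_sq, normSq_sub]
  rw [this]

/-- the exact Bochner-Kodaira identity for a constant frame -/
theorem bk_identity (hA : ContDiff ℝ ∞ A) {κ : Type*} [Fintype κ] (v w : κ → V) (β : κ → V → ℂ)
    (hβ : ∀ j, ContDiff ℝ ∞ (β j)) (cβ : ∀ j, HasCompactSupport (β j)) :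
    (∑ i, ∑ j, N2 μ (fun p => Dp A (v i) (w i) (β j) p - Dp A (v j) (w j) (β i) p)) / 2 +
      N2 μ (fun p => ∑ j, Dm A (v j) (w j) (β j) p) =
    (∑ i, ∑ j, N2 μ (Dp A (v i) (w i) (β j))) +
      ∫ p, -2 * Fc A p (∑ j, ((β j p).re • v j + (β j p).im • w j))
        (∑ j, ((β j p).re • w j - (β j p).im • v j)) ∂μ := by
  have sp : ∀ i j, ContDiff ℝ ∞ (Dp A (v i) (w i) (β j)) := fun i j => contDiff_Dp hA (hβ j) _ _
  have cp : ∀ i j, HasCompactSupport (Dp A (v i) (w i) (β j)) :=
    fun i j => hasCompactSupport_Dp (cβ j) _ _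
  have sm : ∀ i j, ContDiff ℝ ∞ (Dm A (v i) (w i) (β j)) := fun i j => contDiff_Dm hA (hβ j) _ _
  have cm : ∀ i j, HasCompactSupport (Dm A (v i) (w i) (β j)) :=
    fun i j => hasCompactSupport_Dm (cβ j) _ _
  have cK : ∀ i j, Continuous (fun p => Kc A (v j) (w j) (v i) (w i) p * β j p) := fun i j =>
    (continuous_Kc hA _ _ _ _).mul (hβ j).continuous
  have sK : ∀ i j, HasCompactSupport (fun p => Kc A (v j) (w j) (v i) (w i) p * β j p) :=
    fun i j => (cβ j).mul_left
  -- (b)
  have hb : ∀ i j, ip μ (Dp A (v i) (w i) (β j)) (Dp A (v j) (w j) (β i)) =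
      ip μ (Dm A (v j) (w j) (β j)) (Dm A (v i) (w i) (β i)) -
        ip μ (fun p => Kc A (v j) (w j) (v i) (w i) p * β j p) (β i) := by
    intro i j
    have h1 := ip_Dm μ hA (sp i j) (hβ i) (cp i j) (v j) (w j)
    have h2 := ip_Dp μ hA (sm j j) (hβ i) (cm j j) (v i) (w i)
    have h3 : Dm A (v j) (w j) (Dp A (v i) (w i) (β j)) =
        fun p => Dp A (v i) (w i) (Dm A (v j) (w j) (β j)) p +
          Kc A (v j) (w j) (v i) (w i) p * β j p := by
      ext p; exact Dm_Dp hA (hβ j) _ _ _ _ p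
    have h4 := ip_add_left μ (contDiff_Dp hA (sm j j) (v i) (w i)).continuous (cK i j)
      (hβ i).continuous (hasCompactSupport_Dp (cm j j) (v i) (w i)) (sK i j)
    rw [h3, h4] at h1
    linear_combination h1 - h2
  -- (c)
  have hc : N2 μ (fun p => ∑ j, Dm A (v j) (w j) (β j) p) =
      ∑ i, ∑ j, (ip μ (Dm A (v j) (w j) (β j)) (Dm A (v i) (w i) (β i))).re := by
    have h1 := ip_sum μ (f := fun j => Dm A (v j) (w j) (β j))
      (g := fun j => Dm A (v j) (w j) (β j)) (fun j => (sm j j).continuous)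
      (fun j => (sm j j).continuous) (fun j => cm j j)
    rw [ip_self] at h1
    have h2 := congrArg Complex.re h1
    simpa using h2
  -- (d) curvature
  have hd : ∫ p, -2 * Fc A p (∑ j, ((β j p).re • v j + (β j p).im • w j))
        (∑ j, ((β j p).re • w j - (β j p).im • v j)) ∂μ =
      ∑ i, ∑ j, (ip μ (fun p => Kc A (v j) (w j) (v i) (w i) p * β j p) (β i)).re := by
    have hi : ∀ i j, Integrable
        (fun p => Kc A (v j) (w j) (v i) (w i) p * β j p * conj (β i p)) μ := fun i j =>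
      integrable_ip μ (cK i j) (hβ i).continuous (sK i j)
    have h1 : ∀ p, ((-2 * Fc A p (∑ j, ((β j p).re • v j + (β j p).im • w j))
        (∑ j, ((β j p).re • w j - (β j p).im • v j)) : ℝ) : ℂ) =
        ∑ i, ∑ j, Kc A (v j) (w j) (v i) (w i) p * β j p * conj (β i p) := by
      intro p
      have h := curv_sum (FL A p) (fun v => Fc_self A p v) v w (fun j => β j p)
      simp only [FL_apply] at h
      rw [← h]
      rfl
    have h2 : ((∫ p, -2 * Fc A p (∑ j, ((β j p).re • v j + (β j p).im • w j))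
        (∑ j, ((β j p).re • w j - (β j p).im • v j)) ∂μ : ℝ) : ℂ) =
        ∑ i, ∑ j, ip μ (fun p => Kc A (v j) (w j) (v i) (w i) p * β j p) (β i) := by
      have hh : ∫ p, ((-2 * Fc A p (∑ j, ((β j p).re • v j + (β j p).im • w j))
        (∑ j, ((β j p).re • w j - (β j p).im • v j)) : ℝ) : ℂ) ∂μ =
        ((∫ p, -2 * Fc A p (∑ j, ((β j p).re • v j + (β j p).im • w j))
        (∑ j, ((β j p).re • w j - (β j p).im • v j)) ∂μ : ℝ) : ℂ) := integral_ofReal
      rw [← hh, integral_congr_ae (Filter.Eventually.of_forall h1)]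
      rw [integral_finsetSum _ fun i _ => integrable_finsetSum _ fun j _ => hi i j]
      refine Finset.sum_congr rfl fun i _ => ?_
      rw [integral_finsetSum _ fun j _ => hi i j]
      rfl
    have h3 := congrArg Complex.re h2
    simpa using h3
  have ha : ∀ i j, N2 μ (fun p => Dp A (v i) (w i) (β j) p - Dp A (v j) (w j) (β i) p) =
      N2 μ (Dp A (v i) (w i) (β j)) + N2 μ (Dp A (v j) (w j) (β i)) -
        2 * ((ip μ (Dm A (v j) (w j) (β j)) (Dm A (v i) (w i) (β i))).re -
          (ip μ (fun p => Kc A (v j) (w j) (v i) (w i) p * β j p) (β i)).re) := by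
    intro i j
    rw [N2_sub μ (sp i j).continuous (sp j i).continuous (cp i j) (cp j i), hb, sub_re]
  have hswap : ∑ i, ∑ j, N2 μ (Dp A (v j) (w j) (β i)) = ∑ i, ∑ j, N2 μ (Dp A (v i) (w i) (β j)) :=
    Finset.sum_comm
  have hfin : ∑ i, ∑ j, N2 μ (fun p => Dp A (v i) (w i) (β j) p - Dp A (v j) (w j) (β i) p) =
      2 * (∑ i, ∑ j, N2 μ (Dp A (v i) (w i) (β j))) -
      2 * ((∑ i, ∑ j, (ip μ (Dm A (v j) (w j) (β j)) (Dm A (v i) (w i) (β i))).re) -
        ∑ i, ∑ j, (ip μ (fun p => Kc A (v j) (w j) (v i) (w i) p * β j p) (β i)).re) := by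
    simp_rw [ha]
    simp only [Finset.sum_sub_distrib, Finset.sum_add_distrib, ← Finset.mul_sum]
    rw [hswap]
    ring
  rw [hfin, hc, hd]
  ring

theorem N2_nonneg (f : V → ℂ) : 0 ≤ N2 μ f := integral_nonneg fun x => by positivity

/-- gradient bound by `Dp` for one function -/
theorem grad_identity (hA : ContDiff ℝ ∞ A) (v w : V) {f : V → ℂ} (hf : ContDiff ℝ ∞ f)
    (cf : HasCompactSupport f) :
    N2 μ (D A v f) + N2 μ (D A w f) = N2 μ (Dp A v w f) - ∫ p, Fc A p v w * ‖f p‖ ^ 2 ∂μ := by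
  have key := bk_identity μ hA (κ := Unit) (fun _ => v) (fun _ => w) (fun _ => f) (fun _ => hf)
    (fun _ => cf)
  simp only [Finset.univ_unique, PUnit.default_eq_unit, Finset.sum_singleton, sub_self] at key
  have h0 : N2 μ (fun _ : V => (0 : ℂ)) = 0 := by simp [N2]
  rw [h0] at key
  have h1 : ∀ p, -2 * Fc A p ((f p).re • v + (f p).im • w) ((f p).re • w - (f p).im • v) =
      -2 * (Fc A p v w * ‖f p‖ ^ 2) := by
    intro p
    have e : Fc A p ((f p).re • v + (f p).im • w) ((f p).re • w - (f p).im • v) =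
        Fc A p v w * ‖f p‖ ^ 2 := by
      rw [← FL_apply]
      simp only [map_add, map_sub, map_smul, LinearMap.add_apply, LinearMap.smul_apply,
        FL_apply, smul_eq_mul, Fc_self, Fc_anti A p w v]
      rw [← normSq_eq_norm_sq, normSq_apply]
      ring
    rw [e]
  rw [integral_congr_ae (Filter.Eventually.of_forall h1), integral_const_mul] at key
  have i1 := integrable_N2 μ (continuous_D hA hf v) (hasCompactSupport_D (A := A) cf v)
  have i2 := integrable_N2 μ (continuous_D hA hf w) (hasCompactSupport_D (A := A) cf w)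
  have h2 : N2 μ (fun p => Dm A v w f p) + N2 μ (Dp A v w f) =
      2 * (N2 μ (D A v f) + N2 μ (D A w f)) := by
    have i3 := integrable_N2 μ (contDiff_Dm hA hf v w).continuous (hasCompactSupport_Dm (A := A) cf v w)
    have i4 := integrable_N2 μ (contDiff_Dp hA hf v w).continuous (hasCompactSupport_Dp (A := A) cf v w)
    unfold N2
    rw [← integral_add i3 i4, ← integral_add i1 i2, ← integral_const_mul]
    congr 1; ext p
    have : ‖Dm A v w f p‖ ^ 2 + ‖Dp A v w f p‖ ^ 2 =
        2 * (‖D A v f p‖ ^ 2 + ‖D A w f p‖ ^ 2) := by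
      unfold Dm Dp
      rw [← normSq_eq_norm_sq, ← normSq_eq_norm_sq, ← normSq_eq_norm_sq, ← normSq_eq_norm_sq]
      simp only [normSq_apply, add_re, add_im, sub_re, sub_im, mul_re, mul_im, I_re, I_im]
      ring
    exact this
  linarith

end

end Crest.Agent.R260.Bk_40
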