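import Crest.Agent.R260.Bk3_40
import Crest.Agent.R260.ACM_580

/-!
# Row 260: Bochner-Kodaira inequality for exact forms (helper40), part 4

`al A J u v = (D_v u + i D_(Jv) u) / 2` (the form `dbar u`), its derivatives, integrability.
-/

set_option autoImplicit false
set_option linter.unusedSectionVars false

open MeasureTheory Complex Set
open scoped ContDiff ComplexConjugate

namespace Crest.Agent.R260.Bk_40

noncomputable section

variable {V : Type*} [NormedAddCommGroup V] [NormedSpace ℝ V]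

/-- the form `dbar u` evaluated at `v` -/
def al (A : V → V →L[ℝ] ℝ) (J : V → V →L[ℝ] V) (u : V → ℂ) (v : V) (x : V) : ℂ :=
  (D A v u x + I * D A (J x v) u x) / 2

variable {A : V → V →L[ℝ] ℝ} {J : V → V →L[ℝ] V} {u : V → ℂ}

theorem al_add_vec (v w x : V) : al A J u (v + w) x = al A J u v x + al A J u w x := by
  simp only [al, map_add, D_add_vec]; ring

theorem al_smul_vec (c : ℝ) (v x : V) : al A J u (c • v) x = c * al A J u v x := by
  simp only [al, map_smul, D_smul_vec]; ring

theorem al_neg_vec (v x : V) : al A J u (-v) x = - al A J u v x := by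
  simp only [al, map_neg, D_neg_vec]; ring

theorem al_sub_vec (v w x : V) : al A J u (v - w) x = al A J u v x - al A J u w x := by
  simp only [al, map_sub, D_sub_vec]; ring

theorem al_zero_vec (x : V) : al A J u 0 x = 0 := by
  simp only [al, map_zero, D_zero_vec]; simp

theorem al_sum_vec {ι : Type*} (s : Finset ι) (c : ι → ℝ) (v : ι → V) (x : V) :
    al A J u (∑ i ∈ s, c i • v i) x = ∑ i ∈ s, (c i : ℂ) * al A J u (v i) x := by
  classical
  induction s using Finset.induction_on with
  | empty => simp [al_zero_vec]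
  | insert a s ha ih => rw [Finset.sum_insert ha, Finset.sum_insert ha, al_add_vec, al_smul_vec, ih]

theorem al_J {x : V} (hx : ∀ v, J x (J x v) = -v) (v : V) :
    al A J u (J x v) x = -I * al A J u v x := by
  simp only [al, hx, D_neg_vec]
  linear_combination (D A (J x v) u x / 2) * I_mul_I

theorem contDiff_D_field (hA : ContDiff ℝ ∞ A) (hu : ContDiff ℝ ∞ u) {W : V → V}
    (hW : ContDiff ℝ ∞ W) : ContDiff ℝ ∞ (fun y => D A (W y) u y) := by
  have h1 : ContDiff ℝ ∞ (fun y => fderiv ℝ u y (W y)) :=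
    (hu.fderiv_right (m := ∞) (by simp)).clm_apply hW
  have h2 : ContDiff ℝ ∞ (fun y => ((A y (W y) : ℝ) : ℂ)) := contDiff_ofReal (hA.clm_apply hW)
  exact h1.add ((contDiff_const.mul h2).mul hu)

theorem contDiff_al (hA : ContDiff ℝ ∞ A) (hJ : ContDiff ℝ ∞ J) (hu : ContDiff ℝ ∞ u) (v : V) :
    ContDiff ℝ ∞ (al A J u v) := by
  have h1 := contDiff_D hA hu v
  have h2 := contDiff_D_field hA hu (hJ.clm_apply (contDiff_const (c := v)))
  have h3 : al A J u v = fun x => (1 / 2 : ℂ) * (D A v u x + I * D A (J x v) u x) := by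
    ext x; simp only [al]; ring
  rw [h3]
  exact contDiff_const.mul (h1.add (contDiff_const.mul h2))

/-- derivative of `D_(W) u` for a vector field `W` -/
theorem D_D_field (hA : ContDiff ℝ ∞ A) (hu : ContDiff ℝ ∞ u) {W : V → V}
    (hW : ContDiff ℝ ∞ W) (v x : V) :
    D A v (fun y => D A (W y) u y) x = D A v (D A (W x) u) x + D A (fderiv ℝ W x v) u x := by
  have hud : DifferentiableAt ℝ u x := hu.differentiable (by simp) x
  have hAd : DifferentiableAt ℝ A x := hA.differentiable (by simp) x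
  have hWd : DifferentiableAt ℝ W x := hW.differentiable (by simp) x
  have huu : DifferentiableAt ℝ (fderiv ℝ u) x :=
    (hu.fderiv_right (m := ∞) (by simp)).differentiable (by simp) x
  -- general formula for a field `Y`
  have key : ∀ Y : V → V, DifferentiableAt ℝ Y x →
      fderiv ℝ (fun y => D A (Y y) u y) x v = fderiv ℝ (fderiv ℝ u) x v (Y x) +
        fderiv ℝ u x (fderiv ℝ Y x v) + I * ((fderiv ℝ A x v (Y x) : ℝ) : ℂ) * u x +
        I * ((A x (fderiv ℝ Y x v) : ℝ) : ℂ) * u x + I * ((A x (Y x) : ℝ) : ℂ) * fderiv ℝ u x v := by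
    intro Y hY
    have h1 : DifferentiableAt ℝ (fun y => fderiv ℝ u y (Y y)) x := huu.clm_apply hY
    have h2 : DifferentiableAt ℝ (fun y => A y (Y y)) x := hAd.clm_apply hY
    have h3 : DifferentiableAt ℝ (fun y => ((A y (Y y) : ℝ) : ℂ)) x :=
      ofRealCLM.differentiableAt.comp x h2
    have h4 : DifferentiableAt ℝ (fun y => I * ((A y (Y y) : ℝ) : ℂ)) x := h3.const_mul I
    have h5 : DifferentiableAt ℝ (fun y => I * ((A y (Y y) : ℝ) : ℂ) * u y) x := h4.mul hud
    have e1 : fderiv ℝ (fun y => fderiv ℝ u y (Y y)) x v =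
        fderiv ℝ (fderiv ℝ u) x v (Y x) + fderiv ℝ u x (fderiv ℝ Y x v) := by
      rw [fderiv_clm_apply huu hY]
      simp [add_comm]
    have e2 : fderiv ℝ (fun y => ((A y (Y y) : ℝ) : ℂ)) x v =
        ((fderiv ℝ A x v (Y x) : ℝ) : ℂ) + ((A x (fderiv ℝ Y x v) : ℝ) : ℂ) := by
      rw [fderiv_ofReal h2, fderiv_clm_apply hAd hY]
      simp [add_comm]
    have e3 : fderiv ℝ (fun y => I * ((A y (Y y) : ℝ) : ℂ) * u y) x v =
        I * (((fderiv ℝ A x v (Y x) : ℝ) : ℂ) + ((A x (fderiv ℝ Y x v) : ℝ) : ℂ)) * u x +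
          I * ((A x (Y x) : ℝ) : ℂ) * fderiv ℝ u x v := by
      rw [fderiv_fun_mul h4 hud, fderiv_const_mul h3]
      simp only [_root_.add_apply, _root_.smul_apply, smul_eq_mul, e2]
      ring
    have : (fun y => D A (Y y) u y) =
        fun y => fderiv ℝ u y (Y y) + I * ((A y (Y y) : ℝ) : ℂ) * u y := rfl
    rw [this, fderiv_fun_add h1 h5, _root_.add_apply, e1, e3]
    ring
  have k1 := key W hWd
  have k2 := key (fun _ => W x) (differentiableAt_const _)
  have hz : fderiv ℝ (fun _ : V => W x) x v = 0 := by simp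
  rw [hz] at k2
  simp only [map_zero, ofReal_zero, mul_zero, zero_mul, add_zero] at k2
  have k3 : fderiv ℝ (D A (W x) u) x v = fderiv ℝ (fun y => D A (W x) u y) x v := rfl
  rw [D, k1]
  conv_rhs => rw [D, k3, k2]
  simp only [D]
  ring

theorem D_al (hA : ContDiff ℝ ∞ A) (hJ : ContDiff ℝ ∞ J) (hu : ContDiff ℝ ∞ u) (v w x : V) :
    D A v (al A J u w) x = (D A v (D A w u) x + I * (D A v (D A (J x w) u) x +
      D A (fderiv ℝ J x v w) u x)) / 2 := by
  have hW : ContDiff ℝ ∞ (fun y => J y w) := hJ.clm_apply contDiff_const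
  have h1 : DifferentiableAt ℝ (D A w u) x := (contDiff_D hA hu w).differentiable (by simp) x
  have h2 : DifferentiableAt ℝ (fun y => D A (J y w) u y) x :=
    (contDiff_D_field hA hu hW).differentiable (by simp) x
  have h3 : al A J u w = fun y => (1 / 2 : ℂ) * (D A w u y + I * D A (J y w) u y) := by
    ext y; simp only [al]; ring
  have hder : fderiv ℝ (fun y => J y w) x v = fderiv ℝ J x v w := by
    rw [fderiv_clm_apply (hJ.differentiable (by simp) x) (differentiableAt_const _)]
    simp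
  have h4 : DifferentiableAt ℝ (fun y => I * D A (J y w) u y) x := h2.const_mul I
  have h5 : DifferentiableAt ℝ (fun y => D A w u y + I * D A (J y w) u y) x := h1.add h4
  rw [h3, D_const_mul _ h5, D_add h1 h4, D_const_mul _ h2, D_D_field hA hu hW, hder]
  ring

/-- integrability: `dbar (dbar u) = 0` up to zero order terms in `dbar u` -/
theorem al_closed (hA : ContDiff ℝ ∞ A) (hJ : ContDiff ℝ ∞ J) (hu : ContDiff ℝ ∞ u) {x : V}
    (hx : ∀ v, J x (J x v) = -v) (hN : ∀ v w, ACM_580.Nij J x v w = 0)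
    (hF : ∀ v w, Fc A x (J x v) (J x w) = Fc A x v w) (v w : V) :
    (D A v (al A J u w) x + I * D A (J x v) (al A J u w) x) -
      (D A w (al A J u v) x + I * D A (J x w) (al A J u v) x) =
    I * al A J u (fderiv ℝ J x v w - fderiv ℝ J x w v) x := by
  have hF2 : Fc A x v (J x w) = - Fc A x (J x v) w := by
    have h := hF v (J x w)
    rw [hx] at h
    simp only [Fc, map_neg, _root_.neg_apply] at h ⊢
    linarith
  have hB : fderiv ℝ J x (J x v) w - fderiv ℝ J x (J x w) v =
      J x (fderiv ℝ J x v w - fderiv ℝ J x w v) := by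
    have h := hN v w
    simp only [ACM_580.Nij] at h
    rw [map_sub]
    have h2 := sub_eq_zero.mpr (rfl : (0 : V) = 0)
    have : fderiv ℝ J x (J x v) w - fderiv ℝ J x (J x w) v -
      (J x (fderiv ℝ J x v w) - J x (fderiv ℝ J x w v)) = 0 := by
      rw [← h]; abel
    exact sub_eq_zero.mp this
  have c1 := D_comm hA hu v w x
  have c2 := D_comm hA hu v (J x w) x
  have c3 := D_comm hA hu (J x v) w x
  have c4 := D_comm hA hu (J x v) (J x w) x
  have dB : D A (fderiv ℝ J x (J x v) w) u x - D A (fderiv ℝ J x (J x w) v) u x =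
      D A (J x (fderiv ℝ J x v w - fderiv ℝ J x w v)) u x := by
    rw [← D_sub_vec, hB]
  have dA : D A (fderiv ℝ J x v w) u x - D A (fderiv ℝ J x w v) u x =
      D A (fderiv ℝ J x v w - fderiv ℝ J x w v) u x := by
    rw [← D_sub_vec]
  rw [hF v w] at c4
  rw [hF2] at c2
  simp only [D_al hA hJ hu, al]
  push_cast at c2
  rw [← dA, ← dB]
  linear_combination (1 / 2 : ℂ) * c1 + (I / 2) * c2 + (I / 2) * c3 + (I * I / 2) * c4 +
    ((I * (Fc A x v w : ℂ) * u x) / 2) * I_mul_I +
    (-(D A (fderiv ℝ J x (J x v) w) u x - D A (fderiv ℝ J x (J x w) v) u x) / 2 * 0) * I_mul_I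

end

end Crest.Agent.R260.Bk_40
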