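import Crest.Agent.R260.Bk4_40

/-!
# Row 260: Bochner-Kodaira inequality for exact forms (helper40), part 5

Pointwise identities in a basis adapted to `J` at one point, with a cut-off function.
-/

set_option autoImplicit false
set_option linter.unusedSectionVars false

open MeasureTheory Complex Set
open scoped ContDiff ComplexConjugate

namespace Crest.Agent.R260.Bk_40

noncomputable section

variable {V : Type*} [NormedAddCommGroup V] [NormedSpace ℝ V] [FiniteDimensional ℝ V]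

section

variable {d : ℕ} (b : Module.Basis (Fin d ⊕ Fin d) ℝ V)

/-- coordinates as continuous linear functionals -/
def co (l : Fin d ⊕ Fin d) : V →L[ℝ] ℝ := LinearMap.toContinuousLinearMap (b.coord l)

theorem co_apply (l : Fin d ⊕ Fin d) (v : V) : co b l v = b.repr v l := rfl

theorem sum_co (v : V) : ∑ l, co b l v • b l = v := by
  simp only [co_apply]; exact b.sum_repr v

/-- the coefficients of `(J y - J x0) (b (inl j))` -/
def cc (J : V → V →L[ℝ] V) (j : Fin d) (l : Fin d ⊕ Fin d) (y : V) : ℝ :=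
  co b l (J y (b (Sum.inl j)) - b (Sum.inr j))

theorem contDiff_cc {J : V → V →L[ℝ] V} (hJ : ContDiff ℝ ∞ J) (j : Fin d) (l : Fin d ⊕ Fin d) :
    ContDiff ℝ ∞ (cc b J j l) :=
  (co b l).contDiff.comp ((hJ.clm_apply contDiff_const).sub contDiff_const)

theorem J_inl (J : V → V →L[ℝ] V) (j : Fin d) (y : V) :
    J y (b (Sum.inl j)) = b (Sum.inr j) + ∑ l, cc b J j l y • b l := by
  simp only [cc, sum_co]; abel

theorem fderiv_cc {J : V → V →L[ℝ] V} (hJ : ContDiff ℝ ∞ J) (j : Fin d) (l : Fin d ⊕ Fin d)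
    (y v : V) : fderiv ℝ (cc b J j l) y v = co b l (fderiv ℝ J y v (b (Sum.inl j))) := by
  have h1 : DifferentiableAt ℝ (fun y => J y (b (Sum.inl j))) y :=
    (hJ.clm_apply contDiff_const).differentiable (by simp) y
  have h2 : HasFDerivAt (fun y => J y (b (Sum.inl j)) - b (Sum.inr j))
      (fderiv ℝ (fun y => J y (b (Sum.inl j))) y) y := by
    simpa using h1.hasFDerivAt.sub_const (b (Sum.inr j))
  have h3 : HasFDerivAt (cc b J j l)
      ((co b l).comp (fderiv ℝ (fun y => J y (b (Sum.inl j))) y)) y :=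
    (co b l).hasFDerivAt.comp y h2
  rw [h3.fderiv]
  simp only [ContinuousLinearMap.comp_apply]
  rw [fderiv_clm_apply (hJ.differentiable (by simp) y) (differentiableAt_const _)]
  simp

variable (A : V → V →L[ℝ] ℝ) (J : V → V →L[ℝ] V) (u : V → ℂ) (χ : V → ℝ)

/-- the cut-off components of `dbar u` -/
def B (l : Fin d ⊕ Fin d) (y : V) : ℂ := (χ y : ℂ) * al A J u (b l) y

variable {A J u χ}

theorem contDiff_B (hA : ContDiff ℝ ∞ A) (hJ : ContDiff ℝ ∞ J) (hu : ContDiff ℝ ∞ u)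
    (hχ : ContDiff ℝ ∞ χ) (l : Fin d ⊕ Fin d) : ContDiff ℝ ∞ (B b A J u χ l) :=
  (contDiff_ofReal hχ).mul (contDiff_al hA hJ hu (b l))

theorem B_zero {y : V} (hy : χ y = 0) (l : Fin d ⊕ Fin d) : B b A J u χ l y = 0 := by
  simp [B, hy]

theorem hasCompactSupport_B (hχ : HasCompactSupport χ) (l : Fin d ⊕ Fin d) :
    HasCompactSupport (B b A J u χ l) := by
  have h : HasCompactSupport (fun y => (χ y : ℂ)) :=
    hχ.comp_left (g := fun t : ℝ => (t : ℂ)) (by simp)
  exact h.mul_right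

/-- (R1) -/
theorem B_inr (hW : ∀ y, χ y ≠ 0 → ∀ v, J y (J y v) = -v) (j : Fin d) (y : V) :
    B b A J u χ (Sum.inr j) y = -I * B b A J u χ (Sum.inl j) y -
      ∑ l, (cc b J j l y : ℂ) * B b A J u χ l y := by
  by_cases hy : χ y = 0
  · simp [B_zero b hy]
  · have h1 : al A J u (b (Sum.inr j)) y = -I * al A J u (b (Sum.inl j)) y -
        ∑ l, (cc b J j l y : ℂ) * al A J u (b l) y := by
      have e : b (Sum.inr j) = J y (b (Sum.inl j)) - ∑ l, cc b J j l y • b l := by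
        rw [J_inl b J j y]; abel
      conv_lhs => rw [e]
      rw [al_sub_vec, al_J (hW y hy), al_sum_vec]
    simp only [B]
    rw [h1, mul_sub, Finset.mul_sum]
    congr 1
    · ring
    · refine Finset.sum_congr rfl fun l _ => ?_
      ring

/-- (R2) -/
theorem D_B_inr (hA : ContDiff ℝ ∞ A) (hJ : ContDiff ℝ ∞ J) (hu : ContDiff ℝ ∞ u)
    (hχ : ContDiff ℝ ∞ χ) (hW : ∀ y, χ y ≠ 0 → ∀ v, J y (J y v) = -v) (j : Fin d) (v y : V) :
    D A v (B b A J u χ (Sum.inr j)) y = -I * D A v (B b A J u χ (Sum.inl j)) y -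
      ∑ l, ((fderiv ℝ (cc b J j l) y v : ℂ) * B b A J u χ l y +
        (cc b J j l y : ℂ) * D A v (B b A J u χ l) y) := by
  have hB : ∀ l, DifferentiableAt ℝ (B b A J u χ l) y := fun l =>
    (contDiff_B b hA hJ hu hχ l).differentiable (by simp) y
  have hc : ∀ l, DifferentiableAt ℝ (cc b J j l) y := fun l =>
    (contDiff_cc b hJ j l).differentiable (by simp) y
  have hc' : ∀ l, DifferentiableAt ℝ (fun y => (cc b J j l y : ℂ)) y := fun l =>
    ofRealCLM.differentiableAt.comp y (hc l)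
  have h1 : B b A J u χ (Sum.inr j) = fun y => -I * B b A J u χ (Sum.inl j) y -
      ∑ l, (cc b J j l y : ℂ) * B b A J u χ l y := by
    ext y; exact B_inr b hW j y
  have h2 : ∀ l ∈ Finset.univ, DifferentiableAt ℝ
      (fun y => (cc b J j l y : ℂ) * B b A J u χ l y) y := fun l _ => (hc' l).mul (hB l)
  have h3 : DifferentiableAt ℝ (fun y => ∑ l, (cc b J j l y : ℂ) * B b A J u χ l y) y :=
    DifferentiableAt.fun_sum h2
  have h4 : DifferentiableAt ℝ (fun y => -I * B b A J u χ (Sum.inl j) y) y :=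
    (hB _).const_mul _
  rw [h1, D_sub h4 h3, D_const_mul _ (hB _), D_sum _ h2]
  congr 1
  refine Finset.sum_congr rfl fun l _ => ?_
  rw [D_real_mul (hc l) (hB l)]

/-- (R3) -/
theorem D_B (hA : ContDiff ℝ ∞ A) (hJ : ContDiff ℝ ∞ J) (hu : ContDiff ℝ ∞ u)
    (hχ : ContDiff ℝ ∞ χ) (l : Fin d ⊕ Fin d) (v y : V) :
    D A v (B b A J u χ l) y = (fderiv ℝ χ y v : ℂ) * al A J u (b l) y +
      χ y * D A v (al A J u (b l)) y :=
  D_real_mul (hχ.differentiable (by simp) y)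
    ((contDiff_al hA hJ hu (b l)).differentiable (by simp) y)

/-- (E1) -/
theorem E1_eq (hA : ContDiff ℝ ∞ A) (hJ : ContDiff ℝ ∞ J) (hu : ContDiff ℝ ∞ u)
    (hχ : ContDiff ℝ ∞ χ) {y : V}
    (hx : ∀ v, J y (J y v) = -v) (hN : ∀ v w, ACM_580.Nij J y v w = 0)
    (hF : ∀ v w, Fc A y (J y v) (J y w) = Fc A y v w) (i j : Fin d) :
    Dp A (b (Sum.inl i)) (b (Sum.inr i)) (B b A J u χ (Sum.inl j)) y -
      Dp A (b (Sum.inl j)) (b (Sum.inr j)) (B b A J u χ (Sum.inl i)) y =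
    ((fderiv ℝ χ y (b (Sum.inl i)) : ℂ) + I * (fderiv ℝ χ y (b (Sum.inr i)) : ℂ)) *
        al A J u (b (Sum.inl j)) y -
      ((fderiv ℝ χ y (b (Sum.inl j)) : ℂ) + I * (fderiv ℝ χ y (b (Sum.inr j)) : ℂ)) *
        al A J u (b (Sum.inl i)) y +
      I * ∑ l, ((fderiv ℝ (cc b J j l) y (b (Sum.inl i)) -
        fderiv ℝ (cc b J i l) y (b (Sum.inl j)) : ℝ) : ℂ) * B b A J u χ l y -
      I * ∑ l, (cc b J i l y : ℂ) * (D A (b l) (B b A J u χ (Sum.inl j)) y -
        (fderiv ℝ χ y (b l) : ℂ) * al A J u (b (Sum.inl j)) y) +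
      I * ∑ l, (cc b J j l y : ℂ) * (D A (b l) (B b A J u χ (Sum.inl i)) y -
        (fderiv ℝ χ y (b l) : ℂ) * al A J u (b (Sum.inl i)) y) := by
  -- the direction `b (inr i)` in terms of `J y (b (inl i))`
  have hdir : ∀ (i : Fin d) (f : V → ℂ), D A (b (Sum.inr i)) f y =
      D A (J y (b (Sum.inl i))) f y - ∑ l, (cc b J i l y : ℂ) * D A (b l) f y := by
    intro i f
    have e : b (Sum.inr i) = J y (b (Sum.inl i)) - ∑ l, cc b J i l y • b l := by
      rw [J_inl b J i y]; abel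
    conv_lhs => rw [e]
    rw [D_sub_vec, D_sum_vec]
  have hcl := al_closed hA hJ hu hx hN hF (b (Sum.inl i)) (b (Sum.inl j))
  have hvec : fderiv ℝ J y (b (Sum.inl i)) (b (Sum.inl j)) -
      fderiv ℝ J y (b (Sum.inl j)) (b (Sum.inl i)) =
      ∑ l, (fderiv ℝ (cc b J j l) y (b (Sum.inl i)) -
        fderiv ℝ (cc b J i l) y (b (Sum.inl j))) • b l := by
    rw [← sum_co b (fderiv ℝ J y (b (Sum.inl i)) (b (Sum.inl j)) -
      fderiv ℝ J y (b (Sum.inl j)) (b (Sum.inl i)))]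
    refine Finset.sum_congr rfl fun l _ => ?_
    rw [fderiv_cc b hJ, fderiv_cc b hJ, map_sub]
  rw [hvec, al_sum_vec] at hcl
  have hs1 : ∑ l, ((fderiv ℝ (cc b J j l) y (b (Sum.inl i)) -
      fderiv ℝ (cc b J i l) y (b (Sum.inl j)) : ℝ) : ℂ) * B b A J u χ l y =
      (χ y : ℂ) * ∑ l, ((fderiv ℝ (cc b J j l) y (b (Sum.inl i)) -
      fderiv ℝ (cc b J i l) y (b (Sum.inl j)) : ℝ) : ℂ) * al A J u (b l) y := by
    rw [Finset.mul_sum]
    refine Finset.sum_congr rfl fun l _ => ?_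
    simp only [B]; ring
  have hs2 : ∀ (i j : Fin d), ∑ l, (cc b J i l y : ℂ) * (D A (b l) (B b A J u χ (Sum.inl j)) y -
        (fderiv ℝ χ y (b l) : ℂ) * al A J u (b (Sum.inl j)) y) =
      (χ y : ℂ) * ∑ l, (cc b J i l y : ℂ) * D A (b l) (al A J u (b (Sum.inl j))) y := by
    intro i j
    rw [Finset.mul_sum]
    refine Finset.sum_congr rfl fun l _ => ?_
    rw [D_B b hA hJ hu hχ]; ring
  rw [hs1, hs2 i j, hs2 j i]
  simp only [Dp, D_B b hA hJ hu hχ]
  rw [hdir i (al A J u (b (Sum.inl j))), hdir j (al A J u (b (Sum.inl i)))]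
  linear_combination (χ y : ℂ) * hcl

end

end

end Crest.Agent.R260.Bk_40
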