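import Mathlib

/-!
# Row 260, CN-DIM (1): adjugate of a matrix of corank one (helper841)

`A r = 0`, `rᵀ A = 0`, both kernels spanned by `r`: `adj A = γ r rᵀ`, `γ ≠ 0`; change of basis; the
residue criterion for `γ` to be a unit.
-/

set_option autoImplicit false

namespace Crest.Agent.R260.CnDim_841

open Matrix

variable {n : Type*} [Fintype n] [DecidableEq n]

section field

variable {F : Type*} [Field F]

/-- one entry changed. -/
theorem det_add_single (A : Matrix n n F) (i : n) :
    (A + Matrix.single i i 1).det = A.det + A.adjugate i i := by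
  have h : A + Matrix.single i i 1 = A.updateRow i (A i + Pi.single i 1) := by
    ext a b
    by_cases ha : a = i
    · subst ha
      simp only [Matrix.add_apply, Matrix.updateRow_self, Pi.add_apply, Matrix.single_apply,
        Pi.single_apply]
      by_cases hb : b = a
      · subst hb; simp
      · have : ¬ (a = b) := fun h => hb h.symm
        simp [hb, this]
    · have : ¬ (i = a) := fun h => ha h.symm
      simp [Matrix.updateRow_ne ha, this]
  rw [h, Matrix.det_updateRow_add, Matrix.updateRow_eq_self, Matrix.adjugate_apply]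

theorem det_eq_zero_of {A : Matrix n n F} {r : n → F} (h : A *ᵥ r = 0) (hr : r ≠ 0) :
    A.det = 0 := Matrix.exists_mulVec_eq_zero_iff.mp ⟨r, hr, h⟩

/-- `A + e eᵀ` is invertible at an index where `r` does not vanish. -/
theorem det_single_ne_zero {A : Matrix n n F} {r : n → F}
    (hl : r ᵥ* A = 0) (hker : ∀ x, A *ᵥ x = 0 → ∃ c : F, x = c • r) {i : n} (hi : r i ≠ 0) :
    (A + Matrix.single i i 1).det ≠ 0 := by
  intro h0
  obtain ⟨x, hx0, hx⟩ := Matrix.exists_mulVec_eq_zero_iff.mpr h0
  have hE : Matrix.single i i (1 : F) *ᵥ x = Pi.single i (x i) := by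
    ext a
    rw [Matrix.single_mulVec]
    by_cases ha : a = i
    · subst ha; simp
    · simp [ha]
  rw [Matrix.add_mulVec, hE] at hx
  have h1 : r ⬝ᵥ (A *ᵥ x) = 0 := by
    rw [Matrix.dotProduct_mulVec, hl, zero_dotProduct]
  have h2 : x i = 0 := by
    have h3 := congrArg (fun y => r ⬝ᵥ y) hx
    simp only [dotProduct_add, h1, zero_add, dotProduct_zero, dotProduct_single] at h3
    rcases mul_eq_zero.mp h3 with h | h
    · exact absurd h hi
    · exact h
  rw [h2, Pi.single_zero, add_zero] at hx
  obtain ⟨c, rfl⟩ := hker x hx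
  rw [Pi.smul_apply, smul_eq_mul] at h2
  rcases mul_eq_zero.mp h2 with h | h
  · exact hx0 (by rw [h, zero_smul])
  · exact hi h

/-- **corank one**: `adj A = γ r rᵀ`. -/
theorem exists_gamma {A : Matrix n n F} {r : n → F} (hr0 : r ≠ 0) (hr : A *ᵥ r = 0)
    (hl : r ᵥ* A = 0) (hker : ∀ x, A *ᵥ x = 0 → ∃ c : F, x = c • r)
    (hker' : ∀ x, x ᵥ* A = 0 → ∃ c : F, x = c • r) :
    ∃ γ : F, γ ≠ 0 ∧ ∀ i j, A.adjugate i j = γ * r i * r j := by
  have hdet := det_eq_zero_of hr hr0
  obtain ⟨i0, hi0⟩ : ∃ i, r i ≠ 0 := by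
    by_contra h; push Not at h; exact hr0 (funext h)
  have h1 : A * A.adjugate = 0 := by rw [Matrix.mul_adjugate, hdet, zero_smul]
  have h2 : A.adjugate * A = 0 := by rw [Matrix.adjugate_mul, hdet, zero_smul]
  have h3 : ∀ j, ∃ s : F, ∀ i, A.adjugate i j = s * r i := by
    intro j
    obtain ⟨s, hs⟩ := hker (fun i => A.adjugate i j) (by
      ext a
      have := congrFun (congrFun h1 a) j
      rw [Matrix.mul_apply] at this
      simpa [Matrix.mulVec, dotProduct] using this)
    exact ⟨s, fun i => by have := congrFun hs i; simpa using this⟩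
  obtain ⟨s', hs'⟩ : ∃ s : F, ∀ j, A.adjugate i0 j = s * r j := by
    obtain ⟨s, hs⟩ := hker' (fun j => A.adjugate i0 j) (by
      ext a
      have := congrFun (congrFun h2 i0) a
      rw [Matrix.mul_apply] at this
      simpa [Matrix.vecMul, dotProduct] using this)
    exact ⟨s, fun j => by have := congrFun hs j; simpa using this⟩
  have h5 : ∀ i j, A.adjugate i j = s' / r i0 * r i * r j := by
    intro i j
    obtain ⟨s, hs⟩ := h3 j
    have h6 : s * r i0 = s' * r j := by rw [← hs, ← hs']
    rw [hs i]
    field_simp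
    linear_combination r i * h6
  refine ⟨s' / r i0, fun h0 => ?_, h5⟩
  have h6 := det_single_ne_zero hl hker hi0
  rw [det_add_single, hdet, zero_add, h5, h0] at h6
  simp at h6

/-- change of basis. -/
theorem adj_change {A M : Matrix n n F} {r r' : n → F} (hM : M *ᵥ r' = r)
    {γ : F} (h : ∀ i j, A.adjugate i j = γ * r i * r j) (i j : n) :
    (M.transpose * A * M).adjugate i j = (M.det ^ 2 * γ) * r' i * r' j := by
  have h1 : A.adjugate = γ • Matrix.vecMulVec r r := by
    ext a b; rw [h, Matrix.smul_apply, Matrix.vecMulVec_apply, smul_eq_mul, mul_assoc]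
  have h2 : M.adjugate *ᵥ r = M.det • r' := by
    rw [← hM, Matrix.mulVec_mulVec, Matrix.adjugate_mul, Matrix.smul_mulVec, Matrix.one_mulVec]
  rw [Matrix.adjugate_mul_distrib, Matrix.adjugate_mul_distrib, h1]
  have h3 : M.adjugate * (γ • Matrix.vecMulVec r r * M.transpose.adjugate)
      = γ • Matrix.vecMulVec (M.det • r') (M.det • r') := by
    rw [Matrix.smul_mul, Matrix.mul_smul, ← Matrix.adjugate_transpose, Matrix.vecMulVec_mul,
      Matrix.mul_vecMulVec, Matrix.vecMul_transpose, h2]
  rw [h3, Matrix.smul_apply, Matrix.vecMulVec_apply]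
  simp only [Pi.smul_apply, smul_eq_mul]
  ring

/-- `γ` is determined. -/
theorem gamma_unique {A : Matrix n n F} {r : n → F} (hr0 : r ≠ 0) {γ γ' : F}
    (h : ∀ i j, A.adjugate i j = γ * r i * r j) (h' : ∀ i j, A.adjugate i j = γ' * r i * r j) :
    γ = γ' := by
  obtain ⟨i0, hi0⟩ : ∃ i, r i ≠ 0 := by
    by_contra h; push Not at h; exact hr0 (funext h)
  have h1 := (h i0 i0).symm.trans (h' i0 i0)
  rw [mul_assoc, mul_assoc] at h1
  exact mul_right_cancel₀ (mul_ne_zero hi0 hi0) h1

end field

section valued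

variable {K : Type*} [Field K] {Γ : Type*} [LinearOrderedCommGroupWithZero Γ] {v : Valuation K Γ}

/-- determinants of congruent integral matrices are congruent. -/
theorem det_congr {M M0 : Matrix n n K} (h : ∀ i j, v (M i j) ≤ 1)
    (h0 : ∀ i j, v (M i j - M0 i j) < 1) : v (M.det - M0.det) < 1 := by
  have h0' : ∀ i j, v (M0 i j) ≤ 1 := by
    intro i j
    have h1 : M0 i j = M i j - (M i j - M0 i j) := by ring
    rw [h1]
    exact (Valuation.map_sub _ _ _).trans (max_le (h i j) (h0 i j).le)
  let O := v.valuationSubring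
  let A : Matrix n n O := fun i j => ⟨M i j, h i j⟩
  let A0 : Matrix n n O := fun i j => ⟨M0 i j, h0' i j⟩
  have hA : (O.subtype.mapMatrix A) = M := rfl
  have hA0 : (O.subtype.mapMatrix A0) = M0 := rfl
  have h1 : (IsLocalRing.residue O).mapMatrix A = (IsLocalRing.residue O).mapMatrix A0 := by
    ext i j
    rw [RingHom.mapMatrix_apply, RingHom.mapMatrix_apply, Matrix.map_apply, Matrix.map_apply,
      ← sub_eq_zero, ← map_sub, IsLocalRing.residue_eq_zero_iff,
      Valuation.mem_maximalIdeal_iff]
    exact h0 i j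
  have h2 := congrArg Matrix.det h1
  rw [← RingHom.map_det, ← RingHom.map_det, ← sub_eq_zero, ← map_sub,
    IsLocalRing.residue_eq_zero_iff, Valuation.mem_maximalIdeal_iff] at h2
  have h3 : ((A.det - A0.det : O) : K) = M.det - M0.det := by
    rw [← hA, ← hA0, ← RingHom.map_det, ← RingHom.map_det]
    rfl
  rw [← h3]
  exact h2

variable {k : Type*} [Field k] [Algebra k K]

/-- **local criterion**: the reduction has corank one with the reduced `r` as kernel: `γ` is a unit. -/
theorem gamma_unit (htriv : ∀ c : k, c ≠ 0 → v (algebraMap k K c) = 1)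
    {A : Matrix n n K} {r : n → K} {γ : K} (hγ : ∀ i j, A.adjugate i j = γ * r i * r j)
    (hl : r ᵥ* A = 0) (hA : ∀ i j, v (A i j) ≤ 1) (hr : ∀ i, v (r i) ≤ 1)
    {A0 : Matrix n n k} {r0 : n → k} (hA0 : ∀ i j, v (A i j - algebraMap k K (A0 i j)) < 1)
    (hr0 : ∀ i, v (r i - algebraMap k K (r0 i)) < 1) (hne : r0 ≠ 0)
    (hker : ∀ x : n → k, A0 *ᵥ x = 0 → ∃ c : k, x = c • r0) : v γ = 1 := by
  have hzero : ∀ c : k, v (algebraMap k K c) < 1 → c = 0 := by
    intro c hc
    by_contra h
    rw [htriv c h] at hc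
    exact lt_irrefl _ hc
  have hle : ∀ c : k, v (algebraMap k K c) ≤ 1 := by
    intro c
    by_cases h : c = 0
    · rw [h, map_zero, map_zero]; exact zero_le_one
    · exact (htriv c h).le
  -- left kernel of the reduction
  have hl0 : r0 ᵥ* A0 = 0 := by
    ext j
    apply hzero
    have h1 : algebraMap k K ((r0 ᵥ* A0) j) = ∑ i, algebraMap k K (r0 i) * algebraMap k K (A0 i j) := by
      simp [Matrix.vecMul, dotProduct]
    have h2 : ∑ i, r i * A i j = 0 := by
      have := congrFun hl j
      simpa [Matrix.vecMul, dotProduct] using this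
    rw [h1]
    have h3 : ∑ i, algebraMap k K (r0 i) * algebraMap k K (A0 i j)
        = -∑ i, ((r i - algebraMap k K (r0 i)) * A i j
          + algebraMap k K (r0 i) * (A i j - algebraMap k K (A0 i j))) := by
      rw [eq_neg_iff_add_eq_zero, ← Finset.sum_add_distrib, ← h2]
      exact Finset.sum_congr rfl fun i _ => by ring
    rw [h3, Valuation.map_neg]
    refine Valuation.map_sum_lt _ one_ne_zero fun i _ => ?_
    refine Valuation.map_add_lt _ ?_ ?_
    · rw [map_mul]
      exact mul_lt_one_of_lt_of_le (hr0 i) (hA i j)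
    · rw [map_mul, mul_comm]
      exact mul_lt_one_of_lt_of_le (hA0 i j) (hle _)
  obtain ⟨i0, hi0⟩ : ∃ i, r0 i ≠ 0 := by
    by_contra h; push Not at h; exact hne (funext h)
  have h4 := det_single_ne_zero hl0 hker hi0
  -- compare the determinants
  have hs : ∀ i j, algebraMap k K (Matrix.single i0 i0 (1 : k) i j)
      = Matrix.single i0 i0 (1 : K) i j := by
    intro i j
    simp only [Matrix.single_apply]
    split_ifs <;> simp
  have h5 : v ((A + Matrix.single i0 i0 1).det
      - ((algebraMap k K).mapMatrix (A0 + Matrix.single i0 i0 1)).det) < 1 := by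
    refine det_congr (fun i j => ?_) (fun i j => ?_)
    · rw [Matrix.add_apply]
      refine (Valuation.map_add _ _ _).trans (max_le (hA i j) ?_)
      rw [← hs]; exact hle _
    · rw [Matrix.add_apply, RingHom.mapMatrix_apply, Matrix.map_apply, Matrix.add_apply, map_add, hs]
      have : A i j + Matrix.single i0 i0 1 i j
          - (algebraMap k K (A0 i j) + Matrix.single i0 i0 1 i j)
          = A i j - algebraMap k K (A0 i j) := by ring
      rw [this]; exact hA0 i j
  have h5' : v (A.det - ((algebraMap k K).mapMatrix A0).det) < 1 :=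
    det_congr hA (fun i j => by rw [RingHom.mapMatrix_apply, Matrix.map_apply]; exact hA0 i j)
  have hd0 : A0.det = 0 := by
    by_contra h
    exact hne (by
      have := Matrix.eq_zero_of_vecMul_eq_zero h hl0
      exact this)
  have h4e : (A0 + Matrix.single i0 i0 1).det = A0.adjugate i0 i0 := by
    rw [det_add_single, hd0, zero_add]
  rw [← RingHom.map_det, h4e] at h5
  rw [← RingHom.map_det, hd0, map_zero, sub_zero] at h5'
  rw [h4e] at h4
  have h6 : v (A.adjugate i0 i0 - algebraMap k K (A0.adjugate i0 i0)) < 1 := by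
    have h7 : A.adjugate i0 i0 - algebraMap k K (A0.adjugate i0 i0)
        = (A + Matrix.single i0 i0 1).det - algebraMap k K (A0.adjugate i0 i0) - A.det := by
      rw [det_add_single]; ring
    rw [h7]
    exact Valuation.map_sub_lt _ h5 h5'
  have h8 : v (A.adjugate i0 i0) = 1 := by
    have h9 := htriv _ h4
    have h10 : A.adjugate i0 i0 = (A.adjugate i0 i0 - algebraMap k K (A0.adjugate i0 i0))
      + algebraMap k K (A0.adjugate i0 i0) := by ring
    rw [h10, Valuation.map_add_eq_of_lt_right _ (by rw [h9]; exact h6), h9]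
  have h11 : v (r i0) = 1 := by
    have h9 := htriv _ hi0
    have h10 : r i0 = (r i0 - algebraMap k K (r0 i0)) + algebraMap k K (r0 i0) := by ring
    rw [h10, Valuation.map_add_eq_of_lt_right _ (by rw [h9]; exact hr0 i0), h9]
  rw [hγ, map_mul, map_mul, h11, mul_one, mul_one] at h8
  exact h8

end valued

end Crest.Agent.R260.CnDim_841
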