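import Mathlib

/-!
# Row 260, CN-DIM (2): smoothness certificate, local part (helper841)

`I` a prime ideal of `k[x]`, constant dimension `r` of the tangent spaces: the ideal `SSI I` of all `f`
with a splitting `f p ≡ ∑ (∂_l p) δ_l mod I²` contains a power of `u`.
-/

set_option autoImplicit false

namespace Crest.Agent.R260.CnSplit_841

open MvPolynomial

universe u

variable {k : Type*} [Field k] {σ : Type*} [Fintype σ] [DecidableEq σ]

set_option linter.unusedSectionVars false

/-- `f` splits the conormal sequence. -/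
def SS (I : Ideal (MvPolynomial σ k)) (f : MvPolynomial σ k) : Prop :=
  ∃ δ : σ → MvPolynomial σ k, (∀ l, δ l ∈ I) ∧ ∀ p ∈ I, f * p - ∑ l, pderiv l p * δ l ∈ I ^ 2

/-- the ideal of all splitting `f`. -/
def SSI (I : Ideal (MvPolynomial σ k)) : Ideal (MvPolynomial σ k) where
  carrier := {f | SS I f}
  add_mem' := by
    rintro f g ⟨δ, h1, h2⟩ ⟨δ', h1', h2'⟩
    refine ⟨fun l => δ l + δ' l, fun l => I.add_mem (h1 l) (h1' l), fun p hp => ?_⟩
    have : (f + g) * p - ∑ l, pderiv l p * (δ l + δ' l)
        = (f * p - ∑ l, pderiv l p * δ l) + (g * p - ∑ l, pderiv l p * δ' l) := by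
      simp only [mul_add, Finset.sum_add_distrib]; ring
    rw [this]
    exact Ideal.add_mem _ (h2 p hp) (h2' p hp)
  zero_mem' := by
    refine ⟨fun _ => 0, fun _ => I.zero_mem, fun p _ => ?_⟩
    simp
  smul_mem' := by
    rintro a f ⟨δ, h1, h2⟩
    refine ⟨fun l => a * δ l, fun l => I.mul_mem_left _ (h1 l), fun p hp => ?_⟩
    have : a • f * p - ∑ l, pderiv l p * (a * δ l) = a * (f * p - ∑ l, pderiv l p * δ l) := by
      rw [smul_eq_mul, mul_sub, Finset.mul_sum]
      congr 1
      · ring
      · exact Finset.sum_congr rfl fun l _ => by ring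
    rw [this]
    exact Ideal.mul_mem_left _ _ (h2 p hp)

theorem mem_SSI {I : Ideal (MvPolynomial σ k)} {f : MvPolynomial σ k} : f ∈ SSI I ↔ SS I f := Iff.rfl

theorem le_SSI (I : Ideal (MvPolynomial σ k)) : I ≤ SSI I := by
  intro f hf
  refine ⟨fun _ => 0, fun _ => I.zero_mem, fun p hp => ?_⟩
  simp only [mul_zero, Finset.sum_const_zero, sub_zero]
  rw [pow_two]
  exact Ideal.mul_mem_mul hf hp

/-- row of the Jacobian. -/
noncomputable def row {A : Type*} [CommRing A] [Algebra k A] (v : σ → A) (p : MvPolynomial σ k) :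
    σ → A := fun l => aeval v (pderiv l p)

/-- tangent space of `I` at `v`. -/
noncomputable def TS (I : Ideal (MvPolynomial σ k)) {A : Type*} [Field A] [Algebra k A] (v : σ → A) :
    Submodule A (σ → A) where
  carrier := {t | ∀ p ∈ I, row v p ⬝ᵥ t = 0}
  add_mem' := by
    intro s t hs ht p hp
    rw [dotProduct_add, hs p hp, ht p hp, add_zero]
  zero_mem' := by
    intro p _
    rw [dotProduct_zero]
  smul_mem' := by
    intro a t ht p hp
    rw [dotProduct_smul, ht p hp, smul_zero]

theorem mem_TS {I : Ideal (MvPolynomial σ k)} {A : Type*} [Field A] [Algebra k A] {v t : σ → A} :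
    t ∈ TS I v ↔ ∀ p ∈ I, row v p ⬝ᵥ t = 0 := Iff.rfl

/-- rows at a `k`-point as a linear map. -/
noncomputable def rowL (I : Ideal (MvPolynomial σ k)) (v : σ → k) : I →ₗ[k] (σ → k) where
  toFun p := row v (p : MvPolynomial σ k)
  map_add' p q := by
    funext l
    simp [row]
  map_smul' a p := by
    funext l
    simp [row]

/-- independent equations at a `k`-point. -/
theorem exists_equations (I : Ideal (MvPolynomial σ k)) (v : σ → k) {r : ℕ}
    (hr : Module.finrank k (TS I v) = r) :
    ∃ (c : ℕ) (g : Fin c → MvPolynomial σ k), c + r = Fintype.card σ ∧ (∀ j, g j ∈ I) ∧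
      LinearIndependent k (fun j => row v (g j)) := by
  let W := LinearMap.range (rowL I v)
  let b := Module.finBasis k W
  choose g hg using fun j => (b j).2
  refine ⟨Module.finrank k W, fun j => (g j : MvPolynomial σ k), ?_, fun j => (g j).2, ?_⟩
  · -- rank-nullity
    let A : Matrix (Fin (Module.finrank k W)) σ k := Matrix.of fun j => ((b j : W) : σ → k)
    have hA : LinearIndependent k A.row := by
      have := b.linearIndependent.map' W.subtype (Submodule.ker_subtype _)
      exact this
    have h1 : A.rank = Module.finrank k W := by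
      rw [hA.rank_matrix, Fintype.card_fin]
    have h2 : LinearMap.ker A.mulVecLin = TS I v := by
      ext t
      rw [LinearMap.mem_ker, mem_TS]
      constructor
      · intro h p hp
        have h3 : (rowL I v ⟨p, hp⟩) ∈ W := ⟨_, rfl⟩
        have h4 := b.sum_repr ⟨_, h3⟩
        have h5 : row v p = ∑ j, b.repr ⟨_, h3⟩ j • ((b j : W) : σ → k) := by
          have := congrArg (fun w : W => (w : σ → k)) h4
          simp only [Submodule.coe_sum, Submodule.coe_smul] at this
          exact this.symm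
        rw [h5, sum_dotProduct]
        refine Finset.sum_eq_zero fun j _ => ?_
        rw [smul_dotProduct]
        have h6 : ((b j : W) : σ → k) ⬝ᵥ t = 0 := congrFun h j
        rw [h6, smul_zero]
      · intro h
        funext j
        show ((b j : W) : σ → k) ⬝ᵥ t = 0
        rw [← hg j]
        exact h _ (g j).2
    have h3 := LinearMap.finrank_range_add_finrank_ker A.mulVecLin
    rw [h2, hr, Module.finrank_pi] at h3
    rw [← h3]
    congr 1
    exact h1.symm
  · have : (fun j => row v ((g j : I) : MvPolynomial σ k)) = fun j => ((b j : W) : σ → k) := by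
      funext j
      exact hg j
    rw [this]
    exact b.linearIndependent.map' W.subtype (Submodule.ker_subtype _)

/-- right inverse of a matrix with independent rows. -/
theorem exists_right_inv {c : ℕ} (A : Matrix (Fin c) σ k) (hA : LinearIndependent k A.row) :
    ∃ B : Matrix σ (Fin c) k, A * B = 1 := by
  have h1 : A.rank = c := by rw [hA.rank_matrix, Fintype.card_fin]
  have h2 : LinearMap.range A.mulVecLin = ⊤ := by
    apply Submodule.eq_top_of_finrank_eq
    rw [Module.finrank_pi, Fintype.card_fin]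
    exact h1
  choose B hB using fun j => (LinearMap.range_eq_top.mp h2) (Pi.single j 1)
  refine ⟨Matrix.of fun l j => B j l, ?_⟩
  ext i j
  have := congrFun (hB j) i
  rw [Matrix.mul_apply]
  have h3 : ∑ l, A i l * B j l = (A.mulVecLin (B j)) i := rfl
  simp only [Matrix.of_apply]
  rw [h3, this, Matrix.one_apply, Pi.single_apply]

/-! ### vector fields -/

/-- the derivation with coefficients `τ`. -/
noncomputable def VF (τ : σ → MvPolynomial σ k) (p : MvPolynomial σ k) : MvPolynomial σ k :=
  ∑ m, pderiv m p * τ m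

theorem VF_add (τ : σ → MvPolynomial σ k) (p q : MvPolynomial σ k) :
    VF τ (p + q) = VF τ p + VF τ q := by
  simp only [VF, map_add, add_mul, Finset.sum_add_distrib]

theorem VF_mul (τ : σ → MvPolynomial σ k) (p q : MvPolynomial σ k) :
    VF τ (p * q) = p * VF τ q + q * VF τ p := by
  simp only [VF, pderiv_mul, Finset.mul_sum, ← Finset.sum_add_distrib]
  exact Finset.sum_congr rfl fun m _ => by ring

theorem VF_C (τ : σ → MvPolynomial σ k) (a : k) : VF τ (C a) = 0 := by
  simp [VF]

theorem VF_X (τ : σ → MvPolynomial σ k) (m : σ) : VF τ (X m) = τ m := by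
  simp [VF, pderiv_X, Pi.single_apply]

theorem VF_zero (τ : σ → MvPolynomial σ k) : VF τ 0 = 0 := by
  simp [VF]

section vf

variable {c : ℕ} (g : Fin c → MvPolynomial σ k) (B : Matrix σ (Fin c) k)

/-- `M_{b b'} = ∑ ∂_l g_b · B_{l b'}` -/
noncomputable def MM : Matrix (Fin c) (Fin c) (MvPolynomial σ k) :=
  Matrix.of fun b b' => ∑ l, pderiv l (g b) * C (B l b')

/-- the determinant `w`. -/
noncomputable def ww : MvPolynomial σ k := (MM g B).det

/-- the vector field `τ^l`. -/
noncomputable def tau (l m : σ) : MvPolynomial σ k :=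
  (if m = l then ww g B else 0) -
    ∑ b', C (B m b') * ∑ b, (MM g B).adjugate b' b * pderiv l (g b)

theorem VF_tau (l : σ) (p : MvPolynomial σ k) :
    VF (tau g B l) p = pderiv l p * ww g B
      - ∑ b', (∑ m, pderiv m p * C (B m b')) * ∑ b, (MM g B).adjugate b' b * pderiv l (g b) := by
  unfold VF tau
  simp only [mul_sub, Finset.sum_sub_distrib, mul_ite, mul_zero, Finset.sum_ite_eq',
    Finset.mem_univ, if_true]
  congr 1
  simp only [Finset.mul_sum, Finset.sum_mul]
  rw [Finset.sum_comm]
  refine Finset.sum_congr rfl fun b' _ => ?_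
  rw [Finset.sum_comm]
  exact Finset.sum_congr rfl fun b _ => Finset.sum_congr rfl fun m _ => by ring

theorem VF_tau_g (l : σ) (j : Fin c) : VF (tau g B l) (g j) = 0 := by
  rw [VF_tau]
  have h1 : ∑ b', (∑ m, pderiv m (g j) * C (B m b')) *
      ∑ b, (MM g B).adjugate b' b * pderiv l (g b)
      = ∑ b, (MM g B * (MM g B).adjugate) j b * pderiv l (g b) := by
    simp only [Finset.mul_sum, Matrix.mul_apply, Finset.sum_mul]
    rw [Finset.sum_comm]
    refine Finset.sum_congr rfl fun b _ => Finset.sum_congr rfl fun b' _ => ?_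
    simp only [MM, Matrix.of_apply, Finset.sum_mul]
    exact Finset.sum_congr rfl fun m _ => by ring
  rw [h1, Matrix.mul_adjugate]
  simp only [Matrix.smul_apply, Matrix.one_apply, smul_eq_mul, mul_ite, mul_one, mul_zero, ite_mul,
    zero_mul, Finset.sum_ite_eq, Finset.mem_univ, if_true]
  unfold ww
  ring

/-! ### at a point -/

variable (v : σ → k)

/-- the maximal ideal of the point. -/
noncomputable def mI : Ideal (MvPolynomial σ k) := RingHom.ker (aeval v : MvPolynomial σ k →ₐ[k] k)

theorem mem_mI {p : MvPolynomial σ k} : p ∈ mI v ↔ aeval v p = 0 := Iff.rfl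

theorem X_mem (l : σ) : X l - C (v l) ∈ mI v := by
  rw [mem_mI]; simp

theorem sub_C_mem (p : MvPolynomial σ k) : p - C (aeval v p) ∈ mI v := by
  rw [mem_mI, map_sub]
  simp

/-- the maximal ideal is generated by the `X_l - v_l`. -/
theorem sub_C_mem_span (p : MvPolynomial σ k) :
    p - C (aeval v p) ∈ Ideal.span (Set.range fun l => (X l - C (v l) : MvPolynomial σ k)) := by
  induction p using MvPolynomial.induction_on with
  | C a => simp
  | add p q hp hq =>
    have : p + q - C (aeval v (p + q)) = (p - C (aeval v p)) + (q - C (aeval v q)) := by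
      rw [map_add, map_add]; ring
    rw [this]
    exact Ideal.add_mem _ hp hq
  | mul_X p l hp =>
    have : p * X l - C (aeval v (p * X l)) = (p - C (aeval v p)) * X l
        + C (aeval v p) * (X l - C (v l)) := by
      rw [map_mul, aeval_X, map_mul]; ring
    rw [this]
    exact Ideal.add_mem _ (Ideal.mul_mem_right _ _ hp)
      (Ideal.mul_mem_left _ _ (Ideal.subset_span ⟨l, rfl⟩))

/-- Taylor expansion of order one. -/
theorem taylor (p : MvPolynomial σ k) :
    p - C (aeval v p) - ∑ l, (X l - C (v l)) * pderiv l p ∈ mI v ^ 2 := by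
  induction p using MvPolynomial.induction_on with
  | C a => simp
  | add p q hp hq =>
    have : p + q - C (aeval v (p + q)) - ∑ l, (X l - C (v l)) * pderiv l (p + q)
        = (p - C (aeval v p) - ∑ l, (X l - C (v l)) * pderiv l p)
          + (q - C (aeval v q) - ∑ l, (X l - C (v l)) * pderiv l q) := by
      simp only [map_add, mul_add, Finset.sum_add_distrib]; ring
    rw [this]
    exact Ideal.add_mem _ hp hq
  | mul_X p j hp =>
    have h1 : ∑ l, (X l - C (v l)) * pderiv l (p * X j)
        = X j * ∑ l, (X l - C (v l)) * pderiv l p + p * (X j - C (v j)) := by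
      simp only [pderiv_mul, pderiv_X, mul_add, Finset.sum_add_distrib]
      congr 1
      · rw [Finset.mul_sum]; exact Finset.sum_congr rfl fun l _ => by ring
      · rw [Finset.sum_eq_single j]
        · simp; ring
        · intro l _ hl
          simp [hl.symm]
        · intro h; exact absurd (Finset.mem_univ j) h
    have : p * X j - C (aeval v (p * X j)) - ∑ l, (X l - C (v l)) * pderiv l (p * X j)
        = X j * (p - C (aeval v p) - ∑ l, (X l - C (v l)) * pderiv l p)
          - (p - C (aeval v p)) * (X j - C (v j)) := by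
      rw [h1, map_mul, aeval_X, map_mul]; ring
    rw [this]
    refine Ideal.sub_mem _ (Ideal.mul_mem_left _ _ hp) ?_
    rw [pow_two]
    exact Ideal.mul_mem_mul (sub_C_mem v p) (X_mem v j)

/-- the Euler field at `v`. -/
noncomputable def eps (m : σ) : MvPolynomial σ k := ∑ l, (X l - C (v l)) * tau g B l m

theorem VF_eps (p : MvPolynomial σ k) :
    VF (eps g B v) p = ∑ l, (X l - C (v l)) * VF (tau g B l) p := by
  unfold VF eps
  simp only [Finset.mul_sum]
  rw [Finset.sum_comm]
  exact Finset.sum_congr rfl fun l _ => Finset.sum_congr rfl fun m _ => by ring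

theorem VF_eps_mem (p : MvPolynomial σ k) : VF (eps g B v) p ∈ mI v := by
  rw [VF_eps]
  exact Ideal.sum_mem _ fun l _ => Ideal.mul_mem_right _ _ (X_mem v l)

theorem VF_eps_g (j : Fin c) : VF (eps g B v) (g j) = 0 := by
  rw [VF_eps]
  exact Finset.sum_eq_zero fun l _ => by rw [VF_tau_g, mul_zero]

theorem VF_eps_G {p : MvPolynomial σ k} (hp : p ∈ Ideal.span (Set.range g)) :
    VF (eps g B v) p ∈ Ideal.span (Set.range g) := by
  refine Submodule.span_induction ?_ ?_ ?_ ?_ hp
  · rintro _ ⟨j, rfl⟩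
    rw [VF_eps_g]; exact Ideal.zero_mem _
  · rw [VF_zero]; exact Ideal.zero_mem _
  · intro a b _ _ ha hb
    rw [VF_add]; exact Ideal.add_mem _ ha hb
  · intro a b hb h
    rw [smul_eq_mul, VF_mul]
    exact Ideal.add_mem _ (Ideal.mul_mem_left _ _ h) (Ideal.mul_mem_right _ _ hb)

/-- on coordinates the Euler field is `w · id` modulo `(g) + 𝔪²`. -/
theorem VF_eps_X (hg : ∀ j, aeval v (g j) = 0) (m : σ) :
    VF (eps g B v) (X m) - ww g B * (X m - C (v m)) ∈ mI v ^ 2 ⊔ Ideal.span (Set.range g) := by
  rw [VF_X]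
  unfold eps tau
  have h1 : ∑ l, (X l - C (v l)) * ((if m = l then ww g B else 0) -
      ∑ b', C (B m b') * ∑ b, (MM g B).adjugate b' b * pderiv l (g b))
      - ww g B * (X m - C (v m))
      = - ∑ b', C (B m b') * ∑ b, (MM g B).adjugate b' b *
        ∑ l, (X l - C (v l)) * pderiv l (g b) := by
    simp only [mul_sub, Finset.sum_sub_distrib, mul_ite, mul_zero, Finset.sum_ite_eq,
      Finset.mem_univ, if_true, Finset.mul_sum]
    have : ∑ l, ∑ b', ∑ b, (X l - C (v l)) * (C (B m b') * ((MM g B).adjugate b' b * pderiv l (g b)))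
        = ∑ b', ∑ b, ∑ l, C (B m b') * ((MM g B).adjugate b' b * ((X l - C (v l)) * pderiv l (g b))) := by
      rw [Finset.sum_comm]
      refine Finset.sum_congr rfl fun b' _ => ?_
      rw [Finset.sum_comm]
      exact Finset.sum_congr rfl fun b _ => Finset.sum_congr rfl fun l _ => by ring
    rw [this]
    ring
  rw [h1]
  refine (Ideal.neg_mem_iff _).mpr (Ideal.sum_mem _ fun b' _ => Ideal.mul_mem_left _ _
    (Ideal.sum_mem _ fun b _ => Ideal.mul_mem_left _ _ ?_))
  have h2 := taylor v (g b)
  rw [hg, map_zero, sub_zero] at h2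
  have h3 : ∑ l, (X l - C (v l)) * pderiv l (g b)
      = g b - (g b - ∑ l, (X l - C (v l)) * pderiv l (g b)) := by ring
  rw [h3]
  exact Ideal.sub_mem _ (Ideal.mem_sup_right (Ideal.subset_span ⟨b, rfl⟩)) (Ideal.mem_sup_left h2)

/-- degree one. -/
theorem VF_eps_one (hg : ∀ j, aeval v (g j) = 0) {a : MvPolynomial σ k} (ha : a ∈ mI v) :
    VF (eps g B v) a - ww g B * a ∈ mI v ^ 2 ⊔ Ideal.span (Set.range g) := by
  have h0 := sub_C_mem_span v a
  rw [(mem_mI v).mp ha, map_zero, sub_zero] at h0
  refine Submodule.span_induction ?_ ?_ ?_ ?_ h0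
  · rintro _ ⟨l, rfl⟩
    have h1 : VF (eps g B v) (X l - C (v l)) = VF (eps g B v) (X l) := by
      rw [sub_eq_add_neg, VF_add, ← map_neg C, VF_C, add_zero]
    simp only [h1]
    exact VF_eps_X g B v hg l
  · rw [VF_zero, mul_zero, sub_zero]; exact Ideal.zero_mem _
  · intro x y _ _ hx hy
    rw [VF_add]
    have : VF (eps g B v) x + VF (eps g B v) y - ww g B * (x + y)
      = (VF (eps g B v) x - ww g B * x) + (VF (eps g B v) y - ww g B * y) := by ring
    rw [this]; exact Ideal.add_mem _ hx hy
  · intro x y hy h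
    rw [smul_eq_mul, VF_mul]
    have : x * VF (eps g B v) y + y * VF (eps g B v) x - ww g B * (x * y)
      = x * (VF (eps g B v) y - ww g B * y) + y * VF (eps g B v) x := by ring
    rw [this]
    refine Ideal.add_mem _ (Ideal.mul_mem_left _ _ h) (Ideal.mem_sup_left ?_)
    rw [pow_two]
    refine Ideal.mul_mem_mul ?_ (VF_eps_mem g B v x)
    have h3 : Ideal.span (Set.range fun l => (X l - C (v l) : MvPolynomial σ k)) ≤ mI v := by
      rw [Ideal.span_le]
      rintro _ ⟨l, rfl⟩
      exact X_mem v l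
    exact h3 hy

/-- **the Euler field acts on `𝔪^N / 𝔪^(N+1)` by `N w`**, modulo `(g)`. -/
theorem VF_eps_pow (hg : ∀ j, aeval v (g j) = 0) (N : ℕ) : ∀ p ∈ mI v ^ N,
    VF (eps g B v) p - N * (ww g B * p) ∈ mI v ^ (N + 1) ⊔ Ideal.span (Set.range g) := by
  induction N with
  | zero =>
    intro p _
    simp only [Nat.cast_zero, zero_mul, sub_zero, zero_add, pow_one]
    exact Ideal.mem_sup_left (VF_eps_mem g B v p)
  | succ N ih =>
    intro p hp
    rw [pow_succ] at hp
    refine Submodule.mul_induction_on hp ?_ ?_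
    · intro q hq a ha
      rw [VF_mul]
      have h1 := ih q hq
      have h2 := VF_eps_one g B v hg ha
      have e : q * VF (eps g B v) a + a * VF (eps g B v) q - ((N + 1 : ℕ) : MvPolynomial σ k)
          * (ww g B * (q * a))
          = q * (VF (eps g B v) a - ww g B * a)
            + a * (VF (eps g B v) q - N * (ww g B * q)) := by
        push_cast; ring
      rw [e]
      have key : ∀ (n m : ℕ) (x y : MvPolynomial σ k), x ∈ mI v ^ n →
          y ∈ mI v ^ m ⊔ Ideal.span (Set.range g) →
          x * y ∈ mI v ^ (n + m) ⊔ Ideal.span (Set.range g) := by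
        intro n m x y hx hy
        obtain ⟨y1, hy1, y2, hy2, rfl⟩ := Submodule.mem_sup.mp hy
        rw [mul_add]
        refine Ideal.add_mem _ (Ideal.mem_sup_left ?_) (Ideal.mem_sup_right (Ideal.mul_mem_left _ _ hy2))
        rw [pow_add]; exact Ideal.mul_mem_mul hx hy1
      refine Ideal.add_mem _ ?_ ?_
      · have := key N 2 q _ hq h2
        exact this
      · have := key 1 (N + 1) a _ (by rw [pow_one]; exact ha) h1
        rwa [add_comm 1 (N + 1)] at this
    · intro x y hx hy
      rw [VF_add]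
      have : VF (eps g B v) x + VF (eps g B v) y - ((N + 1 : ℕ) : MvPolynomial σ k) * (ww g B * (x + y))
        = (VF (eps g B v) x - ((N + 1 : ℕ) : MvPolynomial σ k) * (ww g B * x))
          + (VF (eps g B v) y - ((N + 1 : ℕ) : MvPolynomial σ k) * (ww g B * y)) := by ring
      rw [this]; exact Ideal.add_mem _ hx hy

theorem VF_eps_pow' (hg : ∀ j, aeval v (g j) = 0) (N : ℕ) (p : MvPolynomial σ k)
    (hp : p ∈ mI v ^ N ⊔ Ideal.span (Set.range g)) :
    VF (eps g B v) p - N * (ww g B * p) ∈ mI v ^ (N + 1) ⊔ Ideal.span (Set.range g) := by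
  obtain ⟨p1, hp1, p2, hp2, rfl⟩ := Submodule.mem_sup.mp hp
  have h1 := VF_eps_pow g B v hg N p1 hp1
  rw [VF_add]
  have : VF (eps g B v) p1 + VF (eps g B v) p2 - N * (ww g B * (p1 + p2))
      = (VF (eps g B v) p1 - N * (ww g B * p1))
        + (VF (eps g B v) p2 - N * ww g B * p2) := by ring
  rw [this]
  exact Ideal.add_mem _ h1 (Ideal.mem_sup_right (Ideal.sub_mem _ (VF_eps_G g B v hp2)
    (Ideal.mul_mem_left _ _ hp2)))

/-- **all orders**. -/
theorem le_pow [CharZero k] {I : Ideal (MvPolynomial σ k)} (hIv : ∀ p ∈ I, aeval v p = 0)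
    (hgI : ∀ j, g j ∈ I) (hw : aeval v (ww g B) = 1)
    (hD : ∀ l, ∀ p ∈ I, VF (tau g B l) p ∈ I) (N : ℕ) :
    I ≤ mI v ^ N ⊔ Ideal.span (Set.range g) := by
  have hg : ∀ j, aeval v (g j) = 0 := fun j => hIv _ (hgI j)
  induction N with
  | zero => rw [pow_zero, Ideal.one_eq_top, top_sup_eq]; exact le_top
  | succ N ih =>
    intro p hp
    by_cases hN : N = 0
    · subst hN
      rw [zero_add, pow_one]
      exact Ideal.mem_sup_left (hIv p hp)
    have h1 := VF_eps_pow' g B v hg N p (ih hp)
    have key : ∀ x y : MvPolynomial σ k, x ∈ mI v → y ∈ mI v ^ N ⊔ Ideal.span (Set.range g) →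
        x * y ∈ mI v ^ (N + 1) ⊔ Ideal.span (Set.range g) := by
      intro x y hx hy
      obtain ⟨y1, hy1, y2, hy2, rfl⟩ := Submodule.mem_sup.mp hy
      rw [mul_add]
      refine Ideal.add_mem _ (Ideal.mem_sup_left ?_) (Ideal.mem_sup_right (Ideal.mul_mem_left _ _ hy2))
      rw [pow_succ, mul_comm x y1]; exact Ideal.mul_mem_mul hy1 hx
    have h2 : VF (eps g B v) p ∈ mI v ^ (N + 1) ⊔ Ideal.span (Set.range g) := by
      rw [VF_eps]
      exact Ideal.sum_mem _ fun l _ => key _ _ (X_mem v l) (ih (hD l p hp))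
    have h3 : (ww g B - 1) * p ∈ mI v ^ (N + 1) ⊔ Ideal.span (Set.range g) := by
      refine key _ _ ?_ (ih hp)
      rw [mem_mI, map_sub, hw, map_one, sub_self]
    have h4 : (N : MvPolynomial σ k) * p ∈ mI v ^ (N + 1) ⊔ Ideal.span (Set.range g) := by
      have : (N : MvPolynomial σ k) * p = VF (eps g B v) p
          - (VF (eps g B v) p - N * (ww g B * p)) - N * ((ww g B - 1) * p) := by ring
      rw [this]
      exact Ideal.sub_mem _ (Ideal.sub_mem _ h2 h1) (Ideal.mul_mem_left _ _ h3)
    have h5 : p = C ((N : k)⁻¹) * ((N : MvPolynomial σ k) * p) := by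
      have h6 : (C ((N : k)⁻¹) * (N : MvPolynomial σ k)) = 1 := by
        have h7 : (N : MvPolynomial σ k) = C (N : k) := (map_natCast C N).symm
        rw [h7, ← map_mul, inv_mul_cancel₀ (Nat.cast_ne_zero.mpr hN), map_one]
      rw [← mul_assoc, h6, one_mul]
    rw [h5]
    exact Ideal.mul_mem_left _ _ h4

/-- Krull intersection: `s p ∈ (g)` with `s(v) = 1`. -/
theorem exists_s [CharZero k] {I : Ideal (MvPolynomial σ k)} (hIv : ∀ p ∈ I, aeval v p = 0)
    (hgI : ∀ j, g j ∈ I) (hw : aeval v (ww g B) = 1)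
    (hD : ∀ l, ∀ p ∈ I, VF (tau g B l) p ∈ I) (p : MvPolynomial σ k) (hp : p ∈ I) :
    ∃ s : MvPolynomial σ k, aeval v s = 1 ∧ s * p ∈ Ideal.span (Set.range g) := by
  let G := Ideal.span (Set.range g)
  let x : MvPolynomial σ k ⧸ G := Ideal.Quotient.mk G p
  have hx : x ∈ (⨅ i : ℕ, (mI v) ^ i • ⊤ : Submodule (MvPolynomial σ k) (MvPolynomial σ k ⧸ G)) := by
    rw [Submodule.mem_iInf]
    intro N
    obtain ⟨y1, hy1, y2, hy2, hy⟩ := Submodule.mem_sup.mp (le_pow g B v hIv hgI hw hD N hp)
    have h1 : x = y1 • (Ideal.Quotient.mk G 1) := by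
      show Ideal.Quotient.mk G p = y1 • (Ideal.Quotient.mk G 1)
      rw [← hy, map_add, Ideal.Quotient.eq_zero_iff_mem.mpr hy2, add_zero]
      have h2 : y1 • (Ideal.Quotient.mk G 1) = Ideal.Quotient.mk G (y1 * 1) := rfl
      rw [h2, mul_one]
    rw [h1]
    exact Submodule.smul_mem_smul hy1 Submodule.mem_top
  obtain ⟨r, hr⟩ := (Ideal.mem_iInf_smul_pow_eq_bot_iff (mI v) x).mp hx
  refine ⟨1 - (r : MvPolynomial σ k), ?_, ?_⟩
  · rw [map_sub, map_one, (mem_mI v).mp r.2, sub_zero]
  · have h2 : Ideal.Quotient.mk G ((r : MvPolynomial σ k) * p) = Ideal.Quotient.mk G p := hr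
    have h3 : (1 - (r : MvPolynomial σ k)) * p = p - (r : MvPolynomial σ k) * p := by ring
    rw [h3]
    exact (Ideal.Quotient.eq).mp h2.symm

/-- the same `s` for the whole ideal. -/
theorem exists_s_all [CharZero k] {I : Ideal (MvPolynomial σ k)} (hIv : ∀ p ∈ I, aeval v p = 0)
    (hgI : ∀ j, g j ∈ I) (hw : aeval v (ww g B) = 1)
    (hD : ∀ l, ∀ p ∈ I, VF (tau g B l) p ∈ I) :
    ∃ s : MvPolynomial σ k, aeval v s = 1 ∧ ∀ p ∈ I, s * p ∈ Ideal.span (Set.range g) := by
  obtain ⟨S, hS⟩ := (inferInstance : IsNoetherianRing (MvPolynomial σ k)).noetherian I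
  choose! s h1 h2 using exists_s g B v hIv hgI hw hD
  have hSI : ∀ p ∈ S, p ∈ I := fun p hp => by
    rw [← hS]; exact Submodule.subset_span hp
  refine ⟨∏ p ∈ S, s p, ?_, ?_⟩
  · rw [map_prod]
    exact Finset.prod_eq_one fun p hp => h1 p (hSI p hp)
  · intro p hp
    rw [← hS] at hp
    refine Submodule.span_induction ?_ ?_ ?_ ?_ hp
    · intro q hq
      obtain ⟨a, ha⟩ : s q ∣ ∏ p ∈ S, s p := Finset.dvd_prod_of_mem _ hq
      rw [ha]
      have : s q * a * q = a * (s q * q) := by ring
      rw [this]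
      exact Ideal.mul_mem_left _ _ (h2 q (hSI q hq))
    · rw [mul_zero]; exact Ideal.zero_mem _
    · intro a b _ _ ha hb
      rw [mul_add]; exact Ideal.add_mem _ ha hb
    · intro a b _ h
      have : (∏ p ∈ S, s p) * (a • b) = a * ((∏ p ∈ S, s p) * b) := by rw [smul_eq_mul]; ring
      rw [this]; exact Ideal.mul_mem_left _ _ h

/-- **local splitting**. -/
theorem ss_local {I : Ideal (MvPolynomial σ k)} (hgI : ∀ j, g j ∈ I) {s : MvPolynomial σ k}
    (hs : ∀ p ∈ I, s * p ∈ Ideal.span (Set.range g)) : SS I (ww g B * s) := by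
  refine ⟨fun m => ∑ b', C (B m b') * ∑ b, (MM g B).adjugate b' b * (s * g b), fun m => ?_, ?_⟩
  · exact Ideal.sum_mem _ fun b' _ => Ideal.mul_mem_left _ _ (Ideal.sum_mem _ fun b _ =>
      Ideal.mul_mem_left _ _ (Ideal.mul_mem_left _ _ (hgI b)))
  intro p hp
  obtain ⟨a, ha⟩ := (Ideal.mem_span_range_iff_exists_fun).mp (hs p hp)
  -- `s ∂_m p ≡ ∑ a_j ∂_m g_j` modulo `I`
  have h1 : ∀ m, s * pderiv m p - ∑ j, a j * pderiv m (g j) ∈ I := by
    intro m
    have h2 := congrArg (pderiv m) ha
    rw [map_sum, pderiv_mul] at h2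
    simp only [pderiv_mul, Finset.sum_add_distrib] at h2
    have h3 : s * pderiv m p - ∑ j, a j * pderiv m (g j)
        = ∑ j, pderiv m (a j) * g j - pderiv m s * p := by
      linear_combination (-1 : MvPolynomial σ k) * h2
    rw [h3]
    exact Ideal.sub_mem _ (Ideal.sum_mem _ fun j _ => Ideal.mul_mem_left _ _ (hgI j))
      (Ideal.mul_mem_left _ _ hp)
  have h4 : ∑ m, pderiv m p * ∑ b', C (B m b') * ∑ b, (MM g B).adjugate b' b * (s * g b)
      = ∑ b', ∑ b, (∑ m, (s * pderiv m p) * C (B m b')) * ((MM g B).adjugate b' b * g b) := by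
    simp only [Finset.mul_sum, Finset.sum_mul]
    rw [Finset.sum_comm]
    refine Finset.sum_congr rfl fun b' _ => ?_
    rw [Finset.sum_comm]
    exact Finset.sum_congr rfl fun b _ => Finset.sum_congr rfl fun m _ => by ring
  have h5 : ww g B * s * p
      = ∑ b', ∑ b, (∑ m, (∑ j, a j * pderiv m (g j)) * C (B m b')) * ((MM g B).adjugate b' b * g b) := by
    have h6 : ∀ b', ∑ m, (∑ j, a j * pderiv m (g j)) * C (B m b') = ∑ j, a j * MM g B j b' := by
      intro b'
      simp only [MM, Matrix.of_apply, Finset.mul_sum, Finset.sum_mul]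
      rw [Finset.sum_comm]
      exact Finset.sum_congr rfl fun b _ => Finset.sum_congr rfl fun m _ => by ring
    simp only [h6]
    have h7 : ∑ b', ∑ b, (∑ j, a j * MM g B j b') * ((MM g B).adjugate b' b * g b)
        = ∑ j, a j * ∑ b, (MM g B * (MM g B).adjugate) j b * g b := by
      simp only [Finset.mul_sum, Finset.sum_mul, Matrix.mul_apply]
      rw [Finset.sum_comm]
      have : ∑ y, ∑ x, ∑ i, a i * MM g B i x * ((MM g B).adjugate x y * g y)
          = ∑ y, ∑ i, ∑ x, a i * MM g B i x * ((MM g B).adjugate x y * g y) :=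
        Finset.sum_congr rfl fun y _ => Finset.sum_comm
      rw [this, Finset.sum_comm]
      exact Finset.sum_congr rfl fun j _ => Finset.sum_congr rfl fun b _ =>
        Finset.sum_congr rfl fun x _ => by ring
    rw [h7, Matrix.mul_adjugate]
    simp only [Matrix.smul_apply, Matrix.one_apply, smul_eq_mul, mul_ite, mul_one, mul_zero, ite_mul,
      zero_mul, Finset.sum_ite_eq, Finset.mem_univ, if_true]
    rw [mul_assoc, ← ha, Finset.mul_sum]
    exact Finset.sum_congr rfl fun j _ => by unfold ww; ring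
  rw [h4, h5, ← Finset.sum_sub_distrib]
  refine Ideal.sum_mem _ fun b' _ => ?_
  rw [← Finset.sum_sub_distrib]
  refine Ideal.sum_mem _ fun b _ => ?_
  have h8 : (∑ m, (∑ j, a j * pderiv m (g j)) * C (B m b')) * ((MM g B).adjugate b' b * g b)
      - (∑ m, (s * pderiv m p) * C (B m b')) * ((MM g B).adjugate b' b * g b)
      = (-∑ m, (s * pderiv m p - ∑ j, a j * pderiv m (g j)) * C (B m b'))
        * ((MM g B).adjugate b' b * g b) := by
    simp only [sub_mul, Finset.sum_sub_distrib]
    ring
  rw [h8, pow_two]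
  refine Ideal.mul_mem_mul ((Ideal.neg_mem_iff _).mpr (Ideal.sum_mem _ fun m _ =>
    Ideal.mul_mem_right _ _ (h1 m))) (Ideal.mul_mem_left _ _ (hgI b))

end vf

/-! ### the generic point -/

section generic

variable {k : Type*} [Field k] {σ : Type*} [Fintype σ] [DecidableEq σ]

theorem row_dot {A : Type*} [CommRing A] [Algebra k A] (x : σ → A) (τ : σ → MvPolynomial σ k)
    (p : MvPolynomial σ k) : aeval x (VF τ p) = row x p ⬝ᵥ fun m => aeval x (τ m) := by
  simp [VF, row, dotProduct, map_sum, map_mul]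

/-- the vector fields preserve `I`. -/
theorem VF_tau_mem {I : Ideal (MvPolynomial σ k)} {K : Type*} [Field K] [Algebra k K] {x : σ → K}
    (hx : ∀ p, aeval x p = 0 ↔ p ∈ I) {r c : ℕ} (hc : c + r = Fintype.card σ)
    (hr : Module.finrank K (TS I x) = r) (g : Fin c → MvPolynomial σ k) (hgI : ∀ j, g j ∈ I)
    (B : Matrix σ (Fin c) k) (hw : ww g B ∉ I) (l : σ) (p : MvPolynomial σ k) (hp : p ∈ I) :
    VF (tau g B l) p ∈ I := by
  let A : Matrix (Fin c) σ K := Matrix.of fun j => row x (g j)
  let BK : Matrix σ (Fin c) K := B.map (algebraMap k K)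
  have hAB : (A * BK).det ≠ 0 := by
    have h1 : A * BK = (MM g B).map (aeval x) := by
      ext i j
      simp only [A, BK, Matrix.mul_apply, Matrix.of_apply, Matrix.map_apply, MM, map_sum, map_mul,
        row, aeval_C]
    rw [h1]
    intro h0
    apply hw
    rw [← hx]
    unfold ww
    rw [← h0]
    exact RingHom.map_det (aeval x : MvPolynomial σ k →ₐ[k] K).toRingHom (MM g B)
  -- rank of `A`
  have hrank : c ≤ A.rank := by
    have h1 : (A * BK).rank = c := by
      rw [Matrix.rank_of_isUnit _ ((Matrix.isUnit_iff_isUnit_det _).mpr (isUnit_iff_ne_zero.mpr hAB)),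
        Fintype.card_fin]
    have h2 := Matrix.rank_mul_le_left A BK
    omega
  have hker : LinearMap.ker A.mulVecLin = TS I x := by
    symm
    apply Submodule.eq_of_le_of_finrank_le
    · intro t ht
      rw [LinearMap.mem_ker]
      funext j
      exact ht _ (hgI j)
    · have h3 := LinearMap.finrank_range_add_finrank_ker A.mulVecLin
      rw [Module.finrank_pi] at h3
      have h4 : c ≤ Module.finrank K (LinearMap.range A.mulVecLin) := hrank
      omega
  have h5 : (fun m => aeval x (tau g B l m)) ∈ TS I x := by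
    rw [← hker, LinearMap.mem_ker]
    funext j
    have h6 := row_dot x (tau g B l) (g j)
    rw [VF_tau_g, map_zero] at h6
    exact h6.symm
  rw [← hx, row_dot]
  exact h5 p hp

end generic

section main

variable {k : Type*} [Field k] {σ : Type*} [Fintype σ] [DecidableEq σ]

/-- **local form**: at a rational point of `V(I)` with the same tangent dimension as the generic
point there is a splitting `f` with `f(v) = 1`. -/
theorem exists_ss [CharZero k] {I : Ideal (MvPolynomial σ k)} {K : Type*} [Field K] [Algebra k K]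
    {x : σ → K} (hx : ∀ p, aeval x p = 0 ↔ p ∈ I) {r : ℕ} (hr : Module.finrank K (TS I x) = r)
    {v : σ → k} (hIv : ∀ p ∈ I, aeval v p = 0) (hv : Module.finrank k (TS I v) = r) :
    ∃ f, SS I f ∧ aeval v f = 1 := by
  obtain ⟨c, g, hc, hgI, hli⟩ := exists_equations I v hv
  obtain ⟨B, hB⟩ := exists_right_inv (Matrix.of fun j => row v (g j)) hli
  have hw : aeval v (ww g B) = 1 := by
    unfold ww
    have h1 : aeval v (MM g B).det = ((MM g B).map (aeval v)).det :=
      RingHom.map_det (aeval v : MvPolynomial σ k →ₐ[k] k).toRingHom (MM g B)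
    rw [h1]
    have h2 : (MM g B).map (aeval v) = (Matrix.of fun j => row v (g j)) * B := by
      ext i j
      simp only [Matrix.mul_apply, Matrix.of_apply, Matrix.map_apply, MM, map_sum, map_mul,
        row, aeval_C, Algebra.algebraMap_self, RingHom.id_apply]
    rw [h2, hB, Matrix.det_one]
  have hwI : ww g B ∉ I := by
    intro h
    have := hIv _ h
    rw [hw] at this
    exact one_ne_zero this
  obtain ⟨s, hs1, hs⟩ := exists_s_all g B v hIv hgI hw
    (fun l p hp => VF_tau_mem hx hc hr g hgI B hwI l p hp)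
  exact ⟨ww g B * s, ss_local g B hgI hs, by rw [map_mul, hw, hs1, mul_one]⟩

/-- **smoothness certificate** (characteristic zero, `k` algebraically closed): constant dimension of
the tangent spaces of an integral affine variety where `u ≠ 0`. -/
theorem exists_pow_mem [IsAlgClosed k] [CharZero k] {I : Ideal (MvPolynomial σ k)}
    (u : MvPolynomial σ k) {r : ℕ}
    (hgen : ∃ (K : Type*) (_ : Field K) (_ : Algebra k K) (x : σ → K),
      (∀ p, aeval x p = 0 ↔ p ∈ I) ∧ Module.finrank K (TS I x) = r)
    (hpt : ∀ v : σ → k, (∀ p ∈ I, aeval v p = 0) → aeval v u ≠ 0 →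
      Module.finrank k (TS I v) = r) : ∃ N : ℕ, SS I (u ^ N) := by
  obtain ⟨K, _, _, x, hx, hr⟩ := hgen
  have h : u ∈ (SSI I).radical := by
    have hN := MvPolynomial.vanishingIdeal_zeroLocus_eq_radical (K := k) (SSI I)
    rw [← hN, MvPolynomial.mem_vanishingIdeal_iff]
    intro v hv
    by_contra hu
    rw [MvPolynomial.mem_zeroLocus_iff] at hv
    obtain ⟨f, hf, hf1⟩ := exists_ss hx hr (v := v)
      (fun p hp => hv p (le_SSI I hp)) (hpt v (fun p hp => hv p (le_SSI I hp)) hu)
    have := hv f hf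
    rw [hf1] at this
    exact one_ne_zero this
  exact h

end main

end Crest.Agent.R260.CnSplit_841
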