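import Mathlib

/-!
Row 260 (S0398), field bookkeeping (task DESC-K0, helper587), part 1: countable algebraically
closed fields of definition and embeddings of countable extensions.
-/

namespace Crest.Agent.R260.Desc1_587

open Cardinal

/-! ### (K1) countable algebraically closed subfields -/

theorem countable_of_isAlgebraic (R L : Type*) [Field R] [Field L] [Algebra R L]
    [Algebra.IsAlgebraic R L] [Countable R] : Countable L := by
  rw [← Cardinal.mk_le_aleph0_iff]
  have h := Algebra.IsAlgebraic.lift_cardinalMk_le_max R L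
  have h2 := h.trans (max_le
    (Cardinal.lift_le_aleph0.2 (Cardinal.mk_le_aleph0_iff.2 inferInstance)) le_rfl)
  exact Cardinal.lift_le_aleph0.1 h2

theorem countable_adjoin (k Ω : Type*) [Field k] [Countable k] [Field Ω] [Algebra k Ω]
    (S : Set Ω) (hS : S.Countable) : Countable (IntermediateField.adjoin k S) := by
  rw [← Cardinal.mk_le_aleph0_iff]
  have h := IntermediateField.lift_cardinalMk_adjoin_le k S
  have h2 := h.trans (max_le (max_le
      (Cardinal.lift_le_aleph0.2 (Cardinal.mk_le_aleph0_iff.2 inferInstance))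
      (Cardinal.lift_le_aleph0.2 (Cardinal.mk_le_aleph0_iff.2 hS.to_subtype))) le_rfl)
  exact Cardinal.lift_le_aleph0.1 h2

/-- over a countable field `k`, every countable subset of an algebraically closed field `Ω` lies in
a countable algebraically closed intermediate field `F`, algebraic over `k(S)` and algebraically
closed in `Ω`. -/
theorem exists_F0 (k : Type*) {Ω : Type*} [Field k] [Countable k] [Field Ω] [Algebra k Ω]
    [IsAlgClosed Ω] (S : Set Ω) (hS : S.Countable) :
    ∃ F : IntermediateField k Ω, S ⊆ (F : Set Ω) ∧ Countable F ∧ IsAlgClosed F ∧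
      (∀ x ∈ F, IsAlgebraic (IntermediateField.adjoin k S) x) ∧
      (∀ x : Ω, IsAlgebraic F x → x ∈ F) := by
  have hAc : Countable (IntermediateField.adjoin k S) := countable_adjoin k Ω S hS
  have hcl : IsAlgClosed (algebraicClosure (IntermediateField.adjoin k S) Ω) :=
    (algebraicClosure.isAlgClosure (IntermediateField.adjoin k S) Ω).isAlgClosed
  have hBc : Countable (algebraicClosure (IntermediateField.adjoin k S) Ω) :=
    countable_of_isAlgebraic (IntermediateField.adjoin k S) _
  refine ⟨(algebraicClosure (IntermediateField.adjoin k S) Ω).restrictScalars k, ?_, hBc, hcl,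
    ?_, ?_⟩
  · intro x hx
    change x ∈ algebraicClosure (IntermediateField.adjoin k S) Ω
    exact (algebraicClosure (IntermediateField.adjoin k S) Ω).algebraMap_mem
      ⟨x, IntermediateField.subset_adjoin k S hx⟩
  · intro x hx
    exact mem_algebraicClosure_iff.1
      (show x ∈ algebraicClosure (IntermediateField.adjoin k S) Ω from hx)
  · intro x hx
    have hx' : IsAlgebraic (algebraicClosure (IntermediateField.adjoin k S) Ω) x := hx
    change x ∈ algebraicClosure (IntermediateField.adjoin k S) Ω
    rw [mem_algebraicClosure_iff]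
    exact hx'.restrictScalars (IntermediateField.adjoin k S)

/-- every countable set of complex numbers lies in a countable algebraically closed subfield. -/
theorem exists_k0 {Ω : Type*} [Field Ω] [CharZero Ω] [IsAlgClosed Ω] (S : Set Ω)
    (hS : S.Countable) :
    ∃ k : Subfield Ω, S ⊆ (k : Set Ω) ∧ Countable k ∧ IsAlgClosed k ∧
      (∀ x : Ω, IsAlgebraic k x → x ∈ k) := by
  obtain ⟨F, h1, h2, h3, -, h5⟩ := exists_F0 ℚ S hS
  exact ⟨F.toSubfield, h1, h2, h3, h5⟩

/-! ### (K2) embeddings of countable extensions -/

/-- a countable extension of `k` embeds over `k` into every uncountable algebraically closed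
extension of `k`. -/
theorem embed (k κ Ω : Type*) [Field k] [Field κ] [Field Ω] [IsAlgClosed Ω] [Algebra k κ]
    [Algebra k Ω] [Countable κ] [Uncountable Ω] : Nonempty (κ →ₐ[k] Ω) := by
  have hk : Countable k := (algebraMap k κ).injective.countable
  obtain ⟨s, hs⟩ := exists_isTranscendenceBasis k κ
  obtain ⟨t, ht⟩ := exists_isTranscendenceBasis k Ω
  have htc : Uncountable t := by
    rw [← not_countable_iff]
    intro hc
    have h := IsAlgClosed.cardinal_le_max_transcendence_basis _ ht
    have h2 := h.trans (max_le (max_le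
      (Cardinal.lift_le_aleph0.2 (Cardinal.mk_le_aleph0_iff.2 hk))
      (Cardinal.lift_le_aleph0.2 (Cardinal.mk_le_aleph0_iff.2 hc))) le_rfl)
    have h3 := Cardinal.mk_le_aleph0_iff.1 (Cardinal.lift_le_aleph0.1 h2)
    exact not_countable_iff.2 inferInstance h3
  have hinj : ∃ e : s → t, Function.Injective e := by
    obtain ⟨f, hf⟩ := exists_injective_nat (↥s)
    have : Infinite t := inferInstance
    exact ⟨fun x => Infinite.natEmbedding t (f x),
      (Infinite.natEmbedding t).injective.comp hf⟩
  obtain ⟨e, he⟩ := hinj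
  have hy : AlgebraicIndependent k (fun x : s => ((e x : t) : Ω)) := ht.1.comp e he
  let L := IntermediateField.adjoin k (Set.range ((↑) : s → κ))
  have : Algebra.IsAlgebraic L κ := hs.isAlgebraic_field
  let f : L →ₐ[k] Ω := (IntermediateField.val _).comp
    (hy.aevalEquivField.toAlgHom.comp hs.1.reprField)
  obtain ⟨g, -⟩ := IsAlgClosed.surjective_domRestrict_of_isAlgebraic (K := k) (L := L) (M := Ω)
    (E := κ) f
  exact ⟨g⟩

/-- the same with prescribed values: if the tuples `ξ` in `κ` and `x` in `Ω` satisfy the same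
polynomial relations over `k`, then `κ` embeds into `Ω` over `k` with `ξ` going to `x`. -/
theorem embed_over {k κ Ω : Type*} [Field k] [Field κ] [Field Ω] [IsAlgClosed Ω] [Algebra k κ]
    [Algebra k Ω] [Countable κ] [Uncountable Ω] {T : Type*} (ξ : T → κ) (x : T → Ω)
    (h : ∀ p : MvPolynomial T k, MvPolynomial.aeval ξ p = 0 ↔ MvPolynomial.aeval x p = 0) :
    ∃ g : κ →ₐ[k] Ω, ∀ t, g (ξ t) = x t := by
  let φ : MvPolynomial T k →ₐ[k] κ := MvPolynomial.aeval ξ
  let ψ : MvPolynomial T k →ₐ[k] Ω := MvPolynomial.aeval x
  let I : Ideal (MvPolynomial T k) := RingHom.ker φ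
  have hI : I.IsPrime := RingHom.ker_isPrime φ
  let R := MvPolynomial T k ⧸ I
  have hφ : ∀ a ∈ I, φ a = 0 := fun a ha => ha
  have hψ : ∀ a ∈ I, ψ a = 0 := fun a ha => (h a).1 ha
  let f1 : R →ₐ[k] κ := Ideal.Quotient.liftₐ I φ hφ
  let f2 : R →ₐ[k] Ω := Ideal.Quotient.liftₐ I ψ hψ
  have hf1 : Function.Injective f1 := by
    rw [injective_iff_map_eq_zero]
    intro a ha
    obtain ⟨p, rfl⟩ := Ideal.Quotient.mk_surjective a
    exact Ideal.Quotient.eq_zero_iff_mem.2 (show φ p = 0 from ha)
  have hf2 : Function.Injective f2 := by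
    rw [injective_iff_map_eq_zero]
    intro a ha
    obtain ⟨p, rfl⟩ := Ideal.Quotient.mk_surjective a
    exact Ideal.Quotient.eq_zero_iff_mem.2 (show φ p = 0 from (h p).2 ha)
  let K := FractionRing R
  let F1 : K →ₐ[k] κ := IsFractionRing.liftAlgHom (K := K) (g := f1) hf1
  let F2 : K →ₐ[k] Ω := IsFractionRing.liftAlgHom (K := K) (g := f2) hf2
  let i1 : Algebra K κ := F1.toRingHom.toAlgebra
  let i2 : Algebra K Ω := F2.toRingHom.toAlgebra
  obtain ⟨g⟩ := embed K κ Ω
  have hg : ∀ a : K, g (F1 a) = F2 a := fun a => g.commutes a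
  refine ⟨{ g.toRingHom with commutes' := fun a => ?_ }, fun t => ?_⟩
  · have h1 : F1 (algebraMap k K a) = algebraMap k κ a := F1.commutes a
    have h2 : F2 (algebraMap k K a) = algebraMap k Ω a := F2.commutes a
    have := hg (algebraMap k K a)
    rw [h1, h2] at this
    exact this
  · have h1 : F1 (algebraMap R K (Ideal.Quotient.mk I (MvPolynomial.X t))) = ξ t := by
      have : F1 (algebraMap R K (Ideal.Quotient.mk I (MvPolynomial.X t))) =
          f1 (Ideal.Quotient.mk I (MvPolynomial.X t)) := by
        simp [F1]
      rw [this]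
      exact MvPolynomial.aeval_X ξ t
    have h2 : F2 (algebraMap R K (Ideal.Quotient.mk I (MvPolynomial.X t))) = x t := by
      have : F2 (algebraMap R K (Ideal.Quotient.mk I (MvPolynomial.X t))) =
          f2 (Ideal.Quotient.mk I (MvPolynomial.X t)) := by
        simp [F2]
      rw [this]
      exact MvPolynomial.aeval_X x t
    have := hg (algebraMap R K (Ideal.Quotient.mk I (MvPolynomial.X t)))
    rw [h1, h2] at this
    exact this

/-- REALISATION: every countable tuple in any extension field of the countable field `k` has a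
copy in the uncountable algebraically closed field `Ω` (same relations over `k`), together with the
whole countable algebraically closed field `κ'` around it. -/
theorem realize {k κ : Type*} (Ω : Type*) [Field k] [Countable k] [Field κ] [IsAlgClosed κ]
    [Field Ω] [IsAlgClosed Ω] [Algebra k κ] [Algebra k Ω] [Uncountable Ω] (S : Set κ)
    (hS : S.Countable) :
    ∃ (F : IntermediateField k κ) (_ : F →ₐ[k] Ω), S ⊆ (F : Set κ) ∧ Countable F ∧
      IsAlgClosed F := by
  obtain ⟨F, h1, h2, h3, -⟩ := exists_F0 k S hS
  obtain ⟨g⟩ := embed k F Ω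
  exact ⟨F, g, h1, h2, h3⟩

/-- the same for a tuple, without the field. -/
theorem realize_tuple {k κ : Type*} (Ω : Type*) [Field k] [Countable k] [Field κ]
    [Field Ω] [IsAlgClosed Ω] [Algebra k κ] [Algebra k Ω] [Uncountable Ω] {T : Type*}
    [Countable T] (c : T → κ) :
    ∃ c' : T → Ω, ∀ p : MvPolynomial T k,
      MvPolynomial.aeval c p = 0 ↔ MvPolynomial.aeval c' p = 0 := by
  have hA : Countable (IntermediateField.adjoin k (Set.range c)) :=
    countable_adjoin k κ _ (Set.countable_range c)
  obtain ⟨g⟩ := embed k (IntermediateField.adjoin k (Set.range c)) Ω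
  let c1 : T → IntermediateField.adjoin k (Set.range c) :=
    fun t => ⟨c t, IntermediateField.subset_adjoin k _ ⟨t, rfl⟩⟩
  refine ⟨fun t => g (c1 t), fun p => ?_⟩
  have h1 : MvPolynomial.aeval c p =
      (IntermediateField.val _) (MvPolynomial.aeval c1 p) :=
    (MvPolynomial.comp_aeval_apply c1
      (IntermediateField.val (IntermediateField.adjoin k (Set.range c))) p).symm
  have h2 : MvPolynomial.aeval (fun t => g (c1 t)) p = g (MvPolynomial.aeval c1 p) :=
    (MvPolynomial.comp_aeval_apply c1 g p).symm
  rw [h1, h2]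
  exact (map_eq_zero_iff _
    (IntermediateField.val (IntermediateField.adjoin k (Set.range c))).toRingHom.injective).trans
    (map_eq_zero_iff _ g.toRingHom.injective).symm

end Crest.Agent.R260.Desc1_587
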