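import Crest.Agent.R260.EndDefs_919
import Crest.Agent.R202.GeoTens

/-!
# Row 260 (S0398), END-2PT part 1 (helper919): two-variable calculus, algebra, `K = 0` on the
diagonal
-/

set_option autoImplicit false
open scoped ContDiff Topology
open Crest.GeometryTopology.CoordMetric Crest.GeometryTopology.ChartRiem
open Crest.Agent.R260.QKk_838 Crest.Agent.R260.QKm_838

namespace Crest.Agent.R260.End_919

variable {n : ℕ}

section calc2

variable {U : Set (EuclideanSpace ℝ (Fin n))}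
  {f : EuclideanSpace ℝ (Fin n) → EuclideanSpace ℝ (Fin n) → ℝ}

/-- the joint function. -/
abbrev unc (f : EuclideanSpace ℝ (Fin n) → EuclideanSpace ℝ (Fin n) → ℝ) :
    EuclideanSpace ℝ (Fin n) × EuclideanSpace ℝ (Fin n) → ℝ := fun z => f z.1 z.2

/-- jointly smooth on `U × U`. -/
def S2 (U : Set (EuclideanSpace ℝ (Fin n)))
    (f : EuclideanSpace ℝ (Fin n) → EuclideanSpace ℝ (Fin n) → ℝ) : Prop :=
  ContDiffOn ℝ ∞ (unc f) (U ×ˢ U)

theorem S2.at (hU : IsOpen U) (hf : S2 U f) {x y : EuclideanSpace ℝ (Fin n)} (hx : x ∈ U)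
    (hy : y ∈ U) : ContDiffAt ℝ ∞ (unc f) (x, y) :=
  (hf (x, y) ⟨hx, hy⟩).contDiffAt ((hU.prod hU).mem_nhds ⟨hx, hy⟩)

theorem S2.diffAt (hU : IsOpen U) (hf : S2 U f) {x y : EuclideanSpace ℝ (Fin n)} (hx : x ∈ U)
    (hy : y ∈ U) : DifferentiableAt ℝ (unc f) (x, y) :=
  (hf.at hU hx hy).differentiableAt (by simp)

theorem has1 (x y : EuclideanSpace ℝ (Fin n)) :
    HasFDerivAt (fun x' : EuclideanSpace ℝ (Fin n) => (x', y))
      (ContinuousLinearMap.inl ℝ (EuclideanSpace ℝ (Fin n)) (EuclideanSpace ℝ (Fin n))) x := by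
  exact hasFDerivAt_prodMk_left x y

theorem has2 (x y : EuclideanSpace ℝ (Fin n)) :
    HasFDerivAt (fun y' : EuclideanSpace ℝ (Fin n) => (x, y'))
      (ContinuousLinearMap.inr ℝ (EuclideanSpace ℝ (Fin n)) (EuclideanSpace ℝ (Fin n))) y := by
  exact hasFDerivAt_prodMk_right x y

theorem pd1_eq (hU : IsOpen U) (hf : S2 U f) {x y : EuclideanSpace ℝ (Fin n)} (hx : x ∈ U)
    (hy : y ∈ U) (i : Fin n) : pderiv i (fun x' => f x' y) x
      = fderiv ℝ (unc f) (x, y) (EuclideanSpace.single i 1, 0) := by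
  unfold pderiv
  have h := ((hf.diffAt hU hx hy).hasFDerivAt).comp x (has1 x y)
  have e : (fun x' => f x' y) = unc f ∘ (fun x' => (x', y)) := rfl
  rw [e, h.fderiv]; simp

theorem pd2_eq (hU : IsOpen U) (hf : S2 U f) {x y : EuclideanSpace ℝ (Fin n)} (hx : x ∈ U)
    (hy : y ∈ U) (i : Fin n) : pderiv i (fun y' => f x y') y
      = fderiv ℝ (unc f) (x, y) (0, EuclideanSpace.single i 1) := by
  unfold pderiv
  have h := ((hf.diffAt hU hx hy).hasFDerivAt).comp y (has2 x y)
  have e : (fun y' => f x y') = unc f ∘ (fun y' => (x, y')) := rfl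
  rw [e, h.fderiv]; simp

theorem S2_dir (hU : IsOpen U) (hf : S2 U f)
    (v : EuclideanSpace ℝ (Fin n) × EuclideanSpace ℝ (Fin n)) :
    ContDiffOn ℝ ∞ (fun z => fderiv ℝ (unc f) z v) (U ×ˢ U) := by
  have h : ContDiffOn ℝ ∞ (fderiv ℝ (unc f)) (U ×ˢ U) :=
    ContDiffOn.fderiv_of_isOpen hf (hU.prod hU) (by simp)
  exact h.clm_apply contDiffOn_const

theorem S2.d1 (hU : IsOpen U) (hf : S2 U f) (i : Fin n) :
    S2 U (fun x y => pderiv i (fun x' => f x' y) x) :=
  (S2_dir hU hf (EuclideanSpace.single i 1, 0)).congr fun z hz => by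
    simp only [unc]; exact pd1_eq hU hf hz.1 hz.2 i

theorem S2.d2 (hU : IsOpen U) (hf : S2 U f) (i : Fin n) :
    S2 U (fun x y => pderiv i (fun y' => f x y') y) :=
  (S2_dir hU hf (0, EuclideanSpace.single i 1)).congr fun z hz => by
    simp only [unc]; exact pd2_eq hU hf hz.1 hz.2 i

theorem S2.swap (hf : S2 U f) : S2 U (fun x y => f y x) :=
  ContDiffOn.comp hf (contDiff_snd.prodMk contDiff_fst).contDiffOn (fun _ hz => ⟨hz.2, hz.1⟩)

/-- restriction to the second variable. -/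
theorem S2.sm2 (hf : S2 U f) {x : EuclideanSpace ℝ (Fin n)} (hx : x ∈ U) :
    ContDiffOn ℝ ∞ (fun y => f x y) U :=
  ContDiffOn.comp (g := unc f) hf (contDiff_const.prodMk contDiff_id).contDiffOn
    (fun _ hy => ⟨hx, hy⟩)

theorem S2.sm1 (hf : S2 U f) {y : EuclideanSpace ℝ (Fin n)} (hy : y ∈ U) :
    ContDiffOn ℝ ∞ (fun x => f x y) U :=
  ContDiffOn.comp (g := unc f) hf (contDiff_id.prodMk contDiff_const).contDiffOn
    (fun _ hy' => ⟨hy', hy⟩)

theorem S2.of2 {h : EuclideanSpace ℝ (Fin n) → ℝ} (hh : ContDiffOn ℝ ∞ h U) :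
    S2 U (fun _ y => h y) :=
  hh.comp contDiff_snd.contDiffOn (fun _ hz => hz.2)

theorem S2.mul {h : EuclideanSpace ℝ (Fin n) → EuclideanSpace ℝ (Fin n) → ℝ} (hf : S2 U f)
    (hh : S2 U h) : S2 U (fun x y => f x y * h x y) := ContDiffOn.mul hf hh

theorem S2.add {h : EuclideanSpace ℝ (Fin n) → EuclideanSpace ℝ (Fin n) → ℝ} (hf : S2 U f)
    (hh : S2 U h) : S2 U (fun x y => f x y + h x y) := ContDiffOn.add hf hh

theorem S2.neg (hf : S2 U f) : S2 U (fun x y => -f x y) := ContDiffOn.neg hf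

theorem S2.sum {ι : Type*} {s : Finset ι}
    {h : ι → EuclideanSpace ℝ (Fin n) → EuclideanSpace ℝ (Fin n) → ℝ}
    (hh : ∀ i ∈ s, S2 U (h i)) : S2 U (fun x y => ∑ i ∈ s, h i x y) :=
  ContDiffOn.sum (f := fun i => unc (h i)) hh

/-- derivative along the diagonal. -/
theorem pd_diag (hU : IsOpen U) (hf : S2 U f) {x : EuclideanSpace ℝ (Fin n)} (hx : x ∈ U)
    (i : Fin n) : pderiv i (fun x' => f x' x') x
      = pderiv i (fun x' => f x' x) x + pderiv i (fun y' => f x y') x := by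
  rw [pd1_eq hU hf hx hx, pd2_eq hU hf hx hx, ← map_add]
  unfold pderiv
  have h2 : HasFDerivAt (fun x' : EuclideanSpace ℝ (Fin n) => (x', x'))
      ((ContinuousLinearMap.id ℝ (EuclideanSpace ℝ (Fin n))).prod
        (ContinuousLinearMap.id ℝ (EuclideanSpace ℝ (Fin n)))) x :=
    (hasFDerivAt_id x).prodMk (hasFDerivAt_id x)
  have h := HasFDerivAt.comp (f := fun x' : EuclideanSpace ℝ (Fin n) => (x', x')) x
    ((hf.diffAt hU hx hx).hasFDerivAt) h2
  have e : (fun x' => f x' x') = unc f ∘ (fun x' => (x', x')) := rfl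
  rw [e, h.fderiv]; simp

/-- mixed second derivatives commute. -/
theorem pd_mix (hU : IsOpen U) (hf : S2 U f) {x y : EuclideanSpace ℝ (Fin n)} (hx : x ∈ U)
    (hy : y ∈ U) (i j : Fin n) :
    pderiv j (fun x' => pderiv i (fun y' => f x' y') y) x
      = pderiv i (fun y' => pderiv j (fun x' => f x' y') x) y := by
  have hs : IsSymmSndFDerivAt ℝ (unc f) (x, y) :=
    ((hf.at hU hx hy).of_le (m := 2) (by norm_cast)).isSymmSndFDerivAt (by simp)
  have hd : DifferentiableAt ℝ (fderiv ℝ (unc f)) (x, y) :=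
    ((hf.at hU hx hy).fderiv_right (m := 1) (by norm_cast)).differentiableAt (by norm_num)
  have e1 : pderiv j (fun x' => pderiv i (fun y' => f x' y') y) x
      = pderiv j (fun x' => fderiv ℝ (unc f) (x', y) (0, EuclideanSpace.single i 1)) x :=
    pd_congr (by
      filter_upwards [hU.mem_nhds hx] with x' hx'
      exact pd2_eq hU hf hx' hy i) j
  have e2 : pderiv i (fun y' => pderiv j (fun x' => f x' y') x) y
      = pderiv i (fun y' => fderiv ℝ (unc f) (x, y') (EuclideanSpace.single j 1, 0)) y :=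
    pd_congr (by
      filter_upwards [hU.mem_nhds hy] with y' hy'
      exact pd1_eq hU hf hx hy' j) i
  rw [e1, e2]
  unfold pderiv
  have a1 := (hd.hasFDerivAt.comp x (has1 x y)).clm_apply
    (hasFDerivAt_const ((0 : EuclideanSpace ℝ (Fin n)), EuclideanSpace.single i (1 : ℝ)) x)
  have a2 := (hd.hasFDerivAt.comp y (has2 x y)).clm_apply
    (hasFDerivAt_const (EuclideanSpace.single j (1 : ℝ), (0 : EuclideanSpace ℝ (Fin n))) y)
  have b1 : (fun x' => fderiv ℝ (unc f) (x', y) (0, EuclideanSpace.single i 1))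
      = fun x' => (fderiv ℝ (unc f) ∘ fun x' => (x', y)) x' (0, EuclideanSpace.single i 1) := rfl
  have b2 : (fun y' => fderiv ℝ (unc f) (x, y') (EuclideanSpace.single j 1, 0))
      = fun y' => (fderiv ℝ (unc f) ∘ fun y' => (x, y')) y' (EuclideanSpace.single j 1, 0) := rfl
  rw [b1, b2, a1.fderiv, a2.fderiv]
  simpa using hs _ _

end calc2

/-! ## quaternionic algebra -/

theorem quat_zero {V : Type*} [AddCommGroup V] (j : Fin 3 → V → V)
    (hadd : ∀ a v w, j a (v + w) = j a v + j a w)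
    (sq : ∀ a v, j a (j a v) = -v) (h01 : ∀ v, j 0 (j 1 v) = j 2 v) (h2 : ∀ v : V, v + v = 0 → v = 0) (K K' : Fin 3 → V)
    (h : ∀ a b, j b (K a) + j a (K' b) = 0) : ∀ a, K a = 0 := by
  have h0 : ∀ a, j a 0 = 0 := fun a => by
    have := hadd a 0 0
    simpa using this
  have hneg : ∀ a v, j a (-v) = -j a v := fun a v => by
    have := hadd a v (-v)
    rw [add_neg_cancel, h0] at this
    exact (neg_eq_of_add_eq_zero_right this.symm).symm
  have hK' : ∀ a, K' a = -K a := by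
    intro a
    have e := h a a
    rw [← hadd] at e
    have e2 := congrArg (j a) e
    rw [sq, h0, neg_eq_zero] at e2
    exact eq_neg_of_add_eq_zero_right e2
  have hc : ∀ a b, j b (K a) = j a (K b) := by
    intro a b
    have e := h a b
    rw [hK' b, hneg] at e
    exact add_neg_eq_zero.mp e
  have h02 : ∀ v, j 0 (j 2 v) = -j 1 v := fun v => by rw [← h01, sq]
  have e1 : K 1 = -j 2 (K 0) := by
    have e := congrArg (j 0) (hc 0 1)
    rw [h01, sq] at e
    rw [e, neg_neg]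
  have e2 : K 2 = j 1 (K 0) := by
    have e := congrArg (j 0) (hc 0 2)
    rw [h02, sq] at e
    exact (neg_injective e).symm
  have e3 : K 0 = 0 := by
    have e := hc 1 2
    rw [e1, e2, hneg, sq, sq, neg_neg] at e
    apply h2
    calc K 0 + K 0 = -K 0 + K 0 := by rw [← e]
      _ = 0 := by simp
  intro a
  fin_cases a
  · exact e3
  · change K 1 = 0
    rw [e1, e3, h0, neg_zero]
  · change K 2 = 0
    rw [e2, e3, h0]

end Crest.Agent.R260.End_919
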