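import Crest.Agent.R260.End1_919

/-!
# Row 260 (S0398), END-2PT part 2 (helper919): the main computation

`end2pt`: at every point `x ∈ U` the vector field `K_a(x, ·)` satisfies the twistor equation,
vanishes at `x` and `∇K_a + (lam/2) J_a = 0` at `x`.
-/

set_option autoImplicit false
open scoped ContDiff Topology
open Crest.GeometryTopology.CoordMetric Crest.GeometryTopology.ChartRiem
open Crest.Agent.R260.QKk_838 Crest.Agent.R260.QKm_838

namespace Crest.Agent.R260.End_919

variable {n : ℕ} {g : MetricField n} {U : Set (EuclideanSpace ℝ (Fin n))}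
  {J : Fin 3 → EuclideanSpace ℝ (Fin n) → Matrix (Fin n) (Fin n) ℝ}
  {c : EuclideanSpace ℝ (Fin n) → Fin n → Fin 3 → Fin 3 → ℝ} {lam : ℝ}
  {G : Fin 3 → Fin 3 → EuclideanSpace ℝ (Fin n) → EuclideanSpace ℝ (Fin n) → ℝ}

/-- `∇^y_i G_{ab}`. -/
noncomputable def nab (c : EuclideanSpace ℝ (Fin n) → Fin n → Fin 3 → Fin 3 → ℝ)
    (G : Fin 3 → Fin 3 → EuclideanSpace ℝ (Fin n) → EuclideanSpace ℝ (Fin n) → ℝ)
    (a b : Fin 3) (i : Fin n) (x y : EuclideanSpace ℝ (Fin n)) : ℝ :=
  pderiv i (fun y' => G a b x y') y + ∑ d, G a d x y * c y i d b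

/-- the vector field `K_a(x, ·)`. -/
noncomputable def Kv (g : MetricField n)
    (J : Fin 3 → EuclideanSpace ℝ (Fin n) → Matrix (Fin n) (Fin n) ℝ)
    (c : EuclideanSpace ℝ (Fin n) → Fin n → Fin 3 → Fin 3 → ℝ)
    (G : Fin 3 → Fin 3 → EuclideanSpace ℝ (Fin n) → EuclideanSpace ℝ (Fin n) → ℝ)
    (a : Fin 3) (x y : EuclideanSpace ℝ (Fin n)) : EuclideanSpace ℝ (Fin n) :=
  WithLp.toLp 2 (fun p => -∑ l, ∑ i, J 0 y p l * inverseField g y l i * nab c G a 0 i x y)

theorem Kv_apply (a : Fin 3) (x y : EuclideanSpace ℝ (Fin n)) (p : Fin n) :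
    Kv g J c G a x y p = -∑ l, ∑ i, J 0 y p l * inverseField g y l i * nab c G a 0 i x y := rfl

theorem vec_form (A B : Matrix (Fin n) (Fin n) ℝ) (K : Fin n → ℝ) (i : Fin n) :
    ∑ l, ∑ p, A i l * B l p * K p = ((A * B).mulVec K) i := by
  simp only [Matrix.mulVec, dotProduct, Matrix.mul_apply, Finset.sum_mul]
  rw [Finset.sum_comm]

theorem inv_mul_g (hg : IsRiemannianOn g U) {x : EuclideanSpace ℝ (Fin n)} (hx : x ∈ U) :
    inverseField g x * g x = 1 :=
  Matrix.nonsing_inv_mul _ ((Matrix.isUnit_iff_isUnit_det _).1 (g_unit hg hx))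

theorem Kv_eq (h : Dat g U J c lam) {x y : EuclideanSpace ℝ (Fin n)} (hy : y ∈ U) (a : Fin 3)
    (K : Fin n → ℝ) (hK : ∀ i, nab c G a 0 i x y = ∑ l, ∑ p, g y i l * J 0 y l p * K p) :
    ∀ p, Kv g J c G a x y p = K p := by
  intro p
  have e1 : (fun i => nab c G a 0 i x y) = (g y * J 0 y).mulVec K := by
    ext i; rw [hK i, vec_form]
  have e2 : Kv g J c G a x y p
      = -((J 0 y * inverseField g y).mulVec (fun i => nab c G a 0 i x y)) p := by
    rw [Kv_apply, vec_form]
  rw [e2, e1, Matrix.mulVec_mulVec]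
  have e3 : J 0 y * inverseField g y * (g y * J 0 y) = -1 := by
    rw [Matrix.mul_assoc, ← Matrix.mul_assoc (inverseField g y), inv_mul_g h.riem hy,
      Matrix.one_mul, h.sq y hy 0]
  rw [e3, Matrix.neg_mulVec, Matrix.one_mulVec]
  simp

theorem t2' (h : Dat g U J c lam) (hG : TwoPt g U J c G) {x y : EuclideanSpace ℝ (Fin n)}
    (hx : x ∈ U) (hy : y ∈ U) (a b : Fin 3) (i : Fin n) :
    nab c G a b i x y = ∑ l, ∑ p, g y i l * J b y l p * Kv g J c G a x y p := by
  obtain ⟨K, hK⟩ := hG.t2 x hx y hy a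
  have e := Kv_eq (G := G) (x := x) h hy a K (fun i => hK i 0)
  simp only [e]
  exact hK i b

theorem smNab (h : Dat g U J c lam) (hG : TwoPt g U J c G) (a b : Fin 3) (i : Fin n) :
    S2 U (nab c G a b i) := by
  have hU := h.riem.isOpen
  exact S2.add (S2.d2 hU (hG.smG a b) i) (S2.sum fun d _ =>
    S2.mul (hG.smG a d) (S2.of2 (h.smc i d b)))

theorem smKv (h : Dat g U J c lam) (hG : TwoPt g U J c G) (a : Fin 3) (p : Fin n) :
    S2 U (fun x y => Kv g J c G a x y p) := by
  simp only [Kv_apply]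
  exact S2.neg (S2.sum fun l _ => S2.sum fun i _ => S2.mul (S2.mul (S2.of2 (h.smJ 0 p l))
    (S2.of2 (Crest.Agent.R202.Tens.contDiffOn_inv_entry h.riem l i))) (smNab h hG a 0 i))

/-- the twistor equation for `K_a(x, ·)`. -/
theorem tw_x (h : Dat g U J c lam) (hG : TwoPt g U J c G) {x : EuclideanSpace ℝ (Fin n)}
    (hx : x ∈ U) (a : Fin 3) :
    Tw g U J c (fun b y => G a b x y) (fun y => Kv g J c G a x y) where
  sms b := S2.sm2 (f := G a b) (hG.smG a b) hx
  smK p := S2.sm2 (smKv h hG a p) hx
  tw y hy i b := t2' h hG hx hy a b i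

/-- the swapped tensor. -/
abbrev sw (G : Fin 3 → Fin 3 → EuclideanSpace ℝ (Fin n) → EuclideanSpace ℝ (Fin n) → ℝ) :
    Fin 3 → Fin 3 → EuclideanSpace ℝ (Fin n) → EuclideanSpace ℝ (Fin n) → ℝ :=
  fun a b x y => G b a y x

theorem d2_diag (h : Dat g U J c lam) (hG : TwoPt g U J c G) {x : EuclideanSpace ℝ (Fin n)}
    (hx : x ∈ U) (a b : Fin 3) (i : Fin n) :
    pderiv i (fun y' => G a b x y') x
      = ((g x * J b x).mulVec (fun p => Kv g J c G a x x p)) i - c x i a b := by
  have e := t2' h hG hx hx a b i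
  rw [vec_form] at e
  have e2 : ∑ d, G a d x x * c x i d b = c x i a b := by
    simp only [hG.diag x hx, ite_mul, one_mul, zero_mul]
    rw [Finset.sum_ite_eq]; simp
  unfold nab at e
  rw [e2] at e
  linarith

/-- **Step 1.**  `K_a(x, x) = 0`. -/
theorem Kv_diag (h : Dat g U J c lam) (hG : TwoPt g U J c G) {x : EuclideanSpace ℝ (Fin n)}
    (hx : x ∈ U) (a : Fin 3) (p : Fin n) : Kv g J c G a x x p = 0 := by
  have hU := h.riem.isOpen
  have key : ∀ a b, (J b x).mulVec (fun p => Kv g J c G a x x p)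
      + (J a x).mulVec (fun p => Kv g J c (sw G) b x x p) = 0 := by
    intro a b
    have e1 : ∀ i, ((g x * J b x).mulVec (fun p => Kv g J c G a x x p)) i
        + ((g x * J a x).mulVec (fun p => Kv g J c (sw G) b x x p)) i = 0 := by
      intro i
      have e2 := d2_diag h hG hx a b i
      have e3 := d2_diag h hG.swap hx b a i
      have e4 := pd_diag hU (f := G a b) (hG.smG a b) hx i
      have e5 : pderiv i (fun x' => G a b x' x') x = 0 := by
        rw [pd_congr (h := fun _ => if a = b then (1 : ℝ) else 0) (by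
          filter_upwards [hU.mem_nhds hx] with y hy
          exact hG.diag y hy a b) i]
        unfold pderiv; simp
      have e6 := h.skc x hx i a b
      have e7 : pderiv i (fun y' => (fun a b x y => G b a y x) b a x y') x
        = pderiv i (fun x' => G a b x' x) x := rfl
      rw [e7] at e3
      rw [e5, e2, e3] at e4
      have e8 : ((g x * J a x).mulVec (fun p => Kv g J c (sw G) b x x p)) i
        = ((g x * J a x).mulVec (fun p => Kv g J c (fun a b x y => G b a y x) b x x p)) i := rfl
      rw [e8]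
      linarith
    have e9 : (g x).mulVec ((J b x).mulVec (fun p => Kv g J c G a x x p)
        + (J a x).mulVec (fun p => Kv g J c (sw G) b x x p)) = 0 := by
      rw [Matrix.mulVec_add, Matrix.mulVec_mulVec, Matrix.mulVec_mulVec]
      ext i; exact e1 i
    have e10 := congrArg (inverseField g x).mulVec e9
    rw [Matrix.mulVec_mulVec, inv_mul_g h.riem hx, Matrix.one_mulVec, Matrix.mulVec_zero] at e10
    exact e10
  have hz := quat_zero (V := Fin n → ℝ) (fun a v => (J a x).mulVec v)
    (fun a v w => Matrix.mulVec_add _ _ _)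
    (fun a v => by
      simp only [Matrix.mulVec_mulVec, h.sq x hx a, Matrix.neg_mulVec, Matrix.one_mulVec])
    (fun v => by simp only [Matrix.mulVec_mulVec, (h.mul x hx).1])
    (fun v hv => by
      ext i
      have := congrFun hv i
      simp only [Pi.add_apply, Pi.zero_apply] at this ⊢
      linarith)
    (fun a => fun p => Kv g J c G a x x p) (fun a => fun p => Kv g J c (sw G) a x x p) key a
  exact congrFun hz p

/-- Jacobian of `K_a(x, ·)` at `x`. -/
noncomputable def Bm (g : MetricField n)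
    (J : Fin 3 → EuclideanSpace ℝ (Fin n) → Matrix (Fin n) (Fin n) ℝ)
    (c : EuclideanSpace ℝ (Fin n) → Fin n → Fin 3 → Fin 3 → ℝ)
    (G : Fin 3 → Fin 3 → EuclideanSpace ℝ (Fin n) → EuclideanSpace ℝ (Fin n) → ℝ)
    (a : Fin 3) (x : EuclideanSpace ℝ (Fin n)) : Matrix (Fin n) (Fin n) ℝ :=
  covK g (fun y => Kv g J c G a x y) x

theorem Bm_apply (h : Dat g U J c lam) (hG : TwoPt g U J c G) {x : EuclideanSpace ℝ (Fin n)}
    (hx : x ∈ U) (a : Fin 3) (l j : Fin n) :
    Bm g J c G a x l j = pderiv j (fun y => Kv g J c G a x y l) x := by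
  simp [Bm, covK, Kv_diag h hG hx]

/-- derivative in the first variable. -/
theorem d1_Kv (h : Dat g U J c lam) (hG : TwoPt g U J c G) {x : EuclideanSpace ℝ (Fin n)}
    (hx : x ∈ U) (a : Fin 3) (l j : Fin n) :
    pderiv j (fun x' => Kv g J c G a x' x l) x = -Bm g J c G a x l j := by
  have hU := h.riem.isOpen
  have e4 := pd_diag hU (f := fun x y => Kv g J c G a x y l) (smKv h hG a l) hx j
  have e5 : pderiv j (fun x' => Kv g J c G a x' x' l) x = 0 := by
    rw [pd_congr (h := fun _ => (0 : ℝ)) (by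
      filter_upwards [hU.mem_nhds hx] with y hy
      exact Kv_diag h hG hy a l) j]
    unfold pderiv; simp
  rw [Bm_apply h hG hx]
  linarith

/-- the mixed second derivative on the diagonal. -/
theorem mixed (h : Dat g U J c lam) (hG : TwoPt g U J c G) {x : EuclideanSpace ℝ (Fin n)}
    (hx : x ∈ U) (a b : Fin 3) (i j : Fin n) :
    pderiv j (fun x' => pderiv i (fun y' => G a b x' y') x) x
      = -(g x * J b x * Bm g J c G a x) i j + ∑ d, c x j d a * c x i d b := by
  have hU := h.riem.isOpen
  have hd1 : ∀ {f : EuclideanSpace ℝ (Fin n) → EuclideanSpace ℝ (Fin n) → ℝ}, S2 U f →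
      DifferentiableAt ℝ (fun x' => f x' x) x := fun hf => dAt hU (hf.sm1 hx) hx
  have e1 : pderiv j (fun x' => pderiv i (fun y' => G a b x' y') x) x
      = pderiv j (fun x' => (∑ l, ∑ p, g x i l * J b x l p * Kv g J c G a x' x p)
        + -(∑ d, G a d x' x * c x i d b)) x := by
    refine pd_congr ?_ j
    filter_upwards [hU.mem_nhds hx] with x' hx'
    have e := t2' h hG hx' hx a b i
    unfold nab at e
    linarith
  have hK : ∀ p, DifferentiableAt ℝ (fun x' => Kv g J c G a x' x p) x := fun p =>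
    hd1 (smKv h hG a p)
  have hGd : ∀ d, DifferentiableAt ℝ (fun x' => G a d x' x) x := fun d =>
    hd1 (f := G a d) (hG.smG a d)
  have cm : ∀ (r : ℝ) (f : EuclideanSpace ℝ (Fin n) → ℝ), DifferentiableAt ℝ f x →
      pderiv j (fun y => r * f y) x = r * pderiv j f x := by
    intro r f hf
    rw [pd_mul (differentiableAt_const r) hf]
    unfold pderiv; simp
  have mc : ∀ (r : ℝ) (f : EuclideanSpace ℝ (Fin n) → ℝ), DifferentiableAt ℝ f x →
      pderiv j (fun y => f y * r) x = pderiv j f x * r := by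
    intro r f hf
    rw [pd_mul hf (differentiableAt_const r)]
    unfold pderiv; simp
  have e2 : pderiv j (fun x' => ∑ l, ∑ p, g x i l * J b x l p * Kv g J c G a x' x p) x
      = ∑ l, ∑ p, g x i l * J b x l p * (-Bm g J c G a x p j) := by
    rw [pd_sum (fun l _ => DifferentiableAt.fun_sum fun p _ =>
      (differentiableAt_const _).fun_mul (hK p))]
    refine Finset.sum_congr rfl fun l _ => ?_
    rw [pd_sum (fun p _ => (differentiableAt_const _).fun_mul (hK p))]
    refine Finset.sum_congr rfl fun p _ => ?_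
    rw [cm _ _ (hK p), d1_Kv h hG hx]
  have e3 : pderiv j (fun x' => -(∑ d, G a d x' x * c x i d b)) x
      = -(∑ d, pderiv j (fun x' => G a d x' x) x * c x i d b) := by
    have : (fun x' => -(∑ d, G a d x' x * c x i d b))
        = fun x' => (-1 : ℝ) * (∑ d, G a d x' x * c x i d b) := by ext; ring
    rw [this, cm _ _ (DifferentiableAt.fun_sum fun d _ =>
        (hGd d).fun_mul (differentiableAt_const _)),
      pd_sum (fun d _ => (hGd d).fun_mul (differentiableAt_const _))]
    rw [neg_one_mul]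
    congr 1
    exact Finset.sum_congr rfl fun d _ => mc _ _ (hGd d)
  have e4 : ∀ d, pderiv j (fun x' => G a d x' x) x = -c x j d a := by
    intro d
    have e := d2_diag h hG.swap hx d a j
    have ez : (fun p => Kv g J c (fun a b x y => G b a y x) d x x p) = 0 := by
      ext p; exact Kv_diag h hG.swap hx d p
    rw [ez, Matrix.mulVec_zero] at e
    have e7 : pderiv j (fun y' => (fun a b x y => G b a y x) d a x y') x
        = pderiv j (fun x' => G a d x' x) x := rfl
    rw [e7] at e
    rw [e]; simp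
  rw [e1, pd_add (DifferentiableAt.fun_sum fun l _ => DifferentiableAt.fun_sum fun p _ =>
      (differentiableAt_const _).fun_mul (hK p))
      (DifferentiableAt.fun_neg (DifferentiableAt.fun_sum fun d _ =>
        (hGd d).fun_mul (differentiableAt_const _))), e2, e3]
  simp only [e4]
  have e5 : ∑ l, ∑ p, g x i l * J b x l p * (-Bm g J c G a x p j)
      = -(g x * J b x * Bm g J c G a x) i j := by
    rw [vec_form, Matrix.mul_apply]
    simp only [Matrix.mulVec, dotProduct, mul_neg, Finset.sum_neg_distrib]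
  rw [e5]
  simp only [neg_mul, Finset.sum_neg_distrib, neg_neg]

/-- **Step 3.**  `∇K_a = -(lam/2) J_a` at `x`. -/
theorem Bm_eq (h : Dat g U J c lam) (hG : TwoPt g U J c G) {x : EuclideanSpace ℝ (Fin n)}
    (hx : x ∈ U) (a : Fin 3) :
    Bm g J c G a x + (lam / 2) • ∑ b, G a b x x • J b x = 0 := by
  have hU := h.riem.isOpen
  have hs : ∀ {G : Fin 3 → Fin 3 → EuclideanSpace ℝ (Fin n) → EuclideanSpace ℝ (Fin n) → ℝ}
      (_ : TwoPt g U J c G) (a : Fin 3), ∑ b, G a b x x • J b x = J a x := by
    intro G hG a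
    simp only [hG.diag x hx, ite_smul, one_smul, zero_smul]
    rw [Finset.sum_ite_eq]; simp
  have key : ∀ {G : Fin 3 → Fin 3 → EuclideanSpace ℝ (Fin n) → EuclideanSpace ℝ (Fin n) → ℝ}
      (_ : TwoPt g U J c G) (a : Fin 3),
      (Bm g J c G a x + (lam / 2) • J a x).transpose * g x
          = -(g x * (Bm g J c G a x + (lam / 2) • J a x))
        ∧ ∀ b, J b x * (Bm g J c G a x + (lam / 2) • J a x)
          = (Bm g J c G a x + (lam / 2) • J a x) * J b x := by
    intro G hG a
    have t := twist h (tw_x h hG hx a) hx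
    rw [hs hG a] at t
    exact ⟨t.1, t.2.1⟩
  set A : Fin 3 → Matrix (Fin n) (Fin n) ℝ := fun a => Bm g J c G a x + (lam / 2) • J a x with hA
  set A' : Fin 3 → Matrix (Fin n) (Fin n) ℝ :=
    fun a => Bm g J c (sw G) a x + (lam / 2) • J a x with hA'
  have kA := fun a => key hG a
  have kA' := fun a => key hG.swap a
  have hJG : ∀ a, (J a x).transpose * g x = -(g x * J a x) := fun a =>
    orth_skew (h.sq x hx a) (h.orth x hx a)
  have hgs : (g x).transpose = g x := by
    ext i j; exact g_symm h.riem hx j i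
  -- the relation
  have rel : ∀ a b, g x * J b x * Bm g J c G a x
      = (g x * J a x * Bm g J c (sw G) b x).transpose := by
    intro a b
    ext i j
    have m1 := mixed h hG hx a b i j
    have m2 := mixed h hG.swap hx b a j i
    have m3 := pd_mix hU (f := G a b) (hG.smG a b) hx hx i j
    have e1 : pderiv i (fun x' => pderiv j (fun y' => (fun a b x y => G b a y x) b a x' y') x) x
        = pderiv i (fun y' => pderiv j (fun x' => G a b x' y') x) x := rfl
    rw [e1] at m2
    rw [m1, m2] at m3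
    have e2 : ∑ d, c x j d a * c x i d b = ∑ d, c x i d b * c x j d a :=
      Finset.sum_congr rfl fun d _ => mul_comm _ _
    rw [e2] at m3
    rw [Matrix.transpose_apply]
    have e3 : (g x * J a x * Bm g J c (sw G) b x) j i
      = (g x * J a x * Bm g J c (fun a b x y => G b a y x) b x) j i := rfl
    rw [e3]
    linarith
  have rel2 : ∀ a b, g x * (J b x * A a) = g x * (J a x * A' b) := by
    intro a b
    have r := rel a b
    have eB : Bm g J c G a x = A a - (lam / 2) • J a x := by simp [hA]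
    have eB' : Bm g J c (sw G) b x = A' b - (lam / 2) • J b x := by simp [hA']
    rw [eB, eB'] at r
    have e1 : (g x * J a x * (A' b - (lam / 2) • J b x)).transpose
        = g x * (J a x * A' b) - (lam / 2) • (g x * J b x * J a x) := by
      have k1 : (A' b).transpose * g x = -(g x * A' b) := (kA' b).1
      have k2 : J a x * A' b = A' b * J a x := (kA' b).2 a
      have e2 : (g x * J a x * A' b).transpose = g x * (J a x * A' b) := by
        rw [Matrix.transpose_mul, Matrix.transpose_mul, hgs, hJG a, Matrix.mul_neg,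
          ← Matrix.mul_assoc, k1, Matrix.neg_mul, neg_neg, Matrix.mul_assoc, k2]
      have e3 : (g x * J a x * J b x).transpose = g x * J b x * J a x := by
        rw [Matrix.transpose_mul, Matrix.transpose_mul, hgs, hJG a, Matrix.mul_neg,
          ← Matrix.mul_assoc, hJG b, Matrix.neg_mul, neg_neg]
      rw [Matrix.mul_sub, Matrix.mul_smul, Matrix.transpose_sub, Matrix.transpose_smul, e2, e3]
    rw [e1, Matrix.mul_sub, Matrix.mul_smul, Matrix.mul_assoc] at r
    exact sub_left_injective r
  have rel3 : ∀ a b, J b x * A a + J a x * (-A' b) = 0 := by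
    intro a b
    have e := (g_unit h.riem hx).mul_left_cancel (rel2 a b)
    rw [e, Matrix.mul_neg]; simp
  have hz := quat_zero (V := Matrix (Fin n) (Fin n) ℝ) (fun a v => J a x * v)
    (fun a v w => Matrix.mul_add _ _ _)
    (fun a v => by rw [← Matrix.mul_assoc, h.sq x hx a]; simp)
    (fun v => by rw [← Matrix.mul_assoc, (h.mul x hx).1])
    (fun v hv => by
      ext i j
      have := congrFun (congrFun hv i) j
      simp only [Matrix.add_apply, Matrix.zero_apply] at this ⊢
      linarith)
    A (fun b => -A' b) rel3 a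
  rw [hs hG a]
  exact hz

/-- **END-2PT, before KEND.**  The field `K = K_0(x, ·)` is a Killing field on `U`, vanishes at
`x`, and its Jacobian at `x` is `-(lam/2) J_0(x)`. -/
theorem end2pt_killing (h : Dat g U J c lam) (hG : TwoPt g U J c G)
    {x : EuclideanSpace ℝ (Fin n)} (hx : x ∈ U) :
    ∃ K : EuclideanSpace ℝ (Fin n) → EuclideanSpace ℝ (Fin n),
      (∀ p, ContDiffOn ℝ ∞ (fun y => K y p) U) ∧
      (∀ y ∈ U, ∀ i j, ∑ a, (K y a * pderiv a (fun z => g z i j) y
        + g y a j * pderiv i (fun z => K z a) y + g y i a * pderiv j (fun z => K z a) y) = 0) ∧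
      (∀ p, K x p = 0) ∧
      (Matrix.of fun l j => pderiv j (fun y => K y l) x) = -(lam / 2) • J 0 x ∧
      (Matrix.of fun l j => pderiv j (fun y => K y l) x)
        * (Matrix.of fun l j => pderiv j (fun y => K y l) x)
        = -((lam / 2) ^ 2) • (1 : Matrix (Fin n) (Fin n) ℝ) := by
  have hw := tw_x h hG hx 0
  have hj := jac (s := fun b y => G 0 b x y) (K := fun y => Kv g J c G 0 x y) h hx
    (Kv_diag h hG hx 0) (Bm_eq h hG hx 0)
  refine ⟨fun y => Kv g J c G 0 x y, hw.smK, fun y hy i j => killing h hw hy i j,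
    Kv_diag h hG hx 0, ?_, ?_⟩
  · rw [hj.1]
    congr 1
    simp [hG.diag x hx]
  · rw [hj.2]
    simp [hG.diag x hx]

end Crest.Agent.R260.End_919
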