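import Mathlib
import Crest.Prelude.Def_ChartRiemQK

/-! Row 260, coordinate calculus with the frozen `pderiv` : smooth functions on an open set,
matrix valued functions, the connection matrices, the curvature matrices and their covariant
derivative.  (helper361) -/

set_option autoImplicit false
open scoped ContDiff Topology
open Crest.GeometryTopology.CoordMetric Crest.GeometryTopology.ChartRiem

noncomputable section

namespace Crest.Agent.R260.KEnd_361

variable {n : ℕ}

/-- smooth real functions on `U` -/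
def Sm (U : Set (EuclideanSpace ℝ (Fin n))) (f : EuclideanSpace ℝ (Fin n) → ℝ) : Prop :=
  ContDiffOn ℝ ∞ f U

/-- smooth matrix valued functions on `U` -/
def SmM {α β : Type*} (U : Set (EuclideanSpace ℝ (Fin n)))
    (X : EuclideanSpace ℝ (Fin n) → Matrix α β ℝ) : Prop :=
  ∀ a b, Sm U (fun y => X y a b)

section scalar

variable {U : Set (EuclideanSpace ℝ (Fin n))} {f h : EuclideanSpace ℝ (Fin n) → ℝ}
  {x : EuclideanSpace ℝ (Fin n)}

theorem Sm.diff (hU : IsOpen U) (hf : Sm U f) (hx : x ∈ U) : DifferentiableAt ℝ f x :=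
  (ContDiffOn.contDiffAt hf (hU.mem_nhds hx)).differentiableAt (by simp)

theorem Sm.const (c : ℝ) : Sm U (fun _ => c) := contDiffOn_const

theorem Sm.add (hf : Sm U f) (hh : Sm U h) : Sm U (fun y => f y + h y) := ContDiffOn.add hf hh

theorem Sm.sub (hf : Sm U f) (hh : Sm U h) : Sm U (fun y => f y - h y) := ContDiffOn.sub hf hh

theorem Sm.neg (hf : Sm U f) : Sm U (fun y => - f y) := ContDiffOn.neg hf

theorem Sm.mul (hf : Sm U f) (hh : Sm U h) : Sm U (fun y => f y * h y) := ContDiffOn.mul hf hh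

theorem Sm.sum {ι : Type*} {s : Finset ι} {F : ι → EuclideanSpace ℝ (Fin n) → ℝ}
    (hF : ∀ a ∈ s, Sm U (F a)) : Sm U (fun y => ∑ a ∈ s, F a y) :=
  ContDiffOn.sum hF

theorem Sm.prod {ι : Type*} {s : Finset ι} {F : ι → EuclideanSpace ℝ (Fin n) → ℝ}
    (hF : ∀ a ∈ s, Sm U (F a)) : Sm U (fun y => ∏ a ∈ s, F a y) :=
  contDiffOn_prod hF

theorem Sm.mono {V : Set (EuclideanSpace ℝ (Fin n))} (hf : Sm U f) (hV : V ⊆ U) : Sm V f :=
  ContDiffOn.mono hf hV

theorem Sm.congr (hf : Sm U f) (he : ∀ y ∈ U, h y = f y) : Sm U h := ContDiffOn.congr hf he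

theorem Sm.pd (hU : IsOpen U) (hf : Sm U f) (i : Fin n) : Sm U (fun y => pderiv i f y) := by
  have h1 : ContDiffOn ℝ ∞ (fderiv ℝ f) U := ContDiffOn.fderiv_of_isOpen hf hU (by simp)
  exact h1.clm_apply contDiffOn_const

theorem Sm.inv (hf : Sm U f) (h0 : ∀ y ∈ U, f y ≠ 0) : Sm U (fun y => (f y)⁻¹) :=
  ContDiffOn.inv hf h0

theorem pd_congr (hU : IsOpen U) (he : ∀ y ∈ U, f y = h y) (hx : x ∈ U) (i : Fin n) :
    pderiv i f x = pderiv i h x := by
  have : f =ᶠ[𝓝 x] h := Filter.eventually_of_mem (hU.mem_nhds hx) he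
  unfold pderiv
  rw [this.fderiv_eq]

theorem pd_const (c : ℝ) (i : Fin n) : pderiv i (fun _ => c) x = 0 := by
  unfold pderiv; simp

theorem pd_add (hU : IsOpen U) (hf : Sm U f) (hh : Sm U h) (hx : x ∈ U) (i : Fin n) :
    pderiv i (fun y => f y + h y) x = pderiv i f x + pderiv i h x := by
  unfold pderiv; rw [fderiv_fun_add (hf.diff hU hx) (hh.diff hU hx)]; rfl

theorem pd_sub (hU : IsOpen U) (hf : Sm U f) (hh : Sm U h) (hx : x ∈ U) (i : Fin n) :
    pderiv i (fun y => f y - h y) x = pderiv i f x - pderiv i h x := by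
  unfold pderiv; rw [fderiv_fun_sub (hf.diff hU hx) (hh.diff hU hx)]; rfl

theorem pd_neg (i : Fin n) :
    pderiv i (fun y => - f y) x = - pderiv i f x := by
  unfold pderiv; rw [fderiv_fun_neg]; rfl

theorem pd_mul (hU : IsOpen U) (hf : Sm U f) (hh : Sm U h) (hx : x ∈ U) (i : Fin n) :
    pderiv i (fun y => f y * h y) x = pderiv i f x * h x + f x * pderiv i h x := by
  unfold pderiv; rw [fderiv_fun_mul (hf.diff hU hx) (hh.diff hU hx)]
  simp only [add_apply, smul_apply, smul_eq_mul]
  ring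

theorem pd_sum (hU : IsOpen U) {ι : Type*} {s : Finset ι}
    {F : ι → EuclideanSpace ℝ (Fin n) → ℝ} (hF : ∀ a ∈ s, Sm U (F a)) (hx : x ∈ U) (i : Fin n) :
    pderiv i (fun y => ∑ a ∈ s, F a y) x = ∑ a ∈ s, pderiv i (F a) x := by
  unfold pderiv
  rw [fderiv_fun_sum (fun a ha => (hF a ha).diff hU hx), _root_.sum_apply]

theorem pd_comm (hU : IsOpen U) (hf : Sm U f) (hx : x ∈ U) (i j : Fin n) :
    pderiv i (fun y => pderiv j f y) x = pderiv j (fun y => pderiv i f y) x := by
  have h2 : ContDiffAt ℝ 2 f x :=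
    (ContDiffOn.contDiffAt hf (hU.mem_nhds hx)).of_le (by norm_cast)
  have hd : DifferentiableAt ℝ (fderiv ℝ f) x :=
    (h2.fderiv_right (m := 1) (by norm_num)).differentiableAt (by simp)
  have hs : ∀ v w : EuclideanSpace ℝ (Fin n),
      fderiv ℝ (fun y => fderiv ℝ f y w) x v = fderiv ℝ (fderiv ℝ f) x v w := by
    intro v w
    have h3 : HasFDerivAt (fun y => fderiv ℝ f y w)
        ((ContinuousLinearMap.apply ℝ ℝ w).comp (fderiv ℝ (fderiv ℝ f) x)) x :=
      (ContinuousLinearMap.apply ℝ ℝ w).hasFDerivAt.comp x hd.hasFDerivAt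
    rw [h3.fderiv]; rfl
  unfold pderiv
  rw [hs, hs]
  exact (h2.isSymmSndFDerivAt (by simp)).eq _ _

end scalar

section matrix

variable {U : Set (EuclideanSpace ℝ (Fin n))} {x : EuclideanSpace ℝ (Fin n)}
  {α β γ : Type*}

/-- entrywise partial derivative of a matrix valued function -/
def pdM (i : Fin n) (X : EuclideanSpace ℝ (Fin n) → Matrix α β ℝ)
    (x : EuclideanSpace ℝ (Fin n)) : Matrix α β ℝ :=
  Matrix.of fun a b => pderiv i (fun y => X y a b) x

theorem pdM_apply (i : Fin n) (X : EuclideanSpace ℝ (Fin n) → Matrix α β ℝ)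
    (x : EuclideanSpace ℝ (Fin n)) (a : α) (b : β) :
    pdM i X x a b = pderiv i (fun y => X y a b) x := rfl

variable {X Y : EuclideanSpace ℝ (Fin n) → Matrix α β ℝ}

theorem SmM.const (A : Matrix α β ℝ) : SmM U (fun _ => A) := fun _ _ => Sm.const _

theorem SmM.add (hX : SmM U X) (hY : SmM U Y) : SmM U (fun y => X y + Y y) :=
  fun a b => (hX a b).add (hY a b)

theorem SmM.sub (hX : SmM U X) (hY : SmM U Y) : SmM U (fun y => X y - Y y) :=
  fun a b => (hX a b).sub (hY a b)

theorem SmM.neg (hX : SmM U X) : SmM U (fun y => - X y) :=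
  fun a b => (hX a b).neg

theorem SmM.smul {f : EuclideanSpace ℝ (Fin n) → ℝ} (hf : Sm U f) (hX : SmM U X) :
    SmM U (fun y => f y • X y) :=
  fun a b => hf.mul (hX a b)

theorem SmM.transpose (hX : SmM U X) : SmM U (fun y => (X y).transpose) :=
  fun a b => hX b a

theorem SmM.mul [Fintype β] {Z : EuclideanSpace ℝ (Fin n) → Matrix β γ ℝ} (hX : SmM U X)
    (hZ : SmM U Z) : SmM U (fun y => X y * Z y) := by
  intro a c
  simp only [Matrix.mul_apply]
  exact Sm.sum fun b _ => (hX a b).mul (hZ b c)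

theorem SmM.sum {ι : Type*} {s : Finset ι} {F : ι → EuclideanSpace ℝ (Fin n) → Matrix α β ℝ}
    (hF : ∀ c ∈ s, SmM U (F c)) : SmM U (fun y => ∑ c ∈ s, F c y) := by
  intro a b
  simp only [Matrix.sum_apply]
  exact Sm.sum fun c hc => hF c hc a b

theorem SmM.pd (hU : IsOpen U) (hX : SmM U X) (i : Fin n) : SmM U (fun y => pdM i X y) :=
  fun a b => (hX a b).pd hU i

theorem SmM.mono {V : Set (EuclideanSpace ℝ (Fin n))} (hX : SmM U X) (hV : V ⊆ U) : SmM V X :=
  fun a b => (hX a b).mono hV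

theorem SmM.congr (hX : SmM U X) (he : ∀ y ∈ U, Y y = X y) : SmM U Y :=
  fun a b => (hX a b).congr fun y hy => by rw [he y hy]

theorem pdM_congr (hU : IsOpen U) (he : ∀ y ∈ U, X y = Y y) (hx : x ∈ U) (i : Fin n) :
    pdM i X x = pdM i Y x := by
  ext a b
  exact pd_congr hU (fun y hy => by rw [he y hy]) hx i

theorem pdM_const (A : Matrix α β ℝ) (i : Fin n) : pdM i (fun _ => A) x = 0 := by
  ext a b
  exact pd_const _ i

theorem pdM_add (hU : IsOpen U) (hX : SmM U X) (hY : SmM U Y) (hx : x ∈ U) (i : Fin n) :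
    pdM i (fun y => X y + Y y) x = pdM i X x + pdM i Y x := by
  ext a b
  exact pd_add hU (hX a b) (hY a b) hx i

theorem pdM_sub (hU : IsOpen U) (hX : SmM U X) (hY : SmM U Y) (hx : x ∈ U) (i : Fin n) :
    pdM i (fun y => X y - Y y) x = pdM i X x - pdM i Y x := by
  ext a b
  exact pd_sub hU (hX a b) (hY a b) hx i

theorem pdM_neg (i : Fin n) : pdM i (fun y => - X y) x = - pdM i X x := by
  ext a b
  exact pd_neg i

theorem pdM_smul (hU : IsOpen U) {f : EuclideanSpace ℝ (Fin n) → ℝ} (hf : Sm U f)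
    (hX : SmM U X) (hx : x ∈ U) (i : Fin n) :
    pdM i (fun y => f y • X y) x = pderiv i f x • X x + f x • pdM i X x := by
  ext a b
  exact pd_mul hU hf (hX a b) hx i

theorem pdM_transpose (i : Fin n) :
    pdM i (fun y => (X y).transpose) x = (pdM i X x).transpose := by
  ext a b
  rfl

theorem pdM_mul [Fintype β] (hU : IsOpen U) {Z : EuclideanSpace ℝ (Fin n) → Matrix β γ ℝ}
    (hX : SmM U X) (hZ : SmM U Z) (hx : x ∈ U) (i : Fin n) :
    pdM i (fun y => X y * Z y) x = pdM i X x * Z x + X x * pdM i Z x := by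
  ext a c
  rw [Matrix.add_apply, Matrix.mul_apply, Matrix.mul_apply, pdM_apply]
  simp only [Matrix.mul_apply]
  rw [pd_sum hU (fun b _ => (hX a b).mul (hZ b c)) hx, ← Finset.sum_add_distrib]
  exact Finset.sum_congr rfl fun b _ => pd_mul hU (hX a b) (hZ b c) hx i

theorem pdM_sum {ι : Type*} {s : Finset ι} {F : ι → EuclideanSpace ℝ (Fin n) → Matrix α β ℝ}
    (hU : IsOpen U) (hF : ∀ c ∈ s, SmM U (F c)) (hx : x ∈ U) (i : Fin n) :
    pdM i (fun y => ∑ c ∈ s, F c y) x = ∑ c ∈ s, pdM i (F c) x := by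
  ext a b
  rw [Matrix.sum_apply, pdM_apply]
  simp only [Matrix.sum_apply]
  exact pd_sum hU (fun c hc => hF c hc a b) hx i

theorem pdM_comm (hU : IsOpen U) (hX : SmM U X) (hx : x ∈ U) (i j : Fin n) :
    pdM i (fun y => pdM j X y) x = pdM j (fun y => pdM i X y) x := by
  ext a b
  exact pd_comm hU (hX a b) hx i j

/-- smoothness of the inverse matrix -/
theorem SmM.det {α : Type*} [Fintype α] [DecidableEq α]
    {X : EuclideanSpace ℝ (Fin n) → Matrix α α ℝ} (hX : SmM U X) :
    Sm U (fun y => (X y).det) := by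
  simp_rw [Matrix.det_apply']
  exact Sm.sum fun σ _ => (Sm.const _).mul (Sm.prod fun i _ => hX _ _)

theorem SmM.adjugate {α : Type*} [Fintype α] [DecidableEq α]
    {X : EuclideanSpace ℝ (Fin n) → Matrix α α ℝ} (hX : SmM U X) :
    SmM U (fun y => (X y).adjugate) := by
  intro i j
  simp_rw [Matrix.adjugate_apply]
  refine SmM.det fun a b => ?_
  by_cases haj : a = j
  · subst haj
    simp only [Matrix.updateRow_self]
    exact Sm.const _
  · simp only [Matrix.updateRow_ne haj]
    exact hX a b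

theorem SmM.inv {α : Type*} [Fintype α] [DecidableEq α]
    {X : EuclideanSpace ℝ (Fin n) → Matrix α α ℝ} (hX : SmM U X)
    (h0 : ∀ y ∈ U, (X y).det ≠ 0) : SmM U (fun y => (X y)⁻¹) := by
  intro i j
  have h1 : ∀ y, (X y)⁻¹ i j = ((X y).det)⁻¹ * (X y).adjugate i j := by
    intro y
    rw [Matrix.inv_def, Matrix.smul_apply, smul_eq_mul, Ring.inverse_eq_inv']
  simp_rw [h1]
  exact (hX.det.inv h0).mul (hX.adjugate i j)

end matrix

section metric

variable {U : Set (EuclideanSpace ℝ (Fin n))} {x : EuclideanSpace ℝ (Fin n)}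
  {g : MetricField n}

theorem sm_g (hg : IsRiemannianOn g U) : SmM U g := fun i j => hg.contDiffOn i j

theorem g_symm (hg : IsRiemannianOn g U) (hx : x ∈ U) (i j : Fin n) : g x i j = g x j i := by
  have h := (hg.posDef x hx).isHermitian
  have h2 := congrFun (congrFun h j) i
  simpa [Matrix.conjTranspose_apply] using h2

theorem g_det (hg : IsRiemannianOn g U) (hx : x ∈ U) : (g x).det ≠ 0 :=
  (hg.posDef x hx).det_pos.ne'

theorem sm_ginv (hg : IsRiemannianOn g U) : SmM U (inverseField g) :=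
  (sm_g hg).inv fun _ hy => g_det hg hy

theorem g_mul_inv (hg : IsRiemannianOn g U) (hx : x ∈ U) : g x * inverseField g x = 1 :=
  Matrix.mul_nonsing_inv _ (g_det hg hx).isUnit

theorem inv_mul_g (hg : IsRiemannianOn g U) (hx : x ∈ U) : inverseField g x * g x = 1 :=
  Matrix.nonsing_inv_mul _ (g_det hg hx).isUnit

/-- the (twice) lowered Christoffel symbol -/
def low (g : MetricField n) (x : EuclideanSpace ℝ (Fin n)) (l i j : Fin n) : ℝ :=
  pderiv i (fun y => g y j l) x + pderiv j (fun y => g y i l) x - pderiv l (fun y => g y i j) x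

theorem sm_low (hg : IsRiemannianOn g U) (l i j : Fin n) : Sm U (fun y => low g y l i j) :=
  (((sm_g hg j l).pd hg.isOpen i).add ((sm_g hg i l).pd hg.isOpen j)).sub
    ((sm_g hg i j).pd hg.isOpen l)

theorem christoffel_eq (g : MetricField n) (x : EuclideanSpace ℝ (Fin n)) (k i j : Fin n) :
    christoffel g x k i j = (1 / 2) * ∑ l, inverseField g x k l * low g x l i j := rfl

theorem sm_chr (hg : IsRiemannianOn g U) (k i j : Fin n) :
    Sm U (fun y => christoffel g y k i j) := by
  simp_rw [christoffel_eq]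
  exact (Sm.const _).mul (Sm.sum fun l _ => (sm_ginv hg k l).mul (sm_low hg l i j))

/-- `Σ_k g_lk Γ^k_ij = low/2` -/
theorem g_chr (hg : IsRiemannianOn g U) (hx : x ∈ U) (l i j : Fin n) :
    ∑ k, g x l k * christoffel g x k i j = (1 / 2) * low g x l i j := by
  simp_rw [christoffel_eq]
  have h1 : ∀ m, ∑ k, g x l k * inverseField g x k m = if l = m then 1 else 0 := by
    intro m
    rw [← Matrix.mul_apply, g_mul_inv hg hx, Matrix.one_apply]
  calc ∑ k, g x l k * (1 / 2 * ∑ m, inverseField g x k m * low g x m i j)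
      = (1 / 2) * ∑ m, (∑ k, g x l k * inverseField g x k m) * low g x m i j := by
        rw [Finset.mul_sum]
        simp_rw [Finset.sum_mul, Finset.mul_sum]
        rw [Finset.sum_comm]
        refine Finset.sum_congr rfl fun m _ => Finset.sum_congr rfl fun k _ => by ring
    _ = (1 / 2) * low g x l i j := by
        simp_rw [h1]
        simp

theorem low_symm (hg : IsRiemannianOn g U) (hx : x ∈ U) (l i j : Fin n) :
    low g x l i j = low g x l j i := by
  unfold low
  rw [pd_congr hg.isOpen (f := fun y => g y i j) (h := fun y => g y j i)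
    (fun y hy => g_symm hg hy i j) hx]
  ring

theorem chr_symm (hg : IsRiemannianOn g U) (hx : x ∈ U) (k i j : Fin n) :
    christoffel g x k i j = christoffel g x k j i := by
  simp_rw [christoffel_eq]
  congr 1
  exact Finset.sum_congr rfl fun l _ => by rw [low_symm hg hx]

/-- the connection matrices `(Γ_i)^l_p`, with the point as last argument of the function -/
def Gm (g : MetricField n) (i : Fin n) (x : EuclideanSpace ℝ (Fin n)) : Matrix (Fin n) (Fin n) ℝ :=
  christoffelMatrix g x i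

theorem Gm_apply (g : MetricField n) (i : Fin n) (x : EuclideanSpace ℝ (Fin n)) (l p : Fin n) :
    Gm g i x l p = christoffel g x l i p := rfl

theorem sm_Gm (hg : IsRiemannianOn g U) (i : Fin n) : SmM U (Gm g i) :=
  fun l p => sm_chr hg l i p

/-- the curvature matrices `(R_ij)^l_k = riemann g x l i j k` -/
def Rm (g : MetricField n) (i j : Fin n) (x : EuclideanSpace ℝ (Fin n)) :
    Matrix (Fin n) (Fin n) ℝ :=
  Matrix.of fun l k => riemann g x l i j k

theorem Rm_apply (g : MetricField n) (i j : Fin n) (x : EuclideanSpace ℝ (Fin n)) (l k : Fin n) :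
    Rm g i j x l k = riemann g x l i j k := rfl

theorem Rm_eq (g : MetricField n) (i j : Fin n) (x : EuclideanSpace ℝ (Fin n)) :
    Rm g i j x = pdM i (Gm g j) x - pdM j (Gm g i) x + (Gm g i x * Gm g j x - Gm g j x * Gm g i x)
    := by
  ext l k
  rw [Rm_apply, riemann, Matrix.add_apply, Matrix.sub_apply, Matrix.sub_apply, Matrix.mul_apply,
    Matrix.mul_apply, ← Finset.sum_sub_distrib]
  rfl

theorem sm_Rm (hg : IsRiemannianOn g U) (i j : Fin n) : SmM U (Rm g i j) := by
  have h1 : SmM U (fun x => pdM i (Gm g j) x - pdM j (Gm g i) x +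
      (Gm g i x * Gm g j x - Gm g j x * Gm g i x)) :=
    (((sm_Gm hg j).pd hg.isOpen i).sub ((sm_Gm hg i).pd hg.isOpen j)).add
      (((sm_Gm hg i).mul (sm_Gm hg j)).sub ((sm_Gm hg j).mul (sm_Gm hg i)))
  exact h1.congr fun y _ => Rm_eq g i j y

/-- the matrices `(∇_m R_ij)^l_k = covDerivRiemann g x m l i j k` -/
def Nm (g : MetricField n) (m i j : Fin n) (x : EuclideanSpace ℝ (Fin n)) :
    Matrix (Fin n) (Fin n) ℝ :=
  Matrix.of fun l k => covDerivRiemann g x m l i j k

theorem Nm_apply (g : MetricField n) (m i j : Fin n) (x : EuclideanSpace ℝ (Fin n))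
    (l k : Fin n) : Nm g m i j x l k = covDerivRiemann g x m l i j k := rfl

theorem Nm_eq (g : MetricField n) (m i j : Fin n) (x : EuclideanSpace ℝ (Fin n)) :
    Nm g m i j x = pdM m (Rm g i j) x + (Gm g m x * Rm g i j x - Rm g i j x * Gm g m x)
      - ∑ p, Gm g m x p i • Rm g p j x - ∑ p, Gm g m x p j • Rm g i p x := by
  ext l k
  rw [Nm_apply, covDerivRiemann]
  simp only [Matrix.sub_apply, Matrix.add_apply, Matrix.mul_apply, Matrix.sum_apply,
    Matrix.smul_apply, smul_eq_mul, pdM_apply, Gm_apply, Rm_apply]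
  simp only [Finset.sum_sub_distrib]
  have h1 : ∑ p, christoffel g x p m k * riemann g x l i j p =
      ∑ p, riemann g x l i j p * christoffel g x p m k :=
    Finset.sum_congr rfl fun p _ => mul_comm _ _
  rw [h1]
  ring

end metric

end Crest.Agent.R260.KEnd_361
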