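import Mathlib
import Crest.Prelude.Def_ChartRiemQK
import Crest.Agent.R260.KEnd1_361

/-! Row 260: a Killing field preserves the Christoffel symbols.  (helper361) -/

set_option autoImplicit false
open scoped ContDiff Topology
open Crest.GeometryTopology.CoordMetric Crest.GeometryTopology.ChartRiem

noncomputable section

namespace Crest.Agent.R260.KEnd_361

variable {n : ℕ} {U : Set (EuclideanSpace ℝ (Fin n))} {x : EuclideanSpace ℝ (Fin n)}
  {g : MetricField n}

/-- `K = (K^a)` is a smooth Killing field of `g` on `U` (coordinate Killing equation). -/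
structure Kill (g : MetricField n) (U : Set (EuclideanSpace ℝ (Fin n)))
    (K : Fin n → EuclideanSpace ℝ (Fin n) → ℝ) : Prop where
  sm : ∀ a, Sm U (K a)
  eq : ∀ y ∈ U, ∀ i j : Fin n, ∑ a, (K a y * pderiv a (fun z => g z i j) y +
    g y a j * pderiv i (K a) y + g y i a * pderiv j (K a) y) = 0

variable {K : Fin n → EuclideanSpace ℝ (Fin n) → ℝ}

/-- the differentiated Killing equation -/
theorem Kill.d1 (hg : IsRiemannianOn g U) (hK : Kill g U K) (hx : x ∈ U) (i j l : Fin n) :
    ∑ a, (pderiv i (K a) x * pderiv a (fun z => g z j l) x +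
      K a x * pderiv a (fun z => pderiv i (fun w => g w j l) z) x +
      (pderiv i (fun z => g z a l) x * pderiv j (K a) x + g x a l * pderiv i (fun z => pderiv j (K a) z) x) +
      (pderiv i (fun z => g z j a) x * pderiv l (K a) x + g x j a * pderiv i (fun z => pderiv l (K a) z) x))
      = 0 := by
  have hU := hg.isOpen
  have h0 : pderiv i (fun y => ∑ a, (K a y * pderiv a (fun z => g z j l) y +
    g y a l * pderiv j (K a) y + g y j a * pderiv l (K a) y)) x = 0 := by
    rw [pd_congr hU (h := fun _ => (0 : ℝ)) (fun y hy => hK.eq y hy j l) hx, pd_const]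
  have s1 : ∀ a, Sm U (fun y => K a y * pderiv a (fun z => g z j l) y) := fun a =>
    (hK.sm a).mul ((sm_g hg j l).pd hU a)
  have s2 : ∀ a, Sm U (fun y => g y a l * pderiv j (K a) y) := fun a =>
    (sm_g hg a l).mul ((hK.sm a).pd hU j)
  have s3 : ∀ a, Sm U (fun y => g y j a * pderiv l (K a) y) := fun a =>
    (sm_g hg j a).mul ((hK.sm a).pd hU l)
  rw [pd_sum hU (fun a _ => ((s1 a).add (s2 a)).add (s3 a)) hx] at h0
  rw [← h0]
  refine Finset.sum_congr rfl fun a _ => ?_
  rw [pd_add hU ((s1 a).add (s2 a)) (s3 a) hx, pd_add hU (s1 a) (s2 a) hx,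
    pd_mul hU (hK.sm a) ((sm_g hg j l).pd hU a) hx,
    pd_mul hU (sm_g hg a l) ((hK.sm a).pd hU j) hx,
    pd_mul hU (sm_g hg j a) ((hK.sm a).pd hU l) hx,
    pd_comm hU (sm_g hg j l) hx i a]

/-- `L_K` of the lowered Christoffel symbols -/
theorem Kill.low (hg : IsRiemannianOn g U) (hK : Kill g U K) (hx : x ∈ U) (l i j : Fin n) :
    ∑ a, (K a x * pderiv a (fun z => low g z l i j) x + pderiv i (K a) x * KEnd_361.low g x l a j +
      pderiv j (K a) x * KEnd_361.low g x l i a + pderiv l (K a) x * KEnd_361.low g x a i j +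
      2 * (g x l a * pderiv i (fun z => pderiv j (K a) z) x)) = 0 := by
  have hU := hg.isOpen
  have h1 := hK.d1 hg hx i j l
  have h2 := hK.d1 hg hx j i l
  have h3 := hK.d1 hg hx l i j
  have hgs : ∀ a b : Fin n, ∀ c : Fin n, pderiv c (fun z => g z a b) x = pderiv c (fun z => g z b a) x :=
    fun a b c => pd_congr hU (fun y hy => g_symm hg hy a b) hx c
  have key := congrArg₂ (· - ·) (congrArg₂ (· + ·) h1 h2) h3
  simp only [← Finset.sum_add_distrib, ← Finset.sum_sub_distrib, add_zero, sub_zero] at key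
  rw [← key]
  refine Finset.sum_congr rfl fun a _ => ?_
  have k1 := pd_comm hU (hK.sm a) hx i j
  have k2 := pd_comm hU (hK.sm a) hx i l
  have k3 := pd_comm hU (hK.sm a) hx j l
  have k4 : pderiv a (fun z => KEnd_361.low g z l i j) x =
      pderiv a (fun z => pderiv i (fun w => g w j l) z) x +
      pderiv a (fun z => pderiv j (fun w => g w i l) z) x -
      pderiv a (fun z => pderiv l (fun w => g w i j) z) x := by
    have s1 := (sm_g hg j l).pd hU i
    have s2 := (sm_g hg i l).pd hU j
    have s3 := (sm_g hg i j).pd hU l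
    unfold KEnd_361.low
    rw [pd_sub hU (s1.add s2) s3 hx, pd_add hU s1 s2 hx]
  rw [k4, k2, k3, k1]
  unfold KEnd_361.low
  rw [g_symm hg hx a l, g_symm hg hx a j]
  rw [hgs a l i, hgs a l j, hgs a j l]
  ring

/-- the Jacobian matrix `B^a_j = ∂_j K^a` -/
def Bm (K : Fin n → EuclideanSpace ℝ (Fin n) → ℝ) (x : EuclideanSpace ℝ (Fin n)) :
    Matrix (Fin n) (Fin n) ℝ := Matrix.of fun a j => pderiv j (K a) x

theorem Bm_apply (K : Fin n → EuclideanSpace ℝ (Fin n) → ℝ) (x : EuclideanSpace ℝ (Fin n))
    (a j : Fin n) : Bm K x a j = pderiv j (K a) x := rfl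

theorem Kill.sm_Bm (hg : IsRiemannianOn g U) (hK : Kill g U K) : SmM U (Bm K) :=
  fun a j => (hK.sm a).pd hg.isOpen j

theorem g_pd_chr (hg : IsRiemannianOn g U) (hx : x ∈ U) (a l i j : Fin n) :
    ∑ k, g x l k * pderiv a (fun y => christoffel g y k i j) x =
      (1 / 2) * pderiv a (fun y => KEnd_361.low g y l i j) x -
        ∑ k, pderiv a (fun y => g y l k) x * christoffel g x k i j := by
  have hU := hg.isOpen
  have h1 := pd_congr hU (f := fun y => ∑ k, g y l k * christoffel g y k i j)
    (h := fun y => (1 / 2) * KEnd_361.low g y l i j) (fun y hy => g_chr hg hy l i j) hx a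
  rw [pd_sum hU (fun k _ => (sm_g hg l k).mul (sm_chr hg k i j)) hx,
    pd_mul hU (Sm.const _) (sm_low hg l i j) hx, pd_const] at h1
  simp_rw [pd_mul hU (sm_g hg l _) (sm_chr hg _ i j) hx] at h1
  rw [Finset.sum_add_distrib] at h1
  linarith

/-- **a Killing field preserves the Christoffel symbols** -/
theorem Kill.chr (hg : IsRiemannianOn g U) (hK : Kill g U K) (hx : x ∈ U) (i : Fin n) :
    ∑ a, K a x • pdM a (Gm g i) x + ∑ a, pderiv i (K a) x • Gm g a x +
      (Gm g i x * Bm K x - Bm K x * Gm g i x) + pdM i (Bm K) x = 0 := by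
  have hU := hg.isOpen
  set E : Matrix (Fin n) (Fin n) ℝ := ∑ a, K a x • pdM a (Gm g i) x +
    ∑ a, pderiv i (K a) x • Gm g a x +
      (Gm g i x * Bm K x - Bm K x * Gm g i x) + pdM i (Bm K) x with hE
  have h1 : g x * E = 0 := by
    ext l j
    have hlow := hK.low hg hx l i j
    have e1 : (g x * ∑ a, K a x • pdM a (Gm g i) x) l j =
        ∑ a, ((1 / 2) * (K a x * pderiv a (fun z => KEnd_361.low g z l i j) x)) -
        ∑ k, (∑ a, K a x * pderiv a (fun y => g y l k) x) * christoffel g x k i j := by
      rw [Matrix.mul_sum, Matrix.sum_apply]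
      simp_rw [Matrix.mul_smul]
      simp only [Matrix.smul_apply, Matrix.mul_apply, pdM_apply, Gm_apply,
        smul_eq_mul]
      simp_rw [g_pd_chr hg hx, mul_sub, Finset.sum_sub_distrib]
      congr 1
      · exact Finset.sum_congr rfl fun a _ => by ring
      · simp_rw [Finset.sum_mul, Finset.mul_sum]
        rw [Finset.sum_comm]
        exact Finset.sum_congr rfl fun a _ => Finset.sum_congr rfl fun k _ => by ring
    have e2 : (g x * ∑ a, pderiv i (K a) x • Gm g a x) l j =
        ∑ a, (1 / 2) * (pderiv i (K a) x * KEnd_361.low g x l a j) := by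
      rw [Matrix.mul_sum, Matrix.sum_apply]
      simp_rw [Matrix.mul_smul]
      simp only [Matrix.smul_apply, Matrix.mul_apply, Gm_apply, smul_eq_mul]
      simp_rw [g_chr hg hx]
      exact Finset.sum_congr rfl fun a _ => by ring
    have e3 : (g x * (Gm g i x * Bm K x)) l j =
        ∑ a, (1 / 2) * (pderiv j (K a) x * KEnd_361.low g x l i a) := by
      rw [← Matrix.mul_assoc, Matrix.mul_apply]
      refine Finset.sum_congr rfl fun a _ => ?_
      rw [Matrix.mul_apply]
      simp only [Gm_apply, Bm_apply]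
      rw [g_chr hg hx]
      ring
    have e5 : (g x * pdM i (Bm K) x) l j =
        ∑ a, (1 / 2) * (2 * (g x l a * pderiv i (fun z => pderiv j (K a) z) x)) := by
      rw [Matrix.mul_apply]
      refine Finset.sum_congr rfl fun a _ => ?_
      rw [pdM_apply]
      simp only [Bm_apply]
      ring
    have e4 : ∑ k, (∑ a, K a x * pderiv a (fun y => g y l k) x) * christoffel g x k i j =
        - (g x * (Bm K x * Gm g i x)) l j -
          ∑ a, (1 / 2) * (pderiv l (K a) x * KEnd_361.low g x a i j) := by
      have h2 : ∀ k, ∑ a, K a x * pderiv a (fun y => g y l k) x =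
          - ∑ a, g x l a * pderiv k (K a) x - ∑ a, pderiv l (K a) x * g x a k := by
        intro k
        have h3 := hK.eq x hx l k
        rw [Finset.sum_add_distrib, Finset.sum_add_distrib] at h3
        have h4 : ∑ a, g x a k * pderiv l (K a) x = ∑ a, pderiv l (K a) x * g x a k :=
          Finset.sum_congr rfl fun a _ => mul_comm _ _
        linarith
      simp_rw [h2, sub_mul, Finset.sum_sub_distrib]
      congr 1
      · rw [← Matrix.mul_assoc, Matrix.mul_apply, ← Finset.sum_neg_distrib]
        refine Finset.sum_congr rfl fun k _ => ?_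
        rw [Matrix.mul_apply]
        simp only [Gm_apply, Bm_apply]
        ring
      · simp_rw [Finset.sum_mul]
        rw [Finset.sum_comm]
        refine Finset.sum_congr rfl fun a _ => ?_
        rw [mul_left_comm, ← g_chr hg hx, Finset.mul_sum]
        exact Finset.sum_congr rfl fun k _ => by ring
    rw [hE]
    simp only [Matrix.mul_add, Matrix.mul_sub, Matrix.add_apply, Matrix.sub_apply]
    rw [e1, e2, e3, e5, e4, Matrix.zero_apply]
    have h6 := congrArg (fun t => (1 / 2 : ℝ) * t) hlow
    simp only [Finset.sum_add_distrib, mul_add, mul_zero, Finset.mul_sum] at h6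
    linarith
  calc E = inverseField g x * (g x * E) := by
        rw [← Matrix.mul_assoc, inv_mul_g hg hx, Matrix.one_mul]
    _ = 0 := by rw [h1, Matrix.mul_zero]

end Crest.Agent.R260.KEnd_361
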