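import Mathlib
import Crest.Prelude.Def_ChartRiemQK
import Crest.Agent.R260.KEnd2_361

/-! Row 260: a Killing field preserves the Riemann tensor and, at its zeros, the covariant
derivative of the Riemann tensor.  (helper361) -/

set_option autoImplicit false
open scoped ContDiff Topology
open Crest.GeometryTopology.CoordMetric Crest.GeometryTopology.ChartRiem

noncomputable section

namespace Crest.Agent.R260.KEnd_361

variable {n : ℕ} {U : Set (EuclideanSpace ℝ (Fin n))} {x : EuclideanSpace ℝ (Fin n)}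
  {g : MetricField n} {K : Fin n → EuclideanSpace ℝ (Fin n) → ℝ}

/-- commutation of `∂_i` with the derivation `Σ K^a ∂_a` -/
theorem pdM_delta {α β : Type*} (hU : IsOpen U) (hK : ∀ a, Sm U (K a))
    {X : EuclideanSpace ℝ (Fin n) → Matrix α β ℝ} (hX : SmM U X) (hx : x ∈ U) (i : Fin n) :
    pdM i (fun y => ∑ a, K a y • pdM a X y) x =
      ∑ a, K a x • pdM a (fun y => pdM i X y) x + ∑ a, pderiv i (K a) x • pdM a X x := by
  rw [pdM_sum hU (fun a _ => SmM.smul (hK a) (hX.pd hU a)) hx, ← Finset.sum_add_distrib]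
  refine Finset.sum_congr rfl fun a _ => ?_
  rw [pdM_smul hU (hK a) (hX.pd hU a) hx, pdM_comm hU hX hx i a, add_comm]

/-- derivative of `Σ_a f_a • X_a` -/
theorem pdM_lin {α β : Type*} (hU : IsOpen U) {f : Fin n → EuclideanSpace ℝ (Fin n) → ℝ}
    (hf : ∀ a, Sm U (f a)) {X : Fin n → EuclideanSpace ℝ (Fin n) → Matrix α β ℝ}
    (hX : ∀ a, SmM U (X a)) (hx : x ∈ U) (i : Fin n) :
    pdM i (fun y => ∑ a, f a y • X a y) x =
      ∑ a, pderiv i (f a) x • X a x + ∑ a, f a x • pdM i (X a) x := by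
  rw [pdM_sum hU (fun a _ => SmM.smul (hf a) (hX a)) hx, ← Finset.sum_add_distrib]
  refine Finset.sum_congr rfl fun a _ => ?_
  rw [pdM_smul hU (hf a) (hX a) hx]

theorem sum_smul_mul {α β γ : Type*} [Fintype β] (f : Fin n → ℝ) (X : Fin n → Matrix α β ℝ)
    (Y : Matrix β γ ℝ) : ∑ a, f a • (X a * Y) = (∑ a, f a • X a) * Y := by
  rw [Matrix.sum_mul]
  exact Finset.sum_congr rfl fun a _ => by rw [Matrix.smul_mul]

theorem sum_mul_smul {α β γ : Type*} [Fintype β] (f : Fin n → ℝ) (X : Fin n → Matrix β γ ℝ)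
    (Y : Matrix α β ℝ) : ∑ a, f a • (Y * X a) = Y * (∑ a, f a • X a) := by
  rw [Matrix.mul_sum]
  exact Finset.sum_congr rfl fun a _ => by rw [Matrix.mul_smul]

/-- the differentiated form of `L_K Γ = 0` -/
theorem Kill.chr_d (hg : IsRiemannianOn g U) (hK : Kill g U K) (hx : x ∈ U) (i j : Fin n) :
    ∑ a, K a x • pdM a (fun y => pdM i (Gm g j) y) x + ∑ a, pderiv i (K a) x • pdM a (Gm g j) x +
      (∑ a, pderiv i (fun y => pderiv j (K a) y) x • Gm g a x +
        ∑ a, pderiv j (K a) x • pdM i (Gm g a) x) +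
      ((pdM i (Gm g j) x * Bm K x + Gm g j x * pdM i (Bm K) x) -
        (pdM i (Bm K) x * Gm g j x + Bm K x * pdM i (Gm g j) x)) +
      pdM i (fun y => pdM j (Bm K) y) x = 0 := by
  have hU := hg.isOpen
  have hB := hK.sm_Bm hg
  have hG := sm_Gm hg
  have s1 : SmM U (fun y => ∑ a, K a y • pdM a (Gm g j) y) :=
    SmM.sum fun a _ => SmM.smul (hK.sm a) ((hG j).pd hU a)
  have s2 : SmM U (fun y => ∑ a, pderiv j (K a) y • Gm g a y) :=
    SmM.sum fun a _ => SmM.smul ((hK.sm a).pd hU j) (hG a)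
  have s3 : SmM U (fun y => Gm g j y * Bm K y) := (hG j).mul hB
  have s4 : SmM U (fun y => Bm K y * Gm g j y) := hB.mul (hG j)
  have s5 : SmM U (fun y => pdM j (Bm K) y) := hB.pd hU j
  have h0 := pdM_congr hU (X := fun y => ∑ a, K a y • pdM a (Gm g j) y +
    ∑ a, pderiv j (K a) y • Gm g a y + (Gm g j y * Bm K y - Bm K y * Gm g j y) +
      pdM j (Bm K) y) (Y := fun _ => 0) (fun y hy => hK.chr hg hy j) hx i
  rw [pdM_const, pdM_add hU ((s1.add s2).add (s3.sub s4)) s5 hx,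
    pdM_add hU (s1.add s2) (s3.sub s4) hx, pdM_add hU s1 s2 hx, pdM_sub hU s3 s4 hx,
    pdM_mul hU (hG j) hB hx, pdM_mul hU hB (hG j) hx, pdM_delta hU hK.sm (hG j) hx,
    pdM_lin hU (fun a => (hK.sm a).pd hU j) hG hx] at h0
  exact h0

/-- **a Killing field preserves the curvature tensor** -/
theorem Kill.riem (hg : IsRiemannianOn g U) (hK : Kill g U K) (hx : x ∈ U) (i j : Fin n) :
    ∑ a, K a x • pdM a (Rm g i j) x + ∑ a, pderiv i (K a) x • Rm g a j x +
      ∑ a, pderiv j (K a) x • Rm g i a x +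
      (Rm g i j x * Bm K x - Bm K x * Rm g i j x) = 0 := by
  have hU := hg.isOpen
  have hB := hK.sm_Bm hg
  have hG := sm_Gm hg
  have h1 := hK.chr_d hg hx i j
  have h2 := hK.chr_d hg hx j i
  have e1 := hK.chr hg hx i
  have e2 := hK.chr hg hx j
  have c1 : pdM i (fun y => pdM j (Bm K) y) x = pdM j (fun y => pdM i (Bm K) y) x :=
    pdM_comm hU hB hx i j
  have c2 : ∑ a, pderiv i (fun y => pderiv j (K a) y) x • Gm g a x =
      ∑ a, pderiv j (fun y => pderiv i (K a) y) x • Gm g a x :=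
    Finset.sum_congr rfl fun a _ => by rw [pd_comm hU (hK.sm a) hx i j]
  rw [c1, c2] at h1
  -- derivative of the curvature along `K`
  have r1 : ∀ a, pdM a (Rm g i j) x = pdM a (fun y => pdM i (Gm g j) y) x -
      pdM a (fun y => pdM j (Gm g i) y) x +
      ((pdM a (Gm g i) x * Gm g j x + Gm g i x * pdM a (Gm g j) x) -
        (pdM a (Gm g j) x * Gm g i x + Gm g j x * pdM a (Gm g i) x)) := by
    intro a
    rw [pdM_congr hU (Y := fun y => pdM i (Gm g j) y - pdM j (Gm g i) y +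
      (Gm g i y * Gm g j y - Gm g j y * Gm g i y)) (fun y _ => Rm_eq g i j y) hx,
      pdM_add hU (((hG j).pd hU i).sub ((hG i).pd hU j))
        (((hG i).mul (hG j)).sub ((hG j).mul (hG i))) hx,
      pdM_sub hU ((hG j).pd hU i) ((hG i).pd hU j) hx,
      pdM_sub hU ((hG i).mul (hG j)) ((hG j).mul (hG i)) hx,
      pdM_mul hU (hG i) (hG j) hx, pdM_mul hU (hG j) (hG i) hx]
  have r2 : ∑ a, K a x • pdM a (Rm g i j) x =
      ∑ a, K a x • pdM a (fun y => pdM i (Gm g j) y) x -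
      ∑ a, K a x • pdM a (fun y => pdM j (Gm g i) y) x +
      (((∑ a, K a x • pdM a (Gm g i) x) * Gm g j x + Gm g i x * ∑ a, K a x • pdM a (Gm g j) x) -
        ((∑ a, K a x • pdM a (Gm g j) x) * Gm g i x +
          Gm g j x * ∑ a, K a x • pdM a (Gm g i) x)) := by
    simp_rw [r1, smul_add, smul_sub, smul_add, Finset.sum_add_distrib, Finset.sum_sub_distrib,
      Finset.sum_add_distrib, sum_smul_mul, sum_mul_smul]
  have r3 : ∑ a, pderiv i (K a) x • Rm g a j x =
      ∑ a, pderiv i (K a) x • pdM a (Gm g j) x - ∑ a, pderiv i (K a) x • pdM j (Gm g a) x +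
      ((∑ a, pderiv i (K a) x • Gm g a x) * Gm g j x -
        Gm g j x * ∑ a, pderiv i (K a) x • Gm g a x) := by
    simp_rw [Rm_eq, smul_add, smul_sub, Finset.sum_add_distrib, Finset.sum_sub_distrib,
      sum_smul_mul, sum_mul_smul]
  have r4 : ∑ a, pderiv j (K a) x • Rm g i a x =
      ∑ a, pderiv j (K a) x • pdM i (Gm g a) x - ∑ a, pderiv j (K a) x • pdM a (Gm g i) x +
      (Gm g i x * (∑ a, pderiv j (K a) x • Gm g a x) -
        (∑ a, pderiv j (K a) x • Gm g a x) * Gm g i x) := by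
    simp_rw [Rm_eq, smul_add, smul_sub, Finset.sum_add_distrib, Finset.sum_sub_distrib,
      sum_smul_mul, sum_mul_smul]
  rw [r2, r3, r4, Rm_eq]
  generalize (∑ a, K a x • pdM a (fun y => pdM i (Gm g j) y) x) = Dij at *
  generalize (∑ a, K a x • pdM a (fun y => pdM j (Gm g i) y) x) = Dji at *
  generalize (∑ a, K a x • pdM a (Gm g i) x) = Di at *
  generalize (∑ a, K a x • pdM a (Gm g j) x) = Dj at *
  generalize (∑ a, pderiv i (K a) x • pdM a (Gm g j) x) = Wij at *
  generalize (∑ a, pderiv j (K a) x • pdM a (Gm g i) x) = Wji at *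
  generalize (∑ a, pderiv i (K a) x • pdM j (Gm g a) x) = Vij at *
  generalize (∑ a, pderiv j (K a) x • pdM i (Gm g a) x) = Vji at *
  generalize (∑ a, pderiv i (K a) x • Gm g a x) = Zi at *
  generalize (∑ a, pderiv j (K a) x • Gm g a x) = Zj at *
  generalize (∑ a, pderiv j (fun y => pderiv i (K a) y) x • Gm g a x) = Y at *
  generalize pdM i (Gm g j) x = Pij at *
  generalize pdM j (Gm g i) x = Pji at *
  generalize pdM i (Bm K) x = Bi at *
  generalize pdM j (Bm K) x = Bj at *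
  generalize pdM j (fun y => pdM i (Bm K) y) x = Bij at *
  generalize Gm g i x = Gi at *
  generalize Gm g j x = Gj at *
  generalize Bm K x = B at *
  have key : (Dij + Wij + (Y + Vji) + ((Pij * B + Gj * Bi) - (Bi * Gj + B * Pij)) + Bij) -
      (Dji + Wji + (Y + Vij) + ((Pji * B + Gi * Bj) - (Bj * Gi + B * Pji)) + Bij) +
      (Gi * (Dj + Zj + (Gj * B - B * Gj) + Bj) - (Dj + Zj + (Gj * B - B * Gj) + Bj) * Gi) -
      (Gj * (Di + Zi + (Gi * B - B * Gi) + Bi) - (Di + Zi + (Gi * B - B * Gi) + Bi) * Gj) = 0 := by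
    rw [h1, h2, e1, e2]; simp
  rw [← key]
  noncomm_ring

end Crest.Agent.R260.KEnd_361
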