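import Mathlib
import Crest.Prelude.Def_ChartRiemQK
import Crest.Agent.R260.KEnd3_361

/-! Row 260: at a zero of a Killing field the linear part of the field annihilates `∇R`
(as a derivation); if its square is `-1` then `∇R = 0` there.  (helper361) -/

set_option autoImplicit false
open scoped ContDiff Topology
open Crest.GeometryTopology.CoordMetric Crest.GeometryTopology.ChartRiem

noncomputable section

namespace Crest.Agent.R260.KEnd_361

variable {n : ℕ} {U : Set (EuclideanSpace ℝ (Fin n))} {x : EuclideanSpace ℝ (Fin n)}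
  {g : MetricField n} {K : Fin n → EuclideanSpace ℝ (Fin n) → ℝ}

/-- at a zero of `K` the derivation defined by `B = ∂K` kills `∇R` -/
theorem Kill.nabla (hg : IsRiemannianOn g U) (hK : Kill g U K) (hx : x ∈ U)
    (h0 : ∀ a, K a x = 0) (m i j : Fin n) :
    ∑ a, Bm K x a m • Nm g a i j x + ∑ a, Bm K x a i • Nm g m a j x +
      ∑ a, Bm K x a j • Nm g m i a x + (Nm g m i j x * Bm K x - Bm K x * Nm g m i j x) = 0 := by
  have hU := hg.isOpen
  have hB := hK.sm_Bm hg
  have hG := sm_Gm hg
  have hR := sm_Rm hg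
  -- the curvature equation, differentiated
  have hF : ∀ a b, ∑ c, Bm K x c a • Rm g c b x + ∑ c, Bm K x c b • Rm g a c x +
      (Rm g a b x * Bm K x - Bm K x * Rm g a b x) = 0 := by
    intro a b
    have h := hK.riem hg hx a b
    simp only [h0, zero_smul, Finset.sum_const_zero, zero_add] at h
    exact h
  have hE : ∀ a, ∑ c, Bm K x c a • Gm g c x + (Gm g a x * Bm K x - Bm K x * Gm g a x) +
      pdM a (Bm K) x = 0 := by
    intro a
    have h := hK.chr hg hx a
    simp only [h0, zero_smul, Finset.sum_const_zero, zero_add] at h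
    exact h
  have s1 : SmM U (fun y => ∑ a, K a y • pdM a (Rm g i j) y) :=
    SmM.sum fun a _ => SmM.smul (hK.sm a) ((hR i j).pd hU a)
  have s2 : SmM U (fun y => ∑ a, pderiv i (K a) y • Rm g a j y) :=
    SmM.sum fun a _ => SmM.smul ((hK.sm a).pd hU i) (hR a j)
  have s3 : SmM U (fun y => ∑ a, pderiv j (K a) y • Rm g i a y) :=
    SmM.sum fun a _ => SmM.smul ((hK.sm a).pd hU j) (hR i a)
  have s4 : SmM U (fun y => Rm g i j y * Bm K y) := (hR i j).mul hB
  have s5 : SmM U (fun y => Bm K y * Rm g i j y) := hB.mul (hR i j)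
  have hd := pdM_congr hU (X := fun y => ∑ a, K a y • pdM a (Rm g i j) y +
    ∑ a, pderiv i (K a) y • Rm g a j y + ∑ a, pderiv j (K a) y • Rm g i a y +
      (Rm g i j y * Bm K y - Bm K y * Rm g i j y)) (Y := fun _ => 0)
      (fun y hy => hK.riem hg hy i j) hx m
  rw [pdM_const, pdM_add hU ((s1.add s2).add s3) (s4.sub s5) hx,
    pdM_add hU (s1.add s2) s3 hx, pdM_add hU s1 s2 hx, pdM_sub hU s4 s5 hx,
    pdM_mul hU (hR i j) hB hx, pdM_mul hU hB (hR i j) hx, pdM_delta hU hK.sm (hR i j) hx,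
    pdM_lin hU (fun a => (hK.sm a).pd hU i) (fun a => hR a j) hx,
    pdM_lin hU (fun a => (hK.sm a).pd hU j) (fun a => hR i a) hx] at hd
  simp only [h0, zero_smul, Finset.sum_const_zero, zero_add] at hd
  -- the four pieces
  have t1 : ∑ a, Bm K x a m • Nm g a i j x = ∑ a, Bm K x a m • pdM a (Rm g i j) x +
      ((∑ a, Bm K x a m • Gm g a x) * Rm g i j x - Rm g i j x * ∑ a, Bm K x a m • Gm g a x) -
      ∑ p, (∑ a, Bm K x a m • Gm g a x) p i • Rm g p j x -
      ∑ p, (∑ a, Bm K x a m • Gm g a x) p j • Rm g i p x := by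
    simp_rw [Nm_eq, smul_sub, smul_add, smul_sub, Finset.sum_sub_distrib, Finset.sum_add_distrib,
      Finset.sum_sub_distrib, sum_smul_mul, sum_mul_smul]
    congr 1
    · congr 1
      simp_rw [Finset.smul_sum, smul_smul, Matrix.sum_apply, Matrix.smul_apply, smul_eq_mul,
        Finset.sum_smul]
      rw [Finset.sum_comm]
    · simp_rw [Finset.smul_sum, smul_smul, Matrix.sum_apply, Matrix.smul_apply, smul_eq_mul,
        Finset.sum_smul]
      rw [Finset.sum_comm]
  have t2 : ∑ a, Bm K x a i • Nm g m a j x = ∑ a, Bm K x a i • pdM m (Rm g a j) x +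
      (Gm g m x * (∑ a, Bm K x a i • Rm g a j x) - (∑ a, Bm K x a i • Rm g a j x) * Gm g m x) -
      ∑ p, (Gm g m x * Bm K x) p i • Rm g p j x -
      ∑ p, Gm g m x p j • (∑ a, Bm K x a i • Rm g a p x) := by
    simp_rw [Nm_eq, smul_sub, smul_add, smul_sub, Finset.sum_sub_distrib, Finset.sum_add_distrib,
      Finset.sum_sub_distrib, sum_smul_mul, sum_mul_smul]
    congr 1
    · congr 1
      simp_rw [Finset.smul_sum, smul_smul, Matrix.mul_apply, Finset.sum_smul]
      rw [Finset.sum_comm]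
      exact Finset.sum_congr rfl fun p _ => Finset.sum_congr rfl fun a _ => by rw [mul_comm]
    · simp_rw [Finset.smul_sum, smul_smul]
      rw [Finset.sum_comm]
      exact Finset.sum_congr rfl fun p _ => Finset.sum_congr rfl fun a _ => by rw [mul_comm]
  have t3 : ∑ a, Bm K x a j • Nm g m i a x = ∑ a, Bm K x a j • pdM m (Rm g i a) x +
      (Gm g m x * (∑ a, Bm K x a j • Rm g i a x) - (∑ a, Bm K x a j • Rm g i a x) * Gm g m x) -
      ∑ p, Gm g m x p i • (∑ a, Bm K x a j • Rm g p a x) -
      ∑ p, (Gm g m x * Bm K x) p j • Rm g i p x := by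
    simp_rw [Nm_eq, smul_sub, smul_add, smul_sub, Finset.sum_sub_distrib, Finset.sum_add_distrib,
      Finset.sum_sub_distrib, sum_smul_mul, sum_mul_smul]
    congr 1
    · congr 1
      simp_rw [Finset.smul_sum, smul_smul]
      rw [Finset.sum_comm]
      exact Finset.sum_congr rfl fun p _ => Finset.sum_congr rfl fun a _ => by rw [mul_comm]
    · simp_rw [Finset.smul_sum, smul_smul, Matrix.mul_apply, Finset.sum_smul]
      rw [Finset.sum_comm]
      exact Finset.sum_congr rfl fun p _ => Finset.sum_congr rfl fun a _ => by rw [mul_comm]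
  have t4 : Nm g m i j x * Bm K x - Bm K x * Nm g m i j x =
      (pdM m (Rm g i j) x * Bm K x - Bm K x * pdM m (Rm g i j) x) +
      ((Gm g m x * Rm g i j x - Rm g i j x * Gm g m x) * Bm K x -
        Bm K x * (Gm g m x * Rm g i j x - Rm g i j x * Gm g m x)) -
      ∑ p, Gm g m x p i • (Rm g p j x * Bm K x - Bm K x * Rm g p j x) -
      ∑ p, Gm g m x p j • (Rm g i p x * Bm K x - Bm K x * Rm g i p x) := by
    simp_rw [smul_sub, Finset.sum_sub_distrib, sum_smul_mul, sum_mul_smul]
    rw [Nm_eq]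
    noncomm_ring
  -- use the curvature equation inside the sums
  have u1 : ∑ p, Gm g m x p i • (∑ a, Bm K x a j • Rm g p a x) +
      ∑ p, Gm g m x p i • (Rm g p j x * Bm K x - Bm K x * Rm g p j x) =
      - ∑ p, (Bm K x * Gm g m x) p i • Rm g p j x := by
    rw [← Finset.sum_add_distrib]
    have : ∀ p, Gm g m x p i • (∑ a, Bm K x a j • Rm g p a x) +
        Gm g m x p i • (Rm g p j x * Bm K x - Bm K x * Rm g p j x) =
        - (Gm g m x p i • ∑ c, Bm K x c p • Rm g c j x) := by
      intro p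
      rw [← smul_add, ← smul_neg]
      congr 1
      have h := hF p j
      rw [add_assoc] at h
      exact eq_neg_of_add_eq_zero_right h
    simp_rw [this, Finset.sum_neg_distrib, Finset.smul_sum, smul_smul, Matrix.mul_apply,
      Finset.sum_smul]
    rw [Finset.sum_comm]
    congr 1
    exact Finset.sum_congr rfl fun p _ => Finset.sum_congr rfl fun a _ => by rw [mul_comm]
  have u2 : ∑ p, Gm g m x p j • (∑ a, Bm K x a i • Rm g a p x) +
      ∑ p, Gm g m x p j • (Rm g i p x * Bm K x - Bm K x * Rm g i p x) =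
      - ∑ p, (Bm K x * Gm g m x) p j • Rm g i p x := by
    rw [← Finset.sum_add_distrib]
    have : ∀ p, Gm g m x p j • (∑ a, Bm K x a i • Rm g a p x) +
        Gm g m x p j • (Rm g i p x * Bm K x - Bm K x * Rm g i p x) =
        - (Gm g m x p j • ∑ c, Bm K x c p • Rm g i c x) := by
      intro p
      rw [← smul_add, ← smul_neg]
      congr 1
      have h := hF i p
      rw [add_right_comm] at h
      exact eq_neg_of_add_eq_zero_left h
    simp_rw [this, Finset.sum_neg_distrib, Finset.smul_sum, smul_smul, Matrix.mul_apply,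
      Finset.sum_smul]
    rw [Finset.sum_comm]
    congr 1
    exact Finset.sum_congr rfl fun p _ => Finset.sum_congr rfl fun a _ => by rw [mul_comm]
  -- the coefficient identity
  have v : ∀ p q, (∑ a, Bm K x a m • Gm g a x) p q + (Gm g m x * Bm K x) p q -
      (Bm K x * Gm g m x) p q + pderiv m (fun y => pderiv q (K p) y) x = 0 := by
    intro p q
    have h := congrFun (congrFun (hE m) p) q
    simp only [Matrix.add_apply, Matrix.sub_apply, Matrix.zero_apply, pdM_apply, Bm_apply] at h ⊢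
    linarith
  have w1 : ∑ p, (∑ a, Bm K x a m • Gm g a x) p i • Rm g p j x +
      ∑ p, (Gm g m x * Bm K x) p i • Rm g p j x - ∑ p, (Bm K x * Gm g m x) p i • Rm g p j x +
      ∑ p, pderiv m (fun y => pderiv i (K p) y) x • Rm g p j x = 0 := by
    rw [← Finset.sum_add_distrib, ← Finset.sum_sub_distrib, ← Finset.sum_add_distrib]
    refine Finset.sum_eq_zero fun p _ => ?_
    rw [← add_smul, ← sub_smul, ← add_smul, v p i, zero_smul]
  have w2 : ∑ p, (∑ a, Bm K x a m • Gm g a x) p j • Rm g i p x +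
      ∑ p, (Gm g m x * Bm K x) p j • Rm g i p x - ∑ p, (Bm K x * Gm g m x) p j • Rm g i p x +
      ∑ p, pderiv m (fun y => pderiv j (K p) y) x • Rm g i p x = 0 := by
    rw [← Finset.sum_add_distrib, ← Finset.sum_sub_distrib, ← Finset.sum_add_distrib]
    refine Finset.sum_eq_zero fun p _ => ?_
    rw [← add_smul, ← sub_smul, ← add_smul, v p j, zero_smul]
  have hEm := hE m
  have hFij := hF i j
  rw [t1, t2, t3, t4]
  have hd2 : ∑ a, Bm K x a m • pdM a (Rm g i j) x +
      (∑ p, pderiv m (fun y => pderiv i (K p) y) x • Rm g p j x +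
        ∑ a, Bm K x a i • pdM m (Rm g a j) x) +
      (∑ p, pderiv m (fun y => pderiv j (K p) y) x • Rm g i p x +
        ∑ a, Bm K x a j • pdM m (Rm g i a) x) +
      ((pdM m (Rm g i j) x * Bm K x + Rm g i j x * pdM m (Bm K) x) -
        (pdM m (Bm K) x * Rm g i j x + Bm K x * pdM m (Rm g i j) x)) = 0 := hd
  generalize ∑ p, (∑ a, Bm K x a m • Gm g a x) p i • Rm g p j x = A1 at *
  generalize ∑ p, (∑ a, Bm K x a m • Gm g a x) p j • Rm g i p x = A2 at *
  generalize ∑ p, (Gm g m x * Bm K x) p i • Rm g p j x = A3 at *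
  generalize ∑ p, (Gm g m x * Bm K x) p j • Rm g i p x = A4 at *
  generalize ∑ p, (Bm K x * Gm g m x) p i • Rm g p j x = A5 at *
  generalize ∑ p, (Bm K x * Gm g m x) p j • Rm g i p x = A6 at *
  generalize ∑ p, pderiv m (fun y => pderiv i (K p) y) x • Rm g p j x = A7 at *
  generalize ∑ p, pderiv m (fun y => pderiv j (K p) y) x • Rm g i p x = A8 at *
  generalize ∑ p, Gm g m x p i • (∑ a, Bm K x a j • Rm g p a x) = A9 at *
  generalize ∑ p, Gm g m x p j • (∑ a, Bm K x a i • Rm g a p x) = A10 at *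
  generalize ∑ p, Gm g m x p i • (Rm g p j x * Bm K x - Bm K x * Rm g p j x) = A11 at *
  generalize ∑ p, Gm g m x p j • (Rm g i p x * Bm K x - Bm K x * Rm g i p x) = A12 at *
  generalize ∑ a, Bm K x a m • Gm g a x = Z at *
  generalize ∑ a, Bm K x a m • pdM a (Rm g i j) x = C1 at *
  generalize ∑ a, Bm K x a i • pdM m (Rm g a j) x = C2 at *
  generalize ∑ a, Bm K x a j • pdM m (Rm g i a) x = C3 at *
  generalize ∑ a, Bm K x a i • Rm g a j x = Q1 at *
  generalize ∑ a, Bm K x a j • Rm g i a x = Q2 at *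
  generalize pdM m (Bm K) x = Bd at *
  generalize pdM m (Rm g i j) x = Rd at *
  generalize Rm g i j x = R at *
  generalize Gm g m x = Γ at *
  generalize Bm K x = B at *
  have key : (C1 + (A7 + C2) + (A8 + C3) + ((Rd * B + R * Bd) - (Bd * R + B * Rd))) +
      ((Z + (Γ * B - B * Γ) + Bd) * R - R * (Z + (Γ * B - B * Γ) + Bd)) +
      (Γ * (Q1 + Q2 + (R * B - B * R)) - (Q1 + Q2 + (R * B - B * R)) * Γ) -
      (A1 + A3 - A5 + A7) - (A2 + A4 - A6 + A8) - (A9 + A11 - (-A5)) - (A10 + A12 - (-A6)) = 0 := by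
    rw [hd2, hEm, hFij, w1, w2, u1, u2]; simp
  rw [← key]
  noncomm_ring

end Crest.Agent.R260.KEnd_361
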