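import Mathlib
import Crest.Prelude.Def_ChartRiemQK
import Crest.Agent.R260.KEnd4_361

/-! Row 260: parity of (1,4)-tensors, and the local end of the row:
`K` Killing near `x`, `K x = 0`, `(∂K)(x)² = -1` imply `∇R = 0` at `x`.  (helper361) -/

set_option autoImplicit false
open scoped ContDiff Topology
open Crest.GeometryTopology.CoordMetric Crest.GeometryTopology.ChartRiem

noncomputable section

namespace Crest.Agent.R260.KEnd_361

variable {n : ℕ}

/-- five commuting square roots of `-1` have an invertible sum -/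
theorem five_comm {R : Type*} [CommRing R] {a b c d e : R} (ha : a * a = -1)
    (hb : b * b = -1) (hc : c * c = -1) (hd : d * d = -1) (he : e * e = -1) :
    (4 * (a * b * c * d * e) + (a * b * c + a * b * d + a * b * e + a * c * d + a * c * e +
      a * d * e + b * c * d + b * c * e + b * d * e + c * d * e)) * 2 * (a + b + c + d + e) +
      3 * (a + b + c + d + e) * (a + b + c + d + e) = -15 := by
  linear_combination
    (8 * (b * c * d * e) + 2 * (b * c + b * d + b * e + c * d + c * e + d * e) + 3) * ha +
    (8 * (a * c * d * e) + 2 * (a * c + a * d + a * e + c * d + c * e + d * e) + 3) * hb +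
    (8 * (a * b * d * e) + 2 * (a * b + a * d + a * e + b * d + b * e + d * e) + 3) * hc +
    (8 * (a * b * c * e) + 2 * (a * b + a * c + a * e + b * c + b * e + c * e) + 3) * hd +
    (8 * (a * b * c * d) + 2 * (a * b + a * c + a * d + b * c + b * d + c * d) + 3) * he

theorem five_end {V : Type*} [AddCommGroup V] [Module ℝ V] (c : Fin 5 → Module.End ℝ V)
    (hc : ∀ i j, c i * c j = c j * c i) (hs : ∀ i, c i * c i = -1) (v : V)
    (h : c 0 v + c 1 v + c 2 v + c 3 v + c 4 v = 0) : v = 0 := by
  have hcm : IsMulCommutative (Algebra.adjoin ℝ (Set.range c)) :=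
    Algebra.isMulCommutative_adjoin ℝ (by rintro _ ⟨i, rfl⟩ _ ⟨j, rfl⟩; exact hc i j)
  let _ : CommRing (Algebra.adjoin ℝ (Set.range c)) :=
    { (inferInstance : Ring (Algebra.adjoin ℝ (Set.range c))) with
      mul_comm := fun a b => hcm.is_comm.comm a b }
  let d : Fin 5 → Algebra.adjoin ℝ (Set.range c) := fun i =>
    ⟨c i, Algebra.subset_adjoin ⟨i, rfl⟩⟩
  have hd : ∀ i, d i * d i = -1 := fun i => Subtype.ext (hs i)
  have h5 := five_comm (R := Algebra.adjoin ℝ (Set.range c)) (hd 0) (hd 1) (hd 2) (hd 3) (hd 4)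
  set T : Algebra.adjoin ℝ (Set.range c) := d 0 + d 1 + d 2 + d 3 + d 4 with hT
  set P := (4 * (d 0 * d 1 * d 2 * d 3 * d 4) + (d 0 * d 1 * d 2 + d 0 * d 1 * d 3 + d 0 * d 1 * d 4 +
      d 0 * d 2 * d 3 + d 0 * d 2 * d 4 +
      d 0 * d 3 * d 4 + d 1 * d 2 * d 3 + d 1 * d 2 * d 4 + d 1 * d 3 * d 4 + d 2 * d 3 * d 4)) * 2
    with hP
  have e1 : (P + 3 * T) * T + 15 = 0 := by linear_combination h5
  have e2 : (((P + 3 * T) * T + 15 : Algebra.adjoin ℝ (Set.range c)) : Module.End ℝ V) v = 0 := by
    rw [e1]; rfl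
  have e3 : (((P + 3 * T) * T + 15 : Algebra.adjoin ℝ (Set.range c)) : Module.End ℝ V) v =
      ((P + 3 * T : Algebra.adjoin ℝ (Set.range c)) : Module.End ℝ V)
        ((T : Module.End ℝ V) v) + ((15 : ℕ) : Module.End ℝ V) v := rfl
  have e4 : (T : Module.End ℝ V) v = 0 := h
  rw [e3, e4, map_zero, zero_add, Module.End.natCast_apply, ← Nat.cast_smul_eq_nsmul ℝ] at e2
  exact (smul_eq_zero.1 e2).resolve_left (by norm_num)

/-- tensors with five indices -/
abbrev T5 (n : ℕ) : Type := Fin n → Fin n → Fin n → Fin n → Fin n → ℝ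

def op1 (A : Matrix (Fin n) (Fin n) ℝ) : Module.End ℝ (T5 n) where
  toFun T := fun m l i j k => ∑ a, A a m * T a l i j k
  map_add' S T := by
    funext m l i j k
    simp only [Pi.add_apply, mul_add, Finset.sum_add_distrib]
  map_smul' r T := by
    funext m l i j k
    simp only [Pi.smul_apply, smul_eq_mul, RingHom.id_apply, Finset.mul_sum]
    exact Finset.sum_congr rfl fun a _ => by ring

def op2 (A : Matrix (Fin n) (Fin n) ℝ) : Module.End ℝ (T5 n) where
  toFun T := fun m l i j k => ∑ a, A a i * T m l a j k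
  map_add' S T := by
    funext m l i j k
    simp only [Pi.add_apply, mul_add, Finset.sum_add_distrib]
  map_smul' r T := by
    funext m l i j k
    simp only [Pi.smul_apply, smul_eq_mul, RingHom.id_apply, Finset.mul_sum]
    exact Finset.sum_congr rfl fun a _ => by ring

def op3 (A : Matrix (Fin n) (Fin n) ℝ) : Module.End ℝ (T5 n) where
  toFun T := fun m l i j k => ∑ a, A a j * T m l i a k
  map_add' S T := by
    funext m l i j k
    simp only [Pi.add_apply, mul_add, Finset.sum_add_distrib]
  map_smul' r T := by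
    funext m l i j k
    simp only [Pi.smul_apply, smul_eq_mul, RingHom.id_apply, Finset.mul_sum]
    exact Finset.sum_congr rfl fun a _ => by ring

def op4 (A : Matrix (Fin n) (Fin n) ℝ) : Module.End ℝ (T5 n) where
  toFun T := fun m l i j k => ∑ a, A a k * T m l i j a
  map_add' S T := by
    funext m l i j k
    simp only [Pi.add_apply, mul_add, Finset.sum_add_distrib]
  map_smul' r T := by
    funext m l i j k
    simp only [Pi.smul_apply, smul_eq_mul, RingHom.id_apply, Finset.mul_sum]
    exact Finset.sum_congr rfl fun a _ => by ring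

def op5 (A : Matrix (Fin n) (Fin n) ℝ) : Module.End ℝ (T5 n) where
  toFun T := fun m l i j k => ∑ a, - A l a * T m a i j k
  map_add' S T := by
    funext m l i j k
    simp only [Pi.add_apply, mul_add, Finset.sum_add_distrib]
  map_smul' r T := by
    funext m l i j k
    simp only [Pi.smul_apply, smul_eq_mul, RingHom.id_apply, Finset.mul_sum]
    exact Finset.sum_congr rfl fun a _ => by ring

theorem dsum_comm (f g : Fin n → ℝ) (h : Fin n → Fin n → ℝ) :
    ∑ a, f a * ∑ b, g b * h a b = ∑ b, g b * ∑ a, f a * h a b := by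
  simp_rw [Finset.mul_sum]
  rw [Finset.sum_comm]
  exact Finset.sum_congr rfl fun a _ => Finset.sum_congr rfl fun b _ => by ring

theorem dsum_sq {A : Matrix (Fin n) (Fin n) ℝ} (hA : A * A = -1) (q : Fin n) (h : Fin n → ℝ) :
    ∑ a, A a q * ∑ b, A b a * h b = - h q := by
  have hA1 : ∀ p, ∑ a, A p a * A a q = if p = q then -1 else 0 := by
    intro p
    rw [← Matrix.mul_apply, hA, Matrix.neg_apply, Matrix.one_apply]
    split_ifs <;> simp
  calc ∑ a, A a q * ∑ b, A b a * h b = ∑ b, (∑ a, A b a * A a q) * h b := by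
        simp_rw [Finset.mul_sum, Finset.sum_mul]
        rw [Finset.sum_comm]
        exact Finset.sum_congr rfl fun a _ => Finset.sum_congr rfl fun b _ => by ring
    _ = - h q := by simp_rw [hA1]; simp

theorem dsum_sq' {A : Matrix (Fin n) (Fin n) ℝ} (hA : A * A = -1) (q : Fin n) (h : Fin n → ℝ) :
    ∑ a, - A q a * ∑ b, - A a b * h b = - h q := by
  have hA1 : ∀ p, ∑ a, A q a * A a p = if q = p then -1 else 0 := by
    intro p
    rw [← Matrix.mul_apply, hA, Matrix.neg_apply, Matrix.one_apply]
    split_ifs <;> simp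
  calc ∑ a, - A q a * ∑ b, - A a b * h b = ∑ b, (∑ a, A q a * A a b) * h b := by
        simp_rw [Finset.mul_sum, Finset.sum_mul]
        rw [Finset.sum_comm]
        exact Finset.sum_congr rfl fun a _ => Finset.sum_congr rfl fun b _ => by ring
    _ = - h q := by simp_rw [hA1]; simp

/-- parity : a `(1,4)`-tensor killed by the derivation of a complex structure vanishes -/
theorem parity {A : Matrix (Fin n) (Fin n) ℝ} (hA : A * A = -1) (T : T5 n)
    (hT : ∀ m l i j k, ∑ a, A a m * T a l i j k + ∑ a, A a i * T m l a j k +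
      ∑ a, A a j * T m l i a k + (∑ a, T m l i j a * A a k - ∑ a, A l a * T m a i j k) = 0) :
    T = 0 := by
  refine five_end ![op1 A, op2 A, op3 A, op4 A, op5 A] ?_ ?_ T ?_
  · intro p q
    refine LinearMap.ext fun S => ?_
    funext m l i j k
    fin_cases p <;> fin_cases q <;> first | rfl | exact dsum_comm _ _ _
  · intro p
    refine LinearMap.ext fun S => ?_
    funext m l i j k
    fin_cases p
    · exact dsum_sq hA m fun b => S b l i j k
    · exact dsum_sq hA i fun b => S m l b j k
    · exact dsum_sq hA j fun b => S m l i b k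
    · exact dsum_sq hA k fun b => S m l i j b
    · exact dsum_sq' hA l fun b => S m b i j k
  · funext m l i j k
    have h := hT m l i j k
    change ∑ a, A a m * T a l i j k + ∑ a, A a i * T m l a j k + ∑ a, A a j * T m l i a k +
      ∑ a, A a k * T m l i j a + ∑ a, - A l a * T m a i j k = 0
    have h2 : ∑ a, T m l i j a * A a k = ∑ a, A a k * T m l i j a :=
      Finset.sum_congr rfl fun a _ => mul_comm _ _
    have h3 : ∑ a, - A l a * T m a i j k = - ∑ a, A l a * T m a i j k := by
      rw [← Finset.sum_neg_distrib]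
      exact Finset.sum_congr rfl fun a _ => by ring
    rw [h2] at h
    rw [h3]
    linarith

/-- **END of row 260.**  If near `x` there is a Killing field vanishing at `x` whose linear part
at `x` squares to `-1`, then `∇R` vanishes at `x`. -/
theorem kend {U : Set (EuclideanSpace ℝ (Fin n))} {x : EuclideanSpace ℝ (Fin n)}
    {g : MetricField n} {K : Fin n → EuclideanSpace ℝ (Fin n) → ℝ}
    (hg : IsRiemannianOn g U) (hK : Kill g U K) (hx : x ∈ U)
    (h0 : ∀ a, K a x = 0) (hB : Bm K x * Bm K x = -1) (m l i j k : Fin n) :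
    covDerivRiemann g x m l i j k = 0 := by
  have h := parity hB (fun m l i j k => covDerivRiemann g x m l i j k) ?_
  · exact congrFun (congrFun (congrFun (congrFun (congrFun h m) l) i) j) k
  · intro m l i j k
    have h1 := congrFun (congrFun (hK.nabla hg hx h0 m i j) l) k
    simp only [Matrix.add_apply, Matrix.sub_apply, Matrix.sum_apply, Matrix.smul_apply,
      Matrix.mul_apply, Nm_apply, smul_eq_mul, Matrix.zero_apply] at h1
    exact h1

end Crest.Agent.R260.KEnd_361
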