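import Crest.Agent.R260.End2_919
import Crest.Agent.R260.KEnd5_361

/-!
# Row 260 (S0398), END-2PT part 3 (helper919): `∇R = 0`

`end2pt`: with the quaternion-Kähler data `Dat g U J c lam` (`lam ≠ 0`) a two-point tensor
`TwoPt g U J c G` forces `covDerivRiemann g x = 0` at every `x ∈ U`.
-/

set_option autoImplicit false
open scoped ContDiff Topology
open Crest.GeometryTopology.CoordMetric Crest.GeometryTopology.ChartRiem
open Crest.Agent.R260.QKk_838 Crest.Agent.R260.QKm_838

namespace Crest.Agent.R260.End_919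

variable {n : ℕ} {g : MetricField n} {U : Set (EuclideanSpace ℝ (Fin n))}
  {J : Fin 3 → EuclideanSpace ℝ (Fin n) → Matrix (Fin n) (Fin n) ℝ}
  {c : EuclideanSpace ℝ (Fin n) → Fin n → Fin 3 → Fin 3 → ℝ} {lam : ℝ}
  {G : Fin 3 → Fin 3 → EuclideanSpace ℝ (Fin n) → EuclideanSpace ℝ (Fin n) → ℝ}

/-- **END-2PT.** -/
theorem end2pt (h : Dat g U J c lam) (hl : lam ≠ 0) (hG : TwoPt g U J c G) :
    ∀ x ∈ U, ∀ m l i j k : Fin n, covDerivRiemann g x m l i j k = 0 := by
  intro x hx m l i j k
  have hU := h.riem.isOpen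
  obtain ⟨K, hKs, hKk, hK0, -, hK2⟩ := end2pt_killing h hG hx
  have hKd : ∀ a, ∀ y ∈ U, DifferentiableAt ℝ (fun z => K z a) y := fun a y hy =>
    dAt hU (hKs a) hy
  have hpd : ∀ (a : Fin n) (j : Fin n), ∀ y ∈ U, pderiv j (fun z => (2 / lam) * K z a) y
      = (2 / lam) * pderiv j (fun z => K z a) y := by
    intro a j y hy
    rw [QKk_838.pd_mul (differentiableAt_const _) (hKd a y hy)]
    unfold pderiv; simp
  refine KEnd_361.kend (K := fun a y => (2 / lam) * K y a) h.riem ⟨fun a => ?_, ?_⟩ hx ?_ ?_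
    m l i j k
  · exact contDiffOn_const.mul (hKs a)
  · intro y hy i j
    have e := hKk y hy i j
    have e2 : ∑ a, ((2 / lam) * K y a * pderiv a (fun z => g z i j) y
        + g y a j * ((2 / lam) * pderiv i (fun z => K z a) y)
        + g y i a * ((2 / lam) * pderiv j (fun z => K z a) y))
        = (2 / lam) * ∑ a, (K y a * pderiv a (fun z => g z i j) y
        + g y a j * pderiv i (fun z => K z a) y + g y i a * pderiv j (fun z => K z a) y) := by
      rw [Finset.mul_sum]
      exact Finset.sum_congr rfl fun a _ => by ring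
    rw [e, mul_zero] at e2
    simpa only [hpd _ _ y hy] using e2
  · intro a
    simp [hK0 a]
  · have e : KEnd_361.Bm (fun a y => (2 / lam) * K y a) x
        = (2 / lam) • (Matrix.of fun l j => pderiv j (fun y => K y l) x) := by
      ext a j
      simp only [KEnd_361.Bm, Matrix.of_apply, Matrix.smul_apply, smul_eq_mul]
      exact hpd a j x hx
    rw [e, Matrix.smul_mul, Matrix.mul_smul, hK2, smul_smul, smul_smul]
    have : 2 / lam * (2 / lam) * -(lam / 2) ^ 2 = -1 := by field_simp
    rw [this]; simp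

end Crest.Agent.R260.End_919
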