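import Crest.Agent.R260.QKm_838

/-!
# Row 260 (S0398), END-2PT (helper919): the frozen input

`TwoPt g U J c G`: the two-point tensor `G a b x y` (index `a` at `x`, index `b` at `y`),
smooth on `U × U`, satisfying the twistor equation in each variable (`t1` in `x`, `t2` in `y`,
same shape as `QKm_838.Tw`) and equal to `δ_ab` on the diagonal.
-/

set_option autoImplicit false
open scoped ContDiff Topology
open Crest.GeometryTopology.CoordMetric Crest.GeometryTopology.ChartRiem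

namespace Crest.Agent.R260.End_919

variable {n : ℕ}

/-- **Input of END-2PT.** -/
structure TwoPt (g : MetricField n) (U : Set (EuclideanSpace ℝ (Fin n)))
    (J : Fin 3 → EuclideanSpace ℝ (Fin n) → Matrix (Fin n) (Fin n) ℝ)
    (c : EuclideanSpace ℝ (Fin n) → Fin n → Fin 3 → Fin 3 → ℝ)
    (G : Fin 3 → Fin 3 → EuclideanSpace ℝ (Fin n) → EuclideanSpace ℝ (Fin n) → ℝ) : Prop where
  smG : ∀ a b, ContDiffOn ℝ ∞ (fun z : EuclideanSpace ℝ (Fin n) × EuclideanSpace ℝ (Fin n) =>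
    G a b z.1 z.2) (U ×ˢ U)
  t1 : ∀ x ∈ U, ∀ y ∈ U, ∀ b, ∃ K : Fin n → ℝ, ∀ i a,
    pderiv i (fun x' => G a b x' y) x + ∑ d, G d b x y * c x i d a
      = ∑ l, ∑ p, g x i l * J a x l p * K p
  t2 : ∀ x ∈ U, ∀ y ∈ U, ∀ a, ∃ K : Fin n → ℝ, ∀ i b,
    pderiv i (fun y' => G a b x y') y + ∑ d, G a d x y * c y i d b
      = ∑ l, ∑ p, g y i l * J b y l p * K p
  diag : ∀ x ∈ U, ∀ a b, G a b x x = if a = b then 1 else 0

theorem TwoPt.swap {g : MetricField n} {U : Set (EuclideanSpace ℝ (Fin n))}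
    {J : Fin 3 → EuclideanSpace ℝ (Fin n) → Matrix (Fin n) (Fin n) ℝ}
    {c : EuclideanSpace ℝ (Fin n) → Fin n → Fin 3 → Fin 3 → ℝ}
    {G : Fin 3 → Fin 3 → EuclideanSpace ℝ (Fin n) → EuclideanSpace ℝ (Fin n) → ℝ}
    (h : TwoPt g U J c G) : TwoPt g U J c (fun a b x y => G b a y x) where
  smG a b := (h.smG b a).comp (contDiff_snd.prodMk contDiff_fst).contDiffOn
    (fun z hz => ⟨hz.2, hz.1⟩)
  t1 x hx y hy b := h.t2 y hy x hx b
  t2 x hx y hy a := h.t1 y hy x hx a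
  diag x hx a b := by rw [h.diag x hx b a]; simp only [eq_comm]

theorem TwoPt.mono {g : MetricField n} {U V : Set (EuclideanSpace ℝ (Fin n))}
    {J : Fin 3 → EuclideanSpace ℝ (Fin n) → Matrix (Fin n) (Fin n) ℝ}
    {c : EuclideanSpace ℝ (Fin n) → Fin n → Fin 3 → Fin 3 → ℝ}
    {G : Fin 3 → Fin 3 → EuclideanSpace ℝ (Fin n) → EuclideanSpace ℝ (Fin n) → ℝ}
    (h : TwoPt g U J c G) (hV : V ⊆ U) : TwoPt g V J c G where
  smG a b := (h.smG a b).mono (Set.prod_mono hV hV)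
  t1 x hx y hy b := h.t1 x (hV hx) y (hV hy) b
  t2 x hx y hy a := h.t2 x (hV hx) y (hV hy) a
  diag x hx a b := h.diag x (hV hx) a b

end Crest.Agent.R260.End_919
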