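import Mathlib

/-!
# Row 260, helper740: choice of an open set on which a family of prime ideals has prime
intersection (plan of record #6327 (I)).

`exists_prime_open`: `Z x` prime ideals of a Noetherian ring, `{x | p ∈ Z x}` closed for every `p`.
Every non-empty open `U` contains a non-empty open `U'` such that `⨅ x ∈ U', Z x` is prime and does
not change when `U'` is replaced by a smaller non-empty open set.
-/

set_option autoImplicit false
set_option linter.unusedSectionVars false

namespace Crest.Agent.R260.FamU_740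

open Set

variable {R : Type*} [CommRing R] {X : Type*} [TopologicalSpace X]

/-- intersection of the ideals of the points of `U` -/
def II (Z : X → Ideal R) (U : Set X) : Ideal R := ⨅ x ∈ U, Z x

theorem mem_II {Z : X → Ideal R} {U : Set X} {p : R} : p ∈ II Z U ↔ ∀ x ∈ U, p ∈ Z x := by
  simp [II]

theorem II_mono {Z : X → Ideal R} {U V : Set X} (h : V ⊆ U) : II Z U ≤ II Z V := by
  intro p hp
  rw [mem_II] at hp ⊢
  exact fun x hx => hp x (h hx)

/-- **choice of the open set** -/
theorem exists_prime_open [IsNoetherianRing R] (Z : X → Ideal R) (hZ : ∀ x, (Z x).IsPrime)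
    (hcl : ∀ p : R, IsClosed {x | p ∈ Z x}) {U : Set X} (hU : IsOpen U) (hne : U.Nonempty) :
    ∃ U' ⊆ U, IsOpen U' ∧ U'.Nonempty ∧ (II Z U').IsPrime ∧
      ∀ V ⊆ U', IsOpen V → V.Nonempty → II Z V = II Z U' := by
  classical
  let S : Set (Ideal R) := {I | ∃ V ⊆ U, IsOpen V ∧ V.Nonempty ∧ II Z V = I}
  have hS : S.Nonempty := ⟨II Z U, U, subset_rfl, hU, hne, rfl⟩
  obtain ⟨I, hIS, hmax⟩ := set_has_maximal_iff_noetherian.2 ‹IsNoetherianRing R› S hS
  obtain ⟨U', hU', ho, hn, rfl⟩ := hIS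
  have hst : ∀ V ⊆ U', IsOpen V → V.Nonempty → II Z V = II Z U' := by
    intro V hV hVo hVn
    have h1 : II Z V ∈ S := ⟨V, hV.trans hU', hVo, hVn, rfl⟩
    have h2 : II Z U' ≤ II Z V := II_mono hV
    by_contra hne'
    exact hmax _ h1 (lt_of_le_of_ne h2 (Ne.symm hne'))
  refine ⟨U', hU', ho, hn, ⟨?_, ?_⟩, hst⟩
  · obtain ⟨x, hx⟩ := hn
    intro h
    have h1 : (1 : R) ∈ II Z U' := by rw [h]; trivial
    exact (hZ x).ne_top ((Ideal.eq_top_iff_one _).2 (mem_II.1 h1 x hx))
  · intro p q hpq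
    by_cases hp : ∀ x ∈ U', p ∈ Z x
    · exact Or.inl (mem_II.2 hp)
    · push Not at hp
      obtain ⟨x, hx, hpx⟩ := hp
      refine Or.inr ?_
      have hVo : IsOpen (U' ∩ {x | p ∈ Z x}ᶜ) := ho.inter (hcl p).isOpen_compl
      have h3 := hst (U' ∩ {x | p ∈ Z x}ᶜ) inter_subset_left hVo ⟨x, hx, hpx⟩
      rw [← h3, mem_II]
      intro y hy
      rcases (hZ y).mem_or_mem (mem_II.1 hpq y hy.1) with h | h
      · exact absurd h hy.2
      · exact h

end Crest.Agent.R260.FamU_740
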