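import Mathlib

/-!
Row 260 (S0398), AG-FINAL (A): **PHI-POLY**.

A function `φ` on a family of finite type (fibre variables `β`) over an irreducible base (base
variables `α`, prime ideal `q`) which is algebraic over the function field of the base at every
field valued point over the generic point is, over a non-empty open set of the base, a root of ONE
polynomial with simple roots; over the generic point all the roots of that polynomial are values
of `φ`.
-/

namespace Crest.Agent.R260.Fin1_600

open Polynomial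

universe u v

section FieldCase

variable {F : Type u} [Field F] [CharZero F] {A : Type v} [CommRing A] [Algebra F A]
  [Algebra.FiniteType F A]

/-- the case of a base which is a point. -/
theorem field_case (φ : A)
    (halg : ∀ p : Ideal A, p.IsPrime → IsAlgebraic F (Ideal.Quotient.mk p φ)) :
    ∃ P : F[X], P.Separable ∧ P.Monic ∧ IsNilpotent (aeval φ P) ∧
      ∀ (K : Type u) [Field K] [Algebra F K] [IsAlgClosed K] (t : K), aeval t P = 0 →
        ∃ g : A →ₐ[F] K, g φ = t := by
  classical
  have hN : IsNoetherianRing A := Algebra.FiniteType.isNoetherianRing F A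
  have hfin : (minimalPrimes A).Finite := minimalPrimes.finite_of_isNoetherianRing A
  let m : Ideal A → F[X] := fun p => minpoly F (Ideal.Quotient.mk p φ)
  let s : Finset F[X] := hfin.toFinset.image m
  have hs : ∀ f ∈ s, ∃ p ∈ minimalPrimes A, m p = f := by
    intro f hf
    obtain ⟨p, hp, rfl⟩ := Finset.mem_image.1 hf
    exact ⟨p, hfin.mem_toFinset.1 hp, rfl⟩
  have hprime : ∀ p ∈ minimalPrimes A, p.IsPrime := fun p hp => hp.1.1
  have hint : ∀ p ∈ minimalPrimes A, IsIntegral F (Ideal.Quotient.mk p φ) := fun p hp =>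
    (halg p (hprime p hp)).isIntegral
  have hmon : ∀ f ∈ s, f.Monic := by
    intro f hf
    obtain ⟨p, hp, rfl⟩ := hs f hf
    exact minpoly.monic (hint p hp)
  have hirr : ∀ f ∈ s, Irreducible f := by
    intro f hf
    obtain ⟨p, hp, rfl⟩ := hs f hf
    have := hprime p hp
    exact minpoly.irreducible (hint p hp)
  refine ⟨∏ f ∈ s, f, ?_, monic_prod_of_monic _ _ hmon, ?_, ?_⟩
  · refine separable_prod' ?_ fun f hf => (hirr f hf).separable
    intro f hf g hg hfg
    refine (hirr f hf).coprime_iff_not_dvd.2 fun hd => hfg ?_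
    exact eq_of_monic_of_associated (hmon f hf) (hmon g hg)
      ((hirr f hf).associated_of_dvd (hirr g hg) hd)
  · rw [← mem_nilradical, nilradical, ← Ideal.sInf_minimalPrimes, Submodule.mem_sInf]
    intro p hp
    have hp' : p ∈ minimalPrimes A := hp
    rw [← Ideal.Quotient.eq_zero_iff_mem]
    have h1 : Ideal.Quotient.mk p (aeval φ (∏ f ∈ s, f)) =
        aeval (Ideal.Quotient.mk p φ) (∏ f ∈ s, f) := by
      have := (aeval_algHom_apply (Ideal.Quotient.mkₐ F p) φ (∏ f ∈ s, f))
      exact this.symm
    rw [h1, map_prod]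
    refine Finset.prod_eq_zero (i := m p) ?_ (minpoly.aeval _ _)
    exact Finset.mem_image.2 ⟨p, hfin.mem_toFinset.2 hp', rfl⟩
  · intro K _ _ _ t ht
    rw [map_prod] at ht
    obtain ⟨f, hf, hft⟩ := Finset.prod_eq_zero_iff.1 ht
    obtain ⟨p, hp, rfl⟩ := hs f hf
    have := hprime p hp
    obtain ⟨M, hM⟩ := Ideal.exists_maximal (A ⧸ p)
    let E := (A ⧸ p) ⧸ M
    let _ : Field E := Ideal.Quotient.field M
    have hft' : Algebra.FiniteType F E := inferInstance
    have hfinE : Module.Finite F E := finite_of_finite_type_of_isJacobsonRing F E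
    let x : E := Ideal.Quotient.mk M (Ideal.Quotient.mk p φ)
    have hx : aeval x (m p) = 0 := by
      have h1 : aeval x (m p) = Ideal.Quotient.mk M (aeval (Ideal.Quotient.mk p φ) (m p)) :=
        (aeval_algHom_apply (Ideal.Quotient.mkₐ F M) (Ideal.Quotient.mk p φ) (m p))
      rw [h1, minpoly.aeval, map_zero]
    have hmx : m p = minpoly F x :=
      minpoly.eq_of_irreducible_of_monic (hirr _ hf) hx (hmon _ hf)
    rw [hmx] at hft
    obtain ⟨g, hg⟩ := IntermediateField.exists_algHom_of_splits_of_aeval (F := F) (E := E)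
      (K := K) (fun s => ⟨Algebra.IsIntegral.isIntegral s, IsAlgClosed.splits _⟩) hft
    refine ⟨(g.comp (Ideal.Quotient.mkₐ F M)).comp (Ideal.Quotient.mkₐ F p), hg⟩

end FieldCase

section Rel

variable {k : Type u} [Field k] {α β : Type}

/-- the coordinate ring of the base -/
abbrev Rb (q : Ideal (MvPolynomial α k)) : Type u := MvPolynomial α k ⧸ q

/-- polynomials on the family as polynomials in the fibre variables over the base ring -/
noncomputable def io (q : Ideal (MvPolynomial α k)) :
    MvPolynomial (α ⊕ β) k →ₐ[k] MvPolynomial β (Rb q) :=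
  MvPolynomial.aeval (Sum.elim (fun a => MvPolynomial.C (Ideal.Quotient.mk q (MvPolynomial.X a)))
    MvPolynomial.X)

/-- evaluation at a point of the base -/
noncomputable def th (q : Ideal (MvPolynomial α k)) {K : Type*} [CommRing K] [Algebra k K]
    (x : α → K) (hx : ∀ p ∈ q, MvPolynomial.aeval x p = 0) : Rb q →ₐ[k] K :=
  Ideal.Quotient.liftₐ q (MvPolynomial.aeval x) hx

theorem th_mk (q : Ideal (MvPolynomial α k)) {K : Type*} [CommRing K] [Algebra k K]
    (x : α → K) (hx : ∀ p ∈ q, MvPolynomial.aeval x p = 0) (p : MvPolynomial α k) :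
    th q x hx (Ideal.Quotient.mk q p) = MvPolynomial.aeval x p := rfl

theorem eval_io (q : Ideal (MvPolynomial α k)) {K : Type*} [CommRing K] [Algebra k K]
    (x : α → K) (hx : ∀ p ∈ q, MvPolynomial.aeval x p = 0) (y : β → K) (p : MvPolynomial (α ⊕ β) k) :
    MvPolynomial.eval₂ (th q x hx : Rb q →+* K) y (io q p) = MvPolynomial.aeval (Sum.elim x y) p := by
  induction p using MvPolynomial.induction_on with
  | C a =>
    rw [← MvPolynomial.algebraMap_eq, AlgHom.commutes, AlgHom.commutes,
      IsScalarTower.algebraMap_apply k (Rb q) (MvPolynomial β (Rb q)),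
      MvPolynomial.algebraMap_eq, MvPolynomial.eval₂_C]
    exact (th q x hx).commutes a
  | add p r hp hr => rw [map_add, MvPolynomial.eval₂_add, map_add, hp, hr]
  | mul_X p n hp =>
    rw [map_mul, MvPolynomial.eval₂_mul, map_mul, hp]
    congr 1
    unfold io
    rw [MvPolynomial.aeval_X, MvPolynomial.aeval_X]
    rcases n with a | b
    · rw [Sum.elim_inl, Sum.elim_inl, MvPolynomial.eval₂_C]
      change th q x hx (Ideal.Quotient.mk q (MvPolynomial.X a)) = x a
      rw [th_mk, MvPolynomial.aeval_X]
    · rw [Sum.elim_inr, Sum.elim_inr, MvPolynomial.eval₂_X]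

/-- from algebraic over the field generated by the point to algebraic over the function field. -/
theorem alg_of_adjoin {F E : Type*} [Field F] [Field E] [Algebra k F] [Algebra F E] [Algebra k E]
    [IsScalarTower k F E] (x : α → F) (t : E)
    (h : IsAlgebraic (IntermediateField.adjoin k (Set.range fun a => algebraMap F E (x a))) t) :
    IsAlgebraic F t := by
  obtain ⟨g, hg0, hg⟩ := h
  have hle : IntermediateField.adjoin k (Set.range fun a => algebraMap F E (x a)) ≤
      (IsScalarTower.toAlgHom k F E).fieldRange := by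
    rw [IntermediateField.adjoin_le_iff]
    rintro _ ⟨a, rfl⟩
    exact ⟨x a, rfl⟩
  have hl : g.map (algebraMap (IntermediateField.adjoin k
      (Set.range fun a => algebraMap F E (x a))) E) ∈ Polynomial.lifts (algebraMap F E) := by
    rw [Polynomial.lifts_iff_coeff_lifts]
    intro n
    rw [Polynomial.coeff_map]
    obtain ⟨z, hz⟩ := hle (g.coeff n).2
    exact ⟨z, hz⟩
  obtain ⟨g', hg'⟩ := hl
  rw [Polynomial.coe_mapRingHom] at hg'
  refine ⟨g', ?_, ?_⟩
  · rintro rfl
    rw [Polynomial.map_zero] at hg'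
    exact hg0 ((Polynomial.map_eq_zero _).1 hg'.symm)
  · rw [Polynomial.aeval_def, ← Polynomial.eval_map, hg', Polynomial.eval_map,
      ← Polynomial.aeval_def, hg]

attribute [local instance] MvPolynomial.algebraMvPolynomial

/-- the function field of the base -/
abbrev Fr (q : Ideal (MvPolynomial α k)) [q.IsPrime] : Type u := FractionRing (Rb q)

/-- the ideal of the family over the generic point -/
noncomputable abbrev aI (q : Ideal (MvPolynomial α k)) [q.IsPrime]
    (Sys : Set (MvPolynomial (α ⊕ β) k)) : Ideal (MvPolynomial β (Fr q)) :=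
  (Ideal.span (io q '' Sys)).map (MvPolynomial.map (algebraMap (Rb q) (Fr q)))

/-- the coordinate ring of the family over the generic point -/
def Aq (q : Ideal (MvPolynomial α k)) [q.IsPrime]
    (Sys : Set (MvPolynomial (α ⊕ β) k)) : Type u := MvPolynomial β (Fr q) ⧸ aI q Sys

noncomputable instance (q : Ideal (MvPolynomial α k)) [q.IsPrime]
    (Sys : Set (MvPolynomial (α ⊕ β) k)) : CommRing (Aq q Sys) :=
  inferInstanceAs (CommRing (MvPolynomial β (Fr q) ⧸ aI q Sys))

noncomputable instance (q : Ideal (MvPolynomial α k)) [q.IsPrime]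
    (Sys : Set (MvPolynomial (α ⊕ β) k)) : Algebra (Fr q) (Aq q Sys) :=
  inferInstanceAs (Algebra (Fr q) (MvPolynomial β (Fr q) ⧸ aI q Sys))

/-- the quotient map -/
noncomputable def mkA (q : Ideal (MvPolynomial α k)) [q.IsPrime]
    (Sys : Set (MvPolynomial (α ⊕ β) k)) : MvPolynomial β (Fr q) →ₐ[Fr q] Aq q Sys :=
  Ideal.Quotient.mkₐ (Fr q) (aI q Sys)

theorem mkA_surj (q : Ideal (MvPolynomial α k)) [q.IsPrime]
    (Sys : Set (MvPolynomial (α ⊕ β) k)) : Function.Surjective (mkA q Sys) :=
  Ideal.Quotient.mkₐ_surjective _ _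

theorem mkA_zero (q : Ideal (MvPolynomial α k)) [q.IsPrime]
    (Sys : Set (MvPolynomial (α ⊕ β) k)) (f : MvPolynomial β (Fr q)) :
    mkA q Sys f = 0 ↔ f ∈ aI q Sys :=
  Ideal.Quotient.eq_zero_iff_mem

instance [Finite β] (q : Ideal (MvPolynomial α k)) [q.IsPrime]
    (Sys : Set (MvPolynomial (α ⊕ β) k)) : Algebra.FiniteType (Fr q) (Aq q Sys) :=
  Algebra.FiniteType.of_surjective (mkA q Sys) (mkA_surj q Sys)

/-- **PHI-POLY**. -/
theorem phi_poly [CharZero k] [Finite β] (q : Ideal (MvPolynomial α k)) [hq : q.IsPrime]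
    (Sys : Set (MvPolynomial (α ⊕ β) k)) (φ : MvPolynomial (α ⊕ β) k)
    (halg : ∀ (K : Type u) [Field K] [Algebra k K] [IsAlgClosed K] (x : α → K) (y : β → K),
      (∀ p, MvPolynomial.aeval x p = 0 ↔ p ∈ q) → (∀ s ∈ Sys, MvPolynomial.aeval (Sum.elim x y) s = 0) →
      IsAlgebraic (IntermediateField.adjoin k (Set.range x)) (MvPolynomial.aeval (Sum.elim x y) φ)) :
    ∃ (P : Polynomial (MvPolynomial α k)) (Dn : MvPolynomial α k), Dn ∉ q ∧
      (∀ (K : Type u) [Field K] [Algebra k K] (x : α → K) (y : β → K),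
        (∀ p ∈ q, MvPolynomial.aeval x p = 0) → (∀ s ∈ Sys, MvPolynomial.aeval (Sum.elim x y) s = 0) → MvPolynomial.aeval x Dn ≠ 0 →
        (P.map (MvPolynomial.aeval (R := k) x).toRingHom).IsRoot (MvPolynomial.aeval (Sum.elim x y) φ)) ∧
      (∀ (K : Type u) [Field K] [Algebra k K] (x : α → K), (∀ p ∈ q, MvPolynomial.aeval x p = 0) →
        MvPolynomial.aeval x Dn ≠ 0 → ∀ t : K, (P.map (MvPolynomial.aeval (R := k) x).toRingHom).IsRoot t →
        ¬ (derivative (P.map (MvPolynomial.aeval (R := k) x).toRingHom)).IsRoot t) ∧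
      (∀ (K : Type u) [Field K] [Algebra k K] [IsAlgClosed K] (x : α → K),
        (∀ p, MvPolynomial.aeval x p = 0 ↔ p ∈ q) → ∀ t : K, (P.map (MvPolynomial.aeval (R := k) x).toRingHom).IsRoot t →
        ∃ y : β → K, (∀ s ∈ Sys, MvPolynomial.aeval (Sum.elim x y) s = 0) ∧ MvPolynomial.aeval (Sum.elim x y) φ = t) := by
  classical
  have hkF : Function.Injective (algebraMap k (Fr q)) := (algebraMap k (Fr q)).injective
  have hcF : CharZero (Fr q) := charZero_of_injective_algebraMap hkF
  have hRF : Function.Injective (algebraMap (Rb q) (Fr q)) := IsFractionRing.injective (Rb q) (Fr q)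
  let φ0 : MvPolynomial β (Rb q) := io q φ
  let mR : MvPolynomial β (Rb q) →+* MvPolynomial β (Fr q) := MvPolynomial.map (algebraMap (Rb q) (Fr q))
  have hmRinj : Function.Injective mR := MvPolynomial.map_injective _ hRF
  let a0 : Ideal (MvPolynomial β (Rb q)) := Ideal.span (io q '' Sys)
  let φA : Aq q Sys := mkA q Sys (mR φ0)
  -- points with values in `(Fr q)`-algebras
  have hpt : ∀ {K : Type u} [CommRing K] [Algebra (Fr q) K] (g : (Aq q Sys) →ₐ[(Fr q)] K) [Algebra k K]
      [IsScalarTower k (Fr q) K] (f : MvPolynomial (α ⊕ β) k),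
      MvPolynomial.aeval (Sum.elim (fun a => algebraMap (Fr q) K (algebraMap (Rb q) (Fr q) (Ideal.Quotient.mk q
        (MvPolynomial.X a)))) (fun b => g (mkA q Sys (MvPolynomial.X b)))) f =
      g (mkA q Sys (mR (io q f))) := by
    intro K _ _ g _ _ f
    induction f using MvPolynomial.induction_on with
    | C c =>
      rw [← MvPolynomial.algebraMap_eq, AlgHom.commutes, AlgHom.commutes,
        IsScalarTower.algebraMap_apply k (Rb q) (MvPolynomial β (Rb q)), MvPolynomial.algebraMap_eq]
      change _ = g (mkA q Sys (MvPolynomial.map (algebraMap (Rb q) (Fr q)) (MvPolynomial.C _)))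
      rw [MvPolynomial.map_C]
      have h1 : mkA q Sys (MvPolynomial.C (algebraMap (Rb q) (Fr q) (algebraMap k (Rb q) c))) =
          algebraMap (Fr q) (Aq q Sys) (algebraMap k (Fr q) c) := rfl
      rw [h1, AlgHom.commutes, ← IsScalarTower.algebraMap_apply]
    | add p r hp hr => simp only [map_add, hp, hr]
    | mul_X p n hp =>
      rw [map_mul, map_mul, map_mul, map_mul, map_mul, hp]
      congr 1
      unfold io
      rw [MvPolynomial.aeval_X, MvPolynomial.aeval_X]
      rcases n with a' | b
      · rw [Sum.elim_inl, Sum.elim_inl]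
        change _ = g (mkA q Sys (MvPolynomial.map (algebraMap (Rb q) (Fr q)) (MvPolynomial.C _)))
        rw [MvPolynomial.map_C]
        exact (g.commutes _).symm
      · rw [Sum.elim_inr, Sum.elim_inr]
        change _ = g (mkA q Sys (MvPolynomial.map (algebraMap (Rb q) (Fr q)) (MvPolynomial.X _)))
        rw [MvPolynomial.map_X]
  have hgen : ∀ {K : Type u} [Field K] [Algebra (Fr q) K] [Algebra k K]
      [IsScalarTower k (Fr q) K] (p : MvPolynomial α k),
      MvPolynomial.aeval (fun a => algebraMap (Fr q) K (algebraMap (Rb q) (Fr q) (Ideal.Quotient.mk q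
        (MvPolynomial.X a)))) p = algebraMap (Fr q) K (algebraMap (Rb q) (Fr q) (Ideal.Quotient.mk q p)) := by
    intro K _ _ _ _ p
    have h1 : (MvPolynomial.aeval (fun a => algebraMap (Fr q) K (algebraMap (Rb q) (Fr q) (Ideal.Quotient.mk q
        (MvPolynomial.X a)))) : MvPolynomial α k →ₐ[k] K) =
        ((IsScalarTower.toAlgHom k (Fr q) K).comp ((IsScalarTower.toAlgHom k (Rb q) (Fr q)).comp
          (Ideal.Quotient.mkₐ k q))) := by
      apply MvPolynomial.algHom_ext
      intro i
      rw [MvPolynomial.aeval_X]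
      rfl
    rw [h1]
    rfl
  have halg' : ∀ p : Ideal (Aq q Sys), p.IsPrime → IsAlgebraic (Fr q) (Ideal.Quotient.mk p φA) := by
    intro p hp
    let B := (Aq q Sys) ⧸ p
    let E := AlgebraicClosure (FractionRing B)
    have hBE : Function.Injective (algebraMap B E) := by
      rw [IsScalarTower.algebraMap_eq B (FractionRing B) E]
      exact (algebraMap (FractionRing B) E).injective.comp (IsFractionRing.injective B _)
    let g : (Aq q Sys) →ₐ[(Fr q)] E := (IsScalarTower.toAlgHom (Fr q) B E).comp (Ideal.Quotient.mkₐ (Fr q) p)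
    let _ : Algebra k E := ((algebraMap (Fr q) E).comp (algebraMap k (Fr q))).toAlgebra
    have : IsScalarTower k (Fr q) E := IsScalarTower.of_algebraMap_eq fun _ => rfl
    have h1 := halg E (fun a => algebraMap (Fr q) E (algebraMap (Rb q) (Fr q) (Ideal.Quotient.mk q
        (MvPolynomial.X a)))) (fun b => g (mkA q Sys (MvPolynomial.X b))) (by
          intro r
          rw [hgen, map_eq_zero_iff _ (algebraMap (Fr q) E).injective, map_eq_zero_iff _ hRF,
            Ideal.Quotient.eq_zero_iff_mem]) (by
          intro s hs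
          rw [hpt g s]
          have : mR (io q s) ∈ (aI q Sys) := Ideal.mem_map_of_mem _ (Ideal.subset_span ⟨s, hs, rfl⟩)
          rw [(mkA_zero q Sys _).2 this, map_zero])
    rw [hpt g φ] at h1
    have h2 : IsAlgebraic (Fr q) (g φA) := alg_of_adjoin _ _ h1
    exact (isAlgebraic_algHom_iff (IsScalarTower.toAlgHom (Fr q) B E) hBE).1 h2
  obtain ⟨PF, hsep, hmon, hnil, hlift⟩ := field_case (F := (Fr q)) (A := (Aq q Sys)) φA halg'
  -- clear denominators
  obtain ⟨b, hb, hP0⟩ := IsLocalization.integerNormalization_spec (nonZeroDivisors (Rb q)) PF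
  set P0 : (Rb q)[X] := IsLocalization.integerNormalization (nonZeroDivisors (Rb q)) PF with hP0def
  have hbne : algebraMap (Rb q) (Fr q) b ≠ 0 := by
    rw [Ne, map_eq_zero_iff _ hRF]; exact nonZeroDivisors.ne_zero hb
  -- the nilpotent relation
  obtain ⟨N, hN⟩ := hnil
  have hz : mR ((P0.eval₂ MvPolynomial.C φ0) ^ N) ∈ aI q Sys := by
    rw [← mkA_zero, map_pow, map_pow]
    have h1 : mkA q Sys (mR (P0.eval₂ MvPolynomial.C φ0)) =
        algebraMap (Fr q) (Aq q Sys) (algebraMap (Rb q) (Fr q) b) * Polynomial.aeval φA PF := by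
      have h2 : mR (P0.eval₂ MvPolynomial.C φ0) =
          (P0.map (algebraMap (Rb q) (Fr q))).eval₂ MvPolynomial.C (mR φ0) := by
        rw [Polynomial.hom_eval₂, Polynomial.eval₂_map]
        congr 1
        exact RingHom.ext fun r => MvPolynomial.map_C _ _
      rw [h2, hP0]
      have h3 : b • PF = Polynomial.C (algebraMap (Rb q) (Fr q) b) * PF := by
        rw [← Polynomial.smul_eq_C_mul]
        exact (algebraMap_smul (Fr q) b PF).symm
      have h4 := Polynomial.hom_eval₂ PF (MvPolynomial.C) ((mkA q Sys :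
        MvPolynomial β (Fr q) →ₐ[Fr q] Aq q Sys) : MvPolynomial β (Fr q) →+* Aq q Sys) (mR φ0)
      have h5 : ((mkA q Sys : MvPolynomial β (Fr q) →ₐ[Fr q] Aq q Sys) :
          MvPolynomial β (Fr q) →+* Aq q Sys).comp MvPolynomial.C = algebraMap (Fr q) (Aq q Sys) :=
        RingHom.ext fun c => (mkA q Sys).commutes c
      rw [h5] at h4
      rw [h3, Polynomial.eval₂_mul, Polynomial.eval₂_C, map_mul]
      exact congrArg₂ (· * ·) ((mkA q Sys).commutes _) h4
    rw [h1, mul_pow, hN, mul_zero]
  obtain ⟨⟨⟨z, hz1⟩, ⟨d', hd'⟩⟩, hzd⟩ := (IsLocalization.mem_map_algebraMap_iff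
    ((nonZeroDivisors (Rb q)).map MvPolynomial.C) (MvPolynomial β (Fr q))).1 hz
  obtain ⟨d, hd, rfl⟩ := hd'
  have hzd' : (P0.eval₂ MvPolynomial.C φ0) ^ N * MvPolynomial.C d = z := by
    apply hmRinj
    rw [map_mul]
    exact hzd
  -- separability
  obtain ⟨u0, v0, huv⟩ := hsep
  obtain ⟨bu, hbu, hu⟩ := IsLocalization.integerNormalization_spec (nonZeroDivisors (Rb q)) u0
  set U : (Rb q)[X] := IsLocalization.integerNormalization (nonZeroDivisors (Rb q)) u0
  obtain ⟨bv, hbv, hv⟩ := IsLocalization.integerNormalization_spec (nonZeroDivisors (Rb q)) v0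
  set W : (Rb q)[X] := IsLocalization.integerNormalization (nonZeroDivisors (Rb q)) v0
  have hsm : ∀ (r : (Rb q)) (f : (Fr q)[X]), r • f = Polynomial.C (algebraMap (Rb q) (Fr q) r) * f := by
    intro r f
    rw [← Polynomial.smul_eq_C_mul]
    exact (algebraMap_smul (Fr q) r f).symm
  have hUW : Polynomial.C bv * U * P0 + Polynomial.C bu * W * derivative P0 =
      Polynomial.C (bu * bv * b) := by
    apply Polynomial.map_injective _ hRF
    rw [hsm] at hu hv hP0
    rw [Polynomial.map_add, Polynomial.map_mul, Polynomial.map_mul, Polynomial.map_mul,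
      Polynomial.map_mul, Polynomial.map_C, Polynomial.map_C, Polynomial.map_C, hu, hv, hP0,
      ← Polynomial.derivative_map, hP0, Polynomial.derivative_C_mul]
    simp only [map_mul]
    linear_combination Polynomial.C (algebraMap (Rb q) (Fr q) bu) * Polynomial.C (algebraMap (Rb q) (Fr q) bv) *
      Polynomial.C (algebraMap (Rb q) (Fr q) b) * huv
  -- lifts to polynomials over the base
  obtain ⟨P, hP⟩ : ∃ P : Polynomial (MvPolynomial α k), P.map (Ideal.Quotient.mk q) = P0 :=
    Polynomial.map_surjective _ Ideal.Quotient.mk_surjective P0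
  obtain ⟨Dn, hDn⟩ := Ideal.Quotient.mk_surjective (I := q) (d * (bu * bv * b))
  have hPx : ∀ {K : Type u} [CommRing K] [Algebra k K] (x : α → K)
      (hx : ∀ p ∈ q, MvPolynomial.aeval x p = 0), P.map (MvPolynomial.aeval (R := k) x).toRingHom =
      P0.map (th q x hx : (Rb q) →+* K) := by
    intro K _ _ x hx
    rw [← hP, Polynomial.map_map]
    rfl
  have hne0 : ∀ {r : (Rb q)}, r ∈ nonZeroDivisors (Rb q) → r ≠ 0 := fun h => nonZeroDivisors.ne_zero h
  refine ⟨P, Dn, ?_, ?_, ?_, ?_⟩
  · rw [← Ideal.Quotient.eq_zero_iff_mem, hDn]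
    exact mul_ne_zero (hne0 hd) (mul_ne_zero (mul_ne_zero (hne0 hbu) (hne0 hbv)) (hne0 hb))
  · intro K _ _ x y hx hs hD
    have hD' : th q x hx d ≠ 0 := by
      intro h0
      apply hD
      have : MvPolynomial.aeval x Dn = th q x hx (Ideal.Quotient.mk q Dn) := rfl
      rw [this, hDn, map_mul, h0, zero_mul]
    let e : MvPolynomial β (Rb q) →+* K := MvPolynomial.eval₂Hom (th q x hx : (Rb q) →+* K) y
    have he : ∀ f, e (io q f) = MvPolynomial.aeval (Sum.elim x y) f := fun f => eval_io q x hx y f
    have hea : ∀ f ∈ a0, e f = 0 := by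
      intro f hf
      have hle : a0 ≤ RingHom.ker e := by
        rw [Ideal.span_le]
        rintro _ ⟨s, hs', rfl⟩
        change e (io q s) = 0
        rw [he, hs s hs']
      exact hle hf
    have h1 := hea z hz1
    rw [← hzd', map_mul, map_pow] at h1
    have h2 : e (MvPolynomial.C d) = th q x hx d := by
      simp [e]
    rw [h2] at h1
    have h4 : e (P0.eval₂ MvPolynomial.C φ0) = 0 := by
      rcases mul_eq_zero.1 h1 with h | h
      · exact eq_zero_of_pow_eq_zero h
      · exact absurd h hD'
    rw [Polynomial.IsRoot.def, hPx x hx, Polynomial.eval_map, ← he φ]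
    rw [Polynomial.hom_eval₂] at h4
    have h5 : e.comp MvPolynomial.C = (th q x hx : (Rb q) →+* K) :=
      RingHom.ext fun r => by simp [e]
    rw [h5] at h4
    exact h4
  · intro K _ _ x hx hD t ht ht'
    have hD' : th q x hx (bu * bv * b) ≠ 0 := by
      intro h0
      apply hD
      have : MvPolynomial.aeval x Dn = th q x hx (Ideal.Quotient.mk q Dn) := rfl
      rw [this, hDn, map_mul, h0, mul_zero]
    rw [hPx x hx] at ht ht'
    rw [Polynomial.derivative_map] at ht'
    apply hD'
    have h1 := congrArg (fun f => (f.map (th q x hx : (Rb q) →+* K)).eval t) hUW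
    simp only [Polynomial.map_add, Polynomial.map_mul, Polynomial.map_C, Polynomial.eval_add,
      Polynomial.eval_mul, Polynomial.eval_C] at h1
    rw [Polynomial.IsRoot.def] at ht ht'
    rw [ht, ht', mul_zero, mul_zero, zero_add] at h1
    exact h1.symm
  · intro K _ _ _ x hx t ht
    have hx' : ∀ p ∈ q, MvPolynomial.aeval x p = 0 := fun p hp => (hx p).2 hp
    have hinj : Function.Injective (th q x hx' : (Rb q) →+* K) := by
      rw [injective_iff_map_eq_zero]
      intro r hr
      obtain ⟨p, rfl⟩ := Ideal.Quotient.mk_surjective r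
      exact Ideal.Quotient.eq_zero_iff_mem.2 ((hx p).1 hr)
    let j : (Fr q) →+* K := IsFractionRing.lift hinj
    have hj : ∀ r : (Rb q), j (algebraMap (Rb q) (Fr q) r) = th q x hx' r := fun r =>
      IsFractionRing.lift_algebraMap hinj r
    let _ : Algebra (Fr q) K := j.toAlgebra
    have hst : IsScalarTower k (Fr q) K := IsScalarTower.of_algebraMap_eq fun c => by
      change algebraMap k K c = j (algebraMap (Rb q) (Fr q) (algebraMap k (Rb q) c))
      rw [hj]
      exact ((th q x hx').commutes c).symm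
    have ht' : Polynomial.aeval t PF = 0 := by
      rw [hPx x hx', Polynomial.IsRoot.def, Polynomial.eval_map] at ht
      have h1 : (th q x hx' : (Rb q) →+* K) = j.comp (algebraMap (Rb q) (Fr q)) :=
        RingHom.ext fun r => (hj r).symm
      rw [h1, ← Polynomial.eval₂_map, hP0, hsm, Polynomial.eval₂_mul, Polynomial.eval₂_C] at ht
      rcases mul_eq_zero.1 ht with h | h
      · exact absurd ((map_eq_zero j).1 h) hbne
      · exact h
    obtain ⟨g, hg⟩ := hlift K t ht'
    have hxe : x = fun a => algebraMap (Fr q) K (algebraMap (Rb q) (Fr q) (Ideal.Quotient.mk q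
        (MvPolynomial.X a))) := by
      funext i
      change x i = j _
      rw [hj]
      change x i = MvPolynomial.aeval x (MvPolynomial.X i)
      rw [MvPolynomial.aeval_X]
    refine ⟨fun b => g (mkA q Sys (MvPolynomial.X b)), ?_, ?_⟩
    · intro s hs
      rw [hxe, hpt g s]
      have : mR (io q s) ∈ (aI q Sys) := Ideal.mem_map_of_mem _ (Ideal.subset_span ⟨s, hs, rfl⟩)
      rw [(mkA_zero q Sys _).2 this, map_zero]
    · rw [hxe, hpt g φ]
      exact hg

end Rel

end Crest.Agent.R260.Fin1_600
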