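import Mathlib

/-!
Row 260 (S0398), AG-FINAL (B): **SPEC-QUAD**, "splits into polynomials of degree `≤ N` along a
curve" is a closed condition.

`O` is a valuation ring of the field `L`, `ρ : O → κ` a local homomorphism to a field. If
`Q ∈ O[u][T]` becomes `c(u) ∏ (T - q_i(u))` over `L` with `q_i` polynomials of degree `≤ N`, and the
reduction of `Q` is not zero, then every root `f` of the reduction in a domain containing `κ[u]` is
a polynomial of degree `≤ N`.
-/

namespace Crest.Agent.R260.Fin2_600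

open Polynomial

universe u v w

variable {L : Type u} [Field L] (O : ValuationSubring L) {κ : Type v} [Field κ]

/-- scaling of a finite family to a primitive one. -/
theorem exists_scale {ι : Type*} [Finite ι] (x : ι → L) (hx : ∃ i, x i ≠ 0) :
    ∃ s : L, s ≠ 0 ∧ (∀ i, s * x i ∈ O) ∧ ∃ i, ∃ h : s * x i ∈ O, IsUnit (⟨s * x i, h⟩ : O) := by
  classical
  obtain ⟨i0, hi0⟩ := hx
  have : Nonempty ι := ⟨i0⟩
  obtain ⟨i, hi⟩ := Finite.exists_max (fun i => O.valuation (x i))
  have hne : x i ≠ 0 := by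
    intro h
    have := hi i0
    rw [h, map_zero] at this
    exact hi0 ((map_eq_zero O.valuation).1 (le_antisymm this zero_le))
  refine ⟨(x i)⁻¹, inv_ne_zero hne, ?_, i, ?_, ?_⟩
  · intro j
    rw [← O.valuation_le_one_iff, map_mul, map_inv₀]
    have h0 : O.valuation (x i) ≠ 0 := (map_ne_zero O.valuation).2 hne
    calc (O.valuation (x i))⁻¹ * O.valuation (x j)
        ≤ (O.valuation (x i))⁻¹ * O.valuation (x i) := by gcongr; exact hi j
      _ = 1 := inv_mul_cancel₀ h0
  · rw [inv_mul_cancel₀ hne]; exact O.one_mem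
  · have : (⟨(x i)⁻¹ * x i, by rw [inv_mul_cancel₀ hne]; exact O.one_mem⟩ : O) = 1 := by
      ext; exact inv_mul_cancel₀ hne
    rw [this]; exact isUnit_one

/-- the polynomial over `O` with prescribed coefficients. -/
theorem exists_lift_poly (N : ℕ) (p : L[X]) (hp : p.natDegree ≤ N) (h : ∀ i ≤ N, p.coeff i ∈ O) :
    ∃ p' : O[X], p'.map (algebraMap O L) = p ∧ p'.natDegree ≤ N := by
  classical
  refine ⟨∑ i ∈ (Finset.range (N + 1)).attach,
    C (⟨p.coeff i.1, h i.1 (Nat.lt_succ_iff.1 (Finset.mem_range.1 i.2))⟩ : O) * X ^ i.1, ?_, ?_⟩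
  · rw [Polynomial.map_sum]
    conv_rhs => rw [p.as_sum_range' (N + 1) (Nat.lt_succ_of_le hp), ← Finset.sum_attach]
    refine Finset.sum_congr rfl fun i _ => ?_
    rw [Polynomial.map_mul, Polynomial.map_pow, Polynomial.map_X, Polynomial.map_C,
      ← C_mul_X_pow_eq_monomial]
    rfl
  · refine Polynomial.natDegree_sum_le_of_forall_le _ _ fun i _ => ?_
    exact (natDegree_C_mul_X_pow_le _ _).trans (Nat.lt_succ_iff.1 (Finset.mem_range.1 i.2))

/-- a linear factor `T - q(u)` made primitive. -/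
theorem lin_prim (ρ : O →+* κ) [IsLocalHom ρ] (N : ℕ) (q : L[X]) (hq : q.natDegree ≤ N) :
    ∃ (s : L) (s' : O) (q' : O[X]), s ≠ 0 ∧ (s' : L) = s ∧
      q'.map (algebraMap O L) = C s * q ∧ q'.natDegree ≤ N ∧ (ρ s' ≠ 0 ∨ q'.map ρ ≠ 0) := by
  classical
  obtain ⟨s, hs, hmem, i, hi, hu⟩ := exists_scale O
    (fun i : Option (Fin (N + 1)) => i.elim 1 (fun j => q.coeff j)) ⟨none, one_ne_zero⟩
  have hs1 : s ∈ O := by simpa using hmem none
  obtain ⟨q', hq', hdeg⟩ := exists_lift_poly O N (C s * q)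
    ((natDegree_C_mul_le _ _).trans hq) (fun j hj => by
      rw [coeff_C_mul]; simpa using hmem (some ⟨j, Nat.lt_succ_of_le hj⟩))
  refine ⟨s, ⟨s, hs1⟩, q', hs, rfl, hq', hdeg, ?_⟩
  cases i with
  | none =>
    left
    have h1 : (⟨s, hs1⟩ : O) = ⟨s * (1 : L), hi⟩ := Subtype.ext (mul_one s).symm
    rw [h1]
    exact (hu.map ρ).ne_zero
  | some j =>
    right
    intro h0
    have h1 : (q'.coeff j : O) = ⟨s * q.coeff j, hi⟩ := by
      apply Subtype.ext
      have := congrArg (fun p => p.coeff (j : ℕ)) hq'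
      simp only [coeff_map, coeff_C_mul] at this
      exact this
    have h2 := congrArg (fun p => p.coeff (j : ℕ)) h0
    simp only [coeff_map, coeff_zero] at h2
    rw [h1] at h2
    exact (hu.map ρ).ne_zero h2

/-- a non-zero polynomial made primitive. -/
theorem poly_prim (ρ : O →+* κ) [IsLocalHom ρ] (c : L[X]) (hc : c ≠ 0) :
    ∃ (s : L) (c' : O[X]), s ≠ 0 ∧ c'.map (algebraMap O L) = C s * c ∧ c'.map ρ ≠ 0 := by
  classical
  have hne : ∃ i : Fin (c.natDegree + 1), (fun i : Fin (c.natDegree + 1) => c.coeff i) i ≠ 0 :=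
    ⟨Fin.last _, by simpa using hc⟩
  obtain ⟨s, hs, hmem, i, hi, hu⟩ := exists_scale O _ hne
  obtain ⟨q', hq', hdeg⟩ := exists_lift_poly O c.natDegree (C s * c)
    (natDegree_C_mul_le _ _) (fun j hj => by
      rw [coeff_C_mul]; simpa using hmem ⟨j, Nat.lt_succ_of_le hj⟩)
  refine ⟨s, q', hs, hq', ?_⟩
  intro h0
  have h1 : (q'.coeff i : O) = ⟨s * c.coeff i, hi⟩ := by
    apply Subtype.ext
    have := congrArg (fun p => p.coeff (i : ℕ)) hq'
    simp only [coeff_map, coeff_C_mul] at this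
    exact this
  have h2 := congrArg (fun p => p.coeff (i : ℕ)) h0
  simp only [coeff_map, coeff_zero] at h2
  rw [h1] at h2
  exact (hu.map ρ).ne_zero h2

/-- **SPEC-QUAD** (factor form): the reduction of a product of linear factors is a product of
linear factors. -/
theorem spec_factor (ρ : O →+* κ) [IsLocalHom ρ] (N : ℕ) {ι : Type*} (s : Finset ι)
    (q : ι → L[X]) (hq : ∀ i ∈ s, (q i).natDegree ≤ N) (c : L[X]) (Q : O[X][X])
    (hQ : Q.map (mapRingHom (algebraMap O L)) = C c * ∏ i ∈ s, (X - C (q i)))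
    (hne : Q.map (mapRingHom ρ) ≠ 0) :
    ∃ (c' : κ[X]) (σ : ι → κ) (q' : ι → κ[X]), c' ≠ 0 ∧ (∀ i ∈ s, (q' i).natDegree ≤ N) ∧
      (∀ i ∈ s, σ i ≠ 0 ∨ q' i ≠ 0) ∧
      Q.map (mapRingHom ρ) = C c' * ∏ i ∈ s, (C (C (σ i)) * X - C (q' i)) := by
  classical
  have hinj : Function.Injective (algebraMap O L) := FaithfulSMul.algebraMap_injective O L
  have hinj1 : Function.Injective (mapRingHom (algebraMap O L)) := by
    rw [coe_mapRingHom]; exact map_injective _ hinj
  have hc : c ≠ 0 := by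
    rintro rfl
    rw [C_0, zero_mul] at hQ
    have : Q = 0 := (Polynomial.map_eq_zero_iff hinj1).1 hQ
    rw [this, Polynomial.map_zero] at hne
    exact hne rfl
  obtain ⟨sc, c1, hsc, hc1, hc1ne⟩ := poly_prim O ρ c hc
  have hch : ∀ i : ι, ∃ (t : L) (s' : O) (q' : O[X]), i ∈ s → (t ≠ 0 ∧ (s' : L) = t ∧
      q'.map (algebraMap O L) = C t * (q i) ∧ q'.natDegree ≤ N ∧ (ρ s' ≠ 0 ∨ q'.map ρ ≠ 0)) := by
    intro i
    by_cases hi : i ∈ s
    · obtain ⟨t, s', q', h⟩ := lin_prim O ρ N (q i) (hq i hi)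
      exact ⟨t, s', q', fun _ => h⟩
    · exact ⟨0, 0, 0, fun h => absurd h hi⟩
  choose t s' q' ht using hch
  set P : O[X][X] := C c1 * ∏ i ∈ s, (C (C (s' i)) * X - C (q' i)) with hP
  have hmapP : P.map (mapRingHom (algebraMap O L)) =
      C (C (sc * ∏ i ∈ s, t i)) * Q.map (mapRingHom (algebraMap O L)) := by
    rw [hQ, hP, Polynomial.map_mul, Polynomial.map_C, coe_mapRingHom, hc1, Polynomial.map_prod,
      C_mul, C_mul, C_mul, map_prod, map_prod]
    have : ∀ i ∈ s, Polynomial.map (mapRingHom (algebraMap O L)) (C (C (s' i)) * X - C (q' i)) =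
        C (C (t i)) * (X - C (q i)) := by
      intro i hi
      obtain ⟨_, h1, h2, _, _⟩ := ht i hi
      rw [Polynomial.map_sub, Polynomial.map_mul, Polynomial.map_X, Polynomial.map_C,
        Polynomial.map_C, coe_mapRingHom, h2, Polynomial.map_C, mul_sub]
      rw [show algebraMap O L (s' i) = t i from h1, C_mul]
    rw [Finset.prod_congr rfl this, Finset.prod_mul_distrib]
    ring
  have hPκ : P.map (mapRingHom ρ) = C (c1.map ρ) *
      ∏ i ∈ s, (C (C (ρ (s' i))) * X - C ((q' i).map ρ)) := by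
    rw [hP, Polynomial.map_mul, Polynomial.map_C, coe_mapRingHom, Polynomial.map_prod]
    congr 1
    refine Finset.prod_congr rfl fun i _ => ?_
    rw [Polynomial.map_sub, Polynomial.map_mul, Polynomial.map_X, Polynomial.map_C,
      Polynomial.map_C, coe_mapRingHom, Polynomial.map_C]
  have hlin : ∀ i ∈ s, (C (C (ρ (s' i))) * X - C ((q' i).map ρ) : κ[X][X]) ≠ 0 := by
    intro i hi h0
    obtain ⟨_, _, _, _, h⟩ := ht i hi
    rcases h with h | h
    · have := congrArg (fun p => p.coeff 1) h0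
      simp only [coeff_sub, coeff_C_mul, coeff_X_one, mul_one, coeff_zero] at this
      rw [coeff_C_of_ne_zero one_ne_zero, sub_zero] at this
      exact h (C_eq_zero.1 this)
    · have := congrArg (fun p => p.coeff 0) h0
      simp only [coeff_sub, coeff_C_mul, coeff_X_zero, mul_zero, coeff_zero, coeff_C_zero,
        zero_sub, neg_eq_zero] at this
      exact h this
  have hPκne : P.map (mapRingHom ρ) ≠ 0 := by
    rw [hPκ]
    refine mul_ne_zero (C_ne_zero.2 hc1ne) (Finset.prod_ne_zero_iff.2 hlin)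
  set σ0 : L := sc * ∏ i ∈ s, t i with hσ0
  have hσ0ne : σ0 ≠ 0 := mul_ne_zero hsc (Finset.prod_ne_zero_iff.2 fun i hi => (ht i hi).1)
  -- a unit coefficient of `P`
  obtain ⟨i, j, hij⟩ : ∃ i j, ρ ((P.coeff i).coeff j) ≠ 0 := by
    by_contra hcon
    push Not at hcon
    apply hPκne
    ext i j
    rw [coeff_map, coe_mapRingHom, coeff_map, hcon i j]
    simp
  have hunit : IsUnit ((P.coeff i).coeff j) :=
    isUnit_of_map_unit ρ _ (isUnit_iff_ne_zero.2 hij)
  have hcoef : algebraMap O L ((P.coeff i).coeff j) =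
      σ0 * algebraMap O L ((Q.coeff i).coeff j) := by
    have := congrArg (fun p => (p.coeff i).coeff j) hmapP
    simpa only [coeff_map, coe_mapRingHom, coeff_C_mul] using this
  obtain ⟨w, hw⟩ := hunit
  set δ : O := (Q.coeff i).coeff j * ((w⁻¹ : Oˣ) : O) with hδ
  have hδσ : algebraMap O L δ * σ0 = 1 := by
    have h1 : ((w : O) * ((w⁻¹ : Oˣ) : O)) = 1 := by simp
    have h2 : algebraMap O L (w : O) * algebraMap O L ((w⁻¹ : Oˣ) : O) = 1 := by
      rw [← map_mul, h1, map_one]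
    rw [hδ, map_mul]
    rw [← hw] at hcoef
    calc algebraMap O L ((Q.coeff i).coeff j) * algebraMap O L ((w⁻¹ : Oˣ) : O) * σ0
        = (σ0 * algebraMap O L ((Q.coeff i).coeff j)) * algebraMap O L ((w⁻¹ : Oˣ) : O) := by ring
      _ = 1 := by rw [← hcoef, h2]
  have hQP : Q = C (C δ) * P := by
    apply map_injective _ hinj1
    rw [Polynomial.map_mul, hmapP, Polynomial.map_C, coe_mapRingHom, Polynomial.map_C,
      ← mul_assoc, ← C_mul, ← C_mul, hδσ, C_1, C_1, one_mul]
  have hQκ : Q.map (mapRingHom ρ) = C (C (ρ δ)) * P.map (mapRingHom ρ) := by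
    conv_lhs => rw [hQP]
    rw [Polynomial.map_mul, Polynomial.map_C, coe_mapRingHom, Polynomial.map_C]
  have hδne : ρ δ ≠ 0 := by
    intro h0
    rw [h0, C_0, C_0, zero_mul] at hQκ
    exact hne hQκ
  refine ⟨C (ρ δ) * c1.map ρ, fun i => ρ (s' i), fun i => (q' i).map ρ,
    mul_ne_zero (C_ne_zero.2 hδne) hc1ne, ?_, ?_, ?_⟩
  · intro i hi
    exact natDegree_map_le.trans (ht i hi).2.2.2.1
  · intro i hi
    exact (ht i hi).2.2.2.2
  · rw [hQκ, hPκ, C_mul, mul_assoc]

/-- **SPEC-QUAD** (root form). -/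
theorem spec_root (ρ : O →+* κ) [IsLocalHom ρ] (N : ℕ) {ι : Type*} (s : Finset ι)
    (q : ι → L[X]) (hq : ∀ i ∈ s, (q i).natDegree ≤ N) (c : L[X]) (Q : O[X][X])
    (hQ : Q.map (mapRingHom (algebraMap O L)) = C c * ∏ i ∈ s, (X - C (q i)))
    (hne : Q.map (mapRingHom ρ) ≠ 0)
    {B : Type w} [CommRing B] [IsDomain B] (ψ : κ[X] →+* B) (hψ : Function.Injective ψ)
    (f : B) (hf : (Q.map (mapRingHom ρ)).eval₂ ψ f = 0) :
    ∃ p : κ[X], p.natDegree ≤ N ∧ f = ψ p := by
  classical
  obtain ⟨c', σ, q', hc', hdeg, hor, heq⟩ := spec_factor O ρ N s q hq c Q hQ hne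
  rw [heq, eval₂_mul, eval₂_C, eval₂_finsetProd, mul_eq_zero] at hf
  rcases hf with hf | hf
  · exact absurd ((map_eq_zero_iff ψ hψ).1 hf) hc'
  · obtain ⟨i, hi, hi0⟩ := Finset.prod_eq_zero_iff.1 hf
    rw [eval₂_sub, eval₂_mul, eval₂_C, eval₂_X, eval₂_C, sub_eq_zero] at hi0
    have hσ : σ i ≠ 0 := by
      intro h0
      rw [h0, C_0, map_zero, zero_mul] at hi0
      rcases hor i hi with h | h
      · exact h h0
      · exact h ((map_eq_zero_iff ψ hψ).1 hi0.symm)
    refine ⟨C (σ i)⁻¹ * q' i, (natDegree_C_mul_le _ _).trans (hdeg i hi), ?_⟩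
    rw [map_mul, ← hi0, ← mul_assoc, ← map_mul, ← C_mul, inv_mul_cancel₀ hσ, C_1, map_one, one_mul]

/-- a polynomial all of whose roots (in an algebraically closed field) are polynomials of degree
`≤ N` is a product of linear factors. -/
theorem split_of_roots {K : Type w} [Field K] [IsAlgClosed K] (j : L[X] →+* K)
    (hj : Function.Injective j) (N : ℕ) (Q : L[X][X])
    (h : ∀ r : K, Q.eval₂ j r = 0 → ∃ q : L[X], q.natDegree ≤ N ∧ r = j q) :
    ∃ (n : ℕ) (q : Fin n → L[X]) (c : L[X]), (∀ i, (q i).natDegree ≤ N) ∧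
      Q = C c * ∏ i, (X - C (q i)) := by
  classical
  by_cases hQ0 : Q = 0
  · exact ⟨0, Fin.elim0, 0, fun i => i.elim0, by simp [hQ0]⟩
  have hQj : Q.map j ≠ 0 := (Polynomial.map_ne_zero_iff hj).2 hQ0
  have hsp := (IsAlgClosed.splits (Q.map j)).eq_prod_roots
  have hl : ∀ l : List K, (∀ r ∈ l, r ∈ (Q.map j).roots) →
      ∃ l' : List L[X], (∀ q ∈ l', q.natDegree ≤ N) ∧ l'.map j = l := by
    intro l
    induction l with
    | nil => intro _; exact ⟨[], by simp, by simp⟩
    | cons a l ih =>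
      intro hl
      obtain ⟨l', h1, h2⟩ := ih fun r hr => hl r (List.mem_cons_of_mem _ hr)
      have ha := hl a List.mem_cons_self
      rw [mem_roots hQj, IsRoot.def, eval_map] at ha
      obtain ⟨q, hq, hqa⟩ := h a ha
      refine ⟨q :: l', ?_, ?_⟩
      · intro p hp
        rcases List.mem_cons.1 hp with rfl | hp
        · exact hq
        · exact h1 p hp
      · simp [h2, hqa]
  obtain ⟨l', hl1, hl2⟩ := hl (Q.map j).roots.toList fun r hr => Multiset.mem_toList.1 hr
  refine ⟨l'.length, fun i => l'.get i, Q.leadingCoeff, fun i => hl1 _ (List.get_mem _ _), ?_⟩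
  apply Polynomial.map_injective j hj
  conv_lhs => rw [hsp]
  rw [Polynomial.map_mul, Polynomial.map_C, Polynomial.map_prod, leadingCoeff_map_of_injective hj]
  congr 1
  have h3 : (Q.map j).roots = ((l'.map j : List K) : Multiset K) := by
    rw [hl2, Multiset.coe_toList]
  rw [h3, Multiset.map_coe, Multiset.prod_coe, List.map_map]
  have h4 : ∏ i : Fin l'.length, Polynomial.map j (X - C (l'.get i)) =
      (l'.map fun q => Polynomial.map j (X - C q)).prod := by
    rw [← List.prod_ofFn]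
    congr 1
    apply List.ext_get
    · simp
    · intro n h1 h2
      simp
  rw [h4]
  congr 1
  apply List.map_congr_left
  intro q _
  simp

/-- **SPEC-QUAD** (all roots form): if all roots of `Q` over `L` (in one algebraically closed field
containing `L[u]`) are polynomials of degree `≤ N`, so are all roots of the reduction. -/
theorem spec_roots (ρ : O →+* κ) [IsLocalHom ρ] (N : ℕ) (Q : O[X][X])
    {K : Type*} [Field K] [IsAlgClosed K] (j : L[X] →+* K) (hj : Function.Injective j)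
    (h : ∀ r : K, (Q.map (mapRingHom (algebraMap O L))).eval₂ j r = 0 →
      ∃ q : L[X], q.natDegree ≤ N ∧ r = j q)
    (hne : Q.map (mapRingHom ρ) ≠ 0)
    {B : Type w} [CommRing B] [IsDomain B] (ψ : κ[X] →+* B) (hψ : Function.Injective ψ)
    (f : B) (hf : (Q.map (mapRingHom ρ)).eval₂ ψ f = 0) :
    ∃ p : κ[X], p.natDegree ≤ N ∧ f = ψ p := by
  obtain ⟨n, q, c, hq, hQ⟩ := split_of_roots j hj N _ h
  exact spec_root O ρ N Finset.univ q (fun i _ => hq i) c Q hQ hne ψ hψ f hf

end Crest.Agent.R260.Fin2_600
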