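import Crest.Agent.R260.Fin2_600

/-!
Row 260 (S0398), AG-FINAL (B'): the analytic form of SPEC-QUAD over `ℂ`.
-/

namespace Crest.Agent.R260.Fin3_600

open Polynomial Crest.Agent.R260.Fin2_600

universe u

/-- a product of analytic functions vanishing on a connected open set has a vanishing factor. -/
theorem prod_zero {V : Set ℂ} (hV : IsPreconnected V) (hne : V.Nonempty) {ι : Type*} (s : Finset ι)
    (g : ι → ℂ → ℂ) (hg : ∀ i ∈ s, AnalyticOnNhd ℂ (g i) V)
    (h : ∀ u ∈ V, ∏ i ∈ s, g i u = 0) : ∃ i ∈ s, ∀ u ∈ V, g i u = 0 := by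
  classical
  induction s using Finset.induction_on with
  | empty =>
    obtain ⟨u, hu⟩ := hne
    simpa using h u hu
  | insert a s ha ih =>
    have h1 := AnalyticOnNhd.eq_zero_or_eq_zero_of_mul_eq_zero
      (f := g a) (g := fun u => ∏ i ∈ s, g i u)
      (hg a (Finset.mem_insert_self _ _))
      (by
        have := Finset.analyticOnNhd_fun_prod s (f := g) (s := V)
          (fun i hi => hg i (Finset.mem_insert_of_mem hi))
        exact this)
      (fun u hu => by
        have := h u hu
        rwa [Finset.prod_insert ha] at this) hV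
    rcases h1 with h1 | h1
    · exact ⟨a, Finset.mem_insert_self _ _, h1⟩
    · obtain ⟨i, hi, hi'⟩ := ih (fun i hi => hg i (Finset.mem_insert_of_mem hi)) h1
      exact ⟨i, Finset.mem_insert_of_mem hi, hi'⟩

/-- **SPEC-QUAD, analytic form**: `O` a valuation ring of `L`, residue map `ρ : O → ℂ`,
`Q ∈ O[u][T]` all of whose roots over `L` are polynomials in `u` of degree `≤ N`. Then every
holomorphic root of the reduction on a connected open set is a polynomial of degree `≤ N`. -/
theorem spec_an {L : Type u} [Field L] (O : ValuationSubring L) (ρ : O →+* ℂ) [IsLocalHom ρ]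
    (N : ℕ) (Q : O[X][X]) {K : Type*} [Field K] [IsAlgClosed K] (j : L[X] →+* K)
    (hj : Function.Injective j)
    (h : ∀ r : K, (Q.map (mapRingHom (algebraMap O L))).eval₂ j r = 0 →
      ∃ q : L[X], q.natDegree ≤ N ∧ r = j q)
    (hne : Q.map (mapRingHom ρ) ≠ 0) {V : Set ℂ} (hVo : IsOpen V) (hV : IsPreconnected V)
    (hVne : V.Nonempty) (f : ℂ → ℂ) (hf : AnalyticOnNhd ℂ f V)
    (hroot : ∀ u ∈ V, (((Q.map (mapRingHom ρ)).map (evalRingHom u)).eval (f u)) = 0) :
    ∃ p : ℂ[X], p.natDegree ≤ N ∧ ∀ u ∈ V, f u = p.eval u := by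
  classical
  obtain ⟨n, q, c, hq, hQ⟩ := split_of_roots j hj N _ h
  obtain ⟨c', σ, q', hc', hdeg, hor, heq⟩ :=
    spec_factor O ρ N Finset.univ q (fun i _ => hq i) c Q hQ hne
  -- all factors
  have hev : ∀ u ∈ V, c'.eval u * ∏ i, (σ i * f u - (q' i).eval u) = 0 := by
    intro u hu
    have := hroot u hu
    rw [heq, Polynomial.map_mul, Polynomial.map_C, Polynomial.map_prod, eval_mul, eval_C,
      eval_prod] at this
    simpa using this
  have h1 := AnalyticOnNhd.eq_zero_or_eq_zero_of_mul_eq_zero
    (f := fun u => c'.eval u) (g := fun u => ∏ i, (σ i * f u - (q' i).eval u))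
    (fun u _ => (AnalyticOnNhd.eval_polynomial c') u (Set.mem_univ u))
    (Finset.analyticOnNhd_fun_prod _ fun i _ =>
      (analyticOnNhd_const.mul hf).sub
        (fun u _ => (AnalyticOnNhd.eval_polynomial (q' i)) u (Set.mem_univ u)))
    hev hV
  rcases h1 with h1 | h1
  · exfalso
    obtain ⟨u0, hu0⟩ := hVne
    have hinf : V.Infinite := by
      have := hVo.mem_nhds hu0
      exact infinite_of_mem_nhds u0 this
    exact hc' (Polynomial.eq_zero_of_infinite_isRoot c' (hinf.mono fun u hu => h1 u hu))
  · obtain ⟨i, -, hi⟩ := prod_zero hV hVne Finset.univ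
      (fun i u => σ i * f u - (q' i).eval u)
      (fun i _ => (analyticOnNhd_const.mul hf).sub
        (fun u _ => (AnalyticOnNhd.eval_polynomial (q' i)) u (Set.mem_univ u))) h1
    have hσ : σ i ≠ 0 := by
      intro h0
      rcases hor i (Finset.mem_univ i) with h | h
      · exact h h0
      · obtain ⟨u0, hu0⟩ := hVne
        have hinf : V.Infinite := infinite_of_mem_nhds u0 (hVo.mem_nhds hu0)
        refine h (Polynomial.eq_zero_of_infinite_isRoot (q' i) (hinf.mono fun u hu => ?_))
        have := hi u hu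
        rw [h0] at this
        simpa using this
    refine ⟨C (σ i)⁻¹ * q' i,
      (natDegree_C_mul_le _ _).trans (hdeg i (Finset.mem_univ i)), fun u hu => ?_⟩
    have := hi u hu
    rw [sub_eq_zero] at this
    rw [eval_mul, eval_C, ← this, ← mul_assoc, inv_mul_cancel₀ hσ, one_mul]

end Crest.Agent.R260.Fin3_600
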