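import Crest.Agent.R260.Fin2_600

/-!
Row 260 (S0398), AG-FINAL (B''): the property `SplitsLE N Q` (`Q ∈ K[u][T]` is a product of a
polynomial in `u` and linear factors `σ T - q(u)`, `deg q ≤ N`), its specialisation along valuation
rings and its descent to an algebraically closed subfield.
-/

namespace Crest.Agent.R260.Fin4_600

open Polynomial Crest.Agent.R260.Fin2_600

universe u v w

/-- `Q (u, T)` is a product of linear factors in `T` with coefficients of degree `≤ N` in `u`. -/
def SplitsLE (N : ℕ) {K : Type*} [Field K] (Q : K[X][X]) : Prop :=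
  ∃ (n : ℕ) (σ : Fin n → K) (q : Fin n → K[X]) (c : K[X]), c ≠ 0 ∧ (∀ i, (q i).natDegree ≤ N) ∧
    (∀ i, σ i ≠ 0 ∨ q i ≠ 0) ∧ Q = C c * ∏ i, (C (C (σ i)) * X - C (q i))

theorem lin_ne {K : Type*} [Field K] {σ : K} {q : K[X]} (h : σ ≠ 0 ∨ q ≠ 0) :
    (C (C σ) * X - C q : K[X][X]) ≠ 0 := by
  intro h0
  rcases h with h | h
  · have := congrArg (fun p => p.coeff 1) h0
    simp only [coeff_sub, coeff_C_mul, coeff_X_one, mul_one, coeff_zero] at this
    rw [coeff_C_of_ne_zero one_ne_zero, sub_zero] at this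
    exact h (C_eq_zero.1 this)
  · have := congrArg (fun p => p.coeff 0) h0
    simp only [coeff_sub, coeff_C_mul, coeff_X_zero, mul_zero, coeff_zero, coeff_C_zero,
      zero_sub, neg_eq_zero] at this
    exact h this

theorem SplitsLE.ne_zero {N : ℕ} {K : Type*} [Field K] {Q : K[X][X]} (h : SplitsLE N Q) :
    Q ≠ 0 := by
  obtain ⟨n, σ, q, c, hc, -, hor, rfl⟩ := h
  exact mul_ne_zero (C_ne_zero.2 hc) (Finset.prod_ne_zero_iff.2 fun i _ => lin_ne (hor i))

/-- from roots to factors -/
theorem SplitsLE.of_roots {L : Type u} [Field L] {K : Type w} [Field K] [IsAlgClosed K]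
    (j : L[X] →+* K) (hj : Function.Injective j) (N : ℕ) (Q : L[X][X]) (hQ : Q ≠ 0)
    (h : ∀ r : K, Q.eval₂ j r = 0 → ∃ q : L[X], q.natDegree ≤ N ∧ r = j q) : SplitsLE N Q := by
  obtain ⟨n, q, c, hq, hQ'⟩ := split_of_roots j hj N Q h
  refine ⟨n, fun _ => 1, q, c, ?_, hq, fun _ => Or.inl one_ne_zero, ?_⟩
  · rintro rfl
    rw [C_0, zero_mul] at hQ'
    exact hQ hQ'
  · rw [hQ']
    congr 1
    refine Finset.prod_congr rfl fun i _ => ?_
    rw [C_1, C_1, one_mul]

section Spec

variable {L : Type u} [Field L] (O : ValuationSubring L) {κ : Type v} [Field κ]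

/-- a linear factor `σ T - q(u)` made primitive. -/
theorem lin_prim' (ρ : O →+* κ) [IsLocalHom ρ] (N : ℕ) (σ : L) (q : L[X]) (hq : q.natDegree ≤ N)
    (hor : σ ≠ 0 ∨ q ≠ 0) :
    ∃ (s : L) (s' : O) (q' : O[X]), s ≠ 0 ∧ (s' : L) = s * σ ∧
      q'.map (algebraMap O L) = C s * q ∧ q'.natDegree ≤ N ∧ (ρ s' ≠ 0 ∨ q'.map ρ ≠ 0) := by
  classical
  obtain ⟨s, hs, hmem, i, hi, hu⟩ := exists_scale O
    (fun i : Option (Fin (N + 1)) => i.elim σ (fun j => q.coeff j)) (by
      rcases hor with h | h
      · exact ⟨none, h⟩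
      · refine ⟨some ⟨q.natDegree, Nat.lt_succ_of_le hq⟩, ?_⟩
        change q.coeff q.natDegree ≠ 0
        rwa [coeff_natDegree, Ne, leadingCoeff_eq_zero])
  have hs1 : s * σ ∈ O := hmem none
  obtain ⟨q', hq', hdeg⟩ := exists_lift_poly O N (C s * q)
    ((natDegree_C_mul_le _ _).trans hq) (fun j hj => by
      rw [coeff_C_mul]; exact hmem (some ⟨j, Nat.lt_succ_of_le hj⟩))
  refine ⟨s, ⟨s * σ, hs1⟩, q', hs, rfl, hq', hdeg, ?_⟩
  cases i with
  | none =>
    left
    exact (hu.map ρ).ne_zero
  | some j =>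
    right
    intro h0
    have h1 : (q'.coeff j : O) = ⟨s * q.coeff j, hi⟩ := by
      apply Subtype.ext
      have := congrArg (fun p => p.coeff (j : ℕ)) hq'
      simp only [coeff_map, coeff_C_mul] at this
      exact this
    have h2 := congrArg (fun p => p.coeff (j : ℕ)) h0
    simp only [coeff_map, coeff_zero] at h2
    rw [h1] at h2
    exact (hu.map ρ).ne_zero h2

/-- **specialisation** of `SplitsLE`. -/
theorem SplitsLE.spec (ρ : O →+* κ) [IsLocalHom ρ] (N : ℕ) (Q : O[X][X])
    (hQ : SplitsLE N (Q.map (mapRingHom (algebraMap O L))))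
    (hne : Q.map (mapRingHom ρ) ≠ 0) : SplitsLE N (Q.map (mapRingHom ρ)) := by
  classical
  obtain ⟨n, σ, q, c, hc, hq, hor, hQ⟩ := hQ
  have hinj : Function.Injective (algebraMap O L) := FaithfulSMul.algebraMap_injective O L
  have hinj1 : Function.Injective (mapRingHom (algebraMap O L)) := by
    rw [coe_mapRingHom]; exact map_injective _ hinj
  obtain ⟨sc, c1, hsc, hc1, hc1ne⟩ := poly_prim O ρ c hc
  have hch := fun i => lin_prim' O ρ N (σ i) (q i) (hq i) (hor i)
  choose t s' q' ht using hch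
  set P : O[X][X] := C c1 * ∏ i, (C (C (s' i)) * X - C (q' i)) with hP
  have hmapP : P.map (mapRingHom (algebraMap O L)) =
      C (C (sc * ∏ i, t i)) * Q.map (mapRingHom (algebraMap O L)) := by
    rw [hQ, hP, Polynomial.map_mul, Polynomial.map_C, coe_mapRingHom, hc1, Polynomial.map_prod,
      C_mul, C_mul, C_mul, map_prod, map_prod]
    have : ∀ i ∈ Finset.univ, Polynomial.map (mapRingHom (algebraMap O L))
        (C (C (s' i)) * X - C (q' i)) = C (C (t i)) * (C (C (σ i)) * X - C (q i)) := by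
      intro i _
      obtain ⟨_, h1, h2, _, _⟩ := ht i
      rw [Polynomial.map_sub, Polynomial.map_mul, Polynomial.map_X, Polynomial.map_C,
        Polynomial.map_C, coe_mapRingHom, h2, Polynomial.map_C, mul_sub]
      rw [show algebraMap O L (s' i) = t i * σ i from h1, C_mul, C_mul, C_mul]
      ring
    rw [Finset.prod_congr rfl this, Finset.prod_mul_distrib]
    ring
  have hPκ : P.map (mapRingHom ρ) = C (c1.map ρ) *
      ∏ i, (C (C (ρ (s' i))) * X - C ((q' i).map ρ)) := by
    rw [hP, Polynomial.map_mul, Polynomial.map_C, coe_mapRingHom, Polynomial.map_prod]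
    congr 1
    refine Finset.prod_congr rfl fun i _ => ?_
    rw [Polynomial.map_sub, Polynomial.map_mul, Polynomial.map_X, Polynomial.map_C,
      Polynomial.map_C, coe_mapRingHom, Polynomial.map_C]
  have hPκne : P.map (mapRingHom ρ) ≠ 0 := by
    rw [hPκ]
    exact mul_ne_zero (C_ne_zero.2 hc1ne) (Finset.prod_ne_zero_iff.2 fun i _ =>
      lin_ne (ht i).2.2.2.2)
  set σ0 : L := sc * ∏ i, t i with hσ0
  -- a unit coefficient of `P`
  obtain ⟨i, j, hij⟩ : ∃ i j, ρ ((P.coeff i).coeff j) ≠ 0 := by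
    by_contra hcon
    push Not at hcon
    apply hPκne
    ext i j
    rw [coeff_map, coe_mapRingHom, coeff_map, hcon i j]
    simp
  have hunit : IsUnit ((P.coeff i).coeff j) :=
    isUnit_of_map_unit ρ _ (isUnit_iff_ne_zero.2 hij)
  have hcoef : algebraMap O L ((P.coeff i).coeff j) =
      σ0 * algebraMap O L ((Q.coeff i).coeff j) := by
    have := congrArg (fun p => (p.coeff i).coeff j) hmapP
    simpa only [coeff_map, coe_mapRingHom, coeff_C_mul] using this
  obtain ⟨w, hw⟩ := hunit
  set δ : O := (Q.coeff i).coeff j * ((w⁻¹ : Oˣ) : O) with hδ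
  have hδσ : algebraMap O L δ * σ0 = 1 := by
    have h1 : ((w : O) * ((w⁻¹ : Oˣ) : O)) = 1 := by simp
    have h2 : algebraMap O L (w : O) * algebraMap O L ((w⁻¹ : Oˣ) : O) = 1 := by
      rw [← map_mul, h1, map_one]
    rw [hδ, map_mul]
    rw [← hw] at hcoef
    calc algebraMap O L ((Q.coeff i).coeff j) * algebraMap O L ((w⁻¹ : Oˣ) : O) * σ0
        = (σ0 * algebraMap O L ((Q.coeff i).coeff j)) * algebraMap O L ((w⁻¹ : Oˣ) : O) := by ring
      _ = 1 := by rw [← hcoef, h2]
  have hQP : Q = C (C δ) * P := by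
    apply map_injective _ hinj1
    rw [Polynomial.map_mul, hmapP, Polynomial.map_C, coe_mapRingHom, Polynomial.map_C,
      ← mul_assoc, ← C_mul, ← C_mul, hδσ, C_1, C_1, one_mul]
  have hQκ : Q.map (mapRingHom ρ) = C (C (ρ δ)) * P.map (mapRingHom ρ) := by
    conv_lhs => rw [hQP]
    rw [Polynomial.map_mul, Polynomial.map_C, coe_mapRingHom, Polynomial.map_C]
  have hδne : ρ δ ≠ 0 := by
    intro h0
    rw [h0, C_0, C_0, zero_mul] at hQκ
    exact hne hQκ
  refine ⟨n, fun i => ρ (s' i), fun i => (q' i).map ρ, C (ρ δ) * c1.map ρ,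
    mul_ne_zero (C_ne_zero.2 hδne) hc1ne, ?_, ?_, ?_⟩
  · intro i
    exact natDegree_map_le.trans (ht i).2.2.2.1
  · intro i
    exact (ht i).2.2.2.2
  · rw [hQκ, hPκ, C_mul, mul_assoc]

end Spec

/-- a non-trivial algebra of finite type over an algebraically closed field has a rational point. -/
theorem exists_point {k : Type u} [Field k] [IsAlgClosed k] {A : Type v} [CommRing A] [Nontrivial A]
    [Algebra k A] [Algebra.FiniteType k A] : Nonempty (A →ₐ[k] k) := by
  obtain ⟨M, hM⟩ := Ideal.exists_maximal A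
  let E := A ⧸ M
  let _ : Field E := Ideal.Quotient.field M
  have h1 : Module.Finite k E := finite_of_finite_type_of_isJacobsonRing k E
  have h2 : Algebra.IsAlgebraic k E := inferInstance
  let g : E →ₐ[k] k := IsAlgClosed.lift
  exact ⟨g.comp (Ideal.Quotient.mkₐ k M)⟩

/-- **descent** of `SplitsLE` to an algebraically closed subfield. -/
theorem SplitsLE.descend {k : Type u} [Field k] [IsAlgClosed k] {κ : Type v} [Field κ] [Algebra k κ]
    (N : ℕ) (Q : k[X][X]) (hQ : SplitsLE N (Q.map (mapRingHom (algebraMap k κ)))) :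
    SplitsLE N Q := by
  classical
  obtain ⟨n, σ, q, c, hc, hq, hor, hQ⟩ := hQ
  -- non-zero elements to be preserved
  have hz : ∀ i, ∃ z : κ, z ≠ 0 ∧ (z = σ i ∨ ∃ j, z = (q i).coeff j) := by
    intro i
    rcases hor i with h | h
    · exact ⟨σ i, h, Or.inl rfl⟩
    · exact ⟨(q i).leadingCoeff, leadingCoeff_ne_zero.2 h, Or.inr ⟨_, rfl⟩⟩
  choose z hz0 hz using hz
  let S : Finset κ := Finset.univ.image σ ∪
    (Finset.univ.biUnion fun i => (Finset.range (N + 1)).image fun j => (q i).coeff j) ∪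
    (Finset.range (c.natDegree + 1)).image (fun j => c.coeff j)
  let A := Algebra.adjoin k (S : Set κ)
  have hmemS : ∀ x ∈ S, x ∈ A := fun x hx => Algebra.subset_adjoin (Finset.mem_coe.2 hx)
  have hσA : ∀ i, σ i ∈ A := fun i => hmemS _ (by
    simp only [S, Finset.mem_union, Finset.mem_image]
    exact Or.inl (Or.inl ⟨i, Finset.mem_univ _, rfl⟩))
  have hqA : ∀ i j, (q i).coeff j ∈ A := fun i j => by
    by_cases hj : j ≤ N
    · refine hmemS _ ?_
      simp only [S, Finset.mem_union, Finset.mem_image, Finset.mem_biUnion]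
      exact Or.inl (Or.inr ⟨i, Finset.mem_univ _, j, Finset.mem_range.2 (Nat.lt_succ_of_le hj), rfl⟩)
    · rw [coeff_eq_zero_of_natDegree_lt (lt_of_le_of_lt (hq i) (not_le.1 hj))]
      exact A.zero_mem
  have hcA : ∀ j, c.coeff j ∈ A := fun j => by
    by_cases hj : j ≤ c.natDegree
    · refine hmemS _ ?_
      simp only [S, Finset.mem_union, Finset.mem_image]
      exact Or.inr ⟨j, Finset.mem_range.2 (Nat.lt_succ_of_le hj), rfl⟩
    · rw [coeff_eq_zero_of_natDegree_lt (not_le.1 hj)]
      exact A.zero_mem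
  have hzA : ∀ i, z i ∈ A := fun i => by
    rcases hz i with h | ⟨j, h⟩
    · rw [h]; exact hσA i
    · rw [h]; exact hqA i j
  let d : A := (∏ i, ⟨z i, hzA i⟩) * ⟨c.leadingCoeff, hcA _⟩
  have hd : d ≠ 0 := by
    refine mul_ne_zero (Finset.prod_ne_zero_iff.2 fun i _ h => hz0 i (congrArg Subtype.val h))
      fun h => leadingCoeff_ne_zero.2 hc (congrArg Subtype.val h)
  have hft : Algebra.FiniteType k A :=
    (Subalgebra.fg_iff_finiteType _).1 ⟨S, rfl⟩
  let Ad := Localization.Away d
  have hft2 : Algebra.FiniteType A Ad := IsLocalization.finiteType_of_monoid_fg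
    (Submonoid.powers d) Ad
  have hft3 : Algebra.FiniteType k Ad := Algebra.FiniteType.trans hft hft2
  have hnt : Nontrivial Ad := by
    have : Submonoid.powers d ≤ nonZeroDivisors A := powers_le_nonZeroDivisors_of_noZeroDivisors hd
    exact (IsLocalization.injective Ad this).nontrivial
  obtain ⟨g⟩ := exists_point (k := k) (A := Ad)
  let τ : A →ₐ[k] k := g.comp (IsScalarTower.toAlgHom k A Ad)
  have hτd : τ d ≠ 0 := by
    have h1 : IsUnit (algebraMap A Ad d) := IsLocalization.Away.algebraMap_isUnit d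
    exact (h1.map g).ne_zero
  have hτz : ∀ i, τ ⟨z i, hzA i⟩ ≠ 0 := by
    intro i h
    apply hτd
    simp only [d]
    rw [map_mul, map_prod, Finset.prod_eq_zero (Finset.mem_univ i) h, zero_mul]
  have hτc : τ ⟨c.leadingCoeff, hcA _⟩ ≠ 0 := by
    intro h
    apply hτd
    simp only [d]
    rw [map_mul, h, mul_zero]
  -- lifts to `A`
  have hlift : ∀ p : κ[X], (∀ j, p.coeff j ∈ A) → ∃ p' : A[X], p'.map (algebraMap A κ) = p ∧
      p'.natDegree = p.natDegree := by
    intro p hp
    have h1 : p ∈ Polynomial.lifts (algebraMap A κ) := by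
      rw [Polynomial.lifts_iff_coeff_lifts]
      intro j
      exact ⟨⟨_, hp j⟩, rfl⟩
    obtain ⟨p', hp'⟩ := h1
    rw [coe_mapRingHom] at hp'
    refine ⟨p', hp', ?_⟩
    rw [← hp', natDegree_map_eq_of_injective]
    exact Subtype.val_injective
  obtain ⟨c', hc', hc'd⟩ := hlift c hcA
  have hq1 := fun i => hlift (q i) (hqA i)
  choose q' hq' hq'd using hq1
  have hAκ : Function.Injective (algebraMap A κ) := Subtype.val_injective
  have hAκ1 : Function.Injective (mapRingHom (algebraMap A κ)) := by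
    rw [coe_mapRingHom]; exact map_injective _ hAκ
  have hQA : Q.map (mapRingHom (algebraMap k A)) =
      C c' * ∏ i, (C (C (⟨σ i, hσA i⟩ : A)) * X - C (q' i)) := by
    apply map_injective _ hAκ1
    rw [Polynomial.map_map, mapRingHom_comp, ← IsScalarTower.algebraMap_eq k A κ, hQ,
      Polynomial.map_mul, Polynomial.map_C, coe_mapRingHom, hc', Polynomial.map_prod]
    congr 1
    refine Finset.prod_congr rfl fun i _ => ?_
    rw [Polynomial.map_sub, Polynomial.map_mul, Polynomial.map_X, Polynomial.map_C,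
      Polynomial.map_C, coe_mapRingHom, Polynomial.map_C, hq']
    rfl
  refine ⟨n, fun i => τ ⟨σ i, hσA i⟩, fun i => (q' i).map (τ : A →+* k), c'.map (τ : A →+* k),
    ?_, ?_, ?_, ?_⟩
  · intro h0
    have h1 := congrArg (fun p => p.coeff c.natDegree) h0
    simp only [coeff_map, coeff_zero] at h1
    apply hτc
    have h2 : (c'.coeff c.natDegree : A) = ⟨c.leadingCoeff, hcA _⟩ := by
      apply Subtype.ext
      have := congrArg (fun p => p.coeff c.natDegree) hc'
      simp only [coeff_map] at this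
      exact this
    rw [← h2]
    exact h1
  · intro i
    refine natDegree_map_le.trans ?_
    rw [hq'd i]
    exact hq i
  · intro i
    rcases hz i with h | ⟨j, h⟩
    · left
      have := hτz i
      have h2 : (⟨z i, hzA i⟩ : A) = ⟨σ i, hσA i⟩ := Subtype.ext h
      rwa [h2] at this
    · right
      intro h0
      have h1 := congrArg (fun p => p.coeff j) h0
      simp only [coeff_map, coeff_zero] at h1
      apply hτz i
      have h2 : ((q' i).coeff j : A) = ⟨z i, hzA i⟩ := by
        apply Subtype.ext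
        have := congrArg (fun p => p.coeff j) (hq' i)
        simp only [coeff_map] at this
        rw [← h] at this
        exact this
      rw [← h2]
      exact h1
  · have h1 := congrArg (fun p => Polynomial.map (mapRingHom (τ : A →+* k)) p) hQA
    beta_reduce at h1
    rw [Polynomial.map_map, mapRingHom_comp] at h1
    have h2 : (τ : A →+* k).comp (algebraMap k A) = RingHom.id k :=
      RingHom.ext fun a => τ.commutes a
    rw [h2, mapRingHom_id, Polynomial.map_id] at h1
    rw [h1, Polynomial.map_mul, Polynomial.map_C, coe_mapRingHom, Polynomial.map_prod]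
    congr 1
    refine Finset.prod_congr rfl fun i _ => ?_
    rw [Polynomial.map_sub, Polynomial.map_mul, Polynomial.map_X, Polynomial.map_C,
      Polynomial.map_C, coe_mapRingHom, Polynomial.map_C]
    rfl

/-- **specialisation along a valuation ring containing an algebraically closed field `k`** to a
polynomial with coefficients in `k`. -/
theorem SplitsLE.spec_alg {k : Type u} [Field k] [IsAlgClosed k] {L : Type v} [Field L]
    [Algebra k L] (O : ValuationSubring L) (hk : ∀ a : k, algebraMap k L a ∈ O) (N : ℕ)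
    (Q : L[X][X]) (Q0 : k[X][X])
    (hcoef : ∀ i j, (Q.coeff i).coeff j - algebraMap k L ((Q0.coeff i).coeff j) ∈ O.nonunits)
    (hQ : SplitsLE N Q) (hQ0 : Q0 ≠ 0) : SplitsLE N Q0 := by
  classical
  let ι : k →+* O := (algebraMap k L).codRestrict O.toSubring hk
  let κ := IsLocalRing.ResidueField O
  let ρ : O →+* κ := IsLocalRing.residue O
  let _ : Algebra k κ := (ρ.comp ι).toAlgebra
  have hnu : ∀ x : L, x ∈ O.nonunits → ∃ h : x ∈ O, ρ ⟨x, h⟩ = 0 := by
    intro x hx
    have h1 : x ∈ O := by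
      have := ValuationSubring.nonunits_subset (A := O) hx
      exact this
    refine ⟨h1, ?_⟩
    rw [IsLocalRing.residue_eq_zero_iff]
    exact (ValuationSubring.mem_nonunits_iff_exists_mem_maximalIdeal.1 hx).2
  have hO : ∀ i j, (Q.coeff i).coeff j ∈ O := by
    intro i j
    have h1 := (hnu _ (hcoef i j)).1
    have h2 := O.add_mem _ _ h1 (hk ((Q0.coeff i).coeff j))
    rwa [sub_add_cancel] at h2
  -- lift
  have hl1 : ∀ i, ∃ p : O[X], p.map (algebraMap O L) = Q.coeff i := by
    intro i
    have h1 : Q.coeff i ∈ Polynomial.lifts (algebraMap O L) := by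
      rw [Polynomial.lifts_iff_coeff_lifts]
      intro j
      exact ⟨⟨_, hO i j⟩, rfl⟩
    obtain ⟨p, hp⟩ := h1
    exact ⟨p, hp⟩
  have hl2 : Q ∈ Polynomial.lifts (mapRingHom (algebraMap O L)) := by
    rw [Polynomial.lifts_iff_coeff_lifts]
    intro i
    obtain ⟨p, hp⟩ := hl1 i
    exact ⟨p, hp⟩
  obtain ⟨Q', hQ'⟩ := hl2
  rw [coe_mapRingHom] at hQ'
  have hred : Q'.map (mapRingHom ρ) = Q0.map (mapRingHom (algebraMap k κ)) := by
    ext i j
    rw [coeff_map, coeff_map, coe_mapRingHom, coe_mapRingHom, coeff_map, coeff_map]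
    obtain ⟨h1, h2⟩ := hnu _ (hcoef i j)
    have h3 : (⟨(Q.coeff i).coeff j - algebraMap k L ((Q0.coeff i).coeff j), h1⟩ : O) =
        (Q'.coeff i).coeff j - ι ((Q0.coeff i).coeff j) := by
      apply Subtype.ext
      change (Q.coeff i).coeff j - algebraMap k L ((Q0.coeff i).coeff j) =
        ((Q'.coeff i).coeff j : L) - algebraMap k L ((Q0.coeff i).coeff j)
      rw [← hQ', coeff_map, coe_mapRingHom, coeff_map]
      rfl
    rw [h3, map_sub, sub_eq_zero] at h2
    exact h2
  have hne : Q'.map (mapRingHom ρ) ≠ 0 := by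
    rw [hred]
    refine (Polynomial.map_ne_zero_iff ?_).2 hQ0
    rw [coe_mapRingHom]
    exact map_injective _ (algebraMap k κ).injective
  have h1 := SplitsLE.spec O ρ N Q' (by rw [hQ']; exact hQ) hne
  rw [hred] at h1
  exact SplitsLE.descend N Q0 h1

end Crest.Agent.R260.Fin4_600
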