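import Mathlib

/-!
Row 260 (S0398), task AG-FINAL: frozen statement of the homogenisation step (direct form).

`σ` = coordinates, `ι` = blocks, `b` the block of a coordinate. `x` is generic for the prime `q`
when its relations are exactly `q`. `P` has, at the generic point, simple roots, of weight `w`
under the scalings of the blocks. Then `P` can be replaced by `P'` whose coefficients are
multihomogeneous, and `Dn` by a multihomogeneous `D'`.
-/

namespace Crest.Agent.R260.Fin5_600

open Polynomial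

universe u

/-- scaling of the blocks -/
def sc {σ ι A : Type*} [Mul A] (b : σ → ι) (l : ι → A) (x : σ → A) : σ → A := fun s => l (b s) * x s

/-- the weights of the multigrading -/
noncomputable def bw {σ ι : Type*} (b : σ → ι) : σ → ι → ℕ := fun s =>
  (open Classical in Pi.single (b s) 1 : ι → ℕ)

/-- `x` is generic for `q` -/
def Gnr {k : Type u} [Field k] {σ : Type} (q : Ideal (MvPolynomial σ k)) {K : Type*} [CommRing K]
    [Algebra k K] (x : σ → K) : Prop :=
  ∀ p : MvPolynomial σ k, MvPolynomial.aeval x p = 0 ↔ p ∈ q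

/-- `P(x; T)` -/
noncomputable def Pv {k : Type u} [Field k] {σ : Type} (P : Polynomial (MvPolynomial σ k))
    {K : Type*} [CommRing K] [Algebra k K] (x : σ → K) : K[X] :=
  P.map (MvPolynomial.aeval (R := k) x).toRingHom

/-- **HOMOG** (statement). -/
def Homog : Prop :=
  ∀ (k : Type u) [Field k] [IsAlgClosed k] [CharZero k] (σ ι : Type) [Fintype σ] [Fintype ι]
    (b : σ → ι) (w : ι → ℤ) (q : Ideal (MvPolynomial σ k)) [q.IsPrime]
    (_ : ∀ l : ι → k, (∀ i, l i ≠ 0) → ∀ p ∈ q,
      MvPolynomial.aeval (fun s => MvPolynomial.C (l (b s)) * MvPolynomial.X s) p ∈ q)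
    (P : Polynomial (MvPolynomial σ k)) (Dn : MvPolynomial σ k) (_ : Dn ∉ q)
    (_ : ∀ (K : Type u) [Field K] [IsAlgClosed K] [Algebra k K] (x : σ → K), Gnr q x →
      ∀ t, (Pv P x).IsRoot t → ¬ (derivative (Pv P x)).IsRoot t)
    (_ : ∀ (K : Type u) [Field K] [IsAlgClosed K] [Algebra k K] (x : σ → K), Gnr q x →
      ∀ l : ι → k, (∀ i, l i ≠ 0) → ∀ t, (Pv P x).IsRoot t →
        (Pv P (sc b (fun i => algebraMap k K (l i)) x)).IsRoot
          ((∏ i, algebraMap k K (l i) ^ w i) * t)),
    ∃ (P' : Polynomial (MvPolynomial σ k)) (D' : MvPolynomial σ k) (e : ι → ℕ),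
      D' ∉ q ∧ MvPolynomial.IsWeightedHomogeneous (bw b) D' e ∧
      -- the roots of `P'` have weight `w`
      (∀ (K : Type u) [Field K] [Algebra k K] (x : σ → K) (l : ι → K), (∀ i, l i ≠ 0) → ∀ t,
        (Pv P' x).IsRoot t → (Pv P' (sc b l x)).IsRoot ((∏ i, l i ^ w i) * t)) ∧
      -- at the generic point `P'` is proportional to `P`
      (∀ (K : Type u) [Field K] [Algebra k K] (x : σ → K), Gnr q x →
        ∃ c : K, c ≠ 0 ∧ Pv P' x = C c * Pv P x) ∧
      -- where `D' ≠ 0`, `P'(x; T)` is proportional to `P(l x; l^w T)` for some scaling `l`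
      (∀ x : σ → k, (∀ p ∈ q, MvPolynomial.aeval x p = 0) → MvPolynomial.aeval x D' ≠ 0 →
        ∃ l : ι → k, (∀ i, l i ≠ 0) ∧ MvPolynomial.aeval (sc b l x) Dn ≠ 0 ∧
          ∃ c : k, c ≠ 0 ∧ Pv P' x = C c * (Pv P (sc b l x)).comp (C (∏ i, l i ^ w i) * X))

end Crest.Agent.R260.Fin5_600
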