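import Mathlib

/-!
# Row 260 (S0398), FRAME part 1 (helper428): shifted Birkhoff-Grothendieck for polynomial lattices

`M ≤ k[X]^J` a saturated submodule, weights `β : J → ℤ`. There is a `k[X]`-basis `e_1, …, e_n` of `M`
and integers `a_j` with `deg (e_j)_i ≤ β_i - a_j`, with linearly independent leading vectors, with
the predictable degree property, and a polynomial dual family; coordinates of an integral
vector over a valued field are integral, uniformly at finite points and at infinity.
-/

set_option autoImplicit false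
set_option linter.all false

noncomputable section

namespace Crest.Agent.R260.Frm1_428

open Polynomial

universe u v w

variable {k : Type u} [Field k] {J : Type v}

/-- coefficient with an integer index -/
def cz (p : k[X]) (m : ℤ) : k := if 0 ≤ m then p.coeff m.toNat else 0

theorem cz_nat (p : k[X]) (m : ℕ) : cz p m = p.coeff m := by
  simp [cz]

theorem cz_neg (p : k[X]) {m : ℤ} (h : m < 0) : cz p m = 0 := by
  simp [cz, not_le.2 h]

@[simp] theorem cz_zero (m : ℤ) : cz (0 : k[X]) m = 0 := by
  simp [cz]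

theorem cz_add (p q : k[X]) (m : ℤ) : cz (p + q) m = cz p m + cz q m := by
  unfold cz; split_ifs <;> simp

theorem cz_C_mul (c : k) (p : k[X]) (m : ℤ) : cz (C c * p) m = c * cz p m := by
  unfold cz; split_ifs <;> simp

theorem cz_sum {ι : Type*} (s : Finset ι) (f : ι → k[X]) (m : ℤ) :
    cz (∑ j ∈ s, f j) m = ∑ j ∈ s, cz (f j) m := by
  unfold cz; split_ifs <;> simp [Polynomial.finset_sum_coeff]

theorem cz_X_pow_mul (p : k[X]) (d : ℕ) (m : ℤ) : cz (X ^ d * p) m = cz p (m - d) := by
  rcases lt_or_ge m 0 with h | h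
  · rw [cz_neg _ h, cz_neg _ (by omega)]
  · lift m to ℕ using h
    rw [cz_nat, Polynomial.coeff_X_pow_mul']
    split_ifs with hd
    · rw [← Nat.cast_sub hd, cz_nat]
    · rw [cz_neg _ (by omega)]

theorem ext_cz {p q : k[X]} (h : ∀ m : ℤ, cz p m = cz q m) : p = q := by
  ext m
  rw [← cz_nat, ← cz_nat, h]

/-- `deg p ≤ A` for an integer `A` -/
def DLe (A : ℤ) (p : k[X]) : Prop := ∀ m : ℤ, A < m → cz p m = 0

theorem DLe.eq_zero {A : ℤ} {p : k[X]} (h : DLe A p) (hA : A < 0) : p = 0 := by
  apply ext_cz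
  intro m
  rw [cz_zero]
  rcases lt_or_ge m 0 with hm | hm
  · exact cz_neg _ hm
  · exact h m (by omega)

theorem DLe.mono {A B : ℤ} {p : k[X]} (h : DLe A p) (hAB : A ≤ B) : DLe B p :=
  fun m hm => h m (by omega)

theorem dLe_natDegree (p : k[X]) : DLe p.natDegree p := by
  intro m hm
  have h0 : 0 ≤ m := by omega
  lift m to ℕ using h0
  rw [cz_nat]
  exact coeff_eq_zero_of_natDegree_lt (by exact_mod_cast hm)

theorem dLe_nat_iff {A : ℕ} {p : k[X]} : DLe (A : ℤ) p ↔ p.natDegree ≤ A := by
  constructor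
  · intro h
    rw [natDegree_le_iff_coeff_eq_zero]
    intro m hm
    rw [← cz_nat]
    exact h m (by exact_mod_cast hm)
  · intro h
    exact (dLe_natDegree p).mono (by exact_mod_cast h)

theorem DLe.zero (A : ℤ) : DLe A (0 : k[X]) := fun m _ => cz_zero m

theorem DLe.add {A : ℤ} {p q : k[X]} (hp : DLe A p) (hq : DLe A q) : DLe A (p + q) := by
  intro m hm
  rw [cz_add, hp m hm, hq m hm, add_zero]

theorem DLe.sum {ι : Type*} {A : ℤ} {s : Finset ι} {f : ι → k[X]} (h : ∀ j ∈ s, DLe A (f j)) :
    DLe A (∑ j ∈ s, f j) := by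
  intro m hm
  rw [cz_sum]
  exact Finset.sum_eq_zero fun j hj => h j hj m hm

theorem DLe.C_mul {A : ℤ} {p : k[X]} (hp : DLe A p) (c : k) : DLe A (C c * p) := by
  intro m hm
  rw [cz_C_mul, hp m hm, mul_zero]

theorem DLe.X_pow_mul {A : ℤ} {p : k[X]} (hp : DLe A p) (d : ℕ) : DLe (A + d) (X ^ d * p) := by
  intro m hm
  rw [cz_X_pow_mul]
  exact hp _ (by omega)

theorem DLe.natDegree_le {A : ℤ} {p : k[X]} (hp : DLe A p) (hA : 0 ≤ A) :
    (p.natDegree : ℤ) ≤ A := by
  lift A to ℕ using hA
  exact_mod_cast dLe_nat_iff.1 hp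

/-- top coefficient of a product -/
theorem cz_mul {A B : ℤ} {p q : k[X]} (hp : DLe A p) (hq : DLe B q) :
    cz (p * q) (A + B) = cz p A * cz q B := by
  rcases lt_or_ge A 0 with hA | hA
  · rw [hp.eq_zero hA]; simp
  rcases lt_or_ge B 0 with hB | hB
  · rw [hq.eq_zero hB]; simp
  lift A to ℕ using hA
  lift B to ℕ using hB
  rw [← Nat.cast_add, cz_nat, cz_nat, cz_nat]
  exact coeff_mul_add_eq_of_natDegree_le (dLe_nat_iff.1 hp) (dLe_nat_iff.1 hq)

theorem DLe.mul {A B : ℤ} {p q : k[X]} (hp : DLe A p) (hq : DLe B q) : DLe (A + B) (p * q) := by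
  rcases lt_or_ge A 0 with hA | hA
  · rw [hp.eq_zero hA, zero_mul]; exact DLe.zero _
  rcases lt_or_ge B 0 with hB | hB
  · rw [hq.eq_zero hB, mul_zero]; exact DLe.zero _
  lift A to ℕ using hA
  lift B to ℕ using hB
  rw [← Nat.cast_add, dLe_nat_iff]
  exact natDegree_mul_le_of_le (dLe_nat_iff.1 hp) (dLe_nat_iff.1 hq)

/-- a vector of shifted degree `≤ -a`: `deg t_i ≤ β_i - a` -/
def VLe (β : J → ℤ) (a : ℤ) (t : J → k[X]) : Prop := ∀ i, DLe (β i - a) (t i)

/-- the leading vector -/
def lead (β : J → ℤ) (a : ℤ) (t : J → k[X]) : J → k := fun i => cz (t i) (β i - a)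

theorem VLe.mono {β : J → ℤ} {a b : ℤ} {t : J → k[X]} (h : VLe β a t) (hab : b ≤ a) : VLe β b t :=
  fun i => (h i).mono (by omega)

theorem VLe.succ {β : J → ℤ} {a : ℤ} {t : J → k[X]} (h : VLe β a t) (h0 : lead β a t = 0) :
    VLe β (a + 1) t := by
  intro i m hm
  rcases lt_or_ge (β i - a) m with h1 | h1
  · exact h i m h1
  · have : m = β i - a := by omega
    rw [this]
    exact congrFun h0 i

theorem VLe.add {β : J → ℤ} {a : ℤ} {t t' : J → k[X]} (h : VLe β a t) (h' : VLe β a t') :
    VLe β a (t + t') := fun i => (h i).add (h' i)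

theorem VLe.zero (β : J → ℤ) (a : ℤ) : VLe β a (0 : J → k[X]) := fun i => DLe.zero _

theorem VLe.sum {ι : Type*} {β : J → ℤ} {a : ℤ} {s : Finset ι} {f : ι → J → k[X]}
    (h : ∀ j ∈ s, VLe β a (f j)) : VLe β a (∑ j ∈ s, f j) := by
  intro i
  rw [Finset.sum_apply]
  exact DLe.sum fun j hj => h j hj i

theorem VLe.smul {β : J → ℤ} {a A : ℤ} {p : k[X]} {t : J → k[X]} (hp : DLe A p) (h : VLe β a t) :
    VLe β (a - A) (p • t) := by
  intro i
  have := hp.mul (h i)
  rw [Pi.smul_apply, smul_eq_mul]
  exact this.mono (by omega)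

/-- bound for the shifted degree of a non-zero vector -/
theorem VLe.le_of_ne {β : J → ℤ} {a B : ℤ} {t : J → k[X]} (h : VLe β a t) (ht : t ≠ 0)
    (hB : ∀ i, β i ≤ B) : a ≤ B := by
  by_contra hlt
  apply ht
  funext i
  exact (h i).eq_zero (by have := hB i; omega)

theorem exists_vLe [Fintype J] (β : J → ℤ) (t : J → k[X]) : ∃ a : ℤ, VLe β a t := by
  classical
  obtain ⟨a, ha⟩ : ∃ a : ℤ, ∀ i, a ≤ β i - (t i).natDegree := by
    rcases isEmpty_or_nonempty J with h | h
    · exact ⟨0, fun i => h.elim i⟩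
    · refine ⟨Finset.univ.inf' Finset.univ_nonempty fun i => β i - (t i).natDegree, fun i => ?_⟩
      exact Finset.inf'_le _ (Finset.mem_univ i)
  refine ⟨a, fun i => (dLe_natDegree (t i)).mono ?_⟩
  have := ha i
  omega

/-- the conclusion: a reduced basis of `M` -/
structure RBasis (β : J → ℤ) (M : Submodule k[X] (J → k[X])) (n : ℕ) where
  /-- the basis -/
  e : Fin n → J → k[X]
  /-- minus the shifted degrees -/
  a : Fin n → ℤ
  li : LinearIndependent k[X] e
  span : Submodule.span k[X] (Set.range e) = M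
  deg : ∀ j, VLe β (a j) (e j)
  lead_li : LinearIndependent k fun j => lead β (a j) (e j)

theorem exists_basis_family [Finite J] (M : Submodule k[X] (J → k[X])) :
    ∃ (n : ℕ) (e : Fin n → J → k[X]), LinearIndependent k[X] e ∧
      Submodule.span k[X] (Set.range e) = M := by
  have : Module.Finite k[X] (J → k[X]) := inferInstance
  obtain ⟨n, b⟩ := Submodule.basisOfPid (Pi.basisFun k[X] J) M
  refine ⟨n, fun j => (b j : J → k[X]), ?_, ?_⟩
  · exact b.linearIndependent.map' M.subtype (Submodule.ker_subtype M)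
  · have h := congrArg (Submodule.map M.subtype) b.span_eq
    rw [Submodule.map_span, Submodule.map_top, Submodule.range_subtype, ← Set.range_comp] at h
    exact h

/-- replacing one member of a basis -/
theorem update_basis {n : ℕ} {e : Fin n → J → k[X]} (li : LinearIndependent k[X] e)
    (d : Fin n → k[X]) (j0 : Fin n) (hd : IsUnit (d j0)) :
    LinearIndependent k[X] (Function.update e j0 (∑ j, d j • e j)) ∧
      Submodule.span k[X] (Set.range (Function.update e j0 (∑ j, d j • e j))) =
        Submodule.span k[X] (Set.range e) := by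
  classical
  set e' := Function.update e j0 (∑ j, d j • e j) with he'
  have hne : ∀ j, j ≠ j0 → e' j = e j := fun j hj => Function.update_of_ne hj _ _
  have h0 : e' j0 = ∑ j, d j • e j := Function.update_self _ _ _
  constructor
  · rw [Fintype.linearIndependent_iff] at li ⊢
    intro g hg
    have h1 : ∑ j, ((if j = j0 then 0 else g j) + g j0 * d j) • e j = 0 := by
      rw [← hg]
      have h2 : ∀ j, g j • e' j = (if j = j0 then 0 else g j) • e j +
          (if j = j0 then g j0 • ∑ l, d l • e l else 0) := by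
        intro j
        by_cases hj : j = j0
        · subst hj; simp [h0]
        · simp [hj, hne j hj]
      simp only [h2, Finset.sum_add_distrib, Finset.sum_ite_eq', Finset.mem_univ, if_true,
        add_smul, Finset.smul_sum, mul_smul]
    have h3 := li _ h1
    have h4 : g j0 = 0 := by
      have := h3 j0
      simp only [if_true, zero_add] at this
      exact (hd.mul_left_eq_zero).1 this
    intro j
    by_cases hj : j = j0
    · rw [hj, h4]
    · have := h3 j
      simpa [hj, h4] using this
  · apply le_antisymm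
    · rw [Submodule.span_le]
      rintro _ ⟨j, rfl⟩
      by_cases hj : j = j0
      · rw [hj, h0]
        exact Submodule.sum_mem _ fun l _ => Submodule.smul_mem _ _ (Submodule.subset_span ⟨l, rfl⟩)
      · rw [hne j hj]
        exact Submodule.subset_span ⟨j, rfl⟩
    · rw [Submodule.span_le]
      rintro _ ⟨j, rfl⟩
      by_cases hj : j = j0
      · subst hj
        obtain ⟨u, hu⟩ := hd
        have h5 : e j = (↑u⁻¹ : k[X]) • (e' j - ∑ l ∈ Finset.univ.erase j, d l • e l) := by
          rw [h0, ← Finset.add_sum_erase _ _ (Finset.mem_univ j), add_sub_cancel_right, smul_smul,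
            ← hu, Units.inv_mul, one_smul]
        rw [SetLike.mem_coe, h5]
        refine Submodule.smul_mem _ _ (Submodule.sub_mem _ (Submodule.subset_span ⟨j, rfl⟩) ?_)
        refine Submodule.sum_mem _ fun l hl => Submodule.smul_mem _ _ ?_
        rw [← hne l (Finset.ne_of_mem_erase hl)]
        exact Submodule.subset_span ⟨l, rfl⟩
      · rw [← hne j hj]
        exact Submodule.subset_span ⟨j, rfl⟩

/-- **BG**: every submodule of `k[X]^J` has a reduced basis. -/
theorem exists_rBasis [Fintype J] (β : J → ℤ) (M : Submodule k[X] (J → k[X])) :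
    ∃ n, Nonempty (RBasis β M n) := by
  classical
  obtain ⟨n, e0, li0, sp0⟩ := exists_basis_family M
  refine ⟨n, ?_⟩
  -- bound
  obtain ⟨B, hB⟩ : ∃ B : ℤ, ∀ i, β i ≤ B := by
    rcases isEmpty_or_nonempty J with h | h
    · exact ⟨0, fun i => h.elim i⟩
    · exact ⟨Finset.univ.sup' Finset.univ_nonempty β, fun i => Finset.le_sup' β (Finset.mem_univ i)⟩
  let P : ℤ → Prop := fun s => ∃ (e : Fin n → J → k[X]) (a : Fin n → ℤ),
    LinearIndependent k[X] e ∧ Submodule.span k[X] (Set.range e) = M ∧
      (∀ j, VLe β (a j) (e j)) ∧ ∑ j, a j = s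
  have hbd : ∀ s, P s → s ≤ n * B := by
    rintro s ⟨e, a, li, -, hd, rfl⟩
    calc ∑ j, a j ≤ ∑ j : Fin n, B := Finset.sum_le_sum fun j _ => (hd j).le_of_ne (li.ne_zero j) hB
      _ = n * B := by simp
  have hex : ∃ s, P s := by
    choose a ha using fun j => exists_vLe β (e0 j)
    exact ⟨∑ j, a j, e0, a, li0, sp0, ha, rfl⟩
  obtain ⟨s, ⟨e, a, li, sp, hd, hs⟩, hmax⟩ := Int.exists_greatest_of_bdd ⟨n * B, hbd⟩ hex
  refine ⟨⟨e, a, li, sp, hd, ?_⟩⟩
  rw [Fintype.linearIndependent_iff]
  intro c hc
  by_contra hne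
  push Not at hne
  obtain ⟨j1, hj1⟩ := hne
  obtain ⟨j0, hj0, hmin⟩ := Finset.exists_min_image (Finset.univ.filter fun j => c j ≠ 0) a
    ⟨j1, by simpa using hj1⟩
  rw [Finset.mem_filter] at hj0
  have hmin' : ∀ j, c j ≠ 0 → a j0 ≤ a j := fun j hj => hmin j (by simpa using hj)
  set d : Fin n → k[X] := fun j => C (c j) * X ^ (a j - a j0).toNat with hdd
  have hu : IsUnit (d j0) := by
    simp only [hdd, sub_self, Int.toNat_zero, pow_zero, mul_one]
    exact Polynomial.isUnit_C.2 (isUnit_iff_ne_zero.2 hj0.2)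
  obtain ⟨li', sp'⟩ := update_basis li d j0 hu
  have hnew : VLe β (a j0 + 1) (∑ j, d j • e j) := by
    intro i m hm
    rw [Finset.sum_apply, cz_sum]
    have h1 : ∀ j, cz ((d j • e j) i) m = c j * cz (e j i) (m - (a j - a j0)) := by
      intro j
      by_cases hcj : c j = 0
      · simp [hdd, hcj]
      · have h2 : ((a j - a j0).toNat : ℤ) = a j - a j0 :=
          Int.toNat_of_nonneg (by have := hmin' j hcj; omega)
        rw [Pi.smul_apply, smul_eq_mul, hdd, mul_assoc, cz_C_mul, cz_X_pow_mul, h2]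
    simp only [h1]
    rcases lt_or_ge (β i - a j0) m with h3 | h3
    · refine Finset.sum_eq_zero fun j _ => ?_
      rw [hd j i _ (by omega), mul_zero]
    · have h4 : m = β i - a j0 := by omega
      have h5 : ∀ j, m - (a j - a j0) = β i - a j := fun j => by omega
      simp only [h5]
      have h6 := congrFun hc i
      simpa [lead, Finset.sum_apply] using h6
  have hP : P (s + 1) := by
    refine ⟨Function.update e j0 (∑ j, d j • e j), Function.update a j0 (a j0 + 1), li',
      sp'.trans sp, fun j => ?_, ?_⟩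
    · by_cases hj : j = j0
      · subst hj; simpa using hnew
      · simpa [hj] using hd j
    · rw [Finset.sum_update_of_mem (Finset.mem_univ j0), ← hs,
        ← Finset.add_sum_erase _ _ (Finset.mem_univ j0), Finset.sdiff_singleton_eq_erase]
      ring
  have := hmax _ hP
  omega

variable {β : J → ℤ} {M : Submodule k[X] (J → k[X])} {n : ℕ}

theorem RBasis.mem (b : RBasis β M n) (j : Fin n) : b.e j ∈ M :=
  b.span.le (Submodule.subset_span ⟨j, rfl⟩)

theorem RBasis.exists_coord (b : RBasis β M n) {t : J → k[X]} (ht : t ∈ M) :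
    ∃ p : Fin n → k[X], t = ∑ j, p j • b.e j := by
  obtain ⟨p, hp⟩ := (Submodule.mem_span_range_iff_exists_fun k[X]).1 (b.span.ge ht)
  exact ⟨p, hp.symm⟩

theorem RBasis.coord_unique (b : RBasis β M n) {p q : Fin n → k[X]}
    (h : ∑ j, p j • b.e j = ∑ j, q j • b.e j) : p = q := by
  have h1 := Fintype.linearIndependent_iff.1 b.li (fun j => p j - q j) (by
    simp only [sub_smul, Finset.sum_sub_distrib, h, sub_self])
  funext j
  exact sub_eq_zero.1 (h1 j)

/-- predictable degrees -/
theorem RBasis.coord_deg (b : RBasis β M n) {a : ℤ} {p : Fin n → k[X]}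
    (h : VLe β a (∑ j, p j • b.e j)) (j : Fin n) : DLe (b.a j - a) (p j) := by
  classical
  -- the set of integers `D` such that all `deg p_j ≤ a_j + D`
  by_contra hcon
  unfold DLe at hcon
  push Not at hcon
  obtain ⟨m0, hm0, hm0'⟩ := hcon
  let Q : ℤ → Prop := fun D => ∀ l, DLe (b.a l + D) (p l)
  have hQ : ∃ D, Q D := by
    rcases isEmpty_or_nonempty (Fin n) with h' | h'
    · exact ⟨0, fun l => h'.elim l⟩
    · refine ⟨Finset.univ.sup' Finset.univ_nonempty fun l => (p l).natDegree - b.a l, fun l => ?_⟩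
      refine (dLe_natDegree (p l)).mono ?_
      have := Finset.le_sup' (fun l => ((p l).natDegree : ℤ) - b.a l) (Finset.mem_univ l)
      linarith
  have hlow : ∀ D, Q D → m0 - b.a j ≤ D := by
    intro D hD
    by_contra hlt
    exact hm0' (hD j m0 (by omega))
  obtain ⟨D, hD, hmin⟩ := Int.exists_least_of_bdd ⟨m0 - b.a j, hlow⟩ hQ
  have hDa : -a < D := by have := hlow D hD; omega
  -- leading coefficients
  have hz : ∀ l, cz (p l) (b.a l + D) = 0 := by
    have := Fintype.linearIndependent_iff.1 b.lead_li (fun l => cz (p l) (b.a l + D)) (by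
      funext i
      have h1 := h i (β i + D) (by omega)
      rw [Finset.sum_apply, cz_sum] at h1
      rw [Finset.sum_apply, Pi.zero_apply, ← h1]
      refine Finset.sum_congr rfl fun l _ => ?_
      have h2 := cz_mul (hD l) (b.deg l i)
      rw [show b.a l + D + (β i - b.a l) = β i + D by ring] at h2
      rw [Pi.smul_apply, Pi.smul_apply, smul_eq_mul, smul_eq_mul, h2, lead])
    exact this
  have hQ' : Q (D - 1) := by
    intro l m hm
    rcases lt_or_ge (b.a l + D) m with h1 | h1
    · exact hD l m h1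
    · rw [show m = b.a l + D by omega]
      exact hz l
  have := hmin _ hQ'
  omega

/-- saturated submodules -/
def Sat (M : Submodule k[X] (J → k[X])) : Prop :=
  ∀ (p : k[X]) (t : J → k[X]), p ≠ 0 → p • t ∈ M → t ∈ M

/-- **dual family** of a basis of a saturated submodule. -/
theorem exists_dual [Fintype J] (hM : Sat M) {e : Fin n → J → k[X]}
    (li : LinearIndependent k[X] e) (sp : Submodule.span k[X] (Set.range e) = M) :
    ∃ α : Fin n → J → k[X], ∀ j l, ∑ i, α j i * e l i = if j = l then 1 else 0 := by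
  classical
  have hmem : ∀ j, e j ∈ M := fun j => by rw [← sp]; exact Submodule.subset_span ⟨j, rfl⟩
  haveI : Module.IsTorsionFree k[X] ((J → k[X]) ⧸ M) := by
    rw [Module.isTorsionFree_iff_smul_eq_zero]
    intro p x hpx
    obtain ⟨t, rfl⟩ := M.mkQ_surjective x
    by_cases hp : p = 0
    · exact Or.inl hp
    · right
      rw [Submodule.mkQ_apply, Submodule.Quotient.mk_eq_zero]
      rw [Submodule.mkQ_apply, ← Submodule.Quotient.mk_smul, Submodule.Quotient.mk_eq_zero] at hpx
      exact hM p t hp hpx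
  haveI : Module.Free k[X] ((J → k[X]) ⧸ M) := Module.free_of_finite_type_torsion_free'
  obtain ⟨σ, hσ⟩ := Module.projective_lifting_property M.mkQ LinearMap.id M.mkQ_surjective
  let b : Module.Basis (Fin n) k[X] (Submodule.span k[X] (Set.range e)) := Module.Basis.span li
  have hπ : ∀ x : J → k[X], x - σ (M.mkQ x) ∈ Submodule.span k[X] (Set.range e) := by
    intro x
    rw [sp, ← Submodule.Quotient.mk_eq_zero, ← Submodule.mkQ_apply, map_sub, sub_eq_zero]
    exact (LinearMap.congr_fun hσ (M.mkQ x)).symm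
  let π : (J → k[X]) →ₗ[k[X]] Submodule.span k[X] (Set.range e) :=
    (LinearMap.id - σ ∘ₗ M.mkQ).codRestrict _ hπ
  have hπe : ∀ l, π (e l) = b l := by
    intro l
    apply Subtype.ext
    have h1 : M.mkQ (e l) = 0 := by
      rw [Submodule.mkQ_apply, Submodule.Quotient.mk_eq_zero]; exact hmem l
    simp [π, b, Module.Basis.span_apply, h1]
  refine ⟨fun j i => b.repr (π (Pi.single i 1)) j, fun j l => ?_⟩
  have h2 : e l = ∑ i, e l i • (Pi.single i 1 : J → k[X]) := by
    funext i'
    simp [Finset.sum_apply, Pi.single_apply]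
  have h3 : b.repr (π (e l)) j = ∑ i, b.repr (π (Pi.single i 1)) j * e l i := by
    conv_lhs => rw [h2]
    simp only [map_sum, map_smul, Finsupp.coe_finset_sum, Finset.sum_apply, Finsupp.smul_apply,
      smul_eq_mul, mul_comm]
  rw [← h3, hπe, Module.Basis.repr_self, Finsupp.single_apply]
  simp [eq_comm]

end Crest.Agent.R260.Frm1_428
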