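import Crest.Agent.R260.Frm1_428

/-!
# Row 260 (S0398), FRAME part 2 (helper428)

* integral coordinates in a reduced basis over a valued field (finite points and infinity at once);
* coordinates of a vector at a point, independence of the values of a reduced basis;
* dimension of the spaces of sections;
* THETA-KILL: a functional of degree `1` kills the positive part of a contact frame.
-/

set_option autoImplicit false
set_option linter.all false

noncomputable section

namespace Crest.Agent.R260.Frm2_428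

open Polynomial Crest.Agent.R260.Frm1_428

universe u v w

variable {k : Type u} [Field k] {J : Type v}
variable {β : J → ℤ} {M : Submodule k[X] (J → k[X])} {n : ℕ}

theorem exists_lead_dual [Fintype J] (b : RBasis β M n) : ∃ γ : Fin n → J → k, ∀ j l,
    ∑ i, γ j i * lead β (b.a l) (b.e l) i = if j = l then 1 else 0 := by
  classical
  set L : Fin n → J → k := fun j => lead β (b.a j) (b.e j) with hL
  have hinj : LinearMap.ker (Fintype.linearCombination k L) = ⊥ :=
    LinearMap.ker_eq_bot.2 (linearIndependent_iff_injective_fintypeLinearCombination.1 b.lead_li)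
  obtain ⟨g, hg⟩ := LinearMap.exists_leftInverse_of_injective _ hinj
  refine ⟨fun j i => g (Pi.single i 1) j, fun j l => ?_⟩
  have h1 : g (L l) = Pi.single l 1 := by
    have := LinearMap.congr_fun hg (Pi.single l 1)
    simpa [Fintype.linearCombination_apply_single] using this
  have h2 : L l = ∑ i, L l i • (Pi.single i 1 : J → k) := by
    funext i'
    simp [Finset.sum_apply, Pi.single_apply]
  have h3 : g (L l) j = ∑ i, g (Pi.single i 1) j * L l i := by
    conv_lhs => rw [h2]
    simp only [map_sum, map_smul, Finset.sum_apply, Pi.smul_apply, smul_eq_mul, mul_comm]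
  change ∑ i, g (Pi.single i 1) j * L l i = _
  rw [← h3, h1, Pi.single_apply]

section Val

variable {K : Type w} [Field K] [Algebra k K] {Γ : Type*} [LinearOrderedCommGroupWithZero Γ]
  (ν : Valuation K Γ)

theorem val_aeval_le (hk : ∀ c : k, ν (algebraMap k K c) ≤ 1) {s : K} (hs : ν s ≤ 1) (p : k[X]) :
    ν (aeval s p) ≤ 1 := by
  rw [aeval_eq_sum_range]
  refine ν.map_sum_le fun m _ => ?_
  rw [Algebra.smul_def, map_mul, map_pow]
  exact mul_le_one' (hk _) (pow_le_one' hs m)

/-- near infinity a polynomial of degree `≤ A` is its leading coefficient. -/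
theorem val_inf_lt (hk : ∀ c : k, ν (algebraMap k K c) ≤ 1) {s : K} (hs : 1 < ν s) {A : ℤ}
    {p : k[X]} (hp : DLe A p) : ν (s ^ (-A) * aeval s p - algebraMap k K (cz p A)) < 1 := by
  have hs0 : s ≠ 0 := by rintro rfl; simp at hs
  rcases lt_or_ge A 0 with hA | hA
  · rw [hp.eq_zero hA]; simp
  lift A to ℕ using hA
  rw [aeval_eq_sum_range' (n := A + 1) (by have := dLe_nat_iff.1 hp; omega), cz_nat,
    Finset.sum_range_succ, mul_add]
  have h1 : s ^ (-(A : ℤ)) * (p.coeff A • s ^ A) = algebraMap k K (p.coeff A) := by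
    rw [Algebra.smul_def, zpow_neg, zpow_natCast]
    field_simp
  rw [h1, add_sub_cancel_right, Finset.mul_sum]
  refine ν.map_sum_lt one_ne_zero fun m hm => ?_
  have hm' := Finset.mem_range.1 hm
  rw [Algebra.smul_def, map_mul, map_mul, map_zpow₀, map_pow]
  have h2 : ν s ^ (-(A : ℤ)) * ν s ^ m < 1 := by
    rw [← zpow_natCast (ν s) m, ← zpow_add₀ (by simpa using hs0)]
    exact zpow_lt_one_of_neg₀ hs (by omega)
  calc ν s ^ (-(A : ℤ)) * (ν (algebraMap k K (p.coeff m)) * ν s ^ m)
      = ν (algebraMap k K (p.coeff m)) * (ν s ^ (-(A : ℤ)) * ν s ^ m) := mul_left_comm _ _ _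
    _ ≤ 1 * (ν s ^ (-(A : ℤ)) * ν s ^ m) := mul_le_mul_left (hk _) _
    _ = ν s ^ (-(A : ℤ)) * ν s ^ m := one_mul _
    _ < 1 := h2

/-- **integral coordinates** in a reduced basis. -/
theorem val_coord [Fintype J] (b : RBasis β M n) (hM : Sat M)
    (hk : ∀ c : k, ν (algebraMap k K c) ≤ 1) (s : K) (w : Fin n → K) (g : Γ)
    (h : ∀ i, ν (∑ j, w j * aeval s (b.e j i)) ≤ g * (max 1 (ν s)) ^ (β i)) (j : Fin n) :
    ν (w j) ≤ g * (max 1 (ν s)) ^ (b.a j) := by
  classical
  rcases le_or_gt (ν s) 1 with hs | hs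
  · rw [max_eq_left hs] at h ⊢
    simp only [one_zpow, mul_one] at h ⊢
    obtain ⟨α, hα⟩ := exists_dual hM b.li b.span
    have h1 : w j = ∑ i, aeval s (α j i) * ∑ l, w l * aeval s (b.e l i) := by
      have h2 : ∀ l, ∑ i, aeval s (α j i) * aeval s (b.e l i) = if j = l then (1 : K) else 0 := by
        intro l
        have := congrArg (aeval s) (hα j l)
        simp only [map_sum, map_mul] at this
        rw [this]; split_ifs <;> simp
      simp only [Finset.mul_sum]
      rw [Finset.sum_comm]
      have h3 : ∀ l, ∑ i, aeval s (α j i) * (w l * aeval s (b.e l i)) =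
          w l * if j = l then 1 else 0 := by
        intro l
        rw [← h2 l, Finset.mul_sum]
        exact Finset.sum_congr rfl fun i _ => by ring
      simp [h3]
    rw [h1]
    refine ν.map_sum_le fun i _ => ?_
    rw [map_mul]
    calc ν (aeval s (α j i)) * ν (∑ l, w l * aeval s (b.e l i))
        ≤ 1 * g := mul_le_mul' (val_aeval_le ν hk hs _) (h i)
      _ = g := one_mul g
  · rw [max_eq_right hs.le] at h ⊢
    have hs0 : s ≠ 0 := by rintro rfl; simp at hs
    have hν0 : ν s ≠ 0 := by simpa using hs0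
    obtain ⟨γ, hγ⟩ := exists_lead_dual b
    -- normalised data
    set ω : Fin n → K := fun l => w l * s ^ (-b.a l) with hω
    set E : Fin n → J → K := fun l i => s ^ (-(β i - b.a l)) * aeval s (b.e l i) with hE
    have hτ : ∀ i, ν (∑ l, ω l * E l i) ≤ g := by
      intro i
      have h1 : ∑ l, ω l * E l i = s ^ (-β i) * ∑ l, w l * aeval s (b.e l i) := by
        rw [Finset.mul_sum]
        refine Finset.sum_congr rfl fun l _ => ?_
        have h2 : s ^ (-(β i - b.a l)) = s ^ (-β i) * s ^ (b.a l) := by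
          rw [← zpow_add₀ hs0]; congr 1; ring
        simp only [hω, hE]
        rw [h2]
        have h3 : s ^ (-b.a l) * s ^ (b.a l) = 1 := by
          rw [← zpow_add₀ hs0]; simp
        calc w l * s ^ (-b.a l) * (s ^ (-β i) * s ^ (b.a l) * aeval s (b.e l i))
            = (s ^ (-b.a l) * s ^ (b.a l)) * (s ^ (-β i) * (w l * aeval s (b.e l i))) := by ring
          _ = s ^ (-β i) * (w l * aeval s (b.e l i)) := by rw [h3, one_mul]
      rw [h1, map_mul, map_zpow₀]
      calc ν s ^ (-β i) * ν (∑ l, w l * aeval s (b.e l i))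
          ≤ ν s ^ (-β i) * (g * ν s ^ β i) := mul_le_mul_right (h i) _
        _ = g * (ν s ^ (-β i) * ν s ^ β i) := mul_left_comm _ _ _
        _ = g := by rw [← zpow_add₀ hν0]; simp
    have hEL : ∀ l i, ν (E l i - algebraMap k K (lead β (b.a l) (b.e l) i)) < 1 := fun l i =>
      val_inf_lt ν hk hs (b.deg l i)
    -- Gram matrix
    set G : Fin n → Fin n → K := fun q l => ∑ i, algebraMap k K (γ q i) * E l i with hG
    have hG1 : ∀ q l, ν (G q l - if q = l then 1 else 0) < 1 := by
      intro q l
      have h1 : (if q = l then (1 : K) else 0) =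
          ∑ i, algebraMap k K (γ q i) * algebraMap k K (lead β (b.a l) (b.e l) i) := by
        have := congrArg (algebraMap k K) (hγ q l)
        rw [map_sum] at this
        simp only [map_mul] at this
        rw [this]; split_ifs <;> simp
      rw [h1, hG, ← Finset.sum_sub_distrib]
      refine ν.map_sum_lt one_ne_zero fun i _ => ?_
      rw [← mul_sub, map_mul]
      calc ν (algebraMap k K (γ q i)) * ν (E l i - algebraMap k K (lead β (b.a l) (b.e l) i))
          ≤ 1 * ν (E l i - algebraMap k K (lead β (b.a l) (b.e l) i)) := mul_le_mul_left (hk _) _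
        _ < 1 := by rw [one_mul]; exact hEL l i
    have hωg : ∀ l, ν (ω l) ≤ g := by
      obtain ⟨l0, -, hl0⟩ := Finset.exists_max_image Finset.univ (fun l => ν (ω l))
        ⟨j, Finset.mem_univ j⟩
      have hle : ∀ l, ν (ω l) ≤ ν (ω l0) := fun l => hl0 l (Finset.mem_univ l)
      suffices hh : ν (ω l0) ≤ g from fun l => (hle l).trans hh
      by_contra hlt
      rw [not_le] at hlt
      have h0 : ν (ω l0) ≠ 0 := fun h0 => by rw [h0] at hlt; exact not_lt_zero' hlt
      have h1 : ω l0 = ∑ i, algebraMap k K (γ l0 i) * ∑ l, ω l * E l i -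
          ∑ l, ω l * (G l0 l - if l0 = l then 1 else 0) := by
        have h2 : ∑ i, algebraMap k K (γ l0 i) * ∑ l, ω l * E l i = ∑ l, ω l * G l0 l := by
          simp only [hG, Finset.mul_sum]
          rw [Finset.sum_comm]
          exact Finset.sum_congr rfl fun l _ => Finset.sum_congr rfl fun i _ => by ring
        rw [h2, ← Finset.sum_sub_distrib]
        simp only [← mul_sub, sub_sub_cancel]
        simp
      have h3 : ν (∑ i, algebraMap k K (γ l0 i) * ∑ l, ω l * E l i) < ν (ω l0) := by
        refine ν.map_sum_lt h0 fun i _ => ?_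
        rw [map_mul]
        calc ν (algebraMap k K (γ l0 i)) * ν (∑ l, ω l * E l i) ≤ 1 * g :=
              mul_le_mul' (hk _) (hτ i)
          _ = g := one_mul g
          _ < ν (ω l0) := hlt
      have h4 : ν (∑ l, ω l * (G l0 l - if l0 = l then 1 else 0)) < ν (ω l0) := by
        refine ν.map_sum_lt h0 fun l _ => ?_
        rw [map_mul]
        calc ν (ω l) * ν (G l0 l - if l0 = l then 1 else 0)
            ≤ ν (ω l0) * ν (G l0 l - if l0 = l then 1 else 0) := mul_le_mul_left (hle l) _
          _ < ν (ω l0) * 1 := by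
              exact mul_lt_mul_of_pos_left (hG1 l0 l) (zero_lt_iff.2 h0)
          _ = ν (ω l0) := mul_one _
      have h5 := ν.map_sub_lt h3 h4
      rw [← h1] at h5
      exact lt_irrefl _ h5
    have h6 := hωg j
    have h7 : w j = ω j * s ^ (b.a j) := by
      simp only [hω]
      rw [mul_assoc, ← zpow_add₀ hs0]
      simp
    rw [h7, map_mul, map_zpow₀]
    exact mul_le_mul_left h6 _

end Val

/-- a vector of `K^J` in the span of the values `e_j(s)` -/
theorem values_li [Fintype J] (b : RBasis β M n) (hM : Sat M) {K : Type w} [CommRing K]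
    [Algebra k K] (s : K) : LinearIndependent K fun j => fun i => aeval s (b.e j i) := by
  classical
  obtain ⟨α, hα⟩ := exists_dual hM b.li b.span
  rw [Fintype.linearIndependent_iff]
  intro w hw j
  have h2 : ∀ l, ∑ i, aeval s (α j i) * aeval s (b.e l i) = if j = l then (1 : K) else 0 := by
    intro l
    have := congrArg (aeval s) (hα j l)
    simp only [map_sum, map_mul] at this
    rw [this]; split_ifs <;> simp
  have h3 : ∑ i, aeval s (α j i) * (∑ l, w l • fun i => aeval s (b.e l i)) i = w j := by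
    simp only [Finset.sum_apply, Pi.smul_apply, smul_eq_mul, Finset.mul_sum]
    rw [Finset.sum_comm]
    have h3 : ∀ l, ∑ i, aeval s (α j i) * (w l * aeval s (b.e l i)) =
        w l * if j = l then 1 else 0 := by
      intro l
      rw [← h2 l, Finset.mul_sum]
      exact Finset.sum_congr rfl fun i _ => by ring
    simp [h3]
  rw [hw] at h3
  simpa using h3.symm

/-- sections of the twist by `-c` -/
def Sec (β : J → ℤ) (M : Submodule k[X] (J → k[X])) (c : ℤ) : Submodule k (J → k[X]) where
  carrier := {t | t ∈ M ∧ VLe β c t}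
  add_mem' := fun h h' => ⟨M.add_mem h.1 h'.1, h.2.add h'.2⟩
  zero_mem' := ⟨M.zero_mem, VLe.zero β c⟩
  smul_mem' := by
    rintro r t ⟨h1, h2⟩
    have h3 : r • t = C r • t := by
      funext i; simp [Polynomial.smul_eq_C_mul]
    refine ⟨h3 ▸ M.smul_mem _ h1, fun i => ?_⟩
    rw [Pi.smul_apply, Polynomial.smul_eq_C_mul]
    exact (h2 i).C_mul r

theorem mem_Sec {c : ℤ} {t : J → k[X]} : t ∈ Sec β M c ↔ t ∈ M ∧ VLe β c t := Iff.rfl

/-- polynomials of degree `≤ A` -/
def PLe (k : Type u) [Field k] (A : ℤ) : Submodule k k[X] where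
  carrier := {p | DLe A p}
  add_mem' := fun h h' => h.add h'
  zero_mem' := DLe.zero A
  smul_mem' := fun r p h => by
    rw [Polynomial.smul_eq_C_mul]; exact DLe.C_mul h r

theorem PLe_eq (A : ℤ) : PLe k A = degreeLT k (A + 1).toNat := by
  ext p
  rw [mem_degreeLT]
  rcases lt_or_ge A 0 with hA | hA
  · have h1 : (A + 1).toNat = 0 := by omega
    rw [h1]
    constructor
    · intro h
      rw [DLe.eq_zero h hA]; simp
    · intro h
      have : p = 0 := by
        rw [Nat.cast_zero] at h
        by_contra hp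
        exact absurd h (not_lt.2 (zero_le_degree_iff.2 hp))
      rw [this]; exact DLe.zero A
  · lift A to ℕ using hA
    have h1 : ((A : ℤ) + 1).toNat = A + 1 := by omega
    rw [h1, degree_lt_iff_coeff_zero]
    constructor
    · intro h m hm
      rw [← cz_nat]
      exact h m (by exact_mod_cast hm)
    · intro h m hm
      have h0 : 0 ≤ m := by omega
      lift m to ℕ using h0
      rw [cz_nat]
      exact h m (by exact_mod_cast hm)

theorem finrank_PLe (A : ℤ) : Module.finrank k (PLe k A) = (A + 1).toNat := by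
  rw [PLe_eq, LinearEquiv.finrank_eq (degreeLTEquiv k _)]
  simp

instance finite_PLe (A : ℤ) : Module.Finite k (PLe k A) := by
  rw [PLe_eq]
  exact Module.Finite.equiv (degreeLTEquiv k _).symm

/-- sections in terms of coordinates -/
def secMap (b : RBasis β M n) (c : ℤ) : (∀ j, PLe k (b.a j - c)) →ₗ[k] Sec β M c where
  toFun := fun p => ⟨∑ j, (p j : k[X]) • b.e j,
    M.sum_mem fun j _ => M.smul_mem _ (b.mem j), VLe.sum fun j _ => by
      have h1 := VLe.smul (p j).2 (b.deg j)
      rwa [show b.a j - (b.a j - c) = c by ring] at h1⟩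
  map_add' := fun p q => by
    apply Subtype.ext
    simp [add_smul, Finset.sum_add_distrib]
  map_smul' := fun r p => by
    apply Subtype.ext
    simp [Finset.smul_sum, smul_assoc]

/-- sections in terms of coordinates -/
def secEquiv (b : RBasis β M n) (c : ℤ) :
    (∀ j, PLe k (b.a j - c)) ≃ₗ[k] Sec β M c := by
  refine LinearEquiv.ofBijective (secMap b c) ⟨?_, ?_⟩
  · intro p q h
    have h1 := b.coord_unique (congrArg Subtype.val h)
    funext j
    exact Subtype.ext (congrFun h1 j)
  · rintro ⟨t, ht, hd⟩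
    obtain ⟨p, rfl⟩ := b.exists_coord ht
    exact ⟨fun j => ⟨p j, b.coord_deg hd j⟩, rfl⟩

theorem finrank_sec (b : RBasis β M n) (c : ℤ) :
    Module.finrank k (Sec β M c) = ∑ j, (b.a j - c + 1).toNat := by
  rw [← LinearEquiv.finrank_eq (secEquiv b c), Module.finrank_pi_fintype]
  exact Finset.sum_congr rfl fun j _ => finrank_PLe _

theorem finite_sec (b : RBasis β M n) (c : ℤ) : Module.Finite k (Sec β M c) :=
  Module.Finite.equiv (secEquiv b c)

/-- the numbers `a_j` are determined: `#{j | a_j ≥ c}`. -/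
theorem card_ge (b : RBasis β M n) (c : ℤ) :
    ((Finset.univ.filter fun j => c ≤ b.a j).card : ℤ) =
      Module.finrank k (Sec β M c) - Module.finrank k (Sec β M (c + 1)) := by
  rw [finrank_sec b, finrank_sec b, Finset.card_filter]
  push_cast
  rw [← Finset.sum_sub_distrib]
  refine Finset.sum_congr rfl fun j _ => ?_
  split_ifs with h <;> omega

/-- **THETA-KILL** -/
theorem theta_kill (b : RBasis β M n) (ha : ∀ j, 0 ≤ b.a j) (θ : M →ₗ[k[X]] k[X])
    (hθ : ∀ (t : M) (a : ℤ), VLe β a (t : J → k[X]) → DLe (1 - a) (θ t))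
    (η : LinearMap.ker θ →ₗ[k[X]] k[X])
    (hη : ∀ t : LinearMap.ker θ, VLe β 0 ((t : M) : J → k[X]) → η t = 0)
    (hη0 : η ≠ 0) (j : Fin n) (hj : 1 ≤ b.a j) : θ ⟨b.e j, b.mem j⟩ = 0 := by
  classical
  set e : Fin n → M := fun l => ⟨b.e l, b.mem l⟩ with he
  have hde : ∀ l, DLe (1 - b.a l) (θ (e l)) := fun l => hθ (e l) _ (b.deg l)
  rcases lt_or_ge 1 (b.a j) with h1 | h1
  · exact (hde j).eq_zero (by omega)
  have h2 : b.a j = 1 := by omega
  by_contra hne
  apply hη0
  -- the value is a constant
  obtain ⟨c, hc⟩ : ∃ c : k, θ (e j) = C c := by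
    have h3 := hde j
    rw [h2, sub_self] at h3
    have h4 := dLe_nat_iff.1 (show DLe ((0 : ℕ) : ℤ) (θ (e j)) by exact_mod_cast h3)
    exact ⟨_, eq_C_of_natDegree_le_zero h4⟩
  have hc0 : c ≠ 0 := by
    rintro rfl
    rw [C_0] at hc
    exact hne hc
  have hcc : C c⁻¹ * C c = (1 : k[X]) := by rw [← C_mul, inv_mul_cancel₀ hc0, C_1]
  let q : Fin n → k[X] := fun l => C c⁻¹ * θ (e l)
  have hker : ∀ l, e l - q l • e j ∈ LinearMap.ker θ := by
    intro l
    rw [LinearMap.mem_ker, map_sub, map_smul, hc, smul_eq_mul]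
    simp only [q]
    rw [mul_right_comm, hcc, one_mul, sub_self]
  let t : Fin n → LinearMap.ker θ := fun l => ⟨e l - q l • e j, hker l⟩
  have htd : ∀ l, VLe β 0 (((t l : LinearMap.ker θ) : M) : J → k[X]) := by
    intro l
    have h3 : VLe β (b.a l) (b.e l) := b.deg l
    have h4 : DLe (1 - b.a l) (-q l) := by
      have := (hde l).C_mul (-c⁻¹)
      simpa [q] using this
    have h5 := VLe.smul h4 (b.deg j)
    rw [h2, sub_sub_cancel] at h5
    have h6 := (h3.add h5).mono (ha l)
    have h7 : (((t l : LinearMap.ker θ) : M) : J → k[X]) = b.e l + (-q l) • b.e j := by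
      simp [t, e, sub_eq_add_neg]
    rw [h7]
    exact h6
  apply LinearMap.ext
  rintro ⟨x, hx⟩
  obtain ⟨p, hp⟩ := b.exists_coord x.2
  have hx1 : x = ∑ l, p l • e l := by
    apply Subtype.ext
    rw [hp]
    simp [e]
  have hx2 : (⟨x, hx⟩ : LinearMap.ker θ) = ∑ l, p l • t l := by
    apply Subtype.ext
    have h3 : ((∑ l, p l • t l : LinearMap.ker θ) : M) = ∑ l, p l • (e l - q l • e j) := by
      simp [t]
    rw [h3]
    simp only [smul_sub, Finset.sum_sub_distrib, smul_smul, ← Finset.sum_smul]
    have h4 : ∑ l, p l * q l = 0 := by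
      have h5 : θ x = 0 := hx
      rw [hx1, map_sum] at h5
      simp only [map_smul, smul_eq_mul] at h5
      have h6 : ∑ l, p l * q l = C c⁻¹ * ∑ l, p l * θ (e l) := by
        rw [Finset.mul_sum]
        exact Finset.sum_congr rfl fun l _ => by simp only [q]; ring
      rw [h6, h5, mul_zero]
    rw [h4, zero_smul, sub_zero]
    exact hx1
  rw [hx2, map_sum, LinearMap.zero_apply]
  exact Finset.sum_eq_zero fun l _ => by rw [map_smul, hη (t l) (htd l), smul_zero]

end Crest.Agent.R260.Frm2_428
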