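import Crest.Agent.R273.KosGen_313

set_option autoImplicit false
set_option linter.unusedSectionVars false

/-!
# Row 260 (S0398), GAGA-TH, part 1 (helper323): Koszul division at a point

* `kosdiv` : `N p = N (p+1) * O`, sections `ℓ j` of `O` whose only common zero is `x0`,
  `H^q(N (q+1)) = 0` for `1 ≤ q ≤ n`; a section `s` of `N 0` which near `x0` is a combination
  `∑ ℓ j * v j` with holomorphic `v j` is a combination `∑ ℓ j * w j` with global sections `w j`
  of `N 1`.
-/

open Set Filter Topology Complex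
open scoped ContDiff Matrix ComplexConjugate Kronecker

namespace Crest.Agent.R260.Ga_323

open Crest.Agent.R275 Crest.Agent.R275.Geo Crest.Agent.R275.Core144 Crest.Agent.R275.Dg199
open Crest.Agent.R275.Kos798
open Crest.Agent.R273.LamN127 Crest.Agent.R273.KosAb_619 Crest.Agent.R273.SerA_945
open Crest.Agent.R273.SerB_945 Crest.Agent.R273.KosGen_313

noncomputable section

variable {n : ℕ} {M : Type} [TopologicalSpace M] {A : Atl n M} {r : ℕ}

open Classical in
/-- the section `φ * frame of the chart i0` -/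
def cutG (L : LB A) (φ : M → ℂ) (i0 : A.ι) : Fn A := fun i x =>
  if x ∈ (A.e i).source then φ x * L.g i i0 x else 0

theorem cutG_eq (L : LB A) (φ : M → ℂ) {i0 i : A.ι} {x : M} (hx : x ∈ (A.e i).source) :
    cutG L φ i0 i x = φ x * L.g i i0 x := if_pos hx

theorem cutG_off (L : LB A) (φ : M → ℂ) (i0 i : A.ι) : ∀ x ∉ (A.e i).source,
    cutG L φ i0 i x = 0 := fun _ hx => if_neg hx

section T2

variable [T2Space M]

theorem smS_cutG (L : LB A) {φ : M → ℂ} {i0 : A.ι} (hφ : ∀ q, SmN A φ q)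
    (hs : tsupport φ ⊆ (A.e i0).source) : SmS L (cutG L φ i0) := by
  have hz : ∀ x ∉ (A.e i0).source, φ x = 0 := fun x hx =>
    image_eq_zero_of_notMem_tsupport fun h => hx (hs h)
  refine SmS.of_smN (fun i p hp => ?_) (fun i j x hx => ?_)
  · by_cases hp0 : p ∈ (A.e i0).source
    · refine ((hφ p).mul (smN_g L ⟨hp, hp0⟩)).congr ?_
      filter_upwards [(A.e i).open_source.mem_nhds hp] with x hx
      exact cutG_eq L φ hx
    · refine (smN_const (A := A) (0 : ℂ) p).congr ?_
      have hp1 : p ∉ tsupport φ := fun h => hp0 (hs h)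
      filter_upwards [(isClosed_tsupport φ).isOpen_compl.mem_nhds hp1] with x hx
      by_cases hxi : x ∈ (A.e i).source
      · rw [cutG_eq L φ hxi, image_eq_zero_of_notMem_tsupport hx, zero_mul]
      · exact cutG_off L φ i0 i x hxi
  · rw [cutG_eq L φ hx.1, cutG_eq L φ hx.2]
    by_cases hx0 : x ∈ (A.e i0).source
    · rw [← L.mul i j i0 x ⟨hx, hx0⟩]; ring
    · rw [hz x hx0]; ring

theorem smN_mul_of_tsupport {φ : M → ℝ} {c : M → ℂ} (hφ : ∀ q, SmN A φ q)
    (hc : ∀ q ∈ tsupport φ, SmN A c q) (q : M) : SmN A (fun x => (φ x : ℂ) * c x) q := by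
  by_cases hq : q ∈ tsupport φ
  · exact (hφ q).ofReal.mul (hc q hq)
  · refine (smN_const (A := A) (0 : ℂ) q).congr ?_
    filter_upwards [(isClosed_tsupport φ).isOpen_compl.mem_nhds hq] with x hx
    rw [image_eq_zero_of_notMem_tsupport hx, ofReal_zero, zero_mul]

theorem tsupport_mul_sub {φ : M → ℝ} {c : M → ℂ} :
    tsupport (fun x => (φ x : ℂ) * c x) ⊆ tsupport φ := by
  refine closure_mono fun x hx => ?_
  rw [Function.mem_support] at hx ⊢
  intro h
  exact hx (by rw [h, ofReal_zero, zero_mul])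

/-- the zig-zag with a general start -/
theorem koszig (O : LB A) (N : ℕ → LB A) (hN : ∀ p, N (p + 1) * O = N p)
    (ℓ : Fin r → Fn A) (hℓ : ∀ j, IsHS O univ (ℓ j)) (θ : Fin r → Fn A)
    (hθ : ∀ j, SmS O⁻¹ (θ j)) {W : Set M} (hW : IsOpen W)
    (h1 : ∀ i, ∀ x ∈ (A.e i).source, x ∉ W → ∑ j, θ j i x * ℓ j i x = 1)
    (ex : ∀ q, 1 ≤ q → q ≤ n → Solv (N (q + 1)) q) {s : Fn A} (hs : IsHS (N 0) univ s)
    (y : Fin r → Fn A) (hy : ∀ j, SmS (N 1) (y j)) (hyo : ∀ j i, ∀ x ∉ (A.e i).source, y j i x = 0)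
    (hyh : ∀ j i, HolAt A i W (y j i)) (hsy : s = ∑ j, ℓ j * y j) :
    ∃ w : Fin r → Fn A, (∀ j, IsHS (N 1) univ (w j)) ∧ s = ∑ j, ℓ j * w j := by
  classical
  have hℓm : ∀ p q j, ∀ v ∈ FF (N (p + 1)) q, ℓ j • v ∈ FF (N p) q := by
    intro p q j v hv
    rw [← hN p]
    exact (IsHS.smS (hℓ j)).smul_mem hv
  have hθm : ∀ p q j, ∀ v ∈ FF (N p) q, θ j • v ∈ FF (N (p + 1)) q := by
    intro p q j v hv
    have h2 : N (p + 1) = N p * O⁻¹ := by rw [← hN p, mul_inv_cancel_right]
    rw [h2]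
    exact (hθ j).smul_mem hv
  let C : ℕ → ℕ → AddSubgroup (Finset (Fin r) → Raw A) := fun p q =>
    Deg (FF (N (p + 1)) q) (p + 1)
  -- the start
  have hym : ∀ j, embN (y j) ∈ FF (N 1) 0 := fun j => embN_mem (hy j) (hyo j)
  let y0 : Finset (Fin r) → Raw A := fun T =>
    if h : ∃ j, T = {j} then embN (y h.choose) else 0
  have hy0j : ∀ j, y0 {j} = embN (y j) := by
    intro j
    have h : ∃ j', ({j} : Finset (Fin r)) = {j'} := ⟨j, rfl⟩
    have h2 : h.choose = j := (Finset.singleton_injective h.choose_spec).symm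
    show (if h : ∃ j', ({j} : Finset (Fin r)) = {j'} then embN (y h.choose) else 0) = _
    rw [dif_pos h, h2]
  have hy0 : y0 ∈ Deg (FF (N 1) 0) 1 := by
    refine ⟨fun T hT => ?_, fun T hT => ?_⟩
    · obtain ⟨j, rfl⟩ := Finset.card_eq_one.1 hT
      rw [hy0j j]
      exact hym j
    · exact dif_neg fun ⟨j, hj⟩ => hT (by rw [hj, Finset.card_singleton])
  -- the homotopy
  have hom : ∀ p q (u : Finset (Fin r) → Raw A), u ∈ Deg (FF (N p) q) p →
      (∀ T i, ∀ x ∈ W, u T i x = 0) → kop 0 ℓ u = 0 →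
      kop 0 ℓ (kop θ 0 u) = u := by
    intro p q u hu huW hKu
    have h2 := anticomm θ ℓ u
    rw [hKu, map_zero, zero_add] at h2
    refine h2.trans ?_
    funext T i x k
    show (∑ j, θ j * ℓ j) i x * u T i x k = u T i x k
    have h4 : (∑ j, θ j * ℓ j) i x = ∑ j, θ j i x * ℓ j i x := by
      rw [Finset.sum_apply, Finset.sum_apply]
      rfl
    by_cases hx : x ∈ (A.e i).source
    · by_cases hxW : x ∈ W
      · rw [huW T i x hxW]
        exact mul_zero _
      · rw [h4, h1 i x hx hxW, one_mul]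
    · have h5 : u T i x = 0 := by
        by_cases hT : T.card = p
        · exact FF.off (hu.1 T hT) hx
        · rw [hu.2 T hT]
          rfl
      rw [h5]
      exact mul_zero _
  let s' : Finset (Fin r) → Raw A := fun T => if T = ∅ then embN s else 0
  have hs'0 : s' ∅ = embN s := if_pos rfl
  have hKy0 : kop 0 ℓ y0 = s' := by
    funext T
    rw [kop_apply]
    by_cases hT : T = ∅
    · subst hT
      rw [hs'0]
      funext i x k
      rw [Finset.sum_apply, Finset.sum_apply, Finset.sum_apply]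
      have h3 : ∀ j, ((sgn (Fn A) j (∅ : Finset (Fin r)) * cf (0 : Fin r → Fn A) ℓ j ∅) •
          y0 (tog ∅ j)) i x k = if k.1 = ∅ then ℓ j i x * y j i x else 0 := by
        intro j
        have h5 : tog (∅ : Finset (Fin r)) j = {j} := by simp [tog]
        have h6 : cf (0 : Fin r → Fn A) ℓ j ∅ = ℓ j := by simp [cf]
        have h7 : sgn (Fn A) j (∅ : Finset (Fin r)) = 1 := by simp [sgn]
        rw [h5, h6, h7, one_mul, hy0j j, smul_apply']
        by_cases hk : k.1 = ∅
        · rw [if_pos hk, embN, if_pos hk]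
        · rw [if_neg hk, embN, if_neg hk, mul_zero]
      rw [Finset.sum_congr rfl fun j _ => h3 j]
      by_cases hk : k.1 = ∅
      · simp only [if_pos hk]
        rw [embN, if_pos hk, hsy, Finset.sum_apply, Finset.sum_apply]
        rfl
      · simp only [if_neg hk]
        rw [embN, if_neg hk, Finset.sum_const_zero]
    · have h2 : s' T = 0 := if_neg hT
      rw [h2]
      refine Finset.sum_eq_zero fun j _ => ?_
      by_cases hj : j ∈ T
      · rw [cf, if_pos hj]; simp
      · have h3 : y0 (tog T j) = 0 := by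
          refine hy0.2 _ ?_
          have h4 : tog T j = insert j T := by simp [tog, hj]
          rw [h4, Finset.card_insert_of_notMem hj]
          have h5 : 0 < T.card := Finset.card_pos.2 (Finset.nonempty_iff_ne_empty.2 hT)
          omega
        rw [h3, smul_zero]
  have hDs' : DF s' = 0 := by
    funext T
    by_cases hT : T = ∅
    · have h2 : s' T = embN s := if_pos hT
      show Db (s' T) = 0
      rw [h2]
      exact Db_embN_hol hs
    · have h2 : s' T = 0 := if_neg hT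
      show Db (s' T) = 0
      rw [h2, Db_zero]
  have hη : DF y0 ∈ C 0 1 := DF_mem hy0
  have hηW : DF y0 ∈ ZF r A W := by
    intro T i x hx
    show Db (y0 T) i x = 0
    by_cases hT : ∃ j, T = {j}
    · obtain ⟨j, rfl⟩ := hT
      rw [hy0j j]
      exact Db_embN_zero (hy j) (hyo j) hW (hyh j) i x hx
    · have h2 : y0 T = 0 := dif_neg hT
      rw [h2, Db_zero]
      rfl
  have hKη : kop 0 ℓ (DF y0) = 0 := by
    rw [kop_DF (L := O) (fun j => hℓ j) hy0, hKy0, hDs']
  have DDF : ∀ p q (u : Finset (Fin r) → Raw A), u ∈ Deg (FF (N p) q) p → DF (DF u) = 0 := by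
    intro p q u hu
    funext T
    by_cases hT : T.card = p
    · exact Db_Db (hu.1 T hT)
    · show Db (Db (u T)) = 0
      rw [hu.2 T hT, Db_zero, Db_zero]
  have DFs : ∀ p q (u : Finset (Fin r) → Raw A), u ∈ Deg (FF (N p) q) p →
      ∀ v ∈ Deg (FF (N p) q) p, DF (u - v) = DF u - DF v := by
    intro p q u hu v hv
    funext T
    by_cases hT : T.card = p
    · exact Db_sub (hu.1 T hT) (hv.1 T hT)
    · show Db (u T - v T) = Db (u T) - Db (v T)
      rw [hu.2 T hT, hv.2 T hT, sub_zero, Db_zero, sub_zero]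
  obtain ⟨w, hw, hDw⟩ := zig n C (ZF r A W)
    (kop 0 ℓ : (Finset (Fin r) → Raw A) →ₗ[Fn A] _).toAddMonoidHom
    (kop θ 0 : (Finset (Fin r) → Raw A) →ₗ[Fn A] _).toAddMonoidHom DF
    (fun p q u hu => contr_mem (fun j v hv => hℓm (p + 1) q j v hv) hu)
    (fun p q u hu => DF_mem hu)
    (fun p q u hu hz => DF_Z hW hz)
    (fun p q u hu hz => wedge_mem (fun j v hv => hθm (p + 1) q j v hv) hu)
    (fun p q u hu hz => kop_Z θ 0 hz)
    (fun p q u hu => kop_DF (L := O) (fun j => hℓ j) hu)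
    (fun p q u hu => DDF (p + 1) q u hu)
    (fun p q u hu v hv => DFs (p + 1) q u hu v hv)
    (fun p q u hu hz hKu => hom (p + 1) q u hu hz hKu)
    (fun u => contr_contr ℓ u)
    (fun p q hq u hu => funext fun T => by
      by_cases hT : T.card = p + 1
      · exact FF_top hq (hu.1 T hT)
      · exact hu.2 T hT)
    (fun q hq hqn u hu hDu => by
      have h2 : ∀ T : Finset (Fin r), ∃ v : Raw A, (T.card = q + 1 → v ∈ FF (N (q + 1)) (q - 1)) ∧
          (T.card ≠ q + 1 → v = 0) ∧ Db v = u T := by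
        intro T
        by_cases hT : T.card = q + 1
        · obtain ⟨v, hv, hDv⟩ := ex q hq hqn (u T) (hu.1 T hT) (congrFun hDu T)
          exact ⟨v, fun _ => hv, fun h => absurd hT h, hDv⟩
        · exact ⟨0, fun h => absurd h hT, fun _ => rfl, by rw [Db_zero, hu.2 T hT]⟩
      choose v hv1 hv2 hv3 using h2
      exact ⟨v, ⟨fun T hT => hv1 T hT, fun T hT => hv2 T hT⟩, funext hv3⟩)
    (DF y0) hη hηW hKη (DDF 1 0 _ hy0)
  have hKw : kop 0 ℓ w ∈ Deg (FF (N 1) 0) 1 :=
    contr_mem (fun j v hv => hℓm 1 0 j v hv) (show w ∈ Deg (FF (N 2) 0) 2 from hw)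
  have hDw' : DF (kop 0 ℓ w) = DF y0 := hDw
  have hym' := AddSubgroup.sub_mem _ hy0 hKw
  have hDy : DF (y0 - kop 0 ℓ w) = 0 := by
    rw [DFs 1 0 _ hy0 _ hKw, hDw', sub_self]
  have hKy : kop 0 ℓ (y0 - kop 0 ℓ w) = s' := by
    rw [map_sub, hKy0, contr_contr, sub_zero]
  set z := y0 - kop 0 ℓ w with hzd
  have hzj : ∀ j : Fin r, z {j} ∈ FF (N 1) 0 := fun j => hym'.1 {j} (Finset.card_singleton j)
  refine ⟨fun j i x => z {j} i x (∅, ()), fun j =>
    isHS_of_closed (hzj j) (congrFun hDy {j}), ?_⟩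
  have h2 := congrFun hKy ∅
  rw [hs'0, kop_apply] at h2
  funext i x
  have h3 := congrFun (congrFun (congrFun h2 i) x) (∅, ())
  have h4 : embN s i x (∅, ()) = s i x := if_pos rfl
  rw [h4] at h3
  rw [← h3, Finset.sum_apply, Finset.sum_apply, Finset.sum_apply, Finset.sum_apply,
    Finset.sum_apply]
  refine Finset.sum_congr rfl fun j _ => ?_
  have h5 : tog (∅ : Finset (Fin r)) j = {j} := by simp [tog]
  have h6 : cf (0 : Fin r → Fn A) ℓ j ∅ = ℓ j := by simp [cf]
  have h7 : sgn (Fn A) j (∅ : Finset (Fin r)) = 1 := by simp [sgn]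
  rw [h5, h6, h7, one_mul]
  rfl

/-- **Koszul division at a point** -/
theorem kosdiv (O : LB A) (N : ℕ → LB A) (hN : ∀ p, N (p + 1) * O = N p)
    (ℓ : Fin r → Fn A) (hℓ : ∀ j, IsHS O univ (ℓ j)) {x0 : M} {i0 : A.ι}
    (hne : ∀ i, ∀ x ∈ (A.e i).source, x ≠ x0 → ∃ j, ℓ j i x ≠ 0)
    (ex : ∀ q, 1 ≤ q → q ≤ n → Solv (N (q + 1)) q) {s : Fn A} (hs : IsHS (N 0) univ s)
    {U : Set M} (hU : IsOpen U) (hx0 : x0 ∈ U) (hUs : U ⊆ (A.e i0).source)
    (v : Fin r → M → ℂ) (hv : ∀ j, HolAt A i0 U (v j))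
    (hsv : ∀ x ∈ U, s i0 x = ∑ j, ℓ j i0 x * v j x) :
    ∃ w : Fin r → Fn A, (∀ j, IsHS (N 1) univ (w j)) ∧ s = ∑ j, ℓ j * w j := by
  classical
  obtain ⟨χ, hχ, hχ1, hχs, -, -, -⟩ := exists_bump A (hU.mem_nhds hx0)
  obtain ⟨W, hWs, hW, hxW0⟩ := _root_.mem_nhds_iff.1 (Filter.inter_mem hχ1 (hU.mem_nhds hx0))
  -- the cut off local solution
  have hvs : ∀ j, ∀ q ∈ tsupport χ, SmN A (v j) q := by
    intro j q hq
    have hqU := hχs hq
    have hc := (hv j).contDiffOn hU
    refine (smN_iff (hUs hqU)).2 (hc.contDiffAt ((isOpen_ti hU).mem_nhds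
      ⟨(A.e i0).map_source (hUs hqU), ?_⟩))
    rw [mem_preimage, (A.e i0).left_inv (hUs hqU)]
    exact hqU
  let φ : Fin r → M → ℂ := fun j x => (χ x : ℂ) * v j x
  have hφ : ∀ j q, SmN A (φ j) q := fun j q => smN_mul_of_tsupport hχ (hvs j) q
  have hφs : ∀ j, tsupport (φ j) ⊆ (A.e i0).source := fun j =>
    (tsupport_mul_sub (c := v j)).trans (hχs.trans hUs)
  let a : Fin r → Fn A := fun j => cutG (N 1) (φ j) i0
  have ha : ∀ j, SmS (N 1) (a j) := fun j => smS_cutG (N 1) (hφ j) (hφs j)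
  -- the far part
  have hθ : ∀ j, SmS O⁻¹ (dualF ℓ χ j) := smS_dualF hℓ hχ fun i x hx => by
    by_cases h : x = x0
    · left
      rw [h]
      exact hχ1
    · exact Or.inr (hne i x hx h)
  let b : Fin r → Fn A := fun j => dualF ℓ χ j * s
  have hN1 : N 1 = O⁻¹ * N 0 := by
    rw [← hN 0, mul_comm (N (0 + 1)) O, inv_mul_cancel_left]
  have hb : ∀ j, SmS (N 1) (b j) := by
    intro j
    rw [hN1]
    refine ⟨fun i => ?_, fun i k x hx => ?_⟩
    · exact ((hθ j).sm i).mul ((IsHS.smS hs).sm i)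
    · show dualF ℓ χ j i x * s i x = (O⁻¹ * N 0).g i k x * (dualF ℓ χ j k x * s k x)
      rw [(hθ j).tr i k x hx, (IsHS.smS hs).tr i k x hx, LB.mul_g]
      ring
  let y : Fin r → Fn A := fun j i x => a j i x + b j i x
  have hy : ∀ j, SmS (N 1) (y j) := by
    intro j
    refine ⟨fun i => ((ha j).sm i).add ((hb j).sm i), fun i k x hx => ?_⟩
    show a j i x + b j i x = _
    rw [(ha j).tr i k x hx, (hb j).tr i k x hx]
    show _ = (N 1).g i k x * (a j k x + b j k x)
    ring
  have hbo : ∀ j i, ∀ x ∉ (A.e i).source, b j i x = 0 := by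
    intro j i x hx
    show dualF ℓ χ j i x * s i x = 0
    rw [hs.off i x hx, mul_zero]
  have hyo : ∀ j i, ∀ x ∉ (A.e i).source, y j i x = 0 := by
    intro j i x hx
    show cutG (N 1) (φ j) i0 i x + b j i x = 0
    rw [hbo j i x hx, cutG_off (N 1) (φ j) i0 i x hx, add_zero]
  -- near `x0` the start is holomorphic
  have hyh : ∀ j i, HolAt A i W (y j i) := by
    intro j i
    have hvi : HolAt A i W (v j) := by
      have := (hv j).chg hU i
      refine this.mono fun x hx => ⟨(hWs hx).2, hUs (hWs hx).2⟩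
    have hgi : HolAt A i W ((N 1).g i i0) :=
      ((N 1).hol i i0).mono fun x hx => hUs (hWs hx).2
    refine (hvi.mul hgi).congr fun x hx hxW => ?_
    show v j x * (N 1).g i i0 x = cutG (N 1) (φ j) i0 i x + dualF ℓ χ j i x * s i x
    rw [cutG_eq (N 1) (φ j) hx]
    show v j x * (N 1).g i i0 x = (χ x : ℂ) * v j x * (N 1).g i i0 x +
      (1 - (χ x : ℂ)) * (conj (ℓ j i x) * (sqs ℓ i x)⁻¹) * s i x
    rw [(hWs hxW).1]
    simp
  have hsy : s = ∑ j, ℓ j * y j := by
    funext i x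
    rw [Finset.sum_apply, Finset.sum_apply]
    by_cases hx : x ∈ (A.e i).source
    · have e1 : ∑ j, ℓ j i x * a j i x = (χ x : ℂ) * s i x := by
        by_cases hxU : x ∈ U
        · have h2 : s i x = (N 0).g i i0 x * s i0 x := hs.tr i i0 x ⟨hx, hUs hxU⟩ (mem_univ x)
          rw [h2, hsv x hxU, Finset.mul_sum, Finset.mul_sum]
          refine Finset.sum_congr rfl fun j _ => ?_
          show ℓ j i x * cutG (N 1) (φ j) i0 i x = _
          rw [cutG_eq (N 1) (φ j) hx, (hℓ j).tr i i0 x ⟨hx, hUs hxU⟩ (mem_univ x), ← hN 0,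
            LB.mul_g]
          show O.g i i0 x * ℓ j i0 x * ((χ x : ℂ) * v j x * (N 1).g i i0 x) = _
          ring
        · have h3 : χ x = 0 := image_eq_zero_of_notMem_tsupport fun h => hxU (hχs h)
          rw [h3, ofReal_zero, zero_mul]
          refine Finset.sum_eq_zero fun j _ => ?_
          show ℓ j i x * cutG (N 1) (φ j) i0 i x = 0
          rw [cutG_eq (N 1) (φ j) hx]
          show ℓ j i x * ((χ x : ℂ) * v j x * (N 1).g i i0 x) = 0
          rw [h3]
          simp
      have e2 : ∑ j, ℓ j i x * b j i x = (1 - (χ x : ℂ)) * s i x := by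
        by_cases hxx : x = x0
        · have h3 : χ x = 1 := by rw [hxx]; exact hχ1.self_of_nhds
          have h4 : ∀ j, b j i x = 0 := by
            intro j
            show (1 - (χ x : ℂ)) * (conj (ℓ j i x) * (sqs ℓ i x)⁻¹) * s i x = 0
            rw [h3]
            simp
          rw [h3]
          simp [h4]
        · have h5 := sqs_ne (hne i x hx hxx)
          have h6 : ∀ j, ℓ j i x * b j i x =
              (ℓ j i x * conj (ℓ j i x)) * ((sqs ℓ i x)⁻¹ * ((1 - (χ x : ℂ)) * s i x)) := by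
            intro j
            show ℓ j i x * ((1 - (χ x : ℂ)) * (conj (ℓ j i x) * (sqs ℓ i x)⁻¹) * s i x) = _
            ring
          rw [Finset.sum_congr rfl fun j _ => h6 j, ← Finset.sum_mul]
          show sqs ℓ i x * ((sqs ℓ i x)⁻¹ * ((1 - (χ x : ℂ)) * s i x)) = _
          rw [mul_inv_cancel_left₀ h5]
      have e3 : ∀ j, (ℓ j * y j) i x = ℓ j i x * a j i x + ℓ j i x * b j i x := fun j =>
        mul_add _ _ _
      rw [Finset.sum_congr rfl fun j _ => e3 j, Finset.sum_add_distrib, e1, e2]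
      ring
    · rw [hs.off i x hx]
      symm
      refine Finset.sum_eq_zero fun j _ => ?_
      show ℓ j i x * y j i x = 0
      rw [hyo j i x hx, mul_zero]
  obtain ⟨ρ, hρ, hρ1, hρs, -, -, -⟩ := exists_bump A (hW.mem_nhds hxW0)
  exact koszig O N hN ℓ hℓ (dualF ℓ ρ) (smS_dualF hℓ hρ fun i x hx => by
      by_cases h : x = x0
      · left
        rw [h]
        exact hρ1
      · exact Or.inr (hne i x hx h)) hW
    (fun i x hx hxW => sum_dualF ℓ ρ
      (image_eq_zero_of_notMem_tsupport fun h => hxW (hρs h))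
      (hne i x hx fun h => hxW (h ▸ hxW0))) ex hs y hy hyo hyh hsy

end T2

end

end Crest.Agent.R260.Ga_323
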