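import Mathlib

/-!
# GEN-DIM (row 260), part 1: points of small transcendence degree

`k` a field in `ℂ`.  `Td k ι d` = points of `ℂ^ι` all of whose coordinates are algebraic over
`k` (some `d` of the coordinates).  It is sigma-compact and has Hausdorff dimension at most
`2 * d` when `k` is countable.
-/

set_option autoImplicit false

namespace Crest.Agent.R260.Gd_407

open Set Topology Filter MeasureTheory Module
open scoped NNReal ENNReal

section Smooth

variable {k : Type*} [Field k] [Algebra k ℂ] {σ : Type*} [Fintype σ]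

lemma contDiff_mv (p : MvPolynomial σ k) :
    ContDiff ℂ 1 (fun x : σ → ℂ => MvPolynomial.aeval x p) := by
  induction p using MvPolynomial.induction_on with
  | C a => simp only [MvPolynomial.aeval_C]; exact contDiff_const
  | add p q hp hq => simp only [map_add]; exact hp.add hq
  | mul_X p n hp =>
    simp only [map_mul, MvPolynomial.aeval_X]
    exact hp.mul (contDiff_apply ℂ ℂ n)

/-- evaluation of `P : k[X_σ][T]` at `(x, t)` -/
noncomputable def gf (P : Polynomial (MvPolynomial σ k)) (z : (σ → ℂ) × ℂ) : ℂ :=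
  P.eval₂ (MvPolynomial.aeval z.1 : MvPolynomial σ k →ₐ[k] ℂ).toRingHom z.2

lemma contDiff_gf (P : Polynomial (MvPolynomial σ k)) : ContDiff ℂ 1 (gf P) := by
  induction P using Polynomial.induction_on' with
  | add p q hp hq =>
    have : gf (p + q) = fun z => gf p z + gf q z := by
      funext z; simp [gf, Polynomial.eval₂_add]
    rw [this]; exact hp.add hq
  | monomial n a =>
    have : gf (Polynomial.monomial n a) = fun z => MvPolynomial.aeval z.1 a * z.2 ^ n := by
      funext z; simp [gf, Polynomial.eval₂_monomial]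
    rw [this]
    exact ((contDiff_mv a).comp contDiff_fst).mul (contDiff_snd.pow n)

omit [Fintype σ] in
lemma hasDerivAt_gf (P : Polynomial (MvPolynomial σ k)) (x : σ → ℂ) (t : ℂ) :
    HasDerivAt (fun t => gf P (x, t)) (gf (Polynomial.derivative P) (x, t)) t := by
  have h := Polynomial.hasDerivAt
    (P.map (MvPolynomial.aeval x : MvPolynomial σ k →ₐ[k] ℂ).toRingHom) t
  simp only [gf, Polynomial.eval₂_eq_eval_map, Polynomial.derivative_map] at h ⊢
  exact h

lemma fderiv_gf_snd (P : Polynomial (MvPolynomial σ k)) (x : σ → ℂ) (t : ℂ) :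
    fderiv ℂ (gf P) (x, t) (0, 1) = gf (Polynomial.derivative P) (x, t) := by
  have h1 : HasFDerivAt (gf P) (fderiv ℂ (gf P) (x, t)) (x, t) :=
    ((contDiff_gf P).differentiable (by norm_num) (x, t)).hasFDerivAt
  have h2 : HasDerivAt (fun t : ℂ => ((x, t) : (σ → ℂ) × ℂ)) (0, 1) t :=
    (hasDerivAt_const t x).prodMk (hasDerivAt_id t)
  have h3 := h1.comp_hasDerivAt t h2
  exact h3.unique (hasDerivAt_gf P x t)

end Smooth

section Pieces

variable {k : Type*} [Field k] [Algebra k ℂ] {ι : Type*} [Fintype ι]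

/-- restriction of coordinates -/
def res (I : Finset ι) (v : ι → ℂ) : I → ℂ := fun i => v i

/-- one piece: `P_j (v_I, v_j) = 0`, `∂ P_j (v_I, v_j) ≠ 0` for all `j` -/
def S (I : Finset ι) (P : ι → Polynomial (MvPolynomial I k)) : Set (ι → ℂ) :=
  {v | ∀ j, gf (P j) (res I v, v j) = 0 ∧ gf (Polynomial.derivative (P j)) (res I v, v j) ≠ 0}

lemma S_loc (I : Finset ι) (P : ι → Polynomial (MvPolynomial I k)) {v : ι → ℂ}
    (hv : v ∈ S I P) :
    ∃ U ∈ 𝓝 v, ∃ K : ℝ≥0, ∀ x ∈ U ∩ S I P, ∀ y ∈ U ∩ S I P,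
      dist x y ≤ K * dist (res I x) (res I y) := by
  classical
  -- the linear maps
  let ρ : (ι → ℂ) →L[ℂ] (I → ℂ) := ContinuousLinearMap.pi fun i : I =>
    ContinuousLinearMap.proj (R := ℂ) (φ := fun _ : ι => ℂ) (i : ι)
  have hρ : ∀ x, ρ x = res I x := fun x => rfl
  let π : ∀ j : ι, (ι → ℂ) →L[ℂ] (I → ℂ) × ℂ := fun j =>
    ρ.prod (ContinuousLinearMap.proj (R := ℂ) (φ := fun _ : ι => ℂ) j)
  let H : (ι → ℂ) → (ι → ℂ) × (I → ℂ) := fun x => (fun j => gf (P j) (π j x), ρ x)
  let H' : (ι → ℂ) →L[ℂ] (ι → ℂ) × (I → ℂ) :=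
    (ContinuousLinearMap.pi fun j => (fderiv ℂ (gf (P j)) (π j v)).comp (π j)).prod ρ
  have hH : HasStrictFDerivAt H H' v := by
    refine HasStrictFDerivAt.prodMk ?_ ρ.hasStrictFDerivAt
    refine hasStrictFDerivAt_pi'' fun j => ?_
    have h1 : HasStrictFDerivAt (gf (P j)) (fderiv ℂ (gf (P j)) (π j v)) (π j v) :=
      ((contDiff_gf (P j)).contDiffAt).hasStrictFDerivAt (by norm_num)
    exact h1.comp v (π j).hasStrictFDerivAt
  have hinj : Function.Injective H' := by
    rw [injective_iff_map_eq_zero]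
    intro w hw
    have hw2 : ρ w = 0 := congrArg Prod.snd hw
    have hw1 : ∀ j, fderiv ℂ (gf (P j)) (π j v) (π j w) = 0 := fun j =>
      congrFun (congrArg Prod.fst hw) j
    funext j
    have e1 : π j w = w j • ((0 : I → ℂ), (1 : ℂ)) := by
      change (ρ w, w j) = _
      rw [hw2]
      simp
    have e2 := hw1 j
    rw [e1, map_smul] at e2
    have e3 := fderiv_gf_snd (P j) (res I v) (v j)
    change w j • (fderiv ℂ (gf (P j)) (res I v, v j)) (0, 1) = 0 at e2
    rw [e3] at e2
    rcases smul_eq_zero.mp e2 with h | h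
    · exact h
    · exact absurd h (hv j).2
  obtain ⟨K, hK0, hK⟩ := (H' : (ι → ℂ) →ₗ[ℂ] (ι → ℂ) × (I → ℂ)).exists_antilipschitzWith
    (LinearMap.ker_eq_bot.mpr hinj)
  have hKpos : (0 : ℝ) < K := hK0
  have hloc := hH.isLittleO
  have h2 : (0 : ℝ) < 1 / (2 * K) := by positivity
  have hev := hloc.def h2
  rw [nhds_prod_eq] at hev
  obtain ⟨U, hU, hU2⟩ := Filter.eventually_prod_self_iff'.mp hev
  refine ⟨U, hU, 2 * K, ?_⟩
  intro x hx y hy
  have e := hU2 x hx.1 y hy.1
  simp only at e
  have e1 : H x - H y = ((0 : ι → ℂ), res I x - res I y) := by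
    have a1 : (fun j => gf (P j) (π j x)) = 0 := by funext j; exact (hx.2 j).1
    have a2 : (fun j => gf (P j) (π j y)) = 0 := by funext j; exact (hy.2 j).1
    change ((fun j => gf (P j) (π j x)) - (fun j => gf (P j) (π j y)), ρ x - ρ y) = _
    rw [a1, a2]; simp [hρ]
  have e2 : ‖H x - H y‖ = dist (res I x) (res I y) := by
    rw [e1, dist_eq_norm, Prod.norm_def]; simp
  have e3 : ‖x - y‖ ≤ K * ‖H' (x - y)‖ := by
    have := hK.le_mul_dist (x - y) 0
    simpa [dist_eq_norm] using this
  have e4 : ‖H' (x - y)‖ ≤ ‖H x - H y‖ + ‖H x - H y - H' (x - y)‖ := by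
    have := norm_sub_norm_le (H' (x - y)) (H x - H y)
    have h5 := norm_sub_rev (H' (x - y)) (H x - H y)
    linarith
  rw [dist_eq_norm]
  have e5 : ‖x - y‖ ≤ K * (dist (res I x) (res I y) + 1 / (2 * K) * ‖x - y‖) := by
    refine e3.trans (mul_le_mul_of_nonneg_left ?_ hKpos.le)
    rw [← e2]; linarith
  have e6 : (K : ℝ) * (1 / (2 * K) * ‖x - y‖) = ‖x - y‖ / 2 := by field_simp
  push_cast
  nlinarith

lemma finrank_res (I : Finset ι) : finrank ℝ (I → ℂ) = 2 * I.card := by
  rw [← finrank_mul_finrank ℝ ℂ (I → ℂ)]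
  simp [Complex.finrank_real_complex]

lemma dimH_S_loc (I : Finset ι) (P : ι → Polynomial (MvPolynomial I k)) {v : ι → ℂ}
    (hv : v ∈ S I P) : ∃ U ∈ 𝓝 v, dimH (U ∩ S I P) ≤ 2 * I.card := by
  obtain ⟨U, hU, K, h⟩ := S_loc I P hv
  refine ⟨U, hU, ?_⟩
  let f : ↥(U ∩ S I P) → (I → ℂ) := fun x => res I x.1
  have hf : AntilipschitzWith K f := by
    refine AntilipschitzWith.of_le_mul_dist fun x y => h x.1 x.2 y.1 y.2
  have h1 : dimH (U ∩ S I P) = dimH (univ : Set ↥(U ∩ S I P)) := by
    have := (isometry_subtype_coe (s := U ∩ S I P)).dimH_image univ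
    rw [image_univ, Subtype.range_coe] at this
    exact this
  rw [h1]
  refine (hf.le_dimH_image univ).trans ?_
  refine (dimH_mono (subset_univ _)).trans ?_
  rw [Real.dimH_univ_eq_finrank, finrank_res]
  simp

theorem dimH_S (I : Finset ι) (P : ι → Polynomial (MvPolynomial I k)) :
    dimH (S I P) ≤ 2 * I.card := by
  by_contra hcon
  rw [not_le] at hcon
  obtain ⟨x, hx, h⟩ := exists_mem_nhdsWithin_lt_dimH_of_lt_dimH hcon
  obtain ⟨U, hU, h2⟩ := dimH_S_loc I P hx
  have := h (U ∩ S I P) (Filter.inter_mem (mem_nhdsWithin_of_mem_nhds hU) self_mem_nhdsWithin)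
  exact absurd h2 (not_le.mpr this)

lemma isSigmaCompact_locClosed {X : Type*} [PseudoMetricSpace X] [SigmaCompactSpace X]
    {A B : Set X} (hA : IsClosed A) (hB : IsOpen B) : IsSigmaCompact (A ∩ B) := by
  obtain ⟨F, h1, h2, h3, -⟩ := hB.exists_iUnion_isClosed
  rw [← h3, inter_iUnion]
  exact isSigmaCompact_iUnion _ fun n =>
    (isSigmaCompact_univ (X := X)).of_isClosed_subset (hA.inter (h1 n)) (subset_univ _)

theorem isSigmaCompact_S (I : Finset ι) (P : ι → Polynomial (MvPolynomial I k)) :
    IsSigmaCompact (S I P) := by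
  have hc : ∀ j (Q : Polynomial (MvPolynomial I k)),
      Continuous fun v : ι → ℂ => gf Q (res I v, v j) := fun j Q =>
    (contDiff_gf Q).continuous.comp
      ((continuous_pi fun i : I => continuous_apply (i : ι)).prodMk (continuous_apply j))
  have h : S I P = {v | ∀ j, gf (P j) (res I v, v j) = 0} ∩
      {v | ∀ j, gf (Polynomial.derivative (P j)) (res I v, v j) ≠ 0} := by
    ext v; simp only [S, mem_ofPred_eq, mem_inter_iff, forall_and]
  rw [h]
  refine isSigmaCompact_locClosed ?_ ?_
  · rw [ofPred_forall]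
    exact isClosed_iInter fun j => isClosed_eq (hc j _) continuous_const
  · rw [ofPred_forall]
    exact isOpen_iInter_of_finite fun j => isOpen_ne_fun (hc j _) continuous_const

end Pieces

section Td

variable (k : Type*) [Field k] [Algebra k ℂ] (ι : Type*) [Fintype ι]

/-- points of `ℂ^ι` whose coordinates are algebraic over `k(v_s)` for some set `s` of at most
`d` coordinates: transcendence degree at most `d` over `k` -/
def Td (d : ℕ) : Set (ι → ℂ) :=
  {v | ∃ s : Finset ι, s.card ≤ d ∧
    ∀ j, IsAlgebraic (IntermediateField.adjoin k (Set.range (res s v))) (v j)}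

variable {k ι}

omit [Fintype ι] in
lemma clear_denom {s : Finset ι} (x : s → ℂ)
    (m : Polynomial (IntermediateField.adjoin k (Set.range x))) :
    ∃ q : MvPolynomial s k, MvPolynomial.aeval x q ≠ 0 ∧
      ∃ P : Polynomial (MvPolynomial s k),
        P.map (MvPolynomial.aeval x : MvPolynomial s k →ₐ[k] ℂ).toRingHom =
          Polynomial.C (MvPolynomial.aeval x q) *
            m.map (algebraMap (IntermediateField.adjoin k (Set.range x)) ℂ) := by
  induction m using Polynomial.induction_on' with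
  | add m₁ m₂ h₁ h₂ =>
    obtain ⟨q₁, hq₁, P₁, hP₁⟩ := h₁
    obtain ⟨q₂, hq₂, P₂, hP₂⟩ := h₂
    refine ⟨q₁ * q₂, by rw [map_mul]; exact mul_ne_zero hq₁ hq₂,
      Polynomial.C q₂ * P₁ + Polynomial.C q₁ * P₂, ?_⟩
    rw [Polynomial.map_add, Polynomial.map_mul, Polynomial.map_mul, hP₁, hP₂,
      Polynomial.map_add, map_mul, Polynomial.map_C, Polynomial.map_C, Polynomial.C_mul]
    simp only [AlgHom.toRingHom_eq_coe, RingHom.coe_coe]
    ring
  | monomial n a =>
    obtain ⟨r, t, hrt⟩ := (IntermediateField.mem_adjoin_range_iff k x (a : ℂ)).mp a.2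
    by_cases ht : MvPolynomial.aeval x t = 0
    · refine ⟨1, by simp, 0, ?_⟩
      have : a = 0 := by
        apply Subtype.ext
        rw [hrt, ht]; simp
      rw [this]; simp
    · refine ⟨t, ht, Polynomial.monomial n r, ?_⟩
      rw [Polynomial.map_monomial, Polynomial.map_monomial, Polynomial.C_mul_monomial]
      congr 1
      change MvPolynomial.aeval x r = MvPolynomial.aeval x t * (a : ℂ)
      rw [hrt]; field_simp

omit [Fintype ι] in
lemma mem_S_of_isAlgebraic {s : Finset ι} {v : ι → ℂ}
    (h : ∀ j, IsAlgebraic (IntermediateField.adjoin k (Set.range (res s v))) (v j)) :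
    ∃ P : ι → Polynomial (MvPolynomial s k), v ∈ S s P := by
  have : CharZero (IntermediateField.adjoin k (Set.range (res s v))) :=
    (algebraMap (IntermediateField.adjoin k (Set.range (res s v))) ℂ).charZero
  have key : ∀ j, ∃ P : Polynomial (MvPolynomial s k), gf P (res s v, v j) = 0 ∧
      gf (Polynomial.derivative P) (res s v, v j) ≠ 0 := by
    intro j
    set L := IntermediateField.adjoin k (Set.range (res s v))
    have hint : IsIntegral L (v j) := (h j).isIntegral
    obtain ⟨q, hq, P, hP⟩ := clear_denom (res s v) (minpoly L (v j))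
    have hsep : (minpoly L (v j)).Separable := (minpoly.irreducible hint).separable
    have h0 : Polynomial.aeval (v j) (minpoly L (v j)) = 0 := minpoly.aeval L (v j)
    have h1 : Polynomial.aeval (v j) (Polynomial.derivative (minpoly L (v j))) ≠ 0 :=
      hsep.aeval_derivative_ne_zero h0
    refine ⟨P, ?_, ?_⟩
    · change P.eval₂ _ _ = 0
      rw [Polynomial.eval₂_eq_eval_map, hP, Polynomial.eval_mul, Polynomial.eval_map_algebraMap,
        h0, mul_zero]
    · change (Polynomial.derivative P).eval₂ _ _ ≠ 0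
      rw [Polynomial.eval₂_eq_eval_map, ← Polynomial.derivative_map, hP,
        Polynomial.derivative_C_mul, Polynomial.eval_mul, Polynomial.eval_C,
        Polynomial.derivative_map, Polynomial.eval_map_algebraMap]
      exact mul_ne_zero hq h1
  choose P hP using key
  exact ⟨P, hP⟩

omit [Fintype ι] in
lemma isAlgebraic_of_mem_S {s : Finset ι} {P : ι → Polynomial (MvPolynomial s k)} {v : ι → ℂ}
    (h : v ∈ S s P) (j : ι) :
    IsAlgebraic (IntermediateField.adjoin k (Set.range (res s v))) (v j) := by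
  set L := IntermediateField.adjoin k (Set.range (res s v))
  let φ : MvPolynomial s k →ₐ[k] L :=
    MvPolynomial.aeval fun i : s => (⟨res s v i, IntermediateField.subset_adjoin k _ ⟨i, rfl⟩⟩ : L)
  have hφ : ∀ p, ((φ p : L) : ℂ) = MvPolynomial.aeval (res s v) p := by
    intro p
    have : (L.val.comp φ) = MvPolynomial.aeval (res s v) := by
      apply MvPolynomial.algHom_ext
      intro i
      simp [φ]
    exact DFunLike.congr_fun this p
  have hφ2 : (MvPolynomial.aeval (res s v) : MvPolynomial s k →ₐ[k] ℂ).toRingHom =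
      (algebraMap L ℂ).comp φ.toRingHom := by
    ext p <;> simp [← hφ]
  refine ⟨(P j).map φ.toRingHom, ?_, ?_⟩
  · intro h0
    apply (h j).2
    change (Polynomial.derivative (P j)).eval₂ _ _ = 0
    rw [hφ2, ← Polynomial.eval₂_map, ← Polynomial.derivative_map, h0]
    simp
  · have := (h j).1
    change (P j).eval₂ _ _ = 0 at this
    rw [hφ2, ← Polynomial.eval₂_map] at this
    exact this

theorem Td_eq (d : ℕ) :
    Td k ι d = ⋃ (I : {I : Finset ι // I.card ≤ d}),
      ⋃ (P : ι → Polynomial (MvPolynomial I.1 k)), S I.1 P := by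
  ext v
  simp only [Td, mem_ofPred_eq, mem_iUnion, Subtype.exists]
  constructor
  · rintro ⟨s, hs, h⟩
    exact ⟨s, hs, mem_S_of_isAlgebraic h⟩
  · rintro ⟨s, hs, P, hP⟩
    exact ⟨s, hs, isAlgebraic_of_mem_S hP⟩

omit [Algebra k ℂ] in
theorem countable_mv [Countable k] (σ : Type*) [Countable σ] : Countable (MvPolynomial σ k) :=
  (AddMonoidAlgebra.coeff_injective (R := k) (M := σ →₀ ℕ)).countable

theorem countable_poly {R : Type*} [Semiring R] [Countable R] : Countable (Polynomial R) := by
  have : Countable (AddMonoidAlgebra R ℕ) :=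
    (AddMonoidAlgebra.coeff_injective (R := R) (M := ℕ)).countable
  exact (Polynomial.toFinsuppIso R).toEquiv.countable_iff.mpr this

theorem countable_P [Countable k] (I : Finset ι) :
    Countable (ι → Polynomial (MvPolynomial I k)) := by
  have := countable_mv (k := k) I
  have := countable_poly (R := MvPolynomial I k)
  infer_instance

/-- **(G1)** Hausdorff dimension. -/
theorem dimH_Td [Countable k] (d : ℕ) : dimH (Td k ι d) ≤ 2 * d := by
  rw [Td_eq, dimH_iUnion]
  refine iSup_le fun I => ?_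
  have := countable_P (k := k) I.1
  rw [dimH_iUnion]
  refine iSup_le fun P => (dimH_S I.1 P).trans ?_
  gcongr
  exact_mod_cast I.2

/-- **(G1)** sigma-compactness. -/
theorem isSigmaCompact_Td [Countable k] (d : ℕ) : IsSigmaCompact (Td k ι d) := by
  rw [Td_eq]
  refine isSigmaCompact_iUnion _ fun I => ?_
  have := countable_P (k := k) I.1
  exact isSigmaCompact_iUnion _ fun P => isSigmaCompact_S I.1 P

end Td

end Crest.Agent.R260.Gd_407
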