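import Crest.Agent.R260.Gd1_407

/-!
# GEN-DIM (row 260), part 2: images of sets of points of small transcendence degree are meagre
-/

set_option autoImplicit false

namespace Crest.Agent.R260.Gd_407

open Set Topology Filter MeasureTheory Module
open scoped NNReal ENNReal

section General

variable {E Y X : Type*} [NormedAddCommGroup E] [NormedSpace ℝ E] [FiniteDimensional ℝ E]
  [NormedAddCommGroup Y] [NormedSpace ℝ Y] [FiniteDimensional ℝ Y]
  [NormedAddCommGroup X] [NormedSpace ℝ X] [FiniteDimensional ℝ X]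

/-- a map with injective strict derivative is locally antilipschitz -/
lemma antilipschitz_of_strict {g : E → X} {g' : E →L[ℝ] X} {x : E}
    (h : HasStrictFDerivAt g g' x) (hinj : Function.Injective g') :
    ∃ U ∈ 𝓝 x, ∃ K : ℝ≥0, ∀ a ∈ U, ∀ b ∈ U, dist a b ≤ K * dist (g a) (g b) := by
  obtain ⟨K, hK0, hK⟩ := (g' : E →ₗ[ℝ] X).exists_antilipschitzWith (LinearMap.ker_eq_bot.mpr hinj)
  have hKpos : (0 : ℝ) < K := hK0
  have h2 : (0 : ℝ) < 1 / (2 * K) := by positivity
  have hev := h.isLittleO.def h2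
  rw [nhds_prod_eq] at hev
  obtain ⟨U, hU, hU2⟩ := Filter.eventually_prod_self_iff'.mp hev
  refine ⟨U, hU, 2 * K, fun a ha b hb => ?_⟩
  have e := hU2 a ha b hb
  simp only at e
  have e3 : ‖a - b‖ ≤ K * ‖g' (a - b)‖ := by
    have := hK.le_mul_dist (a - b) 0
    simpa [dist_eq_norm] using this
  have e4 : ‖g' (a - b)‖ ≤ ‖g a - g b‖ + ‖g a - g b - g' (a - b)‖ := by
    have := norm_sub_norm_le (g' (a - b)) (g a - g b)
    have h5 := norm_sub_rev (g' (a - b)) (g a - g b)
    linarith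
  rw [dist_eq_norm, dist_eq_norm]
  have e5 : ‖a - b‖ ≤ K * (‖g a - g b‖ + 1 / (2 * K) * ‖a - b‖) :=
    e3.trans (mul_le_mul_of_nonneg_left (by linarith) hKpos.le)
  have e6 : (K : ℝ) * (1 / (2 * K) * ‖a - b‖) = ‖a - b‖ / 2 := by field_simp
  push_cast
  nlinarith

omit [FiniteDimensional ℝ Y] [FiniteDimensional ℝ X] in
/-- local bound of the Hausdorff dimension of a preimage under a locally antilipschitz map -/
lemma dimH_preimage_le_loc {g : E → X} {U : Set E} {T : Set X}
    (h : ∀ x ∈ U, ∃ V ∈ 𝓝 x, ∃ K : ℝ≥0, ∀ a ∈ V, ∀ b ∈ V, dist a b ≤ K * dist (g a) (g b)) :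
    dimH (U ∩ g ⁻¹' T) ≤ dimH T := by
  by_contra hcon
  rw [not_le] at hcon
  obtain ⟨x, hx, h1⟩ := exists_mem_nhdsWithin_lt_dimH_of_lt_dimH hcon
  obtain ⟨V, hV, K, hK⟩ := h x hx.1
  have h2 := h1 (V ∩ (U ∩ g ⁻¹' T))
    (Filter.inter_mem (mem_nhdsWithin_of_mem_nhds hV) self_mem_nhdsWithin)
  refine absurd h2 (not_lt.mpr ?_)
  let f : V → X := fun a => g a.1
  have hf : AntilipschitzWith K f := AntilipschitzWith.of_le_mul_dist fun a b => hK a a.2 b b.2
  have h3 : dimH (f ⁻¹' T) ≤ dimH T := hf.dimH_preimage_le T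
  have h4 : dimH (Subtype.val '' (f ⁻¹' T)) = dimH (f ⁻¹' T) :=
    (isometry_subtype_coe (s := V)).dimH_image _
  refine le_trans (dimH_mono ?_) (h4.le.trans h3)
  rintro a ⟨ha, -, ha2⟩
  exact ⟨⟨a, ha⟩, ha2, rfl⟩

omit [FiniteDimensional ℝ Y] [FiniteDimensional ℝ X] in
lemma isSigmaCompact_preimage {g : E → X} {U : Set E} {T : Set X} (hU : IsOpen U)
    (hg : ContinuousOn g U) (hT : IsSigmaCompact T) : IsSigmaCompact (U ∩ g ⁻¹' T) := by
  have hU2 : IsSigmaCompact U := by
    have := isSigmaCompact_locClosed (X := E) isClosed_univ hU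
    rwa [univ_inter] at this
  obtain ⟨C, hC, hCU⟩ := hU2
  obtain ⟨D, hD, hDT⟩ := hT
  have : U ∩ g ⁻¹' T = ⋃ n, ⋃ m, C n ∩ g ⁻¹' (D m) := by
    rw [← hDT, preimage_iUnion]
    conv_lhs => rw [← hCU]
    ext x; simp only [mem_inter_iff, mem_iUnion]
    constructor
    · rintro ⟨⟨n, hn⟩, m, hm⟩; exact ⟨n, m, hn, hm⟩
    · rintro ⟨n, m, hn, hm⟩; exact ⟨⟨n, hn⟩, m, hm⟩
  rw [this]
  refine isSigmaCompact_iUnion _ fun n => isSigmaCompact_iUnion _ fun m => ?_
  have hCn : C n ⊆ U := by rw [← hCU]; exact subset_iUnion C n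
  refine IsCompact.isSigmaCompact ?_
  exact (hC n).of_isClosed_subset
    ((hg.mono hCn).preimage_isClosed_of_isClosed (hC n).isClosed (hD m).isClosed) inter_subset_left

/-- **image of a sigma-compact set of small dimension is meagre** -/
theorem isMeagre_image {A : Set E} {π : E → Y} (hA : IsSigmaCompact A)
    (hd : dimH A < finrank ℝ Y) (hπ : ∀ x ∈ A, ∃ C : ℝ≥0, ∃ t ∈ 𝓝[A] x, LipschitzOnWith C π t) :
    IsMeagre (π '' A) := by
  borelize Y
  have h1 : dimH (π '' A) ≤ dimH A := dimH_image_le_of_locally_lipschitzOn hπ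
  have h2 : Measure.hausdorffMeasure (finrank ℝ Y : ℝ) (π '' A) = 0 := by
    have := hausdorffMeasure_of_dimH_lt (s := π '' A) (d := (finrank ℝ Y : ℝ≥0))
      (by simpa using h1.trans_lt hd)
    simpa using this
  have hc : ContinuousOn π A := by
    intro x hx
    obtain ⟨C, t, ht, hL⟩ := hπ x hx
    have hxt : x ∈ t := mem_of_mem_nhdsWithin hx ht
    exact (hL.continuousOn x hxt).mono_of_mem_nhdsWithin ht
  exact IsMeagre.of_isSigmaCompact_null (hA.image_of_continuousOn hc) h2

end General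

section Main

variable {k : Type*} [Field k] [Algebra k ℂ] [Countable k] {ι : Type*} [Fintype ι]
variable {E Y : Type*} [NormedAddCommGroup E] [NormedSpace ℝ E] [FiniteDimensional ℝ E]
  [NormedAddCommGroup Y] [NormedSpace ℝ Y] [FiniteDimensional ℝ Y]

/-- **(G2)**: `g` an immersion of the open set `U` of the real vector space `E` into `ℂ^ι`,
`π : U → Y` of class `C¹`, `2 d < dim_ℝ Y`: the images of the points `x` with
`trdeg_k g(x) ≤ d` form a meagre set. -/
theorem isMeagre_Td {d : ℕ} {U : Set E} (hU : IsOpen U) {g : E → (ι → ℂ)}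
    (hg : ContDiffOn ℝ 1 g U) (hinj : ∀ x ∈ U, Function.Injective (fderiv ℝ g x))
    {π : E → Y} (hπ : ContDiffOn ℝ 1 π U) (hd : 2 * d < finrank ℝ Y) :
    IsMeagre (π '' (U ∩ g ⁻¹' Td k ι d)) := by
  have hst : ∀ x ∈ U, HasStrictFDerivAt g (fderiv ℝ g x) x := fun x hx =>
    (hg.contDiffAt (hU.mem_nhds hx)).hasStrictFDerivAt (by norm_num)
  have h1 : dimH (U ∩ g ⁻¹' Td k ι d) ≤ 2 * d :=
    (dimH_preimage_le_loc fun x hx => antilipschitz_of_strict (hst x hx) (hinj x hx)).trans
      (dimH_Td d)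
  refine isMeagre_image (isSigmaCompact_preimage hU hg.continuousOn (isSigmaCompact_Td d))
    (h1.trans_lt ?_) ?_
  · exact_mod_cast hd
  · intro x hx
    obtain ⟨K, t, ht, hL⟩ := ((hπ.contDiffAt (hU.mem_nhds hx.1)).exists_lipschitzOnWith)
    exact ⟨K, t, mem_nhdsWithin_of_mem_nhds ht, hL⟩

/-- the points themselves: if `2 d < dim_ℝ E` then the points of transcendence degree at most
`d` form a meagre subset -/
theorem isMeagre_Td_self {d : ℕ} {U : Set E} (hU : IsOpen U) {g : E → (ι → ℂ)}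
    (hg : ContDiffOn ℝ 1 g U) (hinj : ∀ x ∈ U, Function.Injective (fderiv ℝ g x))
    (hd : 2 * d < finrank ℝ E) : IsMeagre (U ∩ g ⁻¹' Td k ι d) := by
  have := isMeagre_Td (k := k) hU hg hinj (π := id) contDiff_id.contDiffOn hd
  simpa using this

end Main

section KU

/-- easy half of Kuratowski–Ulam: if all of `{y} × F` lies in a countable union of closed nowhere
dense sets of `Y × F`, `F` nonempty Baire and second countable, then `y` is in a meagre set -/
theorem isMeagre_fibre {Y F : Type*} [TopologicalSpace Y] [TopologicalSpace F] [Nonempty F]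
    [BaireSpace F] [SecondCountableTopology F] {A : Set (Y × F)} (hA : IsMeagre A) :
    IsMeagre {y : Y | ∀ z : F, (y, z) ∈ A} := by
  obtain ⟨𝒮, hS, hSc, hAS⟩ := isMeagre_iff_countable_union_isNowhereDense.mp hA
  let B := TopologicalSpace.countableBasis F
  have hBc : B.Countable := TopologicalSpace.countable_countableBasis F
  have hBb : TopologicalSpace.IsTopologicalBasis B := TopologicalSpace.isBasis_countableBasis F
  have hBn : ∀ V ∈ B, V.Nonempty := fun V hV => TopologicalSpace.nonempty_of_mem_countableBasis hV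
  have hcS : Countable 𝒮 := hSc.to_subtype
  have hcB : Countable B := hBc.to_subtype
  refine IsMeagre.mono (s := ⋃ (t : 𝒮), ⋃ (V : B),
    {y : Y | ∀ z ∈ (V : Set F), (y, z) ∈ closure (t : Set (Y × F))}) ?_ ?_
  · intro y hy
    have hU : (⋃ t : 𝒮, {z : F | (y, z) ∈ closure (t : Set (Y × F))}) = univ := by
      rw [eq_univ_iff_forall]
      intro z
      obtain ⟨t, ht, hzt⟩ := hAS (hy z)
      exact mem_iUnion.mpr ⟨⟨t, ht⟩, subset_closure hzt⟩
    obtain ⟨t, z, hz⟩ := nonempty_interior_of_iUnion_of_closed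
      (fun t : 𝒮 => isClosed_closure.preimage (Continuous.prodMk_right y)) hU
    obtain ⟨V, hV, hzV, hVs⟩ := hBb.exists_subset_of_mem_open hz isOpen_interior
    refine mem_iUnion.mpr ⟨t, mem_iUnion.mpr ⟨⟨V, hV⟩, fun z hz => ?_⟩⟩
    have hz' : z ∈ {z : F | (y, z) ∈ closure (t : Set (Y × F))} := interior_subset (hVs hz)
    exact hz'
  · refine isMeagre_iUnion fun t => isMeagre_iUnion fun V => IsNowhereDense.isMeagre ?_
    have hcl : IsClosed {y : Y | ∀ z ∈ (V : Set F), (y, z) ∈ closure (t : Set (Y × F))} := by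
      have : {y : Y | ∀ z ∈ (V : Set F), (y, z) ∈ closure (t : Set (Y × F))} =
          ⋂ z ∈ (V : Set F), {y : Y | (y, z) ∈ closure (t : Set (Y × F))} := by
        ext y; simp
      rw [this]
      exact isClosed_biInter fun z _ => isClosed_closure.preimage (Continuous.prodMk_left z)
    rw [hcl.isNowhereDense_iff, eq_empty_iff_forall_notMem]
    intro y hy
    obtain ⟨z, hz⟩ := hBn V V.2
    have h1 : (y, z) ∈ interior (closure (t : Set (Y × F))) := by
      rw [mem_interior_iff_mem_nhds]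
      refine Filter.mem_of_superset (prod_mem_nhds (isOpen_interior.mem_nhds hy)
        ((hBb.isOpen V.2).mem_nhds hz)) ?_
      rintro ⟨a, b⟩ ⟨ha, hb⟩
      exact interior_subset ha b hb
    have := hS t t.2
    rw [IsNowhereDense] at this
    rw [this] at h1
    exact h1

end KU

end Crest.Agent.R260.Gd_407
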