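import Mathlib

/-!
# Row 260 (S0398), task GEN (helper422), file 1

Countable algebraically closed fields of definition; algebraic closures of subfields inside an
algebraically closed field; descent of systems of equations.
-/

set_option autoImplicit false

namespace Crest.Agent.R260.Gen_422

open MvPolynomial

universe u v

/-! ### algebraic closures of subfields -/

section acl

variable {K : Type u} [Field K]

/-- the algebraic closure of `F(S)` in `K` -/
noncomputable def acl (F : Subfield K) (S : Set K) : Subfield K :=
  (algebraicClosure (Subfield.closure ((F : Set K) ∪ S)) K).toSubfield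

theorem mem_acl_iff {F : Subfield K} {S : Set K} {x : K} :
    x ∈ acl F S ↔ IsAlgebraic (Subfield.closure ((F : Set K) ∪ S)) x :=
  mem_algebraicClosure_iff

theorem closure_le_acl (F : Subfield K) (S : Set K) :
    Subfield.closure ((F : Set K) ∪ S) ≤ acl F S := fun x hx =>
  mem_acl_iff.2 (isAlgebraic_algebraMap (⟨x, hx⟩ : Subfield.closure ((F : Set K) ∪ S)))

theorem subset_acl (F : Subfield K) (S : Set K) : S ⊆ acl F S := fun _ hx =>
  closure_le_acl F S (Subfield.subset_closure (Or.inr hx))

theorem le_acl (F : Subfield K) (S : Set K) : F ≤ acl F S := fun _ hx =>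
  closure_le_acl F S (Subfield.subset_closure (Or.inl hx))

instance isAlgClosed_acl [IsAlgClosed K] (F : Subfield K) (S : Set K) : IsAlgClosed (acl F S) :=
  (algebraicClosure.isAlgClosure (F := Subfield.closure ((F : Set K) ∪ S)) (E := K)).isAlgClosed

theorem countable_closure {S : Set K} (hS : S.Countable) : Countable (Subfield.closure S) := by
  rw [← Cardinal.mk_le_aleph0_iff]
  refine (Subfield.cardinalMk_closure_le_max S).trans ?_
  exact max_le (Cardinal.mk_le_aleph0_iff.2 hS.to_subtype) le_rfl

theorem countable_acl {F : Subfield K} {S : Set K} [Countable F] (hS : S.Countable) :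
    Countable (acl F S) := by
  have h1 : ((F : Set K) ∪ S).Countable := Set.Countable.union (Set.to_countable _) hS
  have := countable_closure h1
  have h2 : Cardinal.mk (algebraicClosure (Subfield.closure ((F : Set K) ∪ S)) K) ≤
      max (Cardinal.mk (Subfield.closure ((F : Set K) ∪ S))) Cardinal.aleph0 :=
    Algebra.IsAlgebraic.cardinalMk_le_max _ _
  rw [← Cardinal.mk_le_aleph0_iff]
  exact h2.trans (max_le (Cardinal.mk_le_aleph0_iff.2 this) le_rfl)

/-- a subfield over which every algebraic element is already in it -/
theorem mem_of_isAlgebraic {F : Subfield K} [IsAlgClosed F] {x : K} (hx : IsAlgebraic F x) :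
    x ∈ F := by
  have h1 : Algebra.IsAlgebraic F (algebraicClosure F K) := inferInstance
  have h2 : Function.Surjective (algebraMap F (algebraicClosure F K)) :=
    (IsAlgClosed.algebraMap_bijective_of_isIntegral (k := F) (K := algebraicClosure F K)).2
  obtain ⟨c, hc⟩ := h2 ⟨x, mem_algebraicClosure_iff.2 hx⟩
  have : (c : K) = x := congrArg Subtype.val hc
  rw [← this]
  exact c.2

theorem acl_le {F F' : Subfield K} [IsAlgClosed F'] {S : Set K} (hF : F ≤ F')
    (hS : S ⊆ F') : acl F S ≤ F' := by
  intro x hx
  have h1 : Subfield.closure ((F : Set K) ∪ S) ≤ F' :=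
    Subfield.closure_le.2 (Set.union_subset hF hS)
  refine mem_of_isAlgebraic ?_
  have h2 := mem_acl_iff.1 hx
  obtain ⟨p, hp, hpx⟩ := h2
  refine ⟨p.map (Subfield.inclusion h1), ?_, ?_⟩
  · rwa [Ne, Polynomial.map_eq_zero]
  · rw [Polynomial.aeval_def, Polynomial.eval₂_map]
    exact hpx

theorem acl_mono {F F' : Subfield K} [IsAlgClosed K] {S S' : Set K} (hF : F ≤ F')
    (hS : S ⊆ S') : acl F S ≤ acl F' S' :=
  acl_le (hF.trans (le_acl _ _)) (hS.trans (subset_acl _ _))

theorem acl_acl [IsAlgClosed K] (F : Subfield K) (S S' : Set K) :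
    acl (acl F S) S' = acl F (S ∪ S') := by
  apply le_antisymm
  · exact acl_le (acl_mono le_rfl Set.subset_union_left)
      (Set.subset_union_right.trans (subset_acl _ _))
  · refine acl_le ((le_acl F S).trans (le_acl _ _)) (Set.union_subset ?_ (subset_acl _ _))
    exact (subset_acl F S).trans (le_acl (acl F S) S')

theorem acl_eq_self (F : Subfield K) [IsAlgClosed F] : acl F (∅ : Set K) = F :=
  le_antisymm (acl_le le_rfl (Set.empty_subset _)) (le_acl _ _)

/-- a countable algebraically closed subfield containing a given countable set -/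
theorem exists_countable_field [IsAlgClosed K] {S : Set K} (hS : S.Countable) :
    ∃ k₀ : Subfield K, S ⊆ k₀ ∧ Countable k₀ ∧ IsAlgClosed k₀ := by
  have h0 : Countable (⊥ : Subfield K) := by
    have h1 : Subfield.closure (∅ : Set K) = ⊥ := Subfield.closure_empty
    rw [← h1]
    exact countable_closure Set.countable_empty
  exact ⟨acl ⊥ S, subset_acl _ _, countable_acl hS, inferInstance⟩

end acl

/-! ### descent of polynomials -/

section descent

variable {K : Type u} [Field K] {σ : Type v}

/-- the set of coefficients of a polynomial -/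
def coefs (p : MvPolynomial σ K) : Set K := Set.range p.coeff

theorem exists_map_eq {F : Subfield K} {p : MvPolynomial σ K} (hp : coefs p ⊆ F) :
    ∃ q : MvPolynomial σ F, map (algebraMap F K) q = p := by
  have : p ∈ Set.range (map (σ := σ) (algebraMap F K)) := by
    rw [MvPolynomial.mem_range_map_iff_coeffs_subset]
    intro c hc
    obtain ⟨m, hm, rfl⟩ := (MvPolynomial.mem_coeffs_iff).1 hc
    exact ⟨⟨p.coeff m, hp ⟨m, rfl⟩⟩, rfl⟩
  exact this

theorem countable_coefs (p : MvPolynomial σ K) : (coefs p).Countable := by
  have h : coefs p ⊆ insert 0 (p.coeff '' (p.support : Set (σ →₀ ℕ))) := by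
    rintro _ ⟨m, rfl⟩
    by_cases hm : p.coeff m = 0
    · left
      exact hm
    · right
      exact ⟨m, by simpa using hm, rfl⟩
  refine Set.Countable.mono h ?_
  exact Set.Countable.insert _ ((Set.Finite.image _ (Finset.finite_toSet _)).countable)

end descent

end Crest.Agent.R260.Gen_422
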