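import Mathlib

/-!
# Row 260 (S0398), GENFAM part 1 (helper919): the prime ideal of an analytic family

`exists_prime` : `A` Noetherian, `R` a domain, `T x : A →+* R` a family of ring maps over a
topological space such that `{x | T x p = 0}` is closed in `U` for every `p`. On a smaller open set
`V` the common kernel is prime and does not grow on smaller open sets.
-/

set_option autoImplicit false

open Topology

namespace Crest.Agent.R260.GenFam_919

universe u v w

variable {A : Type u} {R : Type v} {X : Type w} [CommRing A] [CommRing R] [TopologicalSpace X]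

/-- the common kernel over a set of parameters. -/
def ker (T : X → A →+* R) (W : Set X) : Ideal A where
  carrier := {p | ∀ x ∈ W, T x p = 0}
  add_mem' := by
    intro p q hp hq x hx
    rw [map_add, hp x hx, hq x hx, add_zero]
  zero_mem' := by
    intro x _
    exact map_zero _
  smul_mem' := by
    intro a p hp x hx
    rw [smul_eq_mul, map_mul, hp x hx, mul_zero]

theorem mem_ker {T : X → A →+* R} {W : Set X} {p : A} : p ∈ ker T W ↔ ∀ x ∈ W, T x p = 0 :=
  Iff.rfl

theorem ker_anti {T : X → A →+* R} {V W : Set X} (h : W ⊆ V) : ker T V ≤ ker T W :=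
  fun _ hp x hx => hp x (h hx)

/-- **GF1.** -/
theorem exists_prime [IsNoetherianRing A] [IsDomain R] (T : X → A →+* R) {U : Set X}
    (hU : IsOpen U) (hne : U.Nonempty)
    (hcl : ∀ p, ∀ x ∈ U, T x p ≠ 0 → ∀ᶠ y in 𝓝 x, T y p ≠ 0) :
    ∃ V : Set X, IsOpen V ∧ V.Nonempty ∧ V ⊆ U ∧ (ker T V).IsPrime ∧
      ∀ W : Set X, IsOpen W → W.Nonempty → W ⊆ V → ker T W = ker T V := by
  classical
  -- choose a maximal element among the ideals `ker T V`
  let S : Set (Ideal A) := {I | ∃ V : Set X, IsOpen V ∧ V.Nonempty ∧ V ⊆ U ∧ I = ker T V}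
  have hS : S.Nonempty := ⟨_, U, hU, hne, le_rfl, rfl⟩
  obtain ⟨I, ⟨V, hV, hVne, hVU, rfl⟩, hmax⟩ :=
    (set_has_maximal_iff_noetherian (R := A) (M := A)).2 inferInstance S hS
  have hst : ∀ W : Set X, IsOpen W → W.Nonempty → W ⊆ V → ker T W = ker T V := by
    intro W hW hWne hWV
    have h1 := hmax (ker T W) ⟨W, hW, hWne, hWV.trans hVU, rfl⟩
    exact ((ker_anti hWV).eq_of_not_lt h1).symm
  refine ⟨V, hV, hVne, hVU, ?_, hst⟩
  constructor
  · intro htop
    obtain ⟨x, hx⟩ := hVne
    have h1 : (1 : A) ∈ ker T V := by rw [htop]; trivial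
    have := h1 x hx
    rw [map_one] at this
    exact one_ne_zero this
  · intro p q hpq
    by_cases hp : ∀ x ∈ V, T x p = 0
    · exact Or.inl hp
    · right
      push Not at hp
      obtain ⟨x0, hx0, hx0p⟩ := hp
      have hev : ∀ᶠ y in 𝓝 x0, T y p ≠ 0 ∧ y ∈ V :=
        (hcl p x0 (hVU hx0) hx0p).and (hV.mem_nhds hx0)
      obtain ⟨W, hW1, hW2, hW3⟩ := eventually_nhds_iff.1 hev
      have hWV : W ⊆ V := fun y hy => (hW1 y hy).2
      have hq : q ∈ ker T W := by
        intro y hy
        have h1 := hpq y (hWV hy)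
        rw [map_mul] at h1
        exact (mul_eq_zero.1 h1).resolve_left (hW1 y hy).1
      rw [hst W hW2 ⟨x0, hW3⟩ hWV] at hq
      exact hq

end Crest.Agent.R260.GenFam_919
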