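import Mathlib

/-!
Row 260 (S0398), task H1-HAD (helper12), Mathlib only.

* `exists_quot`: `f` analytic at `x` ⇒ `f z = f x + q z (z - x)` near `x`, `q` analytic at `x`, `q x = f'(x)`.
* `hadamard`: `g j` analytic at `z0`, `g j z0 = 0`, the differentials at `z0` separate the vectors,
  `f` analytic at `z0`, `f z0 = 0` ⇒ near `z0`: `f z = ∑ j, g j z * v j z` with `v j` analytic at `z0`.
* `hadamard_open`: the same on an open neighbourhood, with `AnalyticOnNhd` and `DifferentiableOn` quotients.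
-/

set_option autoImplicit false

open Filter Topology

namespace Crest.Agent.R260.Had_12

universe u v w

section General

variable {𝕜 : Type u} [NontriviallyNormedField 𝕜]
variable {E : Type v} [NormedAddCommGroup E] [NormedSpace 𝕜 E]
variable {F : Type w} [NormedAddCommGroup F] [NormedSpace 𝕜 F] [CompleteSpace F]

omit [CompleteSpace F] in
theorem shift_apply (p : FormalMultilinearSeries 𝕜 E F) (n : ℕ) (y : E) :
    (p.shift n (fun _ => y)) y = p (n + 1) (fun _ => y) := by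
  rw [FormalMultilinearSeries.shift, ContinuousMultilinearMap.curryRight_apply]
  congr 1
  funext i
  refine Fin.lastCases ?_ (fun j => ?_) i
  · simp
  · simp

/-- first order division of an analytic function -/
theorem exists_quot {f : E → F} {x : E} (hf : AnalyticAt 𝕜 f x) :
    ∃ q : E → (E →L[𝕜] F), AnalyticAt 𝕜 q x ∧ q x = fderiv 𝕜 f x ∧
      ∀ᶠ z in 𝓝 x, f z = f x + q z (z - x) := by
  obtain ⟨p, r, hp⟩ := hf
  have hr : 0 < p.shift.radius := by
    rw [FormalMultilinearSeries.radius_shift]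
    exact lt_of_lt_of_le hp.r_pos hp.r_le
  have hq := FormalMultilinearSeries.hasFPowerSeriesOnBall p.shift hr
  set S : E → (E →L[𝕜] F) := p.shift.sum with hS
  have hqa : AnalyticAt 𝕜 (fun z => S (z - x)) x := by
    have h1 : AnalyticAt 𝕜 S (x - x) := by
      rw [sub_self]; exact hq.analyticAt
    exact AnalyticAt.comp (g := S) (f := fun z => z - x) h1
      (analyticAt_id.sub analyticAt_const)
  have hev : ∀ᶠ z in 𝓝 x, f z = f x + S (z - x) (z - x) := by
    have h1 : ∀ᶠ z in 𝓝 x, z ∈ Metric.eball x r := Metric.eball_mem_nhds x hp.r_pos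
    filter_upwards [h1] with z hz
    have hz' : z - x ∈ Metric.eball (0 : E) r := by
      simpa [edist_eq_enorm_sub, Metric.mem_eball] using hz
    have hs := hp.hasSum hz'
    rw [add_sub_cancel] at hs
    have hs1 := (hasSum_nat_add_iff' 1).2 hs
    rw [Finset.sum_range_one, hp.coeff_zero] at hs1
    have hz2 : z - x ∈ Metric.eball (0 : E) p.shift.radius := by
      rw [FormalMultilinearSeries.radius_shift]
      exact Metric.eball_subset_eball hp.r_le hz'
    have hq1 := hq.hasSum hz2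
    rw [zero_add] at hq1
    have hq2 := hq1.mapL (ContinuousLinearMap.apply 𝕜 F (z - x))
    have hq3 : HasSum (fun n => p (n + 1) (fun _ => z - x)) (S (z - x) (z - x)) := by
      have he : (fun n => p (n + 1) (fun _ => z - x)) = fun n => p.shift n (fun _ => z - x) (z - x) :=
        funext fun n => (shift_apply p n (z - x)).symm
      rw [he]
      exact hq2
    have := hq3.unique hs1
    rw [this]; abel
  refine ⟨fun z => S (z - x), hqa, ?_, hev⟩
  have hd : HasFDerivAt (fun z => f x + S (z - x) (z - x)) (S (x - x)) x := by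
    have h1 := (hqa.differentiableAt.hasFDerivAt.clm_apply
      ((hasFDerivAt_id x).sub_const x)).const_add (f x)
    refine h1.congr_fderiv ?_
    ext y
    simp
  have hd2 : HasFDerivAt f (S (x - x)) x := hd.congr_of_eventuallyEq hev
  exact hd2.fderiv.symm

end General

section Div

variable {𝕜 : Type u} [NontriviallyNormedField 𝕜] [CompleteSpace 𝕜]
variable {E : Type v} [NormedAddCommGroup E] [NormedSpace 𝕜 E] [FiniteDimensional 𝕜 E]
variable {ι : Type w} [Fintype ι]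

/-- vector form: `G : E → (ι → 𝕜)` analytic at `z0`, zero at `z0`, injective differential: every `f` with
`f z0 = 0` is `φ z (G z)` with `φ z` a linear form depending analytically on `z` -/
theorem hadamard_vec {G : E → (ι → 𝕜)} {z0 : E} (hG : AnalyticAt 𝕜 G z0) (hG0 : G z0 = 0)
    (hd : Function.Injective (fderiv 𝕜 G z0))
    {f : E → 𝕜} (hf : AnalyticAt 𝕜 f z0) (hf0 : f z0 = 0) :
    ∃ φ : E → ((ι → 𝕜) →L[𝕜] 𝕜), AnalyticAt 𝕜 φ z0 ∧ ∀ᶠ z in 𝓝 z0, f z = φ z (G z) := by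
  have : CompleteSpace E := FiniteDimensional.complete 𝕜 E
  obtain ⟨q, hq, -, hqe⟩ := exists_quot hf
  obtain ⟨Q, hQ, hQ0, hQe⟩ := exists_quot hG
  -- a left inverse of the differential
  obtain ⟨L0, hL0⟩ : ∃ L0 : (ι → 𝕜) →ₗ[𝕜] E, L0.comp (fderiv 𝕜 G z0 : E →ₗ[𝕜] (ι → 𝕜)) = LinearMap.id :=
    LinearMap.exists_leftInverse_of_injective _ (LinearMap.ker_eq_bot.2 hd)
  let L : (ι → 𝕜) →L[𝕜] E := LinearMap.toContinuousLinearMap L0
  let A : E → (E →L[𝕜] E) := fun z => L.comp (Q z)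
  have hA : AnalyticAt 𝕜 A z0 :=
    AnalyticAt.comp (g := fun T : E →L[𝕜] (ι → 𝕜) => L.comp T) (f := Q)
      ((ContinuousLinearMap.compL 𝕜 E (ι → 𝕜) E L).analyticAt _) hQ
  have hA0 : A z0 = 1 := by
    ext y
    have := LinearMap.congr_fun hL0 y
    simp only [A, hQ0]
    exact this
  have hAu : ∀ᶠ z in 𝓝 z0, IsUnit (A z) := by
    have h1 : {T : E →L[𝕜] E | IsUnit T} ∈ 𝓝 (A z0) := by
      rw [hA0]
      exact Units.isOpen.mem_nhds isUnit_one
    exact hA.continuousAt h1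
  have hI : AnalyticAt 𝕜 (fun z => Ring.inverse (A z)) z0 := by
    refine AnalyticAt.comp (g := fun T : E →L[𝕜] E => Ring.inverse T) (f := A) ?_ hA
    rw [hA0]
    exact analyticAt_inverse (𝕜 := 𝕜) (1 : (E →L[𝕜] E)ˣ)
  refine ⟨fun z => (q z).comp ((Ring.inverse (A z)).comp L), ?_, ?_⟩
  · have h1 : AnalyticAt 𝕜 (fun z => (Ring.inverse (A z)).comp L) z0 :=
      AnalyticAt.comp (g := fun T : E →L[𝕜] E => T.comp L) (f := fun z => Ring.inverse (A z))
        (((ContinuousLinearMap.compL 𝕜 (ι → 𝕜) E E).flip L).analyticAt _) hI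
    exact AnalyticAt.comp₂ (h := fun p : (E →L[𝕜] 𝕜) × ((ι → 𝕜) →L[𝕜] E) => p.1.comp p.2)
      ((ContinuousLinearMap.compL 𝕜 (ι → 𝕜) E 𝕜).analyticAt_bilinear _) hq h1
  · filter_upwards [hqe, hQe, hAu] with z h1 h2 h3
    rw [h1, hf0, zero_add, h2, hG0, zero_add]
    simp only [ContinuousLinearMap.comp_apply]
    have h4 : (Ring.inverse (A z)) (L (Q z (z - z0))) = z - z0 := by
      have h5 : Ring.inverse (A z) * A z = 1 := Ring.inverse_mul_cancel _ h3
      have h6 := congrArg (fun T : E →L[𝕜] E => T (z - z0)) h5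
      exact h6
    rw [h4]

/-- **Hadamard division** -/
theorem hadamard {g : ι → E → 𝕜} {z0 : E} (hg : ∀ j, AnalyticAt 𝕜 (g j) z0)
    (hg0 : ∀ j, g j z0 = 0) (hd : ∀ u, (∀ j, fderiv 𝕜 (g j) z0 u = 0) → u = 0)
    {f : E → 𝕜} (hf : AnalyticAt 𝕜 f z0) (hf0 : f z0 = 0) :
    ∃ v : ι → E → 𝕜, (∀ j, AnalyticAt 𝕜 (v j) z0) ∧
      ∀ᶠ z in 𝓝 z0, f z = ∑ j, g j z * v j z := by
  classical
  have hG : AnalyticAt 𝕜 (fun z => fun j => g j z) z0 := AnalyticAt.pi hg
  have hGd : ∀ u j, fderiv 𝕜 (fun z => fun j => g j z) z0 u j = fderiv 𝕜 (g j) z0 u := by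
    intro u j
    rw [fderiv_pi (fun j => (hg j).differentiableAt)]
    rfl
  obtain ⟨φ, hφ, he⟩ := hadamard_vec hG (by funext j; exact hg0 j)
    ((injective_iff_map_eq_zero _).2 fun u hu => hd u fun j => by
      rw [← hGd, hu]; rfl) hf hf0
  refine ⟨fun j z => φ z (Pi.single j 1), fun j => ?_, ?_⟩
  · exact AnalyticAt.comp (g := fun T : (ι → 𝕜) →L[𝕜] 𝕜 => T (Pi.single j 1)) (f := φ)
      ((ContinuousLinearMap.apply 𝕜 𝕜 (Pi.single j (1 : 𝕜) : ι → 𝕜)).analyticAt _) hφ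
  · filter_upwards [he] with z hz
    rw [hz]
    have h1 : (fun j => g j z) = ∑ j, g j z • (Pi.single j (1 : 𝕜) : ι → 𝕜) := by
      funext i
      simp [Finset.sum_apply, Pi.single_apply]
    conv_lhs => rw [h1]
    simp [map_sum, smul_eq_mul]

/-- **Hadamard division on a neighbourhood** -/
theorem hadamard_open {g : ι → E → 𝕜} {z0 : E} (hg : ∀ j, AnalyticAt 𝕜 (g j) z0)
    (hg0 : ∀ j, g j z0 = 0) (hd : ∀ u, (∀ j, fderiv 𝕜 (g j) z0 u = 0) → u = 0)
    {f : E → 𝕜} (hf : AnalyticAt 𝕜 f z0) (hf0 : f z0 = 0) {W : Set E} (hW : W ∈ 𝓝 z0) :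
    ∃ U ⊆ W, IsOpen U ∧ z0 ∈ U ∧ ∃ v : ι → E → 𝕜, (∀ j, AnalyticOnNhd 𝕜 (v j) U) ∧
      (∀ j, DifferentiableOn 𝕜 (v j) U) ∧ ∀ z ∈ U, f z = ∑ j, g j z * v j z := by
  obtain ⟨v, hv, he⟩ := hadamard hg hg0 hd hf hf0
  have h1 : ∀ᶠ z in 𝓝 z0, ∀ j, AnalyticAt 𝕜 (v j) z :=
    Filter.eventually_all.2 fun j => (hv j).eventually_analyticAt
  obtain ⟨U, hU, hUo, hz⟩ := mem_nhds_iff.1 (Filter.inter_mem hW (Filter.inter_mem h1 he))
  exact ⟨U, fun z h => (hU h).1, hUo, hz, v, fun j z h => (hU h).2.1 j,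
    fun j z h => ((hU h).2.1 j).differentiableAt.differentiableWithinAt, fun z h => (hU h).2.2⟩

end Div

end Crest.Agent.R260.Had_12
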