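import Mathlib

/-!
# R260 (S0398), HOMOG part 1 (helper516): homogenisation with respect to blocks of variables

`τ` = variables, `blk x` = the block of `x`, `cc b` = the distinguished variable of the block `b`.
* `wh_scale` : scaling formula of a multihomogeneous polynomial;
* `hmg`      : for all large multidegrees `dd` every polynomial `p` in the normalised coordinates
               `x / x_(cc (blk x))` is `∏ x_(cc b) ^ (- dd b)` times a multihomogeneous polynomial;
* `hmgP`     : the same for a polynomial in `T` over `MvPolynomial τ ℂ`, with a weight for `T`.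
-/

set_option autoImplicit false

namespace Crest.Agent.R260.Hmg_516

open MvPolynomial

variable {τ B : Type*} [Fintype B] [DecidableEq B]

/-- scaling formula -/
theorem wh_scale (blk : τ → B) {q : MvPolynomial τ ℂ} {dd : B → ℕ}
    (hq : IsWeightedHomogeneous (fun x : τ => (Pi.single (blk x) 1 : B → ℕ)) q dd)
    (l : B → ℂ) (z : τ → ℂ) :
    aeval (fun x => l (blk x) * z x) q = (∏ b, l b ^ dd b) * aeval z q := by
  classical
  rw [MvPolynomial.aeval_def, MvPolynomial.aeval_def, MvPolynomial.eval₂_eq, MvPolynomial.eval₂_eq,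
    Finset.mul_sum]
  refine Finset.sum_congr rfl fun e he => ?_
  have hc := hq (MvPolynomial.mem_support_iff.1 he)
  have h1 : ∀ b, dd b = ∑ y ∈ e.support, if blk y = b then e y else 0 := by
    intro b
    rw [← hc, Finsupp.weight_apply, Finsupp.sum, Finset.sum_apply]
    refine Finset.sum_congr rfl fun y _ => ?_
    by_cases hy : blk y = b
    · subst hy
      simp [Pi.smul_apply, smul_eq_mul]
    · rw [if_neg hy, Pi.smul_apply, Pi.single_eq_of_ne (Ne.symm hy), smul_zero]
  have h2 : ∏ y ∈ e.support, (l (blk y) * z y) ^ e y =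
      (∏ b, l b ^ dd b) * ∏ y ∈ e.support, z y ^ e y := by
    have h3 : ∏ b, l b ^ dd b = ∏ y ∈ e.support, l (blk y) ^ e y := by
      have h4 : ∀ b, l b ^ dd b = ∏ y ∈ e.support, if blk y = b then l b ^ e y else 1 := by
        intro b
        rw [h1 b, ← Finset.prod_pow_eq_pow_sum]
        refine Finset.prod_congr rfl fun y _ => ?_
        split_ifs
        · rfl
        · rw [pow_zero]
      rw [Finset.prod_congr rfl fun b _ => h4 b, Finset.prod_comm]
      refine Finset.prod_congr rfl fun y _ => ?_
      rw [Finset.prod_ite_eq Finset.univ (blk y) fun b => l b ^ e y, if_pos (Finset.mem_univ _)]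
    rw [h3, ← Finset.prod_mul_distrib]
    exact Finset.prod_congr rfl fun y _ => mul_pow _ _ _
  rw [h2]
  ring

/-- homogenisation -/
theorem hmg (blk : τ → B) (cc : B → τ) (hcc : ∀ b, blk (cc b) = b) (p : MvPolynomial τ ℂ) :
    ∃ N0 : ℕ, ∀ dd : B → ℕ, (∀ b, N0 ≤ dd b) → ∃ q : MvPolynomial τ ℂ,
      IsWeightedHomogeneous (fun x : τ => (Pi.single (blk x) 1 : B → ℕ)) q dd ∧
      ∀ z : τ → ℂ, (∀ b, z (cc b) ≠ 0) →
        aeval z q = (∏ b, z (cc b) ^ dd b) * aeval (fun x => z x / z (cc (blk x))) p := by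
  classical
  induction p using MvPolynomial.induction_on with
  | C r =>
    refine ⟨0, fun dd _ => ⟨C r * ∏ b, X (cc b) ^ dd b, ?_, fun z _ => ?_⟩⟩
    · have h1 : IsWeightedHomogeneous (fun x : τ => (Pi.single (blk x) 1 : B → ℕ))
          (∏ b, (X (cc b) : MvPolynomial τ ℂ) ^ dd b) (∑ b, dd b • (Pi.single b 1 : B → ℕ)) := by
        refine IsWeightedHomogeneous.prod _ _ _ fun b _ => ?_
        have := (isWeightedHomogeneous_X ℂ (fun x : τ => (Pi.single (blk x) 1 : B → ℕ))
          (cc b)).pow (dd b)
        rw [hcc] at this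
        exact this
      have h2 : ∑ b, dd b • (Pi.single b 1 : B → ℕ) = dd := by
        funext b'
        rw [Finset.sum_apply, Finset.sum_eq_single b']
        · simp
        · intro b _ hb
          simp [Pi.single_eq_of_ne (Ne.symm hb)]
        · simp
      rw [h2] at h1
      have h3 := (isWeightedHomogeneous_C (fun x : τ => (Pi.single (blk x) 1 : B → ℕ)) r).mul h1
      rwa [zero_add] at h3
    · simp [mul_comm]
  | add p q hp hq =>
    obtain ⟨N1, h1⟩ := hp
    obtain ⟨N2, h2⟩ := hq
    refine ⟨max N1 N2, fun dd hdd => ?_⟩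
    obtain ⟨p', hp', hpe⟩ := h1 dd fun b => (le_max_left _ _).trans (hdd b)
    obtain ⟨q', hq', hqe⟩ := h2 dd fun b => (le_max_right _ _).trans (hdd b)
    refine ⟨p' + q', hp'.add hq', fun z hz => ?_⟩
    rw [map_add, hpe z hz, hqe z hz, map_add]
    ring
  | mul_X p x hp =>
    obtain ⟨N1, h1⟩ := hp
    refine ⟨N1 + 1, fun dd hdd => ?_⟩
    set dd' : B → ℕ := fun b => dd b - (if b = blk x then 1 else 0) with hdd'
    have hsum : dd' + (Pi.single (blk x) 1 : B → ℕ) = dd := by
      funext b
      simp only [Pi.add_apply, hdd']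
      by_cases hb : b = blk x
      · subst hb
        have := hdd (blk x)
        simp
        omega
      · rw [if_neg hb, Pi.single_eq_of_ne hb]
        simp
    obtain ⟨p', hp', hpe⟩ := h1 dd' fun b => by
      have := hdd b
      simp only [hdd']
      split_ifs <;> omega
    refine ⟨p' * X x, ?_, fun z hz => ?_⟩
    · have := hp'.mul (isWeightedHomogeneous_X ℂ (fun x : τ => (Pi.single (blk x) 1 : B → ℕ)) x)
      rwa [hsum] at this
    · rw [map_mul, hpe z hz, map_mul, aeval_X, aeval_X]
      have h2 : ∏ b, z (cc b) ^ dd b = (∏ b, z (cc b) ^ dd' b) * z (cc (blk x)) := by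
        have h3 : ∀ b, z (cc b) ^ dd b = z (cc b) ^ dd' b *
            (if b = blk x then z (cc b) else 1) := by
          intro b
          have h4 : dd b = dd' b + (Pi.single (blk x) 1 : B → ℕ) b := by
            rw [← Pi.add_apply, hsum]
          by_cases hb : b = blk x
          · rw [if_pos hb, h4, pow_add, hb]
            simp
          · rw [if_neg hb, h4, Pi.single_eq_of_ne hb]
            simp
        rw [Finset.prod_congr rfl fun b _ => h3 b, Finset.prod_mul_distrib,
          Finset.prod_ite_eq' Finset.univ (blk x) fun b => z (cc b), if_pos (Finset.mem_univ _)]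
      rw [h2]
      have h5 := hz (blk x)
      field_simp

/-- homogenisation of a polynomial in `T`, where `T` has the weight `w` -/
theorem hmgP (blk : τ → B) (cc : B → τ) (hcc : ∀ b, blk (cc b) = b) (w : B → ℤ)
    (P : Polynomial (MvPolynomial τ ℂ)) :
    ∃ (M : ℕ) (Q : Polynomial (MvPolynomial τ ℂ)),
      (∀ (l : B → ℂ) (z : τ → ℂ) (t : ℂ), (∀ b, l b ≠ 0) →
        (Q.map (aeval (fun x => l (blk x) * z x)).toRingHom).eval ((∏ b, l b ^ w b) * t) =
          (∏ b, l b ^ M) * (Q.map (aeval z).toRingHom).eval t) ∧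
      ∀ z : τ → ℂ, (∀ b, z (cc b) ≠ 0) → Q.map (aeval z).toRingHom =
        Polynomial.C (∏ b, z (cc b) ^ M) *
          (P.map (aeval (fun x => z x / z (cc (blk x)))).toRingHom).comp
            (Polynomial.C (∏ b, z (cc b) ^ (-w b)) * Polynomial.X) := by
  classical
  choose N0 hN0 using fun k : ℕ => hmg blk cc hcc (P.coeff k)
  obtain ⟨M, hM⟩ : ∃ M : ℕ, ∀ k ∈ Finset.range (P.natDegree + 1), ∀ b : B,
      (N0 k : ℤ) + k * |w b| ≤ M := by
    refine ⟨∑ k ∈ Finset.range (P.natDegree + 1), ∑ b : B, (N0 k + k * (w b).natAbs)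
      + 0, fun k hk b => ?_⟩
    have h1 : N0 k + k * (w b).natAbs ≤
        ∑ k ∈ Finset.range (P.natDegree + 1), ∑ b : B, (N0 k + k * (w b).natAbs) := by
      refine le_trans ?_ (Finset.single_le_sum (f := fun k => ∑ b : B, (N0 k + k * (w b).natAbs))
        (fun _ _ => Nat.zero_le _) hk)
      exact Finset.single_le_sum (f := fun b => N0 k + k * (w b).natAbs)
        (fun _ _ => Nat.zero_le _) (Finset.mem_univ b)
    have h2 : ((w b).natAbs : ℤ) = |w b| := Int.natCast_natAbs _
    rw [← h2, add_zero]
    exact_mod_cast h1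
  have hpos : ∀ k ∈ Finset.range (P.natDegree + 1), ∀ b : B, (N0 k : ℤ) ≤ M - k * w b := by
    intro k hk b
    have h1 := hM k hk b
    have h2 : (k : ℤ) * w b ≤ k * |w b| := mul_le_mul_of_nonneg_left (le_abs_self _) (by positivity)
    linarith
  have hex : ∀ k ∈ Finset.range (P.natDegree + 1), ∃ q : MvPolynomial τ ℂ,
      IsWeightedHomogeneous (fun x : τ => (Pi.single (blk x) 1 : B → ℕ)) q
        (fun b => ((M : ℤ) - k * w b).toNat) ∧
      ∀ z : τ → ℂ, (∀ b, z (cc b) ≠ 0) →
        aeval z q = (∏ b, z (cc b) ^ ((M : ℤ) - k * w b).toNat) *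
          aeval (fun x => z x / z (cc (blk x))) (P.coeff k) := by
    intro k hk
    refine hN0 k (fun b => ((M : ℤ) - k * w b).toNat) (fun b => ?_)
    have := hpos k hk b
    omega
  choose! q hq1 hq2 using hex
  refine ⟨M, ∑ k ∈ Finset.range (P.natDegree + 1), Polynomial.C (q k) * Polynomial.X ^ k, ?_, ?_⟩
  · intro l z t hl
    simp only [Polynomial.map_sum, Polynomial.map_mul, Polynomial.map_C, Polynomial.map_pow,
      Polynomial.map_X, Polynomial.eval_finsetSum, Polynomial.eval_mul, Polynomial.eval_C,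
      Polynomial.eval_pow, Polynomial.eval_X, Finset.mul_sum]
    refine Finset.sum_congr rfl fun k hk => ?_
    have h1 := wh_scale blk (hq1 k hk) l z
    have h2 : (∏ b, l b ^ ((M : ℤ) - k * w b).toNat) * (∏ b, l b ^ w b) ^ k = ∏ b, l b ^ M := by
      rw [← Finset.prod_pow, ← Finset.prod_mul_distrib]
      refine Finset.prod_congr rfl fun b _ => ?_
      have h3 : ((((M : ℤ) - k * w b).toNat : ℕ) : ℤ) = (M : ℤ) - k * w b :=
        Int.toNat_of_nonneg (by have := hpos k hk b; omega)
      rw [← zpow_natCast (l b) (((M : ℤ) - k * w b).toNat), h3, ← zpow_natCast (l b ^ w b) k,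
        ← zpow_mul, ← zpow_add₀ (hl b), ← zpow_natCast (l b) M]
      congr 1
      ring
    change aeval (fun x => l (blk x) * z x) (q k) * ((∏ b, l b ^ w b) * t) ^ k =
      (∏ b, l b ^ M) * (aeval z (q k) * t ^ k)
    rw [h1, mul_pow, ← h2]
    ring
  · intro z hz
    apply Polynomial.ext
    intro k
    have hcomp : ((P.map (aeval (fun x => z x / z (cc (blk x)))).toRingHom).comp
        (Polynomial.C (∏ b, z (cc b) ^ (-w b)) * Polynomial.X)).coeff k =
        aeval (fun x => z x / z (cc (blk x))) (P.coeff k) * (∏ b, z (cc b) ^ (-w b)) ^ k := by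
      rw [Polynomial.comp_C_mul_X_coeff, Polynomial.coeff_map]
      rfl
    rw [Polynomial.coeff_C_mul, hcomp, Polynomial.coeff_map, Polynomial.finsetSum_coeff]
    have hlhs : (∑ k' ∈ Finset.range (P.natDegree + 1),
        (Polynomial.C (q k') * Polynomial.X ^ k' : Polynomial (MvPolynomial τ ℂ)).coeff k) =
        if k ∈ Finset.range (P.natDegree + 1) then q k else 0 := by
      simp only [Polynomial.coeff_C_mul_X_pow]
      rw [Finset.sum_ite_eq]
    rw [hlhs]
    split_ifs with hk
    · have h1 := hq2 k hk z hz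
      have h2 : (∏ b, z (cc b) ^ ((M : ℤ) - k * w b).toNat) =
          (∏ b, z (cc b) ^ M) * (∏ b, z (cc b) ^ (-w b)) ^ k := by
        rw [← Finset.prod_pow, ← Finset.prod_mul_distrib]
        refine Finset.prod_congr rfl fun b _ => ?_
        have h3 : ((((M : ℤ) - k * w b).toNat : ℕ) : ℤ) = (M : ℤ) - k * w b :=
          Int.toNat_of_nonneg (by have := hpos k hk b; omega)
        rw [← zpow_natCast (z (cc b)) (((M : ℤ) - k * w b).toNat), h3,
          ← zpow_natCast (z (cc b) ^ (-w b)) k, ← zpow_mul, ← zpow_natCast (z (cc b)) M,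
          ← zpow_add₀ (hz b)]
        congr 1
        ring
      change aeval z (q k) = _
      rw [h1, h2]
      ring
    · have h1 : P.coeff k = 0 := by
        apply Polynomial.coeff_eq_zero_of_natDegree_lt
        simpa [Nat.lt_succ_iff] using hk
      rw [h1]
      simp

end Crest.Agent.R260.Hmg_516
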