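import Crest.Agent.R260.Fin5_600

/-!
# R260 (S0398), HOMOG (helper516): proof of `Fin5_600.Homog`

Comparison of `P(x; T)` and `P(l x; l^w T)` at the generic point, linear independence of characters of
the torus, multihomogeneous components.
-/

set_option autoImplicit false
set_option linter.unusedSectionVars false

namespace Crest.Agent.R260.Hmg3_516

open Polynomial Crest.Agent.R260.Fin5_600

universe u

section Gen

variable {k : Type u} [Field k] {σ ι : Type} [Fintype σ] [Fintype ι] (b : σ → ι)

/-- component of multidegree `n` -/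
noncomputable def cmp (n : ι → ℕ) (p : MvPolynomial σ k) : MvPolynomial σ k :=
  MvPolynomial.weightedHomogeneousComponent (bw b) n p

/-- the multidegrees which occur -/
noncomputable def ds (p : MvPolynomial σ k) : Finset (ι → ℕ) :=
  open Classical in p.support.image (Finsupp.weight (bw b))

theorem cmp_hom (n : ι → ℕ) (p : MvPolynomial σ k) :
    MvPolynomial.IsWeightedHomogeneous (bw b) (cmp b n p) n :=
  MvPolynomial.weightedHomogeneousComponent_isWeightedHomogeneous n p

theorem sum_cmp (p : MvPolynomial σ k) : ∑ n ∈ ds b p, cmp b n p = p := by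
  classical
  ext d
  rw [MvPolynomial.coeff_sum]
  have h1 : ∀ n, MvPolynomial.coeff d (cmp b n p) =
      if Finsupp.weight (bw b) d = n then MvPolynomial.coeff d p else 0 := fun n =>
    MvPolynomial.coeff_weightedHomogeneousComponent n p d
  rw [Finset.sum_congr rfl fun n _ => h1 n, Finset.sum_ite_eq]
  split_ifs with h
  · rfl
  · by_contra hne
    apply h
    unfold ds
    rw [Finset.mem_image]
    exact ⟨d, MvPolynomial.mem_support_iff.2 fun h0 => hne h0.symm, rfl⟩

theorem cmp_zero_of_notMem {n : ι → ℕ} {p : MvPolynomial σ k} (h : n ∉ ds b p) : cmp b n p = 0 := by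
  classical
  unfold cmp
  apply MvPolynomial.weightedHomogeneousComponent_eq_zero'
  intro d hd hn
  apply h
  unfold ds
  rw [Finset.mem_image]
  exact ⟨d, hd, hn⟩

/-- scaling of a multihomogeneous polynomial -/
theorem sc_hom {K : Type*} [CommSemiring K] [Algebra k K] {p : MvPolynomial σ k} {n : ι → ℕ}
    (hp : MvPolynomial.IsWeightedHomogeneous (bw b) p n) (l : ι → K) (x : σ → K) :
    MvPolynomial.aeval (sc b l x) p = (∏ i, l i ^ n i) * MvPolynomial.aeval x p := by
  classical
  rw [MvPolynomial.aeval_def, MvPolynomial.aeval_def, MvPolynomial.eval₂_eq, MvPolynomial.eval₂_eq,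
    Finset.mul_sum]
  refine Finset.sum_congr rfl fun e he => ?_
  have hc := hp (MvPolynomial.mem_support_iff.1 he)
  have h1 : ∀ i, n i = ∑ y ∈ e.support, if b y = i then e y else 0 := by
    intro i
    rw [← hc, Finsupp.weight_apply, Finsupp.sum, Finset.sum_apply]
    refine Finset.sum_congr rfl fun y _ => ?_
    unfold bw
    by_cases hy : b y = i
    · subst hy
      simp [Pi.smul_apply, smul_eq_mul]
    · rw [if_neg hy, Pi.smul_apply, Pi.single_eq_of_ne (Ne.symm hy), smul_zero]
  have h2 : ∏ y ∈ e.support, (sc b l x y) ^ e y =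
      (∏ i, l i ^ n i) * ∏ y ∈ e.support, x y ^ e y := by
    have h3 : ∏ i, l i ^ n i = ∏ y ∈ e.support, l (b y) ^ e y := by
      have h4 : ∀ i, l i ^ n i = ∏ y ∈ e.support, if b y = i then l i ^ e y else 1 := by
        intro i
        rw [h1 i, ← Finset.prod_pow_eq_pow_sum]
        refine Finset.prod_congr rfl fun y _ => ?_
        split_ifs
        · rfl
        · rw [pow_zero]
      rw [Finset.prod_congr rfl fun i _ => h4 i, Finset.prod_comm]
      refine Finset.prod_congr rfl fun y _ => ?_
      rw [Finset.prod_ite_eq Finset.univ (b y) fun i => l i ^ e y, if_pos (Finset.mem_univ _)]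
    rw [h3, ← Finset.prod_mul_distrib]
    exact Finset.prod_congr rfl fun y _ => mul_pow _ _ _
  rw [h2]
  ring

/-- expansion of `p (l x)` -/
theorem sc_expand {K : Type*} [CommSemiring K] [Algebra k K] (p : MvPolynomial σ k) (l : ι → K)
    (x : σ → K) : MvPolynomial.aeval (sc b l x) p =
      ∑ n ∈ ds b p, (∏ i, l i ^ n i) * MvPolynomial.aeval x (cmp b n p) := by
  conv_lhs => rw [← sum_cmp b p]
  rw [map_sum]
  exact Finset.sum_congr rfl fun n _ => sc_hom b (cmp_hom b n p) l x

end Gen

section Char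

variable {k : Type u} [Field k] [CharZero k] {ι : Type} [Fintype ι]

/-- the characters of the torus with values in `K` -/
noncomputable def chr (K : Type u) [Field K] [Algebra k K] (m : ι → ℤ) : (ι → kˣ) →* K where
  toFun l := ∏ i, (algebraMap k K (l i)) ^ m i
  map_one' := by simp
  map_mul' l l' := by
    rw [← Finset.prod_mul_distrib]
    refine Finset.prod_congr rfl fun i _ => ?_
    rw [Pi.mul_apply, Units.val_mul, map_mul, mul_zpow]

theorem chr_inj (K : Type u) [Field K] [Algebra k K] :
    Function.Injective (chr (k := k) (ι := ι) K) := by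
  classical
  intro m m' h
  funext i
  have : CharZero K := charZero_of_injective_algebraMap (algebraMap k K).injective
  have h1 := DFunLike.congr_fun h (Pi.mulSingle i (Units.mk0 (2 : k) two_ne_zero))
  simp only [chr, MonoidHom.coe_mk, OneHom.coe_mk] at h1
  have h2 : ∀ m : ι → ℤ, ∏ j, (algebraMap k K
      ((Pi.mulSingle i (Units.mk0 (2 : k) two_ne_zero) : ι → kˣ) j)) ^ m j = (2 : K) ^ m i := by
    intro m
    rw [Finset.prod_eq_single i]
    · rw [Pi.mulSingle_eq_same, Units.val_mk0, map_ofNat]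
    · intro j _ hj
      rw [Pi.mulSingle_eq_of_ne hj]
      simp
    · simp
  rw [h2, h2] at h1
  have h3 : ((2 : ℚ) ^ m i : ℚ) = (2 : ℚ) ^ m' i := by
    have : (((2 : ℚ) ^ m i : ℚ) : K) = (((2 : ℚ) ^ m' i : ℚ) : K) := by
      push_cast
      exact h1
    exact_mod_cast this
  exact zpow_right_injective₀ (by norm_num) (by norm_num) h3

/-- comparison of coefficients of two sums of characters -/
theorem chr_coeff {K : Type u} [Field K] [Algebra k K] {S T : Finset (ι → ℕ)} (f g : (ι → ℕ) → K)
    (u v : ι → ℤ)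
    (h : ∀ l : ι → kˣ, ∑ n ∈ S, f n * chr K (fun i => (n i : ℤ) + u i) l =
      ∑ n ∈ T, g n * chr K (fun i => (n i : ℤ) + v i) l) (e : ι → ℕ) (he : e ∈ T) :
    ∑ n ∈ S, (open Classical in if (∀ i, (n i : ℤ) + u i = e i + v i) then f n else 0) = g e := by
  classical
  have hli := linearIndependent_monoidHom (ι → kˣ) K
  rw [linearIndependent_iff] at hli
  let F : ((ι → kˣ) →* K) →₀ K :=
    ∑ n ∈ S, Finsupp.single (chr K (fun i => (n i : ℤ) + u i)) (f n) -
      ∑ n ∈ T, Finsupp.single (chr K (fun i => (n i : ℤ) + v i)) (g n)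
  have hF : F = 0 := by
    apply hli
    rw [map_sub, map_sum, map_sum]
    funext l
    simp only [Finsupp.linearCombination_single, Pi.sub_apply, Finset.sum_apply, Pi.smul_apply,
      smul_eq_mul, Pi.zero_apply]
    rw [h l, sub_self]
  have h1 := DFunLike.congr_fun hF (chr K (fun i => (e i : ℤ) + v i))
  simp only [F, Finsupp.coe_sub, Finsupp.coe_finsetSum, Pi.sub_apply, Finset.sum_apply,
    Finsupp.single_apply, Finsupp.coe_zero, Pi.zero_apply] at h1
  rw [sub_eq_zero] at h1
  have h2 : ∀ n : ι → ℕ, (chr (k := k) K (fun i => (n i : ℤ) + u i) =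
      chr K (fun i => (e i : ℤ) + v i)) ↔ ∀ i, (n i : ℤ) + u i = e i + v i := fun n =>
    ⟨fun h i => congrFun (chr_inj K h) i, fun h => by
      have : (fun i => (n i : ℤ) + u i) = fun i => (e i : ℤ) + v i := funext h
      rw [this]⟩
  have h3 : ∀ n : ι → ℕ, (chr (k := k) K (fun i => (n i : ℤ) + v i) =
      chr K (fun i => (e i : ℤ) + v i)) ↔ n = e := fun n =>
    ⟨fun h => by
      funext i
      have h4 := congrFun (chr_inj K h) i
      have h5 : (n i : ℤ) + v i = (e i : ℤ) + v i := h4
      omega, fun h => by rw [h]⟩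
  have h4 : ∑ n ∈ T, (if chr (k := k) K (fun i => (n i : ℤ) + v i) =
      chr K (fun i => (e i : ℤ) + v i) then g n else 0) = g e := by
    rw [Finset.sum_eq_single e]
    · rw [if_pos rfl]
    · intro n _ hn
      rw [if_neg fun h => hn ((h3 n).1 h)]
    · intro h
      exact absurd he h
  rw [h4] at h1
  rw [← h1]
  refine Finset.sum_congr rfl fun n _ => ?_
  by_cases hn : ∀ i, (n i : ℤ) + u i = e i + v i
  · rw [if_pos hn, if_pos ((h2 n).2 hn)]
  · rw [if_neg hn, if_neg fun h => hn ((h2 n).1 h)]

end Char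

section Main

variable {k : Type u} [Field k] {σ ι : Type} [Fintype σ] [Fintype ι] {b : σ → ι} {w : ι → ℤ}
  {q : Ideal (MvPolynomial σ k)}

/-- a generic point over an algebraically closed field -/
theorem exists_gnr (q : Ideal (MvPolynomial σ k)) [q.IsPrime] :
    ∃ (K : Type u) (_ : Field K) (_ : IsAlgClosed K) (_ : Algebra k K) (x : σ → K), Gnr q x := by
  let R := MvPolynomial σ k ⧸ q
  have : IsDomain R := Ideal.Quotient.isDomain q
  let F := FractionRing R
  let K := AlgebraicClosure F
  let ψ : MvPolynomial σ k →ₐ[k] K := ((IsScalarTower.toAlgHom k F K).comp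
    (IsScalarTower.toAlgHom k R F)).comp (Ideal.Quotient.mkₐ k q)
  refine ⟨K, inferInstance, inferInstance, inferInstance, fun s => ψ (MvPolynomial.X s),
    fun p => ?_⟩
  have h1 : MvPolynomial.aeval (fun s => ψ (MvPolynomial.X s)) = ψ :=
    (MvPolynomial.aeval_unique ψ).symm
  rw [h1]
  change algebraMap F K (algebraMap R F (Ideal.Quotient.mk q p)) = 0 ↔ _
  rw [map_eq_zero_iff _ (algebraMap F K).injective,
    map_eq_zero_iff _ (IsFractionRing.injective R F), Ideal.Quotient.eq_zero_iff_mem]

theorem aeval_sc {K : Type*} [CommRing K] [Algebra k K] (l : ι → k) (x : σ → K)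
    (p : MvPolynomial σ k) : MvPolynomial.aeval (sc b (fun i => algebraMap k K (l i)) x) p =
      MvPolynomial.aeval x
        (MvPolynomial.aeval (fun s => MvPolynomial.C (l (b s)) * MvPolynomial.X s) p) := by
  have h := AlgHom.congr_fun (MvPolynomial.comp_aeval (R := k)
    (f := fun s : σ => (MvPolynomial.C (l (b s)) * MvPolynomial.X s : MvPolynomial σ k))
    (MvPolynomial.aeval x)) p
  rw [AlgHom.comp_apply] at h
  rw [h]
  congr 2
  funext s
  rw [map_mul, MvPolynomial.aeval_C, MvPolynomial.aeval_X]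
  rfl

/-- invariance of the ideal under the torus -/
def Inv (b : σ → ι) (q : Ideal (MvPolynomial σ k)) : Prop :=
  ∀ l : ι → k, (∀ i, l i ≠ 0) → ∀ p ∈ q,
      MvPolynomial.aeval (fun s => MvPolynomial.C (l (b s)) * MvPolynomial.X s) p ∈ q

theorem van_sc (hinv : Inv b q) {K : Type*} [CommRing K] [Algebra k K] {x : σ → K}
    (hx : ∀ p ∈ q, MvPolynomial.aeval x p = 0) {l : ι → k} (hl : ∀ i, l i ≠ 0) :
    ∀ p ∈ q, MvPolynomial.aeval (sc b (fun i => algebraMap k K (l i)) x) p = 0 := by
  intro p hp
  rw [aeval_sc]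
  exact hx _ (hinv l hl p hp)

theorem gnr_sc (hinv : Inv b q) {K : Type*} [Field K] [Algebra k K] {x : σ → K} (hx : Gnr q x)
    {l : ι → k} (hl : ∀ i, l i ≠ 0) : Gnr q (sc b (fun i => algebraMap k K (l i)) x) := by
  intro p
  refine ⟨fun h => ?_, fun h => van_sc hinv (fun p hp => (hx p).2 hp) hl p h⟩
  rw [aeval_sc] at h
  have h1 := (hx _).1 h
  have h2 := hinv (fun i => (l i)⁻¹) (fun i => inv_ne_zero (hl i)) _ h1
  have h3 : MvPolynomial.aeval (fun s => (MvPolynomial.C (l (b s))⁻¹ * MvPolynomial.X s :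
      MvPolynomial σ k)) (MvPolynomial.aeval
        (fun s => (MvPolynomial.C (l (b s)) * MvPolynomial.X s : MvPolynomial σ k)) p) = p := by
    have h := AlgHom.congr_fun (MvPolynomial.comp_aeval (R := k)
      (f := fun s : σ => (MvPolynomial.C (l (b s)) * MvPolynomial.X s : MvPolynomial σ k))
      (MvPolynomial.aeval (fun s => (MvPolynomial.C (l (b s))⁻¹ * MvPolynomial.X s :
      MvPolynomial σ k)))) p
    rw [AlgHom.comp_apply] at h
    rw [h]
    have e : (fun s => MvPolynomial.aeval (fun s => (MvPolynomial.C (l (b s))⁻¹ *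
        MvPolynomial.X s : MvPolynomial σ k)) (MvPolynomial.C (l (b s)) * MvPolynomial.X s :
        MvPolynomial σ k)) = (MvPolynomial.X : σ → MvPolynomial σ k) := by
      funext s
      rw [map_mul, MvPolynomial.aeval_C, MvPolynomial.aeval_X, MvPolynomial.algebraMap_eq,
        ← mul_assoc, ← MvPolynomial.C_mul, mul_inv_cancel₀ (hl (b s)), MvPolynomial.C_1, one_mul]
    rw [e, MvPolynomial.aeval_X_left]
    rfl
  rw [h3] at h2
  exact h2

theorem coeff_Pv (P : Polynomial (MvPolynomial σ k)) {K : Type*} [CommRing K] [Algebra k K]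
    (x : σ → K) (j : ℕ) : (Pv P x).coeff j = MvPolynomial.aeval x (P.coeff j) := by
  unfold Pv
  rw [coeff_map]
  rfl

/-- a polynomial with simple roots over an algebraically closed field divides every polynomial which
has the same roots and degree at most the same degree: proportional. -/
theorem prop_of_roots {K : Type*} [Field K] [IsAlgClosed K] [CharZero K] {f g : K[X]}
    (hs : ∀ t, f.IsRoot t → ¬ (derivative f).IsRoot t) (hr : ∀ t, f.IsRoot t → g.IsRoot t)
    (hd : g.natDegree ≤ f.natDegree) : ∃ a : K, g = C a * f := by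
  have hf0 : f ≠ 0 := by
    rintro rfl
    exact hs 0 (by simp) (by simp)
  have h1 : f ∣ derivative f * g := (isRoot_of_isRoot_iff_dvd_derivative_mul hf0).1 hr
  have h2 : IsCoprime f (derivative f) := by
    rw [isCoprime_iff_aeval_ne_zero_of_isAlgClosed K K]
    intro a
    by_contra hcon
    push Not at hcon
    rw [coe_aeval_eq_eval] at hcon
    exact hs a hcon.1 hcon.2
  obtain ⟨h, rfl⟩ := h2.dvd_of_dvd_mul_left h1
  by_cases hh : h = 0
  · exact ⟨0, by rw [hh, mul_zero, C_0, zero_mul]⟩
  · rw [natDegree_mul hf0 hh] at hd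
    have h3 : h.natDegree = 0 := by omega
    refine ⟨h.coeff 0, ?_⟩
    rw [mul_comm f h]
    congr 1
    exact eq_C_of_natDegree_eq_zero h3

/-- the coefficients of the homogeneous polynomial -/
noncomputable def pj (b : σ → ι) (w : ι → ℤ) (P : Polynomial (MvPolynomial σ k)) (e : ι → ℕ)
    (d j : ℕ) : MvPolynomial σ k :=
  ∑ n ∈ ds b (P.coeff j), (open Classical in
    if (∀ i, (n i : ℤ) + (j : ℤ) * w i = e i + (d : ℤ) * w i) then cmp b n (P.coeff j) else 0)

theorem aeval_pj {K : Type*} [Field K] [Algebra k K] (P : Polynomial (MvPolynomial σ k))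
    (e : ι → ℕ) (d j : ℕ) (l : ι → K) (hl : ∀ i, l i ≠ 0) (x : σ → K) :
    MvPolynomial.aeval (sc b l x) (pj b w P e d j) * (∏ i, l i ^ w i) ^ j =
      (∏ i, l i ^ e i) * (∏ i, l i ^ w i) ^ d * MvPolynomial.aeval x (pj b w P e d j) := by
  classical
  unfold pj
  rw [map_sum, map_sum, Finset.sum_mul, Finset.mul_sum]
  refine Finset.sum_congr rfl fun n _ => ?_
  split_ifs with h
  · rw [sc_hom b (cmp_hom b n _) l x]
    have h1 : (∏ i, l i ^ n i) * (∏ i, l i ^ w i) ^ j = (∏ i, l i ^ e i) * (∏ i, l i ^ w i) ^ d := by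
      rw [← Finset.prod_pow, ← Finset.prod_pow, ← Finset.prod_mul_distrib,
        ← Finset.prod_mul_distrib]
      refine Finset.prod_congr rfl fun i _ => ?_
      rw [← zpow_natCast (l i) (n i), ← zpow_natCast (l i) (e i), ← zpow_natCast (l i ^ w i) j,
        ← zpow_natCast (l i ^ w i) d, ← zpow_mul, ← zpow_mul, ← zpow_add₀ (hl i),
        ← zpow_add₀ (hl i)]
      congr 1
      have := h i
      linarith
    rw [← h1]
    ring
  · simp

theorem pj_top {P : Polynomial (MvPolynomial σ k)} {e : ι → ℕ} {d : ℕ}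
    (he : e ∈ ds b (P.coeff d)) : pj b w P e d d = cmp b e (P.coeff d) := by
  classical
  unfold pj
  rw [Finset.sum_eq_single e]
  · rw [if_pos fun i => rfl]
  · intro n _ hn
    rw [if_neg]
    intro h
    apply hn
    funext i
    have := h i
    omega
  · intro h
    exact absurd he h

/-- the polynomial `P'` -/
noncomputable def Ph (b : σ → ι) (w : ι → ℤ) (P : Polynomial (MvPolynomial σ k)) (e : ι → ℕ)
    (d : ℕ) : Polynomial (MvPolynomial σ k) :=
  ∑ j ∈ Finset.range (d + 1), C (pj b w P e d j) * X ^ j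

theorem coeff_Ph (P : Polynomial (MvPolynomial σ k)) (e : ι → ℕ) (d j : ℕ) :
    (Ph b w P e d).coeff j = if j < d + 1 then pj b w P e d j else 0 := by
  unfold Ph
  rw [finsetSum_coeff]
  simp only [coeff_C_mul_X_pow]
  rw [Finset.sum_ite_eq]
  simp only [Finset.mem_range]

theorem eval_Ph {K : Type*} [CommRing K] [Algebra k K] (P : Polynomial (MvPolynomial σ k))
    (e : ι → ℕ) (d : ℕ) (x : σ → K) (t : K) : (Pv (Ph b w P e d) x).eval t =
      ∑ j ∈ Finset.range (d + 1), MvPolynomial.aeval x (pj b w P e d j) * t ^ j := by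
  unfold Pv Ph
  simp only [Polynomial.map_sum, Polynomial.map_mul, Polynomial.map_C, Polynomial.map_pow,
    Polynomial.map_X, eval_finsetSum, eval_mul, eval_C, eval_pow, eval_X]
  rfl

/-- the comparison `P(x; T) ~ P(l x; l^w T)` at the generic point, coefficientwise modulo `q` -/
theorem key [CharZero k] [hqp : q.IsPrime] (hinv : Inv b q) {P : Polynomial (MvPolynomial σ k)}
    {d : ℕ} (hd : P.coeff d ∉ q) (hd' : ∀ j, d < j → P.coeff j ∈ q)
    (hsim : ∀ (K : Type u) [Field K] [IsAlgClosed K] [Algebra k K] (x : σ → K), Gnr q x →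
      ∀ t, (Pv P x).IsRoot t → ¬ (derivative (Pv P x)).IsRoot t)
    (hwt : ∀ (K : Type u) [Field K] [IsAlgClosed K] [Algebra k K] (x : σ → K), Gnr q x →
      ∀ l : ι → k, (∀ i, l i ≠ 0) → ∀ t, (Pv P x).IsRoot t →
        (Pv P (sc b (fun i => algebraMap k K (l i)) x)).IsRoot
          ((∏ i, algebraMap k K (l i) ^ w i) * t))
    {e : ι → ℕ} (he : e ∈ ds b (P.coeff d)) (j : ℕ) :
    P.coeff d * pj b w P e d j - P.coeff j * cmp b e (P.coeff d) ∈ q := by
  classical
  obtain ⟨K, _, _, _, x, hx⟩ := exists_gnr q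
  have hchar : CharZero K := charZero_of_injective_algebraMap (algebraMap k K).injective
  have hdeg : ∀ y : σ → K, Gnr q y → (Pv P y).natDegree = d := by
    intro y hy
    apply le_antisymm
    · rw [natDegree_le_iff_coeff_eq_zero]
      intro N hN
      rw [coeff_Pv]
      exact (hy _).2 (hd' N hN)
    · apply le_natDegree_of_ne_zero
      rw [coeff_Pv]
      intro h
      exact hd ((hy _).1 h)
  -- comparison for every `l`
  have hcmp : ∀ l : ι → kˣ, MvPolynomial.aeval x (P.coeff d) *
      (MvPolynomial.aeval (sc b (fun i => algebraMap k K (l i)) x) (P.coeff j) *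
        (∏ i, algebraMap k K (l i) ^ w i) ^ j) =
      MvPolynomial.aeval x (P.coeff j) *
      (MvPolynomial.aeval (sc b (fun i => algebraMap k K (l i)) x) (P.coeff d) *
        (∏ i, algebraMap k K (l i) ^ w i) ^ d) := by
    intro l
    have hl : ∀ i, ((l i : kˣ) : k) ≠ 0 := fun i => (l i).ne_zero
    set ρ : K := ∏ i, algebraMap k K (l i) ^ w i with hρ
    have hρ0 : ρ ≠ 0 := Finset.prod_ne_zero_iff.2 fun i _ => zpow_ne_zero _
      ((_root_.map_ne_zero _).2 (hl i))
    have hgl := gnr_sc (b := b) hinv hx hl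
    obtain ⟨a, ha⟩ := prop_of_roots (f := Pv P x)
      (g := (Pv P (sc b (fun i => algebraMap k K (l i)) x)).comp (C ρ * X))
      (hsim K x hx) (by
        intro t ht
        rw [IsRoot.def, eval_comp, eval_mul, eval_C, eval_X]
        exact hwt K x hx (fun i => (l i : k)) hl t ht) (by
        rw [natDegree_comp, natDegree_C_mul_X ρ hρ0, mul_one, hdeg _ hgl, hdeg _ hx])
    have hc : ∀ i, MvPolynomial.aeval (sc b (fun i => algebraMap k K (l i)) x) (P.coeff i) * ρ ^ i =
        a * MvPolynomial.aeval x (P.coeff i) := by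
      intro i
      have := congrArg (fun f => f.coeff i) ha
      simp only [comp_C_mul_X_coeff, coeff_C_mul, coeff_Pv] at this
      exact this
    rw [hc, hc]
    ring
  -- expand in characters
  have hexp : ∀ (j : ℕ) (l : ι → kˣ),
      MvPolynomial.aeval (sc b (fun i => algebraMap k K (l i)) x) (P.coeff j) *
        (∏ i, algebraMap k K (l i) ^ w i) ^ j =
      ∑ n ∈ ds b (P.coeff j), MvPolynomial.aeval x (cmp b n (P.coeff j)) *
        chr K (fun i => (n i : ℤ) + (j : ℤ) * w i) l := by
    intro j l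
    have hl : ∀ i, algebraMap k K ((l i : kˣ) : k) ≠ 0 := fun i =>
      (_root_.map_ne_zero _).2 (l i).ne_zero
    rw [sc_expand, Finset.sum_mul]
    refine Finset.sum_congr rfl fun n _ => ?_
    have h1 : chr K (fun i => (n i : ℤ) + (j : ℤ) * w i) l =
        (∏ i, algebraMap k K (l i) ^ n i) * (∏ i, algebraMap k K (l i) ^ w i) ^ j := by
      unfold chr
      simp only [MonoidHom.coe_mk, OneHom.coe_mk]
      rw [← Finset.prod_pow, ← Finset.prod_mul_distrib]
      refine Finset.prod_congr rfl fun i _ => ?_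
      rw [zpow_add₀ (hl i), zpow_natCast, mul_comm (j : ℤ), zpow_mul, zpow_natCast]
    rw [h1]
    ring
  have h2 := chr_coeff (k := k) (K := K) (S := ds b (P.coeff j)) (T := ds b (P.coeff d))
    (fun n => MvPolynomial.aeval x (P.coeff d) * MvPolynomial.aeval x (cmp b n (P.coeff j)))
    (fun n => MvPolynomial.aeval x (P.coeff j) * MvPolynomial.aeval x (cmp b n (P.coeff d)))
    (fun i => (j : ℤ) * w i) (fun i => (d : ℤ) * w i) (by
      intro l
      have h3 := hcmp l
      rw [hexp j l, hexp d l, Finset.mul_sum, Finset.mul_sum] at h3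
      simp only [mul_assoc]
      exact h3) e he
  rw [← (hx _), map_sub, map_mul, map_mul, sub_eq_zero, ← h2]
  unfold pj
  rw [map_sum, Finset.mul_sum]
  refine Finset.sum_congr rfl fun n _ => ?_
  split_ifs with h
  · rfl
  · rw [map_zero, mul_zero]

end Main

/-- **HOMOG.** -/
theorem homog : Homog.{u} := by
  intro k _ _ _ σ ι _ _ b w q hqp hinv P Dn hDn hsim hwt
  classical
  -- the top coefficient
  obtain ⟨K0, _, _, _, x0, hx0⟩ := exists_gnr q
  have hP0 : Pv P x0 ≠ 0 := by
    intro h
    have := hsim K0 x0 hx0 0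
    rw [h] at this
    simp at this
  set d := (Pv P x0).natDegree with hdd
  have hd : P.coeff d ∉ q := by
    intro h
    have h1 := (hx0 _).2 h
    rw [← coeff_Pv] at h1
    exact hP0 (leadingCoeff_eq_zero.1 h1)
  have hd' : ∀ j, d < j → P.coeff j ∈ q := by
    intro j hj
    rw [← hx0, ← coeff_Pv]
    exact coeff_eq_zero_of_natDegree_lt hj
  have hcomp : ∀ p : MvPolynomial σ k, p ∉ q → ∃ e ∈ ds b p, cmp b e p ∉ q := by
    intro p hp
    by_contra hcon
    push Not at hcon
    apply hp
    rw [← sum_cmp b p]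
    exact Ideal.sum_mem q fun e he => hcon e he
  obtain ⟨e, he, heq⟩ := hcomp _ hd
  have hDP : Dn * P.coeff d ∉ q := fun h => by
    rcases hqp.mem_or_mem h with h | h
    · exact hDn h
    · exact hd h
  obtain ⟨e1, he1, heq1⟩ := hcomp _ hDP
  have hkey := fun j => key (w := w) hinv hd hd' hsim hwt he j
  refine ⟨Ph b w P e d, cmp b e1 (Dn * P.coeff d) * cmp b e (P.coeff d), e1 + e, ?_,
    (cmp_hom b _ _).mul (cmp_hom b _ _), ?_, ?_, ?_⟩
  · intro h
    rcases hqp.mem_or_mem h with h | h
    · exact heq1 h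
    · exact heq h
  · -- weights
    intro K _ _ x l hl t ht
    rw [IsRoot.def, eval_Ph] at ht ⊢
    have h1 : ∑ j ∈ Finset.range (d + 1), MvPolynomial.aeval (sc b l x) (pj b w P e d j) *
        ((∏ i, l i ^ w i) * t) ^ j = (∏ i, l i ^ e i) * (∏ i, l i ^ w i) ^ d *
        ∑ j ∈ Finset.range (d + 1), MvPolynomial.aeval x (pj b w P e d j) * t ^ j := by
      rw [Finset.mul_sum]
      refine Finset.sum_congr rfl fun j _ => ?_
      have h2 := aeval_pj (b := b) (w := w) P e d j l hl x
      rw [mul_pow, ← mul_assoc, h2]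
      ring
    rw [h1, ht, mul_zero]
  · -- generic point
    intro K _ _ x hx
    have hPd : MvPolynomial.aeval x (P.coeff d) ≠ 0 := fun h => hd ((hx _).1 h)
    have hce : MvPolynomial.aeval x (cmp b e (P.coeff d)) ≠ 0 := fun h => heq ((hx _).1 h)
    refine ⟨MvPolynomial.aeval x (cmp b e (P.coeff d)) / MvPolynomial.aeval x (P.coeff d),
      div_ne_zero hce hPd, ?_⟩
    ext j
    rw [coeff_C_mul, coeff_Pv, coeff_Pv, coeff_Ph]
    split_ifs with hj
    · have h1 := (hx _).2 (hkey j)
      rw [map_sub, map_mul, map_mul, sub_eq_zero] at h1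
      field_simp
      linear_combination h1
    · have h1 := (hx _).2 (hd' j (by omega))
      rw [h1, map_zero, mul_zero]
  · -- closed points
    intro x hx hD
    rw [map_mul] at hD
    have hD1 := left_ne_zero_of_mul hD
    have hD2 := right_ne_zero_of_mul hD
    -- the scaling
    obtain ⟨l, hl⟩ : ∃ l : ι → kˣ,
        MvPolynomial.aeval (sc b (fun i => (l i : k)) x) (Dn * P.coeff d) ≠ 0 := by
      by_contra hcon
      push Not at hcon
      have h1 := chr_coeff (k := k) (K := k) (S := ∅) (T := ds b (Dn * P.coeff d)) (fun _ => 0)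
        (fun n => MvPolynomial.aeval x (cmp b n (Dn * P.coeff d))) (fun _ => 0) (fun _ => 0) (by
          intro l
          rw [Finset.sum_empty]
          have h2 := hcon l
          rw [sc_expand] at h2
          rw [← h2]
          refine Finset.sum_congr rfl fun n _ => ?_
          unfold chr
          simp only [MonoidHom.coe_mk, OneHom.coe_mk, add_zero, zpow_natCast, Algebra.algebraMap_self,
            RingHom.id_apply]
          ring) e1 he1
      rw [Finset.sum_empty] at h1
      exact hD1 h1.symm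
    have hl0 : ∀ i, ((l i : kˣ) : k) ≠ 0 := fun i => (l i).ne_zero
    rw [map_mul] at hl
    have hPd := right_ne_zero_of_mul hl
    set ρ : k := ∏ i, (l i : k) ^ w i with hρ
    have hρ0 : ρ ≠ 0 := Finset.prod_ne_zero_iff.2 fun i _ => zpow_ne_zero _ (hl0 i)
    refine ⟨fun i => (l i : k), hl0, left_ne_zero_of_mul hl,
      MvPolynomial.aeval x (cmp b e (P.coeff d)) /
        (MvPolynomial.aeval (sc b (fun i => (l i : k)) x) (P.coeff d) * ρ ^ d),
      div_ne_zero hD2 (mul_ne_zero hPd (pow_ne_zero _ hρ0)), ?_⟩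
    have hvan := van_sc (b := b) (K := k) hinv hx hl0
    simp only [Algebra.algebraMap_self, RingHom.id_apply] at hvan
    ext j
    rw [coeff_C_mul, coeff_Pv, comp_C_mul_X_coeff, coeff_Pv, coeff_Ph]
    split_ifs with hj
    · have h1 := hvan _ (hkey j)
      rw [map_sub, map_mul, map_mul, sub_eq_zero, sc_hom b (cmp_hom b e _)] at h1
      have h2 := aeval_pj (b := b) (w := w) P e d j (fun i => (l i : k)) hl0 x
      have hle : (∏ i, ((l i : kˣ) : k) ^ e i) ≠ 0 :=
        Finset.prod_ne_zero_iff.2 fun i _ => pow_ne_zero _ (hl0 i)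
      have hρd : ρ ^ d ≠ 0 := pow_ne_zero _ hρ0
      rw [div_mul_eq_mul_div, eq_div_iff (mul_ne_zero hPd hρd)]
      apply mul_left_cancel₀ hle
      linear_combination (-MvPolynomial.aeval (sc b (fun i => (l i : k)) x) (P.coeff d)) * h2 +
        ρ ^ j * h1
    · have h1 := hvan _ (hd' j (by omega))
      rw [h1, map_zero, zero_mul, mul_zero]

end Crest.Agent.R260.Hmg3_516
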