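import Mathlib

/-!
# Row 260, NN-INT (helper274): integrability of `‖x‖^(2-2n)` in dimension `2n`
-/

set_option autoImplicit false

open MeasureTheory Set Metric
open scoped ENNReal

noncomputable section

namespace Crest.Agent.R260.Int_274

variable {V : Type} [NormedAddCommGroup V] [InnerProductSpace ℝ V] [FiniteDimensional ℝ V]
  [MeasurableSpace V] [BorelSpace V]

/-- radial powers `‖x‖^(-a)`, `a < dim`, are integrable on balls -/
theorem integrableOn_rpow {a r : ℝ} (ha : a < Module.finrank ℝ V) (hV : 0 < Module.finrank ℝ V) :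
    IntegrableOn (fun x : V => ‖x‖ ^ (-a)) (ball 0 r) := by
  haveI : Nontrivial V := Module.finrank_pos_iff.1 hV
  set N : ℕ := Module.finrank ℝ V with hN
  set f : ℝ → ℝ := (Iio r).indicator fun y => y ^ (-a) with hf
  have h1 : IntegrableOn (fun y : ℝ => y ^ (N - 1) • f y) (Ioi 0) := by
    have h2 : (fun y : ℝ => y ^ (N - 1) • f y) =
        (Iio r).indicator fun y => y ^ (N - 1) * y ^ (-a) := by
      funext y
      by_cases hy : y ∈ Iio r
      · simp [hf, hy]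
      · simp [hf, hy]
    rw [h2, IntegrableOn, integrable_indicator_iff measurableSet_Iio, IntegrableOn,
      Measure.restrict_restrict measurableSet_Iio]
    have h3 : Iio r ∩ Ioi 0 = Ioo 0 r := by
      ext y; simp [and_comm]
    rw [h3]
    have h4 : IntegrableOn (fun y : ℝ => y ^ ((N : ℝ) - 1 - a)) (Ioo 0 r) := by
      rcases le_or_gt r 0 with hr | hr
      · rw [Ioo_eq_empty (not_lt.2 hr)]; exact integrableOn_empty
      · have := (intervalIntegral.intervalIntegrable_rpow' (a := 0) (b := r)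
          (r := (N : ℝ) - 1 - a) (by linarith)).1
        exact this.mono_set Ioo_subset_Ioc_self
    refine h4.congr_fun ?_ measurableSet_Ioo
    intro y hy
    simp only
    have e : ((N : ℝ) - 1 - a) = ((N - 1 : ℕ) : ℝ) + (-a) := by
      rw [Nat.cast_sub (by omega)]; push_cast; ring
    rw [e, Real.rpow_add hy.1, Real.rpow_natCast]
  have h5 : Integrable (fun x : V => f ‖x‖) := by
    rw [integrable_fun_norm_addHaar (volume : Measure V)]
    exact h1
  rw [← integrable_indicator_iff measurableSet_ball]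
  refine h5.congr (Filter.Eventually.of_forall fun x => ?_)
  simp only [hf, indicator, mem_Iio, mem_ball_zero_iff]

/-- `zpow` form: `‖x‖^(2-2n)` in dimension `2n`, `n ≥ 1` -/
theorem integrableOn_zpow {n : ℕ} (hn : 1 ≤ n) (hV : Module.finrank ℝ V = 2 * n) (r : ℝ) :
    IntegrableOn (fun x : V => ‖x‖ ^ (2 - 2 * (n : ℤ))) (ball 0 r) := by
  have h := integrableOn_rpow (V := V) (a := 2 * n - 2) (r := r) (by rw [hV]; push_cast; linarith)
    (by omega)
  refine h.congr_fun ?_ measurableSet_ball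
  intro x _
  simp only
  rw [← Real.rpow_intCast]
  congr 1
  push_cast
  ring

/-- pointwise bound -/
theorem bound {n : ℕ} {ε : ℝ} (hε : 0 < ε) (hn : 1 ≤ n) (x : V) :
    ‖x‖ ^ 4 * ((‖x‖ ^ 2 + ε) ^ (n + 1))⁻¹ ≤ ‖x‖ ^ (2 - 2 * (n : ℤ)) := by
  by_cases hx : ‖x‖ = 0
  · rw [hx]
    simp only [ne_eq, OfNat.ofNat_ne_zero, not_false_eq_true, zero_pow, zero_mul]
    rcases eq_or_ne (2 - 2 * (n : ℤ)) 0 with h | h
    · rw [h]; simp
    · rw [zero_zpow _ h]
  · have h0 : 0 < ‖x‖ := lt_of_le_of_ne (norm_nonneg _) (Ne.symm hx)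
    have h1 : ((‖x‖ ^ 2) ^ (n + 1)) ≤ (‖x‖ ^ 2 + ε) ^ (n + 1) :=
      pow_le_pow_left₀ (by positivity) (by linarith) _
    have h2 : ((‖x‖ ^ 2 + ε) ^ (n + 1))⁻¹ ≤ ((‖x‖ ^ 2) ^ (n + 1))⁻¹ :=
      inv_anti₀ (by positivity) h1
    calc ‖x‖ ^ 4 * ((‖x‖ ^ 2 + ε) ^ (n + 1))⁻¹ ≤ ‖x‖ ^ 4 * ((‖x‖ ^ 2) ^ (n + 1))⁻¹ := by gcongr
      _ = ‖x‖ ^ (2 - 2 * (n : ℤ)) := by
        rw [← pow_mul, ← zpow_natCast, ← zpow_natCast, ← zpow_neg, ← zpow_add₀ hx]
        congr 1
        push_cast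
        ring

/-- **uniform bound** of `∫ ‖x‖⁴ (‖x‖²+ε)^(-(n+1))` on the ball -/
theorem exists_bound {n : ℕ} (hn : 1 ≤ n) (hV : Module.finrank ℝ V = 2 * n) (r : ℝ) :
    ∃ C : ℝ, 0 ≤ C ∧ ∀ ε : ℝ, 0 < ε →
      IntegrableOn (fun x : V => ‖x‖ ^ 4 * ((‖x‖ ^ 2 + ε) ^ (n + 1))⁻¹) (ball 0 r) ∧
      ∫ x in ball (0 : V) r, ‖x‖ ^ 4 * ((‖x‖ ^ 2 + ε) ^ (n + 1))⁻¹ ≤ C := by
  have hI := integrableOn_zpow (V := V) hn hV r
  refine ⟨∫ x in ball (0 : V) r, ‖x‖ ^ (2 - 2 * (n : ℤ)),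
    integral_nonneg fun x => zpow_nonneg (norm_nonneg _) _, fun ε hε => ?_⟩
  have hc : Continuous fun x : V => ‖x‖ ^ 4 * ((‖x‖ ^ 2 + ε) ^ (n + 1))⁻¹ := by
    refine (continuous_norm.pow 4).mul (Continuous.inv₀ ?_ fun x => ?_)
    · exact ((continuous_norm.pow 2).add continuous_const).pow _
    · positivity
  have h1 : IntegrableOn (fun x : V => ‖x‖ ^ 4 * ((‖x‖ ^ 2 + ε) ^ (n + 1))⁻¹) (ball 0 r) := by
    refine Integrable.mono' hI hc.aestronglyMeasurable (Filter.Eventually.of_forall fun x => ?_)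
    rw [Real.norm_of_nonneg (by positivity)]
    exact bound hε hn x
  exact ⟨h1, integral_mono h1 hI fun x => bound hε hn x⟩

end Crest.Agent.R260.Int_274
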