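import Mathlib

/-!
# Row 260, IRR, part 1 (helper33): geometric integrality

`k` algebraically closed, `P` a prime ideal of `k[X]` (finitely many variables), `K` any field
extension of `k`: `P K[X]` is prime and `P K[X] ∩ k[X] = P`.
-/

set_option autoImplicit false

namespace Crest.Agent.R260.Irr_33

open MvPolynomial

universe u v w

section geo

variable {k : Type u} [Field k] {K : Type v} [Field K] [Algebra k K] {σ : Type w}

/-- apply a `k`-linear form to all coefficients. -/
noncomputable def cf (φ : K →ₗ[k] k) (f : MvPolynomial σ K) : MvPolynomial σ k :=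
  ∑ m ∈ f.support, monomial m (φ (coeff m f))

theorem coeff_cf (φ : K →ₗ[k] k) (f : MvPolynomial σ K) (m : σ →₀ ℕ) :
    coeff m (cf φ f) = φ (coeff m f) := by
  classical
  rw [cf, coeff_sum]
  simp only [coeff_monomial]
  rw [Finset.sum_ite_eq' f.support m fun x => φ (coeff x f)]
  split_ifs with h
  · rfl
  · rw [notMem_support_iff.1 h, map_zero]

theorem eval_cf (φ : K →ₗ[k] k) (f : MvPolynomial σ K) (x : σ → k) :
    eval x (cf φ f) = φ (eval (fun s => algebraMap k K (x s)) f) := by
  rw [cf, map_sum, eval_eq (fun s => algebraMap k K (x s)) f, map_sum]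
  refine Finset.sum_congr rfl fun m _ => ?_
  rw [eval_monomial]
  have h : (coeff m f * ∏ i ∈ m.support, algebraMap k K (x i) ^ m i) =
      (m.prod fun i n => x i ^ n) • coeff m f := by
    rw [Algebra.smul_def, mul_comm, Finsupp.prod, map_prod]
    simp only [map_pow]
  rw [h, map_smul, smul_eq_mul, mul_comm]

/-- a polynomial all of whose components lie in `P` lies in `P K[X]`. -/
theorem mem_map_of_cf {P : Ideal (MvPolynomial σ k)} {f : MvPolynomial σ K}
    (h : ∀ φ : K →ₗ[k] k, cf φ f ∈ P) :
    f ∈ P.map (MvPolynomial.map (algebraMap k K) : MvPolynomial σ k →+* MvPolynomial σ K) := by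
  classical
  let b := Module.Basis.ofVectorSpace k K
  let s : Finset (Module.Basis.ofVectorSpaceIndex k K) :=
    f.support.biUnion fun m => (b.repr (coeff m f)).support
  have h1 : f = ∑ i ∈ s, C (b i) * MvPolynomial.map (algebraMap k K) (cf (b.coord i) f) := by
    ext m
    rw [coeff_sum]
    simp only [coeff_C_mul, coeff_map, coeff_cf]
    have h2 : coeff m f = ∑ i ∈ (b.repr (coeff m f)).support, (b.repr (coeff m f) i) • b i := by
      have h3 := b.linearCombination_repr (coeff m f)
      rw [Finsupp.linearCombination_apply, Finsupp.sum] at h3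
      exact h3.symm
    by_cases hm : m ∈ f.support
    · have h4 : (b.repr (coeff m f)).support ⊆ s :=
        Finset.subset_biUnion_of_mem (fun m => (b.repr (coeff m f)).support) hm
      conv_lhs => rw [h2]
      rw [Finset.sum_subset h4]
      · refine Finset.sum_congr rfl fun i _ => ?_
        rw [Algebra.smul_def, mul_comm]
        rfl
      · intro i _ hi
        rw [Finsupp.notMem_support_iff.1 hi, zero_smul]
    · rw [notMem_support_iff.1 hm]
      simp
  rw [h1]
  exact Ideal.sum_mem _ fun i _ => Ideal.mul_mem_left _ _ (Ideal.mem_map_of_mem _ (h _))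

/-- elements of `P K[X]` vanish at the `k`-points of `V(P)`. -/
theorem eval_of_mem_map {P : Ideal (MvPolynomial σ k)} {f : MvPolynomial σ K}
    (hf : f ∈ P.map (MvPolynomial.map (algebraMap k K) : MvPolynomial σ k →+* MvPolynomial σ K))
    {A : Type*} [CommRing A] [Algebra K A] [Algebra k A] [IsScalarTower k K A]
    {x : σ → A} (hx : ∀ p ∈ P, aeval x p = 0) : aeval x f = 0 := by
  have h1 : P.map (MvPolynomial.map (algebraMap k K) : MvPolynomial σ k →+* MvPolynomial σ K) ≤
      RingHom.ker (aeval x : MvPolynomial σ K →ₐ[K] A).toRingHom := by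
    rw [Ideal.map_le_iff_le_comap]
    intro p hp
    rw [Ideal.mem_comap, RingHom.mem_ker]
    change aeval x (MvPolynomial.map (algebraMap k K) p) = 0
    rw [aeval_map_algebraMap]
    exact hx p hp
  exact (RingHom.mem_ker (f := (aeval x : MvPolynomial σ K →ₐ[K] A).toRingHom)).1 (h1 hf)

variable [IsAlgClosed k] [Finite σ]

/-- Nullstellensatz: separation of a polynomial from a prime ideal by a point. -/
theorem exists_point {P : Ideal (MvPolynomial σ k)} (hP : P.IsPrime) {f : MvPolynomial σ k}
    (hf : f ∉ P) : ∃ x : σ → k, (∀ p ∈ P, eval x p = 0) ∧ eval x f ≠ 0 := by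
  by_contra hcon
  push Not at hcon
  refine hf ?_
  rw [← MvPolynomial.IsPrime.vanishingIdeal_zeroLocus (K := k) P, mem_vanishingIdeal_iff]
  intro x hx
  rw [mem_zeroLocus_iff] at hx
  have h := hcon x fun p hp => by
    have := hx p hp
    rwa [aeval_def, Algebra.algebraMap_self, ← eval₂_id (g := x) p] at *
  rw [aeval_def, Algebra.algebraMap_self, eval₂_id]
  exact h

/-- **geometric integrality**. -/
theorem isPrime_map {P : Ideal (MvPolynomial σ k)} (hP : P.IsPrime) :
    (P.map (MvPolynomial.map (algebraMap k K) :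
      MvPolynomial σ k →+* MvPolynomial σ K)).IsPrime := by
  have hev : ∀ (x : σ → k), (∀ p ∈ P, eval x p = 0) →
      ∀ f ∈ P.map (MvPolynomial.map (algebraMap k K) : MvPolynomial σ k →+* MvPolynomial σ K),
      eval (fun s => algebraMap k K (x s)) f = 0 := by
    intro x hx f hf
    have h1 := eval_of_mem_map (A := K) hf (x := fun s => algebraMap k K (x s)) fun p hp => by
      have h2 := hx p hp
      have h3 : aeval (fun s => algebraMap k K (x s)) p = algebraMap k K (eval x p) := by
        rw [aeval_def, ← eval₂_id (g := x) p, hom_eval₂]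
        rfl
      rw [h3, h2, map_zero]
    rw [aeval_def, Algebra.algebraMap_self] at h1
    exact h1
  refine Ideal.isPrime_iff.2 ⟨?_, fun {f g} hfg => ?_⟩
  · intro htop
    obtain ⟨x, hx, hx1⟩ := exists_point hP (f := 1) (Ideal.ne_top_iff_one _ |>.1 hP.ne_top)
    have h2 := hev x hx 1 (by rw [htop]; trivial)
    rw [map_one] at h2
    exact one_ne_zero h2
  · by_contra hcon
    rw [not_or] at hcon
    have h1 : ∃ φ : K →ₗ[k] k, cf φ f ∉ P := by
      by_contra h
      push Not at h
      exact hcon.1 (mem_map_of_cf h)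
    have h2 : ∃ φ : K →ₗ[k] k, cf φ g ∉ P := by
      by_contra h
      push Not at h
      exact hcon.2 (mem_map_of_cf h)
    obtain ⟨φ, hφ⟩ := h1
    obtain ⟨ψ, hψ⟩ := h2
    have h3 : cf φ f * cf ψ g ∉ P := fun h => (hP.mem_or_mem h).elim hφ hψ
    obtain ⟨x, hx, hx1⟩ := exists_point hP h3
    have h4 := hev x hx _ hfg
    rw [map_mul] at h4 hx1
    rw [eval_cf, eval_cf] at hx1
    rcases mul_eq_zero.1 h4 with h | h
    · rw [h, map_zero, zero_mul] at hx1
      exact hx1 rfl
    · rw [h, map_zero, mul_zero] at hx1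
      exact hx1 rfl

/-- `P K[X] ∩ k[X] = P`. -/
theorem mem_of_map_mem {P : Ideal (MvPolynomial σ k)} (hP : P.IsPrime) {p : MvPolynomial σ k}
    (hp : MvPolynomial.map (algebraMap k K) p ∈
      P.map (MvPolynomial.map (algebraMap k K) : MvPolynomial σ k →+* MvPolynomial σ K)) :
    p ∈ P := by
  by_contra hcon
  obtain ⟨x, hx, hx1⟩ := exists_point hP hcon
  have hx2 : ∀ p : MvPolynomial σ k, aeval (fun s => algebraMap k K (x s)) p =
      algebraMap k K (eval x p) := by
    intro p
    rw [aeval_def, ← eval₂_id (g := x) p, hom_eval₂]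
    rfl
  have h1 := eval_of_mem_map (A := K) hp (x := fun s => algebraMap k K (x s)) fun p hp => by
    rw [hx2, hx p hp, map_zero]
  rw [aeval_map_algebraMap, hx2] at h1
  exact hx1 ((map_eq_zero _).1 h1)

end geo

end Crest.Agent.R260.Irr_33
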