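import Crest.Agent.R275.Core_144
import Mathlib.Analysis.Calculus.InverseFunctionTheorem.ContDiff

/-!
# R260 (S0398), leaf K-EMB (helper922), file A: complex charts from `J`-holomorphic functions

* `RAtl Z E` : a space `Z` with smooth charts to the real space `E` and an almost complex structure
  `J` (no integrability, not even `J ^ 2 = -1` is used);
* `SJ R f x` : `f` is smooth near `x` and its differential at `x` is `J`-linear;
* `JCh R c`  : the chart `c : OpenPartialHomeomorph Z ℂ^d` is `J`-holomorphic;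
* `JCh.trans`: the transition maps of such charts are holomorphic;
* `exists_chart`: inverse function theorem.
-/

set_option autoImplicit false
set_option linter.unusedSectionVars false

open Set Filter Topology Complex
open scoped ContDiff Manifold

namespace Crest.Agent.R260.KEmb_922

open Crest.Agent.R275.Geo Crest.Agent.R275.Core144

noncomputable section

/-- smooth real charts with an almost complex structure -/
structure RAtl (Z : Type) [TopologicalSpace Z] (E : Type) [NormedAddCommGroup E]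
    [NormedSpace ℝ E] where
  ι : Type
  e : ι → OpenPartialHomeomorph Z E
  cover : ∀ x, ∃ i, x ∈ (e i).source
  tr : ∀ i j, ContDiffOn ℝ ∞ (fun y => e j ((e i).symm y))
    {y | y ∈ (e i).target ∧ (e i).symm y ∈ (e j).source}
  J : ι → E → E →L[ℝ] E
  J_tr : ∀ i j, ∀ y ∈ (e i).target, (e i).symm y ∈ (e j).source → ∀ v,
    fderiv ℝ (fun y => e j ((e i).symm y)) y (J i y v) =
      J j (e j ((e i).symm y)) (fderiv ℝ (fun y => e j ((e i).symm y)) y v)

variable {d : ℕ} {Z : Type} [TopologicalSpace Z] {E : Type} [NormedAddCommGroup E]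
  [NormedSpace ℝ E]

namespace RAtl

variable (R : RAtl Z E)

theorem isOpen_ov (i j : R.ι) : IsOpen {y | y ∈ (R.e i).target ∧ (R.e i).symm y ∈ (R.e j).source} :=
  (R.e i).isOpen_inter_preimage_symm (R.e j).open_source

theorem tr_at {i j : R.ι} {x : Z} (hi : x ∈ (R.e i).source) (hj : x ∈ (R.e j).source) :
    ContDiffAt ℝ ∞ (fun y => R.e j ((R.e i).symm y)) (R.e i x) := by
  refine (R.tr i j).contDiffAt ((R.isOpen_ov i j).mem_nhds ⟨(R.e i).map_source hi, ?_⟩)
  rwa [(R.e i).left_inv hi]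

theorem ev_symm {i : R.ι} {x : Z} (hi : x ∈ (R.e i).source) {p : Z → Prop}
    (h : ∀ᶠ x' in 𝓝 x, p x') : ∀ᶠ y in 𝓝 (R.e i x), p ((R.e i).symm y) := by
  have h1 : Tendsto (R.e i).symm (𝓝 (R.e i x)) (𝓝 x) := (R.e i).tendsto_symm hi
  exact h1.eventually h

variable {W : Type*} [NormedAddCommGroup W] [NormedSpace ℂ W]

/-- `f` is smooth near `x` and the differential of `f` at `x` is `J`-linear (all charts) -/
def SJ (f : Z → W) (x : Z) : Prop :=
  ∀ i, x ∈ (R.e i).source → ContDiffAt ℝ ∞ (fun y => f ((R.e i).symm y)) (R.e i x) ∧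
    ∀ v, fderiv ℝ (fun y => f ((R.e i).symm y)) (R.e i x) (R.J i (R.e i x) v) =
      I • fderiv ℝ (fun y => f ((R.e i).symm y)) (R.e i x) v

variable {R}

/-- it is enough to check one chart -/
theorem SJ.of_one {f : Z → W} {x : Z} {i : R.ι} (hi : x ∈ (R.e i).source)
    (h1 : ContDiffAt ℝ ∞ (fun y => f ((R.e i).symm y)) (R.e i x))
    (h2 : ∀ v, fderiv ℝ (fun y => f ((R.e i).symm y)) (R.e i x) (R.J i (R.e i x) v) =
      I • fderiv ℝ (fun y => f ((R.e i).symm y)) (R.e i x) v) : R.SJ f x := by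
  intro j hj
  have ht := R.tr_at hj hi
  have hx : (R.e i) ((R.e j).symm (R.e j x)) = R.e i x := by rw [(R.e j).left_inv hj]
  have he : (fun y => f ((R.e j).symm y)) =ᶠ[𝓝 (R.e j x)]
      (fun y => f ((R.e i).symm y)) ∘ fun y => R.e i ((R.e j).symm y) := by
    filter_upwards [R.ev_symm hj ((R.e i).open_source.mem_nhds hi)] with y hy
    simp only [Function.comp_apply]
    rw [(R.e i).left_inv hy]
  have h1' : ContDiffAt ℝ ∞ (fun y => f ((R.e i).symm y)) (R.e i ((R.e j).symm (R.e j x))) := by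
    rw [hx]; exact h1
  have h5 : ContDiffAt ℝ ∞ ((fun y => f ((R.e i).symm y)) ∘ fun y => R.e i ((R.e j).symm y))
      (R.e j x) :=
    ContDiffAt.comp (R.e j x) (f := fun y => R.e i ((R.e j).symm y))
      (g := fun y => f ((R.e i).symm y)) h1' ht
  refine ⟨h5.congr_of_eventuallyEq he, fun v => ?_⟩
  have h3 : fderiv ℝ (fun y => f ((R.e j).symm y)) (R.e j x) =
      (fderiv ℝ (fun y => f ((R.e i).symm y)) (R.e i x)).comp
        (fderiv ℝ (fun y => R.e i ((R.e j).symm y)) (R.e j x)) := by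
    have h6 : HasFDerivAt ((fun y => f ((R.e i).symm y)) ∘ fun y => R.e i ((R.e j).symm y))
        ((fderiv ℝ (fun y => f ((R.e i).symm y)) (R.e i ((R.e j).symm (R.e j x)))).comp
        (fderiv ℝ (fun y => R.e i ((R.e j).symm y)) (R.e j x))) (R.e j x) :=
      HasFDerivAt.comp (R.e j x) (f := fun y => R.e i ((R.e j).symm y))
        (h1'.differentiableAt (by simp)).hasFDerivAt (ht.differentiableAt (by simp)).hasFDerivAt
    rw [he.fderiv_eq, h6.fderiv, hx]
  have h4 := R.J_tr j i (R.e j x) ((R.e j).map_source hj)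
    (by rw [(R.e j).left_inv hj]; exact hi) v
  rw [h3, ContinuousLinearMap.comp_apply, ContinuousLinearMap.comp_apply, h4, hx, h2]

theorem SJ.congr {f g : Z → W} {x : Z} (h : R.SJ f x) (hfg : f =ᶠ[𝓝 x] g) : R.SJ g x := by
  intro i hi
  obtain ⟨h1, h2⟩ := h i hi
  have he : (fun y => g ((R.e i).symm y)) =ᶠ[𝓝 (R.e i x)] fun y => f ((R.e i).symm y) := by
    filter_upwards [R.ev_symm hi hfg] with y hy
    exact hy.symm
  refine ⟨h1.congr_of_eventuallyEq he, fun v => ?_⟩
  rw [he.fderiv_eq]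
  exact h2 v

theorem SJ.clm {W' : Type*} [NormedAddCommGroup W'] [NormedSpace ℂ W'] {f : Z → W} {x : Z}
    (h : R.SJ f x) (L : W →L[ℂ] W') : R.SJ (fun x => L (f x)) x := by
  intro i hi
  obtain ⟨h1, h2⟩ := h i hi
  have h3 : HasFDerivAt (fun y => L (f ((R.e i).symm y)))
      ((L.restrictScalars ℝ).comp (fderiv ℝ (fun y => f ((R.e i).symm y)) (R.e i x))) (R.e i x) :=
    (L.restrictScalars ℝ).hasFDerivAt.comp _ (h1.differentiableAt (by simp)).hasFDerivAt
  refine ⟨(L.restrictScalars ℝ).contDiff.contDiffAt.comp _ h1, fun v => ?_⟩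
  rw [h3.fderiv, ContinuousLinearMap.comp_apply, ContinuousLinearMap.comp_apply, h2]
  simp

theorem sj_pi {κ : Type*} [Fintype κ] {f : Z → EuclideanSpace ℂ κ} {x : Z} :
    R.SJ f x ↔ ∀ k, R.SJ (fun x => f x k) x := by
  constructor
  · intro h k
    exact h.clm (EuclideanSpace.proj k : EuclideanSpace ℂ κ →L[ℂ] ℂ)
  · intro h i hi
    have h1 : ContDiffAt ℝ ∞ (fun y => f ((R.e i).symm y)) (R.e i x) :=
      (contDiffAt_piLp 2).2 fun k => (h k i hi).1
    refine ⟨h1, fun v => ?_⟩
    have h3 : ∀ (k : κ) (w : E), (fderiv ℝ (fun y => f ((R.e i).symm y)) (R.e i x) w) k =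
        fderiv ℝ (fun y => f ((R.e i).symm y) k) (R.e i x) w := by
      intro k w
      have h4 : HasFDerivAt (fun y => f ((R.e i).symm y) k)
          (((EuclideanSpace.proj k : EuclideanSpace ℂ κ →L[ℂ] ℂ).restrictScalars ℝ).comp
            (fderiv ℝ (fun y => f ((R.e i).symm y)) (R.e i x))) (R.e i x) :=
        ((EuclideanSpace.proj k : EuclideanSpace ℂ κ →L[ℂ] ℂ).restrictScalars
          ℝ).hasFDerivAt.comp _ (h1.differentiableAt (by simp)).hasFDerivAt
      rw [h4.fderiv]
      rfl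
    ext k
    rw [h3, PiLp.smul_apply, h3]
    exact (h k i hi).2 v

/-- the chart `c` is `J`-holomorphic -/
def JCh (R : RAtl Z E) (c : OpenPartialHomeomorph Z (Cn d)) : Prop :=
  ∀ x ∈ c.source, R.SJ c x ∧ ∃ i, x ∈ (R.e i).source ∧
    Function.Bijective (fderiv ℝ (fun y => c ((R.e i).symm y)) (R.e i x))

/-- a `J`-holomorphic function read in a `J`-holomorphic chart is complex differentiable -/
theorem JCh.diffAt [FiniteDimensional ℝ E] {c : OpenPartialHomeomorph Z (Cn d)} (hc : R.JCh c)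
    {f : Z → W} {x : Z} (hx : x ∈ c.source) (hf : R.SJ f x) :
    DifferentiableAt ℂ (fun w => f (c.symm w)) (c x) := by
  obtain ⟨hc1, i, hi, hbij⟩ := hc x hx
  obtain ⟨h1, h2⟩ := hc1 i hi
  obtain ⟨h3, h4⟩ := hf i hi
  set A : E ≃L[ℝ] Cn d := (LinearEquiv.ofBijective
    (fderiv ℝ (fun y => c ((R.e i).symm y)) (R.e i x)).toLinearMap hbij).toContinuousLinearEquiv
    with hA
  have hA' : ∀ v, A v = fderiv ℝ (fun y => c ((R.e i).symm y)) (R.e i x) v := fun v => rfl
  have hd : HasFDerivAt (fun y => c ((R.e i).symm y)) (A : E →L[ℝ] Cn d) (R.e i x) := by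
    have e0 : (A : E →L[ℝ] Cn d) = fderiv ℝ (fun y => c ((R.e i).symm y)) (R.e i x) := by
      ext v
      rfl
    rw [e0]
    exact (h1.differentiableAt (by simp)).hasFDerivAt
  have hcx : c.symm (c x) = x := c.left_inv hx
  -- local inverse
  have hG : HasFDerivAt (fun w => R.e i (c.symm w)) (A.symm : Cn d →L[ℝ] E) (c x) := by
    have hcont : ContinuousAt (fun w => R.e i (c.symm w)) (c x) := by
      have a1 : ContinuousAt c.symm (c x) := c.continuousAt_symm (c.map_source hx)
      have a2 : ContinuousAt (R.e i) (c.symm (c x)) := by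
        rw [hcx]; exact (R.e i).continuousAt hi
      exact ContinuousAt.comp (f := c.symm) (g := R.e i) a2 a1
    refine HasFDerivAt.of_local_left_inverse (f := fun y => c ((R.e i).symm y)) (f' := A)
      hcont ?_ ?_
    · rw [hcx]; exact hd
    · have b1 : Tendsto c.symm (𝓝 (c x)) (𝓝 x) := c.tendsto_symm hx
      filter_upwards [b1.eventually ((R.e i).open_source.mem_nhds hi),
        c.open_target.mem_nhds (c.map_source hx)] with w hw hw'
      change c ((R.e i).symm (R.e i (c.symm w))) = w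
      rw [(R.e i).left_inv hw, c.right_inv hw']
  have hF : HasFDerivAt (fun w => f (c.symm w))
      ((fderiv ℝ (fun y => f ((R.e i).symm y)) (R.e i x)).comp (A.symm : Cn d →L[ℝ] E)) (c x) := by
    have a1 : HasFDerivAt (fun y => f ((R.e i).symm y))
        (fderiv ℝ (fun y => f ((R.e i).symm y)) (R.e i x)) (R.e i (c.symm (c x))) := by
      rw [hcx]
      exact (h3.differentiableAt (by simp)).hasFDerivAt
    have a2 := HasFDerivAt.comp (c x) (f := fun w => R.e i (c.symm w)) a1 hG
    refine a2.congr_of_eventuallyEq ?_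
    have b1 : Tendsto c.symm (𝓝 (c x)) (𝓝 x) := c.tendsto_symm hx
    filter_upwards [b1.eventually ((R.e i).open_source.mem_nhds hi)] with w hw
    simp only [Function.comp_apply]
    rw [(R.e i).left_inv hw]
  -- complex linearity
  have hlin : ∀ w : Cn d, A.symm (I • w) = R.J i (R.e i x) (A.symm w) := by
    intro w
    rw [ContinuousLinearEquiv.symm_apply_eq, hA', h2, ← hA', A.apply_symm_apply]
  refine (differentiableAt_iff_restrictScalars ℝ hF.differentiableAt).2 ?_
  rw [hF.fderiv]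
  set B := (fderiv ℝ (fun y => f ((R.e i).symm y)) (R.e i x)).comp (A.symm : Cn d →L[ℝ] E) with hB
  have hBI : ∀ w, B (I • w) = I • B w := by
    intro w
    rw [hB, ContinuousLinearMap.comp_apply, ContinuousLinearMap.comp_apply,
      ContinuousLinearEquiv.coe_coe, hlin, h4]
  refine ⟨{ toFun := B, map_add' := B.map_add, map_smul' := fun a w => ?_, cont := B.cont }, ?_⟩
  · simp only [RingHom.id_apply]
    have e1 : a • w = (a.re : ℝ) • w + (a.im : ℝ) • (I • w) := by
      rw [← Complex.coe_smul, ← Complex.coe_smul, smul_smul, ← add_smul, Complex.re_add_im]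
    have e2 : a • B w = (a.re : ℝ) • B w + (a.im : ℝ) • (I • B w) := by
      rw [← Complex.coe_smul, ← Complex.coe_smul, smul_smul, ← add_smul, Complex.re_add_im]
    rw [e1, B.map_add, B.map_smul, B.map_smul, hBI, e2]
  · ext w
    rfl

/-- the transition maps are holomorphic -/
theorem JCh.trans [FiniteDimensional ℝ E] {c c' : OpenPartialHomeomorph Z (Cn d)} (hc : R.JCh c)
    (hc' : R.JCh c') : DifferentiableOn ℂ (c' ∘ c.symm) (c.symm ≫ₕ c').source := by
  intro w hw
  rw [OpenPartialHomeomorph.trans_source, OpenPartialHomeomorph.symm_source] at hw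
  have h1 := hc.diffAt (c.map_target hw.1) (hc' _ hw.2).1
  rw [c.right_inv hw.1] at h1
  exact h1.differentiableWithinAt

theorem JCh.restr {c : OpenPartialHomeomorph Z (Cn d)} (hc : R.JCh c) (s : Set Z) :
    R.JCh (c.restr s) := by
  intro x hx
  rw [OpenPartialHomeomorph.restr_source] at hx
  obtain ⟨h1, h2⟩ := hc x hx.1
  exact ⟨h1, h2⟩

/-- **inverse function theorem** -/
theorem exists_chart [FiniteDimensional ℝ E] (hfin : Module.finrank ℝ E = 2 * d) {f : Z → Cn d}
    {U : Set Z} (hU : IsOpen U) (hf : ∀ x ∈ U, R.SJ f x) {z : Z} (hz : z ∈ U) {i : R.ι}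
    (hi : z ∈ (R.e i).source)
    (hinj : Function.Injective (fderiv ℝ (fun y => f ((R.e i).symm y)) (R.e i z))) :
    ∃ c : OpenPartialHomeomorph Z (Cn d), z ∈ c.source ∧ c.source ⊆ U ∧ EqOn c f c.source ∧
      R.JCh c := by
  set φ : E → Cn d := fun y => f ((R.e i).symm y) with hφ
  have hdim : Module.finrank ℝ E = Module.finrank ℝ (Cn d) := by
    have h1 : Module.finrank ℝ (Cn d) = 2 * Module.finrank ℂ (Cn d) := finrank_real_of_complex _
    rw [h1, finrank_euclideanSpace_fin, hfin]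
  have hbij : ∀ A : E →L[ℝ] Cn d, Function.Injective A → Function.Bijective A := by
    intro A hA
    exact ⟨hA, (LinearMap.injective_iff_surjective_of_finrank_eq_finrank
      (f := A.toLinearMap) hdim).1 hA⟩
  set O : Set E := (R.e i).target ∩ (R.e i).symm ⁻¹' U with hO
  have hOo : IsOpen O := (R.e i).isOpen_inter_preimage_symm hU
  have hφs : ∀ y ∈ O, ContDiffAt ℝ ∞ φ y := by
    intro y hy
    have h1 := (hf _ hy.2 i ((R.e i).map_target hy.1)).1
    rwa [(R.e i).right_inv hy.1] at h1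
  have hφc : ContDiffOn ℝ ∞ φ O := fun y hy => (hφs y hy).contDiffWithinAt
  have hfc : ContinuousOn (fderiv ℝ φ) O := hφc.continuousOn_fderiv_of_isOpen hOo (by simp)
  set O' : Set E := O ∩ (fderiv ℝ φ) ⁻¹' (range ((↑) : (E ≃L[ℝ] Cn d) → E →L[ℝ] Cn d)) with hO'
  have hO'o : IsOpen O' := hfc.isOpen_inter_preimage hOo (ContinuousLinearEquiv.isOpen)
  have hy0 : R.e i z ∈ O := ⟨(R.e i).map_source hi, by
    rw [mem_preimage, (R.e i).left_inv hi]; exact hz⟩
  set A : E ≃L[ℝ] Cn d := (LinearEquiv.ofBijective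
    (fderiv ℝ φ (R.e i z)).toLinearMap (hbij _ hinj)).toContinuousLinearEquiv with hA
  have hAc : (A : E →L[ℝ] Cn d) = fderiv ℝ φ (R.e i z) := by
    ext v
    rfl
  have hy0' : R.e i z ∈ O' := ⟨hy0, A, hAc⟩
  have hd : HasFDerivAt φ (A : E →L[ℝ] Cn d) (R.e i z) := by
    rw [hAc]
    exact ((hφs _ hy0).differentiableAt (by simp)).hasFDerivAt
  set ψ := (hφs _ hy0).toOpenPartialHomeomorph φ hd (by simp) with hψ
  have hψc : (ψ : E → Cn d) = φ := (hφs _ hy0).toOpenPartialHomeomorph_coe hd (by simp)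
  set c : OpenPartialHomeomorph Z (Cn d) := (R.e i).trans (ψ.restr O') with hc
  have hcs : ∀ x, x ∈ c.source ↔ x ∈ (R.e i).source ∧ R.e i x ∈ ψ.source ∧ R.e i x ∈ O' := by
    intro x
    rw [hc, OpenPartialHomeomorph.trans_source, OpenPartialHomeomorph.restr_source,
      hO'o.interior_eq]
    rfl
  have hcx : ∀ x ∈ (R.e i).source, c x = f x := by
    intro x hx
    change ψ (R.e i x) = f x
    rw [hψc, hφ]
    change f ((R.e i).symm (R.e i x)) = f x
    rw [(R.e i).left_inv hx]
  refine ⟨c, (hcs z).2 ⟨hi, (hφs _ hy0).mem_toOpenPartialHomeomorph_source hd (by simp), hy0'⟩,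
    fun x hx => ?_, fun x hx => hcx x ((hcs x).1 hx).1, fun x hx => ?_⟩
  · obtain ⟨h1, -, h2, -⟩ := (hcs x).1 hx
    have := h2.2
    rwa [mem_preimage, (R.e i).left_inv h1] at this
  · obtain ⟨h1, -, h2, B, hB⟩ := (hcs x).1 hx
    have hxU : x ∈ U := by
      have := h2.2
      rwa [mem_preimage, (R.e i).left_inv h1] at this
    have hev : f =ᶠ[𝓝 x] c := by
      filter_upwards [(R.e i).open_source.mem_nhds h1] with x' hx'
      exact (hcx x' hx').symm
    refine ⟨(hf x hxU).congr hev, i, h1, ?_⟩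
    have he : (fun y => c ((R.e i).symm y)) =ᶠ[𝓝 (R.e i x)] φ := by
      filter_upwards [R.ev_symm h1 hev] with y hy
      exact hy.symm
    rw [he.fderiv_eq, ← hB]
    exact B.bijective

end RAtl

end

end Crest.Agent.R260.KEmb_922
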