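import Crest.Agent.R260.KEmbA_922

/-!
# R260 (S0398), leaf K-EMB (helper922), file B: `J`-holomorphic sections of the powers of a line bundle

* `Pol R`     : a line bundle with transition functions `g` over `R : RAtl Z E` and for every `k` a
  complex vector space `H k` of "`J`-holomorphic" sections of the `k`-th power; the only thing
  which is required is that the quotients of two elements of `H k` are smooth with `J`-linear
  differential (`H_J`, in the form `t ds - s dt` is `J`-linear);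
* `val s x`   : the value of `s` in the distinguished chart around `x`;
* `rat s t x` : the quotient; `sj_rat`;
* `Jet z k`   : sections `s_0, ..., s_d` in `H k` with `s_0(z) ≠ 0` and `(d(s_j/s_0)(z))_j` injective;
* `jetChart`  : the chart given by the ratios.
-/

set_option autoImplicit false
set_option linter.unusedSectionVars false

open Set Filter Topology Complex
open scoped ContDiff Manifold

namespace Crest.Agent.R260.KEmb_922

open Crest.Agent.R275.Geo Crest.Agent.R275.Core144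

noncomputable section

variable {d : ℕ} {Z : Type} [TopologicalSpace Z] {E : Type} [NormedAddCommGroup E]
  [NormedSpace ℝ E]

/-- sections of the powers of a line bundle -/
structure Pol (R : RAtl Z E) where
  g : R.ι → R.ι → Z → ℂ
  g_ne : ∀ i j x, x ∈ (R.e i).source → x ∈ (R.e j).source → g i j x ≠ 0
  H : ℕ → Submodule ℂ (R.ι → Z → ℂ)
  H_sm : ∀ k, ∀ s ∈ H k, ∀ i, ContDiffOn ℝ ∞ (fun y => s i ((R.e i).symm y)) (R.e i).target
  H_tr : ∀ k, ∀ s ∈ H k, ∀ i j x, x ∈ (R.e i).source → x ∈ (R.e j).source →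
    s i x = g i j x ^ k * s j x
  H_mul : ∀ k l, ∀ s ∈ H k, ∀ t ∈ H l, s * t ∈ H (k + l)
  H_J : ∀ k, ∀ s ∈ H k, ∀ t ∈ H k, ∀ i, ∀ y ∈ (R.e i).target, ∀ v,
    t i ((R.e i).symm y) * fderiv ℝ (fun y => s i ((R.e i).symm y)) y (R.J i y v) -
      s i ((R.e i).symm y) * fderiv ℝ (fun y => t i ((R.e i).symm y)) y (R.J i y v) =
    I * (t i ((R.e i).symm y) * fderiv ℝ (fun y => s i ((R.e i).symm y)) y v -
      s i ((R.e i).symm y) * fderiv ℝ (fun y => t i ((R.e i).symm y)) y v)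

namespace Pol

variable {R : RAtl Z E} (P : Pol R)

/-- distinguished chart around `x` -/
def _root_.Crest.Agent.R260.KEmb_922.RAtl.ix (R : RAtl Z E) (x : Z) : R.ι := (R.cover x).choose

theorem _root_.Crest.Agent.R260.KEmb_922.RAtl.ix_mem (R : RAtl Z E) (x : Z) :
    x ∈ (R.e (R.ix x)).source := (R.cover x).choose_spec

/-- the value in the distinguished chart -/
def val (s : R.ι → Z → ℂ) (x : Z) : ℂ := s (R.ix x) x

/-- the quotient -/
def rat (s t : R.ι → Z → ℂ) (x : Z) : ℂ := val s x / val t x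

variable {P} {k l : ℕ} {s t u : R.ι → Z → ℂ} {x : Z} {i : R.ι}

theorem val_eq (hs : s ∈ P.H k) (hx : x ∈ (R.e i).source) :
    val s x = P.g (R.ix x) i x ^ k * s i x := P.H_tr k s hs _ _ x (R.ix_mem x) hx

theorem g_pow_ne (hx : x ∈ (R.e i).source) (k : ℕ) : P.g (R.ix x) i x ^ k ≠ 0 :=
  pow_ne_zero _ (P.g_ne _ _ _ (R.ix_mem x) hx)

theorem val_ne_iff (hs : s ∈ P.H k) (hx : x ∈ (R.e i).source) : val s x ≠ 0 ↔ s i x ≠ 0 := by
  rw [val_eq hs hx, mul_ne_zero_iff]
  exact ⟨fun h => h.2, fun h => ⟨g_pow_ne hx k, h⟩⟩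

theorem rat_eq (hs : s ∈ P.H k) (ht : t ∈ P.H k) (hx : x ∈ (R.e i).source) :
    rat s t x = s i x / t i x := by
  unfold rat
  rw [val_eq hs hx, val_eq ht hx, mul_div_mul_left _ _ (g_pow_ne hx k)]

theorem sm_at (hs : s ∈ P.H k) (hx : x ∈ (R.e i).source) :
    ContDiffAt ℝ ∞ (fun y => s i ((R.e i).symm y)) (R.e i x) :=
  (P.H_sm k s hs i).contDiffAt ((R.e i).open_target.mem_nhds ((R.e i).map_source hx))

theorem cont_at (hs : s ∈ P.H k) (hx : x ∈ (R.e i).source) : ContinuousAt (s i) x := by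
  have h1 : ContinuousAt (fun y => s i ((R.e i).symm y)) (R.e i x) := (sm_at hs hx).continuousAt
  have h2 : ContinuousAt ((fun y => s i ((R.e i).symm y)) ∘ (R.e i)) x :=
    ContinuousAt.comp h1 ((R.e i).continuousAt hx)
  refine h2.congr ?_
  filter_upwards [(R.e i).open_source.mem_nhds hx] with x' hx'
  simp only [Function.comp_apply]
  rw [(R.e i).left_inv hx']

theorem isOpen_val_ne (hs : s ∈ P.H k) : IsOpen {x | val s x ≠ 0} := by
  rw [isOpen_iff_mem_nhds]
  intro x hx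
  have hi := R.ix_mem x
  have h1 : s (R.ix x) x ≠ 0 := hx
  filter_upwards [(cont_at hs hi).eventually_ne h1, (R.e (R.ix x)).open_source.mem_nhds hi]
    with x' h2 h3
  exact (val_ne_iff hs h3).2 h2

theorem val_mul (s t : R.ι → Z → ℂ) (x : Z) : val (s * t) x = val s x * val t x := rfl

theorem val_pow (s : R.ι → Z → ℂ) (m : ℕ) (x : Z) : val (s ^ m) x = val s x ^ m := rfl

/-- the quotient of two sections is `J`-holomorphic -/
theorem sj_rat (hs : s ∈ P.H k) (ht : t ∈ P.H k) (hx : val t x ≠ 0) : R.SJ (rat s t) x := by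
  have hi := R.ix_mem x
  set i := R.ix x with hid
  have h0 : t i x ≠ 0 := hx
  have h1 := sm_at hs hi
  have h2 := sm_at ht hi
  have h0' : t i ((R.e i).symm (R.e i x)) ≠ 0 := by rwa [(R.e i).left_inv hi]
  have h3 : ContDiffAt ℝ ∞ (fun y => s i ((R.e i).symm y) / t i ((R.e i).symm y)) (R.e i x) := by
    have e : (fun y => s i ((R.e i).symm y) / t i ((R.e i).symm y)) =
        fun y => s i ((R.e i).symm y) * (t i ((R.e i).symm y))⁻¹ := by
      funext y; rw [div_eq_mul_inv]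
    rw [e]
    exact h1.mul (h2.inv h0')
  have he : (fun y => rat s t ((R.e i).symm y)) =ᶠ[𝓝 (R.e i x)]
      fun y => s i ((R.e i).symm y) / t i ((R.e i).symm y) := by
    filter_upwards [R.ev_symm hi ((R.e i).open_source.mem_nhds hi)] with y hy
    exact rat_eq hs ht hy
  refine RAtl.SJ.of_one hi (h3.congr_of_eventuallyEq he) fun v => ?_
  have h4 : HasFDerivAt (fun y => s i ((R.e i).symm y))
      (fderiv ℝ (fun y => s i ((R.e i).symm y)) (R.e i x)) (R.e i x) :=
    (h1.differentiableAt (by simp)).hasFDerivAt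
  have h5 : HasFDerivAt (fun y => t i ((R.e i).symm y))
      (fderiv ℝ (fun y => t i ((R.e i).symm y)) (R.e i x)) (R.e i x) :=
    (h2.differentiableAt (by simp)).hasFDerivAt
  have h6 : ∀ w, fderiv ℝ (fun y => rat s t ((R.e i).symm y)) (R.e i x) w =
      (t i x * fderiv ℝ (fun y => s i ((R.e i).symm y)) (R.e i x) w -
        s i x * fderiv ℝ (fun y => t i ((R.e i).symm y)) (R.e i x) w) / t i x ^ 2 := by
    intro w
    have h7 : HasFDerivAt (fun y => s i ((R.e i).symm y) * (t i ((R.e i).symm y))⁻¹)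
        (s i ((R.e i).symm (R.e i x)) • (-(t i ((R.e i).symm (R.e i x)) ^ 2)⁻¹ •
          fderiv ℝ (fun y => t i ((R.e i).symm y)) (R.e i x)) +
        (t i ((R.e i).symm (R.e i x)))⁻¹ • fderiv ℝ (fun y => s i ((R.e i).symm y)) (R.e i x))
        (R.e i x) := by
      have h8 : HasFDerivAt (fun y => (t i ((R.e i).symm y))⁻¹)
          (-(t i ((R.e i).symm (R.e i x)) ^ 2)⁻¹ •
            fderiv ℝ (fun y => t i ((R.e i).symm y)) (R.e i x)) (R.e i x) := by
        have h9 : HasDerivAt (fun z : ℂ => z⁻¹) (-(t i ((R.e i).symm (R.e i x)) ^ 2)⁻¹)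
            (t i ((R.e i).symm (R.e i x))) := hasDerivAt_inv h0'
        exact h9.comp_hasFDerivAt_of_eq _ h5 rfl
      exact h4.mul h8
    have e : (fun y => s i ((R.e i).symm y) / t i ((R.e i).symm y)) =
        fun y => s i ((R.e i).symm y) * (t i ((R.e i).symm y))⁻¹ := by
      funext y; rw [div_eq_mul_inv]
    rw [he.fderiv_eq, e, h7.fderiv, (R.e i).left_inv hi]
    simp only [ContinuousLinearMap.add_apply, ContinuousLinearMap.smul_apply, smul_eq_mul]
    field_simp
    ring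
  have h7 := P.H_J k s hs t ht i (R.e i x) ((R.e i).map_source hi) v
  rw [(R.e i).left_inv hi] at h7
  rw [h6, h6, h7, smul_eq_mul]
  ring

/-- a positive power -/
theorem pow_mem (hs : s ∈ P.H k) : ∀ m : ℕ, s ^ (m + 1) ∈ P.H ((m + 1) * k)
  | 0 => by simpa using hs
  | m + 1 => by
    have h1 := P.H_mul _ _ _ (pow_mem hs m) _ hs
    rw [← pow_succ] at h1
    have e : (m + 1) * k + k = (m + 1 + 1) * k := by ring
    rwa [e] at h1

/-- `s ^ m * t` -/
theorem pow_mul_mem (hs : s ∈ P.H k) (ht : t ∈ P.H k) (m : ℕ) : s ^ m * t ∈ P.H ((m + 1) * k) := by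
  rcases m with _ | m
  · simpa using ht
  · have h1 := P.H_mul _ _ _ (pow_mem hs m) _ ht
    have e : (m + 1) * k + k = (m + 1 + 1) * k := by ring
    rwa [e] at h1

variable (P)

/-- `s_0, ..., s_d` in `H k` with `s_0(z) ≠ 0` and linearly independent `d(s_j/s_0)(z)` -/
def Jet (d : ℕ) (z : Z) (k : ℕ) : Prop :=
  ∃ s0 ∈ P.H k, ∃ s : Fin d → R.ι → Z → ℂ, (∀ j, s j ∈ P.H k) ∧ ∃ i, z ∈ (R.e i).source ∧
    s0 i z ≠ 0 ∧ Function.Injective (fderiv ℝ (fun y => (WithLp.toLp 2 fun j =>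
      s j i ((R.e i).symm y) / s0 i ((R.e i).symm y) : Cn d)) (R.e i z))

variable {P}

/-- the map given by the ratios -/
def rmap (s : Fin d → R.ι → Z → ℂ) (s0 : R.ι → Z → ℂ) (x : Z) : Cn d :=
  WithLp.toLp 2 fun j => rat (s j) s0 x

theorem sj_rmap {s0 : R.ι → Z → ℂ} {s : Fin d → R.ι → Z → ℂ} (h0 : s0 ∈ P.H k)
    (hs : ∀ j, s j ∈ P.H k) (hx : val s0 x ≠ 0) : R.SJ (rmap s s0) x :=
  RAtl.sj_pi.2 fun j => sj_rat (hs j) h0 hx

/-- **the chart given by the ratios of sections** -/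
theorem jetChart [FiniteDimensional ℝ E] (hfin : Module.finrank ℝ E = 2 * d) {z : Z}
    (h : P.Jet d z k) : ∃ s0 ∈ P.H k, ∃ s : Fin d → R.ι → Z → ℂ, (∀ j, s j ∈ P.H k) ∧
      ∃ c : OpenPartialHomeomorph Z (Cn d), z ∈ c.source ∧ (∀ x ∈ c.source, val s0 x ≠ 0) ∧
        EqOn c (rmap s s0) c.source ∧ R.JCh c := by
  obtain ⟨s0, h0, s, hs, i, hi, hne, hinj⟩ := h
  refine ⟨s0, h0, s, hs, ?_⟩
  have he : (fun y => rmap s s0 ((R.e i).symm y)) =ᶠ[𝓝 (R.e i z)]
      fun y => (WithLp.toLp 2 fun j => s j i ((R.e i).symm y) / s0 i ((R.e i).symm y) : Cn d) := by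
    filter_upwards [R.ev_symm hi ((R.e i).open_source.mem_nhds hi)] with y hy
    unfold rmap
    congr 1
    funext j
    exact rat_eq (hs j) h0 hy
  obtain ⟨c, h1, h2, h3, h4⟩ := RAtl.exists_chart hfin (f := rmap s s0) (isOpen_val_ne h0)
    (fun x hx => sj_rmap h0 hs hx) ((val_ne_iff h0 hi).2 hne) hi (by rw [he.fderiv_eq]; exact hinj)
  exact ⟨c, h1, h2, h3, h4⟩

end Pol

end

end Crest.Agent.R260.KEmb_922
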