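import Crest.Agent.R260.KEmbB_922

/-!
# R260 (S0398), leaf K-EMB (helper922), file C: a common power

`exists_big`: if every point has a `Jet` (for some power) and any two points are separated by two
sections of some power, then there are one power `K` and a finite set `S` of sections of the `K`-th
power which gives local charts at every point and separates the points.
-/

set_option autoImplicit false
set_option linter.unusedSectionVars false

open Set Filter Topology Complex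
open scoped ContDiff Manifold

namespace Crest.Agent.R260.KEmb_922

open Crest.Agent.R275.Geo Crest.Agent.R275.Core144

noncomputable section

variable {d : ℕ} {Z : Type} [TopologicalSpace Z] {E : Type} [NormedAddCommGroup E]
  [NormedSpace ℝ E]

namespace Pol

variable {R : RAtl Z E} {P : Pol R} {k l : ℕ} {s t u : R.ι → Z → ℂ} {x y : Z} {i : R.ι}

/-- `t` raised to the power `m * k` by means of `s0` -/
def lf (m : ℕ) (s0 t : R.ι → Z → ℂ) : R.ι → Z → ℂ := s0 ^ (m - 1) * t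

theorem lf_mem {m : ℕ} (hm : 1 ≤ m) (hs : s ∈ P.H k) (ht : t ∈ P.H k) : lf m s t ∈ P.H (m * k) := by
  have := pow_mul_mem hs ht (m - 1)
  rwa [Nat.sub_add_cancel hm] at this

theorem val_lf (m : ℕ) (s t : R.ι → Z → ℂ) (x : Z) : val (lf m s t) x = val s x ^ (m - 1) * val t x :=
  rfl

theorem val_lf_ne {m : ℕ} (h : val s x ≠ 0) : val (lf m s s) x ≠ 0 :=
  mul_ne_zero (pow_ne_zero _ h) h

theorem rat_lf {m : ℕ} (h : val s x ≠ 0) : rat (lf m s t) (lf m s s) x = rat t s x := by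
  unfold rat
  rw [val_lf, val_lf, mul_div_mul_left _ _ (pow_ne_zero _ h)]

theorem rmap_lf {m : ℕ} {s0 : R.ι → Z → ℂ} {s : Fin d → R.ι → Z → ℂ} (h : val s0 x ≠ 0) :
    rmap (fun j => lf m s0 (s j)) (lf m s0 s0) x = rmap s s0 x := by
  unfold rmap
  congr 1
  funext j
  exact rat_lf h

variable (P)

/-- a local chart at `x` by ratios of elements of `S` -/
def LocCh (S : Set (R.ι → Z → ℂ)) (d : ℕ) (x : Z) : Prop :=
  ∃ s0 ∈ S, ∃ s : Fin d → R.ι → Z → ℂ, (∀ j, s j ∈ S) ∧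
    ∃ c : OpenPartialHomeomorph Z (Cn d), x ∈ c.source ∧ (∀ y ∈ c.source, val s0 y ≠ 0) ∧
      EqOn c (rmap s s0) c.source ∧ R.JCh c

/-- the points `x`, `y` are separated by two sections of the `k`-th power -/
def Sep (x y : Z) (k : ℕ) : Prop :=
  ∃ s ∈ P.H k, ∃ t ∈ P.H k, val s x * val t y ≠ val s y * val t x

variable {P}

theorem Sep.exists_uw (h : P.Sep x y k) : ∃ u ∈ P.H k, ∃ w ∈ P.H k, val u x ≠ 0 ∧ val u y = 0 ∧
    val w x = 0 ∧ val w y ≠ 0 := by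
  obtain ⟨s, hs, t, ht, hne⟩ := h
  have e : ∀ (a b : ℂ) (z : Z), val (a • s - b • t) z = a * val s z - b * val t z :=
    fun _ _ _ => rfl
  refine ⟨val t y • s - val s y • t, sub_mem (Submodule.smul_mem _ _ hs) (Submodule.smul_mem _ _ ht),
    val t x • s - val s x • t, sub_mem (Submodule.smul_mem _ _ hs) (Submodule.smul_mem _ _ ht),
    ?_, ?_, ?_, ?_⟩
  · rw [e]
    intro h0
    exact hne (by linear_combination h0)
  · rw [e]; ring
  · rw [e]; ring
  · rw [e]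
    intro h0
    exact hne (by linear_combination -h0)

/-- the inequality of norms is open -/
theorem sep_open {u w : R.ι → Z → ℂ} (hu : u ∈ P.H k) (hw : w ∈ P.H k) {x y : Z}
    (h : ‖val u y‖ * ‖val w x‖ < ‖val u x‖ * ‖val w y‖) :
    ∃ U V : Set Z, IsOpen U ∧ IsOpen V ∧ x ∈ U ∧ y ∈ V ∧ ∀ x' ∈ U, ∀ y' ∈ V,
      ‖val u y'‖ * ‖val w x'‖ < ‖val u x'‖ * ‖val w y'‖ := by
  set i := R.ix x with hi
  set j := R.ix y with hj
  have hxi := R.ix_mem x
  have hyj := R.ix_mem y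
  have h1 : ContinuousAt (fun p : Z × Z => ‖u j p.2‖ * ‖w i p.1‖) (x, y) := by
    have a1 : ContinuousAt (fun p : Z × Z => u j p.2) (x, y) :=
      ContinuousAt.comp (f := Prod.snd) (g := u j) (cont_at hu hyj) continuousAt_snd
    have a2 : ContinuousAt (fun p : Z × Z => w i p.1) (x, y) :=
      ContinuousAt.comp (f := Prod.fst) (g := w i) (cont_at hw hxi) continuousAt_fst
    exact a1.norm.mul a2.norm
  have h2 : ContinuousAt (fun p : Z × Z => ‖u i p.1‖ * ‖w j p.2‖) (x, y) := by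
    have a1 : ContinuousAt (fun p : Z × Z => w j p.2) (x, y) :=
      ContinuousAt.comp (f := Prod.snd) (g := w j) (cont_at hw hyj) continuousAt_snd
    have a2 : ContinuousAt (fun p : Z × Z => u i p.1) (x, y) :=
      ContinuousAt.comp (f := Prod.fst) (g := u i) (cont_at hu hxi) continuousAt_fst
    exact a2.norm.mul a1.norm
  have h3 : ∀ᶠ p : Z × Z in 𝓝 (x, y), ‖u j p.2‖ * ‖w i p.1‖ < ‖u i p.1‖ * ‖w j p.2‖ :=
    h1.eventually_lt h2 h
  rw [nhds_prod_eq, Filter.eventually_prod_iff] at h3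
  obtain ⟨pa, ha, pb, hb, hab⟩ := h3
  obtain ⟨U, hU, hUo, hxU⟩ := mem_nhds_iff.1 ha
  obtain ⟨V, hV, hVo, hyV⟩ := mem_nhds_iff.1 hb
  refine ⟨U ∩ (R.e i).source, V ∩ (R.e j).source, hUo.inter (R.e i).open_source,
    hVo.inter (R.e j).open_source, ⟨hxU, hxi⟩, ⟨hyV, hyj⟩, fun x' hx' y' hy' => ?_⟩
  have h4 := hab (hU hx'.1) (hV hy'.1)
  simp only at h4
  rw [val_eq hu hy'.2, val_eq hw hx'.2, val_eq hu hx'.2, val_eq hw hy'.2]
  simp only [norm_mul]
  have p1 : 0 < ‖P.g (R.ix y') j y' ^ k‖ := norm_pos_iff.2 (g_pow_ne hy'.2 k)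
  have p2 : 0 < ‖P.g (R.ix x') i x' ^ k‖ := norm_pos_iff.2 (g_pow_ne hx'.2 k)
  calc ‖P.g (R.ix y') j y' ^ k‖ * ‖u j y'‖ * (‖P.g (R.ix x') i x' ^ k‖ * ‖w i x'‖)
      = (‖P.g (R.ix y') j y' ^ k‖ * ‖P.g (R.ix x') i x' ^ k‖) * (‖u j y'‖ * ‖w i x'‖) := by ring
    _ < (‖P.g (R.ix y') j y' ^ k‖ * ‖P.g (R.ix x') i x' ^ k‖) * (‖u i x'‖ * ‖w j y'‖) :=
        mul_lt_mul_of_pos_left h4 (mul_pos p1 p2)
    _ = _ := by ring

/-- a power of a pair of separating sections separates -/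
theorem sep_pow {u w : R.ι → Z → ℂ} {x y : Z} {m : ℕ} (hm : m ≠ 0)
    (h : ‖val u y‖ * ‖val w x‖ < ‖val u x‖ * ‖val w y‖) {c : ℂ}
    (h1 : val (u ^ m) y = c * val (u ^ m) x) (h2 : val (w ^ m) y = c * val (w ^ m) x) : False := by
  have h3 : (val u y * val w x) ^ m = (val u x * val w y) ^ m := by
    rw [mul_pow, mul_pow, ← val_pow, ← val_pow, ← val_pow, ← val_pow, h1, h2]
    ring
  have h4 := congrArg norm h3
  rw [norm_pow, norm_pow, norm_mul, norm_mul] at h4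
  exact absurd h4 (ne_of_lt (pow_lt_pow_left₀ h (by positivity) hm))

/-- **a common power** -/
theorem exists_big [FiniteDimensional ℝ E] [CompactSpace Z] [T2Space Z]
    (hfin : Module.finrank ℝ E = 2 * d) (hjet : ∀ z, ∃ k, 1 ≤ k ∧ P.Jet d z k)
    (hsep : ∀ x y, x ≠ y → ∃ k, 1 ≤ k ∧ P.Sep x y k) (K0 : ℕ) (hK0 : 1 ≤ K0) :
    ∃ K, 1 ≤ K ∧ K0 ∣ K ∧ ∃ S : Set (R.ι → Z → ℂ), S.Finite ∧ (∀ s ∈ S, s ∈ P.H K) ∧
      (∀ x, LocCh S d x) ∧ ∀ x y, (∃ c : ℂ, ∀ s ∈ S, val s y = c * val s x) → x = y := by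
  classical
  choose k hk1 hk using hjet
  have hch := fun z => jetChart hfin (hk z)
  choose s0 hs0 s hs c hzc hcne hcs hcJ using hch
  -- finite cover of `Z`
  obtain ⟨T, hT⟩ := isCompact_univ.elim_finite_subcover (fun z : Z => (c z).source)
    (fun z => (c z).open_source) (fun z _ => mem_iUnion.2 ⟨z, hzc z⟩)
  -- the complement of the neighbourhood of the diagonal
  set W : Set (Z × Z) := ⋃ z ∈ T, (c z).source ×ˢ (c z).source with hW
  have hWo : IsOpen W := isOpen_biUnion fun z _ => (c z).open_source.prod (c z).open_source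
  have hWc : IsCompact Wᶜ := hWo.isClosed_compl.isCompact
  have hWne : ∀ p ∈ Wᶜ, p.1 ≠ p.2 := by
    intro p hp h
    apply hp
    obtain ⟨z, hz⟩ := mem_iUnion.1 (hT (mem_univ p.1))
    obtain ⟨hzT, hz⟩ := mem_iUnion.1 hz
    exact mem_biUnion hzT ⟨hz, h ▸ hz⟩
  have hpair : ∀ p : Z × Z, p ∈ Wᶜ → ∃ k', 1 ≤ k' ∧ ∃ u ∈ P.H k', ∃ w ∈ P.H k', ∃ U V : Set Z,
      IsOpen U ∧ IsOpen V ∧ p.1 ∈ U ∧ p.2 ∈ V ∧ ∀ x' ∈ U, ∀ y' ∈ V,
      ‖val u y'‖ * ‖val w x'‖ < ‖val u x'‖ * ‖val w y'‖ := by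
    intro p hp
    obtain ⟨k', hk', h⟩ := hsep p.1 p.2 (hWne p hp)
    obtain ⟨u, hu, w, hw, h1, h2, h3, h4⟩ := h.exists_uw
    refine ⟨k', hk', u, hu, w, hw, sep_open hu hw ?_⟩
    rw [h2, norm_zero, zero_mul]
    exact mul_pos (norm_pos_iff.2 h1) (norm_pos_iff.2 h4)
  choose! k' hk' u hu w hw U V hUo hVo hxU hyV huw using hpair
  obtain ⟨T', hT'1, hT'⟩ := hWc.elim_nhds_subcover' (fun p _ => U p ×ˢ V p)
    (fun p hp => ((hUo p hp).prod (hVo p hp)).mem_nhds ⟨hxU p hp, hyV p hp⟩) |> fun ⟨t, ht⟩ =>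
      (⟨t.image Subtype.val, fun p hp => by
        obtain ⟨q, -, rfl⟩ := Finset.mem_image.1 hp
        exact q.2, by
        refine ht.trans ?_
        intro p hp
        obtain ⟨q, hq⟩ := mem_iUnion.1 hp
        obtain ⟨hq1, hq2⟩ := mem_iUnion.1 hq
        exact mem_biUnion (Finset.mem_image.2 ⟨q, hq1, rfl⟩) hq2⟩ :
        ∃ t : Finset (Z × Z), (∀ p ∈ t, p ∈ Wᶜ) ∧ Wᶜ ⊆ ⋃ p ∈ t, U p ×ˢ V p)
  -- the common power
  set K : ℕ := K0 * ((∏ z ∈ T, k z) * ∏ p ∈ T', k' p) with hK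
  have hK1 : 1 ≤ K := by
    have h1 : 0 < ∏ z ∈ T, k z := Finset.prod_pos fun z _ => hk1 z
    have h2 : 0 < ∏ p ∈ T', k' p := Finset.prod_pos fun p hp => hk' p (hT'1 p hp)
    exact Nat.mul_pos hK0 (Nat.mul_pos h1 h2)
  have hdv1 : ∀ z ∈ T, k z ∣ K := fun z hz =>
    ((Finset.dvd_prod_of_mem k hz).mul_right _).mul_left _
  have hdv2 : ∀ p ∈ T', k' p ∣ K := fun p hp =>
    ((Finset.dvd_prod_of_mem k' hp).mul_left _).mul_left _
  have hq : ∀ a, a ∣ K → 1 ≤ K / a ∧ K / a * a = K := by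
    intro a ha
    refine ⟨?_, Nat.div_mul_cancel ha⟩
    have : 0 < a := Nat.pos_of_dvd_of_pos ha hK1
    exact Nat.div_pos (Nat.le_of_dvd hK1 ha) this
  -- the sections
  set S1 : Set (R.ι → Z → ℂ) := ⋃ z ∈ T, (insert (lf (K / k z) (s0 z) (s0 z))
    (range fun j => lf (K / k z) (s0 z) (s z j))) with hS1
  set S2 : Set (R.ι → Z → ℂ) := ⋃ p ∈ T', {u p ^ (K / k' p), w p ^ (K / k' p)} with hS2
  have hS1f : S1.Finite := T.finite_toSet.biUnion fun z _ => (finite_range _).insert _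
  have hS2f : S2.Finite := T'.finite_toSet.biUnion fun p _ => (finite_singleton _).insert _
  refine ⟨K, hK1, Dvd.intro _ rfl, S1 ∪ S2, hS1f.union hS2f, ?_, fun x => ?_, ?_⟩
  · rintro σ (hσ | hσ)
    · obtain ⟨z, hz, hσ⟩ := mem_iUnion₂.1 hσ
      obtain ⟨h1, h2⟩ := hq _ (hdv1 z hz)
      rcases hσ with rfl | ⟨j, rfl⟩
      · have := lf_mem h1 (hs0 z) (hs0 z)
        rwa [h2] at this
      · have := lf_mem h1 (hs0 z) (hs z j)
        simp only
        rwa [h2] at this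
    · obtain ⟨p, hp, hσ⟩ := mem_iUnion₂.1 hσ
      obtain ⟨h1, h2⟩ := hq _ (hdv2 p hp)
      have key : ∀ a ∈ P.H (k' p), a ^ (K / k' p) ∈ P.H K := by
        intro a ha
        have := pow_mem ha (K / k' p - 1)
        rwa [Nat.sub_add_cancel h1, h2] at this
      rcases hσ with rfl | hσ
      · exact key _ (hu p (hT'1 p hp))
      · rw [mem_singleton_iff.1 hσ]
        exact key _ (hw p (hT'1 p hp))
  · obtain ⟨z, hz⟩ := mem_iUnion.1 (hT (mem_univ x))
    obtain ⟨hzT, hz⟩ := mem_iUnion.1 hz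
    refine ⟨lf (K / k z) (s0 z) (s0 z), Or.inl (mem_biUnion hzT (mem_insert _ _)),
      fun j => lf (K / k z) (s0 z) (s z j),
      fun j => Or.inl (mem_biUnion hzT (mem_insert_of_mem _ ⟨j, rfl⟩)), c z, hz,
      fun y hy => val_lf_ne (hcne z y hy), fun y hy => ?_, hcJ z⟩
    rw [rmap_lf (hcne z y hy)]
    exact hcs z hy
  · rintro x y ⟨a, ha⟩
    by_cases hp : (x, y) ∈ W
    · obtain ⟨z, hzT, hz⟩ := mem_iUnion₂.1 hp
      have hx : x ∈ (c z).source := hz.1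
      have hy : y ∈ (c z).source := hz.2
      have m0 : lf (K / k z) (s0 z) (s0 z) ∈ S1 ∪ S2 := Or.inl (mem_biUnion hzT (mem_insert _ _))
      have mj : ∀ j, lf (K / k z) (s0 z) (s z j) ∈ S1 ∪ S2 := fun j =>
        Or.inl (mem_biUnion hzT (mem_insert_of_mem _ ⟨j, rfl⟩))
      have hx0 := hcne z x hx
      have hy0 := hcne z y hy
      have ha0 : a ≠ 0 := by
        rintro rfl
        have := ha _ m0
        rw [zero_mul] at this
        exact val_lf_ne hy0 this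
      have e : rmap (s z) (s0 z) x = rmap (s z) (s0 z) y := by
        rw [← rmap_lf (m := K / k z) hx0, ← rmap_lf (m := K / k z) hy0]
        unfold rmap
        congr 1
        funext j
        unfold rat
        rw [ha _ (mj j), ha _ m0, mul_div_mul_left _ _ ha0]
      have e2 : c z x = c z y := by rw [hcs z hx, hcs z hy, e]
      exact (c z).injOn hx hy e2
    · exfalso
      obtain ⟨p, hpT, hp2⟩ := mem_iUnion₂.1 (hT' hp)
      have h1 := huw p (hT'1 p hpT) x hp2.1 y hp2.2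
      have h2 := (hq _ (hdv2 p hpT)).1
      exact sep_pow (by omega) h1 (ha _ (Or.inr (mem_biUnion hpT (mem_insert _ _))))
        (ha _ (Or.inr (mem_biUnion hpT (mem_insert_of_mem _ rfl))))

end Pol

end

end Crest.Agent.R260.KEmb_922
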