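import Crest.Agent.R260.KEmbC_922
import Crest.Agent.R275.GAtl_293

/-!
# R260 (S0398), leaf K-EMB (helper922), file D: the complex manifold and the good atlas

* `CJ R A`      : all charts of `A : Atl d Z` are `J`-holomorphic;
* `CJ.holAt`    : `J`-holomorphic functions are holomorphic in the charts of `A`;
* `cspace`, `isManifold_cspace` : the complex manifold structure given by `J`-holomorphic charts;
* `exists_goodAtl_J` : a finite good atlas by `J`-holomorphic charts, subordinate to an open cover.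
-/

set_option autoImplicit false
set_option linter.unusedSectionVars false

open Set Filter Topology Complex
open scoped ContDiff Manifold

namespace Crest.Agent.R260.KEmb_922

open Crest.Agent.R275.Geo Crest.Agent.R275.Core144 Crest.Agent.R275.GC293

noncomputable section

variable {d : ℕ} {Z : Type} [TopologicalSpace Z] {E : Type} [NormedAddCommGroup E]
  [NormedSpace ℝ E]

/-- the charts of `A` are `J`-holomorphic -/
def CJ (R : RAtl Z E) (A : Atl d Z) : Prop := ∀ a, R.JCh (A.e a)

variable {R : RAtl Z E} {A : Atl d Z}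

/-- a `J`-holomorphic function is holomorphic in the charts of `A` -/
theorem CJ.holAt [FiniteDimensional ℝ E] (hA : CJ R A) {f : Z → ℂ} {U : Set Z}
    (hf : ∀ x ∈ U, R.SJ f x) (a : A.ι) : HolAt A a U f := by
  intro w hw
  have hx : (A.e a).symm w ∈ (A.e a).source := (A.e a).map_target hw.1
  have h1 := (hA a).diffAt hx (hf _ hw.2)
  rw [(A.e a).right_inv hw.1] at h1
  exact h1.differentiableWithinAt

theorem holAt_univ {a : A.ι} {f : Z → ℂ} (h : HolAt A a (A.e a).source f) : HolAt A a univ f := by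
  refine DifferentiableOn.mono h fun w hw => ⟨hw.1, (A.e a).map_target hw.1⟩

/-- the complex structure -/
@[reducible] def cspace (c : Z → OpenPartialHomeomorph Z (Cn d)) (hc : ∀ z, z ∈ (c z).source) :
    ChartedSpace (Cn d) Z where
  atlas := range c
  chartAt := c
  mem_chart_source := hc
  chart_mem_atlas z := ⟨z, rfl⟩

theorem isManifold_cspace [FiniteDimensional ℝ E] (c : Z → OpenPartialHomeomorph Z (Cn d))
    (hc : ∀ z, z ∈ (c z).source) (hJ : ∀ z, R.JCh (c z)) :
    letI := cspace c hc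
    IsManifold 𝓘(ℂ, Cn d) 1 Z := by
  let := cspace c hc
  refine isManifold_of_contDiffOn 𝓘(ℂ, Cn d) 1 Z ?_
  rintro _ _ ⟨z, rfl⟩ ⟨z', rfl⟩
  have h1 := (hJ z).trans (hJ z')
  have h2 : ContDiffOn ℂ ω (c z' ∘ (c z).symm) ((c z).symm ≫ₕ c z').source :=
    Crest.Agent.R266.SCV.contDiffOn_omega_of_differentiableOn
      ((c z).symm ≫ₕ c z').open_source h1
  simp only [modelWithCornersSelf_coe, modelWithCornersSelf_coe_symm, Function.comp_id,
    Function.id_comp, preimage_id_eq, id_eq, range_id, inter_univ]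
  exact h2.of_le (by simp)

theorem SJ_affine {f : Z → Cn d} {x : Z} (hf : R.SJ f x) (r : ℂ) (a b : Cn d) :
    R.SJ (fun x => r • (f x - a) + b) x := by
  intro i hi
  obtain ⟨h1, h2⟩ := hf i hi
  have h3 : HasFDerivAt (fun y => r • (f ((R.e i).symm y) - a) + b)
      (r • fderiv ℝ (fun y => f ((R.e i).symm y)) (R.e i x)) (R.e i x) :=
    (((h1.differentiableAt (by simp)).hasFDerivAt.sub_const a).const_smul r).add_const b
  refine ⟨((h1.sub contDiffAt_const).const_smul r).add contDiffAt_const, fun v => ?_⟩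
  rw [h3.fderiv, ContinuousLinearMap.smul_apply, ContinuousLinearMap.smul_apply, h2, smul_comm]

theorem JCh_trans_aff {c c' : OpenPartialHomeomorph Z (Cn d)} (hc : R.JCh c) {r : ℂ} (hr : r ≠ 0)
    {a b : Cn d} (hs : c'.source ⊆ c.source) (h : ∀ x, c' x = r • (c x - a) + b) : R.JCh c' := by
  intro x hx
  obtain ⟨h1, i, hi, hb⟩ := hc x (hs hx)
  have he : (c' : Z → Cn d) = fun x => r • (c x - a) + b := funext h
  rw [he]
  refine ⟨SJ_affine h1 r a b, i, hi, ?_⟩
  have h3 : HasFDerivAt (fun y => r • (c ((R.e i).symm y) - a) + b)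
      (r • fderiv ℝ (fun y => c ((R.e i).symm y)) (R.e i x)) (R.e i x) :=
    ((((h1 i hi).1.differentiableAt (by simp)).hasFDerivAt.sub_const a).const_smul r).add_const b
  rw [h3.fderiv]
  constructor
  · intro v w hvw
    exact hb.1 (smul_right_injective _ hr hvw)
  · intro w
    obtain ⟨v, hv⟩ := hb.2 (r⁻¹ • w)
    refine ⟨v, ?_⟩
    rw [ContinuousLinearMap.smul_apply, hv, smul_smul, mul_inv_cancel₀ hr, one_smul]

/-- **a finite good atlas by `J`-holomorphic charts** -/
theorem exists_goodAtl_J [FiniteDimensional ℝ E] [CompactSpace Z] [T2Space Z]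
    (c : Z → OpenPartialHomeomorph Z (Cn d)) (hc : ∀ z, z ∈ (c z).source) (hJ : ∀ z, R.JCh (c z))
    {κ : Type*} (O : κ → Set Z) (hO : ∀ k, IsOpen (O k)) (hOc : ∀ x, ∃ k, x ∈ O k) :
    ∃ A : Atl d Z, Finite A.ι ∧ GoodA A ∧ Nonempty (Part A) ∧ CJ R A ∧
      ∀ a, ∃ k, (A.e a).source ⊆ O k := by
  let := cspace c hc
  have := isManifold_cspace c hc hJ
  obtain ⟨G, h1, h2, h3, h4⟩ := exists_goodAtl (m := d) (M := Z) O hO hOc
  refine ⟨goodAtl G, h3, h1, h2, fun a => ?_, h4⟩
  obtain ⟨z, hz⟩ := G.e_mem a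
  have hr : ((2 * G.r : ℝ) : ℂ)⁻¹ ≠ 0 := by
    have := G.r_pos
    exact inv_ne_zero (by exact_mod_cast (by positivity : (2 * G.r : ℝ) ≠ 0))
  refine JCh_trans_aff (c := G.e a) (hz ▸ hJ z) hr (a := G.e a (G.c a)) (b := ctr d) ?_ fun x => rfl
  intro x hx
  have h5 : x ∈ G.B a := by
    rwa [show ((goodAtl G).e a).source = G.B a from goodAtl_source G a] at hx
  exact cball_subset_source _ _ _ h5

/-! ### the inverse of a chart -/

/-- the coordinates of one `J`-holomorphic chart read in another one: injective differential -/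
theorem inj_fderiv [FiniteDimensional ℝ E] {c c' : OpenPartialHomeomorph Z (Cn d)} (hc : R.JCh c)
    (hc' : R.JCh c') {x : Z} (hx : x ∈ c.source) (hx' : x ∈ c'.source) {v : Cn d}
    (hv : fderiv ℂ (fun w => c' (c.symm w)) (c x) v = 0) : v = 0 := by
  have h1 := hc.diffAt hx (hc' x hx').1
  have h2 := hc'.diffAt hx' (hc x hx).1
  have h3 : HasFDerivAt (fun w => c' (c.symm w)) (fderiv ℂ (fun w => c' (c.symm w)) (c x)) (c x) :=
    h1.hasFDerivAt
  have h4 : HasFDerivAt (fun w => c (c'.symm w)) (fderiv ℂ (fun w => c (c'.symm w)) (c' x))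
      (c' (c.symm (c x))) := by
    rw [c.left_inv hx]
    exact h2.hasFDerivAt
  have h5 := h4.comp (c x) h3
  have h6 : ((fun w => c (c'.symm w)) ∘ fun w => c' (c.symm w)) =ᶠ[𝓝 (c x)] id := by
    have b1 : Tendsto c.symm (𝓝 (c x)) (𝓝 x) := c.tendsto_symm hx
    filter_upwards [b1.eventually (c'.open_source.mem_nhds hx'),
      c.open_target.mem_nhds (c.map_source hx)] with w hw hw'
    simp only [Function.comp_apply, id_eq]
    rw [c'.left_inv hw, c.right_inv hw']
  have h7 := (h5.congr_of_eventuallyEq h6.symm).unique (hasFDerivAt_id (c x))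
  have h8 := congrArg (fun L : Cn d →L[ℂ] Cn d => L v) h7
  simp only [ContinuousLinearMap.comp_apply, hv, map_zero] at h8
  exact h8.symm

end

end Crest.Agent.R260.KEmb_922
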