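import Crest.Agent.R260.KEmbD_922
import Crest.Agent.R273.SerC_945

/-!
# R260 (S0398), leaf K-EMB (helper922), file E: the holomorphic line bundle and its sections

* `Frm P A`      : for every chart `a` of `A` sections `a0 ∈ H k`, `a1 ∈ H (k+1)` without zeros on
  the domain of `a`; `a1 / a0` is a frame of the line bundle;
* `Frm.bdl`      : the holomorphic line bundle `L`;
* `Frm.sec s`    : `s ∈ H k`, `k ≥ 1`, as a section of `L ^ k`; `Frm.isHS_sec`;
* `exists_proj`  : the projective embedding by a power of `L`.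
-/

set_option autoImplicit false
set_option linter.unusedSectionVars false

open Set Filter Topology Complex
open scoped ContDiff Manifold

namespace Crest.Agent.R260.KEmb_922

open Crest.Agent.R275.Geo Crest.Agent.R275.Core144 Crest.Agent.R275.GC293
open Crest.Agent.R273.Defs_333 Crest.Agent.R273.FS_333 Crest.Agent.R273.SerC_945

noncomputable section

variable {d : ℕ} {Z : Type} [TopologicalSpace Z] {E : Type} [NormedAddCommGroup E]
  [NormedSpace ℝ E]

/-- frames of the line bundle over the charts of `A` -/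
structure Frm {R : RAtl Z E} (P : Pol R) (A : Atl d Z) where
  k : A.ι → ℕ
  a0 : A.ι → R.ι → Z → ℂ
  a1 : A.ι → R.ι → Z → ℂ
  m0 : ∀ a, a0 a ∈ P.H (k a)
  m1 : ∀ a, a1 a ∈ P.H (k a + 1)
  n0 : ∀ a, ∀ x ∈ (A.e a).source, Pol.val (a0 a) x ≠ 0
  n1 : ∀ a, ∀ x ∈ (A.e a).source, Pol.val (a1 a) x ≠ 0

variable {R : RAtl Z E} {P : Pol R} {A : Atl d Z}

theorem LB_pow_g (L : LB A) (m : ℕ) (i j : A.ι) (x : Z) : (L ^ m).g i j x = L.g i j x ^ m := by
  induction m with
  | zero => simp
  | succ m ih => rw [pow_succ, pow_succ, LB.mul_g, ih]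

namespace Frm

variable (F : Frm P A)

/-- the value of the frame -/
def fv (a : A.ι) (x : Z) : ℂ := Pol.val (F.a1 a) x / Pol.val (F.a0 a) x

theorem fv_ne {a : A.ι} {x : Z} (hx : x ∈ (A.e a).source) : F.fv a x ≠ 0 :=
  div_ne_zero (F.n1 a x hx) (F.n0 a x hx)

open Classical in
/-- **the line bundle** -/
def bdl [FiniteDimensional ℝ E] (hA : CJ R A) : LB A where
  g a b x := if x ∈ (A.e a).source ∩ (A.e b).source then F.fv b x / F.fv a x else 1
  hol a b := by
    have h1 : HolAt A a ((A.e a).source ∩ (A.e b).source)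
        (Pol.rat (F.a1 b * F.a0 a) (F.a0 b * F.a1 a)) := by
      refine hA.holAt (fun x hx => ?_) a
      have m1 : F.a1 b * F.a0 a ∈ P.H (F.k b + 1 + F.k a) := P.H_mul _ _ _ (F.m1 b) _ (F.m0 a)
      have m2 : F.a0 b * F.a1 a ∈ P.H (F.k b + 1 + F.k a) := by
        have := P.H_mul _ _ _ (F.m0 b) _ (F.m1 a)
        have e : F.k b + (F.k a + 1) = F.k b + 1 + F.k a := by ring
        rwa [e] at this
      exact Pol.sj_rat m1 m2 (mul_ne_zero (F.n0 b x hx.2) (F.n1 a x hx.1))
    have h2 : HolAt A a (A.e b).source (Pol.rat (F.a1 b * F.a0 a) (F.a0 b * F.a1 a)) := by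
      refine DifferentiableOn.mono h1 fun w hw => ⟨hw.1, (A.e a).map_target hw.1, hw.2⟩
    refine h2.congr fun x hx hx' => ?_
    rw [if_pos ⟨hx, hx'⟩]
    unfold Pol.rat fv
    rw [Pol.val_mul, Pol.val_mul]
    have e1 := F.n0 a x hx
    have e2 := F.n1 a x hx
    have e3 := F.n0 b x hx'
    field_simp
  off a b x hx := if_neg hx
  self a x := by
    by_cases hx : x ∈ (A.e a).source
    · rw [if_pos ⟨hx, hx⟩, div_self (F.fv_ne hx)]
    · exact if_neg fun h => hx h.1
  mul a b c x hx := by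
    rw [if_pos hx.1, if_pos ⟨hx.1.2, hx.2⟩, if_pos ⟨hx.1.1, hx.2⟩]
    have e1 := F.fv_ne hx.1.1
    have e2 := F.fv_ne hx.1.2
    field_simp

variable [FiniteDimensional ℝ E] (hA : CJ R A)

theorem bdl_g {a b : A.ι} {x : Z} (ha : x ∈ (A.e a).source) (hb : x ∈ (A.e b).source) :
    (F.bdl hA).g a b x = F.fv b x / F.fv a x := if_pos ⟨ha, hb⟩

open Classical in
/-- the section of the `k`-th power of the line bundle -/
def sec (k : ℕ) (s : R.ι → Z → ℂ) (a : A.ι) (x : Z) : ℂ :=
  if x ∈ (A.e a).source then Pol.val s x / F.fv a x ^ k else 0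

theorem sec_eq (k : ℕ) (s : R.ι → Z → ℂ) {a : A.ι} {x : Z} (hx : x ∈ (A.e a).source) :
    F.sec k s a x = Pol.val s x / F.fv a x ^ k := if_pos hx

theorem isHS_sec {k : ℕ} {s : R.ι → Z → ℂ} (hs : s ∈ P.H (k + 1)) :
    IsHS (F.bdl hA ^ (k + 1)) univ (F.sec (k + 1) s) where
  hol a := by
    have m1 : s * F.a0 a ^ (k + 1) ∈ P.H ((k + 1) + (k + 1) * F.k a) :=
      P.H_mul _ _ _ hs _ (Pol.pow_mem (F.m0 a) k)
    have m2 : F.a1 a ^ (k + 1) ∈ P.H ((k + 1) + (k + 1) * F.k a) := by
      have := Pol.pow_mem (F.m1 a) k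
      have e : (k + 1) * (F.k a + 1) = (k + 1) + (k + 1) * F.k a := by ring
      rwa [e] at this
    have h1 : HolAt A a (A.e a).source (Pol.rat (s * F.a0 a ^ (k + 1)) (F.a1 a ^ (k + 1))) :=
      hA.holAt (fun x hx => Pol.sj_rat m1 m2 (by
        rw [Pol.val_pow]; exact pow_ne_zero _ (F.n1 a x hx))) a
    refine (holAt_univ h1).congr fun x hx _ => ?_
    rw [F.sec_eq _ _ hx]
    unfold Pol.rat fv
    rw [Pol.val_mul, Pol.val_pow, Pol.val_pow, div_pow]
    have e1 := F.n0 a x hx
    have e2 := F.n1 a x hx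
    field_simp
  off a x hx := if_neg hx
  tr a b x hx _ := by
    rw [F.sec_eq _ _ hx.1, F.sec_eq _ _ hx.2, LB_pow_g, F.bdl_g hA hx.1 hx.2, div_pow]
    have e1 := F.fv_ne hx.1
    have e2 := F.fv_ne hx.2
    field_simp

/-- the differential of a ratio -/
theorem sec_ratio {k : ℕ} {s t : R.ι → Z → ℂ} {a : A.ι} {x : Z} (hx : x ∈ (A.e a).source) :
    Pol.rat s t x = F.sec k s a x / F.sec k t a x := by
  rw [F.sec_eq _ _ hx, F.sec_eq _ _ hx, Pol.rat,
    div_div_div_cancel_right₀ (pow_ne_zero _ (F.fv_ne hx))]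

/-- **the projective embedding** -/
theorem exists_proj [CompactSpace Z] [T2Space Z]
    (hfin : Module.finrank ℝ E = 2 * d) (hjet : ∀ z, ∃ k, 1 ≤ k ∧ P.Jet d z k)
    (hsep : ∀ x y, x ≠ y → ∃ k, 1 ≤ k ∧ P.Sep x y k) (K0 : ℕ) (hK0 : 1 ≤ K0) :
    ∃ K, 1 ≤ K ∧ K0 ∣ K ∧ ∃ Q : ProjD A, lb Q = F.bdl hA ^ K := by
  classical
  obtain ⟨K, hK, hK0K, S, hSf, hSH, hloc, hinj⟩ := Pol.exists_big hfin hjet hsep K0 hK0
  refine ⟨K, hK, hK0K, ?_⟩
  obtain ⟨k, rfl⟩ : ∃ k, K = k + 1 := ⟨K - 1, by omega⟩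
  -- enumerate the sections
  let S' : Finset (R.ι → Z → ℂ) := hSf.toFinset
  let e : Fin S'.card ≃ S' := S'.equivFin.symm
  let σ : Fin (S'.card + 1) → R.ι → Z → ℂ := Fin.cons 0 fun j => (e j : R.ι → Z → ℂ)
  have hσ : ∀ j, σ j ∈ P.H (k + 1) := by
    intro j
    refine Fin.cases ?_ (fun j => ?_) j
    · exact zero_mem _
    · exact hSH _ (hSf.mem_toFinset.1 (e j).2)
  have hσS : ∀ s ∈ S, ∃ j, σ j = s := by
    intro s hs
    have hs' : s ∈ S' := hSf.mem_toFinset.2 hs
    refine ⟨Fin.succ (e.symm ⟨s, hs'⟩), ?_⟩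
    simp only [σ, Fin.cons_succ, Equiv.apply_symm_apply]
  have hH := fun j => F.isHS_sec hA (hσ j)
  let D : FD (F.bdl hA ^ (k + 1)) :=
    { N := S'.card
      F := fun j => F.sec (k + 1) (σ j)
      hs := hH
      ne := fun a x hx => by
        obtain ⟨s0, hs0, s, hs, c, hxc, hne, -, -⟩ := hloc x
        obtain ⟨j, hj⟩ := hσS s0 hs0
        refine ⟨j, ?_⟩
        rw [F.sec_eq _ _ hx, hj]
        exact div_ne_zero (hne x hxc) (pow_ne_zero _ (F.fv_ne hx))
      imm := fun a z hz v ⟨r, hr⟩ => by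
        set x := (A.e a).symm z with hx
        have hxa : x ∈ (A.e a).source := (A.e a).map_target hz
        have hzx : A.e a x = z := (A.e a).right_inv hz
        obtain ⟨s0, hs0, s, hs, c, hxc, hne, hcs, hcJ⟩ := hloc x
        refine inj_fderiv (hA a) hcJ hxa hxc (v := v) ?_
        rw [hzx]
        have hd : ∀ j, DifferentiableAt ℂ (fun w => F.sec (k + 1) (σ j) a ((A.e a).symm w)) z := by
          intro j
          have h1 := ((hH j).hol a).diffAt isOpen_univ hxa (mem_univ _)
          rwa [hzx] at h1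
        -- differential of a ratio
        have key : ∀ i, fderiv ℂ (fun w => c ((A.e a).symm w) i) z v = 0 := by
          intro i
          obtain ⟨j0, hj0⟩ := hσS s0 hs0
          obtain ⟨ji, hji⟩ := hσS (s i) (hs i)
          have hev : (fun w => c ((A.e a).symm w) i) =ᶠ[𝓝 z] fun w =>
              F.sec (k + 1) (σ ji) a ((A.e a).symm w) *
                (F.sec (k + 1) (σ j0) a ((A.e a).symm w))⁻¹ := by
            have b1 : Tendsto (A.e a).symm (𝓝 z) (𝓝 x) := by
              have := (A.e a).tendsto_symm hxa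
              rwa [hzx] at this
            filter_upwards [b1.eventually (c.open_source.mem_nhds hxc),
              (A.e a).open_target.mem_nhds hz] with w hw hw'
            rw [hcs hw]
            change Pol.rat (s i) s0 _ = _
            rw [F.sec_ratio (k := k + 1) ((A.e a).map_target hw'), hji, hj0, div_eq_mul_inv]
          have hne0 : F.sec (k + 1) (σ j0) a ((A.e a).symm z) ≠ 0 := by
            rw [← hx, F.sec_eq _ _ hxa, hj0]
            exact div_ne_zero (hne x hxc) (pow_ne_zero _ (F.fv_ne hxa))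
          have h2 : HasFDerivAt (fun w => F.sec (k + 1) (σ ji) a ((A.e a).symm w) *
                (F.sec (k + 1) (σ j0) a ((A.e a).symm w))⁻¹)
              (F.sec (k + 1) (σ ji) a ((A.e a).symm z) •
                (-(F.sec (k + 1) (σ j0) a ((A.e a).symm z) ^ 2)⁻¹ •
                  fderiv ℂ (fun w => F.sec (k + 1) (σ j0) a ((A.e a).symm w)) z) +
                (F.sec (k + 1) (σ j0) a ((A.e a).symm z))⁻¹ •
                  fderiv ℂ (fun w => F.sec (k + 1) (σ ji) a ((A.e a).symm w)) z) z :=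
            (hd ji).hasFDerivAt.mul ((hasDerivAt_inv hne0).comp_hasFDerivAt z (hd j0).hasFDerivAt)
          rw [hev.fderiv_eq, h2.fderiv]
          simp only [ContinuousLinearMap.add_apply, ContinuousLinearMap.smul_apply, smul_eq_mul,
            hr]
          field_simp
          ring
        have hdc : DifferentiableAt ℂ (fun w => c ((A.e a).symm w)) z := by
          have := (hA a).diffAt hxa (hcJ x hxc).1
          rwa [hzx] at this
        ext i
        have h3 : HasFDerivAt (fun w => c ((A.e a).symm w) i)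
            ((EuclideanSpace.proj i : Cn d →L[ℂ] ℂ).comp
              (fderiv ℂ (fun w => c ((A.e a).symm w)) z)) z :=
          (EuclideanSpace.proj i : Cn d →L[ℂ] ℂ).hasFDerivAt.comp z hdc.hasFDerivAt
        have h4 := key i
        rw [h3.fderiv] at h4
        exact h4
      fin := fun x => by
        refine (finite_singleton x).subset fun y hy => ?_
        obtain ⟨i, j, hi, hj, r, hr⟩ := hy
        refine (hinj x y ⟨r * (F.fv j y / F.fv i x) ^ (k + 1), fun s hs => ?_⟩).symm
        obtain ⟨l, hl⟩ := hσS s hs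
        have h1 : F.sec (k + 1) (σ l) j y = r * F.sec (k + 1) (σ l) i x := hr l
        rw [F.sec_eq _ _ hj, F.sec_eq _ _ hi, hl] at h1
        have e1 := F.fv_ne hi
        have e2 := F.fv_ne hj
        rw [div_eq_iff (pow_ne_zero _ e2)] at h1
        rw [h1, div_pow]
        field_simp }
  have inj : ∀ x y, Rel D.F x y → x = y := by
    intro x y hy
    obtain ⟨i, j, hi, hj, r, hr⟩ := hy
    refine hinj x y ⟨r * (F.fv j y / F.fv i x) ^ (k + 1), fun s hs => ?_⟩
    obtain ⟨l, hl⟩ := hσS s hs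
    have h1 : F.sec (k + 1) (σ l) j y = r * F.sec (k + 1) (σ l) i x := hr l
    rw [F.sec_eq _ _ hj, F.sec_eq _ _ hi, hl] at h1
    have e1 := F.fv_ne hi
    have e2 := F.fv_ne hj
    rw [div_eq_iff (pow_ne_zero _ e2)] at h1
    rw [h1, div_pow]
    field_simp
  exact ⟨D.toProj inj, lb_toProj D inj⟩

end Frm

end

end Crest.Agent.R260.KEmb_922
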