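import Crest.Agent.R260.KEmbE_922

/-!
# R260 (S0398), leaf K-EMB (helper922), file F: the assembly

`kemb` : a compact space with real charts, an almost complex structure and, for every large `k`,
`J`-holomorphic sections of the `k`-th power of a line bundle with independent 1-jets at every point,
and separating sections for any two points ==> a finite good atlas `A : Atl d Z` with a partition of
unity, by `J`-holomorphic charts, frames of the line bundle over all charts (so the holomorphic line
bundle `F.bdl hA`), and a projective embedding `Q` with `lb Q = (F.bdl hA) ^ K`.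
-/

set_option autoImplicit false
set_option linter.unusedSectionVars false

open Set Filter Topology Complex
open scoped ContDiff Manifold

namespace Crest.Agent.R260.KEmb_922

open Crest.Agent.R275.Geo Crest.Agent.R275.Core144 Crest.Agent.R275.GC293
open Crest.Agent.R273.Defs_333 Crest.Agent.R273.FS_333 Crest.Agent.R273.SerC_945

noncomputable section

variable {d : ℕ} {Z : Type} [TopologicalSpace Z] {E : Type} [NormedAddCommGroup E]
  [NormedSpace ℝ E]

/-- **K-EMB** -/
theorem kemb [FiniteDimensional ℝ E] [CompactSpace Z] [T2Space Z] {R : RAtl Z E} (P : Pol R)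
    (hfin : Module.finrank ℝ E = 2 * d)
    (hjet : ∀ z, ∃ k0, ∀ k, k0 ≤ k → P.Jet d z k)
    (hsep : ∀ x y, x ≠ y → ∃ k, 1 ≤ k ∧ P.Sep x y k) (K0 : ℕ) (hK0 : 1 ≤ K0) :
    ∃ A : Atl d Z, Finite A.ι ∧ GoodA A ∧ Nonempty (Part A) ∧ ∃ hA : CJ R A, ∃ F : Frm P A,
      ∃ K, 1 ≤ K ∧ K0 ∣ K ∧ ∃ Q : ProjD A, lb Q = F.bdl hA ^ K := by
  choose k0 hk0 using hjet
  have h1 := fun z => Pol.jetChart hfin (hk0 z (k0 z) le_rfl)
  choose s0 hs0 s hs c hzc hcne hcs hcJ using h1
  have h2 := fun z => Pol.jetChart hfin (hk0 z (k0 z + 1) (Nat.le_succ _))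
  choose t0 ht0 t ht c' hzc' hcne' hcs' hcJ' using h2
  obtain ⟨A, hAf, hAg, hAp, hA, hO⟩ := exists_goodAtl_J c hzc hcJ
    (fun z : Z => (c z).source ∩ (c' z).source)
    (fun z => (c z).open_source.inter (c' z).open_source) (fun z => ⟨z, hzc z, hzc' z⟩)
  choose q hq using hO
  let F : Frm P A :=
    { k := fun a => k0 (q a)
      a0 := fun a => s0 (q a)
      a1 := fun a => t0 (q a)
      m0 := fun a => hs0 (q a)
      m1 := fun a => ht0 (q a)
      n0 := fun a x hx => hcne (q a) x (hq a hx).1
      n1 := fun a x hx => hcne' (q a) x (hq a hx).2 }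
  refine ⟨A, hAf, hAg, hAp, hA, F, F.exists_proj hA hfin (fun z => ⟨k0 z + 1, by omega,
    hk0 z _ (Nat.le_succ _)⟩) hsep K0 hK0⟩

end

end Crest.Agent.R260.KEmb_922
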