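import Crest.Agent.R260.KnDefs_37

/-!
# Row 260, K-NNF (helper37): calculus of fields, scalars and sections in the charts of an `ACM`
-/

set_option autoImplicit false

open Set Filter Topology Complex MeasureTheory
open scoped ContDiff ComplexConjugate

namespace Crest.Agent.R260.Kn_37

open Crest.Agent.R260.ACM_580 Crest.Agent.R260.KnDefs_37

noncomputable section

variable {V Z : Type} [NormedAddCommGroup V] [NormedSpace ℝ V] [TopologicalSpace Z] {C : ACM V Z}

/-! ### transition maps -/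

theorem ov_mem {i j : C.ι} {y : V} (hy : y ∈ C.ov i j) : y ∈ (C.e i).target := hy.1

theorem tau_mem {i j : C.ι} {y : V} (hy : y ∈ C.ov i j) : tau C i j y ∈ (C.e j).target :=
  (C.e j).map_source hy.2

theorem symm_tau {i j : C.ι} {y : V} (hy : y ∈ C.ov i j) :
    (C.e j).symm (tau C i j y) = (C.e i).symm y := (C.e j).left_inv hy.2

theorem tau_mem_ov {i j : C.ι} {y : V} (hy : y ∈ C.ov i j) : tau C i j y ∈ C.ov j i :=
  ⟨tau_mem hy, by rw [symm_tau hy]; exact (C.e i).map_target hy.1⟩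

theorem tau_tau {i j : C.ι} {y : V} (hy : y ∈ C.ov i j) : tau C j i (tau C i j y) = y := by
  show C.e i ((C.e j).symm (tau C i j y)) = y
  rw [symm_tau hy]; exact (C.e i).right_inv hy.1

theorem tau_sm (i j : C.ι) : ContDiffOn ℝ ∞ (tau C i j) (C.ov i j) := C.sm i j

theorem mem_ov_of_source {i j : C.ι} {x : Z} (h1 : x ∈ (C.e i).source) (h2 : x ∈ (C.e j).source) :
    C.e i x ∈ C.ov i j :=
  ⟨(C.e i).map_source h1, by rw [(C.e i).left_inv h1]; exact h2⟩

theorem tau_e {i j : C.ι} {x : Z} (h1 : x ∈ (C.e i).source) : tau C i j (C.e i x) = C.e j x := by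
  show C.e j ((C.e i).symm (C.e i x)) = _
  rw [(C.e i).left_inv h1]

theorem tau_diffAt {i j : C.ι} {y : V} (hy : y ∈ C.ov i j) :
    DifferentiableAt ℝ (tau C i j) y :=
  ((tau_sm i j).contDiffAt ((C.isOpen_ov i j).mem_nhds hy)).differentiableAt (by simp)

theorem sm_diffAt {F : Type*} [NormedAddCommGroup F] [NormedSpace ℝ F] {U : Set V} (hU : IsOpen U)
    {f : V → F} (hf : ContDiffOn ℝ ∞ f U) {y : V} (hy : y ∈ U) : DifferentiableAt ℝ f y :=
  (hf.contDiffAt (hU.mem_nhds hy)).differentiableAt (by simp)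

theorem sm_fderiv {F : Type*} [NormedAddCommGroup F] [NormedSpace ℝ F] {U : Set V} (hU : IsOpen U)
    {f : V → F} (hf : ContDiffOn ℝ ∞ f U) : ContDiffOn ℝ ∞ (fderiv ℝ f) U :=
  hf.fderiv_of_isOpen hU (by simp)

theorem ov_sub (i j : C.ι) : C.ov i j ⊆ (C.e i).target := fun _ h => h.1

/-! ### scalars -/

/-- smooth complex scalar on `Z` as a family -/
structure Scl (C : ACM V Z) where
  f : C.ι → V → ℂ
  sm : ∀ i, ContDiffOn ℝ ∞ (f i) (C.e i).target
  tr : ∀ i j, ∀ y ∈ C.ov i j, f i y = f j (tau C i j y)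

/-- derivative of a scalar along a field -/
def Scl.D (b : Scl C) (X : Fld C) : Scl C where
  f i y := fderiv ℝ (b.f i) y (X.X i y)
  sm i := (sm_fderiv (C.e i).open_target (b.sm i)).clm_apply (X.sm i)
  tr i j y hy := by
    have h1 : fderiv ℝ (b.f i) y =
        (fderiv ℝ (b.f j) (tau C i j y)).comp (fderiv ℝ (tau C i j) y) := by
      have h2 : b.f i =ᶠ[𝓝 y] fun z => b.f j (tau C i j z) := by
        filter_upwards [(C.isOpen_ov i j).mem_nhds hy] with z hz using b.tr i j z hz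
      rw [h2.fderiv_eq]
      exact fderiv_comp y (sm_diffAt (C.e j).open_target (b.sm j) (tau_mem hy)) (tau_diffAt hy)
    rw [h1, ContinuousLinearMap.comp_apply, X.tr i j y hy]

/-- complex derivative `(X + i JX)/2` of a scalar -/
def Scl.Dc (b : Scl C) (X : Fld C) : Scl C where
  f i y := ((b.D X).f i y + I * (b.D X.J).f i y) / 2
  sm i := (((b.D X).sm i).add (contDiffOn_const.mul ((b.D X.J).sm i))).div_const 2
  tr i j y hy := by rw [(b.D X).tr i j y hy, (b.D X.J).tr i j y hy]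

/-- value of a 1-form on a field -/
def _root_.Crest.Agent.R260.KnDefs_37.Frm1.app (w : Frm1 C) (X : Fld C) : Scl C where
  f i y := (w.w i y (X.X i y) : ℂ)
  sm i := (Complex.ofRealCLM.contDiff.comp_contDiffOn ((w.sm i).clm_apply (X.sm i)) :)
  tr i j y hy := by rw [← X.tr i j y hy, w.tr i j y hy]

/-- multiplication of a section by a scalar -/
theorem mul_mem {L : UB C} (b : Scl C) {s : C.ι → V → ℂ} (hs : s ∈ Sec L) :
    (fun i y => b.f i y * s i y) ∈ Sec L := by
  refine ⟨fun i => (b.sm i).mul (hs.1 i), fun i j y hy => ?_⟩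
  show b.f i y * s i y = L.u i j y * (b.f j (tau C i j y) * s j (tau C i j y))
  rw [hs.2 i j y hy, b.tr i j y hy]; ring

/-! ### covariant derivative of sections -/

theorem sec_diffAt {L : UB C} {s : C.ι → V → ℂ} (hs : s ∈ Sec L) {i : C.ι} {y : V}
    (hy : y ∈ (C.e i).target) : DifferentiableAt ℝ (s i) y :=
  sm_diffAt (C.e i).open_target (hs.1 i) hy

theorem fderiv_sec {L : UB C} {s : C.ι → V → ℂ} (hs : s ∈ Sec L) {i j : C.ι} {y : V}
    (hy : y ∈ C.ov i j) (v : V) :
    fderiv ℝ (s i) y v = fderiv ℝ (L.u i j) y v * s j (tau C i j y) +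
      L.u i j y * fderiv ℝ (s j) (tau C i j y) (fderiv ℝ (tau C i j) y v) := by
  have h2 : s i =ᶠ[𝓝 y] fun z => L.u i j z * s j (tau C i j z) := by
    filter_upwards [(C.isOpen_ov i j).mem_nhds hy] with z hz using hs.2 i j z hz
  have h3 : HasFDerivAt (fun z => s j (tau C i j z))
      ((fderiv ℝ (s j) (tau C i j y)).comp (fderiv ℝ (tau C i j) y)) y :=
    (sec_diffAt hs (tau_mem hy)).hasFDerivAt.comp y (tau_diffAt hy).hasFDerivAt
  have h4 : HasFDerivAt (fun z => L.u i j z * s j (tau C i j z)) _ y :=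
    (sm_diffAt (C.isOpen_ov i j) (L.u_sm i j) hy).hasFDerivAt.mul h3
  rw [h2.fderiv_eq, h4.fderiv]
  simp only [ContinuousLinearMap.add_apply, ContinuousLinearMap.smul_apply, smul_eq_mul,
    ContinuousLinearMap.comp_apply]
  ring

theorem nabF_mem {L : UB C} (X : Fld C) {s : C.ι → V → ℂ} (hs : s ∈ Sec L) :
    nabF L X s ∈ Sec L := by
  refine ⟨fun i => ?_, fun i j y hy => ?_⟩
  · refine ((sm_fderiv (C.e i).open_target (hs.1 i)).clm_apply (X.sm i)).add ?_
    refine (contDiffOn_const.mul ?_).mul (hs.1 i)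
    exact Complex.ofRealCLM.contDiff.comp_contDiffOn ((L.A_sm i).clm_apply (X.sm i))
  · show nab (L.A i) (X.X i) (s i) y = L.u i j y * nab (L.A j) (X.X j) (s j) (tau C i j y)
    unfold nab
    rw [fderiv_sec hs hy, L.A_tr i j y hy, X.tr i j y hy, hs.2 i j y hy]
    ring

theorem Lo_mem {L : UB C} (X : Fld C) {s : C.ι → V → ℂ} (hs : s ∈ Sec L) : Lo L X s ∈ Sec L := by
  have h1 := (Sec L).add_mem (nabF_mem X hs) ((Sec L).smul_mem I (nabF_mem X.J hs))
  have h2 := (Sec L).smul_mem (1 / 2 : ℂ) h1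
  convert h2 using 1
  funext i y
  simp only [Lo, Pi.smul_apply, Pi.add_apply, smul_eq_mul]
  ring

theorem Lb_mem {L : UB C} (X : Fld C) {s : C.ι → V → ℂ} (hs : s ∈ Sec L) : Lb L X s ∈ Sec L := by
  have h1 := (Sec L).sub_mem (nabF_mem X hs) ((Sec L).smul_mem I (nabF_mem X.J hs))
  have h2 := (Sec L).smul_mem (1 / 2 : ℂ) h1
  convert h2 using 1
  funext i y
  simp only [Lb, Pi.smul_apply, Pi.sub_apply, smul_eq_mul]
  ring

/-! ### Lie bracket of fields -/

theorem tau_fderiv_symm {i j : C.ι} {y : V} (hy : y ∈ C.ov i j) (v w : V) :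
    fderiv ℝ (fderiv ℝ (tau C i j)) y v w = fderiv ℝ (fderiv ℝ (tau C i j)) y w v := by
  have h := ((tau_sm i j).contDiffAt ((C.isOpen_ov i j).mem_nhds hy))
  have h2 : (2 : WithTop ℕ∞) ≤ ∞ := WithTop.coe_le_coe.2 (le_top : (2 : ℕ∞) ≤ ⊤)
  exact (h.isSymmSndFDerivAt (by simpa using h2)).eq v w

/-- Lie bracket of two fields -/
def _root_.Crest.Agent.R260.KnDefs_37.Fld.br (X Y : Fld C) : Fld C where
  X i y := KnDefs_37.br (X.X i) (Y.X i) y
  sm i := by
    refine ContDiffOn.sub ?_ ?_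
    · exact (sm_fderiv (C.e i).open_target (Y.sm i)).clm_apply (X.sm i)
    · exact (sm_fderiv (C.e i).open_target (X.sm i)).clm_apply (Y.sm i)
  tr i j y hy := by
    have key : ∀ P Q : Fld C,
        fderiv ℝ (tau C i j) y (fderiv ℝ (Q.X i) y (P.X i y)) +
          fderiv ℝ (fderiv ℝ (tau C i j)) y (P.X i y) (Q.X i y) =
        fderiv ℝ (Q.X j) (tau C i j y) (P.X j (tau C i j y)) := by
      intro P Q
      have h1 : (fun z => fderiv ℝ (tau C i j) z (Q.X i z)) =ᶠ[𝓝 y]
          fun z => Q.X j (tau C i j z) := by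
        filter_upwards [(C.isOpen_ov i j).mem_nhds hy] with z hz using Q.tr i j z hz
      have h2 : HasFDerivAt (fun z => fderiv ℝ (tau C i j) z (Q.X i z))
          ((fderiv ℝ (tau C i j) y).comp (fderiv ℝ (Q.X i) y) +
            (fderiv ℝ (fderiv ℝ (tau C i j)) y).flip (Q.X i y)) y := by
        have ha := (sm_diffAt (C.isOpen_ov i j) (sm_fderiv (C.isOpen_ov i j) (tau_sm i j)) hy)
        have hb := (sm_diffAt (C.e i).open_target (Q.sm i) hy.1)
        exact ha.hasFDerivAt.clm_apply hb.hasFDerivAt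
      have h3 : HasFDerivAt (fun z => Q.X j (tau C i j z))
          ((fderiv ℝ (Q.X j) (tau C i j y)).comp (fderiv ℝ (tau C i j) y)) y :=
        (sm_diffAt (C.e j).open_target (Q.sm j) (tau_mem hy)).hasFDerivAt.comp y
          (tau_diffAt hy).hasFDerivAt
      have h4 := h2.unique (h3.congr_of_eventuallyEq h1)
      have h5 := congrArg (fun T : V →L[ℝ] V => T (P.X i y)) h4
      simp only [ContinuousLinearMap.add_apply, ContinuousLinearMap.comp_apply,
        ContinuousLinearMap.flip_apply] at h5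
      rw [h5, P.tr i j y hy]
    have a := key X Y
    have b := key Y X
    simp only [KnDefs_37.br]
    rw [map_sub, ← a, ← b, tau_fderiv_symm hy (X.X i y) (Y.X i y)]
    abel

end

end Crest.Agent.R260.Kn_37
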