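import Crest.Agent.R260.Kn1_37

/-!
# Row 260, K-NNF (helper37): commutators of the operators `∇_X`, `Lo`, `Lb` on sections, and the
pointwise curvature inequality
-/

set_option autoImplicit false

open Set Filter Topology Complex MeasureTheory
open scoped ContDiff ComplexConjugate

namespace Crest.Agent.R260.Kn_37

open Crest.Agent.R260.ACM_580 Crest.Agent.R260.KnDefs_37

noncomputable section

variable {V Z : Type} [NormedAddCommGroup V] [NormedSpace ℝ V] [TopologicalSpace Z] {C : ACM V Z}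

theorem two_le_inf : (2 : WithTop ℕ∞) ≤ ∞ := WithTop.coe_le_coe.2 (le_top : (2 : ℕ∞) ≤ ⊤)

/-- curvature identity in a chart -/
theorem nab_comm {U : Set V} (hU : IsOpen U) {A : V → V →L[ℝ] ℝ} (hA : ContDiffOn ℝ ∞ A U)
    {X Y : V → V} (hX : ContDiffOn ℝ ∞ X U) (hY : ContDiffOn ℝ ∞ Y U) {s : V → ℂ}
    (hs : ContDiffOn ℝ ∞ s U) {y : V} (hy : y ∈ U) :
    nab A X (nab A Y s) y - nab A Y (nab A X s) y =
      nab A (br X Y) s y + I * (cu A y (X y) (Y y) : ℂ) * s y := by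
  have hsym : ∀ v w, fderiv ℝ (fderiv ℝ s) y v w = fderiv ℝ (fderiv ℝ s) y w v := by
    intro v w
    have h := (hs.contDiffAt (hU.mem_nhds hy))
    exact (h.isSymmSndFDerivAt (by simpa using two_le_inf)).eq v w
  have hds := (sm_diffAt hU (sm_fderiv hU hs) hy).hasFDerivAt
  have hdA := (sm_diffAt hU hA hy).hasFDerivAt
  have hd := (sm_diffAt hU hs hy).hasFDerivAt
  have key : ∀ {Q : V → V}, ContDiffOn ℝ ∞ Q U → ∀ v : V, fderiv ℝ (nab A Q s) y v =
      fderiv ℝ (fderiv ℝ s) y v (Q y) + fderiv ℝ s y (fderiv ℝ Q y v) +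
        I * ((fderiv ℝ A y v (Q y) : ℂ) + (A y (fderiv ℝ Q y v) : ℂ)) * s y +
        I * (A y (Q y) : ℂ) * fderiv ℝ s y v := by
    intro Q hQ v
    have hdQ := (sm_diffAt hU hQ hy).hasFDerivAt
    have h1 : HasFDerivAt (fun z => fderiv ℝ s z (Q z)) _ y := hds.clm_apply hdQ
    have h2 : HasFDerivAt (fun z => A z (Q z)) _ y := hdA.clm_apply hdQ
    have h3 : HasFDerivAt (fun z => ((A z (Q z) : ℝ) : ℂ)) _ y :=
      Complex.ofRealCLM.hasFDerivAt.comp y h2
    have h4 : HasFDerivAt (fun z => I * ((A z (Q z) : ℝ) : ℂ) * s z) _ y :=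
      (h3.const_mul I).mul hd
    have h5 : HasFDerivAt (nab A Q s) _ y := h1.add h4
    rw [h5.fderiv]
    simp only [ContinuousLinearMap.add_apply, ContinuousLinearMap.smul_apply, smul_eq_mul,
      ContinuousLinearMap.comp_apply, ContinuousLinearMap.flip_apply, Complex.ofRealCLM_apply,
      ofReal_add]
    ring
  simp only [nab, br, cu] at *
  rw [key hY, key hX, hsym (Y y) (X y)]
  simp only [map_sub]
  push_cast
  ring

theorem nabF_comm {L : UB C} (X Y : Fld C) {s : C.ι → V → ℂ} (hs : s ∈ Sec L) {i : C.ι} {y : V}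
    (hy : y ∈ (C.e i).target) :
    nabF L X (nabF L Y s) i y - nabF L Y (nabF L X s) i y =
      nabF L (X.br Y) s i y + I * (cu (L.A i) y (X.X i y) (Y.X i y) : ℂ) * s i y :=
  nab_comm (C.e i).open_target (L.A_sm i) (X.sm i) (Y.sm i) (hs.1 i) hy

/-- `J`-linearity of the curvature in the form used below -/
theorem F_J {L : UB C} {i : C.ι} {y : V} (hy : y ∈ (C.e i).target) (v w : V) :
    cu (L.A i) y (C.J i y v) w = -cu (L.A i) y v (C.J i y w) := by
  have h := L.F11 i y hy (C.J i y v) w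
  rw [C.J_sq i y hy v] at h
  rw [← h]
  simp only [cu, map_neg, ContinuousLinearMap.neg_apply]
  ring

theorem cu_antisymm (A : V → V →L[ℝ] ℝ) (y v w : V) : cu A y v w = -cu A y w v := by
  simp only [cu]; ring

/-- derivative of `nabF` combinations -/
theorem nabF_add {L : UB C} (X : Fld C) {s t : C.ι → V → ℂ} (hs : s ∈ Sec L) (ht : t ∈ Sec L)
    {i : C.ι} {y : V} (hy : y ∈ (C.e i).target) (a b : ℂ) :
    nabF L X (fun i y => a * s i y + b * t i y) i y = a * nabF L X s i y + b * nabF L X t i y := by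
  have h1 : HasFDerivAt (fun z => a * s i z + b * t i z) _ y :=
    ((sec_diffAt hs hy).hasFDerivAt.const_mul a).add ((sec_diffAt ht hy).hasFDerivAt.const_mul b)
  simp only [nabF, nab]
  rw [h1.fderiv]
  simp only [ContinuousLinearMap.add_apply, ContinuousLinearMap.smul_apply, smul_eq_mul]
  ring

/-- `J X`-fields: `J (J X) = - X` on values -/
theorem JJ_apply (X : Fld C) {i : C.ι} {y : V} (hy : y ∈ (C.e i).target) :
    X.J.J.X i y = -X.X i y := C.J_sq i y hy _

/-- integrability in terms of brackets -/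
theorem int_br (hC : C.Int) (X Y : Fld C) {i : C.ι} {y : V} (hy : y ∈ (C.e i).target) :
    (X.J.br Y).X i y + (X.br Y.J).X i y = C.J i y ((X.br Y).X i y - (X.J.br Y.J).X i y) := by
  have hN := hC i y hy (X.X i y) (Y.X i y)
  have hJ := (sm_diffAt (C.e i).open_target (C.J_sm i) hy).hasFDerivAt
  have hX := (sm_diffAt (C.e i).open_target (X.sm i) hy).hasFDerivAt
  have hY := (sm_diffAt (C.e i).open_target (Y.sm i) hy).hasFDerivAt
  have kX : ∀ v, fderiv ℝ (X.J.X i) y v =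
      fderiv ℝ (C.J i) y v (X.X i y) + C.J i y (fderiv ℝ (X.X i) y v) := by
    intro v
    have h1 : HasFDerivAt (fun z => C.J i z (X.X i z)) _ y := hJ.clm_apply hX
    have h2 : fderiv ℝ (X.J.X i) y = _ := h1.fderiv
    rw [h2]
    simp only [ContinuousLinearMap.add_apply, ContinuousLinearMap.comp_apply,
      ContinuousLinearMap.flip_apply]
    abel
  have kY : ∀ v, fderiv ℝ (Y.J.X i) y v =
      fderiv ℝ (C.J i) y v (Y.X i y) + C.J i y (fderiv ℝ (Y.X i) y v) := by
    intro v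
    have h1 : HasFDerivAt (fun z => C.J i z (Y.X i z)) _ y := hJ.clm_apply hY
    have h2 : fderiv ℝ (Y.J.X i) y = _ := h1.fderiv
    rw [h2]
    simp only [ContinuousLinearMap.add_apply, ContinuousLinearMap.comp_apply,
      ContinuousLinearMap.flip_apply]
    abel
  have eX : X.J.X i y = C.J i y (X.X i y) := rfl
  have eY : Y.J.X i y = C.J i y (Y.X i y) := rfl
  have hs := C.J_sq i y hy
  simp only [Nij] at hN
  have hN' := congrArg (C.J i y) hN
  simp only [map_add, map_sub, map_neg, hs, map_zero] at hN'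
  simp only [Fld.br, KnDefs_37.br, kX, kY, eX, eY, map_sub, map_add, hs, map_neg]
  -- everything in terms of the four derivatives of J
  have e1 : fderiv ℝ (C.J i) y (X.X i y) (Y.X i y) - fderiv ℝ (C.J i) y (Y.X i y) (X.X i y) =
      -(C.J i y (fderiv ℝ (C.J i) y (C.J i y (X.X i y)) (Y.X i y)) -
        C.J i y (fderiv ℝ (C.J i) y (C.J i y (Y.X i y)) (X.X i y))) := by
    rw [eq_neg_iff_add_eq_zero, ← hN']
    abel
  have e2 := e1
  rw [sub_eq_iff_eq_add] at e2
  rw [e2]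
  abel

/-- `[Lo_X, Lo_Y] = Lo_{[X,Y] - [JX,JY]} / 2` -/
theorem Lo_comm (hC : C.Int) {L : UB C} (X Y : Fld C) {s : C.ι → V → ℂ} (hs : s ∈ Sec L) {i : C.ι}
    {y : V} (hy : y ∈ (C.e i).target) :
    Lo L X (Lo L Y s) i y - Lo L Y (Lo L X s) i y =
      dbv (C.J i) (L.A i) (s i) y ((X.br Y).X i y - (X.J.br Y.J).X i y) / 2 := by
  have eL : ∀ Q : Fld C, Lo L Q s = fun i y => (1 / 2 : ℂ) * nabF L Q s i y +
      (I / 2) * nabF L Q.J s i y := by
    intro Q; funext j z; simp only [Lo]; ring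
  have h1 : ∀ P Q : Fld C, Lo L P (Lo L Q s) i y = (nabF L P (nabF L Q s) i y +
      I * nabF L P (nabF L Q.J s) i y + I * nabF L P.J (nabF L Q s) i y -
      nabF L P.J (nabF L Q.J s) i y) / 4 := by
    intro P Q
    rw [eL Q]
    simp only [Lo]
    rw [nabF_add P (nabF_mem Q hs) (nabF_mem Q.J hs) hy,
      nabF_add P.J (nabF_mem Q hs) (nabF_mem Q.J hs) hy]
    have := I_sq
    linear_combination (nabF L P.J (nabF L Q.J s) i y / 4) * this
  rw [h1 X Y, h1 Y X]
  have c1 := nabF_comm X Y hs hy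
  have c2 := nabF_comm X Y.J hs hy
  have c3 := nabF_comm X.J Y hs hy
  have c4 := nabF_comm X.J Y.J hs hy
  have f1 : cu (L.A i) y (X.J.X i y) (Y.J.X i y) = cu (L.A i) y (X.X i y) (Y.X i y) :=
    L.F11 i y hy _ _
  have f2 : cu (L.A i) y (X.J.X i y) (Y.X i y) = -cu (L.A i) y (X.X i y) (Y.J.X i y) :=
    F_J hy _ _
  have hb := int_br hC X Y hy
  rw [f1] at c4
  rw [f2] at c3
  have n1 : ∀ B : Fld C, nabF L B s i y = fderiv ℝ (s i) y (B.X i y) +
    I * (L.A i y (B.X i y) : ℂ) * s i y := fun B => rfl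
  rw [n1 (X.br Y)] at c1
  rw [n1 (X.br Y.J)] at c2
  rw [n1 (X.J.br Y)] at c3
  rw [n1 (X.J.br Y.J)] at c4
  have hb' : (X.J.br Y).X i y = C.J i y ((X.br Y).X i y - (X.J.br Y.J).X i y) -
      (X.br Y.J).X i y := by rw [← hb]; abel
  rw [hb'] at c3
  simp only [dbv, map_sub, ofReal_sub, ofReal_neg] at *
  have hI := I_sq
  linear_combination (1 / 4 : ℂ) * c1 + (I / 4) * c2 + (I / 4) * c3 - (1 / 4 : ℂ) * c4 +
    (((L.A i y (C.J i y ((X.br Y).X i y)) : ℂ) - (L.A i y (C.J i y ((X.J.br Y.J).X i y)) : ℂ)) *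
      s i y / 4) * hI

/-- `[Lo_X, Lb_Y]` -/
theorem LoLb_comm {L : UB C} (X Y : Fld C) {s : C.ι → V → ℂ} (hs : s ∈ Sec L) {i : C.ι}
    {y : V} (hy : y ∈ (C.e i).target) :
    Lo L X (Lb L Y s) i y - Lb L Y (Lo L X s) i y =
      (nabF L (X.br Y) s i y + nabF L (X.J.br Y.J) s i y + I * nabF L (X.J.br Y) s i y -
        I * nabF L (X.br Y.J) s i y) / 4 +
      (I * (cu (L.A i) y (X.X i y) (Y.X i y) : ℂ) + (cu (L.A i) y (X.X i y) (Y.J.X i y) : ℂ)) / 2 *
        s i y := by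
  have eL : ∀ Q : Fld C, Lo L Q s = fun i y => (1 / 2 : ℂ) * nabF L Q s i y +
      (I / 2) * nabF L Q.J s i y := by
    intro Q; funext j z; simp only [Lo]; ring
  have eB : ∀ Q : Fld C, Lb L Q s = fun i y => (1 / 2 : ℂ) * nabF L Q s i y +
      (-I / 2) * nabF L Q.J s i y := by
    intro Q; funext j z; simp only [Lb]; ring
  have h1 : Lo L X (Lb L Y s) i y = (nabF L X (nabF L Y s) i y -
      I * nabF L X (nabF L Y.J s) i y + I * nabF L X.J (nabF L Y s) i y +
      nabF L X.J (nabF L Y.J s) i y) / 4 := by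
    rw [eB Y]
    simp only [Lo]
    rw [nabF_add X (nabF_mem Y hs) (nabF_mem Y.J hs) hy,
      nabF_add X.J (nabF_mem Y hs) (nabF_mem Y.J hs) hy]
    have := I_sq
    linear_combination (-nabF L X.J (nabF L Y.J s) i y / 4) * this
  have h2 : Lb L Y (Lo L X s) i y = (nabF L Y (nabF L X s) i y +
      I * nabF L Y (nabF L X.J s) i y - I * nabF L Y.J (nabF L X s) i y +
      nabF L Y.J (nabF L X.J s) i y) / 4 := by
    rw [eL X]
    simp only [Lb]
    rw [nabF_add Y (nabF_mem X hs) (nabF_mem X.J hs) hy,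
      nabF_add Y.J (nabF_mem X hs) (nabF_mem X.J hs) hy]
    have := I_sq
    linear_combination (-nabF L Y.J (nabF L X.J s) i y / 4) * this
  rw [h1, h2]
  have c1 := nabF_comm X Y hs hy
  have c2 := nabF_comm X Y.J hs hy
  have c3 := nabF_comm X.J Y hs hy
  have c4 := nabF_comm X.J Y.J hs hy
  have f1 : cu (L.A i) y (X.J.X i y) (Y.J.X i y) = cu (L.A i) y (X.X i y) (Y.X i y) :=
    L.F11 i y hy _ _
  have f2 : cu (L.A i) y (X.J.X i y) (Y.X i y) = -cu (L.A i) y (X.X i y) (Y.J.X i y) :=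
    F_J hy _ _
  rw [f1] at c4
  rw [f2] at c3
  simp only [ofReal_neg] at *
  have hI := I_sq
  linear_combination (1 / 4 : ℂ) * c1 - (I / 4) * c2 + (I / 4) * c3 + (1 / 4 : ℂ) * c4 -
    ((cu (L.A i) y (X.X i y) (Y.J.X i y) : ℂ) * s i y / 2) * hI

end

end Crest.Agent.R260.Kn_37
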