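import Crest.Agent.R260.Kn2_37

/-!
# Row 260, K-NNF (helper37): frame expansions and the pointwise curvature inequality
-/

set_option autoImplicit false

open Set Filter Topology Complex MeasureTheory
open scoped ContDiff ComplexConjugate

namespace Crest.Agent.R260.Kn_37

open Crest.Agent.R260.ACM_580 Crest.Agent.R260.KnDefs_37

noncomputable section

variable {V Z : Type} [NormedAddCommGroup V] [NormedSpace ℝ V] [TopologicalSpace Z] {C : ACM V Z}

theorem Lo_eq (L : UB C) (X : Fld C) (s : C.ι → V → ℂ) (i : C.ι) (y : V) :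
    Lo L X s i y = dbv (C.J i) (L.A i) (s i) y (X.X i y) := by
  simp only [Lo, nabF, nab, dbv, Fld.J]
  linear_combination (((L.A i y (C.J i y (X.X i y)) : ℂ)) * s i y / 2) * I_sq

/-- covariant derivative on a vector -/
def nv (A : V → V →L[ℝ] ℝ) (s : V → ℂ) (y v : V) : ℂ := fderiv ℝ s y v + I * (A y v : ℂ) * s y

theorem nabF_eq (L : UB C) (X : Fld C) (s : C.ι → V → ℂ) (i : C.ι) (y : V) :
    nabF L X s i y = nv (L.A i) (s i) y (X.X i y) := rfl

theorem nabF_eq' (L : UB C) (X : Fld C) (s : C.ι → V → ℂ) (i : C.ι) (y : V) :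
    nabF L X s i y = Lo L X s i y + Lb L X s i y := by
  simp only [Lo, Lb]; ring

theorem nv_sum {ι : Type*} (t : Finset ι) (A : V → V →L[ℝ] ℝ) (s : V → ℂ) (y : V) (c : ι → ℝ)
    (w : ι → V) : nv A s y (∑ l ∈ t, c l • w l) = ∑ l ∈ t, (c l : ℂ) * nv A s y (w l) := by
  simp only [nv, map_sum, map_smul, smul_eq_mul, real_smul]
  push_cast
  rw [Finset.mul_sum, Finset.sum_mul, ← Finset.sum_add_distrib]
  refine Finset.sum_congr rfl fun l _ => ?_
  ring

theorem dbv_sum {ι : Type*} (t : Finset ι) (J : V → V →L[ℝ] V) (A : V → V →L[ℝ] ℝ) (s : V → ℂ)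
    (y : V) (c : ι → ℝ) (w : ι → V) :
    dbv J A s y (∑ l ∈ t, c l • w l) = ∑ l ∈ t, (c l : ℂ) * dbv J A s y (w l) := by
  simp only [dbv, map_sum, map_smul, smul_eq_mul, real_smul]
  push_cast
  simp only [Finset.mul_sum, Finset.sum_mul, ← Finset.sum_add_distrib, ← Finset.sum_sub_distrib,
    Finset.sum_div]
  refine Finset.sum_congr rfl fun l _ => ?_
  ring

theorem dbv_add (J : V → V →L[ℝ] V) (A : V → V →L[ℝ] ℝ) (s : V → ℂ) (y v w : V) :
    dbv J A s y (v + w) = dbv J A s y v + dbv J A s y w := by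
  simp only [dbv, map_add, ofReal_add]; ring

theorem dbv_smul (J : V → V →L[ℝ] V) (A : V → V →L[ℝ] ℝ) (s : V → ℂ) (y v : V) (c : ℝ) :
    dbv J A s y (c • v) = (c : ℂ) * dbv J A s y v := by
  simp only [dbv, map_smul, smul_eq_mul, real_smul]; push_cast; ring

theorem dbv_J (L : UB C) {i : C.ι} {y : V} (hy : y ∈ (C.e i).target) (s : V → ℂ) (v : V) :
    dbv (C.J i) (L.A i) s y (C.J i y v) = -I * dbv (C.J i) (L.A i) s y v := by
  simp only [dbv, C.J_sq i y hy v, map_neg, ofReal_neg]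
  linear_combination ((fderiv ℝ s y (C.J i y v)) / 2 + ((L.A i y v : ℂ)) * s y / 2) * I_sq

theorem nv_span (W : Frm C) {i : C.ι} {y : V} (hy : y ∈ (C.e i).target) (A : V → V →L[ℝ] ℝ)
    (s : V → ℂ) (v : V) :
    nv A s y v = ∑ l, ((W.om l).w i y v : ℂ) * nv A s y ((W.W l).X i y) := by
  conv_lhs => rw [← W.span i y hy v]
  exact nv_sum _ _ _ _ _ _

theorem dbv_span (W : Frm C) {i : C.ι} {y : V} (hy : y ∈ (C.e i).target) (J : V → V →L[ℝ] V)
    (A : V → V →L[ℝ] ℝ) (s : V → ℂ) (v : V) :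
    dbv J A s y v = ∑ l, ((W.om l).w i y v : ℂ) * dbv J A s y ((W.W l).X i y) := by
  conv_lhs => rw [← W.span i y hy v]
  exact dbv_sum _ _ _ _ _ _ _

/-! ### pointwise positivity -/

theorem sum_sq_le {Λ : Type*} [Fintype Λ] (a : Λ → ℂ) (w : Λ → ℝ)
    (h : (∑ l, ‖a l‖ ^ 2 : ℝ) ≤ ‖∑ l, (w l : ℂ) * a l‖) : ∑ l, ‖a l‖ ^ 2 ≤ ∑ l, w l ^ 2 := by
  have h1 : ‖∑ l, (w l : ℂ) * a l‖ ≤ ∑ l, |w l| * ‖a l‖ := by
    refine (norm_sum_le _ _).trans (Finset.sum_le_sum fun l _ => ?_)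
    rw [norm_mul, norm_real, Real.norm_eq_abs]
  have h2 : (∑ l, |w l| * ‖a l‖) ^ 2 ≤ (∑ l, |w l| ^ 2) * ∑ l, ‖a l‖ ^ 2 :=
    Finset.sum_mul_sq_le_sq_mul_sq _ _ _
  simp only [sq_abs] at h2
  set X := ∑ l, ‖a l‖ ^ 2
  set Y := ∑ l, w l ^ 2
  have hX : 0 ≤ X := Finset.sum_nonneg fun l _ => sq_nonneg _
  have hY : 0 ≤ Y := Finset.sum_nonneg fun l _ => sq_nonneg _
  have h3 : X ≤ ∑ l, |w l| * ‖a l‖ := h.trans h1
  have h4 : X ^ 2 ≤ Y * X := (pow_le_pow_left₀ hX h3 2).trans h2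
  rcases hX.eq_or_lt with h5 | h5
  · rw [← h5]; exact hY
  · have : X * X ≤ Y * X := by nlinarith
    exact le_of_mul_le_mul_right this h5

/-- **pointwise curvature inequality** -/
theorem pos_pt (W : Frm C) (L : UB C) {K : ℝ} (hK : 0 ≤ K) (hP : L.PosK W K) {i : C.ι} {y : V}
    (hy : y ∈ (C.e i).target) (s : V → ℂ) :
    K * ∑ l, ‖dbv (C.J i) (L.A i) s y ((W.W l).X i y)‖ ^ 2 ≤
      -(∑ k, ∑ l, (I * (cu (L.A i) y ((W.W l).X i y) ((W.W k).X i y) : ℂ) +
        (cu (L.A i) y ((W.W l).X i y) ((W.W k).J.X i y) : ℂ)) *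
        dbv (C.J i) (L.A i) s y ((W.W k).X i y) *
        conj (dbv (C.J i) (L.A i) s y ((W.W l).X i y))).re := by
  set f : W.Λ → ℂ := fun l => dbv (C.J i) (L.A i) s y ((W.W l).X i y) with hf
  set w : W.Λ → V := fun l => (W.W l).X i y with hw
  set a : W.Λ → ℝ := fun l => (f l).re with ha
  set b : W.Λ → ℝ := fun l => (f l).im with hb
  set Y : V := (∑ l, a l • w l) + C.J i y (∑ l, b l • w l) with hY
  -- the vector Y
  have e1 : dbv (C.J i) (L.A i) s y Y = ((∑ l, ‖f l‖ ^ 2 : ℝ) : ℂ) := by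
    rw [hY, dbv_add, dbv_J L hy, dbv_sum, dbv_sum, Finset.mul_sum, ← Finset.sum_add_distrib]
    push_cast
    refine Finset.sum_congr rfl fun l _ => ?_
    show (a l : ℂ) * f l + -I * ((b l : ℂ) * f l) = _
    have h1 : ((a l : ℂ) + -I * (b l : ℂ)) = conj (f l) := by
      apply Complex.ext <;> simp [ha, hb]
    calc (a l : ℂ) * f l + -I * ((b l : ℂ) * f l) = ((a l : ℂ) + -I * (b l : ℂ)) * f l := by ring
      _ = conj (f l) * f l := by rw [h1]
      _ = (‖f l‖ : ℂ) ^ 2 := by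
        rw [mul_comm, mul_conj, normSq_eq_norm_sq]; push_cast; ring
  have e2 : (∑ l, ‖f l‖ ^ 2) ≤ ∑ l, (W.om l).w i y Y ^ 2 := by
    refine sum_sq_le f _ ?_
    have h1 := dbv_span W hy (C.J i) (L.A i) s Y
    rw [e1] at h1
    rw [← h1, norm_real, Real.norm_eq_abs]
    exact le_abs_self _
  have e3 := hP i y hy Y
  refine (mul_le_mul_of_nonneg_left e2 hK).trans (e3.trans (le_of_eq ?_))
  -- F(JY, Y) = - F(Y, JY)
  have hF : ∀ v v', cu (L.A i) y (C.J i y v) (C.J i y v') = cu (L.A i) y v v' :=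
    fun v v' => L.F11 i y hy v v'
  have hFJ : ∀ v v', cu (L.A i) y (C.J i y v) v' = -cu (L.A i) y v (C.J i y v') :=
    fun v v' => F_J hy v v'
  have addl : ∀ u v v', cu (L.A i) y (u + v) v' = cu (L.A i) y u v' + cu (L.A i) y v v' := by
    intro u v v'; simp only [cu, map_add, ContinuousLinearMap.add_apply]; ring
  have addr : ∀ u v v', cu (L.A i) y u (v + v') = cu (L.A i) y u v + cu (L.A i) y u v' := by
    intro u v v'; simp only [cu, map_add, ContinuousLinearMap.add_apply]; ring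
  have suml : ∀ (c : W.Λ → ℝ) v', cu (L.A i) y (∑ l, c l • w l) v' =
      ∑ l, c l * cu (L.A i) y (w l) v' := by
    intro c v'
    simp only [cu, map_sum, map_smul, ContinuousLinearMap.sum_apply,
      ContinuousLinearMap.smul_apply, smul_eq_mul, mul_sub, Finset.sum_sub_distrib]
  have sumr : ∀ v (c : W.Λ → ℝ), cu (L.A i) y v (∑ l, c l • w l) =
      ∑ l, c l * cu (L.A i) y v (w l) := by
    intro v c
    rw [cu_antisymm, suml, ← Finset.sum_neg_distrib]
    refine Finset.sum_congr rfl fun l _ => ?_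
    rw [cu_antisymm (L.A i) y v (w l)]; ring
  have negr : ∀ v v', cu (L.A i) y v (-v') = -cu (L.A i) y v v' := by
    intro v v'; simp only [cu, map_neg, ContinuousLinearMap.neg_apply]; ring
  rw [hFJ Y Y]
  congr 1
  have e4 : C.J i y Y = C.J i y (∑ l, a l • w l) + -(∑ l, b l • w l) := by
    rw [hY, map_add, C.J_sq i y hy]
  rw [e4, hY]
  simp only [addl, addr, negr, hF]
  -- move J through
  have hJr : ∀ v v', cu (L.A i) y (C.J i y v) v' = -cu (L.A i) y v (C.J i y v') := hFJ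
  rw [hJr (∑ l, b l • w l) (∑ l, b l • w l)]
  have mapJ : ∀ c : W.Λ → ℝ, C.J i y (∑ l, c l • w l) = ∑ l, c l • C.J i y (w l) := by
    intro c; simp only [map_sum, map_smul]
  have sumrJ : ∀ v (c : W.Λ → ℝ), cu (L.A i) y v (C.J i y (∑ l, c l • w l)) =
      ∑ l, c l * cu (L.A i) y v (C.J i y (w l)) := by
    intro v c
    have h1 := hFJ v (∑ l, c l • w l)
    have h2 : cu (L.A i) y v (C.J i y (∑ l, c l • w l)) =
        -cu (L.A i) y (C.J i y v) (∑ l, c l • w l) := by rw [h1]; ring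
    rw [h2, sumr, ← Finset.sum_neg_distrib]
    refine Finset.sum_congr rfl fun l _ => ?_
    rw [hFJ v (w l)]; ring
  simp only [suml, sumr, sumrJ]
  rw [Complex.re_sum]
  simp only [Complex.re_sum]
  have t1 : ∀ k l : W.Λ, ((I * (cu (L.A i) y ((W.W l).X i y) ((W.W k).X i y) : ℂ) +
        (cu (L.A i) y ((W.W l).X i y) ((W.W k).J.X i y) : ℂ)) *
        dbv (C.J i) (L.A i) s y ((W.W k).X i y) *
        conj (dbv (C.J i) (L.A i) s y ((W.W l).X i y))).re =
      a l * (a k * cu (L.A i) y (w l) (C.J i y (w k))) +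
      -(a l * (b k * cu (L.A i) y (w l) (w k))) +
      (b l * (a k * cu (L.A i) y (w l) (w k)) +
      b l * (b k * cu (L.A i) y (w l) (C.J i y (w k)))) := by
    intro k l
    show ((I * (cu (L.A i) y (w l) (w k) : ℂ) + (cu (L.A i) y (w l) (C.J i y (w k)) : ℂ)) *
        f k * conj (f l)).re = _
    simp only [mul_re, add_re, I_re, ofReal_re, I_im, ofReal_im, mul_im, add_im, conj_re, conj_im,
      ha, hb]
    ring
  have t2 : ∀ k : W.Λ, ∑ l, ((I * (cu (L.A i) y ((W.W l).X i y) ((W.W k).X i y) : ℂ) +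
        (cu (L.A i) y ((W.W l).X i y) ((W.W k).J.X i y) : ℂ)) *
        dbv (C.J i) (L.A i) s y ((W.W k).X i y) *
        conj (dbv (C.J i) (L.A i) s y ((W.W l).X i y))).re = _ :=
    fun k => Finset.sum_congr rfl fun l _ => t1 k l
  rw [Finset.sum_congr rfl fun k _ => t2 k, Finset.sum_comm]
  simp only [Finset.mul_sum, Finset.sum_add_distrib, Finset.sum_neg_distrib]
  ring

end

end Crest.Agent.R260.Kn_37
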