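import Crest.Agent.R260.Kn3_37

/-!
# Row 260, K-NNF (helper37): `L²` of sections on a compact space, bounded scalars
-/

set_option autoImplicit false

open Set Filter Topology Complex MeasureTheory
open scoped ContDiff ComplexConjugate ENNReal

namespace Crest.Agent.R260.Kn_37

open Crest.Agent.R260.ACM_580 Crest.Agent.R260.KnDefs_37

noncomputable section

section top

variable {V Z : Type} [NormedAddCommGroup V] [NormedSpace ℝ V] [TopologicalSpace Z] {C : ACM V Z}

/-! ### values -/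

theorem val_pair (q : Ch C) {L : UB C} {s t : C.ι → V → ℂ} (hs : s ∈ Sec L) (ht : t ∈ Sec L)
    {i : C.ι} {x : Z} (hx : x ∈ (C.e i).source) :
    q.val s x * conj (q.val t x) = s i (C.e i x) * conj (t i (C.e i x)) := by
  have h1 := mem_ov_of_source (j := i) (q.mem x) hx
  have e1 := hs.2 _ i _ h1
  have e2 := ht.2 _ i _ h1
  rw [tau_e (q.mem x)] at e1 e2
  show s (q.c x) (C.e (q.c x) x) * conj (t (q.c x) (C.e (q.c x) x)) = _
  rw [e1, e2]
  have h2 := L.u_norm _ i _ h1
  have h3 : L.u (q.c x) i (C.e (q.c x) x) * conj (L.u (q.c x) i (C.e (q.c x) x)) = 1 := by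
    rw [mul_conj, normSq_eq_norm_sq, h2]; norm_num
  rw [map_mul]
  linear_combination (s i (C.e i x) * conj (t i (C.e i x))) * h3

theorem val_scl (q : Ch C) (b : Scl C) {i : C.ι} {x : Z} (hx : x ∈ (C.e i).source) :
    q.val b.f x = b.f i (C.e i x) := by
  have h1 := mem_ov_of_source (j := i) (q.mem x) hx
  have e1 := b.tr _ i _ h1
  rw [tau_e (q.mem x)] at e1
  exact e1

theorem cont_pair (q : Ch C) {L : UB C} {s t : C.ι → V → ℂ} (hs : s ∈ Sec L) (ht : t ∈ Sec L) :
    Continuous fun x => q.val s x * conj (q.val t x) := by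
  rw [continuous_iff_continuousAt]
  intro x
  have hx := q.mem x
  set i := q.c x
  have h1 : (fun x => q.val s x * conj (q.val t x)) =ᶠ[𝓝 x]
      fun x => s i (C.e i x) * conj (t i (C.e i x)) := by
    filter_upwards [(C.e i).open_source.mem_nhds hx] with z hz using val_pair q hs ht hz
  refine ContinuousAt.congr ?_ h1.symm
  have h2 : ContinuousAt (C.e i) x := (C.e i).continuousAt hx
  have h3 : ∀ {r : C.ι → V → ℂ}, r ∈ Sec L → ContinuousAt (fun x => r i (C.e i x)) x := by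
    intro r hr
    have h4 : ContinuousAt (r i) (C.e i x) :=
      ((hr.1 i).continuousOn).continuousAt ((C.e i).open_target.mem_nhds ((C.e i).map_source hx))
    exact ContinuousAt.comp (g := r i) h4 h2
  exact (h3 hs).mul (Complex.continuous_conj.continuousAt.comp (h3 ht))

theorem cont_scl (q : Ch C) (b : Scl C) : Continuous fun x => q.val b.f x := by
  rw [continuous_iff_continuousAt]
  intro x
  have hx := q.mem x
  set i := q.c x
  have h1 : (fun x => q.val b.f x) =ᶠ[𝓝 x] fun x => b.f i (C.e i x) := by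
    filter_upwards [(C.e i).open_source.mem_nhds hx] with z hz using val_scl q b hz
  refine ContinuousAt.congr ?_ h1.symm
  have h2 : ContinuousAt (C.e i) x := (C.e i).continuousAt hx
  have h4 : ContinuousAt (b.f i) (C.e i x) :=
    ((b.sm i).continuousOn).continuousAt ((C.e i).open_target.mem_nhds ((C.e i).map_source hx))
  exact ContinuousAt.comp (g := b.f i) h4 h2

theorem bdd_scl [CompactSpace Z] (q : Ch C) (b : Scl C) :
    ∃ B : ℝ, 0 ≤ B ∧ ∀ x, ‖q.val b.f x‖ ≤ B := by
  obtain ⟨B, hB⟩ := (isCompact_range (cont_scl q b)).isBounded.exists_norm_le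
  exact ⟨|B|, abs_nonneg _, fun x => (hB _ ⟨x, rfl⟩).trans (le_abs_self _)⟩

theorem norm_val_sq (q : Ch C) (s : C.ι → V → ℂ) (x : Z) :
    ((‖q.val s x‖ ^ 2 : ℝ) : ℂ) = q.val s x * conj (q.val s x) := by
  rw [mul_conj, normSq_eq_norm_sq]

theorem cont_sq (q : Ch C) {L : UB C} {s : C.ι → V → ℂ} (hs : s ∈ Sec L) :
    Continuous fun x => ‖q.val s x‖ ^ 2 := by
  have h1 : (fun x => ‖q.val s x‖ ^ 2) = fun x => (q.val s x * conj (q.val s x)).re := by
    funext x; rw [← norm_val_sq]; rfl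
  rw [h1]
  exact Complex.continuous_re.comp (cont_pair q hs hs)

theorem bdd_sec [CompactSpace Z] (q : Ch C) {L : UB C} {s : C.ι → V → ℂ} (hs : s ∈ Sec L) :
    ∃ B : ℝ, 0 ≤ B ∧ ∀ x, ‖q.val s x‖ ≤ B := by
  obtain ⟨B, hB⟩ := (isCompact_range (cont_sq q hs)).isBounded.exists_norm_le
  refine ⟨|B| + 1, by positivity, fun x => ?_⟩
  have h1 := hB _ ⟨x, rfl⟩
  simp only [norm_pow, norm_norm] at h1
  have h2 : ‖q.val s x‖ ^ 2 ≤ |B| := h1.trans (le_abs_self _)
  nlinarith [norm_nonneg (q.val s x), abs_nonneg B, sq_nonneg (‖q.val s x‖ - 1)]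

end top

section meas

variable {N : ℕ} {Z : Type} [TopologicalSpace Z] [MeasurableSpace Z] [BorelSpace Z]
  {C : ACM (EuclideanSpace ℝ (Fin N)) Z}

/-- measurable chart choice -/
def MCh (q : Ch C) : Prop := ∀ i, MeasurableSet {x | q.c x = i}

theorem meas_val [Finite C.ι] {q : Ch C} (hq : MCh q) {L : UB C}
    {s : C.ι → EuclideanSpace ℝ (Fin N) → ℂ} (hs : s ∈ Sec L) : Measurable (q.val s) := by
  classical
  haveI := Fintype.ofFinite C.ι
  have h1 : q.val s = fun x => ∑ i, ({x | q.c x = i}.piecewise (fun x => s i (C.e i x))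
      fun _ => 0) x := by
    funext x
    rw [Finset.sum_eq_single (q.c x)]
    · exact (Set.piecewise_eq_of_mem {y | q.c y = q.c x} (fun y => s (q.c x) (C.e (q.c x) y))
        (fun _ => (0 : ℂ)) (show x ∈ {y | q.c y = q.c x} from rfl)).symm
    · intro i _ hi
      exact Set.piecewise_eq_of_notMem _ _ _ fun h => hi h.symm
    · intro h; exact absurd (Finset.mem_univ _) h
  rw [h1]
  refine Finset.measurable_sum _ fun i _ => ?_
  refine ContinuousOn.measurable_piecewise ?_ continuousOn_const (hq i)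
  have h2 : {x | q.c x = i} ⊆ (C.e i).source := by
    intro x hx
    have := q.mem x
    rw [show q.c x = i from hx] at this
    exact this
  refine ContinuousOn.comp (g := s i) (t := (C.e i).target) (hs.1 i).continuousOn
    ((C.e i).continuousOn.mono h2) ?_
  intro x hx
  exact (C.e i).map_source (h2 hx)

theorem memLp_sec [CompactSpace Z] [Finite C.ι] (m : Ms C) {q : Ch C} (hq : MCh q) {L : UB C}
    {s : C.ι → EuclideanSpace ℝ (Fin N) → ℂ} (hs : s ∈ Sec L) : MemLp (q.val s) 2 m.μ := by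
  obtain ⟨B, _, hB⟩ := bdd_sec q hs
  exact MemLp.of_bound (meas_val hq hs).aestronglyMeasurable B (Eventually.of_forall hB)

open Classical in
/-- the class of a family in `L²` (`0` if it is not in `L²`) -/
def tl (m : Ms C) (q : Ch C) (s : C.ι → EuclideanSpace ℝ (Fin N) → ℂ) : Lp ℂ 2 m.μ :=
  if h : MemLp (q.val s) 2 m.μ then h.toLp _ else 0

variable [CompactSpace Z] [Finite C.ι] {m : Ms C} {q : Ch C}

theorem tl_coe (hq : MCh q) {L : UB C} {s : C.ι → EuclideanSpace ℝ (Fin N) → ℂ}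
    (hs : s ∈ Sec L) : (tl m q s : Z → ℂ) =ᵐ[m.μ] q.val s := by
  have h := memLp_sec m hq hs
  rw [tl, dif_pos h]
  exact h.coeFn_toLp

theorem inner_tl (hq : MCh q) {L L' : UB C} {s t : C.ι → EuclideanSpace ℝ (Fin N) → ℂ}
    (hs : s ∈ Sec L) (ht : t ∈ Sec L') : inner ℂ (tl m q t) (tl m q s) = ip m q s t := by
  rw [MeasureTheory.L2.inner_def, ip]
  refine integral_congr_ae ?_
  filter_upwards [tl_coe (m := m) hq hs, tl_coe (m := m) hq ht] with x h1 h2
  rw [h1, h2, RCLike.inner_apply]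

theorem norm_tl (hq : MCh q) {L : UB C} {s : C.ι → EuclideanSpace ℝ (Fin N) → ℂ}
    (hs : s ∈ Sec L) : ‖tl m q s‖ ^ 2 = n2 m q s := by
  have h1 := inner_self_eq_norm_sq_to_K (𝕜 := ℂ) (tl m q s)
  rw [inner_tl hq hs hs] at h1
  have h2 : ip m q s s = ((n2 m q s : ℝ) : ℂ) := by
    rw [ip, n2, ← integral_complex_ofReal]
    refine integral_congr_ae (Eventually.of_forall fun x => ?_)
    exact (norm_val_sq q s x).symm
  rw [h2] at h1
  have h3 : ((n2 m q s : ℝ) : ℂ) = ((‖tl m q s‖ ^ 2 : ℝ) : ℂ) := by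
    rw [h1]; push_cast; rfl
  exact (Complex.ofReal_injective h3).symm

theorem tl_congr (hq : MCh q) {L : UB C} {s t : C.ι → EuclideanSpace ℝ (Fin N) → ℂ}
    (hs : s ∈ Sec L) (ht : t ∈ Sec L) (h : ∀ i, ∀ y ∈ (C.e i).target, s i y = t i y) :
    tl m q s = tl m q t := by
  apply Lp.ext
  filter_upwards [tl_coe (m := m) hq hs, tl_coe (m := m) hq ht] with x h1 h2
  rw [h1, h2]
  exact h _ _ ((C.e _).map_source (q.mem x))

theorem tl_add (hq : MCh q) {L : UB C} {s t : C.ι → EuclideanSpace ℝ (Fin N) → ℂ}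
    (hs : s ∈ Sec L) (ht : t ∈ Sec L) : tl m q (s + t) = tl m q s + tl m q t := by
  apply Lp.ext
  filter_upwards [tl_coe (m := m) hq hs, tl_coe (m := m) hq ht,
    tl_coe (m := m) hq ((Sec L).add_mem hs ht), Lp.coeFn_add (tl m q s) (tl m q t)] with x h1 h2 h3 h4
  rw [h3, h4, Pi.add_apply, h1, h2]
  rfl

theorem tl_smul (hq : MCh q) {L : UB C} {s : C.ι → EuclideanSpace ℝ (Fin N) → ℂ} (c : ℂ)
    (hs : s ∈ Sec L) : tl m q (c • s) = c • tl m q s := by
  apply Lp.ext
  filter_upwards [tl_coe (m := m) hq hs, tl_coe (m := m) hq ((Sec L).smul_mem c hs),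
    Lp.coeFn_smul c (tl m q s)] with x h1 h3 h4
  rw [h3, h4, Pi.smul_apply, h1]
  rfl

theorem tl_zero (hq : MCh q) (L : UB C) : tl m q (0 : C.ι → EuclideanSpace ℝ (Fin N) → ℂ) = 0 := by
  have h := tl_smul (m := m) hq (L := L) 0 ((Sec L).zero_mem)
  simpa using h

theorem tl_sum (hq : MCh q) {L : UB C} {Λ : Type*} (t : Finset Λ)
    {s : Λ → C.ι → EuclideanSpace ℝ (Fin N) → ℂ} (hs : ∀ l ∈ t, s l ∈ Sec L) :
    tl m q (∑ l ∈ t, s l) = ∑ l ∈ t, tl m q (s l) := by
  classical
  induction t using Finset.induction_on with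
  | empty => simpa using tl_zero hq L
  | insert a t ha ih =>
    rw [Finset.sum_insert ha, Finset.sum_insert ha,
      tl_add hq (hs a (Finset.mem_insert_self _ _))
        ((Sec L).sum_mem fun l hl => hs l (Finset.mem_insert_of_mem hl)),
      ih fun l hl => hs l (Finset.mem_insert_of_mem hl)]

/-- multiplication by a bounded scalar -/
theorem norm_tl_mul (hq : MCh q) {L : UB C} {s : C.ι → EuclideanSpace ℝ (Fin N) → ℂ} (b : Scl C)
    {B : ℝ} (hB : 0 ≤ B) (hb : ∀ x, ‖q.val b.f x‖ ≤ B) (hs : s ∈ Sec L) :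
    ‖tl m q (fun i y => b.f i y * s i y)‖ ≤ B * ‖tl m q s‖ := by
  have h1 : ‖tl m q (fun i y => b.f i y * s i y)‖ ≤ B * ‖tl m q s‖ := by
    refine Lp.norm_le_mul_norm_of_ae_le_mul ?_
    filter_upwards [tl_coe (m := m) hq hs, tl_coe (m := m) hq (mul_mem b hs)] with x h2 h3
    rw [h2, h3]
    show ‖q.val b.f x * q.val s x‖ ≤ _
    rw [norm_mul]
    exact mul_le_mul_of_nonneg_right (hb x) (norm_nonneg _)
  exact h1

end meas

end

end Crest.Agent.R260.Kn_37
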