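import Crest.Agent.R260.Kn4_37

/-!
# Row 260, K-NNF (helper37): the Bochner-Kodaira estimate for exact forms on a compact space

`bk` : `(K/2 - C0) ‖∂̄ φ‖² ≤ ‖∂̄^* ∂̄ φ‖²`, `C0` independent of the bundle.
-/

set_option autoImplicit false

open Set Filter Topology Complex MeasureTheory
open scoped ContDiff ComplexConjugate ENNReal

namespace Crest.Agent.R260.Kn_37

open Crest.Agent.R260.ACM_580 Crest.Agent.R260.KnDefs_37

noncomputable section

/-! ### a numerical lemma -/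

theorem num {Λ : Type*} [Fintype Λ] {b K : ℝ} (hb : 0 ≤ b) (x : Λ → ℝ) (y : Λ → Λ → ℝ)
    (A I2 Hh : Λ → Λ → ℝ) (hx : ∀ l, 0 ≤ x l) (hy : ∀ k l, 0 ≤ y k l)
    (h1 : ∀ k l, I2 k l - b * (∑ n, y n l) * x k - b * (∑ n, (y n k * x l + x k * x l)) -
      b * (x l * x k) - Hh k l ≤ A k l)
    (h2 : ∀ k l, y k l ^ 2 - b * y k l * (∑ n, x n) ≤ I2 k l)
    (h3 : K / 2 * ∑ l, x l ^ 2 ≤ -∑ k, ∑ l, Hh k l) :
    (K / 2 - ((9 / 4 * b ^ 2 * ((Fintype.card Λ : ℝ) ^ 2 + 1)) +
      b * ((Fintype.card Λ : ℝ) + 1)) * (Fintype.card Λ : ℝ)) * ∑ l, x l ^ 2 ≤ ∑ k, ∑ l, A k l := by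
  set n : ℝ := (Fintype.card Λ : ℝ) with hn
  have hn0 : 0 ≤ n := by positivity
  set S := ∑ l, x l with hS
  set Q := ∑ l, x l ^ 2 with hQ
  set Y := ∑ k, ∑ l, y k l with hY
  set Y2 := ∑ k, ∑ l, y k l ^ 2 with hY2
  have hS0 : 0 ≤ S := Finset.sum_nonneg fun l _ => hx l
  have hY0 : 0 ≤ Y := Finset.sum_nonneg fun k _ => Finset.sum_nonneg fun l _ => hy k l
  have hQ0 : 0 ≤ Q := Finset.sum_nonneg fun l _ => sq_nonneg _
  have hS2 : S ^ 2 ≤ n * Q := by
    have := sq_sum_le_card_mul_sum_sq (s := (Finset.univ : Finset Λ)) (f := x)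
    simpa [hn] using this
  have hYY : Y ^ 2 ≤ n ^ 2 * Y2 := by
    have h := sq_sum_le_card_mul_sum_sq (s := (Finset.univ : Finset (Λ × Λ)))
      (f := fun p => y p.1 p.2)
    rw [Fintype.sum_prod_type, Fintype.sum_prod_type] at h
    simp only [Finset.card_univ, Fintype.card_prod, Nat.cast_mul] at h
    have e : n ^ 2 = (Fintype.card Λ : ℝ) * (Fintype.card Λ : ℝ) := by rw [hn]; ring
    rw [e]; exact h
  have hY20 : 0 ≤ Y2 := Finset.sum_nonneg fun k _ => Finset.sum_nonneg fun l _ => sq_nonneg _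
  -- sum everything
  have s1 : ∑ k, ∑ l, (y k l ^ 2 - b * y k l * S - b * (∑ n, y n l) * x k -
      b * (∑ n, (y n k * x l + x k * x l)) - b * (x l * x k) - Hh k l) ≤ ∑ k, ∑ l, A k l := by
    refine Finset.sum_le_sum fun k _ => Finset.sum_le_sum fun l _ => ?_
    have := h1 k l
    have := h2 k l
    linarith
  have t1 : ∑ k, ∑ l, b * y k l * S = b * Y * S := by
    rw [hY]
    simp only [Finset.mul_sum, Finset.sum_mul]
  have t2 : ∑ k, ∑ l, b * (∑ n, y n l) * x k = b * Y * S := by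
    have e1 : ∑ l, (∑ n, y n l) = Y := by rw [hY, Finset.sum_comm]
    calc ∑ k, ∑ l, b * (∑ n, y n l) * x k = ∑ k, (b * (∑ l, ∑ n, y n l)) * x k := by
          refine Finset.sum_congr rfl fun k _ => ?_
          rw [← Finset.sum_mul, ← Finset.mul_sum]
      _ = b * Y * S := by rw [e1, ← Finset.mul_sum]
  have t3 : ∑ k, ∑ l, b * (∑ n, (y n k * x l + x k * x l)) = b * Y * S + b * n * (S * S) := by
    have e1 : ∑ l, (∑ n, y n l) = Y := by rw [hY, Finset.sum_comm]
    have e2 : ∀ k l, ∑ m, (y m k * x l + x k * x l) = (∑ m, y m k) * x l + n * (x k * x l) := by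
      intro k l
      rw [Finset.sum_add_distrib, ← Finset.sum_mul, Finset.sum_const, Finset.card_univ,
        nsmul_eq_mul]
    simp only [e2, mul_add, Finset.sum_add_distrib]
    congr 1
    · calc ∑ k, ∑ l, b * ((∑ m, y m k) * x l) = ∑ k, b * ((∑ m, y m k) * S) := by
            refine Finset.sum_congr rfl fun k _ => ?_
            rw [hS, Finset.mul_sum, Finset.mul_sum]
        _ = b * Y * S := by rw [← Finset.mul_sum, ← Finset.sum_mul, e1]; ring
    · calc ∑ k, ∑ l, b * (n * (x k * x l)) = ∑ k, b * (n * (x k * S)) := by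
            refine Finset.sum_congr rfl fun k _ => ?_
            rw [hS, Finset.mul_sum, Finset.mul_sum, Finset.mul_sum]
        _ = b * n * (S * S) := by
          rw [← Finset.mul_sum, ← Finset.mul_sum, ← Finset.sum_mul]; ring
  have t4 : ∑ k, ∑ l, b * (x l * x k) = b * (S * S) := by
    calc ∑ k, ∑ l, b * (x l * x k) = ∑ k, b * (S * x k) := by
          refine Finset.sum_congr rfl fun k _ => ?_
          rw [hS, Finset.sum_mul, Finset.mul_sum]
      _ = b * (S * S) := by rw [← Finset.mul_sum, ← Finset.mul_sum]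
  simp only [Finset.sum_sub_distrib] at s1
  rw [t1, t2, t3, t4] at s1
  have key : 3 * b * Y * S ≤ Y2 + 9 / 4 * b ^ 2 * (n ^ 2 + 1) * S ^ 2 := by
    have h4 : Y ^ 2 ≤ (n ^ 2 + 1) * Y2 := by nlinarith
    have h5 : 0 < n ^ 2 + 1 := by positivity
    have h6 : 0 ≤ (Y - 3 / 2 * b * (n ^ 2 + 1) * S) ^ 2 := sq_nonneg _
    have h7 : (n ^ 2 + 1) * (3 * b * Y * S) ≤
        (n ^ 2 + 1) * (Y2 + 9 / 4 * b ^ 2 * (n ^ 2 + 1) * S ^ 2) := by nlinarith
    exact le_of_mul_le_mul_left h7 h5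
  have fin : (9 / 4 * b ^ 2 * (n ^ 2 + 1) + b * (n + 1)) * S ^ 2 ≤
      (9 / 4 * b ^ 2 * (n ^ 2 + 1) + b * (n + 1)) * (n * Q) :=
    mul_le_mul_of_nonneg_left hS2 (by positivity)
  nlinarith

variable {N : ℕ} {Z : Type} [TopologicalSpace Z] [MeasurableSpace Z] [BorelSpace Z]
  {C : ACM (EuclideanSpace ℝ (Fin N)) Z}

/-- transition law of the divergence -/
def DvTr (m : Ms C) : Prop := ∀ X : Fld C, ∀ i j, ∀ y ∈ C.ov i j,
  m.dv X i y = m.dv X j (tau C i j y)

/-- integration by parts -/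
def Ibp (m : Ms C) (q : Ch C) : Prop := ∀ (L : UB C) (X : Fld C) (s t), s ∈ Sec L → t ∈ Sec L →
  ip m q (nabF L X s) t + ip m q s (nabF L X t) +
    ip m q (fun i y => (m.dv X i y : ℂ) * s i y) t = 0

theorem dv_sm (m : Ms C) (X : Fld C) (i : C.ι) : ContDiffOn ℝ ∞ (m.dv X i) (C.e i).target := by
  have h0 := (C.e i).open_target
  refine ContDiffOn.div ?_ (m.ρ_sm i) fun y hy => (m.ρ_pos i y hy).ne'
  refine ContDiffOn.sum fun a _ => ?_
  have h1 : ContDiffOn ℝ ∞ (fun z => m.ρ i z * X.X i z a) (C.e i).target := by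
    refine (m.ρ_sm i).mul ?_
    exact ((EuclideanSpace.proj a : EuclideanSpace ℝ (Fin N) →L[ℝ] ℝ).contDiff.comp_contDiffOn
      (X.sm i) :)
  exact (sm_fderiv h0 h1).clm_apply contDiffOn_const

/-- the scalar `(div X - i div JX)/2` -/
def dl (m : Ms C) (h : DvTr m) (X : Fld C) : Scl C where
  f i y := ((m.dv X i y : ℂ) - I * (m.dv X.J i y : ℂ)) / 2
  sm i := by
    refine ContDiffOn.div_const (ContDiffOn.sub ?_ (contDiffOn_const.mul ?_)) 2
    · exact Complex.ofRealCLM.contDiff.comp_contDiffOn (dv_sm m X i)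
    · exact Complex.ofRealCLM.contDiff.comp_contDiffOn (dv_sm m X.J i)
  tr i j y hy := by rw [h X i j y hy, h X.J i j y hy]

/-- real divergence as a scalar -/
def dvS (m : Ms C) (h : DvTr m) (X : Fld C) : Scl C where
  f i y := (m.dv X i y : ℂ)
  sm i := Complex.ofRealCLM.contDiff.comp_contDiffOn (dv_sm m X i)
  tr i j y hy := by rw [h X i j y hy]

theorem La_mem {m : Ms C} (h : DvTr m) {L : UB C} (X : Fld C)
    {s : C.ι → EuclideanSpace ℝ (Fin N) → ℂ} (hs : s ∈ Sec L) : La m L X s ∈ Sec L := by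
  have h1 := (Sec L).sub_mem ((Sec L).neg_mem (Lb_mem X hs)) (mul_mem (dl m h X) hs)
  exact h1

theorem Pop_mem {m : Ms C} (h : DvTr m) {L : UB C} (W : Frm C)
    {s : C.ι → EuclideanSpace ℝ (Fin N) → ℂ} (hs : s ∈ Sec L) : Pop m W L s ∈ Sec L := by
  have h1 : (∑ l, La m L (W.W l) (Lo L (W.W l) s)) ∈ Sec L :=
    (Sec L).sum_mem fun l _ => La_mem h _ (Lo_mem _ hs)
  convert h1 using 1
  funext i y
  simp only [Pop, Finset.sum_apply]

variable [CompactSpace Z] [Finite C.ι] {m : Ms C} {q : Ch C}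

theorem integrable_pair (m : Ms C) {q : Ch C} {L : UB C}
    {s t : C.ι → EuclideanSpace ℝ (Fin N) → ℂ} (hs : s ∈ Sec L) (ht : t ∈ Sec L) :
    Integrable (fun x => q.val s x * conj (q.val t x)) m.μ :=
  (cont_pair q hs ht).integrable_of_hasCompactSupport (HasCompactSupport.of_compactSpace _)

/-- `ip` is linear in the first variable -/
theorem ip_lin {L : UB C} {s s' t : C.ι → EuclideanSpace ℝ (Fin N) → ℂ} (hs : s ∈ Sec L)
    (hs' : s' ∈ Sec L) (ht : t ∈ Sec L) (a b : ℂ) :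
    ip m q (fun i y => a * s i y + b * s' i y) t = a * ip m q s t + b * ip m q s' t := by
  simp only [ip]
  rw [← integral_const_mul, ← integral_const_mul, ← integral_add
    ((integrable_pair m hs ht).const_mul a) ((integrable_pair m hs' ht).const_mul b)]
  refine integral_congr_ae (Eventually.of_forall fun x => ?_)
  simp only [Ch.val]
  ring

theorem ip_conj (s t : C.ι → EuclideanSpace ℝ (Fin N) → ℂ) :
    conj (ip m q s t) = ip m q t s := by
  simp only [ip]
  rw [← integral_conj]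
  refine integral_congr_ae (Eventually.of_forall fun x => ?_)
  simp only [map_mul, conj_conj]
  ring

/-- `Lo` and `La` are adjoint -/
theorem adj (hd : DvTr m) (hi : Ibp m q) {L : UB C} (X : Fld C)
    {s t : C.ι → EuclideanSpace ℝ (Fin N) → ℂ} (hs : s ∈ Sec L) (ht : t ∈ Sec L) :
    ip m q (Lo L X s) t = ip m q s (La m L X t) := by
  have e1 : Lo L X s = fun i y => (1 / 2 : ℂ) * nabF L X s i y + (I / 2) * nabF L X.J s i y := by
    funext i y; simp only [Lo]; ring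
  have hA : (fun i y => -Lb L X t i y) ∈ Sec L := (Sec L).neg_mem (Lb_mem X ht)
  have e2 : La m L X t = fun i y => (1 : ℂ) * ((-1 / 2 : ℂ) * nabF L X t i y +
      (I / 2) * nabF L X.J t i y) + (1 : ℂ) * ((-1 / 2 : ℂ) * ((dvS m hd X).f i y * t i y) +
      (I / 2) * ((dvS m hd X.J).f i y * t i y)) := by
    funext i y; simp only [La, Lb, dvS]; ring
  have m1 := nabF_mem X ht
  have m2 := nabF_mem X.J ht
  have m3 := mul_mem (dvS m hd X) ht
  have m4 := mul_mem (dvS m hd X.J) ht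
  have m5 : (fun i y => (-1 / 2 : ℂ) * nabF L X t i y + (I / 2) * nabF L X.J t i y) ∈ Sec L :=
    (Sec L).add_mem ((Sec L).smul_mem (-1 / 2 : ℂ) m1) ((Sec L).smul_mem (I / 2) m2)
  have m6 : (fun i y => (-1 / 2 : ℂ) * ((dvS m hd X).f i y * t i y) +
      (I / 2) * ((dvS m hd X.J).f i y * t i y)) ∈ Sec L :=
    (Sec L).add_mem ((Sec L).smul_mem (-1 / 2 : ℂ) m3) ((Sec L).smul_mem (I / 2) m4)
  rw [e1, ip_lin (nabF_mem X hs) (nabF_mem X.J hs) ht]
  rw [← ip_conj (La m L X t) s, e2, ip_lin m5 m6 hs, ip_lin m1 m2 hs, ip_lin m3 m4 hs]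
  simp only [map_add, map_mul, ip_conj]
  have i1 := hi L X s t hs ht
  have i2 := hi L X.J s t hs ht
  have c1 : ∀ Y : Fld C, ip m q (fun i y => (m.dv Y i y : ℂ) * s i y) t =
      ip m q s (fun i y => (dvS m hd Y).f i y * t i y) := by
    intro Y
    simp only [ip]
    refine integral_congr_ae (Eventually.of_forall fun x => ?_)
    simp only [Ch.val, dvS, map_mul, conj_ofReal]
    ring
  rw [c1] at i1 i2
  simp only [map_div₀, map_neg, map_one, conj_I, map_ofNat]
  linear_combination (1 / 2 : ℂ) * i1 + (I / 2) * i2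

theorem adj' (hd : DvTr m) (hi : Ibp m q) {L : UB C} (X : Fld C)
    {s t : C.ι → EuclideanSpace ℝ (Fin N) → ℂ} (hs : s ∈ Sec L) (ht : t ∈ Sec L) :
    ip m q (La m L X s) t = ip m q s (Lo L X t) := by
  rw [← ip_conj t, ← adj hd hi X ht hs, ip_conj]

end

end Crest.Agent.R260.Kn_37
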