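import Crest.Agent.R260.Kn5_37

/-!
# Row 260, K-NNF (helper37): the Bochner-Kodaira estimate for exact forms, end

`bk` : `(K/2 - C0) ‖∂̄ φ‖² ≤ ‖∂̄^* ∂̄ φ‖²`, `C0` independent of the bundle.
-/

set_option autoImplicit false

open Set Filter Topology Complex MeasureTheory
open scoped ContDiff ComplexConjugate ENNReal

namespace Crest.Agent.R260.Kn_37

open Crest.Agent.R260.ACM_580 Crest.Agent.R260.KnDefs_37

noncomputable section

section alg

variable {V Z : Type} [NormedAddCommGroup V] [NormedSpace ℝ V] [TopologicalSpace Z] {C : ACM V Z}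

/-! ### operations on scalars -/

/-- sum -/
def Scl.add (a b : Scl C) : Scl C where
  f i y := a.f i y + b.f i y
  sm i := (a.sm i).add (b.sm i)
  tr i j y hy := by rw [a.tr i j y hy, b.tr i j y hy]

/-- product -/
def Scl.mul (a b : Scl C) : Scl C where
  f i y := a.f i y * b.f i y
  sm i := (a.sm i).mul (b.sm i)
  tr i j y hy := by rw [a.tr i j y hy, b.tr i j y hy]

/-- constant multiple -/
def Scl.cm (c : ℂ) (a : Scl C) : Scl C where
  f i y := c * a.f i y
  sm i := contDiffOn_const.mul (a.sm i)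
  tr i j y hy := by rw [a.tr i j y hy]

/-- conjugate -/
def Scl.cj (a : Scl C) : Scl C where
  f i y := conj (a.f i y)
  sm i := Complex.conjCLE.contDiff.comp_contDiffOn (a.sm i)
  tr i j y hy := by rw [a.tr i j y hy]

theorem mem_congr {L : UB C} {s t : C.ι → V → ℂ} (hs : s ∈ Sec L)
    (h : ∀ i, ∀ y ∈ (C.e i).target, t i y = s i y) : t ∈ Sec L := by
  refine ⟨fun i => (hs.1 i).congr fun y hy => h i y hy, fun i j y hy => ?_⟩
  rw [h i y hy.1, h j _ (tau_mem hy), hs.2 i j y hy]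

theorem nabF_mul {L : UB C} (X : Fld C) (b : Scl C) {s : C.ι → V → ℂ} (hs : s ∈ Sec L) {i : C.ι}
    {y : V} (hy : y ∈ (C.e i).target) :
    nabF L X (fun i y => b.f i y * s i y) i y =
      b.f i y * nabF L X s i y + (b.D X).f i y * s i y := by
  have h1 : HasFDerivAt (fun z => b.f i z * s i z) _ y :=
    (sm_diffAt (C.e i).open_target (b.sm i) hy).hasFDerivAt.mul (sec_diffAt hs hy).hasFDerivAt
  simp only [nabF, nab, Scl.D]
  rw [h1.fderiv]
  simp only [ContinuousLinearMap.add_apply, ContinuousLinearMap.smul_apply, smul_eq_mul]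
  ring

theorem Lo_mul {L : UB C} (X : Fld C) (b : Scl C) {s : C.ι → V → ℂ} (hs : s ∈ Sec L) {i : C.ι}
    {y : V} (hy : y ∈ (C.e i).target) :
    Lo L X (fun i y => b.f i y * s i y) i y =
      b.f i y * Lo L X s i y + (b.Dc X).f i y * s i y := by
  simp only [Lo]
  rw [nabF_mul X b hs hy, nabF_mul X.J b hs hy]
  simp only [Scl.Dc]
  ring

theorem Lo_add {L : UB C} (X : Fld C) {s t : C.ι → V → ℂ} (hs : s ∈ Sec L) (ht : t ∈ Sec L)
    {i : C.ι} {y : V} (hy : y ∈ (C.e i).target) (a b : ℂ) :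
    Lo L X (fun i y => a * s i y + b * t i y) i y = a * Lo L X s i y + b * Lo L X t i y := by
  simp only [Lo]
  rw [nabF_add X hs ht hy, nabF_add X.J hs ht hy]
  ring

/-- coefficients of `[Lo_k, Lb_l]` -/
def gS (W : Frm C) (k l n : W.Λ) : Scl C :=
  Scl.cm (1 / 4) (Scl.add (Scl.add ((W.om n).app ((W.W k).br (W.W l)))
    ((W.om n).app ((W.W k).J.br (W.W l).J)))
    (Scl.add (Scl.cm I ((W.om n).app ((W.W k).J.br (W.W l))))
      (Scl.cm (-I) ((W.om n).app ((W.W k).br (W.W l).J)))))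

/-- coefficients of `[Lo_k, Lo_l]` -/
def hS (W : Frm C) (k l n : W.Λ) : Scl C :=
  Scl.cm (1 / 2) (Scl.add ((W.om n).app ((W.W k).br (W.W l)))
    (Scl.cm (-1) ((W.om n).app ((W.W k).J.br (W.W l).J))))

/-- the curvature term -/
def Hf (L : UB C) (W : Frm C) (k l : W.Λ) (s : C.ι → V → ℂ) : C.ι → V → ℂ := fun i y =>
  (I * (cu (L.A i) y ((W.W k).X i y) ((W.W l).X i y) : ℂ) +
    (cu (L.A i) y ((W.W k).X i y) ((W.W l).J.X i y) : ℂ)) / 2 * s i y

theorem comm_hS (hC : C.Int) (W : Frm C) {L : UB C} (k l : W.Λ) {s : C.ι → V → ℂ} (hs : s ∈ Sec L)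
    {i : C.ι} {y : V} (hy : y ∈ (C.e i).target) :
    Lo L (W.W k) (Lo L (W.W l) s) i y - Lo L (W.W l) (Lo L (W.W k) s) i y =
      ∑ n, (hS W k l n).f i y * Lo L (W.W n) s i y := by
  rw [Lo_comm hC (W.W k) (W.W l) hs hy, dbv_span W hy, Finset.sum_div]
  refine Finset.sum_congr rfl fun n _ => ?_
  rw [Lo_eq]
  simp only [hS, Scl.cm, Scl.add, Frm1.app, map_sub, ofReal_sub]
  ring

theorem comm_gS (W : Frm C) {L : UB C} (k l : W.Λ) {s : C.ι → V → ℂ} (hs : s ∈ Sec L)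
    {i : C.ι} {y : V} (hy : y ∈ (C.e i).target) :
    Lo L (W.W k) (Lb L (W.W l) s) i y - Lb L (W.W l) (Lo L (W.W k) s) i y =
      (∑ n, (gS W k l n).f i y * (Lo L (W.W n) s i y + Lb L (W.W n) s i y)) + Hf L W k l s i y := by
  rw [LoLb_comm (W.W k) (W.W l) hs hy]
  have h1 : ∀ B : Fld C, nabF L B s i y = ∑ n, ((W.om n).w i y (B.X i y) : ℂ) *
      (Lo L (W.W n) s i y + Lb L (W.W n) s i y) := by
    intro B
    rw [nabF_eq, nv_span W hy]
    refine Finset.sum_congr rfl fun n _ => ?_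
    rw [← nabF_eq, nabF_eq']
  rw [h1, h1, h1, h1]
  simp only [Hf]
  congr 1
  rw [← Finset.sum_add_distrib, Finset.mul_sum, ← Finset.sum_add_distrib, Finset.mul_sum,
    ← Finset.sum_sub_distrib, Finset.sum_div]
  refine Finset.sum_congr rfl fun n _ => ?_
  simp only [gS, Scl.cm, Scl.add, Frm1.app]
  ring

end alg

variable {N : ℕ} {Z : Type} [TopologicalSpace Z] [MeasurableSpace Z] [BorelSpace Z]
  {C : ACM (EuclideanSpace ℝ (Fin N)) Z}

/-- the commutator of `Lo_k` with `La_l` -/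
theorem comm_La {m : Ms C} (hd : DvTr m) (W : Frm C) {L : UB C} (k l : W.Λ)
    {s : C.ι → EuclideanSpace ℝ (Fin N) → ℂ} (hs : s ∈ Sec L)
    {i : C.ι} {y : EuclideanSpace ℝ (Fin N)} (hy : y ∈ (C.e i).target) :
    Lo L (W.W k) (La m L (W.W l) s) i y =
      La m L (W.W l) (Lo L (W.W k) s) i y -
      (∑ n, (gS W k l n).f i y * Lo L (W.W n) s i y) +
      (∑ n, (gS W k l n).f i y * La m L (W.W n) s i y) +
      (∑ n, ((gS W k l n).mul (dl m hd (W.W n))).f i y * s i y) -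
      ((dl m hd (W.W l)).Dc (W.W k)).f i y * s i y - Hf L W k l s i y := by
  have e1 : La m L (W.W l) s = fun i y => (-1 : ℂ) * Lb L (W.W l) s i y +
      (-1 : ℂ) * ((dl m hd (W.W l)).f i y * s i y) := by
    funext i y; simp only [La, dl]; ring
  rw [e1, Lo_add (W.W k) (Lb_mem _ hs) (mul_mem _ hs) hy, Lo_mul (W.W k) _ hs hy]
  have h1 := comm_gS W k l hs hy
  have e2 : La m L (W.W l) (Lo L (W.W k) s) i y = -Lb L (W.W l) (Lo L (W.W k) s) i y -
      (dl m hd (W.W l)).f i y * Lo L (W.W k) s i y := rfl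
  have e3 : (∑ n, (gS W k l n).f i y * (Lo L (W.W n) s i y + Lb L (W.W n) s i y)) =
      (∑ n, (gS W k l n).f i y * Lo L (W.W n) s i y) -
      (∑ n, (gS W k l n).f i y * La m L (W.W n) s i y) -
      (∑ n, ((gS W k l n).mul (dl m hd (W.W n))).f i y * s i y) := by
    rw [← Finset.sum_sub_distrib, ← Finset.sum_sub_distrib]
    refine Finset.sum_congr rfl fun n _ => ?_
    have e4 : La m L (W.W n) s i y = -Lb L (W.W n) s i y -
      (dl m hd (W.W n)).f i y * s i y := rfl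
    rw [e4]
    simp only [Scl.mul]
    ring
  rw [e2]
  rw [e3] at h1
  linear_combination (-1 : ℂ) * h1

theorem Hf_mem {m : Ms C} (hd : DvTr m) (W : Frm C) {L : UB C} (k l : W.Λ)
    {s : C.ι → EuclideanSpace ℝ (Fin N) → ℂ} (hs : s ∈ Sec L) : Hf L W k l s ∈ Sec L := by
  have h1 : (La m L (W.W l) (Lo L (W.W k) s) -
      (∑ n, fun i y => (gS W k l n).f i y * Lo L (W.W n) s i y) +
      (∑ n, fun i y => (gS W k l n).f i y * La m L (W.W n) s i y) +
      (∑ n, fun i y => ((gS W k l n).mul (dl m hd (W.W n))).f i y * s i y) -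
      (fun i y => ((dl m hd (W.W l)).Dc (W.W k)).f i y * s i y) -
      Lo L (W.W k) (La m L (W.W l) s)) ∈ Sec L := by
    refine (Sec L).sub_mem ((Sec L).sub_mem ((Sec L).add_mem ((Sec L).add_mem ((Sec L).sub_mem
      (La_mem hd _ (Lo_mem _ hs)) ?_) ?_) ?_) ?_) (Lo_mem _ (La_mem hd _ hs))
    · exact (Sec L).sum_mem fun n _ => mul_mem _ (Lo_mem _ hs)
    · exact (Sec L).sum_mem fun n _ => mul_mem _ (La_mem hd _ hs)
    · exact (Sec L).sum_mem fun n _ => mul_mem _ hs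
    · exact mul_mem _ hs
  refine mem_congr h1 fun i y hy => ?_
  have h2 := comm_La hd W k l hs hy
  simp only [Pi.sub_apply, Pi.add_apply, Finset.sum_apply]
  linear_combination h2

variable [CompactSpace Z] [Finite C.ι] {m : Ms C} {q : Ch C}

theorem exists_bd {α : Type*} [Finite α] (q : Ch C) (P : α → Scl C) :
    ∃ B : ℝ, 0 ≤ B ∧ ∀ a x, ‖q.val (P a).f x‖ ≤ B := by
  classical
  haveI := Fintype.ofFinite α
  choose B hB0 hB using fun a => bdd_scl q (P a)
  refine ⟨∑ a, B a, Finset.sum_nonneg fun a _ => hB0 a, fun a x => (hB a x).trans ?_⟩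
  exact Finset.single_le_sum (f := B) (fun a _ => hB0 a) (Finset.mem_univ a)

theorem ip_le (hq : MCh q) {L L' : UB C} {s t : C.ι → EuclideanSpace ℝ (Fin N) → ℂ}
    (hs : s ∈ Sec L) (ht : t ∈ Sec L') : ‖ip m q s t‖ ≤ ‖tl m q s‖ * ‖tl m q t‖ := by
  rw [← inner_tl hq hs ht, mul_comm]
  exact norm_inner_le_norm _ _

theorem re_ge {z : ℂ} {r : ℝ} (h : ‖z‖ ≤ r) : -r ≤ z.re :=
  (neg_le_neg h).trans (neg_abs_le _ |>.trans' (neg_le_neg (Complex.abs_re_le_norm z)))

theorem int6 {μ : Measure Z} {S g1 g2 g3 g4 g5 g6 : Z → ℂ} (i1 : Integrable g1 μ)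
    (i2 : Integrable g2 μ) (i3 : Integrable g3 μ) (i4 : Integrable g4 μ) (i5 : Integrable g5 μ)
    (i6 : Integrable g6 μ) (e : ∀ x, S x = g1 x - g2 x + g3 x + g4 x - g5 x - g6 x) :
    ∫ x, S x ∂μ = ∫ x, g1 x ∂μ - ∫ x, g2 x ∂μ + ∫ x, g3 x ∂μ + ∫ x, g4 x ∂μ - ∫ x, g5 x ∂μ -
      ∫ x, g6 x ∂μ := by
  have h : S = g1 - g2 + g3 + g4 - g5 - g6 := funext e
  rw [h, integral_sub' ((((i1.sub i2).add i3).add i4).sub i5) i6,
    integral_sub' (((i1.sub i2).add i3).add i4) i5, integral_add' ((i1.sub i2).add i3) i4,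
    integral_add' (i1.sub i2) i3, integral_sub' i1 i2]

/-- expansion of an inner product -/
theorem ip_expand {L : UB C} {Λ : Type} [Fintype Λ]
    {S T1 T5 T6 t : C.ι → EuclideanSpace ℝ (Fin N) → ℂ}
    {T2 T3 T4 : Λ → C.ι → EuclideanSpace ℝ (Fin N) → ℂ} (h1 : T1 ∈ Sec L)
    (h2 : ∀ n, T2 n ∈ Sec L) (h3 : ∀ n, T3 n ∈ Sec L) (h4 : ∀ n, T4 n ∈ Sec L) (h5 : T5 ∈ Sec L)
    (h6 : T6 ∈ Sec L) (ht : t ∈ Sec L)
    (h : ∀ i, ∀ y ∈ (C.e i).target, S i y = T1 i y - (∑ n, T2 n i y) + (∑ n, T3 n i y) +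
      (∑ n, T4 n i y) - T5 i y - T6 i y) :
    ip m q S t = ip m q T1 t - (∑ n, ip m q (T2 n) t) + (∑ n, ip m q (T3 n) t) +
      (∑ n, ip m q (T4 n) t) - ip m q T5 t - ip m q T6 t := by
  have e : ∀ x, q.val S x * conj (q.val t x) = q.val T1 x * conj (q.val t x) -
      (∑ n, q.val (T2 n) x * conj (q.val t x)) + (∑ n, q.val (T3 n) x * conj (q.val t x)) +
      (∑ n, q.val (T4 n) x * conj (q.val t x)) - q.val T5 x * conj (q.val t x) -
      q.val T6 x * conj (q.val t x) := by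
    intro x
    have h0 : q.val S x = _ := h _ _ ((C.e _).map_source (q.mem x))
    rw [h0]
    simp only [sub_mul, add_mul, Finset.sum_mul]
    rfl
  have i1 := integrable_pair m (q := q) h1 ht
  have i2 := integrable_finset_sum Finset.univ fun n _ => integrable_pair m (q := q) (h2 n) ht
  have i3 := integrable_finset_sum Finset.univ fun n _ => integrable_pair m (q := q) (h3 n) ht
  have i4 := integrable_finset_sum Finset.univ fun n _ => integrable_pair m (q := q) (h4 n) ht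
  have i5 := integrable_pair m (q := q) h5 ht
  have i6 := integrable_pair m (q := q) h6 ht
  simp only [ip]
  rw [← integral_finset_sum _ fun n _ => integrable_pair m (q := q) (h2 n) ht,
    ← integral_finset_sum _ fun n _ => integrable_pair m (q := q) (h3 n) ht,
    ← integral_finset_sum _ fun n _ => integrable_pair m (q := q) (h4 n) ht]
  exact int6 i1 i2 i3 i4 i5 i6 e

end

end Crest.Agent.R260.Kn_37
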