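import Crest.Agent.R260.Kn6_37

/-!
# Row 260, K-NNF (helper37): **the Bochner-Kodaira estimate for exact forms**

`bk` : `(K/2 - C0) ‖∂̄ φ‖² ≤ ‖∂̄^* ∂̄ φ‖²`, `C0` independent of the bundle and of the section.
-/

set_option autoImplicit false

open Set Filter Topology Complex MeasureTheory
open scoped ContDiff ComplexConjugate ENNReal

namespace Crest.Agent.R260.Kn_37

open Crest.Agent.R260.ACM_580 Crest.Agent.R260.KnDefs_37

noncomputable section

variable {N : ℕ} {Z : Type} [TopologicalSpace Z] [MeasurableSpace Z] [BorelSpace Z]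
  {C : ACM (EuclideanSpace ℝ (Fin N)) Z} [CompactSpace Z] [Finite C.ι] {m : Ms C} {q : Ch C}

theorem pos_int (hd : DvTr m) (W : Frm C) (L : UB C) {K : ℝ} (hK : 0 ≤ K) (hP : L.PosK W K)
    {φ : C.ι → EuclideanSpace ℝ (Fin N) → ℂ} (hφ : φ ∈ Sec L) :
    K / 2 * ∑ l, n2 m q (Lo L (W.W l) φ) ≤
      -∑ k, ∑ l, (ip m q (Hf L W k l (Lo L (W.W l) φ)) (Lo L (W.W k) φ)).re := by
  have hf : ∀ l, Lo L (W.W l) φ ∈ Sec L := fun l => Lo_mem _ hφ
  have hi2 : ∀ l, Integrable (fun x => ‖q.val (Lo L (W.W l) φ) x‖ ^ 2) m.μ := fun l =>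
    (cont_sq q (hf l)).integrable_of_hasCompactSupport (HasCompactSupport.of_compactSpace _)
  have hH : ∀ k l, Integrable (fun x => q.val (Hf L W k l (Lo L (W.W l) φ)) x *
      conj (q.val (Lo L (W.W k) φ) x)) m.μ := fun k l =>
    integrable_pair m (Hf_mem hd W k l (hf l)) (hf k)
  have e1 : K / 2 * ∑ l, n2 m q (Lo L (W.W l) φ) =
      ∫ x, K / 2 * ∑ l, ‖q.val (Lo L (W.W l) φ) x‖ ^ 2 ∂m.μ := by
    rw [integral_const_mul, integral_finset_sum _ fun l _ => hi2 l]
    rfl
  have e2 : ∑ k, ∑ l, (ip m q (Hf L W k l (Lo L (W.W l) φ)) (Lo L (W.W k) φ)).re =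
      ∫ x, (∑ k, ∑ l, q.val (Hf L W k l (Lo L (W.W l) φ)) x *
        conj (q.val (Lo L (W.W k) φ) x)).re ∂m.μ := by
    have h3 : ∫ x, (∑ k, ∑ l, q.val (Hf L W k l (Lo L (W.W l) φ)) x *
        conj (q.val (Lo L (W.W k) φ) x)).re ∂m.μ = (∫ x, (∑ k, ∑ l,
        q.val (Hf L W k l (Lo L (W.W l) φ)) x * conj (q.val (Lo L (W.W k) φ) x)) ∂m.μ).re :=
      integral_re (integrable_finset_sum _ fun k _ => integrable_finset_sum _ fun l _ => hH k l)
    rw [h3, integral_finset_sum _ fun k _ => integrable_finset_sum _ fun l _ => hH k l,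
      Complex.re_sum]
    refine Finset.sum_congr rfl fun k _ => ?_
    rw [integral_finset_sum _ fun l _ => hH k l, Complex.re_sum]
    rfl
  rw [e1, e2, ← integral_neg]
  refine integral_mono ((integrable_finset_sum _ fun l _ => hi2 l).const_mul _) ?_ fun x => ?_
  · exact ((integrable_finset_sum _ fun k _ => integrable_finset_sum _ fun l _ => hH k l).re).neg
  · have hx := (C.e (q.c x)).map_source (q.mem x)
    have h4 := pos_pt W L hK hP hx (φ (q.c x))
    have h5 : ∀ l, dbv (C.J (q.c x)) (L.A (q.c x)) (φ (q.c x)) (C.e (q.c x) x)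
        ((W.W l).X (q.c x) (C.e (q.c x) x)) = q.val (Lo L (W.W l) φ) x := fun l =>
      (Lo_eq L (W.W l) φ (q.c x) (C.e (q.c x) x)).symm
    simp only [h5] at h4
    have h6 : (∑ k, ∑ l, q.val (Hf L W k l (Lo L (W.W l) φ)) x *
        conj (q.val (Lo L (W.W k) φ) x)) = (∑ k, ∑ l,
        (I * (cu (L.A (q.c x)) (C.e (q.c x) x) ((W.W l).X (q.c x) (C.e (q.c x) x))
          ((W.W k).X (q.c x) (C.e (q.c x) x)) : ℂ) +
        (cu (L.A (q.c x)) (C.e (q.c x) x) ((W.W l).X (q.c x) (C.e (q.c x) x))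
          ((W.W k).J.X (q.c x) (C.e (q.c x) x)) : ℂ)) *
        q.val (Lo L (W.W k) φ) x * conj (q.val (Lo L (W.W l) φ) x)) / 2 := by
      rw [Finset.sum_comm, Finset.sum_div]
      refine Finset.sum_congr rfl fun k _ => ?_
      rw [Finset.sum_div]
      refine Finset.sum_congr rfl fun l _ => ?_
      show (I * _ + _) / 2 * q.val (Lo L (W.W k) φ) x * _ = _
      ring
    show K / 2 * ∑ l, ‖q.val (Lo L (W.W l) φ) x‖ ^ 2 ≤ -(∑ k, ∑ l,
      q.val (Hf L W k l (Lo L (W.W l) φ)) x * conj (q.val (Lo L (W.W k) φ) x)).re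
    rw [h6]
    have h7 : ∀ z : ℂ, (z / 2).re = z.re / 2 := fun z => by
      rw [show (2 : ℂ) = ((2 : ℝ) : ℂ) by norm_num, div_ofReal_re]
    rw [h7]
    linarith

/-- **Bochner-Kodaira estimate for exact forms** -/
theorem bk (hq : MCh q) (hC : C.Int) (hd : DvTr m) (hi : Ibp m q) (W : Frm C) :
    ∃ C0 : ℝ, 0 ≤ C0 ∧ ∀ (L : UB C) (K : ℝ), 0 ≤ K → L.PosK W K → ∀ φ ∈ Sec L,
      (K / 2 - C0) * dn2 m q W L φ ≤ n2 m q (Pop m W L φ) := by
  classical
  obtain ⟨b1, hb1, B1⟩ := exists_bd q (fun p : W.Λ × W.Λ × W.Λ => gS W p.1 p.2.1 p.2.2)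
  obtain ⟨b2, hb2, B2⟩ := exists_bd q (fun p : W.Λ × W.Λ × W.Λ =>
    (gS W p.1 p.2.1 p.2.2).mul (dl m hd (W.W p.2.2)))
  obtain ⟨b3, hb3, B3⟩ := exists_bd q (fun p : W.Λ × W.Λ × W.Λ =>
    ((gS W p.1 p.2.1 p.2.2).cj).Dc (W.W p.2.2))
  obtain ⟨b4, hb4, B4⟩ := exists_bd q (fun p : W.Λ × W.Λ => (dl m hd (W.W p.2)).Dc (W.W p.1))
  obtain ⟨b5, hb5, B5⟩ := exists_bd q (fun p : W.Λ × W.Λ × W.Λ => hS W p.1 p.2.1 p.2.2)
  obtain ⟨b6, hb6, B6⟩ := exists_bd q (fun p : W.Λ × W.Λ × W.Λ => (gS W p.1 p.2.1 p.2.2).cj)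
  set b := b1 + b2 + b3 + b4 + b5 + b6 with hb
  have hb0 : 0 ≤ b := by positivity
  refine ⟨((9 / 4 * b ^ 2 * ((Fintype.card W.Λ : ℝ) ^ 2 + 1)) +
      b * ((Fintype.card W.Λ : ℝ) + 1)) * (Fintype.card W.Λ : ℝ), by positivity, ?_⟩
  intro L K hK hP φ hφ
  set f : W.Λ → C.ι → EuclideanSpace ℝ (Fin N) → ℂ := fun l => Lo L (W.W l) φ with hf_def
  have hf : ∀ l, f l ∈ Sec L := fun l => Lo_mem _ hφ
  have hLf : ∀ k l, Lo L (W.W k) (f l) ∈ Sec L := fun k l => Lo_mem _ (hf l)
  set a : W.Λ → C.ι → EuclideanSpace ℝ (Fin N) → ℂ := fun l => La m L (W.W l) (f l) with ha_def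
  have ha : ∀ l, a l ∈ Sec L := fun l => La_mem hd _ (hf l)
  set x : W.Λ → ℝ := fun l => ‖tl m q (f l)‖ with hx_def
  set y : W.Λ → W.Λ → ℝ := fun k l => ‖tl m q (Lo L (W.W k) (f l))‖ with hy_def
  have hx0 : ∀ l, 0 ≤ x l := fun l => norm_nonneg _
  have hy0 : ∀ k l, 0 ≤ y k l := fun k l => norm_nonneg _
  -- the norm of P φ
  have eP : n2 m q (Pop m W L φ) = ∑ k, ∑ l, (ip m q (a l) (a k)).re := by
    have e1 : Pop m W L φ = ∑ l, a l := by
      funext i z; simp only [Pop, Finset.sum_apply]; rfl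
    rw [← norm_tl hq (Pop_mem hd W hφ), e1, tl_sum hq _ fun l _ => ha l]
    have e2 := inner_self_eq_norm_sq (𝕜 := ℂ) (∑ l, tl m q (a l))
    rw [← e2, sum_inner]
    simp only [inner_sum]
    rw [map_sum]
    refine Finset.sum_congr rfl fun k _ => ?_
    rw [map_sum]
    refine Finset.sum_congr rfl fun l _ => ?_
    rw [inner_tl hq (ha l) (ha k)]
    rfl
  have eD : dn2 m q W L φ = ∑ l, x l ^ 2 := by
    rw [dn2]
    exact Finset.sum_congr rfl fun l _ => (norm_tl hq (hf l)).symm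
  rw [eP, eD]
  refine num hb0 x y (fun k l => (ip m q (a l) (a k)).re)
    (fun k l => (ip m q (Lo L (W.W k) (f l)) (Lo L (W.W l) (f k))).re)
    (fun k l => (ip m q (Hf L W k l (f l)) (f k)).re) hx0 hy0 ?_ ?_ ?_
  · -- commutator terms
    intro k l
    have e1 : ip m q (a l) (a k) = ip m q (Lo L (W.W k) (a l)) (f k) :=
      (adj hd hi (W.W k) (ha l) (hf k)).symm
    have hT3 : ∀ n, (fun i z => (gS W k l n).f i z * La m L (W.W n) (f l) i z) ∈ Sec L :=
      fun n => mul_mem _ (La_mem hd _ (hf l))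
    have e2 := ip_expand (m := m) (q := q) (L := L) (S := Lo L (W.W k) (a l))
      (T1 := La m L (W.W l) (Lo L (W.W k) (f l)))
      (T5 := fun i z => ((dl m hd (W.W l)).Dc (W.W k)).f i z * f l i z)
      (T6 := Hf L W k l (f l)) (t := f k)
      (T2 := fun n i z => (gS W k l n).f i z * Lo L (W.W n) (f l) i z)
      (T3 := fun n i z => (gS W k l n).f i z * La m L (W.W n) (f l) i z)
      (T4 := fun n i z => ((gS W k l n).mul (dl m hd (W.W n))).f i z * f l i z)
      (La_mem hd _ (hLf k l)) (fun n => mul_mem _ (hLf n l)) hT3 (fun n => mul_mem _ (hf l))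
      (mul_mem _ (hf l)) (Hf_mem hd W k l (hf l)) (hf k)
      (fun i z hz => comm_La hd W k l (hf l) hz)
    have e3 : ip m q (La m L (W.W l) (Lo L (W.W k) (f l))) (f k) =
        ip m q (Lo L (W.W k) (f l)) (Lo L (W.W l) (f k)) := adj' hd hi _ (hLf k l) (hf k)
    -- bounds
    have c2 : ∀ n, ‖ip m q (fun i z => (gS W k l n).f i z * Lo L (W.W n) (f l) i z) (f k)‖ ≤
        b1 * y n l * x k := fun n => by
      refine (ip_le hq (mul_mem _ (hLf n l)) (hf k)).trans ?_
      exact mul_le_mul_of_nonneg_right (norm_tl_mul hq _ hb1 (B1 (k, l, n)) (hLf n l))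
        (norm_nonneg _)
    have c3 : ∀ n, ‖ip m q (fun i z => (gS W k l n).f i z * La m L (W.W n) (f l) i z) (f k)‖ ≤
        b6 * y n k * x l + b3 * (x k * x l) := fun n => by
      have g1 : ip m q (fun i z => (gS W k l n).f i z * La m L (W.W n) (f l) i z) (f k) =
          ip m q (La m L (W.W n) (f l)) (fun i z => ((gS W k l n).cj).f i z * f k i z) := by
        simp only [ip]
        refine integral_congr_ae (Eventually.of_forall fun p => ?_)
        simp only [Ch.val, Scl.cj, map_mul, conj_conj]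
        ring
      have hm : (fun i z => ((gS W k l n).cj).f i z * f k i z) ∈ Sec L := mul_mem _ (hf k)
      rw [g1, adj' hd hi _ (hf l) hm]
      have hm1 : (fun i z => ((gS W k l n).cj).f i z * Lo L (W.W n) (f k) i z) ∈ Sec L :=
        mul_mem _ (hLf n k)
      have hm2 : (fun i z => (((gS W k l n).cj).Dc (W.W n)).f i z * f k i z) ∈ Sec L :=
        mul_mem _ (hf k)
      have g2 : tl m q (Lo L (W.W n) (fun i z => ((gS W k l n).cj).f i z * f k i z)) =
          tl m q (fun i z => ((gS W k l n).cj).f i z * Lo L (W.W n) (f k) i z) +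
          tl m q (fun i z => (((gS W k l n).cj).Dc (W.W n)).f i z * f k i z) := by
        rw [← tl_add hq hm1 hm2]
        exact tl_congr hq (Lo_mem _ hm) ((Sec L).add_mem hm1 hm2)
          fun i z hz => Lo_mul (W.W n) _ (hf k) hz
      refine (ip_le hq (hf l) (Lo_mem _ hm)).trans ?_
      rw [g2]
      have g3 := norm_add_le (tl m q (fun i z => ((gS W k l n).cj).f i z *
        Lo L (W.W n) (f k) i z)) (tl m q (fun i z => (((gS W k l n).cj).Dc (W.W n)).f i z *
        f k i z))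
      have g4 := norm_tl_mul (m := m) hq ((gS W k l n).cj) hb6 (B6 (k, l, n)) (hLf n k)
      have g5 := norm_tl_mul (m := m) hq (((gS W k l n).cj).Dc (W.W n)) hb3 (B3 (k, l, n)) (hf k)
      calc ‖tl m q (f l)‖ * _ ≤ x l * (b6 * y n k + b3 * x k) :=
            mul_le_mul_of_nonneg_left (g3.trans (add_le_add g4 g5)) (hx0 l)
        _ = b6 * y n k * x l + b3 * (x k * x l) := by ring
    have c4 : ∀ n, ‖ip m q (fun i z => ((gS W k l n).mul (dl m hd (W.W n))).f i z * f l i z)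
        (f k)‖ ≤ b2 * (x k * x l) := fun n => by
      refine (ip_le hq (mul_mem _ (hf l)) (hf k)).trans ?_
      refine (mul_le_mul_of_nonneg_right (norm_tl_mul hq _ hb2 (B2 (k, l, n)) (hf l))
        (norm_nonneg _)).trans (le_of_eq ?_)
      show b2 * x l * x k = _
      ring
    have c5 : ‖ip m q (fun i z => ((dl m hd (W.W l)).Dc (W.W k)).f i z * f l i z) (f k)‖ ≤
        b4 * (x l * x k) := by
      refine (ip_le hq (mul_mem _ (hf l)) (hf k)).trans ?_
      refine (mul_le_mul_of_nonneg_right (norm_tl_mul hq _ hb4 (B4 (k, l)) (hf l))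
        (norm_nonneg _)).trans (le_of_eq ?_)
      show b4 * x l * x k = _
      ring
    show _ ≤ (ip m q (a l) (a k)).re
    rw [e1, e2, e3]
    simp only [sub_re, add_re, re_sum]
    -- sums
    have r2 : ∑ n, (ip m q (fun i z => (gS W k l n).f i z * Lo L (W.W n) (f l) i z) (f k)).re ≤
        b * (∑ n, y n l) * x k := by
      rw [Finset.mul_sum, Finset.sum_mul]
      refine Finset.sum_le_sum fun n _ => ?_
      refine ((Complex.re_le_norm _).trans (c2 n)).trans ?_
      have : b1 ≤ b := by rw [hb]; linarith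
      exact mul_le_mul_of_nonneg_right (mul_le_mul_of_nonneg_right this (hy0 n l)) (hx0 k)
    have r34 : -(b * ∑ n, (y n k * x l + x k * x l)) ≤
        ∑ n, (ip m q (fun i z => (gS W k l n).f i z * La m L (W.W n) (f l) i z) (f k)).re +
        ∑ n, (ip m q (fun i z => ((gS W k l n).mul (dl m hd (W.W n))).f i z * f l i z)
          (f k)).re := by
      rw [← Finset.sum_add_distrib, Finset.mul_sum, ← Finset.sum_neg_distrib]
      refine Finset.sum_le_sum fun n _ => ?_
      have u1 := re_ge (c3 n)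
      have u2 := re_ge (c4 n)
      have u3 : b6 * y n k * x l ≤ b * (y n k * x l) := by
        rw [mul_assoc]
        exact mul_le_mul_of_nonneg_right (by rw [hb]; linarith) (mul_nonneg (hy0 n k) (hx0 l))
      have u4 : (b3 + b2) * (x k * x l) ≤ b * (x k * x l) :=
        mul_le_mul_of_nonneg_right (by rw [hb]; linarith) (mul_nonneg (hx0 k) (hx0 l))
      linarith
    have r5 : (ip m q (fun i z => ((dl m hd (W.W l)).Dc (W.W k)).f i z * f l i z) (f k)).re ≤
        b * (x l * x k) := by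
      refine ((Complex.re_le_norm _).trans c5).trans ?_
      exact mul_le_mul_of_nonneg_right (by rw [hb]; linarith) (mul_nonneg (hx0 l) (hx0 k))
    linarith
  · -- symmetry of second derivatives
    intro k l
    have hm : ∀ n, (fun i z => (hS W k l n).f i z * f n i z) ∈ Sec L := fun n => mul_mem _ (hf n)
    have e1 : tl m q (Lo L (W.W l) (f k)) = tl m q (Lo L (W.W k) (f l)) -
        ∑ n, tl m q (fun i z => (hS W k l n).f i z * f n i z) := by
      rw [← tl_sum hq _ fun n _ => hm n, eq_sub_iff_add_eq,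
        ← tl_add hq (hLf l k) ((Sec L).sum_mem fun n _ => hm n)]
      refine tl_congr hq ((Sec L).add_mem (hLf l k) ((Sec L).sum_mem fun n _ => hm n)) (hLf k l)
        fun i z hz => ?_
      have h0 := comm_hS hC W k l hφ hz
      simp only [Pi.add_apply, Finset.sum_apply]
      show Lo L (W.W l) (Lo L (W.W k) φ) i z + _ = Lo L (W.W k) (Lo L (W.W l) φ) i z
      linear_combination (-1 : ℂ) * h0
    show _ ≤ (ip m q (Lo L (W.W k) (f l)) (Lo L (W.W l) (f k))).re
    rw [← inner_tl hq (hLf k l) (hLf l k), e1, inner_sub_left, sub_re]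
    have e2 := inner_self_eq_norm_sq (𝕜 := ℂ) (tl m q (Lo L (W.W k) (f l)))
    have e2' : (inner ℂ (tl m q (Lo L (W.W k) (f l))) (tl m q (Lo L (W.W k) (f l)))).re =
        y k l ^ 2 := e2
    rw [e2']
    have e3 : ‖inner ℂ (∑ n, tl m q (fun i z => (hS W k l n).f i z * f n i z))
        (tl m q (Lo L (W.W k) (f l)))‖ ≤ (b * ∑ n, x n) * y k l := by
      refine (norm_inner_le_norm _ _).trans (mul_le_mul_of_nonneg_right ?_ (norm_nonneg _))
      refine (norm_sum_le _ _).trans ?_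
      rw [Finset.mul_sum]
      refine Finset.sum_le_sum fun n _ => ?_
      refine (norm_tl_mul hq _ hb5 (B5 (k, l, n)) (hf n)).trans ?_
      exact mul_le_mul_of_nonneg_right (by rw [hb]; linarith) (norm_nonneg _)
    have e4 := (Complex.re_le_norm _).trans e3
    linarith
  · have h := pos_int (m := m) (q := q) hd W L hK hP hφ
    have e : ∀ l, x l ^ 2 = n2 m q (Lo L (W.W l) φ) := fun l => norm_tl hq (hf l)
    simp only [e]
    exact h

end

end Crest.Agent.R260.Kn_37
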