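import Crest.Agent.R260.ACM_580

/-!
# Row 260, K-NNF: sections of unitary line bundles over almost complex manifolds (helper37)

Everything lives in the real charts of `ACM_580.ACM`.

`tau C i j`  : transition maps;  `Fld C` : real vector fields;  `SmF C f` : smooth functions on `Z`
`UB C`       : unitary line bundle with unitary connection, curvature of type (1,1)
               (sections: `s_i = u i j * s_j`, covariant derivative `D s + i A s`)
`Sec L`      : smooth sections (submodule of the families);  `nab` : covariant derivative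
`Frm C`      : finite family of global fields `W l` with `v = ∑ om l (v) W l`
`Ch C`       : choice of a chart at every point (measurable), `val`: value in the chosen chart
`Ms C`       : smooth positive measure on `Z`
`Lop`, `Lad`, `Pop` : `L_l = (∇_{W_l} + i ∇_{J W_l})/2`, formal adjoints, `P = ∑ L_l^* L_l`
-/

set_option autoImplicit false

open Set Filter Topology Complex MeasureTheory
open scoped ContDiff ComplexConjugate

namespace Crest.Agent.R260.KnDefs_37

open Crest.Agent.R260.ACM_580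

noncomputable section

section Basic

variable {V Z : Type} [NormedAddCommGroup V] [NormedSpace ℝ V] [TopologicalSpace Z]

/-- transition map -/
def tau (C : ACM V Z) (i j : C.ι) (y : V) : V := C.e j ((C.e i).symm y)

/-- curl of a 1-form -/
def cu (A : V → V →L[ℝ] ℝ) (y v w : V) : ℝ := fderiv ℝ A y v w - fderiv ℝ A y w v

/-- Lie bracket in a chart -/
def br (X Y : V → V) (y : V) : V := fderiv ℝ Y y (X y) - fderiv ℝ X y (Y y)

/-- smooth complex function on `Z` -/
def SmF (C : ACM V Z) (f : Z → ℂ) : Prop :=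
  ∀ i, ContDiffOn ℝ ∞ (fun y => f ((C.e i).symm y)) (C.e i).target

/-- smooth real function on `Z` -/
def SmR (C : ACM V Z) (f : Z → ℝ) : Prop :=
  ∀ i, ContDiffOn ℝ ∞ (fun y => f ((C.e i).symm y)) (C.e i).target

/-- real vector field -/
structure Fld (C : ACM V Z) where
  X : C.ι → V → V
  sm : ∀ i, ContDiffOn ℝ ∞ (X i) (C.e i).target
  tr : ∀ i j, ∀ y ∈ C.ov i j, fderiv ℝ (tau C i j) y (X i y) = X j (tau C i j y)

/-- real 1-form -/
structure Frm1 (C : ACM V Z) where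
  w : C.ι → V → V →L[ℝ] ℝ
  sm : ∀ i, ContDiffOn ℝ ∞ (w i) (C.e i).target
  tr : ∀ i j, ∀ y ∈ C.ov i j, ∀ v, w j (tau C i j y) (fderiv ℝ (tau C i j) y v) = w i y v

/-- unitary line bundle with connection, curvature `cu A` of type (1,1) -/
structure UB (C : ACM V Z) where
  u : C.ι → C.ι → V → ℂ
  u_sm : ∀ i j, ContDiffOn ℝ ∞ (u i j) (C.ov i j)
  u_norm : ∀ i j, ∀ y ∈ C.ov i j, ‖u i j y‖ = 1
  u_mul : ∀ i j k, ∀ y ∈ C.ov i j, y ∈ C.ov i k → u i k y = u i j y * u j k (tau C i j y)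
  A : C.ι → V → V →L[ℝ] ℝ
  A_sm : ∀ i, ContDiffOn ℝ ∞ (A i) (C.e i).target
  A_tr : ∀ i j, ∀ y ∈ C.ov i j, ∀ v, fderiv ℝ (u i j) y v =
    I * ((A j (tau C i j y) (fderiv ℝ (tau C i j) y v) : ℂ) - (A i y v : ℂ)) * u i j y
  F11 : ∀ i, ∀ y ∈ (C.e i).target, ∀ v w,
    cu (A i) y (C.J i y v) (C.J i y w) = cu (A i) y v w

/-- powers `L ^ k` -/
def UB.pow {C : ACM V Z} (L : UB C) (k : ℕ) : UB C where
  u i j y := L.u i j y ^ k
  u_sm i j := (L.u_sm i j).pow k
  u_norm i j y hy := by rw [norm_pow, L.u_norm i j y hy, one_pow]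
  u_mul i j l y h1 h2 := by rw [L.u_mul i j l y h1 h2, mul_pow]
  A i y := (k : ℝ) • L.A i y
  A_sm i := (L.A_sm i).const_smul (k : ℝ)
  A_tr i j y hy v := by
    have hd : DifferentiableAt ℝ (L.u i j) y :=
      ((L.u_sm i j).contDiffAt ((C.isOpen_ov i j).mem_nhds hy)).differentiableAt (by simp)
    have h0 : L.u i j y ≠ 0 := by
      intro h; have := L.u_norm i j y hy; rw [h, norm_zero] at this; exact zero_ne_one this
    rcases Nat.eq_zero_or_pos k with rfl | hk
    · simp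
    · have h1 : HasFDerivAt (fun z => L.u i j z ^ k)
          ((k * L.u i j y ^ (k - 1)) • fderiv ℝ (L.u i j) y) y := by
        have := (hd.hasFDerivAt).pow k
        simpa [nsmul_eq_mul] using this
      rw [h1.fderiv]
      simp only [ContinuousLinearMap.smul_apply, smul_eq_mul, L.A_tr i j y hy v, ofReal_mul,
        ofReal_natCast]
      obtain ⟨m, rfl⟩ : ∃ m, k = m + 1 := ⟨k - 1, by omega⟩
      simp only [Nat.add_sub_cancel]
      push_cast
      ring
  F11 i y hy v w := by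
    have hd : DifferentiableAt ℝ (L.A i) y :=
      ((L.A_sm i).contDiffAt ((C.e i).open_target.mem_nhds hy)).differentiableAt (by simp)
    have := L.F11 i y hy v w
    have h1 : fderiv ℝ (fun z => (k : ℝ) • L.A i z) y = (k : ℝ) • fderiv ℝ (L.A i) y :=
      (hd.hasFDerivAt.const_smul (k : ℝ)).fderiv
    simp only [cu, h1, ContinuousLinearMap.smul_apply, smul_eq_mul] at this ⊢
    linear_combination (k : ℝ) * this

/-- smooth sections of `L` -/
def Sec {C : ACM V Z} (L : UB C) : Submodule ℂ (C.ι → V → ℂ) where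
  carrier := {s | (∀ i, ContDiffOn ℝ ∞ (s i) (C.e i).target) ∧
    ∀ i j, ∀ y ∈ C.ov i j, s i y = L.u i j y * s j (tau C i j y)}
  add_mem' := by
    rintro a b ⟨ha, ha'⟩ ⟨hb, hb'⟩
    refine ⟨fun i => (ha i).add (hb i), fun i j y hy => ?_⟩
    simp only [Pi.add_apply]
    rw [ha' i j y hy, hb' i j y hy]; ring
  zero_mem' := by
    refine ⟨fun i => contDiffOn_const, fun i j y hy => by simp⟩
  smul_mem' := by
    rintro c a ⟨ha, ha'⟩
    refine ⟨fun i => contDiffOn_const.mul (ha i), fun i j y hy => ?_⟩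
    simp only [Pi.smul_apply, smul_eq_mul]
    rw [ha' i j y hy]; ring

/-- covariant derivative in a chart -/
def nab (A : V → V →L[ℝ] ℝ) (X : V → V) (s : V → ℂ) (y : V) : ℂ :=
  fderiv ℝ s y (X y) + I * (A y (X y) : ℂ) * s y

/-- `∂̄` of a section in a chart, evaluated on the real vector `v` -/
def dbv (J : V → V →L[ℝ] V) (A : V → V →L[ℝ] ℝ) (s : V → ℂ) (y v : V) : ℂ :=
  (fderiv ℝ s y v + I * fderiv ℝ s y (J y v) +
    (I * (A y v : ℂ) - (A y (J y v) : ℂ)) * s y) / 2

/-- holomorphic section -/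
def Hol {C : ACM V Z} (L : UB C) (s : C.ι → V → ℂ) : Prop :=
  ∀ i, ∀ y ∈ (C.e i).target, ∀ v, dbv (C.J i) (L.A i) (s i) y v = 0

/-- finite global frame -/
structure Frm (C : ACM V Z) where
  Λ : Type
  fin : Fintype Λ
  W : Λ → Fld C
  om : Λ → Frm1 C
  span : ∀ i, ∀ y ∈ (C.e i).target, ∀ v, ∑ l, (om l).w i y v • (W l).X i y = v

attribute [instance] Frm.fin

/-- chart choice -/
structure Ch (C : ACM V Z) where
  c : Z → C.ι
  mem : ∀ x, x ∈ (C.e (c x)).source

/-- value of a family at a point, in the chosen chart -/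
def Ch.val {C : ACM V Z} (q : Ch C) (s : C.ι → V → ℂ) (x : Z) : ℂ := s (q.c x) (C.e (q.c x) x)

/-- positivity with constant `K`, relative to a frame: `F(Jv, v) ≥ K ∑ ω(v)²` -/
def UB.PosK {C : ACM V Z} (L : UB C) (W : Frm C) (K : ℝ) : Prop :=
  ∀ i, ∀ y ∈ (C.e i).target, ∀ v,
    K * ∑ l, (W.om l).w i y v ^ 2 ≤ cu (L.A i) y (C.J i y v) v

/-- the field `J X` -/
def Fld.J {C : ACM V Z} (X : Fld C) : Fld C where
  X i y := C.J i y (X.X i y)
  sm i := (C.J_sm i).clm_apply (X.sm i)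
  tr i j y hy := by
    rw [tau] at *
    have h1 := C.J_tr i j y hy.1 hy.2 (X.X i y)
    have h2 := X.tr i j y hy
    simp only [tau] at h2 ⊢
    rw [← h2]; exact h1

/-- covariant derivative along a field, on families -/
def nabF {C : ACM V Z} (L : UB C) (X : Fld C) (s : C.ι → V → ℂ) : C.ι → V → ℂ :=
  fun i y => nab (L.A i) (X.X i) (s i) y

/-- `L_X = (∇_X + i ∇_{JX})/2` -/
def Lo {C : ACM V Z} (L : UB C) (X : Fld C) (s : C.ι → V → ℂ) : C.ι → V → ℂ :=
  fun i y => (nabF L X s i y + I * nabF L X.J s i y) / 2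

/-- `(∇_X - i ∇_{JX})/2` -/
def Lb {C : ACM V Z} (L : UB C) (X : Fld C) (s : C.ι → V → ℂ) : C.ι → V → ℂ :=
  fun i y => (nabF L X s i y - I * nabF L X.J s i y) / 2

/-- positivity -/
def UB.Pos {C : ACM V Z} (L : UB C) : Prop :=
  ∀ i, ∀ y ∈ (C.e i).target, ∀ v, v ≠ 0 → 0 < cu (L.A i) y (C.J i y v) v

end Basic

section Meas

variable {N : ℕ} {Z : Type} [TopologicalSpace Z] [MeasurableSpace Z]

/-- smooth positive finite measure -/
structure Ms (C : ACM (EuclideanSpace ℝ (Fin N)) Z) where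
  μ : Measure Z
  fin : IsFiniteMeasure μ
  ρ : C.ι → EuclideanSpace ℝ (Fin N) → ℝ
  ρ_sm : ∀ i, ContDiffOn ℝ ∞ (ρ i) (C.e i).target
  ρ_pos : ∀ i, ∀ y ∈ (C.e i).target, 0 < ρ i y
  loc : ∀ i, μ.restrict (C.e i).source = Measure.map (C.e i).symm
    ((volume.restrict (C.e i).target).withDensity fun y => ENNReal.ofReal (ρ i y))

attribute [instance] Ms.fin

/-- divergence with respect to the density `ρ` -/
def dvg (ρ : EuclideanSpace ℝ (Fin N) → ℝ)
    (X : EuclideanSpace ℝ (Fin N) → EuclideanSpace ℝ (Fin N)) (y : EuclideanSpace ℝ (Fin N)) : ℝ :=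
  (∑ a, fderiv ℝ (fun z => ρ z * X z a) y (EuclideanSpace.single a 1)) / ρ y

variable {C : ACM (EuclideanSpace ℝ (Fin N)) Z}

/-- divergence of a field, as a scalar family -/
def Ms.dv (m : Ms C) (X : Fld C) : C.ι → EuclideanSpace ℝ (Fin N) → ℝ :=
  fun i y => dvg (m.ρ i) (X.X i) y

/-- formal adjoint of `Lo L X` -/
def La (m : Ms C) (L : UB C) (X : Fld C) (s : C.ι → EuclideanSpace ℝ (Fin N) → ℂ) :
    C.ι → EuclideanSpace ℝ (Fin N) → ℂ :=
  fun i y => -Lb L X s i y - ((m.dv X i y : ℂ) - I * (m.dv X.J i y : ℂ)) / 2 * s i y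

/-- `∂̄^* ∂̄` -/
def Pop (m : Ms C) (W : Frm C) (L : UB C) (s : C.ι → EuclideanSpace ℝ (Fin N) → ℂ) :
    C.ι → EuclideanSpace ℝ (Fin N) → ℂ :=
  fun i y => ∑ l, La m L (W.W l) (Lo L (W.W l) s) i y

/-- inner product (linear in the first variable) -/
def ip (m : Ms C) (q : Ch C) (s t : C.ι → EuclideanSpace ℝ (Fin N) → ℂ) : ℂ :=
  ∫ x, q.val s x * conj (q.val t x) ∂m.μ

/-- `‖s‖²` -/
def n2 (m : Ms C) (q : Ch C) (s : C.ι → EuclideanSpace ℝ (Fin N) → ℂ) : ℝ :=
  ∫ x, ‖q.val s x‖ ^ 2 ∂m.μ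

/-- `‖∂̄ s‖²` -/
def dn2 (m : Ms C) (q : Ch C) (W : Frm C) (L : UB C)
    (s : C.ι → EuclideanSpace ℝ (Fin N) → ℂ) : ℝ :=
  ∑ l, n2 m q (Lo L (W.W l) s)

end Meas

end

end Crest.Agent.R260.KnDefs_37
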