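import Mathlib

/-!
Row 260 (S0398), division AG, task LIN: the global part of #5156 (3)-(4) without divisors or degrees.

A tangent vector `X` along a curve `l` over `K ⊇ k(s)`, written in a splitting frame of the tangent
bundle of the `L`-torsor along `l`, which is regular at every place of `K/k`, has CONSTANT coordinates
in the degree-zero part of the frame.
-/

namespace Crest.Agent.R260.Lin_678

open Polynomial

universe u

section Const

variable {k : Type*} {K : Type*} [Field k] [Field K] [Algebra k K]

/-- An element of every valuation ring containing `k` is integral over `k`. -/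
theorem isIntegral_of_forall_val (x : K)
    (h : ∀ O : ValuationSubring K, (∀ c : k, algebraMap k K c ∈ O) → x ∈ O) :
    IsIntegral k x := by
  have h1 : x ∈ (⨅ V : {V : ValuationSubring K // (Set.range (algebraMap k K) : Set K) ⊆
      V.toSubring}, V.1.toSubring) := by
    rw [Subring.mem_iInf]
    rintro ⟨V, hV⟩
    exact h V fun c => hV ⟨c, rfl⟩
  rw [iInf_valuationSubring_superset] at h1
  have h2 : Subring.closure (Set.range (algebraMap k K)) = (algebraMap k K).range := by
    apply le_antisymm
    · rw [Subring.closure_le]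
      rintro _ ⟨c, rfl⟩
      exact ⟨c, rfl⟩
    · rintro _ ⟨c, rfl⟩
      exact Subring.subset_closure ⟨c, rfl⟩
  rw [h2] at h1
  have h3 : IsIntegral (algebraMap k K).range x := h1
  obtain ⟨p, hp, hpx⟩ := h3
  have hlift : p ∈ Polynomial.lifts (algebraMap k K).rangeRestrict := by
    rw [Polynomial.lifts_iff_coeff_lifts]
    intro n
    obtain ⟨y, hy⟩ := (algebraMap k K).rangeRestrict_surjective (p.coeff n)
    exact ⟨y, hy⟩
  obtain ⟨q, hq, hqd, hqm⟩ := Polynomial.lifts_and_natDegree_eq_and_monic hlift hp
  refine ⟨q, hqm, ?_⟩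
  rw [← hq, eval₂_map] at hpx
  exact hpx

/-- An element of every valuation ring containing the algebraically closed field `k` is in `k`. -/
theorem mem_range_of_forall_val [IsAlgClosed k] (x : K)
    (h : ∀ O : ValuationSubring K, (∀ c : k, algebraMap k K c ∈ O) → x ∈ O) :
    ∃ c : k, algebraMap k K c = x := by
  have hx := isIntegral_of_forall_val x h
  have h1 : (minpoly k x).degree = 1 :=
    IsAlgClosed.degree_eq_one_of_irreducible k (minpoly.irreducible hx)
  exact minpoly.mem_range_of_degree_eq_one k x h1

end Const

section Frames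

variable {K : Type*} [Field K]

/-- In a valuation ring: coordinates with respect to integral vectors which are independent over
the residue field are integral. -/
theorem val_coords (O : ValuationSubring K) {σ ι : Type*} [Fintype ι] (E : ι → σ → O)
    (hind : LinearIndependent (IsLocalRing.ResidueField O)
      (fun i (x : σ) => IsLocalRing.residue O (E i x)))
    (V : ι → K) (Y : σ → K) (hY : ∀ x, Y x ∈ O) (h : ∀ x, Y x = ∑ i, V i * (E i x : K)) :
    ∀ i, V i ∈ O := by
  classical
  by_contra hcon
  push Not at hcon
  obtain ⟨i₁, hi₁⟩ := hcon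
  -- index with maximal valuation
  obtain ⟨i₀, -, hi₀⟩ := Finset.exists_max_image Finset.univ (fun i => O.valuation (V i))
    ⟨i₁, Finset.mem_univ _⟩
  have hbig : 1 < O.valuation (V i₁) := by
    rw [← not_le, O.valuation_le_one_iff]; exact hi₁
  have hbig0 : 1 < O.valuation (V i₀) := lt_of_lt_of_le hbig (hi₀ i₁ (Finset.mem_univ _))
  have hV0 : V i₀ ≠ 0 := by
    intro h0
    rw [h0, map_zero] at hbig0
    exact absurd hbig0 (by simp)
  have hmem : ∀ i, V i / V i₀ ∈ O := fun i => by
    rw [← O.valuation_le_one_iff, map_div₀]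
    exact div_le_one_of_le₀ (hi₀ i (Finset.mem_univ _)) zero_le
  have hinv : (V i₀)⁻¹ ∈ O := by
    rw [← O.valuation_le_one_iff, map_inv₀]
    exact inv_le_one_of_one_le₀ hbig0.le
  -- the relation over the residue field
  let c : ι → O := fun i => ⟨V i / V i₀, hmem i⟩
  let r : O := ⟨(V i₀)⁻¹, hinv⟩
  have hr : IsLocalRing.residue O r = 0 := by
    rw [IsLocalRing.residue_eq_zero_iff]
    refine (ValuationSubring.valuation_lt_one_iff O r).2 ?_
    change O.valuation ((V i₀)⁻¹) < 1
    rw [map_inv₀]
    exact inv_lt_one_of_one_lt₀ hbig0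
  have hrel : ∀ x, ∑ i, c i * E i x = r * ⟨Y x, hY x⟩ := fun x => by
    apply Subtype.ext
    change ((∑ i, c i * E i x : O) : K) = (V i₀)⁻¹ * Y x
    rw [h x, Finset.mul_sum]
    rw [show ((∑ i, c i * E i x : O) : K) = ∑ i, ((c i * E i x : O) : K) from
      map_sum O.subtype _ _]
    refine Finset.sum_congr rfl fun i _ => ?_
    change V i / V i₀ * (E i x : K) = (V i₀)⁻¹ * (V i * (E i x : K))
    field_simp
  have hsum : ∑ i, IsLocalRing.residue O (c i) • (fun (x : σ) => IsLocalRing.residue O (E i x)) = 0 := by
    funext x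
    simp only [Finset.sum_apply, Pi.smul_apply, smul_eq_mul, Pi.zero_apply]
    have := congrArg (IsLocalRing.residue O) (hrel x)
    rw [map_sum, map_mul, hr, zero_mul] at this
    simpa only [map_mul] using this
  have h0 := (Fintype.linearIndependent_iff.1 hind) _ hsum i₀
  have h1 : c i₀ = 1 := by
    apply Subtype.ext
    change V i₀ / V i₀ = 1
    exact div_self hV0
  rw [h1, map_one] at h0
  exact one_ne_zero h0

end Frames

section Ind

variable {k : Type*} [Field k]

/-- independence at one point implies independence over the polynomial ring -/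
theorem linearIndependent_poly {σ ι : Type*} [Fintype ι] (e : ι → σ → k[X]) (c : k)
    (h : LinearIndependent k (fun i x => (e i x).eval c)) : LinearIndependent k[X] e := by
  rw [Fintype.linearIndependent_iff]
  have key : ∀ n : ℕ, ∀ p : ι → k[X], (∀ i, (p i).natDegree ≤ n) → ∑ i, p i • e i = 0 →
      ∀ i, p i = 0 := by
    intro n
    induction n with
    | zero =>
      intro p hp hsum i
      have hc : ∀ i, (p i).eval c = 0 := by
        apply Fintype.linearIndependent_iff.1 h
        funext x
        have := congrArg (fun f : σ → k[X] => (f x).eval c) hsum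
        simpa [eval_finsetSum] using this
      have h1 := hc i
      rw [Polynomial.eq_C_of_natDegree_le_zero (hp i), eval_C] at h1
      rw [Polynomial.eq_C_of_natDegree_le_zero (hp i), h1, C_0]
    | succ n ih =>
      intro p hp hsum
      have hc : ∀ i, (p i).eval c = 0 := by
        apply Fintype.linearIndependent_iff.1 h
        funext x
        have := congrArg (fun f : σ → k[X] => (f x).eval c) hsum
        simpa [eval_finsetSum] using this
      have hd : ∀ i, (X - C c) ∣ p i := fun i => dvd_iff_isRoot.2 (hc i)
      choose q hq using hd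
      have hq0 : ∀ i, q i = 0 := by
        apply ih q
        · intro i
          by_cases h0 : q i = 0
          · simp [h0]
          have := hp i
          rw [hq i, natDegree_mul (X_sub_C_ne_zero c) h0, natDegree_X_sub_C] at this
          omega
        · have h1 : (X - C c) • ∑ i, q i • e i = 0 := by
            rw [Finset.smul_sum, ← hsum]
            refine Finset.sum_congr rfl fun i _ => ?_
            rw [smul_smul, ← hq i]
          funext x
          have h2 := congrFun h1 x
          simp only [Pi.smul_apply, smul_eq_mul, Pi.zero_apply, mul_eq_zero] at h2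
          rcases h2 with h2 | h2
          · exact absurd h2 (X_sub_C_ne_zero c)
          · exact h2
      intro i
      rw [hq i, hq0 i, mul_zero]
  intro p hp
  exact key (Finset.univ.sup fun i => (p i).natDegree) p
    (fun i => Finset.le_sup (f := fun i => (p i).natDegree) (Finset.mem_univ i)) hp

/-- pointwise independence over the algebraically closed field `k` implies independence at every
point over every extension field. -/
theorem ind_of_pointwise [IsAlgClosed k] {σ ι : Type*} [Finite σ] [Fintype ι] (e : ι → σ → k[X])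
    (h : ∀ c : k, LinearIndependent k (fun i x => (e i x).eval c))
    {κ : Type*} [Field κ] [Algebra k κ] (s : κ) :
    LinearIndependent κ (fun i x => aeval s (e i x)) := by
  by_cases hs : IsAlgebraic k s
  · have hint : IsIntegral k s := hs.isIntegral
    obtain ⟨c, hc⟩ := minpoly.mem_range_of_degree_eq_one k s
      (IsAlgClosed.degree_eq_one_of_irreducible k (minpoly.irreducible hint))
    have h1 := (linearIndependent_algebraMap_comp_iff (R := k) (S := κ)).2 (h c)
    have h2 : (fun i x => aeval s (e i x)) =
        fun i => ⇑(algebraMap k κ) ∘ fun x => eval c (e i x) := by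
      funext i x
      rw [← hc, aeval_algebraMap_apply]
      rfl
    rw [h2]
    exact h1
  · have htr : Transcendental k s := hs
    let : Algebra k[X] κ := (aeval s : k[X] →ₐ[k] κ).toRingHom.toAlgebra
    have hinj : Function.Injective (algebraMap k[X] κ) :=
      transcendental_iff_injective.1 htr
    have : FaithfulSMul k[X] κ := (faithfulSMul_iff_algebraMap_injective _ _).2 hinj
    exact (linearIndependent_algebraMap_comp_iff (R := k[X]) (S := κ)).2
      (linearIndependent_poly e 0 (h 0))

end Ind

section Main

variable {k : Type*} [Field k]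

/-- splitting frame (degrees `a i`) of a lattice along a curve whose coordinate `x` has
degree `d x`: `e i` is a section of degree `-a i`. -/
structure IsFrame {σ ι : Type*} (d : σ → ℕ) (a : ι → ℕ) (e : ι → σ → k[X]) : Prop where
  deg : ∀ i x, e i x ≠ 0 → (e i x).natDegree + a i ≤ d x
  ind : ∀ c : k, LinearIndependent k (fun i x => (e i x).eval c)
  inf : LinearIndependent k (fun i x => (e i x).coeff (d x - a i))

/-- regularity of `Y : σ → K` at all places of `K/k`, in the lattice of weights `d`. -/
def RegAll (k : Type*) [Field k] {K : Type*} [Field K] [Algebra k K] {σ : Type*} (d : σ → ℕ)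
    (s : K) (Y : σ → K) : Prop :=
  ∀ O : ValuationSubring K, (∀ c : k, algebraMap k K c ∈ O) →
    (s ∈ O → ∀ x, Y x ∈ O) ∧ (s ∉ O → ∀ x, Y x * s⁻¹ ^ d x ∈ O)

variable {K : Type*} [Field K] [Algebra k K]

theorem aeval_mem (O : ValuationSubring K) (hO : ∀ c : k, algebraMap k K c ∈ O) {s : K}
    (hs : s ∈ O) (p : k[X]) : aeval s p ∈ O := by
  rw [aeval_eq_sum_range]
  refine sum_mem fun i _ => ?_
  rw [Algebra.smul_def]
  exact mul_mem (hO _) (pow_mem hs _)

variable [IsAlgClosed k] {σ ι : Type*} [Finite σ] [Fintype ι] {d : σ → ℕ} {a : ι → ℕ}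
  {e : ι → σ → k[X]}

/-- the coordinates at a finite place -/
theorem coords_fin (hF : IsFrame d a e) {s : K} {W : ι → K} {Y : σ → K}
    (hY : ∀ x, Y x = ∑ i, W i * aeval s (e i x)) (O : ValuationSubring K)
    (hO : ∀ c : k, algebraMap k K c ∈ O) (hs : s ∈ O) (hreg : ∀ x, Y x ∈ O) : ∀ i, W i ∈ O := by
  let kO : k →+* O := (algebraMap k K).codRestrict O.toSubring hO
  let : Algebra k (IsLocalRing.ResidueField O) := ((IsLocalRing.residue O).comp kO).toAlgebra
  let s' : O := ⟨s, hs⟩
  let E : ι → σ → O := fun i x => ⟨aeval s (e i x), aeval_mem O hO hs _⟩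
  have hE : ∀ i x, IsLocalRing.residue O (E i x) =
      aeval (IsLocalRing.residue O s') (e i x) := fun i x => by
    have h1 : E i x = eval₂ kO s' (e i x) := by
      apply Subtype.ext
      change aeval s (e i x) = O.subtype (eval₂ kO s' (e i x))
      rw [hom_eval₂]
      rfl
    rw [h1, hom_eval₂]
    rfl
  refine val_coords O E ?_ W Y hreg hY
  have h2 := ind_of_pointwise e hF.ind (κ := IsLocalRing.ResidueField O)
    (IsLocalRing.residue O s')
  have h3 : (fun i (x : σ) => IsLocalRing.residue O (E i x)) =
      fun i x => aeval (IsLocalRing.residue O s') (e i x) := by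
    funext i x; exact hE i x
  rw [h3]
  exact h2

/-- the coordinates at a place over infinity -/
theorem coords_inf (hF : IsFrame d a e) {s : K} {W : ι → K} {Y : σ → K}
    (hY : ∀ x, Y x = ∑ i, W i * aeval s (e i x)) (O : ValuationSubring K)
    (hO : ∀ c : k, algebraMap k K c ∈ O) (hs : s ∉ O) (hreg : ∀ x, Y x * s⁻¹ ^ d x ∈ O) :
    ∀ i, W i * s⁻¹ ^ a i ∈ O := by
  have hs0 : s ≠ 0 := fun h => hs (h ▸ zero_mem O)
  have hu : s⁻¹ ∈ O := (O.mem_or_inv_mem s).resolve_left hs
  let kO : k →+* O := (algebraMap k K).codRestrict O.toSubring hO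
  let : Algebra k (IsLocalRing.ResidueField O) := ((IsLocalRing.residue O).comp kO).toAlgebra
  let u' : O := ⟨s⁻¹, hu⟩
  have hu0 : IsLocalRing.residue O u' = 0 := by
    rw [IsLocalRing.residue_eq_zero_iff]
    refine (ValuationSubring.valuation_lt_one_iff O u').2 ?_
    change O.valuation (s⁻¹) < 1
    rw [map_inv₀]
    refine inv_lt_one_of_one_lt₀ ?_
    rw [← not_le, O.valuation_le_one_iff]; exact hs
  let r : ι → σ → k[X] := fun i x => reflect (d x - a i) (e i x)
  have hr : ∀ i x, s⁻¹ ^ a i * aeval s⁻¹ (r i x) = aeval s (e i x) * s⁻¹ ^ d x := fun i x => by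
    by_cases h0 : e i x = 0
    · simp [r, h0]
    have hd := hF.deg i x h0
    let : Invertible s := invertibleOfNonzero hs0
    have h1 : eval₂ (algebraMap k K) (⅟s) (reflect (d x - a i) (e i x)) * s ^ (d x - a i) =
        eval₂ (algebraMap k K) s (e i x) :=
      eval₂_reflect_mul_pow (algebraMap k K) s (d x - a i) (e i x) (by omega)
    rw [invOf_eq_inv] at h1
    have h2 : aeval s (e i x) = aeval s⁻¹ (r i x) * s ^ (d x - a i) := h1.symm
    rw [h2, mul_assoc, mul_comm (s⁻¹ ^ a i), show d x = (d x - a i) + a i by omega, pow_add,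
      show d x - a i + a i - a i = d x - a i by omega, ← mul_assoc (s ^ (d x - a i)), ← mul_pow,
      mul_inv_cancel₀ hs0, one_pow, one_mul]
  let E : ι → σ → O := fun i x => ⟨aeval s⁻¹ (r i x), aeval_mem O hO hu _⟩
  have hE : ∀ i x, IsLocalRing.residue O (E i x) =
      algebraMap k (IsLocalRing.ResidueField O) ((e i x).coeff (d x - a i)) := fun i x => by
    have h1 : E i x = eval₂ kO u' (r i x) := by
      apply Subtype.ext
      change aeval s⁻¹ (r i x) = O.subtype (eval₂ kO u' (r i x))
      rw [hom_eval₂]
      rfl
    rw [h1, hom_eval₂, hu0, eval₂_at_zero]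
    have h2 : (r i x).coeff 0 = (e i x).coeff (d x - a i) := by
      simp only [r, coeff_reflect, revAt_zero]
    rw [h2]
    rfl
  refine val_coords O E ?_ (fun i => W i * s⁻¹ ^ a i) (fun x => Y x * s⁻¹ ^ d x) hreg ?_
  · have h2 := (linearIndependent_algebraMap_comp_iff (R := k)
      (S := IsLocalRing.ResidueField O)).2 hF.inf
    have h3 : (fun i (x : σ) => IsLocalRing.residue O (E i x)) =
        fun i => ⇑(algebraMap k (IsLocalRing.ResidueField O)) ∘
          fun x => (e i x).coeff (d x - a i) := by
      funext i x; exact hE i x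
    rw [h3]
    exact h2
  · intro x
    change Y x * s⁻¹ ^ d x = ∑ i, W i * s⁻¹ ^ a i * aeval s⁻¹ (r i x)
    rw [hY x, Finset.sum_mul]
    refine Finset.sum_congr rfl fun i _ => ?_
    rw [mul_assoc, ← hr i x, mul_assoc]

/-- **constant coordinates**: a tangent vector along `l` which is regular at every place has
constant coordinates in the degree `0` part of the frame. -/
theorem coords_const (hF : IsFrame d a e) {s : K} {W : ι → K} {Y : σ → K}
    (hY : ∀ x, Y x = ∑ i, W i * aeval s (e i x)) (hreg : RegAll k d s Y) {i : ι} (hi : a i = 0) :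
    ∃ c : k, algebraMap k K c = W i := by
  refine mem_range_of_forall_val (W i) fun O hO => ?_
  by_cases hs : s ∈ O
  · exact coords_fin hF hY O hO hs ((hreg O hO).1 hs) i
  · have := coords_inf hF hY O hO hs ((hreg O hO).2 hs) i
    rwa [hi, pow_zero, mul_one] at this

/-- **LIN**, global part: the value on `Y` of a form which vanishes on the positive part of the
frame and has degree `≤ 1` on the degree `0` part is a polynomial of degree `≤ 1` over `k`. -/
theorem lin (hF : IsFrame d a e) {s : K} {W : ι → K} {Y : σ → K}
    (hY : ∀ x, Y x = ∑ i, W i * aeval s (e i x)) (hreg : RegAll k d s Y)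
    (g : ι → k[X]) (hg : ∀ i, a i ≠ 0 → g i = 0) (m : ℕ) (hg1 : ∀ i, a i = 0 → (g i).natDegree ≤ m) :
    ∃ φ : k[X], φ.natDegree ≤ m ∧ ∑ i, W i * aeval s (g i) = aeval s φ := by
  classical
  have h : ∀ i, ∃ c : k, W i * aeval s (g i) = aeval s (C c * g i) := fun i => by
    by_cases hi : a i = 0
    · obtain ⟨c, hc⟩ := coords_const hF hY hreg hi
      exact ⟨c, by rw [map_mul, aeval_C, hc]⟩
    · exact ⟨0, by rw [hg i hi]; simp⟩
  choose c hc using h
  refine ⟨∑ i, C (c i) * g i, ?_, ?_⟩
  · refine natDegree_sum_le_of_forall_le _ _ fun i _ => ?_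
    by_cases hi : a i = 0
    · exact (natDegree_C_mul_le _ _).trans (hg1 i hi)
    · rw [hg i hi]; simp
  · rw [map_sum]
    exact Finset.sum_congr rfl fun i _ => hc i

end Main

end Crest.Agent.R260.Lin_678
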