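import Mathlib

/-!
Linear algebra of a complex structure `J0` on a real vector space: `ℂ`-linear coordinates.
-/

set_option autoImplicit false
set_option linter.style.haveILetI false
set_option linter.unusedSimpArgs false

namespace Crest.Agent.R260.LinJ_664

open Module
open scoped InnerProductSpace

section general

variable {V : Type*} [AddCommGroup V] [Module ℝ V]

/-- a real linear map with square `-1` gives complex-linear coordinates. -/
theorem exists_linearEquiv [FiniteDimensional ℝ V] {n : ℕ} (hn : finrank ℝ V = 2 * n)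
    (J : V →ₗ[ℝ] V) (hJ : ∀ v, J (J v) = -v) :
    ∃ e : V ≃ₗ[ℝ] (Fin n → ℂ), ∀ v k, e (J v) k = Complex.I * e v k := by
  have hJ2 : (J : Module.End ℝ V) * J = -1 := by
    ext v; exact hJ v
  let F : ℂ →ₐ[ℝ] Module.End ℝ V := Complex.liftAux J hJ2
  letI : Module ℂ V := Module.compHom V F.toRingHom
  have hsm : ∀ (c : ℂ) (v : V), c • v = F c v := fun c v => rfl
  have hF : ∀ (c : ℂ) (v : V), F c v = c.re • v + c.im • J v := by
    intro c v
    simp [F, Complex.liftAux_apply, Algebra.algebraMap_eq_smul_one]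
  haveI : IsScalarTower ℝ ℂ V := by
    refine ⟨fun r c v => ?_⟩
    rw [hsm, hsm, hF, hF]
    simp only [Complex.real_smul, Complex.mul_re, Complex.ofReal_re, Complex.ofReal_im, zero_mul,
      sub_zero, Complex.mul_im, add_zero, smul_add, smul_smul]
  haveI : FiniteDimensional ℂ V := FiniteDimensional.right ℝ ℂ V
  have h1 : finrank ℂ V = n := by
    have h2 := Module.finrank_mul_finrank ℝ ℂ V
    rw [Complex.finrank_real_complex] at h2
    omega
  let b : Basis (Fin n) ℂ V := Module.finBasisOfFinrankEq ℂ V h1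
  refine ⟨b.equivFun.restrictScalars ℝ, fun v k => ?_⟩
  have h3 : J v = Complex.I • v := by
    rw [hsm, hF]; simp
  simp only [LinearEquiv.restrictScalars_apply]
  rw [h3, map_smul]
  simp

end general

section normed

variable {V : Type*} [NormedAddCommGroup V] [NormedSpace ℝ V] [FiniteDimensional ℝ V]

/-- complex coordinates on a finite dimensional real normed space with a complex structure. -/
theorem exists_clequiv {n : ℕ} (hn : finrank ℝ V = 2 * n)
    (J : V →L[ℝ] V) (hJ : ∀ v, J (J v) = -v) :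
    ∃ e : V ≃L[ℝ] EuclideanSpace ℂ (Fin n), ∀ v, e (J v) = Complex.I • e v := by
  obtain ⟨e, he⟩ := exists_linearEquiv hn (J : V →ₗ[ℝ] V) hJ
  refine ⟨(e.trans (WithLp.linearEquiv 2 ℝ (Fin n → ℂ)).symm).toContinuousLinearEquiv,
    fun v => ?_⟩
  ext k
  simpa using he v k

/-- **(P2)** the `n` functionals `ξ_k` with `ξ_k ∘ J = i ξ_k`, jointly bijective. -/
theorem exists_functionals {n : ℕ} (hn : finrank ℝ V = 2 * n)
    (J : V →L[ℝ] V) (hJ : ∀ v, J (J v) = -v) :
    ∃ ξ : Fin n → (V →L[ℝ] ℂ), (∀ k v, ξ k (J v) = Complex.I * ξ k v) ∧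
      Function.Bijective (fun v : V => (WithLp.toLp 2 (fun k => ξ k v) :
        EuclideanSpace ℂ (Fin n))) ∧
      ∃ e : V ≃L[ℝ] EuclideanSpace ℂ (Fin n), ∀ v k, e v k = ξ k v := by
  obtain ⟨e, he⟩ := exists_clequiv hn J hJ
  let ξ : Fin n → (V →L[ℝ] ℂ) := fun k =>
    ((EuclideanSpace.proj k : EuclideanSpace ℂ (Fin n) →L[ℂ] ℂ).restrictScalars ℝ).comp
      (e : V →L[ℝ] EuclideanSpace ℂ (Fin n))
  have hξ : ∀ v k, e v k = ξ k v := fun v k => rfl
  refine ⟨ξ, fun k v => ?_, ?_, e, hξ⟩
  · rw [← hξ, ← hξ, he v]; simp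
  · have h1 : (fun v : V => (WithLp.toLp 2 (fun k => ξ k v) : EuclideanSpace ℂ (Fin n))) = e := by
      ext v k
      exact (hξ v k).symm
    rw [h1]
    exact e.bijective

end normed

section inner

variable {V : Type*} [NormedAddCommGroup V] [InnerProductSpace ℝ V]

theorem inner_J_J {J : V →L[ℝ] V} (hn : ∀ v, ‖J v‖ = ‖v‖) (x y : V) :
    ⟪J x, J y⟫_ℝ = ⟪x, y⟫_ℝ := by
  have h := (LinearIsometry.mk (J : V →ₗ[ℝ] V) hn).inner_map_map x y
  exact h

theorem inner_J_left {J : V →L[ℝ] V} (hJ : ∀ v, J (J v) = -v) (hn : ∀ v, ‖J v‖ = ‖v‖) (x y : V) :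
    ⟪J x, y⟫_ℝ = -⟪x, J y⟫_ℝ := by
  have h := inner_J_J hn x (J y)
  rw [hJ, inner_neg_right] at h
  linarith

theorem inner_J_self {J : V →L[ℝ] V} (hJ : ∀ v, J (J v) = -v) (hn : ∀ v, ‖J v‖ = ‖v‖) (x : V) :
    ⟪x, J x⟫_ℝ = 0 := by
  have h := inner_J_left hJ hn x x
  rw [real_inner_comm] at h
  linarith

/-- isometric version, `J` orthogonal. -/
theorem exists_isometry [FiniteDimensional ℝ V] {n : ℕ} (hn : finrank ℝ V = 2 * n)
    (J : V →L[ℝ] V) (hJ : ∀ v, J (J v) = -v) (hJn : ∀ v, ‖J v‖ = ‖v‖) :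
    ∃ e : V ≃ₗᵢ[ℝ] EuclideanSpace ℂ (Fin n), ∀ v, e (J v) = Complex.I • e v := by
  have hJ2 : ((J : V →ₗ[ℝ] V) : Module.End ℝ V) * (J : V →ₗ[ℝ] V) = -1 := by
    ext v; exact hJ v
  let F : ℂ →ₐ[ℝ] Module.End ℝ V := Complex.liftAux (J : V →ₗ[ℝ] V) hJ2
  letI iM : Module ℂ V := Module.compHom V F.toRingHom
  have hsm : ∀ (c : ℂ) (v : V), c • v = F c v := fun c v => rfl
  have hF : ∀ (c : ℂ) (v : V), F c v = c.re • v + c.im • J v := by
    intro c v
    simp [F, Complex.liftAux_apply, Algebra.algebraMap_eq_smul_one]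
  haveI : IsScalarTower ℝ ℂ V := by
    refine ⟨fun r c v => ?_⟩
    rw [hsm, hsm, hF, hF]
    simp only [Complex.real_smul, Complex.mul_re, Complex.ofReal_re, Complex.ofReal_im, zero_mul,
      sub_zero, Complex.mul_im, add_zero, smul_add, smul_smul]
  haveI : FiniteDimensional ℂ V := FiniteDimensional.right ℝ ℂ V
  have h1 : finrank ℂ V = n := by
    have h2 := Module.finrank_mul_finrank ℝ ℂ V
    rw [Complex.finrank_real_complex] at h2
    omega
  have hnorm : ∀ (c : ℂ) (v : V), ‖c • v‖ = ‖c‖ * ‖v‖ := by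
    intro c v
    have h3 : ‖c • v‖ ^ 2 = (‖c‖ * ‖v‖) ^ 2 := by
      rw [hsm, hF, norm_add_sq_real, norm_smul, norm_smul, inner_smul_left, inner_smul_right,
        inner_J_self hJ hJn, hJn, mul_pow ‖c‖, Complex.sq_norm, Complex.normSq_apply]
      simp only [Real.norm_eq_abs, mul_pow, sq_abs]
      ring
    exact (pow_left_inj₀ (norm_nonneg _) (by positivity) two_ne_zero).1 h3
  letI iN : NormedSpace ℂ V := { iM with norm_smul_le := fun c v => (hnorm c v).le }
  letI iI : InnerProductSpace ℂ V :=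
    { inner := fun x y => (⟪x, y⟫_ℝ : ℂ) - Complex.I * (⟪x, J y⟫_ℝ : ℂ)
      norm_sq_eq_re_inner := by
        intro x
        rw [inner_J_self hJ hJn, real_inner_self_eq_norm_sq]
        simp [← Complex.ofReal_pow]
      conj_inner_symm := by
        intro x y
        rw [map_sub, map_mul, Complex.conj_ofReal, Complex.conj_ofReal, Complex.conj_I,
          real_inner_comm x y, real_inner_comm (J x) y, inner_J_left hJ hJn x y]
        push_cast
        ring
      add_left := by
        intro x y z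
        rw [inner_add_left, inner_add_left]
        push_cast
        ring
      smul_left := by
        intro x y c
        change ((⟪c • x, y⟫_ℝ : ℂ) - Complex.I * (⟪c • x, J y⟫_ℝ : ℂ)) = _
        rw [hsm, hF, inner_add_left, inner_add_left, inner_smul_left, inner_smul_left,
          inner_smul_left, inner_smul_left, inner_J_J hJn, inner_J_left hJ hJn x y]
        apply Complex.ext <;> simp <;> ring }
  let b := (stdOrthonormalBasis ℂ V).reindex (finCongr h1)
  refine ⟨{ toLinearEquiv := b.repr.toLinearEquiv.restrictScalars ℝ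
            norm_map' := fun v => b.repr.norm_map v }, fun v => ?_⟩
  have h3 : J v = Complex.I • v := by
    rw [hsm, hF]; simp
  change b.repr (J v) = Complex.I • b.repr v
  rw [h3, map_smul]

/-- a real inner product space of dimension `2 n` is isometric to `ℂ^n` (as a real space). -/
theorem exists_isometry_std [FiniteDimensional ℝ V] {n : ℕ} (hn : finrank ℝ V = 2 * n) :
    Nonempty (V ≃ₗᵢ[ℝ] EuclideanSpace ℂ (Fin n)) := by
  have h0 : FiniteDimensional ℝ (EuclideanSpace ℂ (Fin n)) :=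
    FiniteDimensional.complexToReal _
  have h1 : finrank ℝ V = finrank ℝ (EuclideanSpace ℂ (Fin n)) := by
    rw [hn, finrank_real_of_complex]
    simp
  exact ⟨(stdOrthonormalBasis ℝ V).equiv (stdOrthonormalBasis ℝ (EuclideanSpace ℂ (Fin n)))
    (finCongr h1)⟩

end inner

end Crest.Agent.R260.LinJ_664
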