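import Mathlib

/-!
# Row 260 (S0398), Moebius library part 1 (helper919): binary forms and linear substitutions

`hev N s t f = ∑_{n ≤ N} f_n s^n t^(N-n)` : value of the form of degree `N` attached to `f` at
`[s : t]` (in any algebra); `mob N a b c d f = (c X + d)^N f ((a X + b) / (c X + d))`.
-/

set_option autoImplicit false

namespace Crest.Agent.R260.Mob_919

open Polynomial

universe u v

section basic

variable {R : Type u} [CommRing R] {A : Type v} [CommRing A] [Algebra R A]

/-- value at `[s : t]` of the binary form of degree `N` attached to `f`. -/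
noncomputable def hev (N : ℕ) (s t : A) (f : R[X]) : A :=
  ∑ n ∈ Finset.range (N + 1), algebraMap R A (f.coeff n) * s ^ n * t ^ (N - n)

theorem hev_add (N : ℕ) (s t : A) (f g : R[X]) : hev N s t (f + g) = hev N s t f + hev N s t g := by
  simp only [hev, coeff_add, map_add, add_mul, Finset.sum_add_distrib]

@[simp] theorem hev_zero (N : ℕ) (s t : A) : hev N s t (0 : R[X]) = 0 := by
  simp [hev]

theorem hev_C_mul (N : ℕ) (s t : A) (r : R) (f : R[X]) :
    hev N s t (C r * f) = algebraMap R A r * hev N s t f := by
  simp only [hev, coeff_C_mul, map_mul, Finset.mul_sum]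
  exact Finset.sum_congr rfl fun _ _ => by ring

theorem hev_neg (N : ℕ) (s t : A) (f : R[X]) : hev N s t (-f) = -hev N s t f := by
  simp only [hev, coeff_neg, map_neg, neg_mul, Finset.sum_neg_distrib]

theorem hev_sub (N : ℕ) (s t : A) (f g : R[X]) : hev N s t (f - g) = hev N s t f - hev N s t g := by
  rw [sub_eq_add_neg, hev_add, hev_neg, ← sub_eq_add_neg]

theorem hev_sum {ι : Type*} (N : ℕ) (s t : A) (S : Finset ι) (f : ι → R[X]) :
    hev N s t (∑ i ∈ S, f i) = ∑ i ∈ S, hev N s t (f i) := by
  classical
  induction S using Finset.induction_on with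
  | empty => simp
  | insert i S hi ih => rw [Finset.sum_insert hi, Finset.sum_insert hi, hev_add, ih]

theorem hev_monomial {N n : ℕ} (hn : n ≤ N) (s t : A) (r : R) :
    hev N s t (monomial n r) = algebraMap R A r * s ^ n * t ^ (N - n) := by
  unfold hev
  rw [Finset.sum_eq_single n]
  · rw [coeff_monomial, if_pos rfl]
  · intro m _ hm
    rw [coeff_monomial, if_neg (Ne.symm hm), map_zero, zero_mul, zero_mul]
  · intro h
    exact absurd (Finset.mem_range.2 (Nat.lt_succ_of_le hn)) h

/-- multiplicativity. -/
theorem hev_mul {N M : ℕ} (s t : A) {f g : R[X]} (hf : f.natDegree ≤ N) (hg : g.natDegree ≤ M) :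
    hev (N + M) s t (f * g) = hev N s t f * hev M s t g := by
  have ef := f.as_sum_range' (N + 1) (Nat.lt_succ_of_le hf)
  have eg := g.as_sum_range' (M + 1) (Nat.lt_succ_of_le hg)
  have h1 : f * g = ∑ n ∈ Finset.range (N + 1), ∑ m ∈ Finset.range (M + 1),
      monomial (n + m) (f.coeff n * g.coeff m) := by
    conv_lhs => rw [ef, eg]
    rw [Finset.sum_mul_sum]
    exact Finset.sum_congr rfl fun n _ => Finset.sum_congr rfl fun m _ => by
      rw [monomial_mul_monomial]
  rw [h1, hev_sum]
  simp only [hev_sum]
  unfold hev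
  rw [Finset.sum_mul_sum]
  refine Finset.sum_congr rfl fun n hn => Finset.sum_congr rfl fun m hm => ?_
  have hn' := Nat.lt_succ_iff.1 (Finset.mem_range.1 hn)
  have hm' := Nat.lt_succ_iff.1 (Finset.mem_range.1 hm)
  have h2 := hev_monomial (add_le_add hn' hm') s t (f.coeff n * g.coeff m)
  unfold hev at h2
  rw [h2, map_mul]
  have e : N + M - (n + m) = (N - n) + (M - m) := by omega
  rw [e, pow_add, pow_add]; ring

theorem hev_one (s t : A) (a b : R) :
    hev 1 s t (C a * X + C b) = algebraMap R A a * s + algebraMap R A b * t := by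
  have h1 : (C a * X + C b : R[X]) = monomial 1 a + monomial 0 b := by
    rw [← C_mul_X_pow_eq_monomial, pow_one, monomial_zero_left]
  rw [h1, hev_add, hev_monomial le_rfl, hev_monomial (Nat.zero_le 1)]
  simp

theorem hev_C (s t : A) (r : R) : hev 0 s t (C r) = algebraMap R A r := by
  rw [← monomial_zero_left, hev_monomial le_rfl]; simp

theorem natDegree_lin_le (a b : R) : (C a * X + C b : R[X]).natDegree ≤ 1 :=
  natDegree_linear_le

theorem hev_pow (s t : A) (a b : R) (n : ℕ) :
    hev n s t ((C a * X + C b) ^ n) = (algebraMap R A a * s + algebraMap R A b * t) ^ n := by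
  induction n with
  | zero =>
    have := hev_C (A := A) s t (1 : R)
    simpa using this
  | succ n ih =>
    have hd : ((C a * X + C b : R[X]) ^ n).natDegree ≤ n := by
      have := natDegree_pow_le_of_le n (natDegree_lin_le a b)
      simpa using this
    rw [pow_succ, hev_mul s t hd (natDegree_lin_le a b), ih, hev_one, pow_succ]

/-- `(c X + d)^N f ((a X + b) / (c X + d))`. -/
noncomputable def mob (N : ℕ) (a b c d : R) (f : R[X]) : R[X] :=
  hev N (C a * X + C b : R[X]) (C c * X + C d) f

theorem mob_def (N : ℕ) (a b c d : R) (f : R[X]) :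
    mob N a b c d f = ∑ n ∈ Finset.range (N + 1),
      C (f.coeff n) * (C a * X + C b) ^ n * (C c * X + C d) ^ (N - n) := rfl

theorem mob_add (N : ℕ) (a b c d : R) (f g : R[X]) :
    mob N a b c d (f + g) = mob N a b c d f + mob N a b c d g := hev_add ..

theorem mob_C_mul (N : ℕ) (a b c d r : R) (f : R[X]) :
    mob N a b c d (C r * f) = C r * mob N a b c d f := hev_C_mul ..

@[simp] theorem mob_zero (N : ℕ) (a b c d : R) : mob N a b c d 0 = 0 := hev_zero ..

theorem mob_sub (N : ℕ) (a b c d : R) (f g : R[X]) :
    mob N a b c d (f - g) = mob N a b c d f - mob N a b c d g := hev_sub ..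

theorem mob_sum {ι : Type*} (N : ℕ) (a b c d : R) (S : Finset ι) (f : ι → R[X]) :
    mob N a b c d (∑ i ∈ S, f i) = ∑ i ∈ S, mob N a b c d (f i) := hev_sum ..

theorem mob_mul {N M : ℕ} (a b c d : R) {f g : R[X]} (hf : f.natDegree ≤ N)
    (hg : g.natDegree ≤ M) :
    mob (N + M) a b c d (f * g) = mob N a b c d f * mob M a b c d g := hev_mul _ _ hf hg

theorem natDegree_mob_le (N : ℕ) (a b c d : R) (f : R[X]) : (mob N a b c d f).natDegree ≤ N := by
  rw [mob_def]
  refine natDegree_sum_le_of_forall_le _ _ fun n hn => ?_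
  have hn' := Nat.lt_succ_iff.1 (Finset.mem_range.1 hn)
  have h1 : ((C a * X + C b : R[X]) ^ n).natDegree ≤ n := by
    simpa using natDegree_pow_le_of_le n (natDegree_lin_le a b)
  have h2 : ((C c * X + C d : R[X]) ^ (N - n)).natDegree ≤ N - n := by
    simpa using natDegree_pow_le_of_le (N - n) (natDegree_lin_le c d)
  have h3 : (C (f.coeff n) * (C a * X + C b) ^ n : R[X]).natDegree ≤ n :=
    (natDegree_C_mul_le _ _).trans h1
  have h4 := natDegree_mul_le_of_le h3 h2
  omega

/-- composition law. -/
theorem hev_mob (N : ℕ) (a b c d : R) (s t : A) (f : R[X]) :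
    hev N s t (mob N a b c d f)
      = hev N (algebraMap R A a * s + algebraMap R A b * t)
          (algebraMap R A c * s + algebraMap R A d * t) f := by
  rw [mob_def, hev_sum]
  conv_rhs => unfold hev
  refine Finset.sum_congr rfl fun n hn => ?_
  have hn' := Nat.lt_succ_iff.1 (Finset.mem_range.1 hn)
  have h1 : ((C a * X + C b : R[X]) ^ n).natDegree ≤ n := by
    simpa using natDegree_pow_le_of_le n (natDegree_lin_le a b)
  have h2 : ((C c * X + C d : R[X]) ^ (N - n)).natDegree ≤ N - n := by
    simpa using natDegree_pow_le_of_le (N - n) (natDegree_lin_le c d)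
  have e : N = n + (N - n) := by omega
  rw [mul_assoc, hev_C_mul]
  conv_lhs => rw [e]
  rw [show n + (N - n) - n = N - n by omega, hev_mul s t h1 h2, hev_pow, hev_pow]
  ring

theorem mob_mob (N : ℕ) (a b c d a' b' c' d' : R) (f : R[X]) :
    mob N a' b' c' d' (mob N a b c d f)
      = mob N (a * a' + b * c') (a * b' + b * d') (c * a' + d * c') (c * b' + d * d') f := by
  unfold mob
  have h := hev_mob (A := R[X]) N a b c d (C a' * X + C b') (C c' * X + C d') f
  unfold mob at h
  rw [h]
  congr 1
  · simp only [algebraMap_eq, C_add, C_mul]; ring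
  · simp only [algebraMap_eq, C_add, C_mul]; ring

theorem mob_id {N : ℕ} {f : R[X]} (hf : f.natDegree ≤ N) : mob N 1 0 0 1 f = f := by
  rw [mob_def]
  simp only [map_one, one_mul, map_zero, add_zero, zero_mul, zero_add, one_pow, mul_one]
  conv_rhs => rw [f.as_sum_range' (N + 1) (Nat.lt_succ_of_le hf)]
  exact Finset.sum_congr rfl fun n _ => by rw [C_mul_X_pow_eq_monomial]

theorem hev_scale (N : ℕ) (l s t : A) (f : R[X]) :
    hev N (l * s) (l * t) f = l ^ N * hev N s t f := by
  unfold hev
  rw [Finset.mul_sum]
  refine Finset.sum_congr rfl fun n hn => ?_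
  have hn' := Nat.lt_succ_iff.1 (Finset.mem_range.1 hn)
  have e : l ^ N = l ^ n * l ^ (N - n) := by rw [← pow_add]; congr 1; omega
  rw [mul_pow, mul_pow, e]; ring

theorem hev_t_one {N : ℕ} (s : A) {f : R[X]} (hf : f.natDegree ≤ N) :
    hev N s 1 f = aeval s f := by
  rw [aeval_eq_sum_range' (Nat.lt_succ_of_le hf)]
  unfold hev
  exact Finset.sum_congr rfl fun n _ => by rw [one_pow, mul_one, Algebra.smul_def]

theorem hev_t_zero (N : ℕ) (s : A) (f : R[X]) :
    hev N s 0 f = algebraMap R A (f.coeff N) * s ^ N := by
  unfold hev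
  rw [Finset.sum_eq_single N]
  · simp
  · intro n hn hne
    have hn' := Nat.lt_succ_iff.1 (Finset.mem_range.1 hn)
    rw [zero_pow (by omega), mul_zero]
  · intro h
    exact absurd (Finset.mem_range.2 (Nat.lt_succ_self N)) h

theorem eval_mob (N : ℕ) (a b c d t : R) (f : R[X]) :
    (mob N a b c d f).eval t = hev N (a * t + b) (c * t + d) f := by
  have h1 := hev_t_one (A := R) t (natDegree_mob_le N a b c d f)
  rw [hev_mob] at h1
  simp only [mul_one, Algebra.algebraMap_self, RingHom.id_apply] at h1
  rw [h1]; rfl

theorem aeval_mob (N : ℕ) (a b c d : R) (t : A) (f : R[X]) :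
    aeval t (mob N a b c d f) = hev N (algebraMap R A a * t + algebraMap R A b)
      (algebraMap R A c * t + algebraMap R A d) f := by
  have h1 := hev_t_one (A := A) t (natDegree_mob_le N a b c d f)
  rw [hev_mob] at h1
  simp only [mul_one] at h1
  exact h1.symm

theorem coeff_mob_top (N : ℕ) (a b c d : R) (f : R[X]) :
    (mob N a b c d f).coeff N = hev N a c f := by
  have h := hev_mob (A := R) N a b c d 1 0 f
  simp only [mul_one, mul_zero, add_zero, Algebra.algebraMap_self, RingHom.id_apply] at h
  rw [hev_t_zero] at h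
  simpa using h

theorem coeff_mob_zero (N : ℕ) (a b c d : R) (f : R[X]) :
    (mob N a b c d f).coeff 0 = hev N b d f := by
  have h := eval_mob N a b c d 0 f
  rw [mul_zero, mul_zero, zero_add, zero_add] at h
  rw [← h, coeff_zero_eq_eval_zero]

/-- naturality. -/
theorem map_hev {B : Type*} [CommRing B] [Algebra R B] (φ : A →ₐ[R] B) (N : ℕ) (s t : A)
    (f : R[X]) : φ (hev N s t f) = hev N (φ s) (φ t) f := by
  unfold hev
  rw [map_sum]
  refine Finset.sum_congr rfl fun n _ => ?_
  rw [map_mul, map_mul, map_pow, map_pow, AlgHom.commutes]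

theorem hev_map {S : Type*} [CommRing S] [Algebra S A] (φ : R →+* S)
    (hφ : ∀ r, algebraMap S A (φ r) = algebraMap R A r) (N : ℕ) (s t : A) (f : R[X]) :
    hev N s t (f.map φ) = hev N s t f := by
  unfold hev
  exact Finset.sum_congr rfl fun n _ => by rw [coeff_map, hφ]

theorem map_mob {S : Type*} [CommRing S] (φ : R →+* S) (N : ℕ) (a b c d : R) (f : R[X]) :
    (mob N a b c d f).map φ = mob N (φ a) (φ b) (φ c) (φ d) (f.map φ) := by
  rw [mob_def, mob_def, Polynomial.map_sum]
  refine Finset.sum_congr rfl fun n _ => ?_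
  simp only [Polynomial.map_mul, Polynomial.map_pow, Polynomial.map_add, map_C, map_X, coeff_map]

/-- `mob` is a linear substitution: `mob N (r•g)` scales by `r ^ N`. -/
theorem mob_scale (N : ℕ) (r a b c d : R) (f : R[X]) :
    mob N (r * a) (r * b) (r * c) (r * d) f = C (r ^ N) * mob N a b c d f := by
  unfold mob
  have h := hev_scale (A := R[X]) N (C r) (C a * X + C b) (C c * X + C d) f
  rw [C_pow, ← h]
  congr 1
  · simp only [C_mul]; ring
  · simp only [C_mul]; ring

end basic

section field

variable {K : Type u} [Field K]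

theorem hev_div {N : ℕ} (s : K) {t : K} (ht : t ≠ 0) {f : K[X]} (hf : f.natDegree ≤ N) :
    hev N s t f = t ^ N * f.eval (s / t) := by
  have h := hev_scale (A := K) N t (s / t) 1 f
  rw [mul_div_cancel₀ _ ht, mul_one, hev_t_one _ hf] at h
  rw [h]; rfl

theorem eval_mob_div {N : ℕ} (a b c d : K) {t : K} (ht : c * t + d ≠ 0) {f : K[X]}
    (hf : f.natDegree ≤ N) :
    (mob N a b c d f).eval t = (c * t + d) ^ N * f.eval ((a * t + b) / (c * t + d)) := by
  rw [eval_mob, hev_div _ ht hf]

/-- inverse substitution. -/
theorem mob_inv {N : ℕ} {a b c d : K} {f : K[X]} (hf : f.natDegree ≤ N) :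
    mob N d (-b) (-c) a (mob N a b c d f) = C ((a * d - b * c) ^ N) * f := by
  rw [mob_mob]
  have e : mob N (a * d + b * -c) (a * -b + b * a) (c * d + d * -c) (c * -b + d * a) f
      = mob N ((a * d - b * c) * 1) ((a * d - b * c) * 0) ((a * d - b * c) * 0)
        ((a * d - b * c) * 1) f := by
    congr 1 <;> ring
  rw [e, mob_scale, mob_id hf]

/-- derivative of `mob`, evaluated at a point `t` with `c t + d ≠ 0`. -/
theorem eval_derivative_mob {N : ℕ} (a b c d : K) {t : K} (ht : c * t + d ≠ 0) {f : K[X]}
    (hf : f.natDegree ≤ N) :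
    (derivative (mob N a b c d f)).eval t * (c * t + d)
      = N * c * (mob N a b c d f).eval t
        + (c * t + d) ^ N * ((a * d - b * c) / (c * t + d))
          * (derivative f).eval ((a * t + b) / (c * t + d)) := by
  -- linear in `f`: check on monomials
  have key : ∀ n ≤ N, ∀ r : K,
      (derivative (mob N a b c d (monomial n r))).eval t * (c * t + d)
      = N * c * (mob N a b c d (monomial n r)).eval t
        + (c * t + d) ^ N * ((a * d - b * c) / (c * t + d))
          * (derivative (monomial n r)).eval ((a * t + b) / (c * t + d)) := by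
    intro n hn r
    have e1 : mob N a b c d (monomial n r)
        = C r * (C a * X + C b) ^ n * (C c * X + C d) ^ (N - n) := by
      unfold mob
      rw [hev_monomial hn]; rfl
    rw [e1]
    have e2 : derivative (C r * (C a * X + C b) ^ n * (C c * X + C d) ^ (N - n))
        = C r * (C (n : K) * (C a * X + C b) ^ (n - 1) * C a) * (C c * X + C d) ^ (N - n)
          + C r * (C a * X + C b) ^ n
            * (C ((N - n : ℕ) : K) * (C c * X + C d) ^ (N - n - 1) * C c) := by
      simp only [derivative_mul, derivative_C, zero_mul, zero_add, derivative_pow, derivative_add,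
        derivative_X, mul_one, add_zero]
    rw [e2]
    simp only [eval_add, eval_mul, eval_pow, eval_C, eval_X, derivative_monomial, eval_monomial]
    set p := a * t + b with hp
    set q := c * t + d with hq
    have hdet : a * q - c * p = a * d - b * c := by rw [hp, hq]; ring
    rw [← hdet]
    obtain ⟨m, rfl⟩ : ∃ m, N = n + m := ⟨N - n, by omega⟩
    have e3 : n + m - n = m := by omega
    rw [e3]
    rcases n with _ | n
    · rcases m with _ | m
      · simp
      · simp only [Nat.cast_zero, zero_mul, mul_zero, pow_zero, Nat.add_sub_cancel, zero_add,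
          Nat.zero_add, mul_one, add_zero]
        push_cast
        ring
    · rcases m with _ | m
      · simp only [Nat.cast_zero, zero_mul, mul_zero, pow_zero, Nat.add_sub_cancel, add_zero,
          mul_one]
        rw [div_pow]
        field_simp
        ring
      · simp only [Nat.add_sub_cancel]
        rw [div_pow]
        push_cast
        field_simp
        ring
  have e := f.as_sum_range' (N + 1) (Nat.lt_succ_of_le hf)
  have hs : ∀ S : Finset ℕ, S ⊆ Finset.range (N + 1) →
      (derivative (mob N a b c d (∑ n ∈ S, monomial n (f.coeff n)))).eval t * (c * t + d)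
      = N * c * (mob N a b c d (∑ n ∈ S, monomial n (f.coeff n))).eval t
        + (c * t + d) ^ N * ((a * d - b * c) / (c * t + d))
          * (derivative (∑ n ∈ S, monomial n (f.coeff n))).eval ((a * t + b) / (c * t + d)) := by
    classical
    intro S
    induction S using Finset.induction_on with
    | empty => intro _; simp
    | insert i S hi ih =>
      intro hS
      have h1 := ih (fun x hx => hS (Finset.mem_insert_of_mem hx))
      have h2 := key i (Nat.lt_succ_iff.1 (Finset.mem_range.1 (hS (Finset.mem_insert_self i S))))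
        (f.coeff i)
      rw [Finset.sum_insert hi, mob_add, derivative_add, derivative_add, eval_add, eval_add,
        eval_add]
      linear_combination h1 + h2
  have h := hs (Finset.range (N + 1)) (Finset.Subset.refl _)
  rw [← e] at h
  exact h

end field

end Crest.Agent.R260.Mob_919
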