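import Mathlib

/-!
# Row 260, local Newlander-Nirenberg, common definitions (helper900)

`V` is any finite dimensional real inner product space, `Ω` an open subset.
A finite family of complex vector fields `X_j = A_j + i B_j`.
-/

set_option autoImplicit false
set_option linter.unusedSectionVars false
set_option linter.deprecated false

noncomputable section

open MeasureTheory Filter Topology Set
open scoped ENNReal NNReal ContDiff ComplexConjugate

namespace Crest.Agent.R260.NN0_900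

section basic

variable {V : Type*} [NormedAddCommGroup V] [InnerProductSpace ℝ V]

/-- complex valued test functions with support in `Ω` -/
def TestC (Ω : Set V) (g : V → ℂ) : Prop := ContDiff ℝ ∞ g ∧ HasCompactSupport g ∧ tsupport g ⊆ Ω

/-- derivative of `f` along the complex vector field `a + i b` -/
def cd (a b : V → V) (f : V → ℂ) (x : V) : ℂ :=
  fderiv ℝ f x (a x) + Complex.I * fderiv ℝ f x (b x)

/-- divergence of a real vector field -/
def dvg (a : V → V) (x : V) : ℝ := LinearMap.trace ℝ V (fderiv ℝ a x : V →ₗ[ℝ] V)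

/-- a finite family of complex vector fields -/
structure Fam (ι : Type*) (V : Type*) where
  /-- real parts -/
  A : ι → V → V
  /-- imaginary parts -/
  B : ι → V → V

namespace Fam

variable {ι : Type*} (S : Fam ι V)

/-- smooth on `Ω` -/
structure Sm (Ω : Set V) : Prop where
  A : ∀ j, ContDiffOn ℝ ∞ (S.A j) Ω
  B : ∀ j, ContDiffOn ℝ ∞ (S.B j) Ω

/-- `X_j f` -/
def X (j : ι) (f : V → ℂ) (x : V) : ℂ := cd (S.A j) (S.B j) f x

/-- `Y_j f`, `Y_j = conj X_j` -/
def Y (j : ι) (f : V → ℂ) (x : V) : ℂ := cd (S.A j) (fun y => - S.B j y) f x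

/-- divergence of `X_j` -/
def dX (j : ι) (x : V) : ℂ := dvg (S.A j) x + Complex.I * dvg (S.B j) x

/-- divergence of `Y_j` -/
def dY (j : ι) (x : V) : ℂ := dvg (S.A j) x - Complex.I * dvg (S.B j) x

/-- minus the transpose of `X_j` -/
def Xt (j : ι) (h : V → ℂ) (x : V) : ℂ := S.X j h x + S.dX j x * h x

/-- minus the transpose of `Y_j` -/
def Yt (j : ι) (h : V → ℂ) (x : V) : ℂ := S.Y j h x + S.dY j x * h x

variable [Fintype ι]

/-- `∑_j Yt_j (w X_j g)` -/
def PP (w : V → ℝ) (g : V → ℂ) (x : V) : ℂ := ∑ j, S.Yt j (fun y => (w y : ℂ) * S.X j g y) x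

/-- `∑_j Xt_j (w Y_j g)`  -/
def QQ (w : V → ℝ) (g : V → ℂ) (x : V) : ℂ := ∑ j, S.Xt j (fun y => (w y : ℂ) * S.Y j g y) x

/-- the fields and their conjugates span at every point of `Ω` -/
def Ell (Ω : Set V) : Prop :=
  ∀ x ∈ Ω, ∀ L : V →L[ℝ] ℝ, (∀ j, L (S.A j x) = 0 ∧ L (S.B j x) = 0) → L = 0

end Fam

end basic

section closure

variable {V : Type*} [NormedAddCommGroup V] [InnerProductSpace ℝ V] {Ω : Set V}

theorem TestC.smooth {g : V → ℂ} (h : TestC Ω g) : ContDiff ℝ ∞ g := h.1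
theorem TestC.continuous {g : V → ℂ} (h : TestC Ω g) : Continuous g := h.1.continuous
theorem TestC.differentiable {g : V → ℂ} (h : TestC Ω g) : Differentiable ℝ g :=
  h.1.differentiable (by simp)

theorem TestC.mono {Ω' : Set V} {g : V → ℂ} (h : TestC Ω g) (hΩ : Ω ⊆ Ω') : TestC Ω' g :=
  ⟨h.1, h.2.1, h.2.2.trans hΩ⟩

theorem TestC.zero : TestC Ω (fun _ : V => (0 : ℂ)) := by
  refine ⟨contDiff_const, HasCompactSupport.zero, ?_⟩
  have : tsupport (fun _ : V => (0 : ℂ)) = ∅ := by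
    rw [tsupport_eq_empty_iff]; rfl
  rw [this]; exact empty_subset _

theorem TestC.add {f g : V → ℂ} (hf : TestC Ω f) (hg : TestC Ω g) :
    TestC Ω (fun x => f x + g x) := by
  refine ⟨hf.1.add hg.1, hf.2.1.add hg.2.1, ?_⟩
  exact (tsupport_add f g).trans (union_subset hf.2.2 hg.2.2)

theorem TestC.sum {α : Type*} (s : Finset α) {f : α → V → ℂ} (h : ∀ a ∈ s, TestC Ω (f a)) :
    TestC Ω (fun x => ∑ a ∈ s, f a x) := by
  classical
  induction s using Finset.induction_on with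
  | empty => simpa using TestC.zero
  | insert a s ha ih =>
    have h1 := (h a (Finset.mem_insert_self a s)).add
      (ih fun b hb => h b (Finset.mem_insert_of_mem hb))
    simpa [Finset.sum_insert ha] using h1

/-- a function which is smooth on `Ω` and vanishes outside a closed subset of `Ω` is smooth -/
theorem contDiff_of_zero (hΩ : IsOpen Ω) {W : Type*} [NormedAddCommGroup W] [NormedSpace ℝ W]
    {f : V → W} {K : Set V} (hK : IsClosed K) (hKΩ : K ⊆ Ω) (hf : ContDiffOn ℝ ∞ f Ω)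
    (h0 : ∀ x ∉ K, f x = 0) : ContDiff ℝ ∞ f := by
  rw [contDiff_iff_contDiffAt]
  intro x
  by_cases hx : x ∈ Ω
  · exact hf.contDiffAt (hΩ.mem_nhds hx)
  · have hx' : x ∈ Kᶜ := fun h => hx (hKΩ h)
    refine (contDiffAt_const (c := (0 : W))).congr_of_eventuallyEq ?_
    filter_upwards [hK.isOpen_compl.mem_nhds hx'] with y hy
    exact h0 y hy

theorem testC_of_zero (hΩ : IsOpen Ω) {f : V → ℂ} {K : Set V} (hK : IsCompact K) (hKΩ : K ⊆ Ω)
    (hf : ContDiffOn ℝ ∞ f Ω) (h0 : ∀ x ∉ K, f x = 0) : TestC Ω f := by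
  have hs : tsupport f ⊆ K := by
    refine closure_minimal ?_ hK.isClosed
    intro x hx
    by_contra hxK
    exact hx (h0 x hxK)
  exact ⟨contDiff_of_zero hΩ hK.isClosed hKΩ hf h0,
    hK.of_isClosed_subset (isClosed_tsupport f) hs, hs.trans hKΩ⟩

theorem TestC.eq_zero {g : V → ℂ} (_h : TestC Ω g) {x : V} (hx : x ∉ tsupport g) : g x = 0 :=
  image_eq_zero_of_notMem_tsupport hx

theorem TestC.fderiv_eq_zero {g : V → ℂ} (_h : TestC Ω g) {x : V} (hx : x ∉ tsupport g) :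
    fderiv ℝ g x = 0 := by
  have : g =ᶠ[𝓝 x] fun _ => 0 := by
    filter_upwards [(isClosed_tsupport g).isOpen_compl.mem_nhds hx] with y hy
    exact image_eq_zero_of_notMem_tsupport hy
  rw [this.fderiv_eq]; simp

theorem TestC.mul_on (hΩ : IsOpen Ω) {a g : V → ℂ} (hg : TestC Ω g) (ha : ContDiffOn ℝ ∞ a Ω) :
    TestC Ω (fun x => a x * g x) :=
  testC_of_zero hΩ hg.2.1 hg.2.2 (ha.mul hg.1.contDiffOn) fun x hx => by
    rw [hg.eq_zero hx, mul_zero]

theorem TestC.conj {g : V → ℂ} (hg : TestC Ω g) : TestC Ω (fun x => conj (g x)) := by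
  refine ⟨Complex.conjCLE.contDiff.comp hg.1, hg.2.1.comp_left (g := fun z : ℂ => conj z)
    (by simp), ?_⟩
  refine (closure_minimal ?_ (isClosed_tsupport g)).trans hg.2.2
  intro x hx
  apply subset_tsupport
  intro h0
  apply hx
  simp [h0]

theorem TestC.const_mul {g : V → ℂ} (hg : TestC Ω g) (c : ℂ) : TestC Ω (fun x => c * g x) := by
  refine ⟨contDiff_const.mul hg.1, hg.2.1.mul_left, ?_⟩
  refine (closure_minimal ?_ (isClosed_tsupport g)).trans hg.2.2
  intro x hx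
  apply subset_tsupport
  intro h0
  apply hx
  simp [h0]

theorem TestC.neg {g : V → ℂ} (hg : TestC Ω g) : TestC Ω (fun x => - g x) := by
  simpa using hg.const_mul (-1)

theorem TestC.sub {f g : V → ℂ} (hf : TestC Ω f) (hg : TestC Ω g) :
    TestC Ω (fun x => f x - g x) := by
  simpa [sub_eq_add_neg] using hf.add hg.neg

theorem contDiffOn_cd (hΩ : IsOpen Ω) {a b : V → V} {f : V → ℂ} (ha : ContDiffOn ℝ ∞ a Ω)
    (hb : ContDiffOn ℝ ∞ b Ω) (hf : ContDiffOn ℝ ∞ f Ω) : ContDiffOn ℝ ∞ (cd a b f) Ω := by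
  have h1 : ContDiffOn ℝ ∞ (fderiv ℝ f) Ω := hf.fderiv_of_isOpen hΩ (by simp)
  exact (h1.clm_apply ha).add (contDiffOn_const.mul (h1.clm_apply hb))

theorem cd_zero_right (a : V → V) (f : V → ℂ) :
    cd a (fun _ => 0) f = fun x => fderiv ℝ f x (a x) := by
  funext x; simp [cd]

theorem TestC.cd (hΩ : IsOpen Ω) {a b : V → V} {g : V → ℂ} (hg : TestC Ω g)
    (ha : ContDiffOn ℝ ∞ a Ω) (hb : ContDiffOn ℝ ∞ b Ω) : TestC Ω (cd a b g) :=
  testC_of_zero hΩ hg.2.1 hg.2.2 (contDiffOn_cd hΩ ha hb hg.1.contDiffOn) fun x hx => by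
    rw [NN0_900.cd, hg.fderiv_eq_zero hx]; simp

theorem contDiffOn_dvg [FiniteDimensional ℝ V] (hΩ : IsOpen Ω) {a : V → V}
    (ha : ContDiffOn ℝ ∞ a Ω) : ContDiffOn ℝ ∞ (dvg a) Ω := by
  have h1 : ContDiffOn ℝ ∞ (fderiv ℝ a) Ω := ha.fderiv_of_isOpen hΩ (by simp)
  have e : dvg a = fun x => ∑ i, inner ℝ (stdOrthonormalBasis ℝ V i)
      (fderiv ℝ a x (stdOrthonormalBasis ℝ V i)) := by
    funext x
    rw [dvg, LinearMap.trace_eq_sum_inner _ (stdOrthonormalBasis ℝ V)]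
    rfl
  rw [e]
  exact ContDiffOn.sum fun i _ => contDiffOn_const.inner ℝ (h1.clm_apply contDiffOn_const)

variable {ι : Type*} {S : Fam ι V}

theorem Fam.Sm.mono {Ω' : Set V} (h : S.Sm Ω) (hs : Ω' ⊆ Ω) : S.Sm Ω' :=
  ⟨fun j => (h.A j).mono hs, fun j => (h.B j).mono hs⟩

theorem Fam.Sm.X_on (hΩ : IsOpen Ω) (h : S.Sm Ω) (j : ι) {f : V → ℂ}
    (hf : ContDiffOn ℝ ∞ f Ω) : ContDiffOn ℝ ∞ (S.X j f) Ω :=
  contDiffOn_cd hΩ (h.A j) (h.B j) hf

theorem Fam.Sm.Y_on (hΩ : IsOpen Ω) (h : S.Sm Ω) (j : ι) {f : V → ℂ}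
    (hf : ContDiffOn ℝ ∞ f Ω) : ContDiffOn ℝ ∞ (S.Y j f) Ω :=
  contDiffOn_cd hΩ (h.A j) (h.B j).neg hf

theorem Fam.Sm.X_test (hΩ : IsOpen Ω) (h : S.Sm Ω) (j : ι) {g : V → ℂ} (hg : TestC Ω g) :
    TestC Ω (S.X j g) := hg.cd hΩ (h.A j) (h.B j)

theorem Fam.Sm.Y_test (hΩ : IsOpen Ω) (h : S.Sm Ω) (j : ι) {g : V → ℂ} (hg : TestC Ω g) :
    TestC Ω (S.Y j g) := hg.cd hΩ (h.A j) (h.B j).neg

theorem contDiffOn_ofReal {f : V → ℝ} (hf : ContDiffOn ℝ ∞ f Ω) :
    ContDiffOn ℝ ∞ (fun x => (f x : ℂ)) Ω :=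
  Complex.ofRealCLM.contDiff.comp_contDiffOn hf

theorem Fam.Sm.dX_on [FiniteDimensional ℝ V] (hΩ : IsOpen Ω) (h : S.Sm Ω) (j : ι) :
    ContDiffOn ℝ ∞ (S.dX j) Ω :=
  (contDiffOn_ofReal (contDiffOn_dvg hΩ (h.A j))).add
    (contDiffOn_const.mul (contDiffOn_ofReal (contDiffOn_dvg hΩ (h.B j))))

theorem Fam.Sm.dY_on [FiniteDimensional ℝ V] (hΩ : IsOpen Ω) (h : S.Sm Ω) (j : ι) :
    ContDiffOn ℝ ∞ (S.dY j) Ω :=
  (contDiffOn_ofReal (contDiffOn_dvg hΩ (h.A j))).sub
    (contDiffOn_const.mul (contDiffOn_ofReal (contDiffOn_dvg hΩ (h.B j))))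

theorem Fam.Sm.Xt_test [FiniteDimensional ℝ V] (hΩ : IsOpen Ω) (h : S.Sm Ω) (j : ι)
    {g : V → ℂ} (hg : TestC Ω g) : TestC Ω (S.Xt j g) :=
  (h.X_test hΩ j hg).add (hg.mul_on hΩ (h.dX_on hΩ j))

theorem Fam.Sm.Yt_test [FiniteDimensional ℝ V] (hΩ : IsOpen Ω) (h : S.Sm Ω) (j : ι)
    {g : V → ℂ} (hg : TestC Ω g) : TestC Ω (S.Yt j g) :=
  (h.Y_test hΩ j hg).add (hg.mul_on hΩ (h.dY_on hΩ j))

theorem Fam.Sm.PP_test [FiniteDimensional ℝ V] [Fintype ι] (hΩ : IsOpen Ω) (h : S.Sm Ω)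
    {w : V → ℝ} (hw : ContDiffOn ℝ ∞ w Ω) {g : V → ℂ} (hg : TestC Ω g) :
    TestC Ω (S.PP w g) :=
  TestC.sum _ fun j _ => h.Yt_test hΩ j ((h.X_test hΩ j hg).mul_on hΩ (contDiffOn_ofReal hw))

theorem Fam.Sm.QQ_test [FiniteDimensional ℝ V] [Fintype ι] (hΩ : IsOpen Ω) (h : S.Sm Ω)
    {w : V → ℝ} (hw : ContDiffOn ℝ ∞ w Ω) {g : V → ℂ} (hg : TestC Ω g) :
    TestC Ω (S.QQ w g) :=
  TestC.sum _ fun j _ => h.Xt_test hΩ j ((h.Y_test hΩ j hg).mul_on hΩ (contDiffOn_ofReal hw))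

end closure

section calculus

variable {V : Type*} [NormedAddCommGroup V] [InnerProductSpace ℝ V]

theorem cd_add {a b : V → V} {f g : V → ℂ} {x : V} (hf : DifferentiableAt ℝ f x)
    (hg : DifferentiableAt ℝ g x) : cd a b (fun y => f y + g y) x = cd a b f x + cd a b g x := by
  unfold cd
  rw [fderiv_fun_add hf hg]
  simp only [ContinuousLinearMap.add_apply]
  ring

theorem cd_mul {a b : V → V} {f g : V → ℂ} {x : V} (hf : DifferentiableAt ℝ f x)
    (hg : DifferentiableAt ℝ g x) :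
    cd a b (fun y => f y * g y) x = f x * cd a b g x + g x * cd a b f x := by
  unfold cd
  rw [fderiv_fun_mul hf hg]
  simp only [ContinuousLinearMap.add_apply, ContinuousLinearMap.smul_apply, smul_eq_mul]
  ring

theorem cd_conj {a b : V → V} {f : V → ℂ} {x : V} (hf : DifferentiableAt ℝ f x) :
    cd a b (fun y => conj (f y)) x = conj (cd a (fun y => - b y) f x) := by
  have h : fderiv ℝ (fun y => conj (f y)) x =
      (Complex.conjCLE : ℂ →L[ℝ] ℂ).comp (fderiv ℝ f x) := by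
    have := ((Complex.conjCLE : ℂ →L[ℝ] ℂ).hasFDerivAt.comp x hf.hasFDerivAt).fderiv
    exact this
  unfold cd
  rw [h]
  simp

theorem cd_conj' {a b : V → V} {f : V → ℂ} {x : V} (hf : DifferentiableAt ℝ f x) :
    cd a (fun y => - b y) (fun y => conj (f y)) x = conj (cd a b f x) := by
  rw [cd_conj hf]; simp

end calculus

section ibp

variable {V : Type*} [NormedAddCommGroup V] [InnerProductSpace ℝ V] [FiniteDimensional ℝ V]
  [MeasurableSpace V] [BorelSpace V] {Ω : Set V}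

theorem TestC.integrable {g : V → ℂ} (hg : TestC Ω g) : Integrable g (volume : Measure V) :=
  hg.continuous.integrable_of_hasCompactSupport hg.2.1

theorem integral_fderiv_const {g : V → ℂ} (hg : TestC Ω g) (v : V) :
    ∫ x, fderiv ℝ g x v = 0 := by
  have h1 : TestC (univ : Set V) (fun x => fderiv ℝ g x v) := by
    have := (hg.mono (subset_univ _)).cd isOpen_univ (a := fun _ => v) (b := fun _ => 0)
      contDiffOn_const contDiffOn_const
    rwa [cd_zero_right] at this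
  have := integral_mul_fderiv_eq_neg_fderiv_mul_of_integrable (μ := (volume : Measure V))
    (f := fun _ => (1 : ℂ)) (g := g) (v := v) (by simp) (by simpa using h1.integrable)
    (by simpa using hg.integrable) (fun x _ => differentiableAt_const _)
    (fun x _ => hg.differentiable x)
  simpa using this

/-- divergence theorem for a real field and a test function -/
theorem integral_div (hΩ : IsOpen Ω) {a : V → V} (ha : ContDiffOn ℝ ∞ a Ω) {g : V → ℂ}
    (hg : TestC Ω g) : ∫ x, (fderiv ℝ g x (a x) + (dvg a x : ℂ) * g x) = 0 := by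
  set b := stdOrthonormalBasis ℝ V with hb
  have hG : ∀ i, TestC Ω (fun x => ((inner ℝ (b i) (a x) : ℝ) : ℂ) * g x) := fun i =>
    hg.mul_on hΩ (contDiffOn_ofReal (contDiffOn_const.inner ℝ ha))
  have key : ∀ x, fderiv ℝ g x (a x) + (dvg a x : ℂ) * g x =
      ∑ i, fderiv ℝ (fun x => ((inner ℝ (b i) (a x) : ℝ) : ℂ) * g x) x (b i) := by
    intro x
    by_cases hx : x ∈ tsupport g
    · have hxΩ : x ∈ Ω := hg.2.2 hx
      have hax : DifferentiableAt ℝ a x :=
        (ha.contDiffAt (hΩ.mem_nhds hxΩ)).differentiableAt (by simp)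
      have hd : ∀ i, HasFDerivAt (fun x => ((inner ℝ (b i) (a x) : ℝ) : ℂ))
          (Complex.ofRealCLM.comp ((innerSL ℝ (b i)).comp (fderiv ℝ a x))) x := by
        intro i
        have h1 : HasFDerivAt (fun x => innerSL ℝ (b i) (a x))
            ((innerSL ℝ (b i)).comp (fderiv ℝ a x)) x :=
          (innerSL ℝ (b i)).hasFDerivAt.comp x hax.hasFDerivAt
        exact Complex.ofRealCLM.hasFDerivAt.comp x h1
      have e1 : ∀ i, fderiv ℝ (fun x => ((inner ℝ (b i) (a x) : ℝ) : ℂ) * g x) x (b i) =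
          ((inner ℝ (b i) (a x) : ℝ) : ℂ) * fderiv ℝ g x (b i) +
            g x * ((inner ℝ (b i) (fderiv ℝ a x (b i)) : ℝ) : ℂ) := by
        intro i
        rw [fderiv_fun_mul (hd i).differentiableAt (hg.differentiable x), (hd i).fderiv]
        simp
      simp_rw [e1]
      rw [Finset.sum_add_distrib, ← Finset.mul_sum]
      have e2 : (dvg a x : ℂ) = ∑ i, ((inner ℝ (b i) (fderiv ℝ a x (b i)) : ℝ) : ℂ) := by
        rw [dvg, LinearMap.trace_eq_sum_inner _ b]
        push_cast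
        rfl
      have e3 : fderiv ℝ g x (a x) = ∑ i, ((inner ℝ (b i) (a x) : ℝ) : ℂ) * fderiv ℝ g x (b i) := by
        conv_lhs => rw [← b.sum_repr' (a x)]
        rw [map_sum]
        refine Finset.sum_congr rfl fun i _ => ?_
        rw [map_smul, Complex.real_smul]
      rw [e2, e3]; ring
    · have h0 := hg.fderiv_eq_zero hx
      have h1 := hg.eq_zero hx
      rw [h0, h1]
      have : ∀ i, fderiv ℝ (fun x => ((inner ℝ (b i) (a x) : ℝ) : ℂ) * g x) x = 0 := by
        intro i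
        have : (fun x => ((inner ℝ (b i) (a x) : ℝ) : ℂ) * g x) =ᶠ[𝓝 x] fun _ => 0 := by
          filter_upwards [(isClosed_tsupport g).isOpen_compl.mem_nhds hx] with y hy
          rw [image_eq_zero_of_notMem_tsupport hy, mul_zero]
        rw [this.fderiv_eq]; simp
      simp [this]
  simp_rw [key]
  rw [integral_finsetSum]
  · exact Finset.sum_eq_zero fun i _ => integral_fderiv_const (hG i) (b i)
  · intro i _
    have := (hG i).cd hΩ (a := fun _ => b i) (b := fun _ => 0) contDiffOn_const contDiffOn_const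
    have h2 := this.integrable
    rwa [cd_zero_right] at h2

theorem integral_cdiv (hΩ : IsOpen Ω) {a b : V → V} (ha : ContDiffOn ℝ ∞ a Ω)
    (hb : ContDiffOn ℝ ∞ b Ω) {g : V → ℂ} (hg : TestC Ω g) :
    ∫ x, (cd a b g x + ((dvg a x : ℂ) + Complex.I * dvg b x) * g x) = 0 := by
  have h1 := integral_div hΩ ha hg
  have h2 := integral_div hΩ hb hg
  have i1 : ∀ {c : V → V}, ContDiffOn ℝ ∞ c Ω →
      Integrable (fun x => fderiv ℝ g x (c x) + (dvg c x : ℂ) * g x) (volume : Measure V) := by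
    intro c hc
    have t1 := hg.cd hΩ (a := c) (b := fun _ => 0) hc contDiffOn_const
    have t2 := hg.mul_on hΩ (contDiffOn_ofReal (contDiffOn_dvg hΩ hc))
    have := (t1.add t2).integrable
    rwa [cd_zero_right] at this
  have e : (fun x => cd a b g x + ((dvg a x : ℂ) + Complex.I * dvg b x) * g x) =
      fun x => (fderiv ℝ g x (a x) + (dvg a x : ℂ) * g x) +
        Complex.I * (fderiv ℝ g x (b x) + (dvg b x : ℂ) * g x) := by
    funext x; unfold cd; ring
  rw [e, integral_add (i1 ha) ((i1 hb).const_mul _), h1, integral_const_mul, h2]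
  simp

/-- **integration by parts** for complex fields -/
theorem ibp (hΩ : IsOpen Ω) {a b : V → V} (ha : ContDiffOn ℝ ∞ a Ω)
    (hb : ContDiffOn ℝ ∞ b Ω) {f g : V → ℂ} (hf : ContDiffOn ℝ ∞ f Ω) (hg : TestC Ω g) :
    ∫ x, cd a b f x * g x =
      - ∫ x, f x * (cd a b g x + ((dvg a x : ℂ) + Complex.I * dvg b x) * g x) := by
  have hfg := hg.mul_on hΩ hf
  have h := integral_cdiv hΩ ha hb hfg
  have t1 : TestC Ω (fun x => cd a b f x * g x) := hg.mul_on hΩ (contDiffOn_cd hΩ ha hb hf)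
  have hdiv : ContDiffOn ℝ ∞ (fun x => (dvg a x : ℂ) + Complex.I * dvg b x) Ω :=
    (contDiffOn_ofReal (contDiffOn_dvg hΩ ha)).add
      (contDiffOn_const.mul (contDiffOn_ofReal (contDiffOn_dvg hΩ hb)))
  have t2 : TestC Ω (fun x => f x * (cd a b g x + ((dvg a x : ℂ) + Complex.I * dvg b x) * g x)) :=
    ((hg.cd hΩ ha hb).add (hg.mul_on hΩ hdiv)).mul_on hΩ hf
  have e : (fun x => cd a b (fun x => f x * g x) x +
      ((dvg a x : ℂ) + Complex.I * dvg b x) * (f x * g x)) =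
      fun x => cd a b f x * g x +
        f x * (cd a b g x + ((dvg a x : ℂ) + Complex.I * dvg b x) * g x) := by
    funext x
    by_cases hx : x ∈ tsupport g
    · have hfx : DifferentiableAt ℝ f x :=
        (hf.contDiffAt (hΩ.mem_nhds (hg.2.2 hx))).differentiableAt (by simp)
      rw [cd_mul hfx (hg.differentiable x)]
      ring
    · have h0 := hg.fderiv_eq_zero hx
      have h1 := hg.eq_zero hx
      have : (fun x => f x * g x) =ᶠ[𝓝 x] fun _ => 0 := by
        filter_upwards [(isClosed_tsupport g).isOpen_compl.mem_nhds hx] with y hy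
        rw [image_eq_zero_of_notMem_tsupport hy, mul_zero]
      unfold cd
      rw [this.fderiv_eq, h0, h1]
      simp
  rw [e, integral_add t1.integrable t2.integrable] at h
  exact eq_neg_of_add_eq_zero_left h

variable {ι : Type*} {S : Fam ι V}

theorem Fam.Sm.ibpX (hΩ : IsOpen Ω) (h : S.Sm Ω) (j : ι) {f g : V → ℂ}
    (hf : ContDiffOn ℝ ∞ f Ω) (hg : TestC Ω g) :
    ∫ x, S.X j f x * g x = - ∫ x, f x * S.Xt j g x :=
  ibp hΩ (h.A j) (h.B j) hf hg

theorem dvg_neg (a : V → V) (x : V) : dvg (fun y => - a y) x = - dvg a x := by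
  unfold dvg
  rw [fderiv_fun_neg]
  simp

theorem Fam.Sm.ibpY (hΩ : IsOpen Ω) (h : S.Sm Ω) (j : ι) {f g : V → ℂ}
    (hf : ContDiffOn ℝ ∞ f Ω) (hg : TestC Ω g) :
    ∫ x, S.Y j f x * g x = - ∫ x, f x * S.Yt j g x := by
  have := ibp hΩ (h.A j) (h.B j).neg hf hg
  rw [show (fun x => S.Y j f x * g x) = fun x => cd (S.A j) (fun y => - S.B j y) f x * g x from rfl,
    this]
  congr 1
  congr 1
  funext x
  have : dvg (-(S.B j)) x = - dvg (S.B j) x := dvg_neg _ x
  simp only [Fam.Yt, Fam.Y, Fam.dY]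
  have e : (fun y => - S.B j y) = -(S.B j) := rfl
  rw [e, this]
  push_cast
  ring

end ibp

end Crest.Agent.R260.NN0_900
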