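import Crest.Agent.R260.NN0_900

/-!
# Row 260, local Newlander-Nirenberg: Riesz and Cauchy-Schwarz (helper900)
-/

set_option autoImplicit false
set_option linter.unusedSectionVars false
set_option linter.deprecated false

noncomputable section

open MeasureTheory Filter Topology Set
open scoped ENNReal NNReal ContDiff ComplexConjugate

namespace Crest.Agent.R260.NN1_900

open NN0_900

/-- Riesz: a functional bounded by the Hilbert norm of a linear map is represented. -/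
theorem riesz {T H : Type*} [AddCommGroup T] [Module ℂ T] [NormedAddCommGroup H]
    [InnerProductSpace ℂ H] [CompleteSpace H] (P : T →ₗ[ℂ] H) (Λ : T →ₗ[ℂ] ℂ) {C : ℝ}
    (hC : 0 ≤ C) (hT : ∀ v, ‖Λ v‖ ≤ C * ‖P v‖) :
    ∃ z : H, ‖z‖ ≤ C ∧ ∀ v, Λ v = inner ℂ z (P v) := by
  classical
  have hker : LinearMap.ker P ≤ LinearMap.ker Λ := by
    intro v hv
    rw [LinearMap.mem_ker] at hv ⊢
    have := hT v
    rw [hv, norm_zero, mul_zero] at this
    exact norm_le_zero_iff.1 this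
  let e := P.quotKerEquivRange
  let T' : LinearMap.range P →ₗ[ℂ] ℂ := ((LinearMap.ker P).liftQ Λ hker).comp e.symm.toLinearMap
  have hT' : ∀ v, T' ⟨P v, LinearMap.mem_range_self P v⟩ = Λ v := by
    intro v
    have h1 : e.symm ⟨P v, LinearMap.mem_range_self P v⟩ = (LinearMap.ker P).mkQ v := by
      rw [LinearEquiv.symm_apply_eq]
      rfl
    simp only [T', LinearMap.comp_apply, LinearEquiv.coe_coe, h1]
    rfl
  have hb : ∀ y : LinearMap.range P, ‖T' y‖ ≤ C * ‖y‖ := by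
    rintro ⟨y, v, rfl⟩
    rw [hT' v]
    exact hT v
  let f : StrongDual ℂ (LinearMap.range P) := T'.mkContinuous C hb
  obtain ⟨g, hg1, hg2⟩ := _root_.exists_extension_norm_eq (LinearMap.range P) f
  refine ⟨(InnerProductSpace.toDual ℂ H).symm g, ?_, ?_⟩
  · rw [LinearIsometryEquiv.norm_map, hg2]
    exact T'.mkContinuous_norm_le hC hb
  · intro v
    rw [InnerProductSpace.toDual_symm_apply]
    have := hg1 ⟨P v, LinearMap.mem_range_self P v⟩
    rw [this]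
    exact (hT' v).symm

section

variable {X : Type*} [MeasurableSpace X] {μ : Measure X}

theorem sq_int {G : X → ℂ} (hG : MemLp G 2 μ) : ‖hG.toLp G‖ ^ 2 = ∫ x, ‖G x‖ ^ 2 ∂μ := by
  rw [Lp.norm_toLp, eLpNorm_eq_lintegral_rpow_enorm_toReal (by norm_num) (by norm_num),
    integral_eq_lintegral_of_nonneg_ae (f := fun x => ‖G x‖ ^ 2)
      (Eventually.of_forall fun x => by positivity) ((hG.1.norm.pow 2))]
  have e : ∀ x, ENNReal.ofReal (‖G x‖ ^ 2) = ‖G x‖ₑ ^ (ENNReal.toReal 2) := by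
    intro x
    rw [ENNReal.ofReal_pow (norm_nonneg _), ofReal_norm]
    simp
  simp_rw [e]
  rw [← ENNReal.toReal_rpow, ← Real.rpow_natCast, ← Real.rpow_mul ENNReal.toReal_nonneg]
  simp

/-- Riesz in `L²`, bilinear form -/
theorem riesz_L2 {T : Type*} [AddCommGroup T] [Module ℂ T] (P : T →ₗ[ℂ] (X → ℂ))
    (hP : ∀ t, MemLp (P t) 2 μ) (Λ : T →ₗ[ℂ] ℂ) {M : ℝ} (hM : 0 ≤ M)
    (h : ∀ t, ‖Λ t‖ ^ 2 ≤ M * ∫ x, ‖P t x‖ ^ 2 ∂μ) :
    ∃ U : X → ℂ, MemLp U 2 μ ∧ ∫ x, ‖U x‖ ^ 2 ∂μ ≤ M ∧ ∀ t, Λ t = ∫ x, U x * P t x ∂μ := by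
  let P' : T →ₗ[ℂ] Lp ℂ 2 μ :=
    { toFun := fun t => (hP t).toLp (P t)
      map_add' := by
        intro s t
        rw [← MemLp.toLp_add]
        congr 1
        exact map_add P s t
      map_smul' := by
        intro c t
        rw [RingHom.id_apply, ← MemLp.toLp_const_smul]
        congr 1
        exact map_smul P c t }
  have hb : ∀ t, ‖Λ t‖ ≤ Real.sqrt M * ‖P' t‖ := by
    intro t
    have h1 : ‖P' t‖ ^ 2 = ∫ x, ‖P t x‖ ^ 2 ∂μ := sq_int (hP t)
    have h2 := h t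
    rw [← h1] at h2
    rw [← Real.sqrt_sq (norm_nonneg (Λ t)), ← Real.sqrt_sq (norm_nonneg (P' t)),
      ← Real.sqrt_mul hM]
    exact Real.sqrt_le_sqrt h2
  obtain ⟨z, hz, hz'⟩ := riesz P' Λ (Real.sqrt_nonneg M) hb
  have hzm : MemLp z 2 μ := Lp.memLp z
  refine ⟨fun x => conj (z x), ?_, ?_, ?_⟩
  · refine ⟨Complex.continuous_conj.comp_aestronglyMeasurable hzm.1, ?_⟩
    have : eLpNorm (fun x => conj (z x)) 2 μ = eLpNorm z 2 μ := by
      apply eLpNorm_congr_norm_ae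
      exact Eventually.of_forall fun x => by simp
    rw [this]; exact hzm.2
  · have h1 := sq_int hzm
    rw [Lp.toLp_coeFn] at h1
    simp only [RCLike.norm_conj]
    rw [← h1]
    have := pow_le_pow_left₀ (norm_nonneg z) hz 2
    rwa [Real.sq_sqrt hM] at this
  · intro t
    rw [hz' t, L2.inner_def]
    apply integral_congr_ae
    filter_upwards [(hP t).coeFn_toLp] with x hx
    have e : (P' t : X → ℂ) x = P t x := hx
    rw [e, RCLike.inner_apply, mul_comm]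

/-- Cauchy-Schwarz -/
theorem cs_int {A B : X → ℝ} (hA : Integrable A μ) (hB : Integrable B μ) (hA0 : ∀ x, 0 ≤ A x)
    (hB0 : ∀ x, 0 ≤ B x) :
    Integrable (fun x => Real.sqrt (A x) * Real.sqrt (B x)) μ ∧
    (∫ x, Real.sqrt (A x) * Real.sqrt (B x) ∂μ) ^ 2 ≤ (∫ x, A x ∂μ) * ∫ x, B x ∂μ := by
  have hm : ∀ {C : X → ℝ}, Integrable C μ → (∀ x, 0 ≤ C x) →
      MemLp (fun x => Real.sqrt (C x)) 2 μ := by
    intro C hC hC0
    rw [memLp_two_iff_integrable_sq (Real.continuous_sqrt.comp_aestronglyMeasurable hC.1)]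
    refine hC.congr (Eventually.of_forall fun x => ?_)
    exact (Real.sq_sqrt (hC0 x)).symm
  have h2 : (2 : ℝ≥0∞) = ENNReal.ofReal 2 := by simp
  refine ⟨(hm hA hA0).integrable_mul (hm hB hB0), ?_⟩
  have h := integral_mul_le_Lp_mul_Lq_of_nonneg (μ := μ) Real.HolderConjugate.two_two
    (f := fun x => Real.sqrt (A x)) (g := fun x => Real.sqrt (B x))
    (Eventually.of_forall fun x => Real.sqrt_nonneg _)
    (Eventually.of_forall fun x => Real.sqrt_nonneg _)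
    (by rw [← h2]; exact hm hA hA0) (by rw [← h2]; exact hm hB hB0)
  have e : ∀ {C : X → ℝ}, (∀ x, 0 ≤ C x) → (∫ x, Real.sqrt (C x) ^ (2 : ℝ) ∂μ) = ∫ x, C x ∂μ := by
    intro C hC0
    congr 1; funext x
    rw [show (2 : ℝ) = ((2 : ℕ) : ℝ) by norm_num, Real.rpow_natCast, Real.sq_sqrt (hC0 x)]
  rw [e hA0, e hB0, ← Real.sqrt_eq_rpow, ← Real.sqrt_eq_rpow] at h
  have h0 : 0 ≤ ∫ x, Real.sqrt (A x) * Real.sqrt (B x) ∂μ :=
    integral_nonneg fun x => mul_nonneg (Real.sqrt_nonneg _) (Real.sqrt_nonneg _)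
  calc (∫ x, Real.sqrt (A x) * Real.sqrt (B x) ∂μ) ^ 2
      ≤ (Real.sqrt (∫ x, A x ∂μ) * Real.sqrt (∫ x, B x ∂μ)) ^ 2 := pow_le_pow_left₀ h0 h 2
    _ = (∫ x, A x ∂μ) * ∫ x, B x ∂μ := by
        rw [mul_pow, Real.sq_sqrt (integral_nonneg hA0), Real.sq_sqrt (integral_nonneg hB0)]

end

end Crest.Agent.R260.NN1_900
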