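import Crest.Agent.R260.NN1_900

/-!
# Row 260, local Newlander-Nirenberg: the weak solution (helper900)
-/

set_option autoImplicit false
set_option linter.unusedSectionVars false
set_option linter.deprecated false
set_option maxHeartbeats 400000

noncomputable section

open MeasureTheory Filter Topology Set
open scoped ENNReal NNReal ContDiff ComplexConjugate

namespace Crest.Agent.R260.NN2_900

open NN0_900 NN1_900

variable {V : Type*} [NormedAddCommGroup V] [InnerProductSpace ℝ V] [FiniteDimensional ℝ V]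
  [MeasurableSpace V] [BorelSpace V] {Ω : Set V} {ι : Type*} [Fintype ι] {S : Fam ι V}

/-- regularity of weak solutions of `∑_j X_j^t (w Y_j ·)` -/
def RegP (S : Fam ι V) (Ω : Set V) (w : V → ℝ) : Prop :=
  ∀ u : V → ℂ, LocallyIntegrableOn u Ω → (∀ κ, TestC Ω κ → ∫ x, u x * S.QQ w κ x = 0) →
    ∃ v : V → ℂ, ContDiffOn ℝ ∞ v Ω ∧ ∀ᵐ x, x ∈ Ω → v x = u x

/-- test functions as a complex vector space -/
def testSub (Ω : Set V) : Submodule ℂ (V → ℂ) where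
  carrier := {g | TestC Ω g}
  add_mem' := fun ha hb => TestC.add ha hb
  zero_mem' := TestC.zero
  smul_mem' := fun c _ h => TestC.const_mul h c

theorem diffAt (hΩ : IsOpen Ω) {f : V → ℂ} (hf : ContDiffOn ℝ ∞ f Ω) {x : V} (hx : x ∈ Ω) :
    DifferentiableAt ℝ f x :=
  (hf.contDiffAt (hΩ.mem_nhds hx)).differentiableAt (by simp)

theorem cd_smul {a b : V → V} {f : V → ℂ} {x : V} (hf : DifferentiableAt ℝ f x) (c : ℂ) :
    cd a b (fun y => c * f y) x = c * cd a b f x := by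
  rw [cd_mul (differentiableAt_const c) hf]
  have : cd a b (fun _ : V => c) x = 0 := by simp [cd]
  rw [this]; ring

theorem conj_X {j : ι} {g : V → ℂ} {x : V} (hg : DifferentiableAt ℝ g x) :
    conj (S.X j g x) = S.Y j (fun y => conj (g y)) x := (cd_conj' hg).symm

theorem conj_Y {j : ι} {g : V → ℂ} {x : V} (hg : DifferentiableAt ℝ g x) :
    conj (S.Y j g x) = S.X j (fun y => conj (g y)) x := (cd_conj hg).symm

theorem conj_dY (j : ι) (x : V) : conj (S.dY j x) = S.dX j x := by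
  simp [Fam.dX, Fam.dY]

theorem conj_PP (hΩ : IsOpen Ω) (hS : S.Sm Ω) {w : V → ℝ} (hw : ContDiffOn ℝ ∞ w Ω) {g : V → ℂ}
    (hg : TestC Ω g) (x : V) : conj (S.PP w g x) = S.QQ w (fun y => conj (g y)) x := by
  unfold Fam.PP Fam.QQ
  rw [map_sum]
  refine Finset.sum_congr rfl fun j _ => ?_
  have hF : TestC Ω (fun y => (w y : ℂ) * S.X j g y) :=
    (hS.X_test hΩ j hg).mul_on hΩ (contDiffOn_ofReal hw)
  have e : (fun y => conj ((w y : ℂ) * S.X j g y)) =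
      fun y => (w y : ℂ) * S.Y j (fun y => conj (g y)) y := by
    funext y
    rw [map_mul, Complex.conj_ofReal, conj_X (hg.differentiable y)]
  unfold Fam.Yt Fam.Xt
  rw [map_add, map_mul, conj_Y (hF.differentiable x), conj_dY, e]
  congr 2
  exact congrFun e x

theorem QQ_add (hΩ : IsOpen Ω) (hS : S.Sm Ω) {w : V → ℝ} (hw : ContDiffOn ℝ ∞ w Ω) {f g : V → ℂ}
    (hf : TestC Ω f) (hg : TestC Ω g) (x : V) :
    S.QQ w (fun y => f y + g y) x = S.QQ w f x + S.QQ w g x := by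
  unfold Fam.QQ
  rw [← Finset.sum_add_distrib]
  refine Finset.sum_congr rfl fun j _ => ?_
  have hF : TestC Ω (fun y => (w y : ℂ) * S.Y j f y) :=
    (hS.Y_test hΩ j hf).mul_on hΩ (contDiffOn_ofReal hw)
  have hG : TestC Ω (fun y => (w y : ℂ) * S.Y j g y) :=
    (hS.Y_test hΩ j hg).mul_on hΩ (contDiffOn_ofReal hw)
  have e : (fun y => (w y : ℂ) * S.Y j (fun y => f y + g y) y) =
      fun y => (w y : ℂ) * S.Y j f y + (w y : ℂ) * S.Y j g y := by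
    funext y
    unfold Fam.Y
    rw [cd_add (hf.differentiable y) (hg.differentiable y)]; ring
  rw [e]
  unfold Fam.Xt Fam.X
  rw [cd_add (hF.differentiable x) (hG.differentiable x)]; ring

theorem QQ_smul (hΩ : IsOpen Ω) (hS : S.Sm Ω) {w : V → ℝ} (hw : ContDiffOn ℝ ∞ w Ω) {f : V → ℂ}
    (hf : TestC Ω f) (c : ℂ) (x : V) :
    S.QQ w (fun y => c * f y) x = c * S.QQ w f x := by
  unfold Fam.QQ
  rw [Finset.mul_sum]
  refine Finset.sum_congr rfl fun j _ => ?_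
  have hF : TestC Ω (fun y => (w y : ℂ) * S.Y j f y) :=
    (hS.Y_test hΩ j hf).mul_on hΩ (contDiffOn_ofReal hw)
  have e : (fun y => (w y : ℂ) * S.Y j (fun y => c * f y) y) =
      fun y => c * ((w y : ℂ) * S.Y j f y) := by
    funext y
    unfold Fam.Y
    rw [cd_smul (hf.differentiable y)]; ring
  rw [e]
  unfold Fam.Xt Fam.X
  rw [cd_smul (hF.differentiable x)]; ring

/-- the weak form against smooth functions -/
theorem int_QQ (hΩ : IsOpen Ω) (hS : S.Sm Ω) {w : V → ℝ} (hw : ContDiffOn ℝ ∞ w Ω) {f κ : V → ℂ}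
    (hf : ContDiffOn ℝ ∞ f Ω) (hκ : TestC Ω κ) :
    ∫ x, f x * S.QQ w κ x = - ∫ x, ∑ j, S.X j f x * ((w x : ℂ) * S.Y j κ x) := by
  have hF : ∀ j, TestC Ω (fun y => (w y : ℂ) * S.Y j κ y) := fun j =>
    (hS.Y_test hΩ j hκ).mul_on hΩ (contDiffOn_ofReal hw)
  have e : (fun x => f x * S.QQ w κ x) =
      fun x => ∑ j, f x * S.Xt j (fun y => (w y : ℂ) * S.Y j κ y) x := by
    funext x; unfold Fam.QQ; rw [Finset.mul_sum]
  rw [e, integral_finsetSum, integral_finsetSum, ← Finset.sum_neg_distrib]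
  · refine Finset.sum_congr rfl fun j _ => ?_
    have := hS.ibpX hΩ j hf (hF j)
    rw [this, neg_neg]
  · intro j _
    exact ((hF j).mul_on hΩ (hS.X_on hΩ j hf)).integrable
  · intro j _
    exact ((hS.Xt_test hΩ j (hF j)).mul_on hΩ hf).integrable

theorem sum_cs (w : ℝ) (hw : 0 ≤ w) (a b : ι → ℂ) :
    ‖∑ j, a j * ((w : ℂ) * b j)‖ ≤
      Real.sqrt ((∑ j, ‖a j‖ ^ 2) * w) * Real.sqrt ((∑ j, ‖b j‖ ^ 2) * w) := by
  have h1 : ‖∑ j, a j * ((w : ℂ) * b j)‖ ≤ w * ∑ j, ‖a j‖ * ‖b j‖ := by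
    refine (norm_sum_le _ _).trans ?_
    rw [Finset.mul_sum]
    refine Finset.sum_le_sum fun j _ => le_of_eq ?_
    rw [norm_mul, norm_mul, Complex.norm_real, Real.norm_of_nonneg hw]; ring
  refine h1.trans ?_
  rw [← Real.sqrt_mul (mul_nonneg (Finset.sum_nonneg fun _ _ => sq_nonneg _) hw)]
  apply Real.le_sqrt_of_sq_le
  have h2 := Finset.sum_mul_sq_le_sq_mul_sq Finset.univ (fun j => ‖a j‖) (fun j => ‖b j‖)
  calc (w * ∑ j, ‖a j‖ * ‖b j‖) ^ 2 = w ^ 2 * (∑ j, ‖a j‖ * ‖b j‖) ^ 2 := by ring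
    _ ≤ w ^ 2 * ((∑ j, ‖a j‖ ^ 2) * ∑ j, ‖b j‖ ^ 2) := by gcongr
    _ = _ := by ring

theorem Y_eq_zero {κ : V → ℂ} (hκ : TestC Ω κ) {x : V} (hx : x ∉ Ω) (j : ι) :
    S.Y j κ x = 0 := by
  have : x ∉ tsupport κ := fun h => hx (hκ.2.2 h)
  simp [Fam.Y, cd, hκ.fderiv_eq_zero this]

theorem X_eq_zero {κ : V → ℂ} (hκ : TestC Ω κ) {x : V} (hx : x ∉ Ω) (j : ι) :
    S.X j κ x = 0 := by
  have : x ∉ tsupport κ := fun h => hx (hκ.2.2 h)
  simp [Fam.X, cd, hκ.fderiv_eq_zero this]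

theorem norm_Y_conj {g : V → ℂ} (hg : Differentiable ℝ g) (j : ι) (x : V) :
    ‖S.Y j g x‖ = ‖S.X j (fun y => conj (g y)) x‖ := by
  rw [← conj_Y (hg x), RCLike.norm_conj]

/-- the functional is bounded -/
theorem bound (hΩ : IsOpen Ω) (hS : S.Sm Ω) {w1 w2 : V → ℝ}
    (hw2 : ContDiffOn ℝ ∞ w2 Ω) (hw2p : ∀ x ∈ Ω, 0 < w2 x)
    (hE : ∀ g, TestC Ω g → ∫ x, (∑ j, ‖S.X j g x‖ ^ 2) * w2 x ≤ ∫ x, ‖S.PP w2 g x‖ ^ 2 / w1 x)
    {s0 : V → ℂ} (hs0 : ContDiffOn ℝ ∞ s0 Ω) {M : ℝ} (hM0 : 0 ≤ M)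
    (hMi : IntegrableOn (fun x => (∑ j, ‖S.X j s0 x‖ ^ 2) * w2 x) Ω)
    (hM : ∫ x in Ω, (∑ j, ‖S.X j s0 x‖ ^ 2) * w2 x ≤ M) {κ : V → ℂ} (hκ : TestC Ω κ) :
    ‖∫ x, s0 x * S.QQ w2 κ x‖ ^ 2 ≤ M * ∫ x, ‖S.QQ w2 κ x‖ ^ 2 / w1 x := by
  set A : V → ℝ := fun x => Ω.indicator (fun x => (∑ j, ‖S.X j s0 x‖ ^ 2) * w2 x) x with hA
  set B : V → ℝ := fun x => Ω.indicator (fun x => (∑ j, ‖S.Y j κ x‖ ^ 2) * w2 x) x with hB
  have hA0 : ∀ x, 0 ≤ A x := by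
    intro x
    refine indicator_nonneg (fun y hy => ?_) x
    exact mul_nonneg (Finset.sum_nonneg fun _ _ => sq_nonneg _) (hw2p y hy).le
  have hB0 : ∀ x, 0 ≤ B x := by
    intro x
    refine indicator_nonneg (fun y hy => ?_) x
    exact mul_nonneg (Finset.sum_nonneg fun _ _ => sq_nonneg _) (hw2p y hy).le
  have hAi : Integrable A := (integrable_indicator_iff hΩ.measurableSet).2 hMi
  have hBe : B = fun x => (∑ j, ‖S.Y j κ x‖ ^ 2) * w2 x := by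
    funext x
    by_cases hx : x ∈ Ω
    · simp [hB, indicator_of_mem hx]
    · have : ∀ j, S.Y j κ x = 0 := Y_eq_zero hκ hx
      simp [hB, indicator_of_notMem hx, this]
  have hBt : TestC Ω (fun x => ((w2 x : ℂ)) * ∑ j, S.Y j κ x * conj (S.Y j κ x)) := by
    refine TestC.mul_on hΩ (TestC.sum _ fun j _ => ?_) (contDiffOn_ofReal hw2)
    exact (hS.Y_test hΩ j hκ).conj.mul_on hΩ (hS.Y_test hΩ j hκ).1.contDiffOn
  have hBi : Integrable B := by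
    have h1 := hBt.integrable.re
    refine h1.congr (Eventually.of_forall fun x => ?_)
    rw [hBe]
    simp only [RCLike.re_to_complex]
    simp_rw [Complex.mul_conj, Complex.normSq_eq_norm_sq]
    rw [← Complex.ofReal_sum, ← Complex.ofReal_mul, Complex.ofReal_re, mul_comm]
  have hpt : ∀ x, ‖∑ j, S.X j s0 x * ((w2 x : ℂ) * S.Y j κ x)‖ ≤
      Real.sqrt (A x) * Real.sqrt (B x) := by
    intro x
    by_cases hx : x ∈ Ω
    · simp only [hA, hB, indicator_of_mem hx]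
      exact sum_cs _ (hw2p x hx).le _ _
    · have : ∀ j, S.Y j κ x = 0 := Y_eq_zero hκ hx
      simp only [this, mul_zero, Finset.sum_const_zero, norm_zero]
      exact mul_nonneg (Real.sqrt_nonneg _) (Real.sqrt_nonneg _)
  obtain ⟨hi, hcs⟩ := cs_int hAi hBi hA0 hB0
  have h1 : ‖∫ x, s0 x * S.QQ w2 κ x‖ ≤ ∫ x, Real.sqrt (A x) * Real.sqrt (B x) := by
    rw [int_QQ hΩ hS hw2 hs0 hκ, norm_neg]
    exact norm_integral_le_of_norm_le hi (Eventually.of_forall hpt)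
  have h2 := pow_le_pow_left₀ (norm_nonneg _) h1 2
  have h3 : ∫ x, A x ≤ M := by
    simp only [hA]
    rw [integral_indicator hΩ.measurableSet]
    exact hM
  have h4 : ∫ x, B x ≤ ∫ x, ‖S.QQ w2 κ x‖ ^ 2 / w1 x := by
    have h5 := hE _ hκ.conj
    have e1 : ∀ x, ‖S.PP w2 (fun y => conj (κ y)) x‖ = ‖S.QQ w2 κ x‖ := by
      intro x
      rw [← RCLike.norm_conj, conj_PP hΩ hS hw2 hκ.conj]
      simp
    simp only [e1] at h5
    refine le_trans (le_of_eq ?_) h5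
    refine integral_congr_ae (Eventually.of_forall fun x => ?_)
    have e2 : ∀ j, ‖S.Y j κ x‖ = ‖S.X j (fun y => conj (κ y)) x‖ := fun j =>
      norm_Y_conj hκ.differentiable j x
    have e3 : B x = (∑ j, ‖S.Y j κ x‖ ^ 2) * w2 x := congrFun hBe x
    show B x = (∑ j, ‖S.X j (fun y => conj (κ y)) x‖ ^ 2) * w2 x
    rw [e3]
    simp only [e2]
  have hBpos : 0 ≤ ∫ x, B x := integral_nonneg hB0
  calc ‖∫ x, s0 x * S.QQ w2 κ x‖ ^ 2 ≤ _ := h2
    _ ≤ (∫ x, A x) * ∫ x, B x := hcs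
    _ ≤ M * ∫ x, B x := by gcongr
    _ ≤ _ := by gcongr

/-- **the weak solution** -/
theorem weak_sol (hΩ : IsOpen Ω) (hS : S.Sm Ω) {w1 w2 : V → ℝ}
    (hw1 : ContDiffOn ℝ ∞ w1 Ω) (hw1p : ∀ x ∈ Ω, 0 < w1 x)
    (hw2 : ContDiffOn ℝ ∞ w2 Ω) (hw2p : ∀ x ∈ Ω, 0 < w2 x)
    (hE : ∀ g, TestC Ω g → ∫ x, (∑ j, ‖S.X j g x‖ ^ 2) * w2 x ≤ ∫ x, ‖S.PP w2 g x‖ ^ 2 / w1 x)
    {s0 : V → ℂ} (hs0 : ContDiffOn ℝ ∞ s0 Ω) {M : ℝ} (hM0 : 0 ≤ M)
    (hMi : IntegrableOn (fun x => (∑ j, ‖S.X j s0 x‖ ^ 2) * w2 x) Ω)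
    (hM : ∫ x in Ω, (∑ j, ‖S.X j s0 x‖ ^ 2) * w2 x ≤ M) :
    ∃ u : V → ℂ, LocallyIntegrableOn u Ω ∧ (∀ κ, TestC Ω κ →
      ∫ x, u x * S.QQ w2 κ x = ∫ x, s0 x * S.QQ w2 κ x) ∧
      IntegrableOn (fun x => ‖u x‖ ^ 2 * w1 x) Ω ∧ ∫ x in Ω, ‖u x‖ ^ 2 * w1 x ≤ M := by
  -- the weight `1/√w1`
  set r : V → ℝ := fun x => (Real.sqrt (w1 x))⁻¹ with hr
  have hrs : ContDiffOn ℝ ∞ r Ω := by
    intro x hx
    have h1 := (hw1 x hx)
    have h2 : ContDiffWithinAt ℝ ∞ (fun x => Real.sqrt (w1 x)) Ω x :=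
      h1.sqrt (hw1p x hx).ne'
    exact h2.inv (Real.sqrt_pos.2 (hw1p x hx)).ne'
  have hr0 : ∀ x ∈ Ω, 0 < r x := fun x hx => inv_pos.2 (Real.sqrt_pos.2 (hw1p x hx))
  have hr2 : ∀ x ∈ Ω, r x ^ 2 * w1 x = 1 := by
    intro x hx
    rw [hr, inv_pow, Real.sq_sqrt (hw1p x hx).le, inv_mul_cancel₀ (hw1p x hx).ne']
  have hPt : ∀ κ : testSub Ω, TestC Ω (fun x => (r x : ℂ) * S.QQ w2 (κ : V → ℂ) x) := fun κ =>
    (hS.QQ_test hΩ hw2 κ.2).mul_on hΩ (contDiffOn_ofReal hrs)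
  let P : testSub Ω →ₗ[ℂ] (V → ℂ) :=
    { toFun := fun κ x => (r x : ℂ) * S.QQ w2 (κ : V → ℂ) x
      map_add' := by
        intro κ κ'
        funext x
        have := QQ_add hΩ hS hw2 κ.2 κ'.2 x
        simp only [Pi.add_apply]
        rw [← mul_add, ← this]
        rfl
      map_smul' := by
        intro c κ
        funext x
        have := QQ_smul hΩ hS hw2 κ.2 c x
        simp only [RingHom.id_apply, Pi.smul_apply, smul_eq_mul]
        rw [mul_left_comm, ← this]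
        rfl }
  let Λ : testSub Ω →ₗ[ℂ] ℂ :=
    { toFun := fun κ => ∫ x, s0 x * S.QQ w2 (κ : V → ℂ) x
      map_add' := by
        intro κ κ'
        rw [← integral_add]
        · congr 1; funext x
          have := QQ_add hΩ hS hw2 κ.2 κ'.2 x
          rw [← mul_add, ← this]
          rfl
        · exact ((hS.QQ_test hΩ hw2 κ.2).mul_on hΩ hs0).integrable
        · exact ((hS.QQ_test hΩ hw2 κ'.2).mul_on hΩ hs0).integrable
      map_smul' := by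
        intro c κ
        rw [RingHom.id_apply, smul_eq_mul, ← integral_const_mul]
        congr 1; funext x
        have := QQ_smul hΩ hS hw2 κ.2 c x
        rw [mul_left_comm, ← this]
        rfl }
  have hPn : ∀ κ : testSub Ω, ∫ x, ‖P κ x‖ ^ 2 = ∫ x, ‖S.QQ w2 (κ : V → ℂ) x‖ ^ 2 / w1 x := by
    intro κ
    congr 1; funext x
    show ‖(r x : ℂ) * S.QQ w2 (κ : V → ℂ) x‖ ^ 2 = _
    by_cases hx : x ∈ Ω
    · rw [norm_mul, mul_pow, Complex.norm_real, Real.norm_of_nonneg (hr0 x hx).le,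
        eq_div_iff (hw1p x hx).ne']
      have := hr2 x hx
      calc r x ^ 2 * ‖S.QQ w2 (κ : V → ℂ) x‖ ^ 2 * w1 x
          = (r x ^ 2 * w1 x) * ‖S.QQ w2 (κ : V → ℂ) x‖ ^ 2 := by ring
        _ = _ := by rw [this, one_mul]
    · have h1 : S.QQ w2 (κ : V → ℂ) x = 0 :=
        (hS.QQ_test hΩ hw2 κ.2).eq_zero fun h => hx ((hS.QQ_test hΩ hw2 κ.2).2.2 h)
      rw [h1]; simp
  obtain ⟨U, hU, hU2, hU3⟩ := riesz_L2 (μ := (volume : Measure V)) P
    (fun κ => (hPt κ).continuous.memLp_of_hasCompactSupport (hPt κ).2.1) Λ hM0 (by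
      intro κ
      rw [hPn κ]
      exact bound hΩ hS hw2 hw2p hE hs0 hM0 hMi hM κ.2)
  refine ⟨fun x => (r x : ℂ) * U x, ?_, ?_, ?_, ?_⟩
  · have hUl : LocallyIntegrableOn U Ω :=
      (hU.locallyIntegrable (by norm_num)).locallyIntegrableOn Ω
    have := hUl.continuousOn_mul (g := fun x => (r x : ℂ)) (by
      exact (contDiffOn_ofReal hrs).continuousOn) hΩ.isLocallyClosed
    exact this
  · intro κ hκ
    have h1 := hU3 ⟨κ, hκ⟩
    have h2 : (∫ x, s0 x * S.QQ w2 κ x) = Λ ⟨κ, hκ⟩ := rfl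
    rw [h2, h1]
    congr 1; funext x
    show (r x : ℂ) * U x * S.QQ w2 κ x = U x * ((r x : ℂ) * S.QQ w2 κ x)
    ring
  · have h1 : Integrable (fun x => ‖U x‖ ^ 2) := hU.integrable_norm_pow (by norm_num)
    refine (h1.integrableOn (s := Ω)).congr_fun (fun x hx => ?_) hΩ.measurableSet
    show ‖U x‖ ^ 2 = ‖(r x : ℂ) * U x‖ ^ 2 * w1 x
    rw [norm_mul, mul_pow, Complex.norm_real, Real.norm_of_nonneg (hr0 x hx).le]
    have := hr2 x hx
    calc ‖U x‖ ^ 2 = (r x ^ 2 * w1 x) * ‖U x‖ ^ 2 := by rw [this, one_mul]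
      _ = _ := by ring
  · have h1 : Integrable (fun x => ‖U x‖ ^ 2) := hU.integrable_norm_pow (by norm_num)
    have h2 : ∫ x in Ω, ‖(r x : ℂ) * U x‖ ^ 2 * w1 x = ∫ x in Ω, ‖U x‖ ^ 2 := by
      refine setIntegral_congr_fun hΩ.measurableSet fun x hx => ?_
      show ‖(r x : ℂ) * U x‖ ^ 2 * w1 x = ‖U x‖ ^ 2
      rw [norm_mul, mul_pow, Complex.norm_real, Real.norm_of_nonneg (hr0 x hx).le]
      have := hr2 x hx
      calc r x ^ 2 * ‖U x‖ ^ 2 * w1 x = (r x ^ 2 * w1 x) * ‖U x‖ ^ 2 := by ring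
        _ = _ := by rw [this, one_mul]
    rw [h2]
    refine le_trans ?_ hU2
    exact setIntegral_le_integral h1 (Eventually.of_forall fun x => by positivity)

end Crest.Agent.R260.NN2_900
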