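import Crest.Agent.R260.NN2_900

/-!
# Row 260, local Newlander-Nirenberg: completeness, existence (helper900)
-/

set_option autoImplicit false
set_option linter.unusedSectionVars false
set_option linter.deprecated false
set_option maxHeartbeats 400000

noncomputable section

open MeasureTheory Filter Topology Set
open scoped ENNReal NNReal ContDiff ComplexConjugate

namespace Crest.Agent.R260.NN3_900

open NN0_900 NN1_900 NN2_900

variable {V : Type*} [NormedAddCommGroup V] [InnerProductSpace ℝ V] [FiniteDimensional ℝ V]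
  [MeasurableSpace V] [BorelSpace V] {Ω : Set V} {ι : Type*} [Fintype ι] {S : Fam ι V}

theorem re_mul_conj_sum (c : ℝ) (a : ι → ℂ) :
    ((c : ℂ) * ∑ j, a j * conj (a j)).re = c * ∑ j, ‖a j‖ ^ 2 := by
  simp_rw [Complex.mul_conj, Complex.normSq_eq_norm_sq]
  rw [← Complex.ofReal_sum, ← Complex.ofReal_mul, Complex.ofReal_re]

theorem Y_real {η : V → ℝ} (hη : TestC Ω (fun x => (η x : ℂ))) (j : ι) (x : V) :
    ‖S.Y j (fun x => (η x : ℂ)) x‖ = ‖S.X j (fun x => (η x : ℂ)) x‖ := by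
  rw [norm_Y_conj hη.differentiable]
  simp

/-- Caccioppoli -/
theorem caccio (hΩ : IsOpen Ω) (hS : S.Sm Ω) {w : V → ℝ} (hw : ContDiffOn ℝ ∞ w Ω)
    (hwp : ∀ x ∈ Ω, 0 < w x) {s : V → ℂ} (hs : ContDiffOn ℝ ∞ s Ω)
    (h0 : ∀ κ, TestC Ω κ → ∫ x, s x * S.QQ w κ x = 0) {η : V → ℝ}
    (hη : TestC Ω (fun x => (η x : ℂ))) :
    Integrable (fun x => η x ^ 2 * (w x * ∑ j, ‖S.X j s x‖ ^ 2)) ∧
    Integrable (fun x => ‖s x‖ ^ 2 * (w x * ∑ j, ‖S.X j (fun x => (η x : ℂ)) x‖ ^ 2)) ∧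
    ∫ x, η x ^ 2 * (w x * ∑ j, ‖S.X j s x‖ ^ 2) ≤
      4 * ∫ x, ‖s x‖ ^ 2 * (w x * ∑ j, ‖S.X j (fun x => (η x : ℂ)) x‖ ^ 2) := by
  have hsc : ContDiffOn ℝ ∞ (fun x => conj (s x)) Ω :=
    Complex.conjCLE.contDiff.comp_contDiffOn hs
  have hη2 : TestC Ω (fun x => (η x : ℂ) * (η x : ℂ)) := hη.mul_on hΩ hη.1.contDiffOn
  set κ : V → ℂ := fun x => conj (s x) * ((η x : ℂ) * (η x : ℂ)) with hκd
  have hκ : TestC Ω κ := hη2.mul_on hΩ hsc
  have hXs : ∀ j, ContDiffOn ℝ ∞ (S.X j s) Ω := fun j => hS.X_on hΩ j hs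
  have hXsc : ∀ j, ContDiffOn ℝ ∞ (fun x => conj (S.X j s x)) Ω := fun j =>
    Complex.conjCLE.contDiff.comp_contDiffOn (hXs j)
  have hYη : ∀ j, TestC Ω (S.Y j (fun x => (η x : ℂ))) := fun j => hS.Y_test hΩ j hη
  -- three test functions
  set T1 : V → ℂ := fun x => ((w x : ℂ) * ∑ j, S.X j s x * conj (S.X j s x)) *
    ((η x : ℂ) * (η x : ℂ)) with hT1d
  set T2 : V → ℂ := fun x => ∑ j, (2 * (w x : ℂ) * (η x : ℂ) * conj (s x) * S.X j s x) *
    S.Y j (fun x => (η x : ℂ)) x with hT2d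
  set T3 : V → ℂ := fun x => (s x * conj (s x)) * ((w x : ℂ) *
    ∑ j, S.Y j (fun x => (η x : ℂ)) x * conj (S.Y j (fun x => (η x : ℂ)) x)) with hT3d
  have hT1 : TestC Ω T1 := hη2.mul_on hΩ ((contDiffOn_ofReal hw).mul
    (ContDiffOn.sum fun j _ => (hXs j).mul (hXsc j)))
  have hT2 : TestC Ω T2 := TestC.sum _ fun j _ => (hYη j).mul_on hΩ
    ((((contDiffOn_const.mul (contDiffOn_ofReal hw)).mul hη.1.contDiffOn).mul hsc).mul (hXs j))
  have hT3 : TestC Ω T3 := ((TestC.sum _ fun j _ =>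
    ((hYη j).conj.mul_on hΩ (hYη j).1.contDiffOn)).mul_on hΩ (contDiffOn_ofReal hw)).mul_on hΩ
      (hs.mul hsc)
  have hηr : ∀ x, conj ((η x : ℂ)) = (η x : ℂ) := fun x => Complex.conj_ofReal _
  have hT1r : ∀ x, (T1 x).re = η x ^ 2 * (w x * ∑ j, ‖S.X j s x‖ ^ 2) := by
    intro x
    have : T1 x = ((η x ^ 2 : ℝ) : ℂ) * ((w x : ℂ) * ∑ j, S.X j s x * conj (S.X j s x)) := by
      simp only [hT1d]; push_cast; ring
    rw [this, Complex.re_ofReal_mul, re_mul_conj_sum]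
  have hT3r : ∀ x, (T3 x).re =
      ‖s x‖ ^ 2 * (w x * ∑ j, ‖S.X j (fun x => (η x : ℂ)) x‖ ^ 2) := by
    intro x
    have : T3 x = ((‖s x‖ ^ 2 : ℝ) : ℂ) * ((w x : ℂ) *
        ∑ j, S.Y j (fun x => (η x : ℂ)) x * conj (S.Y j (fun x => (η x : ℂ)) x)) := by
      simp only [hT3d]
      rw [Complex.mul_conj, Complex.normSq_eq_norm_sq]
    rw [this, Complex.re_ofReal_mul, re_mul_conj_sum]
    simp only [Y_real hη]
  -- the pointwise identity
  have hid : ∀ x, ∑ j, S.X j s x * ((w x : ℂ) * S.Y j κ x) = T1 x + T2 x := by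
    intro x
    by_cases hx : x ∈ Ω
    · have hsx := diffAt hΩ hs hx
      have hscx := diffAt hΩ hsc hx
      have hY : ∀ j, S.Y j κ x = conj (s x) * (2 * (η x : ℂ) * S.Y j (fun x => (η x : ℂ)) x) +
          ((η x : ℂ) * (η x : ℂ)) * conj (S.X j s x) := by
        intro j
        have h1 : S.Y j κ x = conj (s x) * S.Y j (fun x => (η x : ℂ) * (η x : ℂ)) x +
            ((η x : ℂ) * (η x : ℂ)) * S.Y j (fun x => conj (s x)) x :=
          cd_mul hscx (hη2.differentiable x)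
        have h2 : S.Y j (fun x => (η x : ℂ) * (η x : ℂ)) x =
            (η x : ℂ) * S.Y j (fun x => (η x : ℂ)) x + (η x : ℂ) * S.Y j (fun x => (η x : ℂ)) x :=
          cd_mul (hη.differentiable x) (hη.differentiable x)
        rw [h1, h2, ← conj_X hsx]; ring
      simp only [hY, hT1d, hT2d, Finset.mul_sum, Finset.sum_mul]
      rw [← Finset.sum_add_distrib]
      exact Finset.sum_congr rfl fun j _ => by ring
    · have h1 : ∀ j, S.Y j κ x = 0 := Y_eq_zero hκ hx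
      have h2 : T1 x = 0 := hT1.eq_zero fun h => hx (hT1.2.2 h)
      have h3 : T2 x = 0 := hT2.eq_zero fun h => hx (hT2.2.2 h)
      simp [h1, h2, h3]
  have key : ∫ x, T1 x + T2 x = 0 := by
    have h1 := h0 κ hκ
    rw [int_QQ hΩ hS hw hs hκ, neg_eq_zero] at h1
    simpa only [hid] using h1
  rw [integral_add hT1.integrable hT2.integrable] at key
  have i1 : Integrable (fun x => η x ^ 2 * (w x * ∑ j, ‖S.X j s x‖ ^ 2)) :=
    hT1.integrable.re.congr (Eventually.of_forall fun x => by simpa using hT1r x)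
  have i3 : Integrable (fun x => ‖s x‖ ^ 2 * (w x * ∑ j, ‖S.X j (fun x => (η x : ℂ)) x‖ ^ 2)) :=
    hT3.integrable.re.congr (Eventually.of_forall fun x => by simpa using hT3r x)
  refine ⟨i1, i3, ?_⟩
  have e1 : ∫ x, η x ^ 2 * (w x * ∑ j, ‖S.X j s x‖ ^ 2) = (∫ x, T1 x).re := by
    have := integral_re (𝕜 := ℂ) hT1.integrable
    simp only [RCLike.re_to_complex] at this
    rw [← this]
    exact integral_congr_ae (Eventually.of_forall fun x => (hT1r x).symm)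
  have hT2b : ∀ x, ‖T2 x‖ ≤ (1 / 2) * (η x ^ 2 * (w x * ∑ j, ‖S.X j s x‖ ^ 2)) +
      2 * (‖s x‖ ^ 2 * (w x * ∑ j, ‖S.X j (fun x => (η x : ℂ)) x‖ ^ 2)) := by
    intro x
    by_cases hx : x ∈ Ω
    · have hwx := hwp x hx
      calc ‖T2 x‖ ≤ ∑ j, ‖(2 * (w x : ℂ) * (η x : ℂ) * conj (s x) * S.X j s x) *
            S.Y j (fun x => (η x : ℂ)) x‖ := norm_sum_le _ _
        _ ≤ ∑ j, w x * ((1 / 2) * (η x ^ 2 * ‖S.X j s x‖ ^ 2) +
            2 * (‖s x‖ ^ 2 * ‖S.X j (fun x => (η x : ℂ)) x‖ ^ 2)) := by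
          refine Finset.sum_le_sum fun j _ => ?_
          simp only [norm_mul, RCLike.norm_conj, Complex.norm_real, Real.norm_of_nonneg hwx.le,
            Y_real hη, RCLike.norm_ofNat]
          set p := |η x| * ‖S.X j s x‖ with hp
          set q := ‖s x‖ * ‖S.X j (fun x => (η x : ℂ)) x‖ with hq
          have h1 : η x ^ 2 * ‖S.X j s x‖ ^ 2 = p ^ 2 := by
            rw [hp, mul_pow, sq_abs]
          have h2 : ‖s x‖ ^ 2 * ‖S.X j (fun x => (η x : ℂ)) x‖ ^ 2 = q ^ 2 := by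
            rw [hq, mul_pow]
          rw [h1, h2]
          have h3 : 2 * w x * ‖η x‖ * ‖s x‖ * ‖S.X j s x‖ *
              ‖S.X j (fun x => (η x : ℂ)) x‖ = w x * (2 * p * q) := by
            rw [hp, hq, Real.norm_eq_abs]; ring
          rw [h3]
          refine mul_le_mul_of_nonneg_left ?_ hwx.le
          nlinarith [sq_nonneg (p - 2 * q)]
        _ = _ := by
          rw [← Finset.mul_sum, Finset.sum_add_distrib, ← Finset.mul_sum, ← Finset.mul_sum,
            ← Finset.mul_sum, ← Finset.mul_sum]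
          ring
    · have h3 : T2 x = 0 := hT2.eq_zero fun h => hx (hT2.2.2 h)
      have h4 : (η x : ℂ) = 0 := hη.eq_zero fun h => hx (hη.2.2 h)
      have h5 : η x = 0 := by exact_mod_cast h4
      have h6 : ∀ j, S.X j (fun x => (η x : ℂ)) x = 0 := X_eq_zero hη hx
      simp [h3, h5, h6]
  have h7 : ‖∫ x, T2 x‖ ≤ (1 / 2) * (∫ x, η x ^ 2 * (w x * ∑ j, ‖S.X j s x‖ ^ 2)) +
      2 * ∫ x, ‖s x‖ ^ 2 * (w x * ∑ j, ‖S.X j (fun x => (η x : ℂ)) x‖ ^ 2) := by
    refine (norm_integral_le_of_norm_le ((i1.const_mul _).add (i3.const_mul _))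
      (Eventually.of_forall hT2b)).trans (le_of_eq ?_)
    rw [← integral_const_mul, ← integral_const_mul, ← integral_add (i1.const_mul _)
      (i3.const_mul _)]
    rfl
  have h8 : (∫ x, T1 x).re ≤ ‖∫ x, T2 x‖ := by
    have : (∫ x, T1 x) = - ∫ x, T2 x := eq_neg_of_add_eq_zero_left key
    rw [this]
    refine (Complex.re_le_norm _).trans ?_
    rw [norm_neg]
  rw [← e1] at h8
  linarith

/-- completeness: a weak solution in `L²(w1)` is killed by all `X_j` -/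
theorem complete (hΩ : IsOpen Ω) (hS : S.Sm Ω) {w1 w : V → ℝ} (hw : ContDiffOn ℝ ∞ w Ω)
    (hwp : ∀ x ∈ Ω, 0 < w x) {s : V → ℂ} (hs : ContDiffOn ℝ ∞ s Ω)
    (h0 : ∀ κ, TestC Ω κ → ∫ x, s x * S.QQ w κ x = 0)
    (hs1 : IntegrableOn (fun x => ‖s x‖ ^ 2 * w1 x) Ω)
    {η : ℕ → V → ℝ} (hη : ∀ ν, TestC Ω (fun x => (η ν x : ℂ)))
    (hη1 : ∀ x ∈ Ω, ∀ᶠ ν in atTop, ∀ᶠ y in 𝓝 x, η ν y = 1) {C : ℝ}
    (hηC : ∀ ν, ∀ x ∈ Ω, w x * (∑ j, ‖S.X j (fun y => (η ν y : ℂ)) x‖ ^ 2) ≤ C * w1 x) :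
    ∀ j, ∀ x ∈ Ω, S.X j s x = 0 := by
  set F : V → ℝ := fun x => w x * ∑ j, ‖S.X j s x‖ ^ 2 with hF
  have hF0 : ∀ x ∈ Ω, 0 ≤ F x := fun x hx =>
    mul_nonneg (hwp x hx).le (Finset.sum_nonneg fun _ _ => sq_nonneg _)
  have hFc : ContinuousOn F Ω := by
    refine hw.continuousOn.mul ?_
    refine continuousOn_finsetSum _ fun j _ => ?_
    exact ((hS.X_on hΩ j hs).continuousOn.norm).pow 2
  set I : ℕ → ℝ := fun ν => ∫ x, ‖s x‖ ^ 2 * (w x * ∑ j, ‖S.X j (fun y => (η ν y : ℂ)) x‖ ^ 2)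
    with hI
  have hlim : Tendsto I atTop (𝓝 0) := by
    have h1 : Tendsto I atTop (𝓝 (∫ _ : V, (0 : ℝ))) := by
      refine tendsto_integral_of_dominated_convergence
        (Ω.indicator fun x => C * (‖s x‖ ^ 2 * w1 x)) ?_ ?_ ?_ ?_
      · intro ν
        exact (caccio hΩ hS hw hwp hs h0 (hη ν)).2.1.1
      · exact (integrable_indicator_iff hΩ.measurableSet).2 (hs1.const_mul C)
      · intro ν
        refine Eventually.of_forall fun x => ?_
        by_cases hx : x ∈ Ω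
        · rw [indicator_of_mem hx, Real.norm_of_nonneg (mul_nonneg (sq_nonneg _)
            (mul_nonneg (hwp x hx).le (Finset.sum_nonneg fun _ _ => sq_nonneg _)))]
          have := mul_le_mul_of_nonneg_left (hηC ν x hx) (sq_nonneg ‖s x‖)
          linarith
        · rw [indicator_of_notMem hx]
          have : ∀ j, S.X j (fun y => (η ν y : ℂ)) x = 0 := X_eq_zero (hη ν) hx
          simp [this]
      · refine Eventually.of_forall fun x => ?_
        by_cases hx : x ∈ Ω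
        · refine tendsto_const_nhds.congr' ?_
          filter_upwards [hη1 x hx] with ν hν
          have h2 : ∀ j, S.X j (fun y => (η ν y : ℂ)) x = 0 := by
            intro j
            have : (fun y => (η ν y : ℂ)) =ᶠ[𝓝 x] fun _ => 1 := by
              filter_upwards [hν] with y hy
              rw [hy]; simp
            simp only [Fam.X, cd, this.fderiv_eq]
            simp
          simp [h2]
        · have : ∀ ν j, S.X j (fun y => (η ν y : ℂ)) x = 0 := fun ν => X_eq_zero (hη ν) hx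
          simp only [this]
          simp
    simpa using h1
  -- Fatou
  have hfat : ∫⁻ x in Ω, ENNReal.ofReal (F x) = 0 := by
    have h1 : ∀ x ∈ Ω, ENNReal.ofReal (F x) =
        liminf (fun ν => ENNReal.ofReal (η ν x ^ 2 * F x)) atTop := by
      intro x hx
      have h2 : Tendsto (fun ν => ENNReal.ofReal (η ν x ^ 2 * F x)) atTop
          (𝓝 (ENNReal.ofReal (F x))) := by
        refine tendsto_const_nhds.congr' ?_
        filter_upwards [hη1 x hx] with ν hν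
        rw [hν.self_of_nhds]; simp
      exact h2.liminf_eq.symm
    have h3 : ∫⁻ x in Ω, ENNReal.ofReal (F x) =
        ∫⁻ x in Ω, liminf (fun ν => ENNReal.ofReal (η ν x ^ 2 * F x)) atTop :=
      setLIntegral_congr_fun hΩ.measurableSet h1
    rw [h3]
    refine le_antisymm ?_ zero_le
    refine (lintegral_liminf_le' fun ν => ?_).trans ?_
    · have := (caccio hΩ hS hw hwp hs h0 (hη ν)).1.1
      exact (this.aemeasurable.ennreal_ofReal).restrict
    · have h4 : ∀ ν, ∫⁻ x in Ω, ENNReal.ofReal (η ν x ^ 2 * F x) ≤ ENNReal.ofReal (4 * I ν) := by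
        intro ν
        obtain ⟨c1, c2, c3⟩ := caccio hΩ hS hw hwp hs h0 (hη ν)
        refine (setLIntegral_le_lintegral _ _).trans ?_
        rw [← ofReal_integral_eq_lintegral_ofReal c1]
        · exact ENNReal.ofReal_le_ofReal c3
        · refine Eventually.of_forall fun x => ?_
          by_cases hx : x ∈ Ω
          · exact mul_nonneg (sq_nonneg _) (hF0 x hx)
          · have h4 : (η ν x : ℂ) = 0 := (hη ν).eq_zero fun h => hx ((hη ν).2.2 h)
            have h5 : η ν x = 0 := by exact_mod_cast h4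
            simp [h5]
      have h5 : Tendsto (fun ν => ENNReal.ofReal (4 * I ν)) atTop (𝓝 0) := by
        have := (ENNReal.continuous_ofReal.tendsto _).comp (hlim.const_mul 4)
        rw [mul_zero, ENNReal.ofReal_zero] at this
        exact this
      calc liminf (fun ν => ∫⁻ x in Ω, ENNReal.ofReal (η ν x ^ 2 * F x)) atTop
          ≤ liminf (fun ν => ENNReal.ofReal (4 * I ν)) atTop :=
            liminf_le_liminf (Eventually.of_forall h4)
        _ = 0 := h5.liminf_eq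
  have hae : F =ᵐ[volume.restrict Ω] fun _ => 0 := by
    have hm : AEMeasurable (fun x => ENNReal.ofReal (F x)) (volume.restrict Ω) :=
      ((hFc.aestronglyMeasurable hΩ.measurableSet).aemeasurable).ennreal_ofReal
    have h1 := (lintegral_eq_zero_iff' hm).1 hfat
    have h2 : ∀ᵐ x ∂(volume.restrict Ω), x ∈ Ω := ae_restrict_mem hΩ.measurableSet
    filter_upwards [h1, h2] with x hx hxΩ
    have h3 : ENNReal.ofReal (F x) = 0 := hx
    exact le_antisymm (ENNReal.ofReal_eq_zero.1 h3) (hF0 x hxΩ)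
  have hF00 : ∀ x ∈ Ω, F x = 0 := fun x hx =>
    Measure.eqOn_open_of_ae_eq hae hΩ hFc continuousOn_const hx
  intro j x hx
  have h1 := hF00 x hx
  have h2 : ∑ j, ‖S.X j s x‖ ^ 2 = 0 := by
    rcases mul_eq_zero.1 h1 with h | h
    · exact absurd h (hwp x hx).ne'
    · exact h
  have h3 := (Finset.sum_eq_zero_iff_of_nonneg (fun _ _ => sq_nonneg _)).1 h2 j
    (Finset.mem_univ j)
  exact norm_eq_zero.1 (pow_eq_zero_iff (n := 2) (by norm_num) |>.1 h3)

/-- **existence** -/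
theorem exists_sol (hΩ : IsOpen Ω) (hS : S.Sm Ω) {w1 w2 : V → ℝ}
    (hw1 : ContDiffOn ℝ ∞ w1 Ω) (hw1p : ∀ x ∈ Ω, 0 < w1 x)
    (hw2 : ContDiffOn ℝ ∞ w2 Ω) (hw2p : ∀ x ∈ Ω, 0 < w2 x) (hreg : RegP S Ω w2)
    (hE : ∀ g, TestC Ω g → ∫ x, (∑ j, ‖S.X j g x‖ ^ 2) * w2 x ≤ ∫ x, ‖S.PP w2 g x‖ ^ 2 / w1 x)
    {s0 : V → ℂ} (hs0 : ContDiffOn ℝ ∞ s0 Ω)
    (hs01 : IntegrableOn (fun x => ‖s0 x‖ ^ 2 * w1 x) Ω) {M : ℝ} (hM0 : 0 ≤ M)
    (hMi : IntegrableOn (fun x => (∑ j, ‖S.X j s0 x‖ ^ 2) * w2 x) Ω)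
    (hM : ∫ x in Ω, (∑ j, ‖S.X j s0 x‖ ^ 2) * w2 x ≤ M)
    {η : ℕ → V → ℝ} (hη : ∀ ν, TestC Ω (fun x => (η ν x : ℂ)))
    (hη1 : ∀ x ∈ Ω, ∀ᶠ ν in atTop, ∀ᶠ y in 𝓝 x, η ν y = 1) {C : ℝ}
    (hηC : ∀ ν, ∀ x ∈ Ω, w2 x * (∑ j, ‖S.X j (fun y => (η ν y : ℂ)) x‖ ^ 2) ≤ C * w1 x) :
    ∃ u : V → ℂ, ContDiffOn ℝ ∞ u Ω ∧ (∀ j, ∀ x ∈ Ω, S.X j u x = S.X j s0 x) ∧
      IntegrableOn (fun x => ‖u x‖ ^ 2 * w1 x) Ω ∧ ∫ x in Ω, ‖u x‖ ^ 2 * w1 x ≤ M := by
  obtain ⟨u1, hu1, hu2, hu3, hu4⟩ := weak_sol hΩ hS hw1 hw1p hw2 hw2p hE hs0 hM0 hMi hM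
  have hs0l : LocallyIntegrableOn s0 Ω :=
    hs0.continuousOn.locallyIntegrableOn hΩ.measurableSet
  have hloc : LocallyIntegrableOn (fun x => s0 x - u1 x) Ω := hs0l.sub hu1
  have hz : ∀ κ, TestC Ω κ → ∫ x, (s0 x - u1 x) * S.QQ w2 κ x = 0 := by
    intro κ hκ
    have hQ := hS.QQ_test hΩ hw2 hκ
    have i1 : Integrable (fun x => s0 x * S.QQ w2 κ x) := (hQ.mul_on hΩ hs0).integrable
    have i2 : Integrable (fun x => u1 x * S.QQ w2 κ x) := by
      have h1 : IntegrableOn u1 (tsupport (S.QQ w2 κ)) :=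
        hu1.integrableOn_compact_subset hQ.2.2 hQ.2.1
      have h2 : IntegrableOn (fun x => u1 x * S.QQ w2 κ x) (tsupport (S.QQ w2 κ)) :=
        h1.mul_continuousOn hQ.continuous.continuousOn hQ.2.1
      refine (integrableOn_iff_integrable_of_support_subset ?_).1 h2
      intro x hx
      by_contra hc
      apply hx
      simp only
      rw [image_eq_zero_of_notMem_tsupport hc, mul_zero]
    have : (fun x => (s0 x - u1 x) * S.QQ w2 κ x) =
        fun x => s0 x * S.QQ w2 κ x - u1 x * S.QQ w2 κ x := by funext x; ring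
    rw [this, integral_sub i1 i2, hu2 κ hκ, sub_self]
  obtain ⟨s, hs, hsu⟩ := hreg _ hloc hz
  have hsz : ∀ κ, TestC Ω κ → ∫ x, s x * S.QQ w2 κ x = 0 := by
    intro κ hκ
    have hQ := hS.QQ_test hΩ hw2 hκ
    rw [← hz κ hκ]
    apply integral_congr_ae
    filter_upwards [hsu] with x hx
    by_cases hxΩ : x ∈ Ω
    · rw [hx hxΩ]
    · have : S.QQ w2 κ x = 0 := hQ.eq_zero fun h => hxΩ (hQ.2.2 h)
      rw [this, mul_zero, mul_zero]
  have hue : ∀ᵐ x ∂(volume.restrict Ω), s0 x - s x = u1 x := by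
    rw [ae_restrict_iff' hΩ.measurableSet]
    filter_upwards [hsu] with x hx hxΩ
    rw [hx hxΩ]; ring
  have hui : IntegrableOn (fun x => ‖s0 x - s x‖ ^ 2 * w1 x) Ω := by
    refine hu3.congr ?_
    filter_upwards [hue] with x hx
    rw [hx]
  have hs1 : IntegrableOn (fun x => ‖s x‖ ^ 2 * w1 x) Ω := by
    refine Integrable.mono' ((hs01.const_mul 2).add (hui.const_mul 2)) ?_ ?_
    · refine (ContinuousOn.aestronglyMeasurable ?_ hΩ.measurableSet)
      exact (hs.continuousOn.norm.pow 2).mul hw1.continuousOn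
    · rw [ae_restrict_iff' hΩ.measurableSet]
      refine Eventually.of_forall fun x hx => ?_
      have hw := hw1p x hx
      rw [Real.norm_of_nonneg (mul_nonneg (sq_nonneg _) hw.le)]
      show ‖s x‖ ^ 2 * w1 x ≤ 2 * (‖s0 x‖ ^ 2 * w1 x) + 2 * (‖s0 x - s x‖ ^ 2 * w1 x)
      have h1 : ‖s x‖ ≤ ‖s0 x‖ + ‖s0 x - s x‖ := by
        have := norm_sub_le (s0 x) (s0 x - s x)
        rwa [sub_sub_cancel] at this
      have h2 : ‖s x‖ ^ 2 ≤ 2 * ‖s0 x‖ ^ 2 + 2 * ‖s0 x - s x‖ ^ 2 := by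
        nlinarith [norm_nonneg (s x), norm_nonneg (s0 x), norm_nonneg (s0 x - s x),
          sq_nonneg (‖s0 x‖ - ‖s0 x - s x‖)]
      nlinarith
  have hX := complete hΩ hS hw2 hw2p hs hsz hs1 hη hη1 hηC
  refine ⟨fun x => s0 x - s x, hs0.sub hs, ?_, hui, ?_⟩
  · intro j x hx
    have h1 := hX j x hx
    have h2 := diffAt hΩ hs0 hx
    have h3 := diffAt hΩ hs hx
    have : S.X j (fun x => s0 x - s x) x = S.X j s0 x - S.X j s x := by
      simp only [Fam.X, cd]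
      rw [fderiv_fun_sub h2 h3]
      simp only [ContinuousLinearMap.sub_apply]
      ring
    rw [this, h1, sub_zero]
  · refine le_trans (le_of_eq ?_) hu4
    apply integral_congr_ae
    filter_upwards [hue] with x hx
    rw [hx]

end Crest.Agent.R260.NN3_900
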