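import Crest.Agent.R260.NN3_900

/-!
# Row 260, local Newlander-Nirenberg: the limit `ε → 0` (helper900)
-/

set_option autoImplicit false
set_option linter.unusedSectionVars false
set_option linter.deprecated false
set_option maxHeartbeats 400000

noncomputable section

open MeasureTheory Filter Topology Set
open scoped ENNReal NNReal ContDiff ComplexConjugate

namespace Crest.Agent.R260.NN4_900

open NN0_900 NN1_900 NN2_900 NN3_900

variable {V : Type*} [NormedAddCommGroup V] [InnerProductSpace ℝ V] [FiniteDimensional ℝ V]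
  [MeasurableSpace V] [BorelSpace V] {Ω : Set V} {ι : Type*} [Fintype ι] {S : Fam ι V}

/-- continuous on `Ω`, zero outside a closed subset of `Ω` -/
theorem cont_of_zero (hΩ : IsOpen Ω) {W : Type*} [TopologicalSpace W] [Zero W]
    {f : V → W} {K : Set V} (hK : IsClosed K) (hKΩ : K ⊆ Ω) (hf : ContinuousOn f Ω)
    (h0 : ∀ x ∉ K, f x = 0) : Continuous f := by
  rw [continuous_iff_continuousAt]
  intro x
  by_cases hx : x ∈ Ω
  · exact hf.continuousAt (hΩ.mem_nhds hx)
  · have hx' : x ∈ Kᶜ := fun h => hx (hKΩ h)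
    refine (continuousAt_const (y := (0 : W))).congr_of_eventuallyEq ?_
    filter_upwards [hK.isOpen_compl.mem_nhds hx'] with y hy
    exact h0 y hy

theorem cs_of_zero {W : Type*} [Zero W] [TopologicalSpace W]
    {f : V → W} {K : Set V} (hK : IsCompact K) (h0 : ∀ x ∉ K, f x = 0) : HasCompactSupport f :=
  HasCompactSupport.intro hK fun x hx => h0 x hx

theorem Xt_add (hΩ : IsOpen Ω) (hS : S.Sm Ω) (j : ι) {f g : V → ℂ}
    (hf : TestC Ω f) (hg : TestC Ω g) (x : V) :
    S.Xt j (fun y => f y + g y) x = S.Xt j f x + S.Xt j g x := by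
  unfold Fam.Xt Fam.X
  rw [cd_add (hf.differentiable x) (hg.differentiable x)]; ring

theorem Xt_smul (j : ι) {f : V → ℂ} (hf : TestC Ω f) (c : ℂ) (x : V) :
    S.Xt j (fun y => c * f y) x = c * S.Xt j f x := by
  unfold Fam.Xt Fam.X
  rw [cd_smul (hf.differentiable x)]; ring

/-- `∑_j Xt_j h_j` -/
def RR (S : Fam ι V) (h : ι → V → ℂ) (x : V) : ℂ := ∑ j, S.Xt j (h j) x

theorem RR_test (hΩ : IsOpen Ω) (hS : S.Sm Ω) {h : ι → V → ℂ} (hh : ∀ j, TestC Ω (h j)) :
    TestC Ω (RR S h) := TestC.sum _ fun j _ => hS.Xt_test hΩ j (hh j)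

theorem int_RR (hΩ : IsOpen Ω) (hS : S.Sm Ω) {h : ι → V → ℂ} (hh : ∀ j, TestC Ω (h j))
    {f : V → ℂ} (hf : ContDiffOn ℝ ∞ f Ω) :
    ∫ x, f x * RR S h x = - ∫ x, ∑ j, S.X j f x * h j x := by
  have e : (fun x => f x * RR S h x) = fun x => ∑ j, f x * S.Xt j (h j) x := by
    funext x; unfold RR; rw [Finset.mul_sum]
  rw [e, integral_finsetSum, integral_finsetSum, ← Finset.sum_neg_distrib]
  · refine Finset.sum_congr rfl fun j _ => ?_
    have := hS.ibpX hΩ j hf (hh j)
    rw [this, neg_neg]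
  · intro j _
    exact ((hh j).mul_on hΩ (hS.X_on hΩ j hf)).integrable
  · intro j _
    exact ((hS.Xt_test hΩ j (hh j)).mul_on hΩ hf).integrable

/-- the bound for one weight -/
theorem bound_one (hΩ : IsOpen Ω) {w : V → ℝ} (hw : ContinuousOn w Ω)
    (hwp : ∀ x ∈ Ω, 0 < w x) {u R : V → ℂ} (hR : TestC Ω R) {M : ℝ} (hM0 : 0 ≤ M)
    (hui : IntegrableOn (fun x => ‖u x‖ ^ 2 * w x) Ω) (hu : ∫ x in Ω, ‖u x‖ ^ 2 * w x ≤ M) :
    ‖∫ x, u x * R x‖ ^ 2 ≤ M * ∫ x, ‖R x‖ ^ 2 / w x := by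
  set A : V → ℝ := fun x => Ω.indicator (fun x => ‖u x‖ ^ 2 * w x) x with hA
  set B : V → ℝ := fun x => ‖R x‖ ^ 2 / |w x| with hB
  have hA0 : ∀ x, 0 ≤ A x := fun x => indicator_nonneg
    (fun y hy => mul_nonneg (sq_nonneg _) (hwp y hy).le) x
  have hB0 : ∀ x, 0 ≤ B x := fun x => div_nonneg (sq_nonneg _) (abs_nonneg _)
  have hR0 : ∀ x ∉ tsupport R, R x = 0 := fun x hx => hR.eq_zero hx
  have hBc : Continuous B := by
    refine cont_of_zero hΩ (isClosed_tsupport R) hR.2.2 ?_ ?_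
    · refine ((hR.continuous.norm.pow 2).continuousOn).div hw.abs ?_
      intro x hx; exact (abs_pos.2 (hwp x hx).ne').ne'
    · intro x hx; simp [hB, hR0 x hx]
  have hBs : HasCompactSupport B := cs_of_zero hR.2.1 fun x hx => by simp [hB, hR0 x hx]
  have hAi : Integrable A := (integrable_indicator_iff hΩ.measurableSet).2 hui
  have hBi : Integrable B := hBc.integrable_of_hasCompactSupport hBs
  obtain ⟨hi, hcs⟩ := cs_int hAi hBi hA0 hB0
  have hpt : ∀ x, ‖u x * R x‖ ≤ Real.sqrt (A x) * Real.sqrt (B x) := by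
    intro x
    by_cases hx : x ∈ Ω
    · have hwx := hwp x hx
      rw [← Real.sqrt_mul (hA0 x)]
      apply Real.le_sqrt_of_sq_le
      simp only [hA, hB, indicator_of_mem hx, abs_of_pos hwx]
      rw [norm_mul, mul_pow]
      field_simp
      exact le_rfl
    · rw [hR0 x fun h => hx (hR.2.2 h), mul_zero, norm_zero]
      exact mul_nonneg (Real.sqrt_nonneg _) (Real.sqrt_nonneg _)
  have h1 : ‖∫ x, u x * R x‖ ≤ ∫ x, Real.sqrt (A x) * Real.sqrt (B x) :=
    norm_integral_le_of_norm_le hi (Eventually.of_forall hpt)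
  have h2 := pow_le_pow_left₀ (norm_nonneg _) h1 2
  have h3 : ∫ x, A x ≤ M := by
    simp only [hA]
    rw [integral_indicator hΩ.measurableSet]
    exact hu
  have h4 : ∫ x, B x = ∫ x, ‖R x‖ ^ 2 / w x := by
    refine integral_congr_ae (Eventually.of_forall fun x => ?_)
    by_cases hx : x ∈ Ω
    · simp only [hB, abs_of_pos (hwp x hx)]
    · simp [hB, hR0 x fun h => hx (hR.2.2 h)]
  have hBpos : 0 ≤ ∫ x, B x := integral_nonneg hB0
  calc ‖∫ x, u x * R x‖ ^ 2 ≤ _ := h2
    _ ≤ (∫ x, A x) * ∫ x, B x := hcs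
    _ ≤ M * ∫ x, B x := by gcongr
    _ = _ := by rw [h4]

/-- **the limit**: a weak solution with the singular weight -/
theorem weak_limit (hΩ : IsOpen Ω) (hS : S.Sm Ω) {s0 : V → ℂ} (hs0 : ContDiffOn ℝ ∞ s0 Ω)
    {w : ℕ → V → ℝ} (hw : ∀ k, ContinuousOn (w k) Ω) (hwp : ∀ k, ∀ x ∈ Ω, 0 < w k x)
    {G H : V → ℝ} (hG : ContinuousOn G Ω) (hG0 : ∀ x ∈ Ω, 0 ≤ G x) (hH : ContinuousOn H Ω)
    (hwG : ∀ x ∈ Ω, Tendsto (fun k => (w k x)⁻¹) atTop (𝓝 (G x)))
    (hwH : ∀ k, ∀ x ∈ Ω, (w k x)⁻¹ ≤ H x) {M : ℝ} (hM0 : 0 ≤ M)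
    (hu : ∀ k, ∃ u : V → ℂ, ContDiffOn ℝ ∞ u Ω ∧ (∀ j, ∀ x ∈ Ω, S.X j u x = S.X j s0 x) ∧
      IntegrableOn (fun x => ‖u x‖ ^ 2 * w k x) Ω ∧ ∫ x in Ω, ‖u x‖ ^ 2 * w k x ≤ M) :
    ∃ U : V → ℂ, MemLp U 2 ∧ ∀ h : ι → V → ℂ, (∀ j, TestC Ω (h j)) →
      ∫ x, s0 x * RR S h x = ∫ x, ((Real.sqrt (G x) : ℂ) * U x) * RR S h x := by
  -- the bound for every weight and in the limit
  have hk : ∀ h : ι → V → ℂ, (∀ j, TestC Ω (h j)) → ∀ k,
      ‖∫ x, s0 x * RR S h x‖ ^ 2 ≤ M * ∫ x, ‖RR S h x‖ ^ 2 / w k x := by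
    intro h hh k
    obtain ⟨u, hus, hux, hui, hu2⟩ := hu k
    have e1 : ∫ x, s0 x * RR S h x = ∫ x, u x * RR S h x := by
      rw [int_RR hΩ hS hh hs0, int_RR hΩ hS hh hus]
      congr 1
      refine integral_congr_ae (Eventually.of_forall fun x => ?_)
      refine Finset.sum_congr rfl fun j _ => ?_
      by_cases hx : x ∈ Ω
      · rw [hux j x hx]
      · rw [(hh j).eq_zero fun h' => hx ((hh j).2.2 h'), mul_zero, mul_zero]
    rw [e1]
    exact bound_one hΩ (hw k) (hwp k) (RR_test hΩ hS hh) hM0 hui hu2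
  have hlim : ∀ h : ι → V → ℂ, (∀ j, TestC Ω (h j)) →
      ‖∫ x, s0 x * RR S h x‖ ^ 2 ≤ M * ∫ x, ‖RR S h x‖ ^ 2 * G x := by
    intro h hh
    have hR := RR_test hΩ hS hh
    have hR0 : ∀ x ∉ tsupport (RR S h), RR S h x = 0 := fun x hx => hR.eq_zero hx
    have ht : Tendsto (fun k => ∫ x, ‖RR S h x‖ ^ 2 / w k x) atTop
        (𝓝 (∫ x, ‖RR S h x‖ ^ 2 * G x)) := by
      refine tendsto_integral_of_dominated_convergence (fun x => ‖RR S h x‖ ^ 2 * H x) ?_ ?_ ?_ ?_
      · intro k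
        refine Continuous.aestronglyMeasurable ?_
        refine cont_of_zero hΩ (isClosed_tsupport _) hR.2.2 ?_ ?_
        · exact ((hR.continuous.norm.pow 2).continuousOn).div (hw k)
            fun x hx => (hwp k x hx).ne'
        · intro x hx; simp [hR0 x hx]
      · refine Continuous.integrable_of_hasCompactSupport ?_ ?_
        · refine cont_of_zero hΩ (isClosed_tsupport _) hR.2.2 ?_ ?_
          · exact ((hR.continuous.norm.pow 2).continuousOn).mul hH
          · intro x hx; simp [hR0 x hx]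
        · exact cs_of_zero hR.2.1 fun x hx => by simp [hR0 x hx]
      · intro k
        refine Eventually.of_forall fun x => ?_
        by_cases hx : x ∈ Ω
        · rw [Real.norm_of_nonneg (div_nonneg (sq_nonneg _) (hwp k x hx).le), div_eq_mul_inv]
          exact mul_le_mul_of_nonneg_left (hwH k x hx) (sq_nonneg _)
        · simp [hR0 x fun h' => hx (hR.2.2 h')]
      · refine Eventually.of_forall fun x => ?_
        by_cases hx : x ∈ Ω
        · simp only [div_eq_mul_inv]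
          exact (hwG x hx).const_mul _
        · simp [hR0 x fun h' => hx (hR.2.2 h')]
    exact le_of_tendsto_of_tendsto' tendsto_const_nhds (ht.const_mul M) (hk h hh)
  -- Riesz
  have hGs : ContinuousOn (fun x => (Real.sqrt (G x) : ℂ)) Ω :=
    Complex.continuous_ofReal.comp_continuousOn hG.sqrt
  let P : (ι → testSub Ω) →ₗ[ℂ] (V → ℂ) :=
    { toFun := fun h x => (Real.sqrt (G x) : ℂ) * RR S (fun j => (h j : V → ℂ)) x
      map_add' := by
        intro h h'
        funext x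
        simp only [Pi.add_apply]
        rw [← mul_add]
        congr 1
        unfold RR
        rw [← Finset.sum_add_distrib]
        refine Finset.sum_congr rfl fun j _ => ?_
        rw [← Xt_add hΩ hS j (h j).2 (h' j).2]
        rfl
      map_smul' := by
        intro c h
        funext x
        simp only [RingHom.id_apply, Pi.smul_apply, smul_eq_mul]
        rw [mul_left_comm]
        congr 1
        unfold RR
        rw [Finset.mul_sum]
        refine Finset.sum_congr rfl fun j _ => ?_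
        rw [← Xt_smul j (h j).2]
        rfl }
  have hRRadd : ∀ h h' : ι → testSub Ω, ∀ x, RR S (fun j => ((h + h') j : V → ℂ)) x =
      RR S (fun j => (h j : V → ℂ)) x + RR S (fun j => (h' j : V → ℂ)) x := by
    intro h h' x
    unfold RR
    rw [← Finset.sum_add_distrib]
    refine Finset.sum_congr rfl fun j _ => ?_
    rw [← Xt_add hΩ hS j (h j).2 (h' j).2]
    rfl
  have hRRsmul : ∀ (c : ℂ) (h : ι → testSub Ω), ∀ x, RR S (fun j => ((c • h) j : V → ℂ)) x =
      c * RR S (fun j => (h j : V → ℂ)) x := by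
    intro c h x
    unfold RR
    rw [Finset.mul_sum]
    refine Finset.sum_congr rfl fun j _ => ?_
    rw [← Xt_smul j (h j).2]
    rfl
  let Λ : (ι → testSub Ω) →ₗ[ℂ] ℂ :=
    { toFun := fun h => ∫ x, s0 x * RR S (fun j => (h j : V → ℂ)) x
      map_add' := by
        intro h h'
        rw [← integral_add]
        · refine integral_congr_ae (Eventually.of_forall fun x => ?_)
          show s0 x * RR S (fun j => ((h + h') j : V → ℂ)) x = _
          rw [hRRadd, mul_add]
        · exact ((RR_test hΩ hS fun j => (h j).2).mul_on hΩ hs0).integrable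
        · exact ((RR_test hΩ hS fun j => (h' j).2).mul_on hΩ hs0).integrable
      map_smul' := by
        intro c h
        rw [RingHom.id_apply, smul_eq_mul, ← integral_const_mul]
        refine integral_congr_ae (Eventually.of_forall fun x => ?_)
        show s0 x * RR S (fun j => ((c • h) j : V → ℂ)) x = _
        rw [hRRsmul, mul_left_comm] }
  have hPm : ∀ h, MemLp (P h) 2 (volume : Measure V) := by
    intro h
    have hR := RR_test hΩ hS fun j => (h j).2
    have hR0 : ∀ x ∉ tsupport (RR S fun j => (h j : V → ℂ)), P h x = 0 := by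
      intro x hx
      show (Real.sqrt (G x) : ℂ) * RR S (fun j => (h j : V → ℂ)) x = 0
      rw [hR.eq_zero hx, mul_zero]
    have hc : Continuous (P h) :=
      cont_of_zero hΩ (isClosed_tsupport _) hR.2.2 (hGs.mul hR.continuous.continuousOn) hR0
    exact hc.memLp_of_hasCompactSupport (cs_of_zero hR.2.1 hR0)
  obtain ⟨U, hU, -, hU3⟩ := riesz_L2 (μ := (volume : Measure V)) P hPm Λ hM0 (by
    intro h
    refine (hlim (fun j => (h j : V → ℂ)) fun j => (h j).2).trans (le_of_eq ?_)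
    congr 1
    refine integral_congr_ae (Eventually.of_forall fun x => ?_)
    show ‖RR S (fun j => (h j : V → ℂ)) x‖ ^ 2 * G x =
      ‖(Real.sqrt (G x) : ℂ) * RR S (fun j => (h j : V → ℂ)) x‖ ^ 2
    by_cases hx : x ∈ Ω
    · rw [norm_mul, mul_pow, Complex.norm_real, Real.norm_of_nonneg (Real.sqrt_nonneg _),
        Real.sq_sqrt (hG0 x hx), mul_comm]
    · have hR := RR_test hΩ hS fun j => (h j).2
      rw [hR.eq_zero fun h' => hx (hR.2.2 h')]
      simp)
  refine ⟨U, hU, fun h hh => ?_⟩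
  have h1 := hU3 (fun j => ⟨h j, hh j⟩)
  have h2 : (∫ x, s0 x * RR S h x) = Λ (fun j => ⟨h j, hh j⟩) := rfl
  rw [h2, h1]
  refine integral_congr_ae (Eventually.of_forall fun x => ?_)
  show U x * ((Real.sqrt (G x) : ℂ) * RR S h x) = (Real.sqrt (G x) : ℂ) * U x * RR S h x
  ring

/-- a smooth function orthogonal to all `Xt_j h` is killed by `X_j` -/
theorem X_zero_of_weak (hΩ : IsOpen Ω) (hS : S.Sm Ω) {s : V → ℂ} (hs : ContDiffOn ℝ ∞ s Ω)
    {j : ι} (h : ∀ κ, TestC Ω κ → ∫ x, s x * S.Xt j κ x = 0) : ∀ x ∈ Ω, S.X j s x = 0 := by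
  have hX := hS.X_on hΩ j hs
  have hl : LocallyIntegrableOn (S.X j s) Ω :=
    hX.continuousOn.locallyIntegrableOn hΩ.measurableSet
  have h1 : ∀ᵐ x ∂(volume : Measure V), x ∈ Ω → S.X j s x = 0 := by
    refine hΩ.ae_eq_zero_of_integral_contDiff_smul_eq_zero hl fun g hg hgc hgΩ => ?_
    have hT : TestC Ω (fun x => (g x : ℂ)) := by
      refine ⟨Complex.ofRealCLM.contDiff.comp hg, hgc.comp_left (g := fun z : ℝ => (z : ℂ))
        (by simp), ?_⟩
      refine (closure_minimal ?_ (isClosed_tsupport g)).trans hgΩ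
      intro x hx
      apply subset_tsupport
      intro h0
      apply hx
      simp [h0]
    have h2 := h _ hT
    have h3 := hS.ibpX hΩ j hs hT
    rw [h2, neg_zero] at h3
    rw [← h3]
    refine integral_congr_ae (Eventually.of_forall fun x => ?_)
    show g x • S.X j s x = S.X j s x * (g x : ℂ)
    rw [Complex.real_smul, mul_comm]
  have h2 : S.X j s =ᵐ[volume.restrict Ω] fun _ => 0 := by
    rw [Filter.EventuallyEq, ae_restrict_iff' hΩ.measurableSet]
    exact h1
  exact fun x hx => Measure.eqOn_open_of_ae_eq h2 hΩ hX.continuousOn continuousOn_const hx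

/-- **the limit solution**: `s` is killed by all `X_j` and `s0 - s = √G U`, `U ∈ L²`. -/
theorem exists_limit (hΩ : IsOpen Ω) (hS : S.Sm Ω) (hreg : RegP S Ω (fun _ => 1))
    {s0 : V → ℂ} (hs0 : ContDiffOn ℝ ∞ s0 Ω)
    {w : ℕ → V → ℝ} (hw : ∀ k, ContinuousOn (w k) Ω) (hwp : ∀ k, ∀ x ∈ Ω, 0 < w k x)
    {G H : V → ℝ} (hG : ContinuousOn G Ω) (hG0 : ∀ x ∈ Ω, 0 ≤ G x) (hH : ContinuousOn H Ω)
    (hwG : ∀ x ∈ Ω, Tendsto (fun k => (w k x)⁻¹) atTop (𝓝 (G x)))
    (hwH : ∀ k, ∀ x ∈ Ω, (w k x)⁻¹ ≤ H x) {M : ℝ} (hM0 : 0 ≤ M)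
    (hu : ∀ k, ∃ u : V → ℂ, ContDiffOn ℝ ∞ u Ω ∧ (∀ j, ∀ x ∈ Ω, S.X j u x = S.X j s0 x) ∧
      IntegrableOn (fun x => ‖u x‖ ^ 2 * w k x) Ω ∧ ∫ x in Ω, ‖u x‖ ^ 2 * w k x ≤ M) :
    ∃ s U : V → ℂ, ContDiffOn ℝ ∞ s Ω ∧ (∀ j, ∀ x ∈ Ω, S.X j s x = 0) ∧ MemLp U 2 ∧
      ∀ᵐ x, x ∈ Ω → s0 x - s x = (Real.sqrt (G x) : ℂ) * U x := by
  classical
  obtain ⟨U, hU, hUw⟩ := weak_limit hΩ hS hs0 hw hwp hG hG0 hH hwG hwH hM0 hu
  have hs0l : LocallyIntegrableOn s0 Ω :=
    hs0.continuousOn.locallyIntegrableOn hΩ.measurableSet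
  have hUl : LocallyIntegrableOn U Ω :=
    (hU.locallyIntegrable (by norm_num)).locallyIntegrableOn Ω
  have hUGl : LocallyIntegrableOn (fun x => (Real.sqrt (G x) : ℂ) * U x) Ω :=
    hUl.continuousOn_mul (Complex.continuous_ofReal.comp_continuousOn hG.sqrt)
      hΩ.isLocallyClosed
  have hloc : LocallyIntegrableOn (fun x => s0 x - (Real.sqrt (G x) : ℂ) * U x) Ω := hs0l.sub hUGl
  have hint : ∀ {R : V → ℂ}, TestC Ω R →
      Integrable (fun x => (Real.sqrt (G x) : ℂ) * U x * R x) := by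
    intro R hR
    have h1 : IntegrableOn (fun x => (Real.sqrt (G x) : ℂ) * U x) (tsupport R) :=
      hUGl.integrableOn_compact_subset hR.2.2 hR.2.1
    have h2 : IntegrableOn (fun x => (Real.sqrt (G x) : ℂ) * U x * R x) (tsupport R) :=
      h1.mul_continuousOn hR.continuous.continuousOn hR.2.1
    refine (integrableOn_iff_integrable_of_support_subset ?_).1 h2
    intro x hx
    by_contra hc
    apply hx
    simp only
    rw [image_eq_zero_of_notMem_tsupport hc, mul_zero]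
  have hz : ∀ h : ι → V → ℂ, (∀ j, TestC Ω (h j)) →
      ∫ x, (s0 x - (Real.sqrt (G x) : ℂ) * U x) * RR S h x = 0 := by
    intro h hh
    have hR := RR_test hΩ hS hh
    have : (fun x => (s0 x - (Real.sqrt (G x) : ℂ) * U x) * RR S h x) =
        fun x => s0 x * RR S h x - (Real.sqrt (G x) : ℂ) * U x * RR S h x := by funext x; ring
    rw [this, integral_sub (hR.mul_on hΩ hs0).integrable (hint hR), hUw h hh, sub_self]
  obtain ⟨s, hs, hsu⟩ := hreg _ hloc (by
    intro κ hκ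
    have h1 := hz (fun j y => ((1 : ℝ) : ℂ) * S.Y j κ y) fun j =>
      (hS.Y_test hΩ j hκ).const_mul _
    exact h1)
  refine ⟨s, U, hs, ?_, hU, ?_⟩
  · intro j
    refine X_zero_of_weak hΩ hS hs fun κ hκ => ?_
    have h1 := hz (fun i => if i = j then κ else fun _ => 0) fun i => by
      by_cases hij : i = j
      · simp only [hij, if_true]; exact hκ
      · simp only [hij, if_false]; exact TestC.zero
    have h2 : ∀ x, RR S (fun i => if i = j then κ else fun _ => 0) x = S.Xt j κ x := by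
      intro x
      unfold RR
      rw [Finset.sum_eq_single j]
      · simp
      · intro i _ hij
        simp only [hij, if_false]
        simp [Fam.Xt, Fam.X, cd]
      · intro h; exact absurd (Finset.mem_univ j) h
    simp only [h2] at h1
    rw [← h1]
    have hR := hS.Xt_test hΩ j hκ
    apply integral_congr_ae
    filter_upwards [hsu] with x hx
    by_cases hxΩ : x ∈ Ω
    · rw [hx hxΩ]
    · rw [hR.eq_zero fun h' => hxΩ (hR.2.2 h'), mul_zero, mul_zero]
  · filter_upwards [hsu] with x hx hxΩ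
    rw [hx hxΩ]; ring

end Crest.Agent.R260.NN4_900
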