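import Crest.Agent.R260.NNA4_17
import Crest.Agent.R260.ACM_580

/-!
# R260, NN-A (helper17), part 5: naturality of the Nijenhuis tensor, `CoreW → NNat`
-/

set_option autoImplicit false

open Set Filter Topology Complex Metric
open scoped ContDiff ComplexConjugate

namespace Crest.Agent.R260.NNA_17

noncomputable section

variable {n : ℕ}

theorem Nij_eq_580 {V : Type*} [NormedAddCommGroup V] [NormedSpace ℝ V] (J : V → V →L[ℝ] V)
    (z v w : V) : ACM_580.Nij J z v w = Nij J z v w := by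
  simp only [ACM_580.Nij, Nij, map_sub]; abel

section nat

variable {H : Type*} [NormedAddCommGroup H] [NormedSpace ℝ H]
variable {W : Type*} [NormedAddCommGroup W] [NormedSpace ℝ W]

/-- the Nijenhuis tensor through brackets of variable fields -/
theorem nij_eq_br {J : H → H →L[ℝ] H} {X Y : H → H} {x : H} (hJ : DifferentiableAt ℝ J x)
    (hX : DifferentiableAt ℝ X x) (hY : DifferentiableAt ℝ Y x)
    (hJJ : ∀ v, J x (J x v) = -v) :
    Nij J x (X x) (Y x) = br (fun y => J y (X y)) (fun y => J y (Y y)) x - br X Y x -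
      J x (br X (fun y => J y (Y y)) x + br (fun y => J y (X y)) Y x) := by
  have e1 := (hJ.hasFDerivAt.clm_apply hY.hasFDerivAt).fderiv
  have e2 := (hJ.hasFDerivAt.clm_apply hX.hasFDerivAt).fderiv
  simp only [br]
  rw [e1, e2]
  simp only [_root_.add_apply, ContinuousLinearMap.comp_apply,
    ContinuousLinearMap.flip_apply, map_sub, map_add, hJJ, Nij]
  abel

/-- naturality of the bracket -/
theorem br_nat {Φ : H → W} {x : H} (hΦ : ContDiffAt ℝ 2 Φ x) {X Y : H → H} {X' Y' : W → W}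
    (hX : DifferentiableAt ℝ X x) (hY : DifferentiableAt ℝ Y x)
    (hX' : DifferentiableAt ℝ X' (Φ x)) (hY' : DifferentiableAt ℝ Y' (Φ x))
    (eX : ∀ᶠ y in 𝓝 x, X' (Φ y) = fderiv ℝ Φ y (X y))
    (eY : ∀ᶠ y in 𝓝 x, Y' (Φ y) = fderiv ℝ Φ y (Y y)) :
    br X' Y' (Φ x) = fderiv ℝ Φ x (br X Y x) := by
  have hs : IsSymmSndFDerivAt ℝ Φ x := hΦ.isSymmSndFDerivAt (by simp)
  have hd : DifferentiableAt ℝ (fderiv ℝ Φ) x :=
    (hΦ.fderiv_right (m := 1) (by norm_num)).differentiableAt (by norm_num)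
  have hΦd : DifferentiableAt ℝ Φ x := hΦ.differentiableAt (by norm_num)
  have key : ∀ {Z : H → H} {Z' : W → W}, DifferentiableAt ℝ Z x → DifferentiableAt ℝ Z' (Φ x) →
      (∀ᶠ y in 𝓝 x, Z' (Φ y) = fderiv ℝ Φ y (Z y)) → ∀ v,
      fderiv ℝ Z' (Φ x) (fderiv ℝ Φ x v) = fderiv ℝ Φ x (fderiv ℝ Z x v) +
        fderiv ℝ (fderiv ℝ Φ) x v (Z x) := by
    intro Z Z' hZ hZ' eZ v
    have h1 : HasFDerivAt (fun y => Z' (Φ y)) ((fderiv ℝ Z' (Φ x)).comp (fderiv ℝ Φ x)) x :=
      hZ'.hasFDerivAt.comp x hΦd.hasFDerivAt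
    have h2 : HasFDerivAt (fun y => Z' (Φ y)) ((fderiv ℝ Φ x).comp (fderiv ℝ Z x) +
        (fderiv ℝ (fderiv ℝ Φ) x).flip (Z x)) x :=
      (hd.hasFDerivAt.clm_apply hZ.hasFDerivAt).congr_of_eventuallyEq eZ
    have h3 := congrArg (fun L : H →L[ℝ] W => L v) (h1.unique h2)
    simpa using h3
  simp only [br]
  rw [eX.self_of_nhds, eY.self_of_nhds, key hX hX' eX, key hY hY' eY, hs (X x) (Y x), map_sub]
  abel

/-- push-forward of a field of endomorphisms -/
def push (e : OpenPartialHomeomorph H W) (J : H → H →L[ℝ] H) (z : W) : W →L[ℝ] W :=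
  ((fderiv ℝ e (e.symm z)).comp (J (e.symm z))).comp (fderiv ℝ e.symm z)

variable {e : OpenPartialHomeomorph H W} (he : ContDiffOn ℝ ∞ e e.source)
  (he' : ContDiffOn ℝ ∞ e.symm e.target)

include he he' in
theorem symm_left {x : H} (hx : x ∈ e.source) (v : H) :
    fderiv ℝ e.symm (e x) (fderiv ℝ e x v) = v := by
  have h1 : HasFDerivAt e (fderiv ℝ e x) x :=
    ((he.contDiffAt (e.open_source.mem_nhds hx)).differentiableAt (by simp)).hasFDerivAt
  have h2 : HasFDerivAt e.symm (fderiv ℝ e.symm (e x)) (e x) :=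
    ((he'.contDiffAt (e.open_target.mem_nhds (e.map_source hx))).differentiableAt
      (by simp)).hasFDerivAt
  have h3 := h2.comp x h1
  have h4 : HasFDerivAt (fun y => e.symm (e y)) (ContinuousLinearMap.id ℝ H) x := by
    refine (hasFDerivAt_id x).congr_of_eventuallyEq ?_
    filter_upwards [e.open_source.mem_nhds hx] with y hy
    simp [e.left_inv hy]
  have h5 := congrArg (fun L : H →L[ℝ] H => L v) (h3.unique h4)
  simpa using h5

include he he' in
theorem symm_right {z : W} (hz : z ∈ e.target) (v : W) :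
    fderiv ℝ e (e.symm z) (fderiv ℝ e.symm z v) = v := by
  have hx := e.map_target hz
  have h1 : HasFDerivAt e (fderiv ℝ e (e.symm z)) (e.symm z) :=
    ((he.contDiffAt (e.open_source.mem_nhds hx)).differentiableAt (by simp)).hasFDerivAt
  have h2 : HasFDerivAt e.symm (fderiv ℝ e.symm z) z :=
    ((he'.contDiffAt (e.open_target.mem_nhds hz)).differentiableAt
      (by simp)).hasFDerivAt
  have h3 := h1.comp z h2
  have h4 : HasFDerivAt (fun y => e (e.symm y)) (ContinuousLinearMap.id ℝ W) z := by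
    refine (hasFDerivAt_id z).congr_of_eventuallyEq ?_
    filter_upwards [e.open_target.mem_nhds hz] with y hy
    simp [e.right_inv hy]
  have h5 := congrArg (fun L : W →L[ℝ] W => L v) (h3.unique h4)
  simpa using h5

variable {J : H → H →L[ℝ] H}

include he he' in
theorem push_apply {x : H} (hx : x ∈ e.source) (v : H) :
    push e J (e x) (fderiv ℝ e x v) = fderiv ℝ e x (J x v) := by
  simp only [push, ContinuousLinearMap.comp_apply, e.left_inv hx]
  rw [symm_left he he' hx]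

include he he' in
theorem push_sq (hJJ : ∀ x ∈ e.source, ∀ v, J x (J x v) = -v) {z : W} (hz : z ∈ e.target)
    (w : W) : push e J z (push e J z w) = -w := by
  have hx := e.map_target hz
  have h1 : push e J z w = fderiv ℝ e (e.symm z) (J (e.symm z) (fderiv ℝ e.symm z w)) := rfl
  have h2 := push_apply he he' (J := J) hx (J (e.symm z) (fderiv ℝ e.symm z w))
  rw [e.right_inv hz] at h2
  rw [h1, h2, hJJ _ hx, map_neg, symm_right he he' hz]

include he he' in
theorem push_smooth (hJ : ContDiffOn ℝ ∞ J e.source) : ContDiffOn ℝ ∞ (push e J) e.target := by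
  intro z hz
  have hx := e.map_target hz
  have h1 : ContDiffAt ℝ ∞ e.symm z := he'.contDiffAt (e.open_target.mem_nhds hz)
  have h2 : ContDiffAt ℝ ∞ (fderiv ℝ e) (e.symm z) :=
    (he.contDiffAt (e.open_source.mem_nhds hx)).fderiv_right (by simp)
  have h3 : ContDiffAt ℝ ∞ J (e.symm z) := hJ.contDiffAt (e.open_source.mem_nhds hx)
  have h4 : ContDiffAt ℝ ∞ (fderiv ℝ e.symm) z := h1.fderiv_right (by simp)
  exact (((h2.comp z h1).clm_comp (h3.comp z h1)).clm_comp h4).contDiffWithinAt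

include he he' in
theorem push_nij (hJ : ContDiffOn ℝ ∞ J e.source) (hJJ : ∀ x ∈ e.source, ∀ v, J x (J x v) = -v)
    (hN : ∀ x ∈ e.source, ∀ v w, Nij J x v w = 0) {z : W} (hz : z ∈ e.target) (v w : W) :
    Nij (push e J) z v w = 0 := by
  obtain ⟨x, hx, rfl⟩ : ∃ x ∈ e.source, e x = z := ⟨e.symm z, e.map_target hz, e.right_inv hz⟩
  have heA : ∀ y ∈ e.source, ContDiffAt ℝ ∞ e y := fun y hy =>
    he.contDiffAt (e.open_source.mem_nhds hy)
  have hΦ : ContDiffAt ℝ 2 e x := (heA x hx).of_le (by norm_cast)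
  have hsrc : ∀ᶠ y in 𝓝 x, y ∈ e.source := e.open_source.mem_nhds hx
  have hinv : ContDiffAt ℝ ∞ e.symm (e x) := he'.contDiffAt (e.open_target.mem_nhds hz)
  -- fields on `H`
  have hfld : ∀ u : W, DifferentiableAt ℝ (fun y => fderiv ℝ e.symm (e y) u) x := by
    intro u
    have h4 : ContDiffAt ℝ ∞ (fderiv ℝ e.symm) (e x) := hinv.fderiv_right (by simp)
    have h5 : ContDiffAt ℝ ∞ (fun y => fderiv ℝ e.symm (e y)) x := h4.comp x (heA x hx)
    exact (h5.differentiableAt (by simp)).clm_apply (differentiableAt_const u)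
  have hJx : DifferentiableAt ℝ J x :=
    (hJ.contDiffAt (e.open_source.mem_nhds hx)).differentiableAt (by simp)
  have hPd : DifferentiableAt ℝ (push e J) (e x) :=
    ((push_smooth he he' hJ).contDiffAt (e.open_target.mem_nhds hz)).differentiableAt (by simp)
  have hc : ∀ u : W, ∀ᶠ y in 𝓝 x, (fun _ : W => u) (e y) =
      fderiv ℝ e y (fderiv ℝ e.symm (e y) u) := by
    intro u
    filter_upwards [hsrc] with y hy
    have := symm_right he he' (e.map_source hy) u
    rw [e.left_inv hy] at this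
    exact this.symm
  have hc' : ∀ u : W, ∀ᶠ y in 𝓝 x, (fun ζ : W => push e J ζ u) (e y) =
      fderiv ℝ e y (J y (fderiv ℝ e.symm (e y) u)) := by
    intro u
    filter_upwards [hsrc] with y hy
    simp only [push, ContinuousLinearMap.comp_apply, e.left_inv hy]
  have hdc : ∀ u : W, DifferentiableAt ℝ (fun _ : W => u) (e x) := fun u => differentiableAt_const u
  have hdp : ∀ u : W, DifferentiableAt ℝ (fun ζ : W => push e J ζ u) (e x) := fun u =>
    hPd.clm_apply (differentiableAt_const u)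
  have hJf : ∀ u : W, DifferentiableAt ℝ (fun y => J y (fderiv ℝ e.symm (e y) u)) x := fun u =>
    hJx.clm_apply (hfld u)
  have h1 := nij_eq_br (J := push e J) (X := fun _ => v) (Y := fun _ => w) (x := e x) hPd
    (hdc v) (hdc w) (push_sq he he' hJJ hz)
  have h2 := nij_eq_br (J := J) (X := fun y => fderiv ℝ e.symm (e y) v)
    (Y := fun y => fderiv ℝ e.symm (e y) w) (x := x) hJx (hfld v) (hfld w) (hJJ x hx)
  rw [hN x hx] at h2
  rw [h1, br_nat hΦ (hJf v) (hJf w) (hdp v) (hdp w) (hc' v) (hc' w),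
    br_nat hΦ (hfld v) (hfld w) (hdc v) (hdc w) (hc v) (hc w),
    br_nat hΦ (hfld v) (hJf w) (hdc v) (hdp w) (hc v) (hc' w),
    br_nat hΦ (hJf v) (hfld w) (hdp v) (hdc w) (hc' v) (hc w), ← map_add,
    push_apply he he' hx, ← map_sub, ← map_sub, ← h2, map_zero]

end nat

/-- the analytic core on a model space `W` (JH hypotheses of helper680) -/
def CoreW (n : ℕ) (W : Type*) [NormedAddCommGroup W] [NormedSpace ℝ W] : Prop :=
  ∀ (J : W → W →L[ℝ] W) (R C : ℝ), 0 < R → ContDiffOn ℝ ∞ J (ball 0 R) →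
    (∀ x ∈ ball (0 : W) R, ∀ v, J x (J x v) = -v) →
    (∀ x ∈ ball (0 : W) R, ∀ v w, ACM_580.Nij J x v w = 0) →
    (∀ v, ‖J 0 v‖ = ‖v‖) →
    (∀ x ∈ ball (0 : W) R, ∀ v, ‖J x v - J 0 v‖ ≤ C * ‖x‖ ^ 2 * ‖v‖) →
    ∃ r : ℝ, 0 < r ∧ ∃ F : W → Cn n, ContDiffOn ℝ ∞ F (ball 0 r) ∧
      Function.Bijective (fderiv ℝ F 0) ∧
      ∀ z ∈ ball (0 : W) r, ∀ v, fderiv ℝ F z (J z v) = I • fderiv ℝ F z v

/-- `CoreW` on `EuclideanSpace ℝ (Fin (2 n))` -/
def CoreR (n : ℕ) : Prop := CoreW n (EuclideanSpace ℝ (Fin (2 * n)))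

set_option maxHeartbeats 1000000 in
theorem nnat_of_coreW {W : Type} [NormedAddCommGroup W] [NormedSpace ℝ W]
    (τ : Cn n ≃ₗᵢ[ℝ] W) (hc : CoreW n W) (V : Type) [NormedAddCommGroup V] [NormedSpace ℝ V]
    [FiniteDimensional ℝ V] (hn : Module.finrank ℝ V = 2 * n) : ACM_580.NNat V n := by
  intro U hU p hp J hJ hJJ hN
  have hN' : ∀ x ∈ U, ∀ v w, Nij J x v w = 0 := fun x hx v w => by
    rw [← Nij_eq_580]; exact hN x hx v w
  obtain ⟨e, hpe, heU, hep, hes, hes', hG, -, C, hC, hQ⟩ := exists_chart hn hU hp hJ hJJ hN'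
  -- compose with the isometry
  set e1 : OpenPartialHomeomorph V W := e.transHomeomorph τ.toHomeomorph with he1
  have hsrc : e1.source = e.source := rfl
  have he1c : ∀ x, e1 x = τ (e x) := fun x => rfl
  have he1s : ∀ z, e1.symm z = e.symm (τ.symm z) := fun z => rfl
  have hs1 : ContDiffOn ℝ ∞ e1 e1.source :=
    (τ.toContinuousLinearEquiv : Cn n →L[ℝ] W).contDiff.comp_contDiffOn hes
  have htgt : ∀ z, z ∈ e1.target ↔ τ.symm z ∈ e.target := fun z => Iff.rfl
  have hs1' : ContDiffOn ℝ ∞ e1.symm e1.target := by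
    have h1 : ContDiff ℝ ∞ (fun z : W => τ.symm z) :=
      (τ.symm.toContinuousLinearEquiv : W →L[ℝ] Cn n).contDiff
    exact hes'.comp h1.contDiffOn (fun z hz => (htgt z).1 hz)
  have hJ1 : ContDiffOn ℝ ∞ J e1.source := hJ.mono heU
  have hJJ1 : ∀ x ∈ e1.source, ∀ v, J x (J x v) = -v := fun x hx => hJJ x (heU hx)
  have hN1 : ∀ x ∈ e1.source, ∀ v w, Nij J x v w = 0 := fun x hx => hN' x (heU hx)
  have hp1 : e1 p = 0 := by rw [he1c, hep, map_zero]
  have h0t : (0 : W) ∈ e1.target := by rw [← hp1]; exact e1.map_source hpe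
  have hfd1 : ∀ x ∈ e1.source, ∀ v, fderiv ℝ e1 x v = τ (fderiv ℝ e x v) := by
    intro x hx v
    have h1 : HasFDerivAt e (fderiv ℝ e x) x :=
      ((hes.contDiffAt (e.open_source.mem_nhds hx)).differentiableAt (by simp)).hasFDerivAt
    have h2 : HasFDerivAt e1 ((τ.toContinuousLinearEquiv : Cn n →L[ℝ] W).comp (fderiv ℝ e x)) x :=
      (τ.toContinuousLinearEquiv : Cn n →L[ℝ] W).hasFDerivAt.comp x h1
    rw [h2.fderiv]; rfl
  -- a ball where everything is bounded
  have hcont : ContinuousAt (fderiv ℝ e1.symm) 0 :=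
    ((hs1'.contDiffAt (e1.open_target.mem_nhds h0t)).fderiv_right (m := 0) (by simp)).continuousAt
  obtain ⟨R, hR, hRb⟩ := Metric.mem_nhds_iff.1 (Filter.inter_mem (e1.open_target.mem_nhds h0t)
    (hcont.norm (Iio_mem_nhds (lt_add_one ‖fderiv ℝ e1.symm 0‖))))
  set K := ‖fderiv ℝ e1.symm 0‖ + 1 with hK
  have hK0 : 0 ≤ K := by positivity
  set J' := push e1 J with hJ'
  -- formula for `J'`
  have hform : ∀ z ∈ e1.target, ∀ w, J' z w = τ (I • τ.symm w) -
      τ ((2 * I) • QQ (fderiv ℝ e (e1.symm z)) (J (e1.symm z)) (fderiv ℝ e1.symm z w)) := by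
    intro z hz w
    have hx := e1.map_target hz
    set x := e1.symm z with hxdef
    set v := fderiv ℝ e1.symm z w with hv
    have h1 : J' z w = fderiv ℝ e1 x (J x v) := rfl
    have h2 : fderiv ℝ e1 x v = w := symm_right hs1 hs1' hz w
    rw [hfd1 x hx] at h2
    have h3 : fderiv ℝ e x v = τ.symm w := by rw [← h2, τ.symm_apply_apply]
    rw [h1, hfd1 x hx, GJ_eq (fderiv ℝ e x) (J x) v, ← map_sub, ← h3,
      G_eq (fderiv ℝ e x) (J x) v]
    congr 1
    module
  have hQ0 : ∀ w, QQ (fderiv ℝ e (e1.symm 0)) (J (e1.symm 0)) w = 0 := by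
    intro w
    have h1 : e1.symm 0 = p := by rw [← hp1]; exact e1.left_inv hpe
    rw [h1]
    have := hQ p hpe w
    rw [hep, norm_zero] at this
    simpa using this
  have hJ0 : ∀ w, J' 0 w = τ (I • τ.symm w) := by
    intro w
    rw [hform 0 h0t, hQ0, smul_zero, map_zero, sub_zero]
  obtain ⟨r, hr, F, hF, hFb, hFJ⟩ := hc J' R (2 * C * K) hR
    ((push_smooth hs1 hs1' hJ1).mono fun z hz => (hRb hz).1)
    (fun z hz => push_sq hs1 hs1' hJJ1 (hRb hz).1)
    (fun z hz v w => by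
      rw [Nij_eq_580]; exact push_nij hs1 hs1' hJ1 hJJ1 hN1 (hRb hz).1 v w)
    (fun w => by rw [hJ0, τ.norm_map, norm_smul, norm_I, one_mul, τ.symm.norm_map])
    (by
      intro z hz w
      have hzt := (hRb hz).1
      have hx := e1.map_target hzt
      rw [hform z hzt, hJ0, sub_sub_cancel_left, norm_neg, τ.norm_map, norm_smul]
      have h1 : ‖(2 * I : ℂ)‖ = 2 := by simp
      have h2 := hQ (e1.symm z) hx (fderiv ℝ e1.symm z w)
      have h3 : ‖e (e1.symm z)‖ = ‖z‖ := by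
        rw [← τ.norm_map, ← he1c, e1.right_inv hzt]
      have h4 : ‖fderiv ℝ e1.symm z w‖ ≤ K * ‖w‖ := by
        refine ((fderiv ℝ e1.symm z).le_opNorm w).trans ?_
        gcongr
        exact le_of_lt (hRb hz).2
      rw [h1]
      rw [h3] at h2
      calc 2 * ‖QQ (fderiv ℝ e (e1.symm z)) (J (e1.symm z)) (fderiv ℝ e1.symm z w)‖
          ≤ 2 * (C * ‖z‖ ^ 2 * (K * ‖w‖)) := by
            gcongr
            exact h2.trans (by gcongr)
        _ = _ := by ring)
  -- shrink so that `dF` is invertible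
  have hF0 : ContDiffAt ℝ ∞ F 0 := hF.contDiffAt (Metric.ball_mem_nhds 0 hr)
  obtain ⟨E, hE⟩ : ∃ E : W ≃L[ℝ] Cn n, (E : W →L[ℝ] Cn n) = fderiv ℝ F 0 := by
    have : FiniteDimensional ℝ W := τ.toLinearEquiv.finiteDimensional
    exact ⟨(LinearEquiv.ofBijective (fderiv ℝ F 0 : W →ₗ[ℝ] Cn n) hFb).toContinuousLinearEquiv,
      by ext; rfl⟩
  have hinv : ∀ᶠ z in 𝓝 (0 : W), ∃ E : W ≃L[ℝ] Cn n, (E : W →L[ℝ] Cn n) = fderiv ℝ F z := by
    have h1 : ContinuousAt (fderiv ℝ F) 0 := (hF0.fderiv_right (m := 0) (by simp)).continuousAt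
    have : CompleteSpace W := by
      have : FiniteDimensional ℝ W := τ.toLinearEquiv.finiteDimensional
      exact FiniteDimensional.complete ℝ W
    have h2 : range ((↑) : (W ≃L[ℝ] Cn n) → W →L[ℝ] Cn n) ∈ 𝓝 (fderiv ℝ F 0) := by
      rw [← hE]; exact E.nhds
    exact h1 h2
  obtain ⟨O, hO, hOo, h0O⟩ := _root_.mem_nhds_iff.1
    (Filter.inter_mem hinv (Metric.ball_mem_nhds (0 : W) hr))
  refine ⟨e1.source ∩ e1 ⁻¹' O, e1.isOpen_inter_preimage hOo, ⟨hpe, by
    rw [mem_preimage, hp1]; exact h0O⟩, fun x hx => heU hx.1, fun x => F (e1 x), ?_, ?_⟩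
  · intro x hx
    have h1 : ContDiffAt ℝ ∞ e1 x := hs1.contDiffAt (e1.open_source.mem_nhds hx.1)
    have h2 : ContDiffAt ℝ ∞ F (e1 x) := hF.contDiffAt (isOpen_ball.mem_nhds (hO hx.2).2)
    exact (h2.comp x h1).contDiffWithinAt
  · intro x hx
    have h1 : HasFDerivAt e1 (fderiv ℝ e1 x) x :=
      ((hs1.contDiffAt (e1.open_source.mem_nhds hx.1)).differentiableAt (by simp)).hasFDerivAt
    have h2 : HasFDerivAt F (fderiv ℝ F (e1 x)) (e1 x) :=
      ((hF.contDiffAt (isOpen_ball.mem_nhds (hO hx.2).2)).differentiableAt (by simp)).hasFDerivAt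
    have h3 : fderiv ℝ (fun x => F (e1 x)) x = (fderiv ℝ F (e1 x)).comp (fderiv ℝ e1 x) :=
      (h2.comp x h1).fderiv
    rw [h3]
    refine ⟨?_, fun v => ?_⟩
    · obtain ⟨E', hE'⟩ := (hO hx.2).1
      obtain ⟨G', hG'⟩ := hG x hx.1
      rw [← hE']
      have h4 : (fderiv ℝ e1 x : V → W) = fun v => τ (G' v) := by
        funext v; rw [hfd1 x hx.1, ← hG']; rfl
      rw [ContinuousLinearMap.coe_comp, h4]
      exact E'.bijective.comp (τ.bijective.comp G'.bijective)
    · rw [ContinuousLinearMap.comp_apply, ContinuousLinearMap.comp_apply,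
        ← push_apply hs1 hs1' hx.1, hFJ _ (hO hx.2).2]

theorem nnat_of_coreR (hc : CoreR n) (V : Type) [NormedAddCommGroup V] [NormedSpace ℝ V]
    [FiniteDimensional ℝ V] (hn : Module.finrank ℝ V = 2 * n) : ACM_580.NNat V n := by
  have h1 : Module.finrank ℝ (Cn n) = 2 * n := by
    have h2 := Module.finrank_mul_finrank ℝ ℂ (Cn n)
    rw [Complex.finrank_real_complex] at h2
    rw [← h2]; simp
  let b : OrthonormalBasis (Fin (2 * n)) ℝ (Cn n) :=
    (stdOrthonormalBasis ℝ (Cn n)).reindex (finCongr h1)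
  exact nnat_of_coreW b.repr hc V hn

end

end Crest.Agent.R260.NNA_17
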