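import Mathlib

/-!
# Row 260, local Newlander-Nirenberg: integrability leaf (helper899 for helper900, #6239)

`V` real inner product space of dimension `2n`, `n ≥ 1`.
* `int_zpow`, `int_rpow` : `‖x‖^(2-2n)` is integrable on every ball;
* `unif_bound` : `∫_{ball 0 r} ‖x‖^4 (‖x‖²+ε)^{-(n+1)} ≤ C`, `C` independent of `ε`;
* `vanish` : `u` differentiable at `0` with `∫ |u|² (‖x‖²+ε)^{-(n+1)} ≤ C` for all small `ε`
  has `u 0 = 0` and `fderiv u 0 = 0`.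
-/

set_option autoImplicit false
set_option linter.unusedSectionVars false

noncomputable section

open MeasureTheory Filter Topology Set Metric
open scoped ENNReal NNReal Pointwise

namespace Crest.Agent.R260.NNInt_899

variable {V : Type*} [NormedAddCommGroup V] [InnerProductSpace ℝ V] [FiniteDimensional ℝ V]
  [MeasurableSpace V] [BorelSpace V] {μ : Measure V} [μ.IsAddHaarMeasure]

theorem int_rpow {n : ℕ} (hn : 1 ≤ n) (hV : Module.finrank ℝ V = 2 * n) (r : ℝ) :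
    IntegrableOn (fun x : V => ‖x‖ ^ (2 - 2 * (n : ℝ))) (ball 0 r) μ := by
  refine integrableOn_ball_of_norm_le_rpow (C := 1) (α := 2 * (n : ℝ) - 2) (by omega) ?_ ?_ ?_
  · rw [hV]; push_cast; linarith
  · refine Eventually.of_forall fun x => ?_
    rw [Real.norm_of_nonneg (by positivity), one_mul]
    rw [show -(2 * (n : ℝ) - 2) = 2 - 2 * (n : ℝ) by ring]
  · have : Measurable fun x : V => ‖x‖ ^ (2 - 2 * (n : ℝ)) := by fun_prop
    exact this.aestronglyMeasurable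

theorem int_zpow {n : ℕ} (hn : 1 ≤ n) (hV : Module.finrank ℝ V = 2 * n) (r : ℝ) :
    IntegrableOn (fun x : V => ‖x‖ ^ (2 - 2 * (n : ℤ))) (ball 0 r) μ := by
  refine (int_rpow hn hV r).congr_fun (fun x _ => ?_) measurableSet_ball
  simp only
  rw [← Real.rpow_intCast]
  congr 1
  push_cast; ring

/-- pointwise comparison -/
theorem pt_le {n : ℕ} {x : V} (hx : x ≠ 0) {ε : ℝ} (hε : 0 ≤ ε) :
    ‖x‖ ^ 4 / (‖x‖ ^ 2 + ε) ^ (n + 1) ≤ ‖x‖ ^ (2 - 2 * (n : ℤ)) := by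
  have h0 : 0 < ‖x‖ := norm_pos_iff.2 hx
  have h1 : (‖x‖ ^ 2) ^ (n + 1) ≤ (‖x‖ ^ 2 + ε) ^ (n + 1) :=
    pow_le_pow_left₀ (by positivity) (by linarith) _
  calc ‖x‖ ^ 4 / (‖x‖ ^ 2 + ε) ^ (n + 1) ≤ ‖x‖ ^ 4 / (‖x‖ ^ 2) ^ (n + 1) := by
        gcongr
    _ = ‖x‖ ^ (2 - 2 * (n : ℤ)) := by
        rw [← pow_mul, div_eq_iff (by positivity), ← zpow_natCast ‖x‖ (2 * (n + 1)),
          ← zpow_add₀ h0.ne', ← zpow_natCast]
        congr 1
        push_cast; ring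

theorem meas_fun (n : ℕ) {ε : ℝ} (hε : 0 < ε) :
    Continuous (fun x : V => ‖x‖ ^ 4 / (‖x‖ ^ 2 + ε) ^ (n + 1)) := by
  have h : ∀ x : V, (‖x‖ ^ 2 + ε) ^ (n + 1) ≠ 0 := fun x => by positivity
  fun_prop (disch := exact h _)

theorem int_eps (n : ℕ) (r : ℝ) {ε : ℝ} (hε : 0 < ε) :
    IntegrableOn (fun x : V => ‖x‖ ^ 4 / (‖x‖ ^ 2 + ε) ^ (n + 1)) (ball 0 r) μ :=
  (((meas_fun n hε).locallyIntegrable).integrableOn_isCompact
    (isCompact_closedBall 0 r)).mono_set ball_subset_closedBall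

/-- the uniform bound -/
theorem unif_bound {n : ℕ} (hn : 1 ≤ n) (hV : Module.finrank ℝ V = 2 * n) (r : ℝ) :
    ∃ C : ℝ, 0 ≤ C ∧ ∀ ε : ℝ, 0 < ε →
      IntegrableOn (fun x : V => ‖x‖ ^ 4 / (‖x‖ ^ 2 + ε) ^ (n + 1)) (ball 0 r) μ ∧
      ∫ x in ball (0 : V) r, ‖x‖ ^ 4 / (‖x‖ ^ 2 + ε) ^ (n + 1) ∂μ ≤ C := by
  refine ⟨∫ x in ball (0 : V) r, ‖x‖ ^ (2 - 2 * (n : ℤ)) ∂μ,
    setIntegral_nonneg measurableSet_ball fun x _ => by positivity, fun ε hε => ?_⟩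
  refine ⟨int_eps n r hε, ?_⟩
  have : Nontrivial V := Module.nontrivial_of_finrank_pos (R := ℝ) (by omega)
  refine setIntegral_mono_ae (int_eps n r hε) (int_zpow hn hV r) ?_
  have h0 : ∀ᵐ x ∂μ, x ≠ (0 : V) := by
    rw [ae_iff]
    simp
  filter_upwards [h0] with x hx
  exact pt_le hx hε.le

/-- the same for functions bounded by `c ‖x‖^4`, with a bounded density -/
theorem unif_bound_of {n : ℕ} (hn : 1 ≤ n) (hV : Module.finrank ℝ V = 2 * n) (r c : ℝ)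
    (hc : 0 ≤ c) :
    ∃ C : ℝ, 0 ≤ C ∧ ∀ ε : ℝ, 0 < ε → ∀ f : V → ℝ,
      AEStronglyMeasurable f (μ.restrict (ball 0 r)) → (∀ x ∈ ball (0 : V) r, 0 ≤ f x) →
      (∀ x ∈ ball (0 : V) r, f x ≤ c * (‖x‖ ^ 4 / (‖x‖ ^ 2 + ε) ^ (n + 1))) →
      IntegrableOn f (ball 0 r) μ ∧ ∫ x in ball (0 : V) r, f x ∂μ ≤ C := by
  obtain ⟨C, hC, h⟩ := unif_bound (μ := μ) hn hV r
  refine ⟨c * C, by positivity, fun ε hε f hf h0 h1 => ?_⟩
  obtain ⟨hi, hb⟩ := h ε hε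
  have hint : IntegrableOn f (ball 0 r) μ := by
    refine Integrable.mono' (hi.const_mul c) hf ?_
    filter_upwards [ae_restrict_mem measurableSet_ball] with x hx
    rw [Real.norm_of_nonneg (h0 x hx)]
    exact h1 x hx
  refine ⟨hint, ?_⟩
  calc ∫ x in ball (0 : V) r, f x ∂μ
      ≤ ∫ x in ball (0 : V) r, c * (‖x‖ ^ 4 / (‖x‖ ^ 2 + ε) ^ (n + 1)) ∂μ :=
        setIntegral_mono_on hint (hi.const_mul c) measurableSet_ball h1
    _ = c * ∫ x in ball (0 : V) r, ‖x‖ ^ 4 / (‖x‖ ^ 2 + ε) ^ (n + 1) ∂μ := integral_const_mul _ _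
    _ ≤ c * C := by gcongr

/-! ### vanishing -/

/-- lower bound on a cone -/
theorem cone_lower {u : V → ℂ} (hu : DifferentiableAt ℝ u 0) (hne : ¬ (u 0 = 0 ∧ fderiv ℝ u 0 = 0))
    [Nontrivial V] {r : ℝ} (hr : 0 < r) :
    ∃ δ c : ℝ, 0 < δ ∧ δ < r ∧ 0 < c ∧ ∃ S : Set V, IsOpen S ∧ S.Nonempty ∧
      (∀ x ∈ S, δ / 2 < ‖x‖ ∧ ‖x‖ < δ) ∧ ∀ x ∈ S, ∀ t : ℝ, 0 < t → t ≤ 1 → c * t ≤ ‖u (t • x)‖ := by
  by_cases h0 : u 0 = 0
  · have hL : fderiv ℝ u 0 ≠ 0 := fun h => hne ⟨h0, h⟩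
    obtain ⟨v, hv⟩ : ∃ v, fderiv ℝ u 0 v ≠ 0 := by
      by_contra h
      push Not at h
      exact hL (ContinuousLinearMap.ext h)
    have hv0 : v ≠ 0 := by rintro rfl; simp at hv
    have hvn : 0 < ‖v‖ := norm_pos_iff.2 hv0
    have hLv : 0 < ‖fderiv ℝ u 0 v‖ := norm_pos_iff.2 hv
    set L := fderiv ℝ u 0 with hLdef
    set η : ℝ := ‖L v‖ / (4 * ‖v‖) with hη
    have hηpos : 0 < η := by positivity
    have hd := hu.hasFDerivAt.isLittleO.def hηpos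
    simp only [sub_zero, h0] at hd
    obtain ⟨δ₀, hδ₀, hball⟩ := Metric.eventually_nhds_iff.1 hd
    set δ := min δ₀ (r / 2) with hδ
    have hδpos : 0 < δ := lt_min hδ₀ (by linarith)
    refine ⟨δ, η * δ / 2, hδpos, lt_of_le_of_lt (min_le_right _ _) (by linarith),
      by positivity, {y : V | δ / 2 < ‖y‖ ∧ ‖y‖ < δ ∧ 2 * η * ‖y‖ < ‖L y‖}, ?_, ?_, ?_, ?_⟩
    · have h1 : IsOpen {y : V | δ / 2 < ‖y‖} := isOpen_lt continuous_const continuous_norm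
      have h2 : IsOpen {y : V | ‖y‖ < δ} := isOpen_lt continuous_norm continuous_const
      have h3 : IsOpen {y : V | 2 * η * ‖y‖ < ‖L y‖} :=
        isOpen_lt (continuous_const.mul continuous_norm) L.continuous.norm
      exact h1.inter (h2.inter h3)
    · refine ⟨(3 * δ / 4 / ‖v‖) • v, ?_⟩
      have hn : ‖(3 * δ / 4 / ‖v‖) • v‖ = 3 * δ / 4 := by
        rw [norm_smul, Real.norm_of_nonneg (by positivity), div_mul_cancel₀ _ hvn.ne']
      refine ⟨by rw [hn]; linarith, by rw [hn]; linarith, ?_⟩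
      rw [hn, map_smul, norm_smul, Real.norm_of_nonneg (by positivity)]
      have : ‖L v‖ = 4 * η * ‖v‖ := by rw [hη]; field_simp
      rw [this]
      have h4 : 3 * δ / 4 / ‖v‖ * (4 * η * ‖v‖) = 3 * δ * η := by field_simp
      rw [h4]
      nlinarith
    · intro x hx; exact ⟨hx.1, hx.2.1⟩
    · intro x hx t ht ht1
      have hnorm : ‖t • x‖ = t * ‖x‖ := by rw [norm_smul, Real.norm_of_nonneg ht.le]
      have hd1 : dist (t • x) 0 < δ₀ := by
        rw [dist_zero_right, hnorm]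
        calc t * ‖x‖ ≤ 1 * ‖x‖ := by gcongr
          _ < δ₀ := by rw [one_mul]; exact lt_of_lt_of_le hx.2.1 (min_le_left _ _)
      have h5 := hball hd1
      rw [hnorm, map_smul] at h5
      have h6 : ‖t • L x‖ = t * ‖L x‖ := by rw [norm_smul, Real.norm_of_nonneg ht.le]
      have h7 : ‖t • L x‖ ≤ ‖u (t • x)‖ + ‖u (t • x) - t • L x‖ := by
        have := norm_sub_le (u (t • x)) (u (t • x) - t • L x)
        simpa using this
      rw [h6] at h7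
      have h8 : t * (2 * η * ‖x‖) ≤ t * ‖L x‖ := by
        have := hx.2.2.le
        gcongr
      have h9 : δ / 2 ≤ ‖x‖ := hx.1.le
      have h10 : t * η * (δ / 2) ≤ t * η * ‖x‖ := by gcongr
      nlinarith [h5, h7, h8, h10]
  · have hc : 0 < ‖u 0‖ := norm_pos_iff.2 h0
    have hcont := hu.continuousAt
    have : ∀ᶠ x in 𝓝 (0 : V), ‖u 0‖ / 2 < ‖u x‖ :=
      hcont.norm.eventually (lt_mem_nhds (by linarith : ‖u 0‖ / 2 < ‖u 0‖))
    obtain ⟨δ₀, hδ₀, hball⟩ := Metric.eventually_nhds_iff.1 this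
    set δ := min δ₀ (r / 2) with hδ
    have hδpos : 0 < δ := lt_min hδ₀ (by linarith)
    obtain ⟨v, hv0⟩ := exists_ne (0 : V)
    have hvn : 0 < ‖v‖ := norm_pos_iff.2 hv0
    refine ⟨δ, ‖u 0‖ / 2, hδpos, lt_of_le_of_lt (min_le_right _ _) (by linarith),
      by positivity, {y : V | δ / 2 < ‖y‖ ∧ ‖y‖ < δ}, ?_, ?_, ?_, ?_⟩
    · have h1 : IsOpen {y : V | δ / 2 < ‖y‖} := isOpen_lt continuous_const continuous_norm
      have h2 : IsOpen {y : V | ‖y‖ < δ} := isOpen_lt continuous_norm continuous_const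
      exact h1.inter h2
    · refine ⟨(3 * δ / 4 / ‖v‖) • v, ?_⟩
      have hn : ‖(3 * δ / 4 / ‖v‖) • v‖ = 3 * δ / 4 := by
        rw [norm_smul, Real.norm_of_nonneg (by positivity), div_mul_cancel₀ _ hvn.ne']
      exact ⟨by rw [hn]; linarith, by rw [hn]; linarith⟩
    · intro x hx; exact hx
    · intro x hx t ht ht1
      have hnorm : ‖t • x‖ = t * ‖x‖ := by rw [norm_smul, Real.norm_of_nonneg ht.le]
      have hd1 : dist (t • x) 0 < δ₀ := by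
        rw [dist_zero_right, hnorm]
        calc t * ‖x‖ ≤ 1 * ‖x‖ := by gcongr
          _ < δ₀ := by rw [one_mul]; exact lt_of_lt_of_le hx.2 (min_le_left _ _)
      have h5 := hball hd1
      calc ‖u 0‖ / 2 * t ≤ ‖u 0‖ / 2 * 1 := by gcongr
        _ ≤ ‖u (t • x)‖ := by rw [mul_one]; exact h5.le

theorem vanish {n : ℕ} (hn : 1 ≤ n) (hV : Module.finrank ℝ V = 2 * n) {r : ℝ} (hr : 0 < r)
    {u : V → ℂ} (hu : DifferentiableAt ℝ u 0) {C : ℝ≥0∞} (hC : C ≠ ⊤)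
    (h : ∀ ε : ℝ, 0 < ε → ε ≤ 1 →
      ∫⁻ x in ball (0 : V) r, ENNReal.ofReal (‖u x‖ ^ 2 / (‖x‖ ^ 2 + ε) ^ (n + 1)) ∂μ ≤ C) :
    u 0 = 0 ∧ fderiv ℝ u 0 = 0 := by
  have : Nontrivial V := Module.nontrivial_of_finrank_pos (R := ℝ) (by omega)
  by_contra hne
  obtain ⟨δ, c, hδ, hδr, hc, S, hSo, hSne, hSs, hSl⟩ := cone_lower hu hne hr
  -- scaled copies
  set A : ℕ → Set V := fun k => ((1 / 2 : ℝ) ^ k) • S with hA
  have hmemA : ∀ k x, x ∈ A k → ∃ y ∈ S, x = ((1 / 2 : ℝ) ^ k) • y := by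
    intro k x hx
    obtain ⟨y, hy, rfl⟩ := hx
    exact ⟨y, hy, rfl⟩
  have hAm : ∀ k, MeasurableSet (A k) := fun k =>
    (hSo.smul₀ (by positivity : ((1 / 2 : ℝ) ^ k) ≠ 0)).measurableSet
  have hAμ : ∀ k, μ (A k) = ENNReal.ofReal ((1 / 4 : ℝ) ^ (k * n)) * μ S := by
    intro k
    rw [hA]
    simp only
    rw [Measure.addHaar_smul, hV, abs_of_pos (by positivity)]
    congr 2
    rw [← pow_mul, show k * (2 * n) = 2 * (k * n) by ring, pow_mul]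
    norm_num
  have hAn : ∀ k x, x ∈ A k → (1 / 2 : ℝ) ^ k * (δ / 2) < ‖x‖ ∧ ‖x‖ < (1 / 2 : ℝ) ^ k * δ := by
    intro k x hx
    obtain ⟨y, hy, rfl⟩ := hmemA k x hx
    have hp : (0 : ℝ) < (1 / 2 : ℝ) ^ k := by positivity
    rw [norm_smul, Real.norm_of_nonneg hp.le]
    exact ⟨mul_lt_mul_of_pos_left (hSs y hy).1 hp, mul_lt_mul_of_pos_left (hSs y hy).2 hp⟩
  have hdisj : Pairwise (Function.onFun Disjoint A) := by
    have key : ∀ k l, k < l → Disjoint (A k) (A l) := by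
      intro k l hkl
      rw [Set.disjoint_left]
      intro x hx hx'
      have h1 := (hAn k x hx).1
      have h2 := (hAn l x hx').2
      have h3 : (1 / 2 : ℝ) ^ l * δ ≤ (1 / 2 : ℝ) ^ k * (δ / 2) := by
        have : (1 / 2 : ℝ) ^ l ≤ (1 / 2 : ℝ) ^ (k + 1) :=
          pow_le_pow_of_le_one (by norm_num) (by norm_num) hkl
        calc (1 / 2 : ℝ) ^ l * δ ≤ (1 / 2 : ℝ) ^ (k + 1) * δ := by gcongr
          _ = (1 / 2 : ℝ) ^ k * (δ / 2) := by rw [pow_succ]; ring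
      linarith
    intro k l hkl
    rcases lt_or_gt_of_ne hkl with h | h
    · exact key k l h
    · exact (key l k h).symm
  have hAball : ∀ k, A k ⊆ ball (0 : V) r := by
    intro k x hx
    rw [mem_ball_zero_iff]
    have h1 := (hAn k x hx).2
    have h2 : (1 / 2 : ℝ) ^ k * δ ≤ 1 * δ := by
      have : (1 / 2 : ℝ) ^ k ≤ 1 := pow_le_one₀ (by norm_num) (by norm_num)
      gcongr
    linarith
  set κ : ℝ := c ^ 2 / (2 * δ ^ 2) ^ (n + 1) with hκ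
  have hκpos : 0 < κ := by positivity
  have hSpos : 0 < μ S := hSo.measure_pos μ hSne
  -- lower bound for each `K`
  have hlow : ∀ K : ℕ, (K : ℝ≥0∞) * (ENNReal.ofReal κ * μ S) ≤ C := by
    intro K
    set ε : ℝ := min 1 (δ ^ 2 * (1 / 4 : ℝ) ^ K) with hε
    have hεpos : 0 < ε := lt_min one_pos (by positivity)
    have hε1 : ε ≤ 1 := min_le_left _ _
    refine le_trans ?_ (h ε hεpos hε1)
    have hU : (⋃ k ∈ Finset.range K, A k) ⊆ ball (0 : V) r := by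
      simp only [Set.iUnion_subset_iff]
      exact fun k _ => hAball k
    refine le_trans ?_ (lintegral_mono_set hU)
    rw [lintegral_biUnion_finset (fun i _ j _ hij => hdisj hij) (fun k _ => hAm k)]
    have hterm : ∀ k ∈ Finset.range K, ENNReal.ofReal κ * μ S ≤
        ∫⁻ x in A k, ENNReal.ofReal (‖u x‖ ^ 2 / (‖x‖ ^ 2 + ε) ^ (n + 1)) ∂μ := by
      intro k hk
      have hkK : k ≤ K := (Finset.mem_range.1 hk).le
      have hlb : ∀ x ∈ A k, ENNReal.ofReal (κ * (4 : ℝ) ^ (k * n)) ≤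
          ENNReal.ofReal (‖u x‖ ^ 2 / (‖x‖ ^ 2 + ε) ^ (n + 1)) := by
        intro x hx
        refine ENNReal.ofReal_le_ofReal ?_
        obtain ⟨y, hy, rfl⟩ := hmemA k x hx
        have hp : (0 : ℝ) < (1 / 2 : ℝ) ^ k := by positivity
        have hp1 : (1 / 2 : ℝ) ^ k ≤ 1 := pow_le_one₀ (by norm_num) (by norm_num)
        have hl := hSl y hy _ hp hp1
        have hx2 := (hAn k _ hx).2
        have hsq : ((1 / 2 : ℝ) ^ k) ^ 2 = (1 / 4 : ℝ) ^ k := by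
          rw [← pow_mul, mul_comm, pow_mul]; norm_num
        have hnum : c ^ 2 * (1 / 4 : ℝ) ^ k ≤ ‖u (((1 / 2 : ℝ) ^ k) • y)‖ ^ 2 := by
          rw [← hsq, ← mul_pow]
          exact pow_le_pow_left₀ (by positivity) hl 2
        have hden : ‖((1 / 2 : ℝ) ^ k) • y‖ ^ 2 + ε ≤ 2 * δ ^ 2 * (1 / 4 : ℝ) ^ k := by
          have h1 : ‖((1 / 2 : ℝ) ^ k) • y‖ ^ 2 ≤ ((1 / 2 : ℝ) ^ k * δ) ^ 2 :=
            pow_le_pow_left₀ (norm_nonneg _) hx2.le 2
          rw [mul_pow, hsq] at h1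
          have h2 : ε ≤ δ ^ 2 * (1 / 4 : ℝ) ^ k := by
            refine le_trans (min_le_right _ _) ?_
            have : (1 / 4 : ℝ) ^ K ≤ (1 / 4 : ℝ) ^ k :=
              pow_le_pow_of_le_one (by norm_num) (by norm_num) hkK
            gcongr
          linarith
        have hden' : (‖((1 / 2 : ℝ) ^ k) • y‖ ^ 2 + ε) ^ (n + 1) ≤
            (2 * δ ^ 2 * (1 / 4 : ℝ) ^ k) ^ (n + 1) :=
          pow_le_pow_left₀ (by positivity) hden _
        calc κ * (4 : ℝ) ^ (k * n)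
            = c ^ 2 * (1 / 4 : ℝ) ^ k / (2 * δ ^ 2 * (1 / 4 : ℝ) ^ k) ^ (n + 1) := by
              have hq : (0 : ℝ) < (4 : ℝ) ^ k := by positivity
              have e1 : (1 / 4 : ℝ) ^ k = ((4 : ℝ) ^ k)⁻¹ := by rw [one_div, inv_pow]
              rw [hκ, e1, pow_mul, mul_pow (2 * δ ^ 2), inv_pow]
              generalize (4 : ℝ) ^ k = q at hq ⊢
              have h2 : (0 : ℝ) < (2 * δ ^ 2) ^ (n + 1) := by positivity
              generalize (2 * δ ^ 2) ^ (n + 1) = D at h2 ⊢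
              field_simp
              rw [pow_succ]
          _ ≤ ‖u (((1 / 2 : ℝ) ^ k) • y)‖ ^ 2 / (‖((1 / 2 : ℝ) ^ k) • y‖ ^ 2 + ε) ^ (n + 1) := by
              gcongr
      calc ENNReal.ofReal κ * μ S
          = ENNReal.ofReal (κ * (4 : ℝ) ^ (k * n)) * μ (A k) := by
            rw [hAμ k, ← mul_assoc, ← ENNReal.ofReal_mul (by positivity)]
            congr 2
            rw [mul_assoc, ← mul_pow]; norm_num
        _ = ∫⁻ _ in A k, ENNReal.ofReal (κ * (4 : ℝ) ^ (k * n)) ∂μ := by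
            rw [setLIntegral_const]
        _ ≤ _ := setLIntegral_mono' (hAm k) hlb
    calc (K : ℝ≥0∞) * (ENNReal.ofReal κ * μ S)
        = ∑ _k ∈ Finset.range K, ENNReal.ofReal κ * μ S := by
          rw [Finset.sum_const, Finset.card_range, nsmul_eq_mul]
      _ ≤ _ := Finset.sum_le_sum hterm
  -- contradiction
  have hpos : ENNReal.ofReal κ * μ S ≠ 0 :=
    mul_ne_zero (by simpa using hκpos) hSpos.ne'
  obtain ⟨K, hK⟩ := ENNReal.exists_nat_mul_gt hpos hC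
  exact absurd (hlow K) (not_le.2 hK)

/-- Bochner form of `vanish` -/
theorem vanish' {n : ℕ} (hn : 1 ≤ n) (hV : Module.finrank ℝ V = 2 * n) {r : ℝ} (hr : 0 < r)
    {u : V → ℂ} (hu : DifferentiableAt ℝ u 0) {C : ℝ}
    (h : ∀ ε : ℝ, 0 < ε → ε ≤ 1 →
      IntegrableOn (fun x => ‖u x‖ ^ 2 / (‖x‖ ^ 2 + ε) ^ (n + 1)) (ball 0 r) μ ∧
      ∫ x in ball (0 : V) r, ‖u x‖ ^ 2 / (‖x‖ ^ 2 + ε) ^ (n + 1) ∂μ ≤ C) :
    u 0 = 0 ∧ fderiv ℝ u 0 = 0 := by
  refine vanish (μ := μ) hn hV hr hu (C := ENNReal.ofReal C) ENNReal.ofReal_ne_top ?_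
  intro ε hε hε1
  obtain ⟨hi, hb⟩ := h ε hε hε1
  rw [← ofReal_integral_eq_lintegral_ofReal hi (Eventually.of_forall fun x => by positivity)]
  exact ENNReal.ofReal_le_ofReal hb

end Crest.Agent.R260.NNInt_899
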