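import Crest.Agent.R260.Reg5_274
import Crest.Agent.R260.NN0_900

/-!
# Row 260 (helper597), NN-R, file 3: `(R')` of 900's plan

`regP` : for an elliptic family `S` of complex vector fields on `Ω ⊆ ℝ^N` and a positive smooth weight `w`,
every very weak `L¹_loc` solution of `∫ u * QQ w κ = 0` (all complex test functions `κ`) is smooth.
-/

set_option autoImplicit false
set_option linter.unusedSectionVars false

noncomputable section

open scoped BigOperators ContDiff
open MeasureTheory Set Filter Topology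
open Crest.Agent.R260.Reg_274 (EE Pg cgen cd_congr cd_contDiffOn cd_contDiff cd_tsupport)
open Crest.Agent.R260.NN0_900 (TestC Fam dvg)

namespace Crest.Agent.R260.NNR_597

variable {N : ℕ}

/-- complex partial derivative (Reg_274) -/
local notation "∂c" => Crest.Agent.R260.Reg_274.cd

theorem cd_sum' {κ : Type*} (s : Finset κ) {F : κ → EE N → ℂ} (a : Fin N) {x : EE N}
    (h : ∀ i ∈ s, DifferentiableAt ℝ (F i) x) :
    ∂c a (fun y => ∑ i ∈ s, F i y) x = ∑ i ∈ s, ∂c a (F i) x := by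
  unfold Reg_274.cd
  rw [fderiv_fun_sum h]
  simp

theorem cd_const_mul' {F : EE N → ℂ} (a : Fin N) {x : EE N} (r : ℂ)
    (h : DifferentiableAt ℝ F x) : ∂c a (fun y => r * F y) x = r * ∂c a F x := by
  unfold Reg_274.cd
  rw [fderiv_const_mul h]
  rfl

theorem cd_comm {F : EE N → ℂ} (hF : ContDiff ℝ ∞ F) (a b : Fin N) (x : EE N) :
    ∂c a (∂c b F) x = ∂c b (∂c a F) x := by
  have h2 : ContDiff ℝ 2 F := hF.of_le (WithTop.coe_le_coe.2 (le_top : (2 : ℕ∞) ≤ ⊤))
  have hs : IsSymmSndFDerivAt ℝ F x := (h2.contDiffAt).isSymmSndFDerivAt (by simp)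
  have hd : DifferentiableAt ℝ (fderiv ℝ F) x :=
    ((h2.fderiv_right (m := 1) (by norm_num)).differentiable (by simp)) x
  have e : ∀ c d : Fin N, ∂c c (∂c d F) x =
      fderiv ℝ (fderiv ℝ F) x (EuclideanSpace.single c 1) (EuclideanSpace.single d 1) := by
    intro c d
    unfold Reg_274.cd
    rw [fderiv_clm_apply hd (differentiableAt_const _)]
    simp
  rw [e a b, e b a]
  exact hs.eq _ _

theorem clm_coord (L : EE N →L[ℝ] ℂ) (v : EE N) :
    L v = ∑ a, (v a : ℂ) * L (EuclideanSpace.single a 1) := by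
  have h := (EuclideanSpace.basisFun (Fin N) ℝ).sum_repr v
  conv_lhs => rw [← h]
  rw [map_sum]
  refine Finset.sum_congr rfl fun a _ => ?_
  rw [map_smul, Complex.real_smul]
  simp

theorem fderiv_coord (f : EE N → ℂ) (x v : EE N) :
    fderiv ℝ f x v = ∑ a, (v a : ℂ) * ∂c a f x := clm_coord _ _

theorem dvg_coord {X : EE N → EE N} {x : EE N} (h : DifferentiableAt ℝ X x) :
    ((dvg X x : ℝ) : ℂ) = ∑ a, ∂c a (fun y => ((X y a : ℝ) : ℂ)) x := by
  unfold dvg
  rw [LinearMap.trace_eq_sum_inner _ (EuclideanSpace.basisFun (Fin N) ℝ), Complex.ofReal_sum]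
  refine Finset.sum_congr rfl fun a _ => ?_
  have h1 : HasFDerivAt (fun y => ((X y a : ℝ) : ℂ))
      (Complex.ofRealCLM.comp ((EuclideanSpace.proj a : EE N →L[ℝ] ℝ).comp (fderiv ℝ X x))) x := by
    have h2 : HasFDerivAt (fun y => (EuclideanSpace.proj a : EE N →L[ℝ] ℝ) (X y))
        ((EuclideanSpace.proj a : EE N →L[ℝ] ℝ).comp (fderiv ℝ X x)) x :=
      (EuclideanSpace.proj a : EE N →L[ℝ] ℝ).hasFDerivAt.comp x h.hasFDerivAt
    exact Complex.ofRealCLM.hasFDerivAt.comp x h2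
  unfold Reg_274.cd
  rw [h1.fderiv]
  simp [PiLp.inner_apply]

variable {ι : Type*} [Fintype ι] (S : Fam ι (EE N))

/-- coefficients of `X_j` -/
def cX (j : ι) (a : Fin N) (x : EE N) : ℂ := (S.A j x a : ℂ) + Complex.I * (S.B j x a : ℂ)

/-- coefficients of `Y_j` -/
def cY (j : ι) (a : Fin N) (x : EE N) : ℂ := (S.A j x a : ℂ) - Complex.I * (S.B j x a : ℂ)

theorem X_coord (j : ι) (f : EE N → ℂ) (x : EE N) : S.X j f x = ∑ a, cX S j a x * ∂c a f x := by
  unfold Fam.X NN0_900.cd cX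
  rw [fderiv_coord f x (S.A j x), fderiv_coord f x (S.B j x), Finset.mul_sum,
    ← Finset.sum_add_distrib]
  exact Finset.sum_congr rfl fun a _ => by ring

theorem Y_coord (j : ι) (f : EE N → ℂ) (x : EE N) : S.Y j f x = ∑ a, cY S j a x * ∂c a f x := by
  unfold Fam.Y NN0_900.cd cY
  rw [fderiv_coord f x (S.A j x), fderiv_coord f x (- S.B j x), Finset.mul_sum,
    ← Finset.sum_add_distrib]
  refine Finset.sum_congr rfl fun a _ => ?_
  rw [PiLp.neg_apply]
  push_cast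
  ring

variable {S} {Ω : Set (EE N)}

theorem smooth_coordA (hS : S.Sm Ω) (j : ι) (a : Fin N) :
    ContDiffOn ℝ ∞ (fun x => (S.A j x a : ℝ)) Ω := contDiffOn_euclidean.1 (hS.A j) a

theorem smooth_coordB (hS : S.Sm Ω) (j : ι) (a : Fin N) :
    ContDiffOn ℝ ∞ (fun x => (S.B j x a : ℝ)) Ω := contDiffOn_euclidean.1 (hS.B j) a

theorem smooth_cX (hS : S.Sm Ω) (j : ι) (a : Fin N) : ContDiffOn ℝ ∞ (cX S j a) Ω :=
  (Complex.ofRealCLM.contDiff.comp_contDiffOn (smooth_coordA hS j a)).add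
    (contDiffOn_const.mul (Complex.ofRealCLM.contDiff.comp_contDiffOn (smooth_coordB hS j a)))

theorem smooth_cY (hS : S.Sm Ω) (j : ι) (a : Fin N) : ContDiffOn ℝ ∞ (cY S j a) Ω :=
  (Complex.ofRealCLM.contDiff.comp_contDiffOn (smooth_coordA hS j a)).sub
    (contDiffOn_const.mul (Complex.ofRealCLM.contDiff.comp_contDiffOn (smooth_coordB hS j a)))

theorem dAt {f : EE N → ℂ} (hΩ : IsOpen Ω) (hf : ContDiffOn ℝ ∞ f Ω) {x : EE N} (hx : x ∈ Ω) :
    DifferentiableAt ℝ f x := (hf.contDiffAt (hΩ.mem_nhds hx)).differentiableAt (by simp)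

theorem dX_coord (hΩ : IsOpen Ω) (hS : S.Sm Ω) (j : ι) {x : EE N} (hx : x ∈ Ω) :
    S.dX j x = ∑ a, ∂c a (cX S j a) x := by
  unfold Fam.dX
  have hA : DifferentiableAt ℝ (S.A j) x :=
    ((hS.A j).contDiffAt (hΩ.mem_nhds hx)).differentiableAt (by simp)
  have hB : DifferentiableAt ℝ (S.B j) x :=
    ((hS.B j).contDiffAt (hΩ.mem_nhds hx)).differentiableAt (by simp)
  rw [dvg_coord hA, dvg_coord hB, Finset.mul_sum, ← Finset.sum_add_distrib]
  refine Finset.sum_congr rfl fun a _ => ?_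
  have d1 : DifferentiableAt ℝ (fun y => ((S.A j y a : ℝ) : ℂ)) x :=
    dAt hΩ (Complex.ofRealCLM.contDiff.comp_contDiffOn (smooth_coordA hS j a)) hx
  have d2 : DifferentiableAt ℝ (fun y => ((S.B j y a : ℝ) : ℂ)) x :=
    dAt hΩ (Complex.ofRealCLM.contDiff.comp_contDiffOn (smooth_coordB hS j a)) hx
  have e : cX S j a = fun y => ((S.A j y a : ℝ) : ℂ) + Complex.I * ((S.B j y a : ℝ) : ℂ) := rfl
  rw [e, Reg_274.cd_add d1 (d2.const_mul _), cd_const_mul' a _ d2]

theorem Xt_coord (hΩ : IsOpen Ω) (hS : S.Sm Ω) (j : ι) {h : EE N → ℂ} {x : EE N} (hx : x ∈ Ω)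
    (hh : DifferentiableAt ℝ h x) : S.Xt j h x = ∑ a, ∂c a (fun y => cX S j a y * h y) x := by
  unfold Fam.Xt
  rw [X_coord, dX_coord hΩ hS j hx, Finset.sum_mul, ← Finset.sum_add_distrib]
  refine Finset.sum_congr rfl fun a _ => ?_
  rw [Reg_274.cd_mul (dAt hΩ (smooth_cX hS j a) hx) hh]

/-! ### coefficients of the second order operator -/

variable (S) (w : EE N → ℝ)

def am (x : EE N) : Matrix (Fin N) (Fin N) ℝ :=
  Matrix.of fun a b => w x * ∑ j, (S.A j x a * S.A j x b + S.B j x a * S.B j x b)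

def tm (a b : Fin N) (x : EE N) : ℝ :=
  w x * ∑ j, (S.B j x a * S.A j x b - S.A j x a * S.B j x b)

def bm (i : Fin N) (x : EE N) : ℂ := - Complex.I * ∑ a, ∂c a (fun y => (tm S w a i y : ℂ)) x

def cm (x : EE N) : ℂ := ∑ i, ∂c i (bm S w i) x

variable {S w}

theorem smooth_am (hS : S.Sm Ω) (hw : ContDiffOn ℝ ∞ w Ω) (a b : Fin N) :
    ContDiffOn ℝ ∞ (fun x => am S w x a b) Ω :=
  hw.mul (ContDiffOn.sum fun j _ => ((smooth_coordA hS j a).mul (smooth_coordA hS j b)).add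
    ((smooth_coordB hS j a).mul (smooth_coordB hS j b)))

theorem smooth_tm (hS : S.Sm Ω) (hw : ContDiffOn ℝ ∞ w Ω) (a b : Fin N) :
    ContDiffOn ℝ ∞ (tm S w a b) Ω :=
  hw.mul (ContDiffOn.sum fun j _ => ((smooth_coordB hS j a).mul (smooth_coordA hS j b)).sub
    ((smooth_coordA hS j a).mul (smooth_coordB hS j b)))

theorem smooth_tmC (hS : S.Sm Ω) (hw : ContDiffOn ℝ ∞ w Ω) (a b : Fin N) :
    ContDiffOn ℝ ∞ (fun x => (tm S w a b x : ℂ)) Ω :=
  Complex.ofRealCLM.contDiff.comp_contDiffOn (smooth_tm hS hw a b)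

theorem smooth_amC (hS : S.Sm Ω) (hw : ContDiffOn ℝ ∞ w Ω) (a b : Fin N) :
    ContDiffOn ℝ ∞ (fun x => (am S w x a b : ℂ)) Ω :=
  Complex.ofRealCLM.contDiff.comp_contDiffOn (smooth_am hS hw a b)

theorem smooth_bm (hΩ : IsOpen Ω) (hS : S.Sm Ω) (hw : ContDiffOn ℝ ∞ w Ω) (i : Fin N) :
    ContDiffOn ℝ ∞ (bm S w i) Ω :=
  contDiffOn_const.mul (ContDiffOn.sum fun a _ => cd_contDiffOn hΩ (smooth_tmC hS hw a i) a)

theorem smooth_cm (hΩ : IsOpen Ω) (hS : S.Sm Ω) (hw : ContDiffOn ℝ ∞ w Ω) :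
    ContDiffOn ℝ ∞ (cm S w) Ω :=
  ContDiffOn.sum fun i _ => cd_contDiffOn hΩ (smooth_bm hΩ hS hw i) i

theorem tm_anti (a b : Fin N) (x : EE N) : tm S w a b x = - tm S w b a x := by
  unfold tm
  rw [← mul_neg, ← Finset.sum_neg_distrib]
  congr 1
  exact Finset.sum_congr rfl fun j _ => by ring

theorem posDef_am (hE : S.Ell Ω) (hpos : ∀ x ∈ Ω, 0 < w x) {x : EE N} (hx : x ∈ Ω) :
    (am S w x).PosDef := by
  refine Matrix.PosDef.of_dotProduct_mulVec_pos ?_ fun ξ hξ => ?_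
  · ext a b
    rw [Matrix.conjTranspose_apply, star_trivial]
    simp only [am, Matrix.of_apply]
    congr 1
    exact Finset.sum_congr rfl fun j _ => by ring
  · rw [star_trivial]
    have e : dotProduct ξ ((am S w x).mulVec ξ) =
        w x * ∑ j, ((∑ a, S.A j x a * ξ a) ^ 2 + (∑ a, S.B j x a * ξ a) ^ 2) := by
      simp only [dotProduct, Matrix.mulVec, am, Matrix.of_apply]
      have e1 : ∀ j, (∑ a, S.A j x a * ξ a) ^ 2 + (∑ a, S.B j x a * ξ a) ^ 2 =
          ∑ a, ∑ b, ξ a * ((S.A j x a * S.A j x b + S.B j x a * S.B j x b) * ξ b) := by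
        intro j
        rw [sq, sq, Finset.sum_mul_sum, Finset.sum_mul_sum, ← Finset.sum_add_distrib]
        refine Finset.sum_congr rfl fun a _ => ?_
        rw [← Finset.sum_add_distrib]
        exact Finset.sum_congr rfl fun b _ => by ring
      simp only [e1]
      rw [Finset.sum_comm, Finset.mul_sum]
      refine Finset.sum_congr rfl fun a _ => ?_
      rw [Finset.sum_comm, Finset.mul_sum, Finset.mul_sum]
      refine Finset.sum_congr rfl fun b _ => ?_
      rw [Finset.mul_sum, Finset.sum_mul, Finset.mul_sum, Finset.mul_sum]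
      exact Finset.sum_congr rfl fun j _ => by ring
    rw [e]
    refine mul_pos (hpos x hx) ?_
    have hnn : ∀ j, 0 ≤ (∑ a, S.A j x a * ξ a) ^ 2 + (∑ a, S.B j x a * ξ a) ^ 2 := fun j => by
      positivity
    rcases (Finset.sum_nonneg fun j _ => hnn j).lt_or_eq with h | h
    · exact h
    · exfalso
      have h0 := (Finset.sum_eq_zero_iff_of_nonneg fun j _ => hnn j).1 h.symm
      apply hξ
      set v : EE N := WithLp.toLp 2 ξ with hv
      have hL : (innerSL ℝ v : EE N →L[ℝ] ℝ) = 0 := by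
        refine hE x hx _ fun j => ?_
        have h1 := h0 j (Finset.mem_univ _)
        have h2 : (∑ a, S.A j x a * ξ a) = 0 := by nlinarith [sq_nonneg (∑ a, S.A j x a * ξ a), sq_nonneg (∑ a, S.B j x a * ξ a)]
        have h3 : (∑ a, S.B j x a * ξ a) = 0 := by nlinarith [sq_nonneg (∑ a, S.A j x a * ξ a), sq_nonneg (∑ a, S.B j x a * ξ a)]
        constructor
        · rw [innerSL_apply_apply, PiLp.inner_apply]
          rw [← h2]
          exact Finset.sum_congr rfl fun a _ => by simp [hv, mul_comm]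
        · rw [innerSL_apply_apply, PiLp.inner_apply]
          rw [← h3]
          exact Finset.sum_congr rfl fun a _ => by simp [hv, mul_comm]
      have hvv : inner ℝ v v = (0 : ℝ) := by
        have := congrArg (fun L : EE N →L[ℝ] ℝ => L v) hL
        simpa using this
      have hv0 : v = 0 := inner_self_eq_zero.1 hvv
      funext a
      have := congrArg (fun z : EE N => z a) hv0
      simpa [hv] using this

theorem H_eq (a b : Fin N) (x : EE N) :
    (w x : ℂ) * ∑ j, cX S j a x * cY S j b x = (am S w x a b : ℂ) + Complex.I * (tm S w a b x : ℂ) := by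
  simp only [am, tm, Matrix.of_apply, cX, cY]
  push_cast
  have e : Complex.I * ((w x : ℂ) * ∑ j, ((S.B j x a : ℂ) * (S.A j x b : ℂ) -
      (S.A j x a : ℂ) * (S.B j x b : ℂ))) = (w x : ℂ) * ∑ j, Complex.I * ((S.B j x a : ℂ) *
      (S.A j x b : ℂ) - (S.A j x a : ℂ) * (S.B j x b : ℂ)) := by
    rw [← Finset.mul_sum]
    ring
  rw [e, ← mul_add, ← Finset.sum_add_distrib]
  congr 1
  refine Finset.sum_congr rfl fun j _ => ?_
  have hI := Complex.I_mul_I
  linear_combination (- (S.B j x a : ℂ) * (S.B j x b : ℂ)) * hI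

theorem QQ_eq (hΩ : IsOpen Ω) (hS : S.Sm Ω) (hw : ContDiffOn ℝ ∞ w Ω) {κ : EE N → ℂ}
    (hκ : ContDiff ℝ ∞ κ) {x : EE N} (hx : x ∈ Ω) :
    S.QQ w κ x = Pg (am S w) (bm S w) (cm S w) κ x := by
  have hwC : ContDiffOn ℝ ∞ (fun y => (w y : ℂ)) Ω := Complex.ofRealCLM.contDiff.comp_contDiffOn hw
  have hY : ∀ j, ContDiffOn ℝ ∞ (S.Y j κ) Ω := fun j => hS.Y_on hΩ j hκ.contDiffOn
  have hwY : ∀ j, ContDiffOn ℝ ∞ (fun y => (w y : ℂ) * S.Y j κ y) Ω := fun j => hwC.mul (hY j)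
  have hκ1 : ∀ b, ContDiff ℝ ∞ (∂c b κ) := fun b => cd_contDiff hκ b
  have e1 : S.QQ w κ x = ∑ a, ∂c a (fun y => ∑ j, cX S j a y * ((w y : ℂ) * S.Y j κ y)) x := by
    unfold Fam.QQ
    have : ∀ j, S.Xt j (fun y => (w y : ℂ) * S.Y j κ y) x =
        ∑ a, ∂c a (fun y => cX S j a y * ((w y : ℂ) * S.Y j κ y)) x := fun j =>
      Xt_coord hΩ hS j hx (dAt hΩ (hwY j) hx)
    simp only [this]
    rw [Finset.sum_comm]
    refine Finset.sum_congr rfl fun a _ => ?_
    rw [cd_sum' _ a fun j _ => dAt hΩ ((smooth_cX hS j a).mul (hwY j)) hx]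
  have e2 : ∀ a y, ∑ j, cX S j a y * ((w y : ℂ) * S.Y j κ y) =
      (∑ b, (am S w y a b : ℂ) * ∂c b κ y) + Complex.I * ∑ b, (tm S w a b y : ℂ) * ∂c b κ y := by
    intro a y
    have h1 : ∀ j, cX S j a y * ((w y : ℂ) * S.Y j κ y) =
        ∑ b, (w y : ℂ) * (cX S j a y * cY S j b y) * ∂c b κ y := by
      intro j
      rw [Y_coord, Finset.mul_sum, Finset.mul_sum]
      exact Finset.sum_congr rfl fun b _ => by ring
    simp only [h1]
    rw [Finset.sum_comm, Finset.mul_sum, ← Finset.sum_add_distrib]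
    refine Finset.sum_congr rfl fun b _ => ?_
    rw [← Finset.sum_mul, ← Finset.mul_sum, H_eq]
    ring
  have d1 : ∀ a, DifferentiableAt ℝ (fun y => ∑ b, (am S w y a b : ℂ) * ∂c b κ y) x := fun a =>
    dAt hΩ (ContDiffOn.sum fun b _ => (smooth_amC hS hw a b).mul (hκ1 b).contDiffOn) hx
  have d2 : ∀ a b, DifferentiableAt ℝ (fun y => (tm S w a b y : ℂ) * ∂c b κ y) x := fun a b =>
    dAt hΩ ((smooth_tmC hS hw a b).mul (hκ1 b).contDiffOn) hx
  have d3 : ∀ a, DifferentiableAt ℝ (fun y => ∑ b, (tm S w a b y : ℂ) * ∂c b κ y) x := fun a =>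
    dAt hΩ (ContDiffOn.sum fun b _ => (smooth_tmC hS hw a b).mul (hκ1 b).contDiffOn) hx
  have e3 : ∀ a, ∂c a (fun y => ∑ j, cX S j a y * ((w y : ℂ) * S.Y j κ y)) x =
      ∂c a (fun y => ∑ b, (am S w y a b : ℂ) * ∂c b κ y) x +
        Complex.I * ∑ b, (∂c a (fun y => (tm S w a b y : ℂ)) x * ∂c b κ x +
          (tm S w a b x : ℂ) * ∂c a (∂c b κ) x) := by
    intro a
    simp only [e2]
    rw [Reg_274.cd_add (d1 a) ((d3 a).const_mul _), cd_const_mul' a _ (d3 a),
      cd_sum' _ a fun b _ => d2 a b]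
    congr 2
    refine Finset.sum_congr rfl fun b _ => ?_
    rw [Reg_274.cd_mul (dAt hΩ (smooth_tmC hS hw a b) hx)
      (((hκ1 b).differentiable (by simp)) x)]
    ring
  have e4 : ∑ a, ∑ b, (tm S w a b x : ℂ) * ∂c a (∂c b κ) x = 0 := by
    have h1 : ∑ a, ∑ b, (tm S w a b x : ℂ) * ∂c a (∂c b κ) x =
        - ∑ a, ∑ b, (tm S w a b x : ℂ) * ∂c a (∂c b κ) x := by
      have h2 : ∑ a, ∑ b, (tm S w a b x : ℂ) * ∂c a (∂c b κ) x =
          ∑ a, ∑ b, - ((tm S w b a x : ℂ) * ∂c b (∂c a κ) x) := by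
        refine Finset.sum_congr rfl fun a _ => Finset.sum_congr rfl fun b _ => ?_
        rw [tm_anti a b x, cd_comm hκ a b x]
        push_cast
        ring
      refine h2.trans ?_
      simp only [Finset.sum_neg_distrib]
      rw [Finset.sum_comm]
    have h3 : (2 : ℂ) * ∑ a, ∑ b, (tm S w a b x : ℂ) * ∂c a (∂c b κ) x = 0 := by
      linear_combination h1
    simpa using h3
  have d4 : ∀ i, DifferentiableAt ℝ (bm S w i) x := fun i => dAt hΩ (smooth_bm hΩ hS hw i) hx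
  have e5 : ∑ i, ∂c i (fun y => bm S w i y * κ y) x =
      (∑ i, bm S w i x * ∂c i κ x) + cm S w x * κ x := by
    unfold cm
    rw [Finset.sum_mul, ← Finset.sum_add_distrib]
    refine Finset.sum_congr rfl fun i _ => ?_
    rw [Reg_274.cd_mul (d4 i) ((hκ.differentiable (by simp)) x)]
  rw [e1]
  simp only [e3]
  unfold Pg
  rw [e5, Finset.sum_add_distrib, ← Finset.mul_sum]
  simp only [Finset.sum_add_distrib]
  rw [e4]
  have e6 : ∑ i, bm S w i x * ∂c i κ x =
      - (Complex.I * ∑ a, ∑ b, ∂c a (fun y => (tm S w a b y : ℂ)) x * ∂c b κ x) := by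
    rw [Finset.sum_comm, Finset.mul_sum, ← Finset.sum_neg_distrib]
    refine Finset.sum_congr rfl fun b _ => ?_
    unfold bm
    rw [← Finset.sum_mul]
    ring
  rw [e6]
  ring

/-- **(R')** of 900's plan #6028 / `RegP`. -/
theorem regP_raw (hΩ : IsOpen Ω) (hS : S.Sm Ω) (hE : S.Ell Ω) (hw : ContDiffOn ℝ ∞ w Ω)
    (hpos : ∀ x ∈ Ω, 0 < w x) {F : EE N → ℂ} (hF : ContDiffOn ℝ ∞ F Ω) {u : EE N → ℂ}
    (hu : LocallyIntegrableOn u Ω)
    (h : ∀ κ, TestC Ω κ → ∫ x, u x * S.QQ w κ x = ∫ x, F x * κ x) :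
    ∃ v, ContDiffOn ℝ ∞ v Ω ∧ ∀ᵐ x, x ∈ Ω → v x = u x := by
  obtain ⟨v, hv, hvu, -⟩ := cgen hΩ (smooth_am hS hw) (fun x hx => posDef_am hE hpos hx)
    (smooth_bm hΩ hS hw) (smooth_cm hΩ hS hw) hF hu (by
      intro φ h1 h2 h3
      rw [← h φ ⟨h1, h2, h3⟩]
      refine integral_congr_ae (Eventually.of_forall fun x => ?_)
      simp only
      by_cases hx : x ∈ Ω
      · rw [QQ_eq hΩ hS hw h1 hx]
      · have hx' : x ∉ tsupport φ := fun hc => hx (h3 hc)
        have h4 : S.QQ w φ x = 0 := by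
          have ht := hS.QQ_test hΩ hw ⟨h1, h2, h3⟩
          exact image_eq_zero_of_notMem_tsupport fun hc => hx (ht.2.2 hc)
        have z0 : φ =ᶠ[𝓝 x] fun _ => 0 := by
          filter_upwards [(isClosed_tsupport φ).isOpen_compl.mem_nhds hx'] with y hy
          exact image_eq_zero_of_notMem_tsupport hy
        have z1 : ∀ j, ∂c j φ =ᶠ[𝓝 x] fun _ => 0 := by
          intro j
          filter_upwards [z0.eventuallyEq_nhds] with y hy
          unfold Reg_274.cd
          rw [hy.fderiv_eq]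
          simp
        have h5 : Pg (am S w) (bm S w) (cm S w) φ x = 0 := by
          unfold Pg
          have k1 : ∀ i, ∂c i (fun y => ∑ j, (am S w y i j : ℂ) * ∂c j φ y) x = 0 := by
            intro i
            have : (fun y => ∑ j, (am S w y i j : ℂ) * ∂c j φ y) =ᶠ[𝓝 x] fun _ => 0 := by
              have hall : ∀ᶠ y in 𝓝 x, ∀ j, ∂c j φ y = 0 :=
                eventually_all.2 z1
              filter_upwards [hall] with y hy
              simp [hy]
            unfold Reg_274.cd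
            rw [show (fun y => ∑ j, (am S w y i j : ℂ) *
              (fderiv ℝ φ y) (EuclideanSpace.single j 1)) =
              (fun y => ∑ j, (am S w y i j : ℂ) * ∂c j φ y) from rfl, this.fderiv_eq]
            simp
          have k2 : ∀ i, ∂c i (fun y => bm S w i y * φ y) x = 0 := by
            intro i
            have : (fun y => bm S w i y * φ y) =ᶠ[𝓝 x] fun _ => 0 := by
              filter_upwards [z0] with y hy
              rw [hy, mul_zero]
            unfold Reg_274.cd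
            rw [this.fderiv_eq]
            simp
          simp only [k1, k2, z0.self_of_nhds, Finset.sum_const_zero, mul_zero, sub_zero, add_zero]
        rw [h4, h5])
  exact ⟨v, hv, hvu⟩

/-- 900's `RegP` -/
def RegP (S : Fam ι (EE N)) (Ω : Set (EE N)) (w : EE N → ℝ) : Prop :=
  ∀ u : EE N → ℂ, LocallyIntegrableOn u Ω → (∀ κ, TestC Ω κ → ∫ x, u x * S.QQ w κ x = 0) →
    ∃ v, ContDiffOn ℝ ∞ v Ω ∧ ∀ᵐ x, x ∈ Ω → v x = u x

theorem regP (hΩ : IsOpen Ω) (hS : S.Sm Ω) (hE : S.Ell Ω) (hw : ContDiffOn ℝ ∞ w Ω)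
    (hpos : ∀ x ∈ Ω, 0 < w x) : RegP S Ω w := fun u hu h =>
  regP_raw hΩ hS hE hw hpos (F := fun _ => 0) contDiffOn_const hu fun κ hκ => by
    rw [h κ hκ]
    simp

end Crest.Agent.R260.NNR_597
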