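import Mathlib

/-!
# Row 260 (helper597), NN-R, file 4: `(R-b)`, vanishing from integrability against `|x|^(-D-2)`

`vanish` : `V` real finite dimensional of dimension `D ≥ 1`, `v` continuous on a ball around `0`, differentiable
at `0`, `∫ |v|² |x|^(-D-2) < ∞` near `0`; then `v 0 = 0` and `Dv(0) = 0`.
`vanish_of_le` : the form used in the local Newlander-Nirenberg theorem.
-/

set_option autoImplicit false
set_option linter.unusedSectionVars false

noncomputable section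

open MeasureTheory Set Filter Topology Metric Module
open scoped ENNReal NNReal

namespace Crest.Agent.R260.NNR_597

variable {V : Type*} [NormedAddCommGroup V] [NormedSpace ℝ V] [FiniteDimensional ℝ V]
  [MeasurableSpace V] [BorelSpace V] {μ : Measure V} [μ.IsAddHaarMeasure]
  {F : Type*} [NormedAddCommGroup F] [NormedSpace ℝ F]

/-- scaling of `lintegral`s over balls -/
theorem lintegral_scale {ρ : ℝ} (hρ : 0 < ρ) (f : V → ℝ≥0∞) :
    ∫⁻ w in ball (0 : V) 1, f (ρ • w) ∂μ =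
      ENNReal.ofReal ((ρ ^ finrank ℝ V)⁻¹) * ∫⁻ x in ball (0 : V) ρ, f x ∂μ := by
  have hne : ρ ≠ 0 := hρ.ne'
  have h1 : Measure.map (ρ • ·) μ = ENNReal.ofReal |(ρ ^ finrank ℝ V)⁻¹| • μ :=
    Measure.map_addHaar_smul μ hne
  have hme : MeasurableEmbedding (fun w : V => ρ • w) :=
    (Homeomorph.smulOfNeZero ρ hne).measurableEmbedding
  have h2 : ∫⁻ x, (ball (0 : V) ρ).indicator f x ∂(Measure.map (ρ • ·) μ) =
      ∫⁻ w, (ball (0 : V) ρ).indicator f (ρ • w) ∂μ := hme.lintegral_map _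
  rw [h1, lintegral_smul_measure, lintegral_indicator measurableSet_ball, abs_of_pos (by positivity)]
    at h2
  rw [← lintegral_indicator measurableSet_ball]
  rw [smul_eq_mul] at h2
  rw [h2]
  refine lintegral_congr fun w => ?_
  have h3 : w ∈ ball (0 : V) 1 ↔ ρ • w ∈ ball (0 : V) ρ := by
    rw [mem_ball_zero_iff, mem_ball_zero_iff, norm_smul, Real.norm_of_nonneg hρ.le]
    constructor
    · intro h; nlinarith
    · intro h
      by_contra hc
      push Not at hc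
      nlinarith
  by_cases hw : w ∈ ball (0 : V) 1
  · rw [indicator_of_mem hw, indicator_of_mem (h3.1 hw)]
  · rw [indicator_of_notMem hw, indicator_of_notMem fun h => hw (h3.2 h)]

/-- Fatou -/
theorem ae_zero_of_tendsto {f : ℕ → V → F} {g : V → F} {c : ℕ → ℝ≥0∞}
    (hm : ∀ k, AEMeasurable (fun w => ‖f k w‖ₑ ^ 2) (μ.restrict (ball 0 1)))
    (hb : ∀ k, ∫⁻ w in ball (0 : V) 1, ‖f k w‖ₑ ^ 2 ∂μ ≤ c k) (hc : Tendsto c atTop (𝓝 0))
    (ht : ∀ w, Tendsto (fun k => f k w) atTop (𝓝 (g w))) (hg : Continuous g) :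
    ∀ w ∈ ball (0 : V) 1, g w = 0 := by
  have h1 : ∀ w, liminf (fun k => ‖f k w‖ₑ ^ 2) atTop = ‖g w‖ₑ ^ 2 := by
    intro w
    have h2 : Tendsto (fun k => ‖f k w‖ₑ ^ 2) atTop (𝓝 (‖g w‖ₑ ^ 2)) :=
      ((ENNReal.continuous_pow 2).tendsto _).comp ((continuous_enorm.tendsto _).comp (ht w))
    exact h2.liminf_eq
  have h2 : ∫⁻ w in ball (0 : V) 1, ‖g w‖ₑ ^ 2 ∂μ ≤ 0 := by
    have h3 := lintegral_liminf_le' (μ := μ.restrict (ball (0 : V) 1))
      (f := fun k w => ‖f k w‖ₑ ^ 2) (u := (atTop : Filter ℕ)) hm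
    simp only [h1] at h3
    refine h3.trans ?_
    have h4 : Tendsto (fun k => ∫⁻ w in ball (0 : V) 1, ‖f k w‖ₑ ^ 2 ∂μ) atTop (𝓝 0) :=
      tendsto_of_tendsto_of_tendsto_of_le_of_le tendsto_const_nhds hc (fun k => bot_le) hb
    rw [h4.liminf_eq]
  have hcont : Continuous fun w => ‖g w‖ₑ ^ 2 :=
    (ENNReal.continuous_pow 2).comp (continuous_enorm.comp hg)
  have h5 : ∀ᵐ w ∂(μ.restrict (ball (0 : V) 1)), ‖g w‖ₑ ^ 2 = 0 :=
    (lintegral_eq_zero_iff hcont.measurable).1 (le_antisymm h2 bot_le)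
  have h6 : ∀ᵐ w ∂(μ.restrict (ball (0 : V) 1)), g w = 0 := by
    filter_upwards [h5] with w hw
    have : ‖g w‖ₑ = 0 := by simpa using hw
    simpa using this
  have h7 : EqOn g (fun _ => 0) (ball (0 : V) 1) :=
    Measure.eqOn_open_of_ae_eq (μ := μ) h6 isOpen_ball hg.continuousOn continuousOn_const
  exact fun w hw => h7 hw

/-- **vanishing of the 1-jet** -/
theorem vanish (hD : 1 ≤ finrank ℝ V) {v : V → F} {r : ℝ} (hr : 0 < r)
    (hc : ContinuousOn v (ball 0 r)) (hd : DifferentiableAt ℝ v 0)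
    (hI : ∫⁻ x in ball (0 : V) r, ‖v x‖ₑ ^ 2 / ‖x‖ₑ ^ (finrank ℝ V + 2) ∂μ < ∞) :
    v 0 = 0 ∧ fderiv ℝ v 0 = 0 := by
  set D := finrank ℝ V with hDdef
  set ρ : ℕ → ℝ := fun k => min r 1 * (1 / 2) ^ k with hρ
  have hm0 : 0 < min r 1 := lt_min hr one_pos
  have hρ0 : ∀ k, 0 < ρ k := fun k => by positivity
  have hρm : ∀ k, ρ k ≤ min r 1 := fun k => by
    have : ((1 : ℝ) / 2) ^ k ≤ 1 := pow_le_one₀ (by norm_num) (by norm_num)
    calc ρ k = min r 1 * (1 / 2) ^ k := rfl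
      _ ≤ min r 1 * 1 := by gcongr
      _ = min r 1 := mul_one _
  have hρr : ∀ k, ρ k ≤ r := fun k => (hρm k).trans (min_le_left _ _)
  have hρ1 : ∀ k, ρ k ≤ 1 := fun k => (hρm k).trans (min_le_right _ _)
  have hρt : Tendsto ρ atTop (𝓝 0) := by
    have := (tendsto_pow_atTop_nhds_zero_of_lt_one (r := (1 / 2 : ℝ)) (by norm_num)
      (by norm_num)).const_mul (min r 1)
    simpa [hρ] using this
  set f : V → ℝ≥0∞ := fun x => ‖v x‖ₑ ^ 2 / ‖x‖ₑ ^ (D + 2) with hf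
  set c : ℕ → ℝ≥0∞ := fun k => ∫⁻ x in ball (0 : V) (ρ k), f x ∂μ with hcdef
  have hct : Tendsto c atTop (𝓝 0) := by
    have h1 : ∫⁻ x, (ball (0 : V) r).indicator f x ∂μ ≠ ∞ := by
      rw [lintegral_indicator measurableSet_ball]
      exact hI.ne
    have h2 : Tendsto (fun k => μ (ball (0 : V) (ρ k))) atTop (𝓝 0) := by
      have h3 : ∀ k, μ (ball (0 : V) (ρ k)) = ENNReal.ofReal (ρ k ^ D) * μ (ball 0 1) := fun k =>
        Measure.addHaar_ball_of_pos μ 0 (hρ0 k)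
      have h4 : Tendsto (fun k => ENNReal.ofReal (ρ k ^ D) * μ (ball (0 : V) 1)) atTop
          (𝓝 (ENNReal.ofReal (0 ^ D) * μ (ball 0 1))) := by
        refine ENNReal.Tendsto.mul_const ?_ (Or.inr measure_ball_lt_top.ne)
        exact (ENNReal.continuous_ofReal.tendsto _).comp (hρt.pow D)
      rw [zero_pow (by omega), ENNReal.ofReal_zero, zero_mul] at h4
      simpa only [h3] using h4
    have h5 := tendsto_setLIntegral_zero h1 h2
    refine h5.congr fun k => ?_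
    rw [← lintegral_indicator measurableSet_ball, hcdef]
    simp only
    rw [← lintegral_indicator measurableSet_ball]
    refine lintegral_congr fun x => ?_
    by_cases hx : x ∈ ball (0 : V) (ρ k)
    · rw [indicator_of_mem hx, indicator_of_mem hx, indicator_of_mem (ball_subset_ball (hρr k) hx)]
    · rw [indicator_of_notMem hx, indicator_of_notMem hx]
  -- the basic bound
  have key : ∀ k, ∫⁻ w in ball (0 : V) 1, ‖(ρ k)⁻¹ • v (ρ k • w)‖ₑ ^ 2 ∂μ ≤ c k := by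
    intro k
    have hk := hρ0 k
    have e1 : ∀ w : V, ‖(ρ k)⁻¹ • v (ρ k • w)‖ₑ ^ 2 =
        ENNReal.ofReal ((ρ k)⁻¹ ^ 2) * ‖v (ρ k • w)‖ₑ ^ 2 := by
      intro w
      rw [enorm_smul, mul_pow, Real.enorm_of_nonneg (inv_nonneg.2 hk.le),
        ENNReal.ofReal_pow (inv_nonneg.2 hk.le)]
    simp only [e1]
    rw [lintegral_const_mul' _ _ ENNReal.ofReal_ne_top,
      lintegral_scale (μ := μ) hk (fun x => ‖v x‖ₑ ^ 2), ← mul_assoc,
      ← ENNReal.ofReal_mul (by positivity), ← lintegral_const_mul' _ _ ENNReal.ofReal_ne_top]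
    refine setLIntegral_mono' measurableSet_ball fun x hx => ?_
    rw [hf]
    simp only
    rw [ENNReal.div_eq_inv_mul]
    gcongr
    have e2 : (ρ k)⁻¹ ^ 2 * (ρ k ^ D)⁻¹ = (ρ k ^ (D + 2))⁻¹ := by
      have : ∀ t : ℝ, t⁻¹ ^ 2 * (t ^ D)⁻¹ = (t ^ (D + 2))⁻¹ := fun t => by
        rw [pow_add, mul_inv, inv_pow, mul_comm]
      exact this _
    rw [e2, ENNReal.ofReal_inv_of_pos (by positivity)]
    apply ENNReal.inv_le_inv.2
    rw [ENNReal.ofReal_pow hk.le]
    gcongr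
    rw [← ofReal_norm]
    exact ENNReal.ofReal_le_ofReal (mem_ball_zero_iff.1 hx).le
  have hmem : ∀ k, ∀ w ∈ ball (0 : V) 1, ρ k • w ∈ ball (0 : V) r := by
    intro k w hw
    rw [mem_ball_zero_iff, norm_smul, Real.norm_of_nonneg (hρ0 k).le]
    have h1 := mem_ball_zero_iff.1 hw
    have h2 := hρr k
    have h3 := hρ0 k
    calc ρ k * ‖w‖ < ρ k * 1 := by gcongr
      _ ≤ r := by linarith
  have hcw : ∀ k, ContinuousOn (fun w => v (ρ k • w)) (ball (0 : V) 1) := fun k =>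
    hc.comp (continuous_const_smul _).continuousOn (hmem k)
  have hme : ∀ (k : ℕ) (t : ℝ),
      AEMeasurable (fun w => ‖t • v (ρ k • w)‖ₑ ^ 2) (μ.restrict (ball (0 : V) 1)) := by
    intro k t
    have h1 : ContinuousOn (fun w => ‖t • v (ρ k • w)‖ₑ ^ 2) (ball (0 : V) 1) :=
      (ENNReal.continuous_pow 2).comp_continuousOn
        (continuous_enorm.comp_continuousOn ((hcw k).const_smul t))
    exact h1.aemeasurable measurableSet_ball
  -- `v 0 = 0`
  have hv0 : v 0 = 0 := by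
    have h1 := ae_zero_of_tendsto (μ := μ) (f := fun k w => v (ρ k • w)) (g := fun _ => v 0) (c := c)
      (fun k => by simpa using hme k 1) (fun k => ?_) hct (fun w => ?_) continuous_const 0
      (mem_ball_self one_pos)
    · exact h1
    · refine le_trans ?_ (key k)
      refine lintegral_mono fun w => ?_
      simp only
      rw [enorm_smul]
      have h2 : (1 : ℝ≥0∞) ≤ ‖(ρ k)⁻¹‖ₑ := by
        rw [Real.enorm_of_nonneg (inv_nonneg.2 (hρ0 k).le), ← ENNReal.ofReal_one]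
        exact ENNReal.ofReal_le_ofReal ((one_le_inv₀ (hρ0 k)).2 (hρ1 k))
      calc ‖v (ρ k • w)‖ₑ ^ 2 = (1 * ‖v (ρ k • w)‖ₑ) ^ 2 := by rw [one_mul]
        _ ≤ _ := by gcongr
    · have h3 : Tendsto (fun k => ρ k • w) atTop (𝓝 (0 : V)) := by
        have := hρt.smul_const w
        rwa [zero_smul] at this
      exact hd.continuousAt.tendsto.comp h3
  refine ⟨hv0, ?_⟩
  have hL := ae_zero_of_tendsto (μ := μ) (f := fun k w => (ρ k)⁻¹ • v (ρ k • w))
    (g := fun w => fderiv ℝ v 0 w) (c := c) (fun k => hme k _) key hct (fun w => by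
      have h1 : Tendsto (fun k => ‖(ρ k)⁻¹‖) atTop atTop := by
        have h2 : Tendsto (fun k => (ρ k)⁻¹) atTop atTop :=
          (tendsto_nhdsWithin_iff.2 ⟨hρt, Eventually.of_forall fun k => hρ0 k⟩).inv_tendsto_nhdsGT_zero
        refine h2.congr fun k => ?_
        rw [Real.norm_of_nonneg (inv_nonneg.2 (hρ0 k).le)]
      have h3 := hd.hasFDerivAt.lim w h1
      refine h3.congr fun k => ?_
      rw [hv0, sub_zero, zero_add, inv_inv]) (fderiv ℝ v 0).continuous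
  ext w
  by_cases hw : w = 0
  · rw [hw]
    simp
  · have hw0 : 0 < ‖w‖ := norm_pos_iff.2 hw
    have h1 := hL ((2 * ‖w‖)⁻¹ • w) (by
      rw [mem_ball_zero_iff, norm_smul, Real.norm_of_nonneg (by positivity), mul_inv,
        mul_assoc, inv_mul_cancel₀ hw0.ne']
      norm_num)
    rw [map_smul] at h1
    have h2 := (smul_eq_zero.1 h1).resolve_left (by positivity)
    simpa using h2

/-- the form used in the local Newlander-Nirenberg theorem: `dim V = 2n`, `|v| ≤ C |x|^(n+1) |U|`, `U ∈ L²` -/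
theorem vanish_of_le {n : ℕ} (hn : 1 ≤ n) (hD : finrank ℝ V = 2 * n) {v : V → F} {r : ℝ}
    (hr : 0 < r) (hc : ContinuousOn v (ball 0 r)) (hd : DifferentiableAt ℝ v 0)
    {G : Type*} [NormedAddCommGroup G] {U : V → G}
    (hU : MemLp U 2 (μ.restrict (ball (0 : V) r))) {C : ℝ}
    (hle : ∀ᵐ x ∂μ, x ∈ ball (0 : V) r → ‖v x‖ ≤ C * ‖x‖ ^ (n + 1) * ‖U x‖) :
    v 0 = 0 ∧ fderiv ℝ v 0 = 0 := by
  refine vanish (μ := μ) (by omega) hr hc hd ?_
  have h1 : ∫⁻ x in ball (0 : V) r, ‖U x‖ₑ ^ 2 ∂μ < ∞ := by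
    have := hU.eLpNorm_lt_top
    rw [eLpNorm_lt_top_iff_lintegral_rpow_enorm_lt_top (by norm_num) (by norm_num)] at this
    simpa using this
  have h2 : ∫⁻ x in ball (0 : V) r, ‖v x‖ₑ ^ 2 / ‖x‖ₑ ^ (finrank ℝ V + 2) ∂μ ≤
      ∫⁻ x in ball (0 : V) r, ENNReal.ofReal (C ^ 2) * ‖U x‖ₑ ^ 2 ∂μ := by
    refine setLIntegral_mono_ae' measurableSet_ball ?_
    filter_upwards [hle] with x hx hxr
    have h3 := hx hxr
    by_cases hx0 : x = 0
    · subst hx0
      have h4 : v 0 = 0 := by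
        have : ‖v 0‖ ≤ 0 := by simpa using h3
        exact norm_le_zero_iff.1 this
      simp [h4]
    · have hx0' : ‖x‖ₑ ≠ 0 := by simpa using hx0
      rw [ENNReal.div_le_iff (pow_ne_zero _ hx0') (ENNReal.pow_ne_top enorm_ne_top), hD]
      have h5 : ‖v x‖ₑ ≤ ENNReal.ofReal |C| * ‖x‖ₑ ^ (n + 1) * ‖U x‖ₑ := by
        rw [← ofReal_norm, ← ofReal_norm, ← ofReal_norm,
          ← ENNReal.ofReal_pow (norm_nonneg _), ← ENNReal.ofReal_mul (abs_nonneg _),
          ← ENNReal.ofReal_mul (by positivity)]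
        refine ENNReal.ofReal_le_ofReal (h3.trans ?_)
        gcongr
        exact le_abs_self C
      calc ‖v x‖ₑ ^ 2 ≤ (ENNReal.ofReal |C| * ‖x‖ₑ ^ (n + 1) * ‖U x‖ₑ) ^ 2 := by gcongr
        _ = ENNReal.ofReal (C ^ 2) * ‖U x‖ₑ ^ 2 * ‖x‖ₑ ^ (2 * n + 2) := by
          rw [mul_pow, mul_pow, ← ENNReal.ofReal_pow (abs_nonneg _), sq_abs]
          ring
  refine h2.trans_lt ?_
  rw [lintegral_const_mul' _ _ ENNReal.ofReal_ne_top]
  exact ENNReal.mul_lt_top ENNReal.ofReal_lt_top h1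

end Crest.Agent.R260.NNR_597
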