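import Crest.Agent.R260.NN4_900
import Crest.Agent.R260.JFr_250
import Crest.Agent.R260.LinJ_664
import Crest.Agent.R260.NNA5_17
import Crest.Agent.R260.NNR3_597
import Crest.Agent.R260.NNR4_597
import Crest.Agent.R260.NNInt_899

/-!
# Row 260, local Newlander-Nirenberg: `CoreR n` from the weighted estimate (helper900)
-/

set_option autoImplicit false
set_option linter.unusedSectionVars false
set_option linter.deprecated false
set_option maxHeartbeats 400000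

noncomputable section

open MeasureTheory Filter Topology Set Metric
open scoped ENNReal NNReal ContDiff ComplexConjugate

namespace Crest.Agent.R260.NN5_900

open NN0_900 NN1_900 NN2_900 NN3_900 NN4_900 JFr_250 CutNu_250

/-- the weight `Φ = K/(r²-|x|²) + M log(|x|²+ε)` -/
def Phi {N : ℕ} (r K : ℝ) (M : ℕ) (ε : ℝ) (x : VV N) : ℝ :=
  K / sr r x + M * Real.log (‖x‖ ^ 2 + ε)

/-- `w1 = exp(-Φ)` -/
def w1 {N : ℕ} (r K : ℝ) (M : ℕ) (ε : ℝ) (x : VV N) : ℝ := Real.exp (-(Phi r K M ε x))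

/-- `w2 = s² exp(-Φ)` -/
def w2 {N : ℕ} (r K : ℝ) (M : ℕ) (ε : ℝ) (x : VV N) : ℝ := sr r x ^ 2 * Real.exp (-(Phi r K M ε x))

/-- **(E)+(W)**, the estimate of helper680 -/
def EW (N : ℕ) : Prop :=
  ∀ (J : VV N → VV N →L[ℝ] VV N) (R C : ℝ), 0 < R → ContDiffOn ℝ ∞ J (ball 0 R) →
    (∀ x ∈ ball (0 : VV N) R, ∀ v, J x (J x v) = -v) →
    (∀ x ∈ ball (0 : VV N) R, ∀ v w, ACM_580.Nij J x v w = 0) →
    (∀ v, ‖J 0 v‖ = ‖v‖) →
    (∀ x ∈ ball (0 : VV N) R, ∀ v, ‖J x v - J 0 v‖ ≤ C * ‖x‖ ^ 2 * ‖v‖) →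
    ∀ M : ℕ, ∃ r K : ℝ, 0 < r ∧ r ≤ 1 ∧ r < R ∧ 0 ≤ K ∧ ∀ ε : ℝ, 0 < ε → ε ≤ 1 →
      ∀ g, TestC (ball (0 : VV N) r) g →
        ∫ x, (∑ j, ‖(jfam J).X j g x‖ ^ 2) * w2 r K M ε x ≤
          ∫ x, ‖(jfam J).PP (w2 r K M ε) g x‖ ^ 2 / w1 r K M ε x

variable {N : ℕ}

theorem sr_pos {r : ℝ} {x : VV N} (hx : x ∈ ball (0 : VV N) r) : 0 < sr r x := by
  have h1 := mem_ball_zero_iff.1 hx
  unfold sr
  nlinarith [norm_nonneg x]

theorem Phi_smooth {r K ε : ℝ} {M : ℕ} (hε : 0 < ε) :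
    ContDiffOn ℝ ∞ (Phi r K M ε : VV N → ℝ) (ball 0 r) := by
  refine ContDiffOn.add ?_ ?_
  · exact contDiffOn_const.div (sr_smooth.contDiffOn) fun x hx => (sr_pos hx).ne'
  · refine contDiffOn_const.mul ?_
    refine ContDiffOn.log ((contDiff_norm_sq ℝ).contDiffOn.add contDiffOn_const) ?_
    intro x _
    positivity

theorem w1_smooth {r K ε : ℝ} {M : ℕ} (hε : 0 < ε) :
    ContDiffOn ℝ ∞ (w1 r K M ε : VV N → ℝ) (ball 0 r) :=
  (Phi_smooth hε).neg.exp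

theorem w2_smooth {r K ε : ℝ} {M : ℕ} (hε : 0 < ε) :
    ContDiffOn ℝ ∞ (w2 r K M ε : VV N → ℝ) (ball 0 r) :=
  (sr_smooth.contDiffOn.pow 2).mul (Phi_smooth hε).neg.exp

theorem w1_pos {r K ε : ℝ} {M : ℕ} (x : VV N) : 0 < w1 r K M ε x := Real.exp_pos _

theorem w2_pos {r K ε : ℝ} {M : ℕ} {x : VV N} (hx : x ∈ ball (0 : VV N) r) :
    0 < w2 r K M ε x := mul_pos (pow_pos (sr_pos hx) 2) (Real.exp_pos _)

theorem w1_eq {r K ε : ℝ} {M : ℕ} (hε : 0 < ε) (x : VV N) :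
    w1 r K M ε x = Real.exp (-(K / sr r x)) * ((‖x‖ ^ 2 + ε) ^ M)⁻¹ := by
  have h : 0 < ‖x‖ ^ 2 + ε := by positivity
  unfold w1 Phi
  rw [neg_add, Real.exp_add]
  congr 1
  rw [Real.exp_neg, mul_comm, Real.exp_mul, Real.exp_log h, Real.rpow_natCast]

theorem w1_inv {r K ε : ℝ} {M : ℕ} (hε : 0 < ε) (x : VV N) :
    (w1 r K M ε x)⁻¹ = Real.exp (K / sr r x) * (‖x‖ ^ 2 + ε) ^ M := by
  rw [w1_eq hε, mul_inv, inv_inv, ← Real.exp_neg, neg_neg]

theorem w1_le {r K ε : ℝ} {M : ℕ} (hK : 0 ≤ K) (hε : 0 < ε) {x : VV N}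
    (hx : x ∈ ball (0 : VV N) r) : w1 r K M ε x ≤ ((‖x‖ ^ 2 + ε) ^ M)⁻¹ := by
  rw [w1_eq hε]
  have h1 : Real.exp (-(K / sr r x)) ≤ 1 := by
    apply Real.exp_le_one_iff.2
    have := div_nonneg hK (sr_pos hx).le
    linarith
  have h2 : 0 ≤ ((‖x‖ ^ 2 + ε) ^ M)⁻¹ := by positivity
  nlinarith

/-- the core: holomorphic functions with prescribed differential -/
theorem core {n : ℕ} (hn : 1 ≤ n) (hEW : EW (2 * n))
    (J : VV (2 * n) → VV (2 * n) →L[ℝ] VV (2 * n)) (R C : ℝ) (hR : 0 < R)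
    (hJ : ContDiffOn ℝ ∞ J (ball 0 R))
    (hJ2 : ∀ x ∈ ball (0 : VV (2 * n)) R, ∀ v, J x (J x v) = -v)
    (hNij : ∀ x ∈ ball (0 : VV (2 * n)) R, ∀ v w, ACM_580.Nij J x v w = 0)
    (hJ0 : ∀ v, ‖J 0 v‖ = ‖v‖)
    (hJq : ∀ x ∈ ball (0 : VV (2 * n)) R, ∀ v, ‖J x v - J 0 v‖ ≤ C * ‖x‖ ^ 2 * ‖v‖) :
    ∃ r : ℝ, 0 < r ∧ ∀ s0 : VV (2 * n) →L[ℝ] ℂ, (∀ v, s0 (J 0 v) = Complex.I * s0 v) →
      ∃ f : VV (2 * n) → ℂ, ContDiffOn ℝ ∞ f (ball 0 r) ∧ fderiv ℝ f 0 = s0 ∧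
        ∀ x ∈ ball (0 : VV (2 * n)) r, ∀ v, fderiv ℝ f x (J x v) = Complex.I * fderiv ℝ f x v := by
  have hfin : Module.finrank ℝ (VV (2 * n)) = 2 * n := by simp
  -- WLOG `0 ≤ C`
  set C' : ℝ := max C 0 with hC'
  have hC0 : 0 ≤ C' := le_max_right _ _
  have hJq' : ∀ x ∈ ball (0 : VV (2 * n)) R, ∀ v, ‖J x v - J 0 v‖ ≤ C' * ‖x‖ ^ 2 * ‖v‖ := by
    intro x hx v
    refine (hJq x hx v).trans ?_
    have : C ≤ C' := le_max_left _ _
    gcongr
  obtain ⟨r, K, hr, hr1, hrR, hK, hE⟩ := hEW J R C hR hJ hJ2 hNij hJ0 hJq (n + 1)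
  refine ⟨r, hr, fun s0 hs0 => ?_⟩
  set Ω : Set (VV (2 * n)) := ball 0 r with hΩd
  have hΩ : IsOpen Ω := isOpen_ball
  have hsub : Ω ⊆ ball 0 R := ball_subset_ball hrR.le
  have hS : (jfam J).Sm Ω := jfam_sm J (hJ.mono hsub)
  have hEll := jfam_ell J Ω
  have hs0c : ContDiffOn ℝ ∞ (fun x => s0 x) Ω := s0.contDiff.contDiffOn
  -- the uniform constant
  set c0 : ℝ := ((2 * n : ℕ) : ℝ) * (‖s0‖ * C' / 2) ^ 2 with hc0
  have hc00 : 0 ≤ c0 := by positivity
  obtain ⟨M, hM0, hM⟩ := NNInt_899.unif_bound_of (μ := (volume : Measure (VV (2 * n)))) hn hfin r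
    c0 hc00
  set ε : ℕ → ℝ := fun k => 1 / ((k : ℝ) + 1) with hε
  have hε0 : ∀ k, 0 < ε k := fun k => by positivity
  have hε1 : ∀ k, ε k ≤ 1 := fun k => by
    rw [hε, div_le_one (by positivity)]
    have : (0 : ℝ) ≤ k := Nat.cast_nonneg k
    linarith
  have hεl : Tendsto ε atTop (𝓝 0) := tendsto_one_div_add_atTop_nhds_zero_nat
  obtain ⟨Ce, hCe, hCe'⟩ := sum_X_eta_le J hC0 hJ0 hJq' hr
  have hmeas : volume Ω ≠ ⊤ := measure_ball_lt_top.ne
  have hu : ∀ k, ∃ u : VV (2 * n) → ℂ, ContDiffOn ℝ ∞ u Ω ∧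
      (∀ j, ∀ x ∈ Ω, (jfam J).X j u x = (jfam J).X j (fun x => s0 x) x) ∧
      IntegrableOn (fun x => ‖u x‖ ^ 2 * w1 r K (n + 1) (ε k) x) Ω ∧
      ∫ x in Ω, ‖u x‖ ^ 2 * w1 r K (n + 1) (ε k) x ≤ M := by
    intro k
    have hw1 := w1_smooth (N := 2 * n) (r := r) (K := K) (M := n + 1) (hε0 k)
    have hw2 := w2_smooth (N := 2 * n) (r := r) (K := K) (M := n + 1) (hε0 k)
    have hα := hM (ε k) (hε0 k)
      (fun x => (∑ j, ‖(jfam J).X j (fun x => s0 x) x‖ ^ 2) * w2 r K (n + 1) (ε k) x)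
      (by
        refine ContinuousOn.aestronglyMeasurable ?_ hΩ.measurableSet
        refine ContinuousOn.mul ?_ hw2.continuousOn
        refine continuousOn_finsetSum _ fun j _ => ?_
        exact ((hS.X_on hΩ j hs0c).continuousOn.norm).pow 2)
      (fun x hx => mul_nonneg (Finset.sum_nonneg fun _ _ => sq_nonneg _) (w2_pos hx).le)
      (by
        intro x hx
        have h1 := sum_X_lin_le J s0 hs0 hJq' (hsub hx)
        have h2 : w2 r K (n + 1) (ε k) x ≤ ((‖x‖ ^ 2 + ε k) ^ (n + 1))⁻¹ := by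
          have h3 := w1_le (M := n + 1) hK (hε0 k) hx
          have h4 : sr r x ^ 2 ≤ 1 := by
            have h5 := sr_pos hx
            have h6 : sr r x ≤ 1 := by
              unfold sr
              nlinarith [sq_nonneg ‖x‖]
            nlinarith
          calc w2 r K (n + 1) (ε k) x = sr r x ^ 2 * w1 r K (n + 1) (ε k) x := rfl
            _ ≤ 1 * w1 r K (n + 1) (ε k) x :=
              mul_le_mul_of_nonneg_right h4 (w1_pos x).le
            _ ≤ _ := by rw [one_mul]; exact h3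
        calc (∑ j, ‖(jfam J).X j (fun x => s0 x) x‖ ^ 2) * w2 r K (n + 1) (ε k) x
            ≤ (((2 * n : ℕ) : ℝ) * (‖s0‖ * C' / 2) ^ 2 * ‖x‖ ^ 4) *
              ((‖x‖ ^ 2 + ε k) ^ (n + 1))⁻¹ :=
              mul_le_mul h1 h2 (w2_pos hx).le (by positivity)
          _ = c0 * (‖x‖ ^ 4 / (‖x‖ ^ 2 + ε k) ^ (n + 1)) := by
              rw [hc0]; ring)
    refine exists_sol (S := jfam J) hΩ hS hw1 (fun x _ => w1_pos x) hw2 (fun x hx => w2_pos hx)
      (fun u hu' h => NNR_597.regP hΩ hS hEll hw2 (fun x hx => w2_pos hx) u hu' h)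
      (hE (ε k) (hε0 k) (hε1 k)) hs0c ?_ hM0 hα.1 hα.2
      (η := fun ν => eta r ((ν : ℝ) + 1)) (C := Ce) ?_ ?_ ?_
    · -- `s0 ∈ L²(w1)`
      refine Integrable.mono' (g := fun _ => (‖s0‖ * r) ^ 2 * ((ε k) ^ (n + 1))⁻¹)
        (integrableOn_const hmeas) ?_ ?_
      · refine ContinuousOn.aestronglyMeasurable ?_ hΩ.measurableSet
        exact (hs0c.continuousOn.norm.pow 2).mul hw1.continuousOn
      · filter_upwards [ae_restrict_mem hΩ.measurableSet] with x hx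
        rw [Real.norm_of_nonneg (mul_nonneg (sq_nonneg _) (w1_pos x).le)]
        have h1 : ‖s0 x‖ ≤ ‖s0‖ * r := (s0.le_opNorm x).trans
          (mul_le_mul_of_nonneg_left (mem_ball_zero_iff.1 hx).le (norm_nonneg _))
        have h2 : w1 r K (n + 1) (ε k) x ≤ ((ε k) ^ (n + 1))⁻¹ := by
          refine (w1_le (M := n + 1) hK (hε0 k) hx).trans ?_
          have h0 := hε0 k
          gcongr
          nlinarith [sq_nonneg ‖x‖]
        have h3 : ‖s0 x‖ ^ 2 ≤ (‖s0‖ * r) ^ 2 := pow_le_pow_left₀ (norm_nonneg _) h1 2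
        exact mul_le_mul h3 h2 (w1_pos x).le (sq_nonneg _)
    · intro ν
      exact testC hr (by positivity)
    · intro x hx
      obtain ⟨ν0, hν0, h⟩ := eta_one_ev hx
      obtain ⟨m, hm⟩ := exists_nat_ge ν0
      filter_upwards [eventually_ge_atTop m] with ν hν
      refine h _ ?_
      have : (m : ℝ) ≤ ν := by exact_mod_cast hν
      linarith
    · intro ν x hx
      have h1 := hCe' ((ν : ℝ) + 1) (by positivity) x (hsub hx)
      have h2 := w1_pos (r := r) (K := K) (ε := ε k) (M := n + 1) x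
      have h3 : (fun y : VV (2 * n) => ((eta r ((ν : ℝ) + 1) y : ℝ) : ℂ)) =
          etaC r ((ν : ℝ) + 1) := rfl
      rw [h3]
      calc w2 r K (n + 1) (ε k) x * ∑ j, ‖(jfam J).X j (etaC r ((ν : ℝ) + 1)) x‖ ^ 2
          = ((∑ j, ‖(jfam J).X j (etaC r ((ν : ℝ) + 1)) x‖ ^ 2) * sr r x ^ 2) *
            w1 r K (n + 1) (ε k) x := by
              unfold w2 w1; ring
        _ ≤ Ce * w1 r K (n + 1) (ε k) x := mul_le_mul_of_nonneg_right h1 h2.le
  -- the limit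
  set G : VV (2 * n) → ℝ := fun x => Real.exp (K / sr r x) * (‖x‖ ^ 2) ^ (n + 1) with hGd
  set H : VV (2 * n) → ℝ := fun x => Real.exp (K / sr r x) * (‖x‖ ^ 2 + 1) ^ (n + 1) with hHd
  have hexpc : ContinuousOn (fun x : VV (2 * n) => Real.exp (K / sr r x)) Ω :=
    Real.continuous_exp.comp_continuousOn
      (continuousOn_const.div (sr_smooth.continuous.continuousOn) fun x hx => (sr_pos hx).ne')
  have hnc : Continuous fun x : VV (2 * n) => ‖x‖ ^ 2 := continuous_norm.pow 2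
  have hGc : ContinuousOn G Ω := hexpc.mul ((hnc.pow (n + 1)).continuousOn)
  have hHc : ContinuousOn H Ω := hexpc.mul (((hnc.add continuous_const).pow (n + 1)).continuousOn)
  obtain ⟨s, U, hs, hsX, hU, hsU⟩ := exists_limit (S := jfam J) hΩ hS
    (fun u hu' h => NNR_597.regP hΩ hS hEll contDiffOn_const (fun x _ => one_pos) u hu' h) hs0c
    (w := fun k => w1 r K (n + 1) (ε k)) (fun k => (w1_smooth (hε0 k)).continuousOn)
    (fun k x _ => w1_pos x) hGc (fun x _ => by positivity) hHc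
    (by
      intro x _
      have h1 : ∀ k, (w1 r K (n + 1) (ε k) x)⁻¹ =
          Real.exp (K / sr r x) * (‖x‖ ^ 2 + ε k) ^ (n + 1) := fun k => w1_inv (hε0 k) x
      simp only [h1]
      have h2 : Tendsto (fun k => ‖x‖ ^ 2 + ε k) atTop (𝓝 (‖x‖ ^ 2)) := by
        simpa using hεl.const_add (‖x‖ ^ 2)
      exact (h2.pow (n + 1)).const_mul _)
    (by
      intro k x _
      rw [w1_inv (hε0 k)]
      simp only [hHd]
      have h1 := hε1 k
      have h2 := hε0 k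
      gcongr)
    hM0 hu
  -- vanishing of `v = s0 - s` to second order
  have hsc := hs.continuousOn
  have h0Ω : (0 : VV (2 * n)) ∈ Ω := mem_ball_self hr
  have hsd : DifferentiableAt ℝ s 0 := diffAt hΩ hs h0Ω
  have hs0d : DifferentiableAt ℝ (fun x => s0 x) 0 := s0.differentiableAt
  have hsub2 : ball (0 : VV (2 * n)) (r / 2) ⊆ Ω := ball_subset_ball (by linarith)
  have hv := NNR_597.vanish_of_le (μ := (volume : Measure (VV (2 * n))))
    (v := fun x => s0 x - s x) (r := r / 2) (U := U)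
    (C := Real.exp (K / (r ^ 2 / 2))) hn hfin (by positivity)
    ((hs0c.continuousOn.sub hsc).mono hsub2) (hs0d.sub hsd)
    (hU.restrict _) (by
      filter_upwards [hsU] with x hx hxb
      have hxΩ : x ∈ Ω := hsub2 hxb
      rw [hx hxΩ, norm_mul, Complex.norm_real, Real.norm_of_nonneg (Real.sqrt_nonneg _)]
      refine mul_le_mul_of_nonneg_right ?_ (norm_nonneg _)
      apply Real.sqrt_le_iff.2
      refine ⟨by positivity, ?_⟩
      have h1 : K / sr r x ≤ K / (r ^ 2 / 2) := by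
        have h2 : r ^ 2 / 2 ≤ sr r x := by
          have h3 := mem_ball_zero_iff.1 hxb
          unfold sr
          nlinarith [norm_nonneg x]
        gcongr
      have h4 : Real.exp (K / sr r x) ≤ Real.exp (K / (r ^ 2 / 2)) := Real.exp_le_exp.2 h1
      have h5 : 1 ≤ Real.exp (K / (r ^ 2 / 2)) := Real.one_le_exp (by positivity)
      have h6 : (‖x‖ ^ 2) ^ (n + 1) = (‖x‖ ^ (n + 1)) ^ 2 := by ring
      simp only [hGd]
      rw [h6, mul_pow]
      have h7 : Real.exp (K / sr r x) ≤ Real.exp (K / (r ^ 2 / 2)) ^ 2 := by nlinarith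
      gcongr)
  refine ⟨s, hs, ?_, ?_⟩
  · have h1 := hv.2
    have h2 : fderiv ℝ (fun x => s0 x - s x) 0 = s0 - fderiv ℝ s 0 := by
      rw [fderiv_fun_sub hs0d hsd]
      congr 1
      exact s0.hasFDerivAt.fderiv
    rw [h2] at h1
    exact (sub_eq_zero.1 h1).symm
  · intro x hx v
    exact (X_zero_iff J s x).1 (fun j => hsX j x hx) v

/-- **`CoreR n` from the estimate** -/
theorem coreR {n : ℕ} (hEW : EW (2 * n)) : NNA_17.CoreR n := by
  intro J R C hR hJ hJ2 hNij hJ0 hJq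
  rcases Nat.eq_zero_or_pos n with hn | hn
  · subst hn
    refine ⟨R, hR, fun _ => 0, contDiffOn_const, ?_, fun z _ v => ?_⟩
    · have h1 : Subsingleton (EuclideanSpace ℝ (Fin (2 * 0))) := by
        have : IsEmpty (Fin (2 * 0)) := by simpa using Fin.isEmpty
        infer_instance
      constructor
      · intro a b _; exact Subsingleton.elim a b
      · intro b
        refine ⟨0, ?_⟩
        exact Subsingleton.elim _ _
    · simp
  · obtain ⟨r, hr, h⟩ := core hn hEW J R C hR hJ hJ2 hNij hJ0 hJq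
    have hfin : Module.finrank ℝ (VV (2 * n)) = 2 * n := by simp
    obtain ⟨ξ, hξ, -, e, he⟩ := LinJ_664.exists_functionals hfin (J 0)
      (hJ2 0 (mem_ball_self hR))
    choose f hf hf0 hfJ using fun k => h (ξ k) (hξ k)
    have hfd : ∀ k, ∀ x ∈ ball (0 : VV (2 * n)) r, DifferentiableAt ℝ (f k) x := fun k x hx =>
      diffAt isOpen_ball (hf k) hx
    set F : VV (2 * n) → NNA_17.Cn n := fun x => WithLp.toLp 2 (fun k => f k x) with hF
    have hFs : ContDiffOn ℝ ∞ F (ball 0 r) := by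
      rw [contDiffOn_piLp]
      exact hf
    have hFk : ∀ x ∈ ball (0 : VV (2 * n)) r, ∀ v k, fderiv ℝ F x v k = fderiv ℝ (f k) x v := by
      intro x hx v k
      have h1 : HasFDerivAt F (fderiv ℝ F x) x :=
        ((hFs.contDiffAt (isOpen_ball.mem_nhds hx)).differentiableAt (by simp)).hasFDerivAt
      have h3 : HasFDerivAt (f k)
          (((PiLp.proj 2 (fun _ : Fin n => ℂ) k : NNA_17.Cn n →L[ℝ] ℂ)).comp (fderiv ℝ F x)) x :=
        (PiLp.proj 2 (fun _ : Fin n => ℂ) k : NNA_17.Cn n →L[ℝ] ℂ).hasFDerivAt.comp x h1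
      rw [h3.fderiv]
      rfl
    refine ⟨r, hr, F, hFs, ?_, ?_⟩
    · have h1 : (fderiv ℝ F 0 : VV (2 * n) → NNA_17.Cn n) = e := by
        funext v
        ext k
        rw [hFk 0 (mem_ball_self hr) v k, hf0 k, he]
      rw [h1]
      exact e.bijective
    · intro z hz v
      ext k
      rw [hFk z hz, hfJ k z hz]
      show _ = Complex.I * (fderiv ℝ F z v) k
      rw [hFk z hz]

/-- **Newlander-Nirenberg** from the estimate -/
theorem nnat {n : ℕ} (hEW : EW (2 * n)) (V : Type) [NormedAddCommGroup V] [NormedSpace ℝ V]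
    [FiniteDimensional ℝ V] (hn : Module.finrank ℝ V = 2 * n) : ACM_580.NNat V n :=
  NNA_17.nnat_of_coreR (coreR hEW) V hn

end Crest.Agent.R260.NN5_900
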