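import Crest.Agent.R260.NN5_900
import Crest.Agent.R260.BKX8_680

/-!
# Row 260: the local Newlander-Nirenberg theorem (helper900)
-/

set_option autoImplicit false

noncomputable section

open MeasureTheory Filter Topology Set Metric
open scoped ENNReal NNReal ContDiff ComplexConjugate

namespace Crest.Agent.R260.NN6_900

open NN0_900 JFr_250 NN5_900

theorem ew (N : ℕ) : EW N := by
  intro J R C hR hJ hJ2 hNij hJ0 hJq M
  obtain ⟨r, K, hr, hr1, hrR, hK, h⟩ := BKX_680.est_W hR hJ hJ2 hNij hJ0 hJq (M : ℝ)
    (Nat.cast_nonneg M)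
  exact ⟨r, K, hr, hr1, hrR, hK, fun ε hε _ g hg => h ε hε g hg⟩

/-- the analytic core -/
theorem coreR (n : ℕ) : NNA_17.CoreR n := NN5_900.coreR (ew (2 * n))

/-- **Newlander-Nirenberg** (`C^∞`): an integrable almost complex structure on an open subset of a
real vector space of dimension `2n` has holomorphic coordinates at every point. -/
theorem nnat (n : ℕ) (V : Type) [NormedAddCommGroup V] [NormedSpace ℝ V]
    [FiniteDimensional ℝ V] (hn : Module.finrank ℝ V = 2 * n) : ACM_580.NNat V n :=
  NNA_17.nnat_of_coreR (coreR n) V hn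

end Crest.Agent.R260.NN6_900

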