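import Mathlib

/-!
# R260, NN-A (helper17), part 1: pointwise algebra and the commutator identity

`Cn n = EuclideanSpace ℂ (Fin n)`; `dbj`, `dzj`: Wirtinger derivatives; `LL a j = ∂̄_j + ∑ a_jk ∂_k`.
`Nij J x v w` : Nijenhuis tensor of a field of endomorphisms of a real normed space.
-/

set_option autoImplicit false

open Set Filter Topology Complex Metric
open scoped ContDiff ComplexConjugate

namespace Crest.Agent.R260.NNA_17

noncomputable section

/-- model space -/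
abbrev Cn (n : ℕ) : Type := EuclideanSpace ℂ (Fin n)

variable {n : ℕ}

/-- `∂/∂z̄_j` -/
def dbj (j : Fin n) (f : Cn n → ℂ) (z : Cn n) : ℂ :=
  (1 / 2 : ℂ) * (fderiv ℝ f z (EuclideanSpace.single j 1) +
    I * fderiv ℝ f z (EuclideanSpace.single j I))

/-- `∂/∂z_j` -/
def dzj (j : Fin n) (f : Cn n → ℂ) (z : Cn n) : ℂ :=
  (1 / 2 : ℂ) * (fderiv ℝ f z (EuclideanSpace.single j 1) -
    I * fderiv ℝ f z (EuclideanSpace.single j I))

/-- `L_j = ∂̄_j + ∑ a_jk ∂_k` -/
def LL (a : Cn n → Matrix (Fin n) (Fin n) ℂ) (j : Fin n) (f : Cn n → ℂ) (z : Cn n) : ℂ :=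
  dbj j f z + ∑ k, a z j k * dzj k f z

/-- commuting smooth fields on the ball of radius `R` -/
structure Adm (n : ℕ) (R : ℝ) (a : Cn n → Matrix (Fin n) (Fin n) ℂ) : Prop where
  sm : ∀ j k, ContDiffOn ℝ ∞ (fun z => a z j k) (ball 0 R)
  comm : ∀ z ∈ ball (0 : Cn n) R, ∀ i j k,
    LL a i (fun w => a w j k) z = LL a j (fun w => a w i k) z

/-- the analytic core (local existence near `0` for small quadratic perturbations) -/
def Core (n : ℕ) : Prop :=
  ∃ η : ℝ, 0 < η ∧ ∀ a : Cn n → Matrix (Fin n) (Fin n) ℂ, Adm n 2 a →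
    (∀ z ∈ ball (0 : Cn n) 2, ∀ j k, ‖a z j k‖ ≤ η * ‖z‖ ^ 2 ∧
      ‖fderiv ℝ (fun w => a w j k) z‖ ≤ η * ‖z‖ ∧
      ‖fderiv ℝ (fderiv ℝ (fun w => a w j k)) z‖ ≤ η) →
    ∃ r : ℝ, 0 < r ∧ ∃ F : Cn n → Cn n, ContDiffOn ℝ ∞ F (ball 0 r) ∧
      fderiv ℝ F 0 = ContinuousLinearMap.id ℝ (Cn n) ∧
      ∀ z ∈ ball (0 : Cn n) r, ∀ j k, LL a j (fun w => F w k) z = 0

section HSide

variable {H : Type*} [NormedAddCommGroup H] [NormedSpace ℝ H]

/-- Nijenhuis tensor (constant fields `v`, `w`) -/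
def Nij (J : H → H →L[ℝ] H) (x v w : H) : H :=
  fderiv ℝ J x (J x v) w - fderiv ℝ J x (J x w) v - J x (fderiv ℝ J x v w - fderiv ℝ J x w v)

/-- bracket of vector fields -/
def br (X Y : H → H) (x : H) : H := fderiv ℝ Y x (X x) - fderiv ℝ X x (Y x)

/-- derivative of a function along `(X + i J X) / 2` -/
def lie (J : H → H →L[ℝ] H) (X : H → H) (g : H → ℂ) (x : H) : ℂ :=
  (1 / 2 : ℂ) * (fderiv ℝ g x (X x) + I * fderiv ℝ g x (J x (X x)))

/-- `[X, Y] g = X (Y g) - Y (X g)` -/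
theorem br_apply {g : H → ℂ} {X Y : H → H} {x : H} (hg : ContDiffAt ℝ 2 g x)
    (hX : DifferentiableAt ℝ X x) (hY : DifferentiableAt ℝ Y x) :
    fderiv ℝ (fun y => fderiv ℝ g y (Y y)) x (X x) - fderiv ℝ (fun y => fderiv ℝ g y (X y)) x (Y x)
      = fderiv ℝ g x (br X Y x) := by
  have hs : IsSymmSndFDerivAt ℝ g x := hg.isSymmSndFDerivAt (by simp)
  have hd : DifferentiableAt ℝ (fderiv ℝ g) x :=
    (hg.fderiv_right (m := 1) (by norm_num)).differentiableAt (by norm_num)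
  have e1 := (hd.hasFDerivAt.clm_apply hY.hasFDerivAt).fderiv
  have e2 := (hd.hasFDerivAt.clm_apply hX.hasFDerivAt).fderiv
  rw [e1, e2]
  simp only [_root_.add_apply, ContinuousLinearMap.comp_apply,
    ContinuousLinearMap.flip_apply, br, map_sub]
  have := hs (X x) (Y x)
  rw [this]
  ring

/-- the Nijenhuis identity for variable fields -/
theorem br_nij {J : H → H →L[ℝ] H} {X Y : H → H} {x : H} (hJ : DifferentiableAt ℝ J x)
    (hX : DifferentiableAt ℝ X x) (hY : DifferentiableAt ℝ Y x)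
    (hJJ : ∀ v, J x (J x v) = -v) (hN : Nij J x (X x) (Y x) = 0) :
    br (fun y => J y (X y)) (fun y => J y (Y y)) x =
      br X Y x + J x (br X (fun y => J y (Y y)) x + br (fun y => J y (X y)) Y x) := by
  have e1 := (hJ.hasFDerivAt.clm_apply hY.hasFDerivAt).fderiv
  have e2 := (hJ.hasFDerivAt.clm_apply hX.hasFDerivAt).fderiv
  simp only [br]
  rw [e1, e2]
  simp only [_root_.add_apply, ContinuousLinearMap.comp_apply,
    ContinuousLinearMap.flip_apply, map_sub, map_add, hJJ]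
  have h := hN
  simp only [Nij, map_sub] at h
  rw [← sub_eq_zero]
  rw [← h]
  abel

/-- the commutator of two `(0,1)`-fields -/
theorem lie_comm {J : H → H →L[ℝ] H} {X Y : H → H} {g : H → ℂ} {x : H}
    (hJ : DifferentiableAt ℝ J x) (hX : DifferentiableAt ℝ X x) (hY : DifferentiableAt ℝ Y x)
    (hg : ContDiffAt ℝ 2 g x)
    (hJJ : ∀ v, J x (J x v) = -v) (hN : Nij J x (X x) (Y x) = 0) :
    lie J X (lie J Y g) x - lie J Y (lie J X g) x =
      I / 4 * (fderiv ℝ g x (br X (fun y => J y (Y y)) x + br (fun y => J y (X y)) Y x) +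
        I * fderiv ℝ g x (J x (br X (fun y => J y (Y y)) x + br (fun y => J y (X y)) Y x))) := by
  have hd : DifferentiableAt ℝ (fderiv ℝ g) x :=
    (hg.fderiv_right (m := 1) (by norm_num)).differentiableAt (by norm_num)
  have hJX : DifferentiableAt ℝ (fun y => J y (X y)) x := hJ.clm_apply hX
  have hJY : DifferentiableAt ℝ (fun y => J y (Y y)) x := hJ.clm_apply hY
  have hDX : DifferentiableAt ℝ (fun y => fderiv ℝ g y (X y)) x := hd.clm_apply hX
  have hDY : DifferentiableAt ℝ (fun y => fderiv ℝ g y (Y y)) x := hd.clm_apply hY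
  have hDJX : DifferentiableAt ℝ (fun y => fderiv ℝ g y (J y (X y))) x := hd.clm_apply hJX
  have hDJY : DifferentiableAt ℝ (fun y => fderiv ℝ g y (J y (Y y))) x := hd.clm_apply hJY
  have b1 := br_apply hg hX hY
  have b2 := br_apply hg hX hJY
  have b3 := br_apply hg hJX hY
  have b4 := br_apply hg hJX hJY
  rw [br_nij hJ hX hY hJJ hN] at b4
  have l1 : ∀ Z : H → H, DifferentiableAt ℝ (fun y => fderiv ℝ g y (Z y)) x →
      DifferentiableAt ℝ (fun y => fderiv ℝ g y (J y (Z y))) x → ∀ v,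
      fderiv ℝ (lie J Z g) x v = (1 / 2 : ℂ) * (fderiv ℝ (fun y => fderiv ℝ g y (Z y)) x v +
        I * fderiv ℝ (fun y => fderiv ℝ g y (J y (Z y))) x v) := by
    intro Z h1 h2 v
    have h3 : HasFDerivAt (lie J Z g) ((1 / 2 : ℂ) • (fderiv ℝ (fun y => fderiv ℝ g y (Z y)) x +
        I • fderiv ℝ (fun y => fderiv ℝ g y (J y (Z y))) x)) x :=
      (h1.hasFDerivAt.add (h2.hasFDerivAt.const_mul I)).const_mul (1 / 2 : ℂ)
    rw [h3.fderiv]
    simp only [_root_.smul_apply, _root_.add_apply, smul_eq_mul]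
  simp only [lie] at l1 ⊢
  rw [l1 X hDX hDJX, l1 X hDX hDJX, l1 Y hDY hDJY, l1 Y hDY hDJY]
  simp only [map_add] at b4 ⊢
  linear_combination (1 / 4 : ℂ) * b1 + (I / 4) * b2 + (I / 4) * b3 + (I * I / 4) * b4 +
    (1/4 : ℂ) * (fderiv ℝ g x (br X Y x)) * I_mul_I

end HSide

end

end Crest.Agent.R260.NNA_17
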