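import Crest.Agent.R260.NNA1_17

/-!
# R260, NN-A (helper17), part 2: the fields `X_w = P⁻¹ w` on the original space
-/

set_option autoImplicit false

open Set Filter Topology Complex Metric
open scoped ContDiff ComplexConjugate

namespace Crest.Agent.R260.NNA_17

noncomputable section

variable {n : ℕ}

theorem single_I (k : Fin n) : (EuclideanSpace.single k I : Cn n) = I • EuclideanSpace.single k (1 : ℂ) := by
  ext i; by_cases h : i = k <;> simp [h]

theorem eq_sum (w : Cn n) : w = ∑ k, w k • (EuclideanSpace.single k (1 : ℂ) : Cn n) := by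
  ext i
  simp [Finset.sum_apply, Pi.single_apply]

/-- complex linear part -/
def Al (g : Cn n →L[ℝ] ℂ) (w : Cn n) : ℂ := (1 / 2 : ℂ) * (g w - I * g (I • w))

/-- antilinear part -/
def Bl (g : Cn n →L[ℝ] ℂ) (w : Cn n) : ℂ := (1 / 2 : ℂ) * (g w + I * g (I • w))

theorem Al_add (g : Cn n →L[ℝ] ℂ) (v w : Cn n) : Al g (v + w) = Al g v + Al g w := by
  simp only [Al, smul_add, map_add]; ring

theorem Bl_add (g : Cn n →L[ℝ] ℂ) (v w : Cn n) : Bl g (v + w) = Bl g v + Bl g w := by
  simp only [Bl, smul_add, map_add]; ring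

theorem csmul (c : ℂ) (w : Cn n) : c • w = c.re • w + c.im • (I • w) := by
  ext i
  simp only [PiLp.smul_apply, PiLp.add_apply, smul_eq_mul, real_smul]
  conv_lhs => rw [← re_add_im c]
  ring

theorem Al_smul (g : Cn n →L[ℝ] ℂ) (c : ℂ) (w : Cn n) : Al g (c • w) = c * Al g w := by
  have h1 : g (c • w) = c.re * g w + c.im * g (I • w) := by
    rw [csmul c w, map_add, map_smul, map_smul]; simp [real_smul]
  have h2 : g (I • (c • w)) = c.re * g (I • w) - c.im * g w := by
    have hI : I • (I • w) = -w := by rw [smul_smul, I_mul_I, neg_one_smul]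
    rw [smul_comm I c w, csmul c (I • w), hI, map_add, g.map_smul, g.map_smul, map_neg]
    simp [real_smul]; ring
  simp only [Al, h1, h2]
  conv_rhs => rw [← re_add_im c]
  linear_combination ((1/2 : ℂ) * c.im * g (I • w)) * I_mul_I

theorem Bl_smul (g : Cn n →L[ℝ] ℂ) (c : ℂ) (w : Cn n) : Bl g (c • w) = conj c * Bl g w := by
  have h1 : g (c • w) = c.re * g w + c.im * g (I • w) := by
    rw [csmul c w, map_add, map_smul, map_smul]; simp [real_smul]
  have h2 : g (I • (c • w)) = c.re * g (I • w) - c.im * g w := by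
    have hI : I • (I • w) = -w := by rw [smul_smul, I_mul_I, neg_one_smul]
    rw [smul_comm I c w, csmul c (I • w), hI, map_add, g.map_smul, g.map_smul, map_neg]
    simp [real_smul]; ring
  have hc : conj c = (c.re : ℂ) - c.im * I := Complex.ext (by simp) (by simp)
  simp only [Bl, h1, h2, hc]
  linear_combination ((1/2 : ℂ) * c.im * g (I • w)) * I_mul_I

theorem Al_sum (g : Cn n →L[ℝ] ℂ) (w : Cn n) :
    Al g w = ∑ k, w k * Al g (EuclideanSpace.single k 1) := by
  have : ∀ s : Finset (Fin n), Al g (∑ k ∈ s, w k • (EuclideanSpace.single k (1 : ℂ) : Cn n)) =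
      ∑ k ∈ s, w k * Al g (EuclideanSpace.single k 1) := by
    intro s
    induction s using Finset.cons_induction with
    | empty => simp [Al]
    | cons a s ha ih => rw [Finset.sum_cons, Finset.sum_cons, Al_add, ih, Al_smul]
  conv_lhs => rw [eq_sum w]
  exact this _

theorem Bl_sum (g : Cn n →L[ℝ] ℂ) (w : Cn n) :
    Bl g w = ∑ k, conj (w k) * Bl g (EuclideanSpace.single k 1) := by
  have : ∀ s : Finset (Fin n), Bl g (∑ k ∈ s, w k • (EuclideanSpace.single k (1 : ℂ) : Cn n)) =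
      ∑ k ∈ s, conj (w k) * Bl g (EuclideanSpace.single k 1) := by
    intro s
    induction s using Finset.cons_induction with
    | empty => simp [Bl]
    | cons a s ha ih => rw [Finset.sum_cons, Finset.sum_cons, Bl_add, ih, Bl_smul]
  conv_lhs => rw [eq_sum w]
  exact this _

theorem dbj_eq (j : Fin n) (f : Cn n → ℂ) (z : Cn n) :
    dbj j f z = Bl (fderiv ℝ f z) (EuclideanSpace.single j 1) := by
  simp only [dbj, Bl, single_I]

theorem dzj_eq (j : Fin n) (f : Cn n → ℂ) (z : Cn n) :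
    dzj j f z = Al (fderiv ℝ f z) (EuclideanSpace.single j 1) := by
  simp only [dzj, Al, single_I]

variable {H : Type*} [NormedAddCommGroup H] [NormedSpace ℝ H]

/-- `(G - i G J) / 2` -/
def PP (G : H →L[ℝ] Cn n) (J : H →L[ℝ] H) : H →L[ℝ] Cn n := (1 / 2 : ℂ) • (G - I • G.comp J)

/-- `(G + i G J) / 2` -/
def QQ (G : H →L[ℝ] Cn n) (J : H →L[ℝ] H) : H →L[ℝ] Cn n := (1 / 2 : ℂ) • (G + I • G.comp J)

theorem PP_apply (G : H →L[ℝ] Cn n) (J : H →L[ℝ] H) (v : H) :
    PP G J v = (1 / 2 : ℂ) • (G v - I • G (J v)) := rfl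

theorem QQ_apply (G : H →L[ℝ] Cn n) (J : H →L[ℝ] H) (v : H) :
    QQ G J v = (1 / 2 : ℂ) • (G v + I • G (J v)) := rfl

theorem G_eq (G : H →L[ℝ] Cn n) (J : H →L[ℝ] H) (v : H) : G v = PP G J v + QQ G J v := by
  rw [PP_apply, QQ_apply, ← smul_add, sub_add_add_cancel, ← two_smul ℂ (G v), smul_smul]
  norm_num

theorem GJ_eq (G : H →L[ℝ] Cn n) (J : H →L[ℝ] H) (v : H) :
    G (J v) = I • (PP G J v - QQ G J v) := by
  rw [PP_apply, QQ_apply, ← smul_sub, smul_smul]
  have : G v - I • G (J v) - (G v + I • G (J v)) = (-2 * I) • G (J v) := by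
    module
  rw [this, smul_smul]
  have h2 : I * (1 / 2) * (-2 * I) = 1 := by linear_combination -I_mul_I
  rw [h2, one_smul]

theorem PP_J {G : H →L[ℝ] Cn n} {J : H →L[ℝ] H} (hJ : ∀ v, J (J v) = -v) (v : H) :
    PP G J (J v) = I • PP G J v := by
  rw [PP_apply, PP_apply, hJ, map_neg]
  ext i
  simp only [PiLp.smul_apply, PiLp.sub_apply, PiLp.neg_apply, smul_eq_mul]
  linear_combination ((1/2 : ℂ) * (G (J v)) i) * I_mul_I

theorem QQ_J {G : H →L[ℝ] Cn n} {J : H →L[ℝ] H} (hJ : ∀ v, J (J v) = -v) (v : H) :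
    QQ G J (J v) = -(I • QQ G J v) := by
  rw [QQ_apply, QQ_apply, hJ, map_neg]
  ext i
  simp only [PiLp.smul_apply, PiLp.add_apply, PiLp.neg_apply, smul_eq_mul]
  linear_combination ((1/2 : ℂ) * (G (J v)) i) * I_mul_I

theorem key (g : Cn n →L[ℝ] ℂ) (G : H →L[ℝ] Cn n) (J : H →L[ℝ] H) (v : H) :
    g (G v) + I * g (G (J v)) = 2 * (Al g (QQ G J v) + Bl g (PP G J v)) := by
  rw [GJ_eq G J v, G_eq G J v, smul_sub, map_add, map_sub]
  simp only [Al, Bl]
  ring

end

end Crest.Agent.R260.NNA_17
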