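import Crest.Agent.R260.NNA2_17

/-!
# R260, NN-A (helper17), part 3: the quadratic coordinates
-/

set_option autoImplicit false

open Set Filter Topology Complex Metric
open scoped ContDiff ComplexConjugate

namespace Crest.Agent.R260.NNA_17

noncomputable section

variable {n : ℕ}

/-- linear coordinates for one complex structure -/
theorem exists_lin {V : Type*} [NormedAddCommGroup V] [NormedSpace ℝ V] [FiniteDimensional ℝ V]
    (hn : Module.finrank ℝ V = 2 * n) (J : V →L[ℝ] V) (hJ : ∀ v, J (J v) = -v) :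
    ∃ T : V ≃L[ℝ] Cn n, ∀ v, T (J v) = I • T v := by
  have hJ2 : (J : V →ₗ[ℝ] V) * (J : V →ₗ[ℝ] V) = -1 := by
    ext v; simp [hJ]
  let φ : ℂ →ₐ[ℝ] Module.End ℝ V := Complex.lift ⟨(J : V →ₗ[ℝ] V), hJ2⟩
  let _ : Module ℂ V := Module.compHom V φ.toRingHom
  have hs : ∀ (c : ℂ) (v : V), c • v = φ c v := fun c v => rfl
  have : IsScalarTower ℝ ℂ V := by
    refine ⟨fun r c v => ?_⟩
    rw [hs, hs, map_smul]; rfl
  have hI : ∀ v : V, I • v = J v := by
    intro v
    rw [hs]
    simp [φ]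
  have : Module.Finite ℂ V := Module.Finite.of_restrictScalars_finite ℝ ℂ V
  have h1 : Module.finrank ℂ V = n := by
    have h2 := Module.finrank_mul_finrank ℝ ℂ V
    rw [Complex.finrank_real_complex, hn] at h2
    omega
  have h3 : Module.finrank ℂ V = Module.finrank ℂ (Cn n) := by
    rw [h1]; simp
  let e : V ≃ₗ[ℂ] Cn n := LinearEquiv.ofFinrankEq V (Cn n) h3
  let e' : V ≃ₗ[ℝ] Cn n := e.restrictScalars ℝ
  refine ⟨e'.toContinuousLinearEquiv, fun v => ?_⟩
  change e (J v) = I • e v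
  rw [← hI, map_smul]

variable {H : Type*} [NormedAddCommGroup H] [NormedSpace ℝ H]

/-- second order Taylor bound -/
theorem taylor2 {W : Type*} [NormedAddCommGroup W] [NormedSpace ℝ W] {f : H → W} {p : H}
    (hf : ContDiffAt ℝ 2 f p) :
    ∃ C : ℝ, 0 ≤ C ∧ ∀ᶠ x in 𝓝 p, ‖f x - f p - fderiv ℝ f p (x - p)‖ ≤ C * ‖x - p‖ ^ 2 := by
  have h1 : ContDiffAt ℝ 1 (fderiv ℝ f) p := hf.fderiv_right (m := 1) (by norm_num)
  obtain ⟨K, t, ht, hK⟩ := h1.exists_lipschitzOnWith
  have hd : ∀ᶠ x in 𝓝 p, DifferentiableAt ℝ f x := by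
    filter_upwards [hf.eventually (by simp)] with x hx
    exact hx.differentiableAt (by norm_num)
  obtain ⟨ε, hε, hball⟩ := Metric.mem_nhds_iff.1 (Filter.inter_mem ht hd)
  refine ⟨K, K.2, ?_⟩
  filter_upwards [Metric.ball_mem_nhds p hε] with x hx
  have hpt : p ∈ t := (hball (Metric.mem_ball_self hε)).1
  set g : H → W := fun y => f y - fderiv ℝ f p (y - p) with hg
  have hgd : ∀ y ∈ ball p ε ∩ closedBall p ‖x - p‖, HasFDerivWithinAt g
      (fderiv ℝ f y - fderiv ℝ f p) (ball p ε ∩ closedBall p ‖x - p‖) y := by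
    intro y hy
    have h2 : DifferentiableAt ℝ f y := (hball hy.1).2
    have h3 : HasFDerivAt (fun y => fderiv ℝ f p (y - p)) (fderiv ℝ f p) y := by
      have := (fderiv ℝ f p).hasFDerivAt.comp y ((hasFDerivAt_id y).sub_const p)
      rw [ContinuousLinearMap.comp_id] at this
      exact this
    exact (h2.hasFDerivAt.sub h3).hasFDerivWithinAt
  have hb : ∀ y ∈ ball p ε ∩ closedBall p ‖x - p‖, ‖fderiv ℝ f y - fderiv ℝ f p‖ ≤
      K * ‖x - p‖ := by
    intro y hy
    have := hK.dist_le_mul y (hball hy.1).1 p hpt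
    rw [dist_eq_norm, dist_eq_norm] at this
    refine this.trans (mul_le_mul_of_nonneg_left ?_ K.2)
    simpa [dist_eq_norm] using hy.2
  have hconv : Convex ℝ (ball p ε ∩ closedBall p ‖x - p‖) :=
    (convex_ball p ε).inter (convex_closedBall p _)
  have h4 := hconv.norm_image_sub_le_of_norm_hasFDerivWithin_le hgd hb
    (⟨Metric.mem_ball_self hε, Metric.mem_closedBall_self (norm_nonneg _)⟩ :
      p ∈ ball p ε ∩ closedBall p ‖x - p‖)
    (⟨hx, by simp [dist_eq_norm]⟩ : x ∈ ball p ε ∩ closedBall p ‖x - p‖)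
  have e1 : g x - g p = f x - f p - fderiv ℝ f p (x - p) := by
    simp [hg]; abel
  rw [e1] at h4
  calc _ ≤ _ := h4
    _ = _ := by ring

/-- the quadratic correction -/
theorem quad_exists {J : H → H →L[ℝ] H} {p : H} (hJ : DifferentiableAt ℝ J p)
    (hJJ : ∀ᶠ x in 𝓝 p, ∀ v, J x (J x v) = -v) (hN : ∀ v w, Nij J p v w = 0)
    (T : H →L[ℝ] Cn n) (hT : ∀ v, T (J p v) = I • T v) :
    ∃ β : H →L[ℝ] H →L[ℝ] Cn n, (∀ u v, β u v = β v u) ∧
      ∀ u v, β u v + I • β u (J p v) + I • T (fderiv ℝ J p u v) = 0 := by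
  set J1 := fderiv ℝ J p with hJ1
  have hJJp : ∀ v, J p (J p v) = -v := hJJ.self_of_nhds
  -- `J1 u (J p v) + J p (J1 u v) = 0`
  have hanti : ∀ u v, J1 u (J p v) = -J p (J1 u v) := by
    intro u v
    have h1 : HasFDerivAt (fun x => J x (J x v)) ((J p).comp ((J1).flip v) +
        (J1).flip (J p v)) p := by
      have h2 : HasFDerivAt (fun x => J x v) ((J1).flip v) p := by
        have := hJ.hasFDerivAt.clm_apply (hasFDerivAt_const v p)
        simpa using this
      exact hJ.hasFDerivAt.clm_apply h2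
    have h3 : HasFDerivAt (fun x => J x (J x v)) (0 : H →L[ℝ] H) p := by
      refine (hasFDerivAt_const (-v) p).congr_of_eventuallyEq ?_
      filter_upwards [hJJ] with x hx
      exact hx v
    have h4 := congrArg (fun L : H →L[ℝ] H => L u) (h1.unique h3)
    simp only [_root_.add_apply, ContinuousLinearMap.comp_apply, ContinuousLinearMap.flip_apply,
      _root_.zero_apply] at h4
    rw [add_comm] at h4
    exact eq_neg_of_add_eq_zero_left h4
  let A : H →L[ℝ] H →L[ℝ] Cn n := (ContinuousLinearMap.compL ℝ H H (Cn n) T).comp J1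
  have hA : ∀ u v, A u v = T (J1 u v) := fun u v => rfl
  let B : H →L[ℝ] H →L[ℝ] Cn n := ((ContinuousLinearMap.compL ℝ H H (Cn n)).flip (J p)).comp A.flip
  have hB : ∀ u v, B u v = T (J1 (J p v) u) := fun u v => rfl
  have hNN : ∀ u v, T (J1 (J p u) v) - T (J1 (J p v) u) - I • (T (J1 u v) - T (J1 v u)) = 0 := by
    intro u v
    have := congrArg T (hN u v)
    simp only [Nij, map_sub, map_zero, hT, ← hJ1] at this
    rw [smul_sub]
    exact this
  refine ⟨(-(1 / 2 : ℂ) * I) • A - ((1 / 4 : ℂ) * I) • A.flip - (1 / 4 : ℂ) • B, ?_, ?_⟩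
  · intro u v
    have h := hNN u v
    simp only [_root_.sub_apply, _root_.smul_apply, ContinuousLinearMap.flip_apply, hA, hB]
    ext i
    have hi := congrArg (fun w : Cn n => w i) h
    simp only [PiLp.sub_apply, PiLp.smul_apply, smul_eq_mul, PiLp.zero_apply] at hi ⊢
    linear_combination (1 / 4 : ℂ) * hi
  · intro u v
    simp only [_root_.sub_apply, _root_.smul_apply, ContinuousLinearMap.flip_apply, hA, hB, hJJp,
      hanti, hT, map_neg, neg_apply]
    ext i
    simp only [PiLp.sub_apply, PiLp.smul_apply, smul_eq_mul, PiLp.zero_apply, PiLp.add_apply,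
      PiLp.neg_apply]
    ring_nf
    simp only [I_sq, I_pow_three]
    ring

end

end Crest.Agent.R260.NNA_17
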