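import Crest.Agent.R260.NNA3_17

/-!
# R260, NN-A (helper17), part 4: good coordinates
-/

set_option autoImplicit false

open Set Filter Topology Complex Metric
open scoped ContDiff ComplexConjugate

namespace Crest.Agent.R260.NNA_17

noncomputable section

variable {n : ℕ}

set_option maxHeartbeats 1000000 in
theorem exists_chart {V : Type*} [NormedAddCommGroup V] [NormedSpace ℝ V] [FiniteDimensional ℝ V]
    (hn : Module.finrank ℝ V = 2 * n) {U : Set V} (hU : IsOpen U) {p : V} (hp : p ∈ U)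
    {J : V → V →L[ℝ] V} (hJ : ContDiffOn ℝ ∞ J U) (hJJ : ∀ x ∈ U, ∀ v, J x (J x v) = -v)
    (hN : ∀ x ∈ U, ∀ v w, Nij J x v w = 0) :
    ∃ e : OpenPartialHomeomorph V (Cn n), p ∈ e.source ∧ e.source ⊆ U ∧ e p = 0 ∧
      ContDiffOn ℝ ∞ e e.source ∧ ContDiffOn ℝ ∞ e.symm e.target ∧
      (∀ x ∈ e.source, ∃ E : V ≃L[ℝ] Cn n, (E : V →L[ℝ] Cn n) = fderiv ℝ e x) ∧
      (∀ x ∈ e.source, ∃ E : V ≃L[ℝ] Cn n, (E : V →L[ℝ] Cn n) = PP (fderiv ℝ e x) (J x)) ∧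
      ∃ C : ℝ, 0 ≤ C ∧ ∀ x ∈ e.source, ∀ v,
        ‖QQ (fderiv ℝ e x) (J x) v‖ ≤ C * ‖e x‖ ^ 2 * ‖v‖ := by
  have : CompleteSpace V := FiniteDimensional.complete ℝ V
  have hUp : U ∈ 𝓝 p := hU.mem_nhds hp
  have hJp : ContDiffAt ℝ ∞ J p := hJ.contDiffAt hUp
  obtain ⟨T, hT⟩ := exists_lin hn (J p) (hJJ p hp)
  obtain ⟨β, hβs, hβ⟩ := quad_exists (hJp.differentiableAt (by simp))
    (by filter_upwards [hUp] with x hx using hJJ x hx) (hN p hp) (T : V →L[ℝ] Cn n) hT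
  set Φ : V → Cn n := fun x => T (x - p) + (1 / 2 : ℝ) • β (x - p) (x - p) with hΦdef
  have hΦd : ∀ x, HasFDerivAt Φ ((T : V →L[ℝ] Cn n) + β (x - p)) x := by
    intro x
    have h0 : HasFDerivAt (fun x : V => x - p) (ContinuousLinearMap.id ℝ V) x :=
      (hasFDerivAt_id x).sub_const p
    have h1 : HasFDerivAt (fun x : V => T (x - p)) (T : V →L[ℝ] Cn n) x := by
      have := (T : V →L[ℝ] Cn n).hasFDerivAt.comp x h0
      rw [ContinuousLinearMap.comp_id] at this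
      exact this
    have h2 : HasFDerivAt (fun x : V => β (x - p)) β x := by
      have := β.hasFDerivAt.comp x h0
      rw [ContinuousLinearMap.comp_id] at this
      exact this
    have h3 := (h2.clm_apply h0).const_smul (1 / 2 : ℝ)
    refine (h1.add h3).congr_fderiv ?_
    ext1 v
    simp only [_root_.add_apply, _root_.smul_apply, ContinuousLinearMap.comp_apply,
      ContinuousLinearMap.flip_apply, ContinuousLinearMap.id_apply, hβs v (x - p)]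
    rw [← two_smul ℝ (β (x - p) v), smul_smul]
    norm_num
  have hΦs : ContDiff ℝ ∞ Φ := by
    have h0 : ContDiff ℝ ∞ (fun x : V => x - p) := contDiff_id.sub contDiff_const
    exact ((T : V →L[ℝ] Cn n).contDiff.comp h0).add
      (((β.contDiff.comp h0).clm_apply h0).const_smul (1 / 2 : ℝ))
  have hΦp : Φ p = 0 := by simp [hΦdef]
  have hfd : ∀ x, fderiv ℝ Φ x = (T : V →L[ℝ] Cn n) + β (x - p) := fun x => (hΦd x).fderiv
  have hΦdp : HasFDerivAt Φ ((T : V →L[ℝ] Cn n)) p := by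
    have := hΦd p
    simpa using this
  -- the eventual conditions
  have c1 : ∀ᶠ x in 𝓝 p, ∃ E : V ≃L[ℝ] Cn n, (E : V →L[ℝ] Cn n) = fderiv ℝ Φ x := by
    have hc : ContinuousAt (fun x => fderiv ℝ Φ x) p :=
      (hΦs.continuous_fderiv (by simp)).continuousAt
    have : range ((↑) : (V ≃L[ℝ] Cn n) → V →L[ℝ] Cn n) ∈ 𝓝 (fderiv ℝ Φ p) := by
      rw [hΦdp.fderiv]; exact T.nhds
    exact hc this
  have hPQ0 : ∀ v, QQ (fderiv ℝ Φ p) (J p) v = 0 := by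
    intro v
    rw [QQ_apply, hΦdp.fderiv]
    change (1 / 2 : ℂ) • (T v + I • T (J p v)) = 0
    rw [hT, smul_smul, I_mul_I, neg_one_smul, add_neg_cancel, smul_zero]
  have hPp : PP (fderiv ℝ Φ p) (J p) = (T : V →L[ℝ] Cn n) := by
    ext1 v
    have h := G_eq (fderiv ℝ Φ p) (J p) v
    rw [hPQ0 v, add_zero, hΦdp.fderiv] at h
    rw [hΦdp.fderiv]; exact h.symm
  have c2 : ∀ᶠ x in 𝓝 p, ∃ E : V ≃L[ℝ] Cn n, (E : V →L[ℝ] Cn n) = PP (fderiv ℝ Φ x) (J x) := by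
    have hc0 : ContinuousAt (fun x => fderiv ℝ Φ x) p :=
      (hΦs.continuous_fderiv (by simp)).continuousAt
    have hc : ContinuousAt (fun x => PP (fderiv ℝ Φ x) (J x)) p := by
      unfold PP
      exact (hc0.sub ((hc0.clm_comp hJp.continuousAt).const_smul I)).const_smul (1 / 2 : ℂ)
    have : range ((↑) : (V ≃L[ℝ] Cn n) → V →L[ℝ] Cn n) ∈ 𝓝 (PP (fderiv ℝ Φ p) (J p)) := by
      rw [hPp]; exact T.nhds
    exact hc this
  obtain ⟨C, hC, hC'⟩ := taylor2 (hJp.of_le (by norm_cast) : ContDiffAt ℝ 2 J p)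
  set J1 := fderiv ℝ J p with hJ1
  set Ts : Cn n →L[ℝ] V := (T.symm : Cn n →L[ℝ] V) with hTs
  set K : ℝ := 1 / 2 * (‖(T : V →L[ℝ] Cn n)‖ * C + ‖β‖ * (C + ‖J1‖)) with hK
  have hK0 : 0 ≤ K := by positivity
  have c3 : ∀ᶠ x in 𝓝 p, ‖x - p‖ < 1 ∧ ‖x - p‖ < 1 / (‖Ts‖ * ‖β‖ + 1) := by
    have h1 : 0 < 1 / (‖Ts‖ * ‖β‖ + 1) := by positivity
    filter_upwards [Metric.ball_mem_nhds p one_pos, Metric.ball_mem_nhds p h1] with x hx hx'
    exact ⟨by simpa [dist_eq_norm] using hx, by simpa [dist_eq_norm] using hx'⟩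
  have c4 : ∀ᶠ x in 𝓝 p, ∀ v, ‖QQ (fderiv ℝ Φ x) (J x) v‖ ≤
      (K * (2 * ‖Ts‖) ^ 2) * ‖Φ x‖ ^ 2 * ‖v‖ := by
    filter_upwards [hC', c3] with x hx hx3 v
    obtain ⟨hx1, hx2⟩ := hx3
    set u := x - p with hu
    have hu0 : 0 ≤ ‖u‖ := norm_nonneg _
    -- `‖u‖ ≤ 2 ‖Ts‖ ‖Φ x‖`
    have hub : ‖u‖ ≤ 2 * ‖Ts‖ * ‖Φ x‖ := by
      have h1 : u = Ts (Φ x - (1 / 2 : ℝ) • β u u) := by
        have : Φ x - (1 / 2 : ℝ) • β u u = T u := by
          change T u + (1 / 2 : ℝ) • β u u - (1 / 2 : ℝ) • β u u = T u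
          rw [add_sub_cancel_right]
        rw [this]
        change u = T.symm (T u)
        rw [T.symm_apply_apply]
      have h2 : ‖u‖ ≤ ‖Ts‖ * (‖Φ x‖ + 1 / 2 * (‖β‖ * ‖u‖ * ‖u‖)) := by
        calc ‖u‖ = ‖Ts (Φ x - (1 / 2 : ℝ) • β u u)‖ := by rw [← h1]
          _ ≤ ‖Ts‖ * ‖Φ x - (1 / 2 : ℝ) • β u u‖ := Ts.le_opNorm _
          _ ≤ ‖Ts‖ * (‖Φ x‖ + ‖(1 / 2 : ℝ) • β u u‖) := by gcongr; exact norm_sub_le _ _
          _ ≤ _ := by
            gcongr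
            rw [norm_smul]
            have : ‖(1 / 2 : ℝ)‖ = 1 / 2 := by norm_num
            rw [this]
            gcongr
            exact (β u).le_opNorm _ |>.trans (by gcongr; exact β.le_opNorm _)
      have h3 : ‖Ts‖ * ‖β‖ * ‖u‖ ≤ 1 := by
        have h4 : 0 < ‖Ts‖ * ‖β‖ + 1 := by positivity
        have h5 : ‖u‖ * (‖Ts‖ * ‖β‖ + 1) < 1 := (lt_div_iff₀ h4).1 hx2
        nlinarith
      nlinarith [mul_nonneg hu0 (sub_nonneg.2 h3)]
    have hid : QQ (fderiv ℝ Φ x) (J x) v = (1 / 2 : ℂ) • (I • (T ((J x - J p - J1 u) v)) +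
        I • β u ((J x - J p) v)) := by
      rw [QQ_apply, hfd, ← hu]
      have h1 := hβ u v
      have h2 : T v + I • T (J p v) = 0 := by
        rw [hT, smul_smul, I_mul_I, neg_one_smul, add_neg_cancel]
      congr 1
      simp only [_root_.add_apply, _root_.sub_apply, map_sub, ContinuousLinearEquiv.coe_coe] at h1 ⊢
      have h3 : β u v = -(I • β u (J p v)) - I • T (J1 u v) := by
        rw [← sub_eq_zero, ← h1]; abel
      have h4 : T v = -(I • T (J p v)) := eq_neg_of_add_eq_zero_left h2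
      rw [h3, h4]
      simp only [smul_add, smul_sub]
      abel
    have hn1 : ‖(J x - J p) v‖ ≤ (C + ‖J1‖) * ‖u‖ * ‖v‖ := by
      have h1 : (J x - J p) v = (J x - J p - J1 u) v + J1 u v := by simp
      rw [h1]
      have h2 : ‖(J x - J p - J1 u) v‖ ≤ C * ‖u‖ * ‖v‖ := by
        refine ((J x - J p - J1 u).le_opNorm v).trans ?_
        gcongr
        refine hx.trans ?_
        rw [sq]
        calc C * (‖u‖ * ‖u‖) ≤ C * (‖u‖ * 1) := by gcongr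
          _ = C * ‖u‖ := by ring
      have h3 : ‖J1 u v‖ ≤ ‖J1‖ * ‖u‖ * ‖v‖ :=
        (J1 u).le_opNorm v |>.trans (by gcongr; exact J1.le_opNorm u)
      calc _ ≤ ‖(J x - J p - J1 u) v‖ + ‖J1 u v‖ := norm_add_le _ _
        _ ≤ C * ‖u‖ * ‖v‖ + ‖J1‖ * ‖u‖ * ‖v‖ := add_le_add h2 h3
        _ = _ := by ring
    have hn2 : ‖(J x - J p - J1 u) v‖ ≤ C * ‖u‖ ^ 2 * ‖v‖ := by
      refine ((J x - J p - J1 u).le_opNorm v).trans ?_
      gcongr
    have hn3 : ‖QQ (fderiv ℝ Φ x) (J x) v‖ ≤ K * ‖u‖ ^ 2 * ‖v‖ := by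
      rw [hid, norm_smul]
      have e1 : ‖(1 / 2 : ℂ)‖ = 1 / 2 := by norm_num
      rw [e1]
      have e2 : ‖I • T ((J x - J p - J1 u) v)‖ ≤
          ‖(T : V →L[ℝ] Cn n)‖ * (C * ‖u‖ ^ 2 * ‖v‖) := by
        rw [norm_smul, norm_I, one_mul]
        exact ((T : V →L[ℝ] Cn n).le_opNorm _).trans (by gcongr)
      have e3 : ‖I • β u ((J x - J p) v)‖ ≤ ‖β‖ * ‖u‖ * ((C + ‖J1‖) * ‖u‖ * ‖v‖) := by
        rw [norm_smul, norm_I, one_mul]
        exact ((β u).le_opNorm _).trans (by gcongr; exact β.le_opNorm u)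
      calc _ ≤ 1 / 2 * (‖I • T ((J x - J p - J1 u) v)‖ + ‖I • β u ((J x - J p) v)‖) := by
            gcongr; exact norm_add_le _ _
        _ ≤ 1 / 2 * (‖(T : V →L[ℝ] Cn n)‖ * (C * ‖u‖ ^ 2 * ‖v‖) +
            ‖β‖ * ‖u‖ * ((C + ‖J1‖) * ‖u‖ * ‖v‖)) := by gcongr
        _ = _ := by rw [hK]; ring
    refine hn3.trans ?_
    have : ‖u‖ ^ 2 ≤ (2 * ‖Ts‖) ^ 2 * ‖Φ x‖ ^ 2 := by
      rw [← mul_pow]; exact pow_le_pow_left₀ hu0 hub 2
    calc K * ‖u‖ ^ 2 * ‖v‖ ≤ K * ((2 * ‖Ts‖) ^ 2 * ‖Φ x‖ ^ 2) * ‖v‖ := by gcongr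
      _ = _ := by ring
  -- an open set on which everything holds
  obtain ⟨O, hO, hOo, hpO⟩ := _root_.mem_nhds_iff.1 (Filter.inter_mem (Filter.inter_mem c1 c2)
    (Filter.inter_mem c4 hUp))
  set e0 : OpenPartialHomeomorph V (Cn n) :=
    (hΦs.contDiffAt).toOpenPartialHomeomorph Φ hΦdp (by simp) with he0
  have he0c : (e0 : V → Cn n) = Φ := ContDiffAt.toOpenPartialHomeomorph_coe _ _ _
  have hps : p ∈ e0.source := ContDiffAt.mem_toOpenPartialHomeomorph_source _ _ _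
  set e := e0.restrOpen O hOo with he
  have hec : (e : V → Cn n) = Φ := he0c
  have hes : e.source = e0.source ∩ O := rfl
  have hO' : ∀ x ∈ e.source, x ∈ O := fun x hx => hx.2
  refine ⟨e, ⟨hps, hpO⟩, fun x hx => (hO (hO' x hx)).2.2, by rw [hec]; exact hΦp,
    by rw [hec]; exact hΦs.contDiffOn, ?_, fun x hx => ?_, fun x hx => ?_,
    K * (2 * ‖Ts‖) ^ 2, by positivity, fun x hx v => ?_⟩
  · intro z hz
    have hx : e.symm z ∈ e.source := e.map_target hz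
    obtain ⟨E, hE⟩ := (hO (hO' _ hx)).1.1
    have : HasFDerivAt e (E : V →L[ℝ] Cn n) (e.symm z) := by
      rw [hE, hec]; exact (hΦs.differentiable (by simp) _).hasFDerivAt
    exact (e.contDiffAt_symm hz this (by rw [hec]; exact hΦs.contDiffAt)).contDiffWithinAt
  · rw [hec]; exact (hO (hO' x hx)).1.1
  · rw [hec]; exact (hO (hO' x hx)).1.2
  · rw [hec]; exact (hO (hO' x hx)).2.1 v

end

end Crest.Agent.R260.NNA_17
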