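import Crest.Agent.R260.ACM_580
import Crest.Agent.R266.Osgood

/-!
# Row 260, NN-ATL, part 1 (helper580): holomorphic charts of an almost complex manifold

`JCh C φ` : `φ : OpenPartialHomeomorph Z (EuclideanSpace ℂ (Fin d))` is smooth in both directions in
            the real charts of `C : ACM V Z` and its differential is `J`-linear;
`JCh.sub`, `JCh.comp_affine`, `JCh.holo` (transitions of two `JCh` charts are holomorphic);
`exists_jch` : the local Newlander-Nirenberg theorem gives a `JCh` chart around every point.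
-/

set_option autoImplicit false

open Set Filter Topology Complex
open scoped ContDiff

namespace Crest.Agent.R260.NNB_580

open Crest.Agent.R260.ACM_580

noncomputable section

/-! ### complex linearity -/

section lin

variable {E F : Type*} [NormedAddCommGroup E] [NormedSpace ℂ E] [NormedAddCommGroup F]
  [NormedSpace ℂ F]

/-- a real linear map commuting with `i` is complex linear -/
def cl (T : E →L[ℝ] F) (h : ∀ v, T (I • v) = I • T v) : E →L[ℂ] F where
  toFun := T
  map_add' := T.map_add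
  map_smul' c v := by
    have h1 : c • v = c.re • v + c.im • (I • v) := by
      nth_rewrite 1 [← Complex.re_add_im c]
      rw [add_smul, mul_smul, Complex.coe_smul, Complex.coe_smul]
    have h2 : c • T v = c.re • T v + c.im • (I • T v) := by
      nth_rewrite 1 [← Complex.re_add_im c]
      rw [add_smul, mul_smul, Complex.coe_smul, Complex.coe_smul]
    simp only [RingHom.id_apply]
    rw [h1, map_add, map_smul, map_smul, h, h2]
  cont := T.cont

@[simp] theorem cl_apply (T : E →L[ℝ] F) (h : ∀ v, T (I • v) = I • T v) (v : E) :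
    cl T h v = T v := rfl

theorem differentiableAt_of_real {f : E → F} {x : E} (hf : DifferentiableAt ℝ f x)
    (h : ∀ v, fderiv ℝ f x (I • v) = I • fderiv ℝ f x v) : DifferentiableAt ℂ f x := by
  have h1 : HasFDerivAt f (cl (fderiv ℝ f x) h) x := by
    refine hasFDerivAt_of_restrictScalars ℝ hf.hasFDerivAt ?_
    ext v
    simp
  exact h1.differentiableAt

theorem fderiv_real_I {f : E → F} {x : E} (hf : DifferentiableAt ℂ f x) (v : E) :
    fderiv ℝ f x (I • v) = I • fderiv ℝ f x v := by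
  rw [hf.fderiv_restrictScalars ℝ]
  simp

end lin

variable {V Z : Type} [NormedAddCommGroup V] [NormedSpace ℝ V] [TopologicalSpace Z]
  {C : ACM V Z} {d : ℕ}

/-- overlap of a real chart and a complex chart, in the real chart -/
def ovr (C : ACM V Z) (i : C.ι) (φ : OpenPartialHomeomorph Z (EuclideanSpace ℂ (Fin d))) : Set V :=
  {z | z ∈ (C.e i).target ∧ (C.e i).symm z ∈ φ.source}

/-- overlap of a real chart and a complex chart, in the complex chart -/
def ovc (C : ACM V Z) (i : C.ι) (φ : OpenPartialHomeomorph Z (EuclideanSpace ℂ (Fin d))) :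
    Set (EuclideanSpace ℂ (Fin d)) :=
  {z | z ∈ φ.target ∧ φ.symm z ∈ (C.e i).source}

theorem isOpen_ovr (i : C.ι) (φ : OpenPartialHomeomorph Z (EuclideanSpace ℂ (Fin d))) :
    IsOpen (ovr C i φ) := (C.e i).isOpen_inter_preimage_symm φ.open_source

theorem isOpen_ovc (i : C.ι) (φ : OpenPartialHomeomorph Z (EuclideanSpace ℂ (Fin d))) :
    IsOpen (ovc C i φ) := φ.isOpen_inter_preimage_symm (C.e i).open_source

/-- `φ` is a holomorphic chart for the almost complex structure -/
structure JCh (C : ACM V Z) (φ : OpenPartialHomeomorph Z (EuclideanSpace ℂ (Fin d))) : Prop where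
  sm : ∀ i, ContDiffOn ℝ ∞ (fun z => φ ((C.e i).symm z)) (ovr C i φ)
  sm' : ∀ i, ContDiffOn ℝ ∞ (fun z => C.e i (φ.symm z)) (ovc C i φ)
  lin : ∀ i, ∀ z ∈ ovr C i φ, ∀ v, fderiv ℝ (fun z => φ ((C.e i).symm z)) z (C.J i z v) =
    I • fderiv ℝ (fun z => φ ((C.e i).symm z)) z v

variable {φ ψ : OpenPartialHomeomorph Z (EuclideanSpace ℂ (Fin d))}

theorem mem_ovc_of_source {i : C.ι} {x : Z} (h1 : x ∈ φ.source) (h2 : x ∈ (C.e i).source) :
    φ x ∈ ovc C i φ := ⟨φ.map_source h1, by rw [φ.left_inv h1]; exact h2⟩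

theorem mem_ovr_of_source {i : C.ι} {x : Z} (h1 : x ∈ φ.source) (h2 : x ∈ (C.e i).source) :
    C.e i x ∈ ovr C i φ := ⟨(C.e i).map_source h2, by rw [(C.e i).left_inv h2]; exact h1⟩

namespace JCh

theorem diffAt (h : JCh C φ) {i : C.ι} {z : V} (hz : z ∈ ovr C i φ) :
    DifferentiableAt ℝ (fun z => φ ((C.e i).symm z)) z :=
  ((h.sm i).contDiffAt ((isOpen_ovr i φ).mem_nhds hz)).differentiableAt (by simp)

theorem diffAt' (h : JCh C φ) {i : C.ι} {z : EuclideanSpace ℂ (Fin d)} (hz : z ∈ ovc C i φ) :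
    DifferentiableAt ℝ (fun z => C.e i (φ.symm z)) z :=
  ((h.sm' i).contDiffAt ((isOpen_ovc i φ).mem_nhds hz)).differentiableAt (by simp)

theorem swap {i : C.ι} {z : EuclideanSpace ℂ (Fin d)} (hz : z ∈ ovc C i φ) :
    C.e i (φ.symm z) ∈ ovr C i φ := mem_ovr_of_source (φ.map_target hz.1) hz.2

theorem swap' {i : C.ι} {z : V} (hz : z ∈ ovr C i φ) :
    φ ((C.e i).symm z) ∈ ovc C i φ := mem_ovc_of_source hz.2 ((C.e i).map_target hz.1)

/-- the two differentials are inverse to each other -/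
theorem inv_left (h : JCh C φ) {i : C.ι} {z : EuclideanSpace ℂ (Fin d)} (hz : z ∈ ovc C i φ)
    (v : EuclideanSpace ℂ (Fin d)) :
    fderiv ℝ (fun z => φ ((C.e i).symm z)) (C.e i (φ.symm z))
      (fderiv ℝ (fun z => C.e i (φ.symm z)) z v) = v := by
  have h1 : HasFDerivAt (fun w => φ ((C.e i).symm (C.e i (φ.symm w))))
      ((fderiv ℝ (fun z => φ ((C.e i).symm z)) (C.e i (φ.symm z))).comp
        (fderiv ℝ (fun z => C.e i (φ.symm z)) z)) z :=
    HasFDerivAt.comp z (g := fun z => φ ((C.e i).symm z)) (f := fun z => C.e i (φ.symm z))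
      (h.diffAt (swap hz)).hasFDerivAt (h.diffAt' hz).hasFDerivAt
  have h2 : HasFDerivAt (fun w => φ ((C.e i).symm (C.e i (φ.symm w))))
      (ContinuousLinearMap.id ℝ (EuclideanSpace ℂ (Fin d))) z := by
    refine (hasFDerivAt_id z).congr_of_eventuallyEq ?_
    filter_upwards [(isOpen_ovc i φ).mem_nhds hz] with w hw
    simp only [id]
    rw [(C.e i).left_inv hw.2, φ.right_inv hw.1]
  have h3 := congrArg (fun T => T v) (h1.unique h2)
  simpa using h3

theorem inv_right (h : JCh C φ) {i : C.ι} {z : V} (hz : z ∈ ovr C i φ) (v : V) :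
    fderiv ℝ (fun z => C.e i (φ.symm z)) (φ ((C.e i).symm z))
      (fderiv ℝ (fun z => φ ((C.e i).symm z)) z v) = v := by
  have h1 : HasFDerivAt (fun w => C.e i (φ.symm (φ ((C.e i).symm w))))
      ((fderiv ℝ (fun z => C.e i (φ.symm z)) (φ ((C.e i).symm z))).comp
        (fderiv ℝ (fun z => φ ((C.e i).symm z)) z)) z :=
    HasFDerivAt.comp z (g := fun z => C.e i (φ.symm z)) (f := fun z => φ ((C.e i).symm z))
      (h.diffAt' (swap' hz)).hasFDerivAt (h.diffAt hz).hasFDerivAt
  have h2 : HasFDerivAt (fun w => C.e i (φ.symm (φ ((C.e i).symm w))))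
      (ContinuousLinearMap.id ℝ V) z := by
    refine (hasFDerivAt_id z).congr_of_eventuallyEq ?_
    filter_upwards [(isOpen_ovr i φ).mem_nhds hz] with w hw
    simp only [id]
    rw [φ.left_inv hw.2, (C.e i).right_inv hw.1]
  have h3 := congrArg (fun T => T v) (h1.unique h2)
  simpa using h3

/-- the inverse of a holomorphic chart has a `J`-linear differential -/
theorem lin' (h : JCh C φ) {i : C.ι} {z : EuclideanSpace ℂ (Fin d)} (hz : z ∈ ovc C i φ)
    (v : EuclideanSpace ℂ (Fin d)) :
    fderiv ℝ (fun z => C.e i (φ.symm z)) z (I • v) =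
      C.J i (C.e i (φ.symm z)) (fderiv ℝ (fun z => C.e i (φ.symm z)) z v) := by
  have h0 := swap hz
  have h1 := h.lin i _ h0 (fderiv ℝ (fun z => C.e i (φ.symm z)) z v)
  rw [h.inv_left hz] at h1
  have h2 := h.inv_right h0 (C.J i (C.e i (φ.symm z)) (fderiv ℝ (fun z => C.e i (φ.symm z)) z v))
  rw [h1, (C.e i).left_inv hz.2, φ.right_inv hz.1] at h2
  exact h2

/-- transitions of holomorphic charts are holomorphic -/
theorem holo (h : JCh C φ) (h' : JCh C ψ) : DifferentiableOn ℂ (fun z => ψ (φ.symm z))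
    {z | z ∈ φ.target ∧ φ.symm z ∈ ψ.source} := by
  intro z hz
  apply DifferentiableAt.differentiableWithinAt
  obtain ⟨i, hi⟩ := C.cover (φ.symm z)
  have hc : z ∈ ovc C i φ := ⟨hz.1, hi⟩
  have hr : C.e i (φ.symm z) ∈ ovr C i ψ := mem_ovr_of_source hz.2 hi
  have h1 : HasFDerivAt (fun w => ψ ((C.e i).symm (C.e i (φ.symm w))))
      ((fderiv ℝ (fun z => ψ ((C.e i).symm z)) (C.e i (φ.symm z))).comp
        (fderiv ℝ (fun z => C.e i (φ.symm z)) z)) z :=
    HasFDerivAt.comp z (g := fun z => ψ ((C.e i).symm z)) (f := fun z => C.e i (φ.symm z))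
      (h'.diffAt hr).hasFDerivAt (h.diffAt' hc).hasFDerivAt
  have h2 : (fun z => ψ (φ.symm z)) =ᶠ[𝓝 z] fun w => ψ ((C.e i).symm (C.e i (φ.symm w))) := by
    filter_upwards [(isOpen_ovc i φ).mem_nhds hc] with w hw
    rw [(C.e i).left_inv hw.2]
  have h3 := h1.congr_of_eventuallyEq h2
  refine differentiableAt_of_real h3.differentiableAt fun v => ?_
  rw [h3.fderiv]
  simp only [ContinuousLinearMap.comp_apply]
  rw [h.lin' hc, h'.lin i _ hr]

end JCh

/-- to be a holomorphic chart is a local condition: one real chart around every point suffices -/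
theorem jch_of_local (φ : OpenPartialHomeomorph Z (EuclideanSpace ℂ (Fin d)))
    (h : ∀ x ∈ φ.source, ∃ i, x ∈ (C.e i).source ∧
      ContDiffAt ℝ ∞ (fun z => φ ((C.e i).symm z)) (C.e i x) ∧
      ContDiffAt ℝ ∞ (fun z => C.e i (φ.symm z)) (φ x) ∧
      ∀ v, fderiv ℝ (fun z => φ ((C.e i).symm z)) (C.e i x) (C.J i (C.e i x) v) =
        I • fderiv ℝ (fun z => φ ((C.e i).symm z)) (C.e i x) v) : JCh C φ := by
  -- transitions of the real charts
  have htr : ∀ i j, ∀ x, x ∈ (C.e i).source → x ∈ (C.e j).source →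
      ContDiffAt ℝ ∞ (fun z => C.e j ((C.e i).symm z)) (C.e i x) := by
    intro i j x hi hj
    exact (C.sm i j).contDiffAt ((C.isOpen_ov i j).mem_nhds
      ⟨(C.e i).map_source hi, by rw [(C.e i).left_inv hi]; exact hj⟩)
  have hev : ∀ i, ∀ x ∈ φ.source, ∀ j, x ∈ (C.e i).source → x ∈ (C.e j).source →
      (fun z => φ ((C.e i).symm z)) =ᶠ[𝓝 (C.e i x)]
        fun z => φ ((C.e j).symm (C.e j ((C.e i).symm z))) := by
    intro i x _ j hi hj
    have h1 : C.e i x ∈ C.ov i j :=
      ⟨(C.e i).map_source hi, by rw [(C.e i).left_inv hi]; exact hj⟩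
    filter_upwards [(C.isOpen_ov i j).mem_nhds h1] with w hw
    rw [(C.e j).left_inv hw.2]
  refine ⟨fun i z hz => ?_, fun i z hz => ?_, fun i z hz v => ?_⟩
  · apply ContDiffAt.contDiffWithinAt
    set x := (C.e i).symm z with hx
    have hxi : x ∈ (C.e i).source := (C.e i).map_target hz.1
    obtain ⟨j, hj, h1, -, -⟩ := h x hz.2
    have hzx : z = C.e i x := ((C.e i).right_inv hz.1).symm
    rw [hzx]
    refine ContDiffAt.congr_of_eventuallyEq ?_ (hev i x hz.2 j hxi hj)
    refine ContDiffAt.comp (C.e i x) (g := fun z => φ ((C.e j).symm z))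
      (f := fun z => C.e j ((C.e i).symm z)) ?_ (htr i j x hxi hj)
    rw [(C.e i).left_inv hxi]
    exact h1
  · apply ContDiffAt.contDiffWithinAt
    set x := φ.symm z with hx
    have hxs : x ∈ φ.source := φ.map_target hz.1
    obtain ⟨j, hj, -, h2, -⟩ := h x hxs
    have hzx : z = φ x := (φ.right_inv hz.1).symm
    rw [hzx]
    have hxi : x ∈ (C.e i).source := hz.2
    have h3 : (fun z => C.e i (φ.symm z)) =ᶠ[𝓝 (φ x)]
        fun z => C.e i ((C.e j).symm (C.e j (φ.symm z))) := by
      filter_upwards [(isOpen_ovc j φ).mem_nhds (mem_ovc_of_source hxs hj)] with w hw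
      rw [(C.e j).left_inv hw.2]
    refine ContDiffAt.congr_of_eventuallyEq ?_ h3
    refine ContDiffAt.comp (φ x) (g := fun z => C.e i ((C.e j).symm z))
      (f := fun z => C.e j (φ.symm z)) ?_ h2
    rw [φ.left_inv hxs]
    exact htr j i x hj hxi
  · set x := (C.e i).symm z with hx
    have hxi : x ∈ (C.e i).source := (C.e i).map_target hz.1
    obtain ⟨j, hj, h1, -, h4⟩ := h x hz.2
    have hzx : z = C.e i x := ((C.e i).right_inv hz.1).symm
    rw [hzx]
    have h5 := (htr i j x hxi hj).differentiableAt (by simp)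
    have h6 : HasFDerivAt (fun z => φ ((C.e j).symm (C.e j ((C.e i).symm z))))
        ((fderiv ℝ (fun z => φ ((C.e j).symm z)) (C.e j x)).comp
          (fderiv ℝ (fun z => C.e j ((C.e i).symm z)) (C.e i x))) (C.e i x) := by
      refine HasFDerivAt.comp (C.e i x) (g := fun z => φ ((C.e j).symm z))
        (f := fun z => C.e j ((C.e i).symm z)) ?_ h5.hasFDerivAt
      rw [(C.e i).left_inv hxi]
      exact (h1.differentiableAt (by simp)).hasFDerivAt
    have h7 := h6.congr_of_eventuallyEq (hev i x hz.2 j hxi hj)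
    rw [h7.fderiv]
    simp only [ContinuousLinearMap.comp_apply]
    rw [C.J_tr i j _ ((C.e i).map_source hxi) (by rw [(C.e i).left_inv hxi]; exact hj),
      (C.e i).left_inv hxi, h4]

/-- the local Newlander-Nirenberg theorem gives a holomorphic chart around every point -/
theorem exists_jch [FiniteDimensional ℝ V] (hNN : NNat V d) (hC : C.Int) (x : Z) (i : C.ι)
    (hi : x ∈ (C.e i).source) :
    ∃ φ : OpenPartialHomeomorph Z (EuclideanSpace ℂ (Fin d)), JCh C φ ∧ x ∈ φ.source ∧
      φ.source ⊆ (C.e i).source := by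
  have : CompleteSpace V := FiniteDimensional.complete ℝ V
  have hp : C.e i x ∈ (C.e i).target := (C.e i).map_source hi
  obtain ⟨W, hW, hpW, hWU, F, hF, hFW⟩ := hNN (C.e i).target (C.e i).open_target (C.e i x) hp
    (C.J i) (C.J_sm i) (C.J_sq i) (hC i)
  have hFa : ∀ y ∈ W, ContDiffAt ℝ ∞ F y := fun y hy => hF.contDiffAt (hW.mem_nhds hy)
  have hFd : ∀ y ∈ W, ∃ T : V ≃L[ℝ] EuclideanSpace ℂ (Fin d),
      HasFDerivAt F (T : V →L[ℝ] EuclideanSpace ℂ (Fin d)) y := by
    intro y hy
    have h1 := ((hFa y hy).differentiableAt (by simp)).hasFDerivAt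
    refine ⟨ContinuousLinearEquiv.ofBijective (fderiv ℝ F y)
      (LinearMap.ker_eq_bot.2 (hFW y hy).1.1) (LinearMap.range_eq_top.2 (hFW y hy).1.2), ?_⟩
    rw [ContinuousLinearEquiv.coe_ofBijective]
    exact h1
  obtain ⟨T, hT⟩ := hFd _ hpW
  let G0 := (hFa _ hpW).toOpenPartialHomeomorph F hT (by simp)
  let G := G0.restrOpen W hW
  have hG : ∀ y, G y = F y := fun y => rfl
  have hGs : G.source = G0.source ∩ W := G0.restrOpen_source W hW
  let φ : OpenPartialHomeomorph Z (EuclideanSpace ℂ (Fin d)) := (C.e i).trans G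
  have hφs : φ.source = (C.e i).source ∩ C.e i ⁻¹' G.source :=
    (C.e i).trans_source G
  refine ⟨φ, jch_of_local φ fun y hy => ?_, ?_, ?_⟩
  · rw [hφs] at hy
    have hyi : y ∈ (C.e i).source := hy.1
    have hyG : C.e i y ∈ G.source := hy.2
    have hyW : C.e i y ∈ W := by rw [hGs] at hyG; exact hyG.2
    have hcoe : (fun z => φ ((C.e i).symm z)) =ᶠ[𝓝 (C.e i y)] F := by
      filter_upwards [(C.e i).open_target.mem_nhds ((C.e i).map_source hyi)] with w hw
      show G (C.e i ((C.e i).symm w)) = F w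
      rw [(C.e i).right_inv hw, hG]
    refine ⟨i, hyi, (hFa _ hyW).congr_of_eventuallyEq hcoe, ?_, fun v => ?_⟩
    · have h1 : (fun z => C.e i (φ.symm z)) =ᶠ[𝓝 (φ y)] G.symm := by
        have h2 : φ y ∈ φ.target := φ.map_source (by rw [hφs]; exact hy)
        filter_upwards [φ.open_target.mem_nhds h2] with w hw
        show C.e i ((C.e i).symm (G.symm w)) = G.symm w
        have h3 : w ∈ G.target ∩ G.symm ⁻¹' (C.e i).target := by
          have := (C.e i).trans_target G ▸ hw
          exact this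
        exact (C.e i).right_inv h3.2
      refine ContDiffAt.congr_of_eventuallyEq ?_ h1
      have h2 : φ y = G (C.e i y) := rfl
      obtain ⟨S, hS⟩ := hFd _ hyW
      have h3 : G (C.e i y) ∈ G.target := G.map_source hyG
      rw [h2]
      refine G.contDiffAt_symm (f₀' := S) h3 ?_ ?_
      · rw [G.left_inv hyG]; exact hS
      · rw [G.left_inv hyG]; exact hFa _ hyW
    · rw [hcoe.fderiv_eq]
      exact (hFW _ hyW).2 v
  · rw [hφs]
    refine ⟨hi, ?_⟩
    show C.e i x ∈ G.source
    rw [hGs]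
    exact ⟨(hFa _ hpW).mem_toOpenPartialHomeomorph_source hT (by simp), hpW⟩
  · rw [hφs]
    exact inter_subset_left

end

end Crest.Agent.R260.NNB_580
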