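import Crest.Agent.R260.NNB1_580
import Crest.Agent.R275.GAtl_293

/-!
# Row 260, NN-ATL, part 2 (helper580): the holomorphic atlas

`Cp C A`       : all charts of `A : Atl d Z` are holomorphic charts of `C : ACM V Z`
`exists_atl`   : compact Hausdorff `Z`, integrable `C`, local Newlander-Nirenberg ⟹ a finite good
                 atlas with a partition of unity, compatible with `C`, subordinate to any open
                 cover and to the real charts.
-/

set_option autoImplicit false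

open Set Filter Topology Complex
open scoped ContDiff Manifold

namespace Crest.Agent.R260.NNB_580

open Crest.Agent.R260.ACM_580 Crest.Agent.R275.Geo Crest.Agent.R275.GC293

noncomputable section

variable {V Z : Type} [NormedAddCommGroup V] [NormedSpace ℝ V] [TopologicalSpace Z]
  {C : ACM V Z} {d : ℕ}

/-- all charts of the atlas are holomorphic charts -/
def Cp (C : ACM V Z) (A : Atl d Z) : Prop := ∀ a, JCh C (A.e a)

theorem JCh.mk_of {φ ψ : OpenPartialHomeomorph Z (EuclideanSpace ℂ (Fin d))} (h : JCh C φ)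
    (hs : ψ.source ⊆ φ.source) {a b : EuclideanSpace ℂ (Fin d) → EuclideanSpace ℂ (Fin d)}
    (ha : Differentiable ℂ a) (ha' : ContDiff ℝ ∞ a) (hb : ContDiff ℝ ∞ b)
    (h1 : ∀ x ∈ ψ.source, ψ x = a (φ x)) (h2 : ∀ z ∈ ψ.target, ψ.symm z = φ.symm (b z))
    (h3 : ∀ z ∈ ψ.target, b z ∈ φ.target) : JCh C ψ := by
  have hr : ∀ i, ovr C i ψ ⊆ ovr C i φ := fun i z hz => ⟨hz.1, hs hz.2⟩
  have hev : ∀ i, ∀ z ∈ ovr C i ψ, (fun z => ψ ((C.e i).symm z)) =ᶠ[𝓝 z]
      fun z => a (φ ((C.e i).symm z)) := by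
    intro i z hz
    filter_upwards [(isOpen_ovr i ψ).mem_nhds hz] with w hw
    exact h1 _ hw.2
  refine ⟨fun i z hz => ?_, fun i => ?_, fun i z hz v => ?_⟩
  · apply ContDiffAt.contDiffWithinAt
    refine ContDiffAt.congr_of_eventuallyEq ?_ (hev i z hz)
    exact ha'.contDiffAt.comp z ((h.sm i).contDiffAt ((isOpen_ovr i φ).mem_nhds (hr i hz)))
  · have h4 : ContDiffOn ℝ ∞ (fun z => C.e i (φ.symm (b z))) (ovc C i ψ) := by
      refine (h.sm' i).comp hb.contDiffOn fun z hz => ⟨h3 z hz.1, ?_⟩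
      rw [← h2 z hz.1]
      exact hz.2
    exact h4.congr fun z hz => by rw [h2 z hz.1]
  · have h4 := h.diffAt (hr i hz)
    have h5 : HasFDerivAt (fun z => a (φ ((C.e i).symm z)))
        ((fderiv ℝ a (φ ((C.e i).symm z))).comp (fderiv ℝ (fun z => φ ((C.e i).symm z)) z)) z :=
      HasFDerivAt.comp z (g := a) (f := fun z => φ ((C.e i).symm z))
        (ha'.contDiffAt.differentiableAt (by simp)).hasFDerivAt h4.hasFDerivAt
    have h6 := h5.congr_of_eventuallyEq (hev i z hz)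
    rw [h6.fderiv]
    simp only [ContinuousLinearMap.comp_apply]
    rw [h.lin i z (hr i hz), fderiv_real_I ha.differentiableAt]

theorem isManifold_of_jch [ChartedSpace (Cn d) Z] (h : ∀ φ ∈ atlas (Cn d) Z, JCh C φ) :
    IsManifold 𝓘(ℂ, Cn d) 1 Z := by
  apply isManifold_of_contDiffOn
  intro φ ψ hφ hψ
  have h1 : DifferentiableOn ℂ (fun z => ψ (φ.symm z)) {z | z ∈ φ.target ∧ φ.symm z ∈ ψ.source} :=
    (h φ hφ).holo (h ψ hψ)
  have h2 : IsOpen {z | z ∈ φ.target ∧ φ.symm z ∈ ψ.source} :=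
    φ.isOpen_inter_preimage_symm ψ.open_source
  have h3 := (Crest.Agent.R266.SCV.contDiffOn_omega_of_differentiableOn h2 h1).of_le
    (show (1 : ℕ∞ω) ≤ ω from le_top)
  simp only [modelWithCornersSelf_coe, modelWithCornersSelf_coe_symm, Function.comp_id,
    Function.id_comp, preimage_id_eq, id_eq, range_id, inter_univ]
  exact h3

/-- the charts of the good atlas are holomorphic charts -/
theorem cp_goodAtl [ChartedSpace (Cn d) Z] [IsManifold 𝓘(ℂ, Cn d) 1 Z]
    (h : ∀ φ ∈ atlas (Cn d) Z, JCh C φ) (G : GoodCover (Cn d) Z) : Cp C (goodAtl G) := by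
  intro a
  have key : ∀ i : Fin G.n, JCh C (G.ch i) := by
    intro i
    refine (h _ (G.e_mem i)).mk_of (ψ := G.ch i) ?_ (differentiable_aff (G.e i (G.c i)) G.r G.r_pos)
      (contDiff_aff _ _ _) (contDiff_aff_symm (G.e i (G.c i)) G.r G.r_pos) (fun x _ => rfl)
      (fun z _ => rfl) (fun z hz => ?_)
    · rw [G.ch_source]
      exact cball_subset_source _ _ _
    · rw [G.ch_target] at hz
      exact G.ball_sub_target i hz
  exact key a

/-- **the holomorphic atlas**: from the local Newlander-Nirenberg theorem -/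
theorem exists_atl [FiniteDimensional ℝ V] [CompactSpace Z] [T2Space Z] (hNN : NNat V d)
    (hC : C.Int) {κ : Type*} (O : κ → Set Z) (hO : ∀ k, IsOpen (O k)) (hOc : ∀ x, ∃ k, x ∈ O k) :
    ∃ A : Atl d Z, Finite A.ι ∧ GoodA A ∧ Nonempty (Part A) ∧
      (∀ a, ∃ k, (A.e a).source ⊆ O k) ∧ (∀ a, ∃ i, (A.e a).source ⊆ (C.e i).source) ∧ Cp C A := by
  classical
  have hex : ∀ x : Z, ∃ φ : OpenPartialHomeomorph Z (EuclideanSpace ℂ (Fin d)),
      JCh C φ ∧ x ∈ φ.source := by
    intro x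
    obtain ⟨i, hi⟩ := C.cover x
    obtain ⟨φ, h1, h2, -⟩ := exists_jch hNN hC x i hi
    exact ⟨φ, h1, h2⟩
  choose φ hφ hφs using hex
  let _ : ChartedSpace (Cn d) Z :=
    { atlas := Set.range φ
      chartAt := φ
      mem_chart_source := hφs
      chart_mem_atlas := fun x => ⟨x, rfl⟩ }
  have hat : ∀ ψ ∈ atlas (Cn d) Z, JCh C ψ := by
    rintro ψ ⟨x, rfl⟩
    exact hφ x
  have : IsManifold 𝓘(ℂ, Cn d) 1 Z := isManifold_of_jch hat
  obtain ⟨G, hG, hP, hF, hsub⟩ := exists_goodAtl (m := d) (M := Z) (κ := κ × C.ι)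
    (fun q => O q.1 ∩ (C.e q.2).source) (fun q => (hO q.1).inter (C.e q.2).open_source)
    (fun x => by
      obtain ⟨k, hk⟩ := hOc x
      obtain ⟨i, hi⟩ := C.cover x
      exact ⟨(k, i), hk, hi⟩)
  refine ⟨goodAtl G, hF, hG, hP, fun a => ?_, fun a => ?_, cp_goodAtl hat G⟩
  · obtain ⟨q, hq⟩ := hsub a
    exact ⟨q.1, hq.trans inter_subset_left⟩
  · obtain ⟨q, hq⟩ := hsub a
    exact ⟨q.2, hq.trans inter_subset_right⟩

end

end Crest.Agent.R260.NNB_580
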