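import Crest.Agent.R260.NNB1_580
import Crest.Agent.R275.Core_144

/-!
# Row 260, NN-ATL, part 3 (helper580): calculus in the holomorphic charts

`φ` is a holomorphic chart (`JCh C φ`), `i` a real chart.
* `JCh.contDiffAt_iff`, `JCh.differentiableAt_iff`, `JCh.fderiv_eq`, `JCh.fderiv_eq'`
* `JCh.holo_iff`     : `f` is complex differentiable in `φ` iff it is real differentiable with a
                       `J`-linear differential in the real chart
* `JCh.smOn_iff`, `JCh.smAt_iff`, `JCh.holOn_iff`, `JCh.holAt_iff` : `Atl.SmAt`, `HolAt`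
* `JCh.curve`        : maps into `Z`
* `JCh.X`            : the coordinate fields of `φ` in the real chart `i`
-/

set_option autoImplicit false

open Set Filter Topology Complex
open scoped ContDiff Manifold

namespace Crest.Agent.R260.NNB_580

open Crest.Agent.R260.ACM_580 Crest.Agent.R275.Geo Crest.Agent.R275.Core144

noncomputable section

variable {V Z : Type} [NormedAddCommGroup V] [NormedSpace ℝ V] [TopologicalSpace Z]
  {C : ACM V Z} {d : ℕ} {φ : OpenPartialHomeomorph Z (EuclideanSpace ℂ (Fin d))} {i : C.ι} {x : Z}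

namespace JCh

theorem contDiffAt_fwd (h : JCh C φ) (hx : x ∈ φ.source) (hi : x ∈ (C.e i).source) :
    ContDiffAt ℝ ∞ (fun z => φ ((C.e i).symm z)) (C.e i x) :=
  (h.sm i).contDiffAt ((isOpen_ovr i φ).mem_nhds (mem_ovr_of_source hx hi))

theorem contDiffAt_bwd (h : JCh C φ) (hx : x ∈ φ.source) (hi : x ∈ (C.e i).source) :
    ContDiffAt ℝ ∞ (fun z => C.e i (φ.symm z)) (φ x) :=
  (h.sm' i).contDiffAt ((isOpen_ovc i φ).mem_nhds (mem_ovc_of_source hx hi))

theorem ev_c {W : Type*} (f : Z → W) (hx : x ∈ φ.source) (hi : x ∈ (C.e i).source) :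
    (fun z => f (φ.symm z)) =ᶠ[𝓝 (φ x)] fun z => f ((C.e i).symm (C.e i (φ.symm z))) := by
  filter_upwards [(isOpen_ovc i φ).mem_nhds (mem_ovc_of_source hx hi)] with w hw
  rw [(C.e i).left_inv hw.2]

theorem ev_r {W : Type*} (f : Z → W) (hx : x ∈ φ.source) (hi : x ∈ (C.e i).source) :
    (fun z => f ((C.e i).symm z)) =ᶠ[𝓝 (C.e i x)] fun z => f (φ.symm (φ ((C.e i).symm z))) := by
  filter_upwards [(isOpen_ovr i φ).mem_nhds (mem_ovr_of_source hx hi)] with w hw
  rw [φ.left_inv hw.2]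

section real

variable {W : Type*} [NormedAddCommGroup W] [NormedSpace ℝ W] {f : Z → W}

theorem contDiffAt_iff (h : JCh C φ) (hx : x ∈ φ.source) (hi : x ∈ (C.e i).source) {n : ℕ∞} :
    ContDiffAt ℝ n (fun z => f (φ.symm z)) (φ x) ↔
      ContDiffAt ℝ n (fun z => f ((C.e i).symm z)) (C.e i x) := by
  have hn : ((n : ℕ∞) : WithTop ℕ∞) ≤ ∞ := by exact_mod_cast le_top
  constructor
  · intro hf
    refine ContDiffAt.congr_of_eventuallyEq ?_ (ev_r f hx hi)
    refine ContDiffAt.comp (C.e i x) (g := fun z => f (φ.symm z))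
      (f := fun z => φ ((C.e i).symm z)) ?_ ((h.contDiffAt_fwd hx hi).of_le hn)
    rw [(C.e i).left_inv hi]
    exact hf
  · intro hf
    refine ContDiffAt.congr_of_eventuallyEq ?_ (ev_c f hx hi)
    refine ContDiffAt.comp (φ x) (g := fun z => f ((C.e i).symm z))
      (f := fun z => C.e i (φ.symm z)) ?_ ((h.contDiffAt_bwd hx hi).of_le hn)
    rw [φ.left_inv hx]
    exact hf

theorem hasFDerivAt_c (h : JCh C φ) (hx : x ∈ φ.source) (hi : x ∈ (C.e i).source)
    {T : V →L[ℝ] W} (hf : HasFDerivAt (fun z => f ((C.e i).symm z)) T (C.e i x)) :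
    HasFDerivAt (fun z => f (φ.symm z))
      (T.comp (fderiv ℝ (fun z => C.e i (φ.symm z)) (φ x))) (φ x) := by
  refine HasFDerivAt.congr_of_eventuallyEq ?_ (ev_c f hx hi)
  refine HasFDerivAt.comp (φ x) (g := fun z => f ((C.e i).symm z))
      (f := fun z => C.e i (φ.symm z)) ?_ (h.diffAt' (mem_ovc_of_source hx hi)).hasFDerivAt
  rw [φ.left_inv hx]
  exact hf

theorem hasFDerivAt_r (h : JCh C φ) (hx : x ∈ φ.source) (hi : x ∈ (C.e i).source)
    {T : EuclideanSpace ℂ (Fin d) →L[ℝ] W} (hf : HasFDerivAt (fun z => f (φ.symm z)) T (φ x)) :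
    HasFDerivAt (fun z => f ((C.e i).symm z))
      (T.comp (fderiv ℝ (fun z => φ ((C.e i).symm z)) (C.e i x))) (C.e i x) := by
  refine HasFDerivAt.congr_of_eventuallyEq ?_ (ev_r f hx hi)
  refine HasFDerivAt.comp (C.e i x) (g := fun z => f (φ.symm z))
      (f := fun z => φ ((C.e i).symm z)) ?_ (h.diffAt (mem_ovr_of_source hx hi)).hasFDerivAt
  rw [(C.e i).left_inv hi]
  exact hf

theorem differentiableAt_iff (h : JCh C φ) (hx : x ∈ φ.source) (hi : x ∈ (C.e i).source) :
    DifferentiableAt ℝ (fun z => f (φ.symm z)) (φ x) ↔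
      DifferentiableAt ℝ (fun z => f ((C.e i).symm z)) (C.e i x) :=
  ⟨fun hf => (h.hasFDerivAt_r hx hi hf.hasFDerivAt).differentiableAt,
    fun hf => (h.hasFDerivAt_c hx hi hf.hasFDerivAt).differentiableAt⟩

theorem fderiv_c (h : JCh C φ) (hx : x ∈ φ.source) (hi : x ∈ (C.e i).source)
    (hf : DifferentiableAt ℝ (fun z => f ((C.e i).symm z)) (C.e i x))
    (v : EuclideanSpace ℂ (Fin d)) :
    fderiv ℝ (fun z => f (φ.symm z)) (φ x) v =
      fderiv ℝ (fun z => f ((C.e i).symm z)) (C.e i x)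
        (fderiv ℝ (fun z => C.e i (φ.symm z)) (φ x) v) := by
  rw [(h.hasFDerivAt_c hx hi hf.hasFDerivAt).fderiv]
  rfl

theorem fderiv_r (h : JCh C φ) (hx : x ∈ φ.source) (hi : x ∈ (C.e i).source)
    (hf : DifferentiableAt ℝ (fun z => f (φ.symm z)) (φ x)) (v : V) :
    fderiv ℝ (fun z => f ((C.e i).symm z)) (C.e i x) v =
      fderiv ℝ (fun z => f (φ.symm z)) (φ x)
        (fderiv ℝ (fun z => φ ((C.e i).symm z)) (C.e i x) v) := by
  rw [(h.hasFDerivAt_r hx hi hf.hasFDerivAt).fderiv]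
  rfl

/-- smoothness on an open set -/
theorem smOn_iff (h : JCh C φ) {U : Set Z} (hU : IsOpen U) :
    ContDiffOn ℝ ∞ (fun z => f (φ.symm z)) (φ.target ∩ φ.symm ⁻¹' U) ↔
      ∀ i, ContDiffOn ℝ ∞ (fun z => f ((C.e i).symm z)) {z | z ∈ ovr C i φ ∧ (C.e i).symm z ∈ U} := by
  have hoc : IsOpen (φ.target ∩ φ.symm ⁻¹' U) := φ.isOpen_inter_preimage_symm hU
  have hor : ∀ i, IsOpen {z | z ∈ ovr C i φ ∧ (C.e i).symm z ∈ U} := by
    intro i
    have h1 : {z | z ∈ ovr C i φ ∧ (C.e i).symm z ∈ U} =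
        (C.e i).target ∩ (C.e i).symm ⁻¹' (φ.source ∩ U) := by
      ext z
      simp only [ovr, mem_setOf_eq, mem_inter_iff, mem_preimage, and_assoc]
    rw [h1]
    exact (C.e i).isOpen_inter_preimage_symm (φ.open_source.inter hU)
  constructor
  · intro hf i z hz
    apply ContDiffAt.contDiffWithinAt
    have hi : (C.e i).symm z ∈ (C.e i).source := (C.e i).map_target hz.1.1
    have h1 := (h.contDiffAt_iff (f := f) (n := ⊤) hz.1.2 hi).1
    rw [(C.e i).right_inv hz.1.1] at h1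
    refine h1 (hf.contDiffAt (hoc.mem_nhds ⟨φ.map_source hz.1.2, ?_⟩))
    rw [mem_preimage, φ.left_inv hz.1.2]
    exact hz.2
  · intro hf z hz
    apply ContDiffAt.contDiffWithinAt
    obtain ⟨i, hi⟩ := C.cover (φ.symm z)
    have hs : φ.symm z ∈ φ.source := φ.map_target hz.1
    have h1 := (h.contDiffAt_iff (f := f) (n := ⊤) hs hi).2
    rw [φ.right_inv hz.1] at h1
    refine h1 ((hf i).contDiffAt ((hor i).mem_nhds ⟨mem_ovr_of_source hs hi, ?_⟩))
    rw [(C.e i).left_inv hi]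
    exact hz.2

theorem smOn_iff' (h : JCh C φ) :
    ContDiffOn ℝ ∞ (fun z => f (φ.symm z)) φ.target ↔
      ∀ i, ContDiffOn ℝ ∞ (fun z => f ((C.e i).symm z)) (ovr C i φ) := by
  have h1 := h.smOn_iff (f := f) (isOpen_univ)
  simpa using h1

end real

section complex

variable {W : Type*} [NormedAddCommGroup W] [NormedSpace ℂ W] {f : Z → W}

/-- complex differentiable in the holomorphic chart = real differentiable with a `J`-linear
differential in the real chart -/
theorem holo_iff (h : JCh C φ) (hx : x ∈ φ.source) (hi : x ∈ (C.e i).source) :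
    DifferentiableAt ℂ (fun z => f (φ.symm z)) (φ x) ↔
      DifferentiableAt ℝ (fun z => f ((C.e i).symm z)) (C.e i x) ∧
        ∀ v, fderiv ℝ (fun z => f ((C.e i).symm z)) (C.e i x) (C.J i (C.e i x) v) =
          I • fderiv ℝ (fun z => f ((C.e i).symm z)) (C.e i x) v := by
  constructor
  · intro hf
    have h1 : DifferentiableAt ℝ (fun z => f (φ.symm z)) (φ x) := hf.restrictScalars ℝ
    refine ⟨(h.differentiableAt_iff hx hi).1 h1, fun v => ?_⟩
    rw [h.fderiv_r hx hi h1, h.fderiv_r hx hi h1, h.lin i _ (mem_ovr_of_source hx hi)]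
    exact fderiv_real_I hf _
  · rintro ⟨hf, hJ⟩
    refine differentiableAt_of_real ((h.differentiableAt_iff hx hi).2 hf) fun v => ?_
    rw [h.fderiv_c hx hi hf, h.fderiv_c hx hi hf, h.lin' (mem_ovc_of_source hx hi),
      φ.left_inv hx, hJ]

/-- holomorphic on an open set -/
theorem holOn_iff (h : JCh C φ) {U : Set Z} (hU : IsOpen U) :
    DifferentiableOn ℂ (fun z => f (φ.symm z)) (φ.target ∩ φ.symm ⁻¹' U) ↔
      ∀ i, ∀ x ∈ φ.source, x ∈ (C.e i).source → x ∈ U →
        DifferentiableAt ℝ (fun z => f ((C.e i).symm z)) (C.e i x) ∧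
        ∀ v, fderiv ℝ (fun z => f ((C.e i).symm z)) (C.e i x) (C.J i (C.e i x) v) =
          I • fderiv ℝ (fun z => f ((C.e i).symm z)) (C.e i x) v := by
  have hoc : IsOpen (φ.target ∩ φ.symm ⁻¹' U) := φ.isOpen_inter_preimage_symm hU
  constructor
  · intro hf i x hx hi hxU
    rw [← h.holo_iff hx hi]
    refine hf.differentiableAt (hoc.mem_nhds ⟨φ.map_source hx, ?_⟩)
    rw [mem_preimage, φ.left_inv hx]
    exact hxU
  · intro hf z hz
    apply DifferentiableAt.differentiableWithinAt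
    obtain ⟨i, hi⟩ := C.cover (φ.symm z)
    have hs : φ.symm z ∈ φ.source := φ.map_target hz.1
    have h1 := (h.holo_iff (f := f) hs hi).2 (hf i _ hs hi hz.2)
    rw [φ.right_inv hz.1] at h1
    exact h1

/-- one real chart around every point is enough -/
theorem holOn_of (h : JCh C φ) {U : Set Z}
    (hf : ∀ x ∈ φ.source, x ∈ U → ∃ i, x ∈ (C.e i).source ∧
        DifferentiableAt ℝ (fun z => f ((C.e i).symm z)) (C.e i x) ∧
        ∀ v, fderiv ℝ (fun z => f ((C.e i).symm z)) (C.e i x) (C.J i (C.e i x) v) =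
          I • fderiv ℝ (fun z => f ((C.e i).symm z)) (C.e i x) v) :
    DifferentiableOn ℂ (fun z => f (φ.symm z)) (φ.target ∩ φ.symm ⁻¹' U) := by
  intro z hz
  apply DifferentiableAt.differentiableWithinAt
  have hs : φ.symm z ∈ φ.source := φ.map_target hz.1
  obtain ⟨i, hi, h0⟩ := hf _ hs hz.2
  have h1 := (h.holo_iff (f := f) hs hi).2 h0
  rw [φ.right_inv hz.1] at h1
  exact h1

/-- maps into `Z` with a `J`-linear differential are holomorphic in the chart `φ` -/
theorem curve (h : JCh C φ) {γ : W → Z} {t : W} (hγ : ContinuousAt γ t) (hx : γ t ∈ φ.source)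
    (hi : γ t ∈ (C.e i).source) (hd : DifferentiableAt ℝ (fun s => C.e i (γ s)) t)
    (hJ : ∀ v, fderiv ℝ (fun s => C.e i (γ s)) t (I • v) =
      C.J i (C.e i (γ t)) (fderiv ℝ (fun s => C.e i (γ s)) t v)) :
    DifferentiableAt ℂ (fun s => φ (γ s)) t := by
  have h1 : HasFDerivAt (fun s => φ ((C.e i).symm (C.e i (γ s))))
      ((fderiv ℝ (fun z => φ ((C.e i).symm z)) (C.e i (γ t))).comp
        (fderiv ℝ (fun s => C.e i (γ s)) t)) t :=
    HasFDerivAt.comp t (g := fun z => φ ((C.e i).symm z)) (f := fun s => C.e i (γ s))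
      (h.diffAt (mem_ovr_of_source hx hi)).hasFDerivAt hd.hasFDerivAt
  have h2 : (fun s => φ (γ s)) =ᶠ[𝓝 t] fun s => φ ((C.e i).symm (C.e i (γ s))) := by
    filter_upwards [hγ ((C.e i).open_source.mem_nhds hi)] with s hs
    rw [(C.e i).left_inv hs]
  have h3 := h1.congr_of_eventuallyEq h2
  refine differentiableAt_of_real h3.differentiableAt fun v => ?_
  rw [h3.fderiv]
  simp only [ContinuousLinearMap.comp_apply]
  rw [hJ, h.lin i _ (mem_ovr_of_source hx hi)]

end complex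

/-! ### the coordinate fields -/

/-- the field `∂/∂v` of the holomorphic chart, in the real chart `i` -/
def X (C : ACM V Z) (i : C.ι) (φ : OpenPartialHomeomorph Z (EuclideanSpace ℂ (Fin d)))
    (v : EuclideanSpace ℂ (Fin d)) (z : V) : V :=
  fderiv ℝ (fun z => C.e i (φ.symm z)) (φ ((C.e i).symm z)) v

theorem X_I (h : JCh C φ) {z : V} (hz : z ∈ ovr C i φ) (v : EuclideanSpace ℂ (Fin d)) :
    X C i φ (I • v) z = C.J i z (X C i φ v z) := by
  have h1 := h.lin' (swap' hz) v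
  rw [φ.left_inv hz.2, (C.e i).right_inv hz.1] at h1
  exact h1

theorem fderiv_X (h : JCh C φ) {z : V} (hz : z ∈ ovr C i φ) (v : EuclideanSpace ℂ (Fin d)) :
    fderiv ℝ (fun z => φ ((C.e i).symm z)) z (X C i φ v z) = v := by
  have h1 := h.inv_left (swap' hz) v
  rw [φ.left_inv hz.2, (C.e i).right_inv hz.1] at h1
  exact h1

theorem X_fderiv (h : JCh C φ) {z : V} (hz : z ∈ ovr C i φ) (v : V) :
    X C i φ (fderiv ℝ (fun z => φ ((C.e i).symm z)) z v) z = v := h.inv_right hz v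

theorem X_smooth (h : JCh C φ) (v : EuclideanSpace ℂ (Fin d)) :
    ContDiffOn ℝ ∞ (X C i φ v) (ovr C i φ) := by
  have h1 : ContDiffOn ℝ ∞ (fderiv ℝ (fun z => C.e i (φ.symm z))) (ovc C i φ) :=
    (h.sm' i).fderiv_of_isOpen (isOpen_ovc i φ) (by simp)
  have h2 : ContDiffOn ℝ ∞ (fun z => fderiv ℝ (fun z => C.e i (φ.symm z)) (φ ((C.e i).symm z)))
      (ovr C i φ) := h1.comp (h.sm i) fun z hz => swap' hz
  exact h2.clm_apply contDiffOn_const

/-- derivative of a function along the coordinate fields -/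
theorem fderiv_symm_apply {W : Type*} [NormedAddCommGroup W] [NormedSpace ℝ W] {f : Z → W}
    (h : JCh C φ) (hx : x ∈ φ.source) (hi : x ∈ (C.e i).source)
    (hf : DifferentiableAt ℝ (fun z => f ((C.e i).symm z)) (C.e i x))
    (v : EuclideanSpace ℂ (Fin d)) :
    fderiv ℝ (fun z => f (φ.symm z)) (φ x) v =
      fderiv ℝ (fun z => f ((C.e i).symm z)) (C.e i x) (X C i φ v (C.e i x)) := by
  rw [h.fderiv_c hx hi hf]
  unfold X
  rw [(C.e i).left_inv hi]

end JCh

/-! ### `Atl` -/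

section atl

variable {A : Atl d Z} {a : A.ι}

theorem smAt_iff (h : JCh C (A.e a)) {W : Type*} [NormedAddCommGroup W] [NormedSpace ℝ W]
    {f : Z → W} : A.SmAt a f ↔
      ∀ i, ContDiffOn ℝ ∞ (fun z => f ((C.e i).symm z)) (ovr C i (A.e a)) := h.smOn_iff'

theorem holAt_iff (h : JCh C (A.e a)) {U : Set Z} (hU : IsOpen U) {f : Z → ℂ} :
    HolAt A a U f ↔ ∀ i, ∀ x ∈ (A.e a).source, x ∈ (C.e i).source → x ∈ U →
        DifferentiableAt ℝ (fun z => f ((C.e i).symm z)) (C.e i x) ∧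
        ∀ v, fderiv ℝ (fun z => f ((C.e i).symm z)) (C.e i x) (C.J i (C.e i x) v) =
          I • fderiv ℝ (fun z => f ((C.e i).symm z)) (C.e i x) v := h.holOn_iff hU

theorem holAt_of (h : JCh C (A.e a)) {U : Set Z} {f : Z → ℂ}
    (hf : ∀ x ∈ (A.e a).source, x ∈ U → ∃ i, x ∈ (C.e i).source ∧
        DifferentiableAt ℝ (fun z => f ((C.e i).symm z)) (C.e i x) ∧
        ∀ v, fderiv ℝ (fun z => f ((C.e i).symm z)) (C.e i x) (C.J i (C.e i x) v) =
          I • fderiv ℝ (fun z => f ((C.e i).symm z)) (C.e i x) v) : HolAt A a U f :=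
  h.holOn_of hf

end atl

end

end Crest.Agent.R260.NNB_580
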