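import Crest.Agent.R260.NNB2_580

/-!
# Row 260, NN-ATL, part 4 (helper580): the holomorphic atlas from an arbitrary supply of charts

`LocF C i W F`   : `F` is a local holomorphic chart, read in the real chart `i`, on `W`
`exists_jch_of`  : the chart of `Z` given by `LocF`
`exists_atl_of`  : the good atlas subordinate to a supply of `LocF` with any property `P i W F`;
                   every chart is `c • F (C.e i x) + v`, `c > 0`.
-/

set_option autoImplicit false

open Set Filter Topology Complex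
open scoped ContDiff Manifold

namespace Crest.Agent.R260.NNB_580

open Crest.Agent.R260.ACM_580 Crest.Agent.R275.Geo Crest.Agent.R275.GC293

noncomputable section

variable {V Z : Type} [NormedAddCommGroup V] [NormedSpace ℝ V] [TopologicalSpace Z] {d : ℕ}

/-- `F` is a local holomorphic chart on `W`, read in the real chart `i` -/
structure LocF (C : ACM V Z) (i : C.ι) (W : Set V) (F : V → EuclideanSpace ℂ (Fin d)) : Prop where
  isOpen : IsOpen W
  sub : W ⊆ (C.e i).target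
  sm : ContDiffOn ℝ ∞ F W
  bij : ∀ y ∈ W, Function.Bijective (fderiv ℝ F y)
  lin : ∀ y ∈ W, ∀ v, fderiv ℝ F y (C.J i y v) = I • fderiv ℝ F y v

theorem exists_jch_of [FiniteDimensional ℝ V] {C : ACM V Z} {i : C.ι} {W : Set V}
    {F : V → EuclideanSpace ℂ (Fin d)} (h : LocF C i W F) {x : Z} (hi : x ∈ (C.e i).source)
    (hpW : C.e i x ∈ W) :
    ∃ φ : OpenPartialHomeomorph Z (EuclideanSpace ℂ (Fin d)), JCh C φ ∧ x ∈ φ.source ∧
      φ.source ⊆ (C.e i).source ∧ (∀ y ∈ φ.source, C.e i y ∈ W) ∧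
        ∀ y ∈ φ.source, φ y = F (C.e i y) := by
  have : CompleteSpace V := FiniteDimensional.complete ℝ V
  have hW := h.isOpen
  have hF := h.sm
  have hFa : ∀ y ∈ W, ContDiffAt ℝ ∞ F y := fun y hy => hF.contDiffAt (hW.mem_nhds hy)
  have hFd : ∀ y ∈ W, ∃ T : V ≃L[ℝ] EuclideanSpace ℂ (Fin d),
      HasFDerivAt F (T : V →L[ℝ] EuclideanSpace ℂ (Fin d)) y := by
    intro y hy
    have h1 := ((hFa y hy).differentiableAt (by simp)).hasFDerivAt
    refine ⟨ContinuousLinearEquiv.ofBijective (fderiv ℝ F y)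
      (LinearMap.ker_eq_bot.2 (h.bij y hy).1) (LinearMap.range_eq_top.2 (h.bij y hy).2), ?_⟩
    rw [ContinuousLinearEquiv.coe_ofBijective]
    exact h1
  obtain ⟨T, hT⟩ := hFd _ hpW
  let G0 := (hFa _ hpW).toOpenPartialHomeomorph F hT (by simp)
  let G := G0.restrOpen W hW
  have hG : ∀ y, G y = F y := fun y => rfl
  have hGs : G.source = G0.source ∩ W := G0.restrOpen_source W hW
  let φ : OpenPartialHomeomorph Z (EuclideanSpace ℂ (Fin d)) := (C.e i).trans G
  have hφs : φ.source = (C.e i).source ∩ C.e i ⁻¹' G.source :=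
    (C.e i).trans_source G
  refine ⟨φ, jch_of_local φ fun y hy => ?_, ?_, ?_, fun y hy => ?_, fun y _ => rfl⟩
  · rw [hφs] at hy
    have hyi : y ∈ (C.e i).source := hy.1
    have hyG : C.e i y ∈ G.source := hy.2
    have hyW : C.e i y ∈ W := by rw [hGs] at hyG; exact hyG.2
    have hcoe : (fun z => φ ((C.e i).symm z)) =ᶠ[𝓝 (C.e i y)] F := by
      filter_upwards [(C.e i).open_target.mem_nhds ((C.e i).map_source hyi)] with w hw
      show G (C.e i ((C.e i).symm w)) = F w
      rw [(C.e i).right_inv hw, hG]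
    refine ⟨i, hyi, (hFa _ hyW).congr_of_eventuallyEq hcoe, ?_, fun v => ?_⟩
    · have h1 : (fun z => C.e i (φ.symm z)) =ᶠ[𝓝 (φ y)] G.symm := by
        have h2 : φ y ∈ φ.target := φ.map_source (by rw [hφs]; exact hy)
        filter_upwards [φ.open_target.mem_nhds h2] with w hw
        show C.e i ((C.e i).symm (G.symm w)) = G.symm w
        have h3 : w ∈ G.target ∩ G.symm ⁻¹' (C.e i).target := by
          have := (C.e i).trans_target G ▸ hw
          exact this
        exact (C.e i).right_inv h3.2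
      refine ContDiffAt.congr_of_eventuallyEq ?_ h1
      have h2 : φ y = G (C.e i y) := rfl
      obtain ⟨S, hS⟩ := hFd _ hyW
      have h3 : G (C.e i y) ∈ G.target := G.map_source hyG
      rw [h2]
      refine G.contDiffAt_symm (f₀' := S) h3 ?_ ?_
      · rw [G.left_inv hyG]; exact hS
      · rw [G.left_inv hyG]; exact hFa _ hyW
    · rw [hcoe.fderiv_eq]
      exact h.lin _ hyW v
  · rw [hφs]
    refine ⟨hi, ?_⟩
    show C.e i x ∈ G.source
    rw [hGs]
    exact ⟨(hFa _ hpW).mem_toOpenPartialHomeomorph_source hT (by simp), hpW⟩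
  · rw [hφs]
    exact inter_subset_left
  · rw [hφs] at hy
    have hyG : C.e i y ∈ G.source := hy.2
    rw [hGs] at hyG
    exact hyG.2

/-- the supply of charts given by the local Newlander-Nirenberg theorem -/
theorem exists_locF {C : ACM V Z} (hNN : NNat V d) (hC : C.Int) (x : Z) :
    ∃ i, x ∈ (C.e i).source ∧ ∃ (W : Set V) (F : V → EuclideanSpace ℂ (Fin d)),
      C.e i x ∈ W ∧ LocF C i W F := by
  obtain ⟨i, hi⟩ := C.cover x
  obtain ⟨W, hW, hpW, hWU, F, hF, hFW⟩ := hNN (C.e i).target (C.e i).open_target (C.e i x)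
    ((C.e i).map_source hi) (C.J i) (C.J_sm i) (C.J_sq i) (hC i)
  exact ⟨i, hi, W, F, hpW, hW, hWU, hF, fun y hy => (hFW y hy).1, fun y hy => (hFW y hy).2⟩

/-- restriction of a local chart -/
theorem LocF.mono {C : ACM V Z} {i : C.ι} {W W' : Set V} {F : V → EuclideanSpace ℂ (Fin d)}
    (h : LocF C i W F) (hW' : IsOpen W') (hs : W' ⊆ W) : LocF C i W' F :=
  ⟨hW', hs.trans h.sub, h.sm.mono hs, fun y hy => h.bij y (hs hy), fun y hy => h.lin y (hs hy)⟩

/-- composition of a local chart with a complex linear automorphism -/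
theorem LocF.comp_clm {C : ACM V Z} {i : C.ι} {W : Set V} {F : V → EuclideanSpace ℂ (Fin d)}
    (h : LocF C i W F) (T : EuclideanSpace ℂ (Fin d) ≃L[ℂ] EuclideanSpace ℂ (Fin d)) :
    LocF C i W (fun y => T (F y)) := by
  have h1 : ∀ y ∈ W, HasFDerivAt (fun y => T (F y))
      (((T : EuclideanSpace ℂ (Fin d) →L[ℂ] EuclideanSpace ℂ (Fin d)).restrictScalars ℝ).comp
        (fderiv ℝ F y)) y := by
    intro y hy
    have h2 : HasFDerivAt T ((T : EuclideanSpace ℂ (Fin d) →L[ℂ] EuclideanSpace ℂ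
        (Fin d)).restrictScalars ℝ) (F y) := T.hasFDerivAt.restrictScalars ℝ
    exact h2.comp y
      ((h.sm.contDiffAt (h.isOpen.mem_nhds hy)).differentiableAt (by simp)).hasFDerivAt
  refine ⟨h.isOpen, h.sub, ?_, fun y hy => ?_, fun y hy v => ?_⟩
  · have h2 : ContDiff ℝ ∞ T := by
      have : ContDiff ℂ ∞ T := T.contDiff
      exact this.restrict_scalars ℝ
    exact h2.comp_contDiffOn h.sm
  · rw [(h1 y hy).fderiv]
    exact T.bijective.comp (h.bij y hy)
  · rw [(h1 y hy).fderiv]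
    simp only [ContinuousLinearMap.comp_apply, ContinuousLinearMap.coe_restrictScalars',
      ContinuousLinearEquiv.coe_coe]
    rw [h.lin y hy, map_smul]

/-- **the holomorphic atlas** from an arbitrary supply of local holomorphic charts -/
theorem exists_atl_of [FiniteDimensional ℝ V] [CompactSpace Z] [T2Space Z] (C : ACM V Z)
    (P : C.ι → Set V → (V → EuclideanSpace ℂ (Fin d)) → Prop)
    (hP : ∀ x : Z, ∃ i, x ∈ (C.e i).source ∧ ∃ (W : Set V) (F : V → EuclideanSpace ℂ (Fin d)),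
      C.e i x ∈ W ∧ LocF C i W F ∧ P i W F)
    {κ : Type*} (O : κ → Set Z) (hO : ∀ k, IsOpen (O k)) (hOc : ∀ x, ∃ k, x ∈ O k) :
    ∃ A : Atl d Z, Finite A.ι ∧ GoodA A ∧ Nonempty (Part A) ∧
      (∀ a, ∃ k, (A.e a).source ⊆ O k) ∧ Cp C A ∧
      ∀ a, ∃ (i : C.ι) (W : Set V) (F : V → EuclideanSpace ℂ (Fin d)), LocF C i W F ∧ P i W F ∧
        (A.e a).source ⊆ (C.e i).source ∧ (∀ x ∈ (A.e a).source, C.e i x ∈ W) ∧
        ∃ c : ℝ, 0 < c ∧ ∃ v : EuclideanSpace ℂ (Fin d), ∀ x ∈ (A.e a).source,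
          A.e a x = (c : ℂ) • F (C.e i x) + v := by
  classical
  have hex : ∀ x : Z, ∃ φ : OpenPartialHomeomorph Z (EuclideanSpace ℂ (Fin d)),
      (JCh C φ ∧ ∃ (i : C.ι) (W : Set V) (F : V → EuclideanSpace ℂ (Fin d)), LocF C i W F ∧
        P i W F ∧ φ.source ⊆ (C.e i).source ∧ (∀ y ∈ φ.source, C.e i y ∈ W) ∧
        ∀ y ∈ φ.source, φ y = F (C.e i y)) ∧ x ∈ φ.source := by
    intro x
    obtain ⟨i, hi, W, F, hW, hF, hPF⟩ := hP x
    obtain ⟨φ, h1, h2, h3, h4, h5⟩ := exists_jch_of hF hi hW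
    exact ⟨φ, ⟨h1, i, W, F, hF, hPF, h3, h4, h5⟩, h2⟩
  choose φ hφ hφs using hex
  let _ : ChartedSpace (Cn d) Z :=
    { atlas := Set.range φ
      chartAt := φ
      mem_chart_source := hφs
      chart_mem_atlas := fun x => ⟨x, rfl⟩ }
  have hat : ∀ ψ ∈ atlas (Cn d) Z, JCh C ψ := by
    rintro ψ ⟨x, rfl⟩
    exact (hφ x).1
  have : IsManifold 𝓘(ℂ, Cn d) 1 Z := isManifold_of_jch hat
  obtain ⟨G, hG, hP', hF, hsub⟩ := exists_goodAtl (m := d) (M := Z) O hO hOc
  refine ⟨goodAtl G, hF, hG, hP', hsub, cp_goodAtl hat G, ?_⟩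
  have key : ∀ a : Fin G.n, ∃ (i : C.ι) (W : Set V) (F : V → EuclideanSpace ℂ (Fin d)),
      LocF C i W F ∧ P i W F ∧
        (G.ch a).source ⊆ (C.e i).source ∧ (∀ x ∈ (G.ch a).source, C.e i x ∈ W) ∧
        ∃ c : ℝ, 0 < c ∧ ∃ v : EuclideanSpace ℂ (Fin d), ∀ x ∈ (G.ch a).source,
          G.ch a x = (c : ℂ) • F (C.e i x) + v := by
    intro a
    obtain ⟨y, hy⟩ := G.e_mem a
    obtain ⟨i, W, F, h1, h2, h3, h4, h5⟩ := (hφ y).2
    rw [hy] at h3 h4 h5
    have hs : (G.ch a).source ⊆ (G.e a).source := by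
      rw [G.ch_source]
      exact cball_subset_source _ _ _
    refine ⟨i, W, F, h1, h2, hs.trans h3, fun x hx => h4 x (hs hx), (2 * G.r)⁻¹,
      by have := G.r_pos; positivity,
      ctr d - (((2 * G.r)⁻¹ : ℝ) : ℂ) • G.e a (G.c a), fun x hx => ?_⟩
    rw [G.ch_apply, aff_apply, h5 x (hs hx), Complex.ofReal_inv, smul_sub]
    abel
  exact key

end

end Crest.Agent.R260.NNB_580
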