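import Mathlib

/-!
Friedrichs' commutator lemma in `L²` (part 1): scaled mollifiers and the Schur/Young bound.
-/

set_option autoImplicit false
set_option linter.unusedSectionVars false

namespace Crest.Agent.R260.NNF_664

open MeasureTheory Set Filter Topology Module
open scoped ENNReal NNReal ContDiff

variable {E : Type*} [NormedAddCommGroup E] [NormedSpace ℝ E] [FiniteDimensional ℝ E]
  [MeasurableSpace E] [BorelSpace E]

/-- a mollifier: smooth, nonnegative, supported in the unit ball, of integral one. -/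
structure Moll (μ : Measure E) (η : E → ℝ) : Prop where
  smooth : ContDiff ℝ ∞ η
  nonneg : ∀ x, 0 ≤ η x
  supp : ∀ x, 1 ≤ ‖x‖ → η x = 0
  int : ∫ x, η x ∂μ = 1

/-- the scaled mollifier. -/
noncomputable def sc (η : E → ℝ) (ε : ℝ) (x : E) : ℝ :=
  (ε ^ finrank ℝ E)⁻¹ * η (ε⁻¹ • x)

section basic

variable {μ : Measure E} {η : E → ℝ} {ε : ℝ}

theorem exists_moll (μ : Measure E) [μ.IsAddHaarMeasure] : ∃ η : E → ℝ, Moll μ η := by
  let b : ContDiffBump (0 : E) := ⟨1/2, 1, by norm_num, by norm_num⟩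
  refine ⟨b.normed μ, b.contDiff_normed, fun x => b.nonneg_normed x, fun x hx => ?_,
    b.integral_normed⟩
  have h : x ∉ Function.support (b.normed μ) := by
    rw [b.support_normed_eq]
    simpa [b] using hx
  simpa using h

theorem sc_smooth (h : Moll μ η) (ε : ℝ) : ContDiff ℝ ∞ (sc η ε) := by
  unfold sc
  exact contDiff_const.mul (h.smooth.comp (contDiff_const_smul _))

theorem sc_nonneg (h : Moll μ η) (hε : 0 < ε) (x : E) : 0 ≤ sc η ε x := by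
  unfold sc
  have := h.nonneg (ε⁻¹ • x)
  positivity

theorem sc_supp (h : Moll μ η) (hε : 0 < ε) {x : E} (hx : ε ≤ ‖x‖) : sc η ε x = 0 := by
  unfold sc
  rw [h.supp, mul_zero]
  rw [norm_smul, norm_inv, Real.norm_of_nonneg hε.le]
  rw [inv_mul_eq_div, le_div_iff₀ hε]
  simpa using hx

theorem sc_hcs (h : Moll μ η) (hε : 0 < ε) : HasCompactSupport (sc η ε) := by
  refine HasCompactSupport.intro (isCompact_closedBall (0 : E) ε) fun x hx => sc_supp h hε ?_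
  simp only [Metric.mem_closedBall, dist_zero_right, not_le] at hx
  exact hx.le

theorem sc_int [μ.IsAddHaarMeasure] (h : Moll μ η) (hε : 0 < ε) : ∫ x, sc η ε x ∂μ = 1 := by
  unfold sc
  rw [integral_const_mul, Measure.integral_comp_inv_smul, h.int]
  rw [abs_of_pos (by positivity), smul_eq_mul, mul_one]
  exact inv_mul_cancel₀ (by positivity)

theorem fderiv_sc (h : Moll μ η) (ε : ℝ) (x : E) :
    fderiv ℝ (sc η ε) x = ((ε ^ finrank ℝ E)⁻¹ * ε⁻¹) • fderiv ℝ η (ε⁻¹ • x) := by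
  have hd : Differentiable ℝ η := h.smooth.differentiable (by norm_num)
  have h1 : HasFDerivAt (fun x : E => η (ε⁻¹ • x))
      ((fderiv ℝ η (ε⁻¹ • x)).comp (ε⁻¹ • ContinuousLinearMap.id ℝ E)) x :=
    ((hd _).hasFDerivAt).comp x ((hasFDerivAt_id x).const_smul ε⁻¹)
  have h2 := (h1.const_mul ((ε ^ finrank ℝ E)⁻¹)).fderiv
  unfold sc
  rw [h2]
  ext v
  simp
  ring

/-- the `L¹` weight of the derivative. -/
noncomputable def wt (μ : Measure E) (η : E → ℝ) : ℝ := ∫ w, ‖w‖ * ‖fderiv ℝ η w‖ ∂μ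

theorem wt_int [μ.IsAddHaarMeasure] (h : Moll μ η) (hε : 0 < ε) :
    ∫ x, ‖x‖ * ‖fderiv ℝ (sc η ε) x‖ ∂μ = wt μ η := by
  have h1 : ∀ x : E, ‖x‖ * ‖fderiv ℝ (sc η ε) x‖
      = (ε ^ finrank ℝ E)⁻¹ * (‖ε⁻¹ • x‖ * ‖fderiv ℝ η (ε⁻¹ • x)‖) := by
    intro x
    rw [fderiv_sc h, norm_smul, norm_smul, norm_mul, norm_inv, norm_inv, norm_pow,
      Real.norm_of_nonneg hε.le]
    ring
  simp_rw [h1]
  rw [integral_const_mul,
    Measure.integral_comp_inv_smul μ (fun w => ‖w‖ * ‖fderiv ℝ η w‖) ε, wt]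
  rw [abs_of_pos (by positivity), smul_eq_mul, ← mul_assoc]
  rw [inv_mul_cancel₀ (by positivity), one_mul]

theorem integrable_sc [IsFiniteMeasureOnCompacts μ] (h : Moll μ η) (hε : 0 < ε) :
    Integrable (sc η ε) μ :=
  (sc_smooth h ε).continuous.integrable_of_hasCompactSupport (sc_hcs h hε)

theorem integrable_wt [IsFiniteMeasureOnCompacts μ] (h : Moll μ η) (hε : 0 < ε) :
    Integrable (fun x => ‖x‖ * ‖fderiv ℝ (sc η ε) x‖) μ := by
  refine Continuous.integrable_of_hasCompactSupport ?_ ?_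
  · exact continuous_norm.mul ((sc_smooth h ε).continuous_fderiv (by norm_num)).norm
  · exact ((sc_hcs h hε).fderiv ℝ).norm.mul_left

end basic

section schur

variable {μ : Measure E}

/-- Young's inequality `L¹ * L² → L²` in `lintegral` form. -/
theorem young2 [μ.IsAddHaarMeasure] {k F : E → ℝ≥0∞} (hk : Measurable k)
    (hk1 : ∫⁻ z, k z ∂μ ≠ ⊤) (hF : AEMeasurable F μ) :
    ∫⁻ x, (∫⁻ y, k (x - y) * F y ∂μ) ^ 2 ∂μ ≤ (∫⁻ z, k z ∂μ) ^ 2 * ∫⁻ y, F y ^ 2 ∂μ := by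
  have hpt : ∀ x, (∫⁻ y, k (x - y) * F y ∂μ) ^ 2
      ≤ (∫⁻ z, k z ∂μ) * ∫⁻ y, k (x - y) * F y ^ 2 ∂μ := by
    intro x
    have hkx : Measurable fun y => k (x - y) := hk.comp (measurable_const.sub measurable_id)
    have h1 := ENNReal.lintegral_mul_le_Lp_mul_Lq μ Real.HolderConjugate.two_two
      (f := fun y => k (x - y) ^ (1 / 2 : ℝ)) (g := fun y => k (x - y) ^ (1 / 2 : ℝ) * F y)
      (hkx.pow_const _).aemeasurable ((hkx.pow_const _).aemeasurable.mul hF)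
    have e1 : ∀ y, ((fun y => k (x - y) ^ (1 / 2 : ℝ)) * (fun y => k (x - y) ^ (1 / 2 : ℝ) * F y)) y
        = k (x - y) * F y := by
      intro y
      simp only [Pi.mul_apply]
      rw [← mul_assoc, ← ENNReal.rpow_add_of_nonneg _ _ (by norm_num) (by norm_num)]
      norm_num
    have e2 : ∀ y, (k (x - y) ^ (1 / 2 : ℝ)) ^ (2 : ℝ) = k (x - y) := by
      intro y
      rw [← ENNReal.rpow_mul]
      norm_num
    have e3 : ∀ y, (k (x - y) ^ (1 / 2 : ℝ) * F y) ^ (2 : ℝ) = k (x - y) * F y ^ 2 := by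
      intro y
      rw [ENNReal.mul_rpow_of_nonneg _ _ (by norm_num), e2]
      norm_num
    simp_rw [e1, e2, e3] at h1
    rw [lintegral_sub_left_eq_self (fun z => k z) x] at h1
    calc (∫⁻ y, k (x - y) * F y ∂μ) ^ 2
        ≤ ((∫⁻ z, k z ∂μ) ^ (1 / 2 : ℝ) * (∫⁻ y, k (x - y) * F y ^ 2 ∂μ) ^ (1 / 2 : ℝ)) ^ 2 := by
          gcongr
      _ = _ := by
          rw [mul_pow, ← ENNReal.rpow_natCast, ← ENNReal.rpow_natCast, ← ENNReal.rpow_mul,
            ← ENNReal.rpow_mul]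
          norm_num
  have hm : AEMeasurable (Function.uncurry fun x y => k (x - y) * F y ^ 2) (μ.prod μ) := by
    refine AEMeasurable.mul ?_ ?_
    · exact (hk.comp (measurable_fst.sub measurable_snd)).aemeasurable
    · exact (hF.comp_snd).pow_const 2
  calc ∫⁻ x, (∫⁻ y, k (x - y) * F y ∂μ) ^ 2 ∂μ
      ≤ ∫⁻ x, (∫⁻ z, k z ∂μ) * ∫⁻ y, k (x - y) * F y ^ 2 ∂μ ∂μ := lintegral_mono hpt
    _ = (∫⁻ z, k z ∂μ) * ∫⁻ x, ∫⁻ y, k (x - y) * F y ^ 2 ∂μ ∂μ := lintegral_const_mul' _ _ hk1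
    _ = (∫⁻ z, k z ∂μ) * ∫⁻ y, ∫⁻ x, k (x - y) * F y ^ 2 ∂μ ∂μ := by
        rw [lintegral_lintegral_swap hm]
    _ = (∫⁻ z, k z ∂μ) * ∫⁻ y, (∫⁻ z, k z ∂μ) * F y ^ 2 ∂μ := by
        congr 1
        refine lintegral_congr fun y => ?_
        have h3 : ∫⁻ x, k (x - y) * F y ^ 2 ∂μ = (∫⁻ x, k (x - y) ∂μ) * F y ^ 2 :=
          lintegral_mul_const (μ := μ) (F y ^ 2) (f := fun x => k (x - y))
            (hk.comp (measurable_id.sub measurable_const))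
        rw [h3, lintegral_sub_right_eq_self (fun z => k z) y]
    _ = (∫⁻ z, k z ∂μ) ^ 2 * ∫⁻ y, F y ^ 2 ∂μ := by
        rw [lintegral_const_mul' _ _ hk1, sq, mul_assoc]

/-- Schur's test for kernels dominated by a convolution kernel, `eLpNorm` form. -/
theorem schur [μ.IsAddHaarMeasure] {G : Type*} [NormedAddCommGroup G] {T : E → G} {k : E → ℝ}
    {f : E → G} {M : ℝ} (hk : Measurable k) (hk0 : ∀ z, 0 ≤ k z) (hki : Integrable k μ)
    (hM : ∫ z, k z ∂μ ≤ M) (hf : AEStronglyMeasurable f μ)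
    (hT : ∀ x, ‖T x‖ₑ ≤ ∫⁻ y, ENNReal.ofReal (k (x - y)) * ‖f y‖ₑ ∂μ) :
    eLpNorm T 2 μ ≤ ENNReal.ofReal M * eLpNorm f 2 μ := by
  have hk1 : ∫⁻ z, ENNReal.ofReal (k z) ∂μ = ENNReal.ofReal (∫ z, k z ∂μ) :=
    (ofReal_integral_eq_lintegral_ofReal hki (Eventually.of_forall hk0)).symm
  have h0 := young2 (μ := μ) (k := fun z => ENNReal.ofReal (k z)) (F := fun y => ‖f y‖ₑ)
    hk.ennreal_ofReal (by rw [hk1]; exact ENNReal.ofReal_ne_top) hf.enorm
  have h1 : ∫⁻ x, ‖T x‖ₑ ^ 2 ∂μ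
      ≤ (ENNReal.ofReal M) ^ 2 * ∫⁻ y, ‖f y‖ₑ ^ 2 ∂μ := by
    calc ∫⁻ x, ‖T x‖ₑ ^ 2 ∂μ
        ≤ ∫⁻ x, (∫⁻ y, ENNReal.ofReal (k (x - y)) * ‖f y‖ₑ ∂μ) ^ 2 ∂μ :=
          lintegral_mono fun x => by gcongr; exact hT x
      _ ≤ _ := h0
      _ ≤ _ := by
          rw [hk1]
          gcongr
  rw [eLpNorm_eq_lintegral_rpow_enorm_toReal (by norm_num) (by norm_num),
    eLpNorm_eq_lintegral_rpow_enorm_toReal (by norm_num) (by norm_num)]
  simp only [ENNReal.toReal_ofNat, ENNReal.rpow_ofNat]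
  calc (∫⁻ x, ‖T x‖ₑ ^ 2 ∂μ) ^ (1 / (2 : ℝ))
      ≤ ((ENNReal.ofReal M) ^ 2 * ∫⁻ y, ‖f y‖ₑ ^ 2 ∂μ) ^ (1 / (2 : ℝ)) := by gcongr
    _ = _ := by
        rw [ENNReal.mul_rpow_of_nonneg _ _ (by norm_num), ← ENNReal.rpow_natCast,
          ← ENNReal.rpow_mul]
        norm_num

end schur

end Crest.Agent.R260.NNF_664
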