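import Crest.Agent.R260.NNF1_664

/-!
Friedrichs' commutator lemma in `L²` (part 2): mollification and the approximate identity in `L²`.
-/

set_option autoImplicit false
set_option linter.unusedSectionVars false

namespace Crest.Agent.R260.NNF_664

open MeasureTheory Set Filter Topology Module
open scoped ENNReal NNReal ContDiff Convolution

variable {E : Type*} [NormedAddCommGroup E] [NormedSpace ℝ E] [FiniteDimensional ℝ E]
  [MeasurableSpace E] [BorelSpace E]
variable {G : Type*} [NormedAddCommGroup G] [NormedSpace ℝ G] [CompleteSpace G]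

/-- mollification. -/
noncomputable def cv (μ : Measure E) (η : E → ℝ) (ε : ℝ) (f : E → G) (x : E) : G :=
  ∫ y, sc η ε (x - y) • f y ∂μ

variable {μ : Measure E} [μ.IsAddHaarMeasure] {η : E → ℝ} {ε : ℝ} {f g : E → G}

theorem cv_eq_conv : cv μ η ε f = (sc η ε ⋆[ContinuousLinearMap.lsmul ℝ ℝ, μ] f) := by
  ext x
  rw [convolution_lsmul_swap]
  rfl

theorem locInt (hf : MemLp f 2 μ) : LocallyIntegrable f μ :=
  hf.locallyIntegrable (by norm_num)

theorem cv_smooth (h : Moll μ η) (hε : 0 < ε) (hf : LocallyIntegrable f μ) :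
    ContDiff ℝ ∞ (cv μ η ε f) := by
  rw [cv_eq_conv]
  exact (sc_hcs h hε).contDiff_convolution_left _ (sc_smooth h ε) hf

theorem integrable_smul_of_hcs {k : E → ℝ} (hk : Continuous k) (hk' : HasCompactSupport k)
    (hf : LocallyIntegrable f μ) : Integrable (fun y => k y • f y) μ :=
  hf.integrable_smul_left_of_hasCompactSupport hk hk'

theorem hcs_sub {k : E → ℝ} (hk' : HasCompactSupport k) (x : E) :
    HasCompactSupport (fun y => k (x - y)) :=
  hk'.comp_homeomorph (Homeomorph.subLeft x)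

theorem integrable_cv (h : Moll μ η) (hε : 0 < ε) (hf : LocallyIntegrable f μ) (x : E) :
    Integrable (fun y => sc η ε (x - y) • f y) μ :=
  integrable_smul_of_hcs ((sc_smooth h ε).continuous.comp (continuous_const.sub continuous_id))
    (hcs_sub (sc_hcs h hε) x) hf

theorem integrable_dcv (h : Moll μ η) (hε : 0 < ε) (hf : LocallyIntegrable f μ) (x v : E) :
    Integrable (fun y => fderiv ℝ (sc η ε) (x - y) v • f y) μ := by
  refine integrable_smul_of_hcs (k := fun y => fderiv ℝ (sc η ε) (x - y) v) ?_ ?_ hf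
  · exact (((sc_smooth h ε).continuous_fderiv (by norm_num)).comp
      (continuous_const.sub continuous_id)).clm_apply continuous_const
  · have h1 : HasCompactSupport (fun z => fderiv ℝ (sc η ε) z v) := by
      refine ((sc_hcs h hε).fderiv ℝ).mono' ?_
      intro z hz
      refine subset_tsupport _ ?_
      intro h0
      exact hz (by simp [h0])
    exact hcs_sub h1 x

theorem fderiv_cv (h : Moll μ η) (hε : 0 < ε) (hf : LocallyIntegrable f μ) (x v : E) :
    fderiv ℝ (cv μ η ε f) x v = ∫ y, fderiv ℝ (sc η ε) (x - y) v • f y ∂μ := by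
  have h1 := (sc_hcs h hε).hasFDerivAt_convolution_left (ContinuousLinearMap.lsmul ℝ ℝ)
    ((sc_smooth h ε).of_le (by norm_num)) hf x
  rw [← cv_eq_conv] at h1
  rw [h1.fderiv, convolution_eq_swap]
  rw [ContinuousLinearMap.integral_apply]
  · rfl
  · have h2 : ConvolutionExistsAt (fderiv ℝ (sc η ε)) f x
        ((ContinuousLinearMap.lsmul ℝ ℝ).precompL E) μ :=
      ((sc_hcs h hε).fderiv ℝ).convolutionExists_left _
        ((sc_smooth h ε).continuous_fderiv (by norm_num)) hf x
    exact h2.integrable_swap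

theorem cv_sub (h : Moll μ η) (hε : 0 < ε) (hf : LocallyIntegrable f μ)
    (hg : LocallyIntegrable g μ) : cv μ η ε (f - g) = cv μ η ε f - cv μ η ε g := by
  ext x
  simp only [cv, Pi.sub_apply, smul_sub]
  exact integral_sub (integrable_cv h hε hf x) (integrable_cv h hε hg x)

theorem enorm_cv_le (h : Moll μ η) (hε : 0 < ε) (x : E) :
    ‖cv μ η ε f x‖ₑ ≤ ∫⁻ y, ENNReal.ofReal (sc η ε (x - y)) * ‖f y‖ₑ ∂μ := by
  refine (enorm_integral_le_lintegral_enorm _).trans (le_of_eq (lintegral_congr fun y => ?_))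
  rw [enorm_smul, Real.enorm_of_nonneg (sc_nonneg h hε _)]

theorem eLpNorm_cv_le (h : Moll μ η) (hε : 0 < ε) (hf : AEStronglyMeasurable f μ) :
    eLpNorm (cv μ η ε f) 2 μ ≤ eLpNorm f 2 μ := by
  have h1 := schur (μ := μ) (T := cv μ η ε f) (k := sc η ε) (f := f) (M := 1)
    (sc_smooth h ε).continuous.measurable (sc_nonneg h hε) (integrable_sc h hε)
    (sc_int h hε).le hf (enorm_cv_le h hε)
  simpa using h1

/-- support of the mollification. -/
theorem cv_eq_zero (h : Moll μ η) (hε : 0 < ε) {K : Set E} (hf : ∀ y, y ∉ K → f y = 0) {x : E}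
    (hx : ∀ y ∈ K, ε ≤ dist x y) : cv μ η ε f x = 0 := by
  unfold cv
  have h1 : ∀ y, sc η ε (x - y) • f y = 0 := by
    intro y
    by_cases hy : y ∈ K
    · rw [sc_supp h hε (by rw [← dist_eq_norm]; exact hx y hy), zero_smul]
    · rw [hf y hy, smul_zero]
  simp [h1]

theorem cv_hcs (h : Moll μ η) (hε : 0 < ε) (hf : HasCompactSupport f) :
    HasCompactSupport (cv μ η ε f) := by
  refine HasCompactSupport.intro (hf.isCompact.cthickening (r := ε)) fun x hx => ?_
  refine cv_eq_zero h hε (K := tsupport f) (fun y hy => image_eq_zero_of_notMem_tsupport hy) ?_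
  intro y hy
  by_contra hlt
  exact hx (Metric.mem_cthickening_of_dist_le x y ε _ hy (not_le.1 hlt).le)

/-- uniform convergence for uniformly continuous functions. -/
theorem norm_cv_sub_le (h : Moll μ η) (hε : 0 < ε) (hf : LocallyIntegrable f μ) {x : E} {c : ℝ}
    (hc : ∀ y, dist x y < ε → ‖f y - f x‖ ≤ c) : ‖cv μ η ε f x - f x‖ ≤ c := by
  have h0 : ∫ y, sc η ε (x - y) ∂μ = 1 := by
    rw [integral_sub_left_eq_self (sc η ε) μ x, sc_int h hε]
  have hi : Integrable (fun y => sc η ε (x - y)) μ := (integrable_sc h hε).comp_sub_left x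
  have h1 : cv μ η ε f x - f x = ∫ y, sc η ε (x - y) • (f y - f x) ∂μ := by
    simp_rw [smul_sub]
    rw [integral_sub (integrable_cv h hε hf x) (hi.smul_const _), integral_smul_const, h0, one_smul]
    rfl
  rw [h1]
  calc ‖∫ y, sc η ε (x - y) • (f y - f x) ∂μ‖ ≤ ∫ y, sc η ε (x - y) * c ∂μ := by
        refine norm_integral_le_of_norm_le (hi.mul_const c) (Eventually.of_forall fun y => ?_)
        rw [norm_smul, Real.norm_of_nonneg (sc_nonneg h hε _)]
        by_cases hy : dist x y < ε
        · exact mul_le_mul_of_nonneg_left (hc y hy) (sc_nonneg h hε _)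
        · rw [sc_supp h hε (by rw [← dist_eq_norm]; exact not_lt.1 hy)]
          simp
    _ = c := by rw [integral_mul_const, h0, one_mul]

/-- the approximate identity on compactly supported continuous functions. -/
theorem tendsto_cv_cc (h : Moll μ η) (hf : Continuous f) (hf' : HasCompactSupport f) :
    Tendsto (fun ε => eLpNorm (cv μ η ε f - f) 2 μ) (𝓝[>] 0) (𝓝 0) := by
  have hu : UniformContinuous f := hf'.uniformContinuous_of_continuous hf
  set K : Set E := Metric.cthickening 1 (tsupport f) with hK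
  have hKc : IsCompact K := hf'.isCompact.cthickening
  have hKm : μ K ≠ ⊤ := hKc.measure_lt_top.ne
  have hloc : LocallyIntegrable f μ := hf.locallyIntegrable
  -- pointwise estimate
  have key : ∀ c > 0, ∀ᶠ ε in 𝓝[>] (0 : ℝ), eLpNorm (cv μ η ε f - f) 2 μ
      ≤ ENNReal.ofReal c * μ K ^ (1 / (2 : ℝ)) := by
    intro c hc
    obtain ⟨δ, hδ, hδ'⟩ := Metric.uniformContinuous_iff.1 hu c hc
    have hev : ∀ᶠ ε in 𝓝[>] (0 : ℝ), ε < δ ∧ ε < 1 ∧ 0 < ε := by
      have h1 : ∀ᶠ ε in 𝓝[>] (0 : ℝ), ε < δ :=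
        (eventually_lt_nhds hδ).filter_mono nhdsWithin_le_nhds
      have h2 : ∀ᶠ ε in 𝓝[>] (0 : ℝ), ε < 1 :=
        (eventually_lt_nhds one_pos).filter_mono nhdsWithin_le_nhds
      filter_upwards [h1, h2, self_mem_nhdsWithin] with ε h3 h4 h5 using ⟨h3, h4, h5⟩
    filter_upwards [hev] with ε hε
    obtain ⟨h1, h2, h3⟩ := hε
    have hpt : ∀ x, ‖(cv μ η ε f - f) x‖ ≤ c := by
      intro x
      refine norm_cv_sub_le h h3 hloc fun y hy => ?_
      have := hδ' (a := y) (b := x) (by rw [dist_comm]; exact hy.trans h1)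
      rw [← dist_eq_norm]
      exact this.le
    have hsupp : ∀ x, x ∉ K → (cv μ η ε f - f) x = 0 := by
      intro x hx
      have hx' : ∀ y ∈ tsupport f, ε ≤ dist x y := by
        intro y hy
        by_contra hlt
        exact hx (Metric.mem_cthickening_of_dist_le x y 1 _ hy
          ((not_le.1 hlt).le.trans h2.le))
      have h4 : f x = 0 := by
        refine image_eq_zero_of_notMem_tsupport fun hxt => hx ?_
        exact Metric.self_subset_cthickening _ hxt
      rw [Pi.sub_apply, h4, sub_zero]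
      exact cv_eq_zero h h3 (K := tsupport f)
        (fun y hy => image_eq_zero_of_notMem_tsupport hy) hx'
    have h5 : (cv μ η ε f - f) = K.indicator (cv μ η ε f - f) := by
      ext x
      by_cases hx : x ∈ K
      · rw [indicator_of_mem hx]
      · rw [indicator_of_notMem hx, hsupp x hx]
    rw [h5, eLpNorm_indicator_eq_eLpNorm_restrict hKc.measurableSet]
    have h6 := eLpNorm_le_of_ae_bound (p := 2) (μ := μ.restrict K) (f := cv μ η ε f - f) (C := c)
      (Eventually.of_forall hpt)
    refine h6.trans (le_of_eq ?_)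
    rw [Measure.restrict_apply_univ, mul_comm]
    norm_num
  -- conclusion
  rw [ENNReal.tendsto_nhds_zero]
  intro b hb
  by_cases hb' : b = ⊤
  · simp [hb']
  set m : ℝ≥0∞ := μ K ^ (1 / (2 : ℝ)) with hm
  have hmt : m ≠ ⊤ := ENNReal.rpow_ne_top_of_nonneg (by norm_num) hKm
  obtain ⟨c, hc, hcb⟩ : ∃ c : ℝ, 0 < c ∧ ENNReal.ofReal c * m ≤ b := by
    by_cases hm0 : m = 0
    · exact ⟨1, one_pos, by simp [hm0]⟩
    · refine ⟨(b / m).toReal, ENNReal.toReal_pos ?_ ?_, ?_⟩
      · exact (ENNReal.div_pos hb.ne' hmt).ne'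
      · exact ENNReal.div_ne_top hb' hm0
      · rw [ENNReal.ofReal_toReal (ENNReal.div_ne_top hb' hm0)]
        exact (ENNReal.div_mul_cancel hm0 hmt).le
  filter_upwards [key c hc] with ε hε using hε.trans hcb

/-- **approximate identity in `L²`**. -/
theorem tendsto_cv (h : Moll μ η) (hf : MemLp f 2 μ) :
    Tendsto (fun ε => eLpNorm (cv μ η ε f - f) 2 μ) (𝓝[>] 0) (𝓝 0) := by
  rw [ENNReal.tendsto_nhds_zero]
  intro b hb
  by_cases hb' : b = ⊤
  · simp [hb']
  have hb3 : 0 < (b / 3).toReal := ENNReal.toReal_pos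
    (ENNReal.div_pos hb.ne' (by norm_num)).ne' (ENNReal.div_ne_top hb' (by norm_num))
  obtain ⟨g, hg1, hg2, hg3⟩ := hf.exist_eLpNorm_sub_le (by norm_num) (by norm_num) hb3
  rw [ENNReal.ofReal_toReal (ENNReal.div_ne_top hb' (by norm_num))] at hg3
  have hg : MemLp g 2 μ := hg2.continuous.memLp_of_hasCompactSupport hg1
  have hev := (ENNReal.tendsto_nhds_zero.1 (tendsto_cv_cc h hg2.continuous hg1)) (b / 3)
    (ENNReal.div_pos hb.ne' (by norm_num))
  filter_upwards [hev, self_mem_nhdsWithin] with ε h1 h2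
  have h3 : cv μ η ε f - f = cv μ η ε (f - g) + ((cv μ η ε g - g) - (f - g)) := by
    rw [cv_sub h h2 (locInt hf) (locInt hg)]
    abel
  have hms : AEStronglyMeasurable (cv μ η ε (f - g)) μ :=
    (cv_smooth h h2 ((locInt hf).sub (locInt hg))).continuous.aestronglyMeasurable
  have hms2 : AEStronglyMeasurable (cv μ η ε g - g) μ :=
    ((cv_smooth h h2 (locInt hg)).continuous.sub hg2.continuous).aestronglyMeasurable
  have hfg : AEStronglyMeasurable (f - g) μ := (hf.sub hg).aestronglyMeasurable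
  calc eLpNorm (cv μ η ε f - f) 2 μ
      ≤ eLpNorm (cv μ η ε (f - g)) 2 μ + eLpNorm ((cv μ η ε g - g) - (f - g)) 2 μ := by
        rw [h3]
        exact eLpNorm_add_le hms (hms2.sub hfg) (by norm_num)
    _ ≤ b / 3 + (b / 3 + b / 3) := by
        refine add_le_add ((eLpNorm_cv_le h h2 hfg).trans hg3) ?_
        exact (eLpNorm_sub_le hms2 hfg (by norm_num)).trans (add_le_add h1 hg3)
    _ = b := by
        rw [← add_assoc]
        exact ENNReal.add_thirds b

end Crest.Agent.R260.NNF_664
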