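import Mathlib

/-!
# R260 (S0398), NN (helper900), leaf INT (helper922)

`V` real inner product space, `finrank ℝ V = 2 n`, `n ≥ 1`:
* `integrableOn_pow`   : `‖x‖ ^ (2 - 2 n)` is integrable on balls (three forms);
* `int_bound`          : `∫ x in ball 0 r, ‖x‖ ^ 4 * ((‖x‖ ^ 2 + ε) ^ (n + 1))⁻¹ ≤ C` uniformly in `ε > 0`.
-/

set_option autoImplicit false
set_option linter.unusedSectionVars false

open MeasureTheory Set Metric Module

namespace Crest.Agent.R260.NNInt_922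

variable {V : Type*} [NormedAddCommGroup V] [NormedSpace ℝ V] [FiniteDimensional ℝ V]
  [MeasurableSpace V] [BorelSpace V] {μ : Measure V} [μ.IsAddHaarMeasure] {n : ℕ}

theorem integrableOn_pow (hn : 1 ≤ n) (hV : finrank ℝ V = 2 * n) (r : ℝ) :
    IntegrableOn (fun x : V => (‖x‖ ^ (2 * n - 2))⁻¹) (ball 0 r) μ := by
  have : Nontrivial V := by
    refine Module.nontrivial_of_finrank_pos (R := ℝ) ?_
    omega
  set f : ℝ → ℝ := (Iio r).indicator fun y => (y ^ (2 * n - 2))⁻¹ with hf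
  have h1 : Integrable (fun x : V => f ‖x‖) μ := by
    rw [integrable_fun_norm_addHaar]
    have h2 : IntegrableOn (fun y : ℝ => (Iio r).indicator (fun y => y) y) (Ioi 0) := by
      have h3 : IntegrableOn (fun y : ℝ => y) (Iio r ∩ Ioi 0) := by
        have h4 : IntegrableOn (fun y : ℝ => y) (Icc 0 (max r 0)) :=
          continuous_id.continuousOn.integrableOn_Icc
        refine h4.mono_set fun y hy => ⟨hy.2.le, (le_of_lt hy.1).trans (le_max_left _ _)⟩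
      have h5 : IntegrableOn (fun y : ℝ => y) (Iio r) (volume.restrict (Ioi 0)) := by
        rw [IntegrableOn, Measure.restrict_restrict measurableSet_Iio]
        exact h3
      exact (integrable_indicator_iff measurableSet_Iio).2 h5
    refine h2.congr_fun (fun y hy => ?_) measurableSet_Ioi
    have hy0 : (0 : ℝ) < y := hy
    simp only [hf, smul_eq_mul]
    by_cases hyr : y ∈ Iio r
    · rw [indicator_of_mem hyr, indicator_of_mem hyr, hV]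
      have e : 2 * n - 1 = (2 * n - 2) + 1 := by omega
      rw [e, pow_succ]
      field_simp
    · rw [indicator_of_notMem hyr, indicator_of_notMem hyr, mul_zero]
  have h6 : (fun x : V => f ‖x‖) = (ball (0 : V) r).indicator fun x => (‖x‖ ^ (2 * n - 2))⁻¹ := by
    funext x
    simp only [hf]
    by_cases hx : ‖x‖ < r
    · rw [indicator_of_mem (show ‖x‖ ∈ Iio r from hx),
        indicator_of_mem (by rwa [mem_ball_zero_iff])]
    · rw [indicator_of_notMem (show ‖x‖ ∉ Iio r from hx),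
        indicator_of_notMem (by rwa [mem_ball_zero_iff])]
  rw [h6] at h1
  exact (integrable_indicator_iff measurableSet_ball).1 h1

/-- real power -/
theorem integrableOn_rpow (hn : 1 ≤ n) (hV : finrank ℝ V = 2 * n) (r : ℝ) :
    IntegrableOn (fun x : V => ‖x‖ ^ (2 - 2 * (n : ℝ))) (ball 0 r) μ := by
  refine (integrableOn_pow hn hV r).congr_fun (fun x _ => ?_) measurableSet_ball
  have e : (2 - 2 * (n : ℝ)) = -((2 * n - 2 : ℕ) : ℝ) := by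
    rw [Nat.cast_sub (by omega)]
    push_cast
    ring
  rw [e, Real.rpow_neg (norm_nonneg x), Real.rpow_natCast]

/-- integer power -/
theorem integrableOn_zpow (hn : 1 ≤ n) (hV : finrank ℝ V = 2 * n) (r : ℝ) :
    IntegrableOn (fun x : V => ‖x‖ ^ (2 - 2 * (n : ℤ))) (ball 0 r) μ := by
  refine (integrableOn_pow hn hV r).congr_fun (fun x _ => ?_) measurableSet_ball
  have e : (2 - 2 * (n : ℤ)) = -((2 * n - 2 : ℕ) : ℤ) := by
    rw [Nat.cast_sub (by omega)]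
    push_cast
    ring
  rw [e, zpow_neg, zpow_natCast]

/-- the pointwise inequality -/
theorem pointwise (hn : 1 ≤ n) (x : V) {ε : ℝ} (hε : 0 < ε) :
    ‖x‖ ^ 4 * ((‖x‖ ^ 2 + ε) ^ (n + 1))⁻¹ ≤ (‖x‖ ^ (2 * n - 2))⁻¹ := by
  rcases eq_or_ne x 0 with rfl | hx
  · rw [norm_zero]
    simp only [ne_eq, OfNat.ofNat_ne_zero, not_false_eq_true, zero_pow, zero_mul]
    positivity
  · have hx0 : 0 < ‖x‖ := norm_pos_iff.2 hx
    have h1 : (‖x‖ ^ 2) ^ (n + 1) ≤ (‖x‖ ^ 2 + ε) ^ (n + 1) := by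
      gcongr
      linarith
    have h2 : ((‖x‖ ^ 2 + ε) ^ (n + 1))⁻¹ ≤ ((‖x‖ ^ 2) ^ (n + 1))⁻¹ :=
      inv_anti₀ (by positivity) h1
    calc ‖x‖ ^ 4 * ((‖x‖ ^ 2 + ε) ^ (n + 1))⁻¹ ≤ ‖x‖ ^ 4 * ((‖x‖ ^ 2) ^ (n + 1))⁻¹ := by gcongr
      _ = (‖x‖ ^ (2 * n - 2))⁻¹ := by
        have e : (‖x‖ ^ 2) ^ (n + 1) = ‖x‖ ^ (2 * n - 2) * ‖x‖ ^ 4 := by
          rw [← pow_mul, ← pow_add]
          congr 1
          omega
        rw [e]
        field_simp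

theorem continuous_eps (n : ℕ) {ε : ℝ} (hε : 0 < ε) :
    Continuous fun x : V => ‖x‖ ^ 4 * ((‖x‖ ^ 2 + ε) ^ (n + 1))⁻¹ := by
  refine (continuous_norm.pow 4).mul (Continuous.inv₀ (by fun_prop) fun x => ?_)
  positivity

theorem integrableOn_eps (n : ℕ) (r : ℝ) {ε : ℝ} (hε : 0 < ε) :
    IntegrableOn (fun x : V => ‖x‖ ^ 4 * ((‖x‖ ^ 2 + ε) ^ (n + 1))⁻¹) (ball 0 r) μ :=
  ((continuous_eps n hε).continuousOn.integrableOn_compact
    (isCompact_closedBall (0 : V) r)).mono_set ball_subset_closedBall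

/-- **the uniform bound** -/
theorem int_bound (hn : 1 ≤ n) (hV : finrank ℝ V = 2 * n) (r : ℝ) :
    ∃ C : ℝ, 0 ≤ C ∧ ∀ ε : ℝ, 0 < ε →
      ∫ x in ball (0 : V) r, ‖x‖ ^ 4 * ((‖x‖ ^ 2 + ε) ^ (n + 1))⁻¹ ∂μ ≤ C := by
  refine ⟨∫ x in ball (0 : V) r, (‖x‖ ^ (2 * n - 2))⁻¹ ∂μ,
    integral_nonneg fun x => by positivity, fun ε hε => ?_⟩
  exact setIntegral_mono (integrableOn_eps n r hε) (integrableOn_pow hn hV r)
    fun x => pointwise hn x hε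

/-- the weight `exp (-(n + 1) log (‖x‖ ^ 2 + ε))` -/
theorem exp_log (n : ℕ) (x : V) {ε : ℝ} (hε : 0 < ε) :
    Real.exp (-((n + 1 : ℕ) * Real.log (‖x‖ ^ 2 + ε))) = ((‖x‖ ^ 2 + ε) ^ (n + 1))⁻¹ := by
  have h : 0 < ‖x‖ ^ 2 + ε := by positivity
  rw [Real.exp_neg, mul_comm, Real.exp_mul, Real.exp_log h, Real.rpow_natCast]

/-- **consumer form**: `|f x|^2 e^{-Φ} ≤ C` in the mean, uniformly in `ε`, if `|f x| ≤ C₀ ‖x‖ ^ 2` and
`Φ ≥ (n + 1) log (‖x‖ ^ 2 + ε) - C₁` -/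
theorem int_bound' (hn : 1 ≤ n) (hV : finrank ℝ V = 2 * n) (r C₀ C₁ : ℝ) :
    ∃ C : ℝ, 0 ≤ C ∧ ∀ ε : ℝ, 0 < ε → ∀ (f : V → ℝ) (Φ : V → ℝ),
      (∀ x ∈ ball (0 : V) r, |f x| ≤ C₀ * ‖x‖ ^ 2) →
      (∀ x ∈ ball (0 : V) r, (n + 1 : ℕ) * Real.log (‖x‖ ^ 2 + ε) - C₁ ≤ Φ x) →
      ∫ x in ball (0 : V) r, f x ^ 2 * Real.exp (-Φ x) ∂μ ≤ C := by
  obtain ⟨C, hC0, hC⟩ := int_bound (μ := μ) hn hV r
  refine ⟨C₀ ^ 2 * Real.exp C₁ * C, by positivity, fun ε hε f Φ hf hΦ => ?_⟩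
  have h1 : ∀ x ∈ ball (0 : V) r, f x ^ 2 * Real.exp (-Φ x) ≤
      C₀ ^ 2 * Real.exp C₁ * (‖x‖ ^ 4 * ((‖x‖ ^ 2 + ε) ^ (n + 1))⁻¹) := by
    intro x hx
    have a1 : f x ^ 2 ≤ (C₀ * ‖x‖ ^ 2) ^ 2 := sq_le_sq' (by linarith [neg_abs_le (f x), hf x hx])
      ((le_abs_self _).trans (hf x hx))
    have a2 : Real.exp (-Φ x) ≤ Real.exp C₁ * ((‖x‖ ^ 2 + ε) ^ (n + 1))⁻¹ := by
      rw [← exp_log n x hε, ← Real.exp_add]
      exact Real.exp_le_exp.2 (by linarith [hΦ x hx])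
    calc f x ^ 2 * Real.exp (-Φ x) ≤ (C₀ * ‖x‖ ^ 2) ^ 2 *
        (Real.exp C₁ * ((‖x‖ ^ 2 + ε) ^ (n + 1))⁻¹) := by gcongr
      _ = _ := by ring
  by_cases hi : IntegrableOn (fun x => f x ^ 2 * Real.exp (-Φ x)) (ball (0 : V) r) μ
  · calc ∫ x in ball (0 : V) r, f x ^ 2 * Real.exp (-Φ x) ∂μ
        ≤ ∫ x in ball (0 : V) r, C₀ ^ 2 * Real.exp C₁ *
          (‖x‖ ^ 4 * ((‖x‖ ^ 2 + ε) ^ (n + 1))⁻¹) ∂μ :=
          setIntegral_mono_on hi ((integrableOn_eps n r hε).const_mul _) measurableSet_ball h1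
      _ = C₀ ^ 2 * Real.exp C₁ * ∫ x in ball (0 : V) r,
          (‖x‖ ^ 4 * ((‖x‖ ^ 2 + ε) ^ (n + 1))⁻¹) ∂μ := integral_const_mul _ _
      _ ≤ _ := by
        gcongr
        exact hC ε hε
  · rw [integral_undef hi]
    positivity

end Crest.Agent.R260.NNInt_922
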