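import Mathlib

/-!
Row 260 (S0398), AG-NUM (helper789), part 1: adjugates of matrices of corank one.
-/

set_option autoImplicit false

namespace Crest.Agent.R260.Num_789

open Matrix

section field

variable {K : Type*} [Field K] {ι : Type*} [Fintype ι] [DecidableEq ι]

theorem adjugate_apply_col (G : Matrix ι ι K) (j l : ι) :
    G.adjugate j l = (G.updateCol j (Pi.single l 1)).det := by
  have h1 : G.adjugate j l = Gᵀ.adjugate l j := congrFun (congrFun (adjugate_transpose G) l) j
  rw [h1, adjugate_apply, ← det_transpose, updateRow_transpose, transpose_transpose]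

theorem updateCol_mulVec_of_zero (G : Matrix ι ι K) (j : ι) (b x : ι → K) (hj : x j = 0) :
    G.updateCol j b *ᵥ x = G *ᵥ x := by
  funext i
  simp only [mulVec, dotProduct]
  refine Finset.sum_congr rfl fun m _ => ?_
  by_cases hm : m = j
  · rw [hm, hj, mul_zero, mul_zero]
  · rw [updateCol_ne hm]

theorem ker_of_adj_ne {G : Matrix ι ι K} {j l : ι} (h : G.adjugate j l ≠ 0) {x : ι → K}
    (hx : G *ᵥ x = 0) (hj : x j = 0) : x = 0 := by
  by_contra hne
  apply h
  rw [adjugate_apply_col]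
  exact exists_mulVec_eq_zero_iff.mp ⟨x, hne, by rw [updateCol_mulVec_of_zero _ _ _ _ hj, hx]⟩

/-- corank one ⇒ the adjugate is not zero. -/
theorem exists_adj_ne (G : Matrix ι ι K) {c : ι → K} (hc : c ≠ 0)
    (hker : ∀ x, G *ᵥ x = 0 → ∃ a : K, x = a • c) : ∃ j l, G.adjugate j l ≠ 0 := by
  obtain ⟨j, hj⟩ := Function.ne_iff.mp hc
  rw [Pi.zero_apply] at hj
  -- the columns different from `j` do not span
  let U : Submodule K (ι → K) := Submodule.span K (Set.range fun m : {m // m ≠ j} => G.col m.1)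
  have hU : Module.finrank K U < Fintype.card ι := by
    refine lt_of_le_of_lt (finrank_range_le_card _) ?_
    rw [Fintype.card_subtype_compl, Fintype.card_subtype_eq]
    have : 0 < Fintype.card ι := Fintype.card_pos_iff.mpr ⟨j⟩
    omega
  have hex : ∃ l, (Pi.single l 1 : ι → K) ∉ U := by
    by_contra hcon
    push Not at hcon
    have htop : U = ⊤ := by
      rw [eq_top_iff, ← (Pi.basisFun K ι).span_eq, Submodule.span_le]
      rintro _ ⟨l, rfl⟩
      rw [Pi.basisFun_apply]
      exact hcon l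
    rw [htop, finrank_top, Module.finrank_fintype_fun_eq_card] at hU
    exact lt_irrefl _ hU
  obtain ⟨l, hl⟩ := hex
  refine ⟨j, l, ?_⟩
  rw [adjugate_apply_col]
  intro hdet
  obtain ⟨x, hx0, hx⟩ := exists_mulVec_eq_zero_iff.mpr hdet
  by_cases hxj : x j = 0
  · rw [updateCol_mulVec_of_zero _ _ _ _ hxj] at hx
    obtain ⟨a, ha⟩ := hker x hx
    rw [ha, Pi.smul_apply, smul_eq_mul] at hxj
    rcases mul_eq_zero.mp hxj with h | h
    · exact hx0 (by rw [ha, h, zero_smul])
    · exact hj h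
  · apply hl
    have h1 : x j • (Pi.single l 1 : ι → K) = - ∑ m : {m // m ≠ j}, x m.1 • G.col m.1 := by
      have h2 : G.updateCol j (Pi.single l 1) *ᵥ x =
          x j • (Pi.single l 1 : ι → K) + ∑ m : {m // m ≠ j}, x m.1 • G.col m.1 := by
        funext i
        simp only [mulVec, dotProduct, Pi.add_apply, Pi.smul_apply, smul_eq_mul, Finset.sum_apply]
        rw [← Finset.add_sum_erase _ _ (Finset.mem_univ j), updateCol_self, mul_comm]
        congr 1
        rw [Finset.sum_subtype (Finset.univ.erase j) (p := fun m => m ≠ j) (fun m => by simp)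
          (fun m => G.updateCol j (Pi.single l 1) i m * x m)]
        refine Finset.sum_congr rfl fun m _ => ?_
        rw [updateCol_ne m.2, mul_comm]
        rfl
      rw [hx] at h2
      exact (eq_neg_of_add_eq_zero_left h2.symm)
    have h3 : (Pi.single l 1 : ι → K) = (x j)⁻¹ • (- ∑ m : {m // m ≠ j}, x m.1 • G.col m.1) := by
      rw [← h1, smul_smul, inv_mul_cancel₀ hxj, one_smul]
    rw [h3]
    exact U.smul_mem _ (U.neg_mem (U.sum_mem fun m _ => U.smul_mem _
      (Submodule.subset_span ⟨m, rfl⟩)))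

/-- the adjugate of a matrix of corank one with left and right kernel `c` is `h c cᵀ`. -/
theorem exists_adj_eq (G : Matrix ι ι K) {c : ι → K} (hc : c ≠ 0) (h1 : G *ᵥ c = 0)
    (h2 : c ᵥ* G = 0) : ∃ h : K, ∀ j l, G.adjugate j l = h * c j * c l := by
  by_cases hadj : ∃ j l, G.adjugate j l ≠ 0
  · obtain ⟨j₀, l₀, h0⟩ := hadj
    have hdet : G.det = 0 := exists_mulVec_eq_zero_iff.mp ⟨c, hc, h1⟩
    have hcj : c j₀ ≠ 0 := fun h => hc (ker_of_adj_ne h0 h1 h)
    have h0' : Gᵀ.adjugate l₀ j₀ ≠ 0 := by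
      rw [← congrFun (congrFun (adjugate_transpose G) l₀) j₀]
      exact h0
    have h2' : Gᵀ *ᵥ c = 0 := by rwa [mulVec_transpose]
    have hcl : c l₀ ≠ 0 := fun h => hc (ker_of_adj_ne h0' h2' h)
    -- columns
    have hcol : ∀ j l, c j₀ * G.adjugate j l = G.adjugate j₀ l * c j := by
      intro j l
      have h3 : G *ᵥ (fun m => G.adjugate m l) = 0 := by
        have h4 := congrFun (congrArg (fun M : Matrix ι ι K => M.col l) (mul_adjugate G))
        funext i
        have h5 := congrFun (congrFun (mul_adjugate G) i) l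
        rw [hdet, zero_smul] at h5
        exact h5
      have h6 : G *ᵥ (c j₀ • (fun m => G.adjugate m l) - G.adjugate j₀ l • c) = 0 := by
        rw [mulVec_sub, mulVec_smul, mulVec_smul, h3, h1, smul_zero, smul_zero, sub_zero]
      have h7 := ker_of_adj_ne h0 h6 (by
        simp only [Pi.sub_apply, Pi.smul_apply, smul_eq_mul]; ring)
      have h8 := congrFun h7 j
      simp only [Pi.sub_apply, Pi.smul_apply, smul_eq_mul, Pi.zero_apply] at h8
      exact sub_eq_zero.mp h8
    -- the row `j₀`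
    have hrow : ∀ l, c l₀ * G.adjugate j₀ l = G.adjugate j₀ l₀ * c l := by
      intro l
      have h3 : Gᵀ *ᵥ (fun m => G.adjugate j₀ m) = 0 := by
        rw [mulVec_transpose]
        funext i
        have h5 := congrFun (congrFun (adjugate_mul G) j₀) i
        rw [hdet, zero_smul] at h5
        exact h5
      have h6 : Gᵀ *ᵥ (c l₀ • (fun m => G.adjugate j₀ m) - G.adjugate j₀ l₀ • c) = 0 := by
        rw [mulVec_sub, mulVec_smul, mulVec_smul, h3, h2', smul_zero, smul_zero, sub_zero]
      have h7 := ker_of_adj_ne h0' h6 (by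
        simp only [Pi.sub_apply, Pi.smul_apply, smul_eq_mul]; ring)
      have h8 := congrFun h7 l
      simp only [Pi.sub_apply, Pi.smul_apply, smul_eq_mul, Pi.zero_apply] at h8
      exact sub_eq_zero.mp h8
    refine ⟨G.adjugate j₀ l₀ / (c j₀ * c l₀), fun j l => ?_⟩
    have h3 : G.adjugate j₀ l = G.adjugate j₀ l₀ * c l / c l₀ := by
      rw [eq_div_iff hcl, ← hrow l]; ring
    have h4 : G.adjugate j l = G.adjugate j₀ l * c j / c j₀ := by
      rw [eq_div_iff hcj, ← hcol j l]; ring
    rw [h4, h3]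
    field_simp
  · push Not at hadj
    exact ⟨0, fun j l => by rw [hadj j l]; ring⟩

end field

section border

variable {K : Type*} [Field K] {ι S : Type*} [Fintype ι] [DecidableEq ι] [Fintype S]
  [DecidableEq S]

/-- **the determinant identity for a matrix with left and right kernel `e`.** -/
theorem exists_h (G : Matrix ι ι K) (e : Matrix ι S K) (Y0 : Matrix S ι K) (h0 : Y0 * e = 1)
    (h1 : G * e = 0) (h2 : eᵀ * G = 0) : ∃ h : K, ∀ g : K, g ≠ 0 → ∀ Y Z : Matrix S ι K,
      (g • G + Yᵀ * Z).det =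
        g ^ Fintype.card ι * g⁻¹ ^ Fintype.card S * h * (Y * e).det * (Z * e).det := by
  refine ⟨(G + Y0ᵀ * Y0).det, fun g hg Y Z => ?_⟩
  -- right
  have hr : (g • G + Yᵀ * Z).det = (g • G + Yᵀ * Y0).det * (Z * e).det := by
    have e1 : (g • G + Yᵀ * Y0) * (1 + e * (Z - Y0)) = g • G + Yᵀ * Z := by
      rw [Matrix.add_mul, Matrix.mul_add, Matrix.mul_add, Matrix.mul_one, Matrix.mul_one,
        ← Matrix.mul_assoc (g • G), Matrix.smul_mul, h1, smul_zero, Matrix.zero_mul, add_zero,
        ← Matrix.mul_assoc (Yᵀ * Y0), Matrix.mul_assoc Yᵀ Y0 e, h0, Matrix.mul_one,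
        Matrix.mul_sub]
      abel
    have e2 : (1 + e * (Z - Y0)).det = (Z * e).det := by
      rw [det_one_add_mul_comm, Matrix.sub_mul, h0]
      congr 1
      abel
    rw [← e1, det_mul, e2]
  -- left
  have h0' : eᵀ * Y0ᵀ = 1 := by rw [← transpose_mul, h0, transpose_one]
  have hl : (g • G + Yᵀ * Y0).det = (g • G + Y0ᵀ * Y0).det * (Y * e).det := by
    have e1 : (1 + (Y - Y0)ᵀ * eᵀ) * (g • G + Y0ᵀ * Y0) = g • G + Yᵀ * Y0 := by
      rw [Matrix.add_mul, Matrix.one_mul, Matrix.mul_add, Matrix.mul_smul,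
        Matrix.mul_assoc _ eᵀ G, h2, Matrix.mul_zero, smul_zero, zero_add,
        Matrix.mul_assoc _ eᵀ, ← Matrix.mul_assoc eᵀ, h0', Matrix.one_mul, transpose_sub,
        Matrix.sub_mul]
      abel
    have e2 : (1 + (Y - Y0)ᵀ * eᵀ).det = (Y * e).det := by
      rw [← det_transpose, transpose_add, transpose_one, transpose_mul, transpose_transpose,
        transpose_transpose, det_one_add_mul_comm, Matrix.sub_mul, h0]
      congr 1
      abel
    rw [← e1, det_mul, e2, mul_comm]
  -- scaling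
  have hs : (g • G + Y0ᵀ * Y0).det =
      (G + Y0ᵀ * Y0).det * (g ^ Fintype.card ι * g⁻¹ ^ Fintype.card S) := by
    have e1 : (G + Y0ᵀ * Y0) * (g • (1 + (g⁻¹ - 1) • e * Y0)) = g • G + Y0ᵀ * Y0 := by
      have a1 : g * (g⁻¹ - 1) = 1 - g := by field_simp
      have a2 : g • (1 + (g⁻¹ - 1) • e * Y0) = g • (1 : Matrix ι ι K) + (1 - g) • (e * Y0) := by
        rw [smul_add, Matrix.smul_mul, smul_smul, a1]
      rw [a2, Matrix.add_mul, Matrix.mul_add, Matrix.mul_add, Matrix.mul_smul, Matrix.mul_smul,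
        Matrix.mul_smul, Matrix.mul_smul, Matrix.mul_one, Matrix.mul_one, ← Matrix.mul_assoc G, h1,
        Matrix.zero_mul, smul_zero, add_zero, ← Matrix.mul_assoc (Y0ᵀ * Y0),
        Matrix.mul_assoc Y0ᵀ Y0 e, h0, Matrix.mul_one, ← add_smul]
      simp
    have e2 : (g • (1 + (g⁻¹ - 1) • e * Y0)).det =
        g ^ Fintype.card ι * g⁻¹ ^ Fintype.card S := by
      rw [det_smul, Matrix.smul_mul, ← Matrix.mul_smul, det_one_add_mul_comm, Matrix.smul_mul, h0]
      have a3 : (1 : Matrix S S K) + (g⁻¹ - 1) • 1 = g⁻¹ • 1 := by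
        rw [sub_smul, one_smul]
        abel
      rw [a3, det_smul, det_one, mul_one]
    rw [← e1, det_mul, e2]
  rw [hr, hl, hs]
  ring

/-- a matrix with injective `mulVec` has a left inverse. -/
theorem exists_left_inv (e : Matrix ι S K) (h : ∀ x : S → K, e *ᵥ x = 0 → x = 0) :
    ∃ Y : Matrix S ι K, Y * e = 1 := by
  have hinj : LinearMap.ker (toLin' e) = ⊥ := by
    rw [LinearMap.ker_eq_bot']
    intro x hx
    exact h x hx
  obtain ⟨f, hf⟩ := (toLin' e).exists_leftInverse_of_injective hinj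
  refine ⟨LinearMap.toMatrix' f, ?_⟩
  have h1 := congrArg LinearMap.toMatrix' hf
  rw [LinearMap.toMatrix'_comp, LinearMap.toMatrix'_toLin', LinearMap.toMatrix'_id] at h1
  exact h1

/-- if the kernel of `P` is spanned by `e`, then `P + Yᵀ Y` is invertible. -/
theorem det_border_ne (P : Matrix ι ι K) (e : Matrix ι S K) (Y : Matrix S ι K) (h0 : Y * e = 1)
    (h2 : eᵀ * P = 0) (hk : ∀ x, P *ᵥ x = 0 → ∃ a : S → K, x = e *ᵥ a) :
    (P + Yᵀ * Y).det ≠ 0 := by
  intro hdet
  obtain ⟨x, hx0, hx⟩ := exists_mulVec_eq_zero_iff.mpr hdet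
  have h0' : eᵀ * Yᵀ = 1 := by rw [← transpose_mul, h0, transpose_one]
  have h3 : Y *ᵥ x = 0 := by
    have h4 := congrArg (fun z => eᵀ *ᵥ z) hx
    simp only [mulVec_mulVec, Matrix.mul_add, h2, zero_add, mulVec_zero, ← Matrix.mul_assoc,
      h0', Matrix.one_mul] at h4
    exact h4
  have h5 : P *ᵥ x = 0 := by
    rw [add_mulVec, ← mulVec_mulVec, h3, mulVec_zero, add_zero] at hx
    exact hx
  obtain ⟨a, rfl⟩ := hk x h5
  rw [mulVec_mulVec, h0, one_mulVec] at h3
  rw [h3, mulVec_zero] at hx0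
  exact hx0 rfl

end border

end Crest.Agent.R260.Num_789
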