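import Mathlib

/-!
# R260 (S0398), AG-OUT part 1 (helper516): Baire piece, simple root germ

`baire_piece` : a dense `Gδ`, covered inside an open set by countably many sets: one of them is
dense in a smaller open set.
`root_germ`   : a simple root of a polynomial with polynomial coefficients extends to a unique
analytic root near the point.
-/

set_option autoImplicit false

open Set Filter Topology Metric
open scoped ContDiff

namespace Crest.Agent.R260.Out_516

/-- Baire: a dense `Gδ` covered inside the open set `W` by countably many sets: one of them is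
dense in a nonempty open subset of `W`. -/
theorem baire_piece {X : Type*} [TopologicalSpace X] [BaireSpace X] {s W : Set X}
    (hs : IsGδ s) (hd : Dense s) (hW : IsOpen W) (hne : W.Nonempty) {ι : Type*} [Countable ι]
    (A : ι → Set X) (hA : s ∩ W ⊆ ⋃ i, A i) :
    ∃ i, ∃ B : Set X, IsOpen B ∧ B.Nonempty ∧ B ⊆ W ∧ B ⊆ closure (A i) := by
  have h : Dense (⋃ o : Option ι, interior ((fun o : Option ι => o.elim Wᶜ (fun i => closure (A i))) o)) := by
    refine hs.dense_iUnion_interior_of_closed hd ?_ ?_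
    · rintro (_ | i)
      · exact hW.isClosed_compl
      · exact isClosed_closure
    · intro x hx
      by_cases hxW : x ∈ W
      · obtain ⟨i, hi⟩ := mem_iUnion.1 (hA ⟨hx, hxW⟩)
        exact mem_iUnion.2 ⟨some i, subset_closure hi⟩
      · exact mem_iUnion.2 ⟨none, hxW⟩
  obtain ⟨x, hxW, hx⟩ := h.inter_open_nonempty W hW hne
  obtain ⟨o, ho⟩ := mem_iUnion.1 hx
  rcases o with _ | i
  · exact absurd hxW (interior_subset ho)
  · exact ⟨i, W ∩ interior (closure (A i)), hW.inter isOpen_interior, ⟨x, hxW, ho⟩,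
      inter_subset_left, inter_subset_right.trans interior_subset⟩

/-- a countable set does not fill an open set of `ℂ` together with countably many "thin" sets:
form used for identity theorems. If off a countable set `C` the value `f v` is one of countably
many `g i v`, then `f = g i` on a nonempty open subset. -/
theorem countable_pick {W C : Set ℂ} (hW : IsOpen W) (hne : W.Nonempty) (hC : C.Countable)
    {ι : Type*} [Countable ι] (f : ℂ → ℂ) (g : ι → ℂ → ℂ) (hf : ContinuousOn f W)
    (hg : ∀ i, ContinuousOn (g i) W) (h : ∀ v ∈ W, v ∉ C → ∃ i, f v = g i v) :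
    ∃ i, ∃ B : Set ℂ, IsOpen B ∧ B.Nonempty ∧ B ⊆ W ∧ EqOn f (g i) B := by
  obtain ⟨i, B, hB, hBn, hBW, hBc⟩ := baire_piece (s := Cᶜ) (W := W) hC.isGδ_compl
    (hC.dense_compl ℝ) hW hne (fun i => {v | v ∈ W ∧ f v = g i v}) (by
      rintro v ⟨hvC, hvW⟩
      obtain ⟨i, hi⟩ := h v hvW hvC
      exact mem_iUnion.2 ⟨i, hvW, hi⟩)
  refine ⟨i, B, hB, hBn, hBW, ?_⟩
  intro v hv
  have hvc := hBc hv
  have hcl : IsClosed {x : W | f x = g i x} :=
    isClosed_eq (continuousOn_iff_continuous_domRestrict.1 hf)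
      (continuousOn_iff_continuous_domRestrict.1 (hg i))
  have hmem : (⟨v, hBW hv⟩ : W) ∈ closure {x : W | f x = g i x} := by
    rw [closure_subtype]
    refine closure_mono ?_ hvc
    rintro x ⟨hxW, hx⟩
    exact ⟨⟨x, hxW⟩, hx, rfl⟩
  rw [hcl.closure_eq] at hmem
  exact hmem

section Root

variable {σ : Type*} [Fintype σ] {k0 : Type*} [CommRing k0] [Algebra k0 ℂ]

/-- the polynomial in `T` obtained by substituting the pair `q` of vectors. -/
noncomputable def evP (P : Polynomial (MvPolynomial (σ ⊕ σ) k0)) (q : (σ → ℂ) × (σ → ℂ)) :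
    Polynomial ℂ :=
  P.map (MvPolynomial.aeval (Sum.elim q.1 q.2)).toRingHom

/-- value of `P` at the pair `q` and `T = t` -/
noncomputable def valP (P : Polynomial (MvPolynomial (σ ⊕ σ) k0)) (x : ((σ → ℂ) × (σ → ℂ)) × ℂ) : ℂ :=
  (evP P x.1).eval x.2

theorem contDiff_aeval (p : MvPolynomial (σ ⊕ σ) k0) :
    ContDiff ℂ ω (fun q : (σ → ℂ) × (σ → ℂ) => MvPolynomial.aeval (Sum.elim q.1 q.2) p) := by
  induction p using MvPolynomial.induction_on with
  | C a => simpa using contDiff_const
  | add p q hp hq => simpa using hp.add hq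
  | mul_X p i hp =>
    rcases i with i | i
    · simp only [map_mul, MvPolynomial.aeval_X, Sum.elim_inl]
      exact hp.mul ((contDiff_apply ℂ ℂ i).comp contDiff_fst)
    · simp only [map_mul, MvPolynomial.aeval_X, Sum.elim_inr]
      exact hp.mul ((contDiff_apply ℂ ℂ i).comp contDiff_snd)

omit [Fintype σ] in
theorem valP_eq (P : Polynomial (MvPolynomial (σ ⊕ σ) k0)) (x : ((σ → ℂ) × (σ → ℂ)) × ℂ) :
    valP P x = ∑ k ∈ P.support, MvPolynomial.aeval (Sum.elim x.1.1 x.1.2) (P.coeff k) * x.2 ^ k := by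
  unfold valP evP
  rw [Polynomial.eval_map, Polynomial.eval₂_eq_sum, Polynomial.sum_def]
  rfl

theorem contDiff_valP (P : Polynomial (MvPolynomial (σ ⊕ σ) k0)) : ContDiff ℂ ω (valP P) := by
  have : valP P = fun x : ((σ → ℂ) × (σ → ℂ)) × ℂ =>
      ∑ k ∈ P.support, MvPolynomial.aeval (Sum.elim x.1.1 x.1.2) (P.coeff k) * x.2 ^ k := by
    funext x
    exact valP_eq P x
  rw [this]
  refine ContDiff.sum fun k _ => ?_
  exact ((contDiff_aeval (P.coeff k)).comp contDiff_fst).mul (contDiff_snd.pow k)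

omit [Fintype σ] in
theorem hasDerivAt_valP (P : Polynomial (MvPolynomial (σ ⊕ σ) k0)) (q : (σ → ℂ) × (σ → ℂ)) (t : ℂ) :
    HasDerivAt (fun s => valP P (q, s)) ((evP P q).derivative.eval t) t :=
  (evP P q).hasDerivAt t

/-- a simple root extends analytically, and is the only root nearby -/
theorem root_germ (P : Polynomial (MvPolynomial (σ ⊕ σ) k0)) (q : (σ → ℂ) × (σ → ℂ)) (t : ℂ)
    (h0 : (evP P q).eval t = 0) (h1 : (evP P q).derivative.eval t ≠ 0) :
    ∃ Φ : (σ → ℂ) × (σ → ℂ) → ℂ, ContDiffAt ℂ ω Φ q ∧ Φ q = t ∧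
      (∀ᶠ x in 𝓝 q, (evP P x).eval (Φ x) = 0) ∧
      (∀ᶠ x in 𝓝 (q, t), (evP P x.1).eval x.2 = 0 → x.2 = Φ x.1) := by
  have hcd : ContDiffAt ℂ ω (valP P) (q, t) := (contDiff_valP P).contDiffAt
  have hinv : (fderiv ℂ (valP P) (q, t) ∘L .inr ℂ ((σ → ℂ) × (σ → ℂ)) ℂ).IsInvertible := by
    have hd : HasFDerivAt (fun s => valP P (q, s))
        (fderiv ℂ (valP P) (q, t) ∘L .inr ℂ ((σ → ℂ) × (σ → ℂ)) ℂ) t := by
      have h2 := (hcd.differentiableAt (by simp)).hasFDerivAt
      exact h2.comp t (hasFDerivAt_prodMk_right q t)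
    have hd' := (hasDerivAt_valP P q t).hasFDerivAt
    rw [hd.unique hd']
    refine ⟨ContinuousLinearEquiv.smulLeft (Units.mk0 _ h1), ?_⟩
    ext
    simp
  have hval : valP P (q, t) = 0 := h0
  refine ⟨hcd.implicitFunction (by simp) hinv, hcd.contDiffAt_implicitFunction _ _,
    hcd.implicitFunction_apply_self _ _, ?_, ?_⟩
  · filter_upwards [hcd.eventually_apply_implicitFunction (by simp) hinv] with x hx
    rw [hval] at hx
    exact hx
  · filter_upwards [hcd.eventually_apply_eq_iff_implicitFunction (by simp) hinv] with x hx h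
    rw [hval] at hx
    exact (hx.1 h).symm

end Root

end Crest.Agent.R260.Out_516
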