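import Crest.Agent.R260.Out1_516

/-!
# R260 (S0398), AG-OUT part 2 (helper516): antipodal map, biquadratic forms, interpolation
-/

set_option autoImplicit false

open Set Filter Topology Metric
open scoped ContDiff

namespace Crest.Agent.R260.Out_516

/-- the antipodal map in the affine coordinate of a twistor line -/
noncomputable def anti (u : ℂ) : ℂ := -(starRingEnd ℂ u)⁻¹

theorem anti_ne {u : ℂ} (hu : u ≠ 0) : anti u ≠ 0 := by
  unfold anti
  simpa using hu

theorem continuousAt_anti {u : ℂ} (hu : u ≠ 0) : ContinuousAt anti u := by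
  unfold anti
  apply ContinuousAt.neg
  apply ContinuousAt.inv₀
  · exact Complex.continuous_conj.continuousAt
  · simpa using hu

/-- biquadratic polynomial with coefficients `c` -/
def bq (c : Fin 3 → Fin 3 → ℂ) (u v : ℂ) : ℂ :=
  ∑ i : Fin 3, ∑ j : Fin 3, c i j * u ^ (i : ℕ) * v ^ (j : ℕ)

theorem coef_zero {n : ℕ} (a : Fin n → ℂ) (s : Set ℂ) (hs : s.Infinite)
    (h : ∀ x ∈ s, ∑ k : Fin n, a k * x ^ (k : ℕ) = 0) : ∀ k, a k = 0 := by
  classical
  set p : Polynomial ℂ := ∑ k : Fin n, Polynomial.C (a k) * Polynomial.X ^ (k : ℕ) with hp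
  have hp0 : p = 0 := by
    apply Polynomial.eq_zero_of_infinite_isRoot
    refine hs.mono ?_
    intro x hx
    change p.eval x = 0
    rw [hp, Polynomial.eval_finsetSum]
    simpa using h x hx
  intro k
  have hc : p.coeff k = a k := by
    rw [hp, Polynomial.finsetSum_coeff]
    rw [Finset.sum_eq_single k]
    · simp
    · intro b _ hb
      rw [Polynomial.coeff_C_mul_X_pow, if_neg]
      intro h'
      exact hb (Fin.ext h'.symm)
    · simp
  rw [← hc, hp0]
  simp

/-- a small real segment around `0` -/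
theorem infinite_seg (r : ℝ) (hr : 0 < r) (c d : ℂ) (hd : d ≠ 0) :
    {x : ℂ | ∃ t : ℝ, |t| < r ∧ x = c + t * d}.Infinite := by
  have h1 : (Ioo (-r) r).Infinite := Ioo_infinite (by linarith)
  have h2 : ((fun t : ℝ => c + t * d) '' Ioo (-r) r).Infinite := by
    apply h1.image
    intro t _ t' _ h
    have : (t : ℂ) * d = t' * d := by simpa using h
    exact_mod_cast mul_right_cancel₀ hd this
  refine h2.mono ?_
  rintro _ ⟨t, ht, rfl⟩
  exact ⟨t, abs_lt.2 ht, rfl⟩

theorem bq_zero_of_anti (c : Fin 3 → Fin 3 → ℂ) (W : Set ℂ) (hW : IsOpen W) (hne : W.Nonempty)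
    (h0 : ∀ u ∈ W, u ≠ 0 ∧ bq c u (anti u) = 0) : ∀ i j, c i j = 0 := by
  classical
  obtain ⟨a, ha⟩ := hne
  obtain ⟨r, hr, hball⟩ := Metric.isOpen_iff.1 hW a ha
  let F : ℂ → ℂ → ℂ := fun X Y =>
    ∑ i : Fin 3, ∑ j : Fin 3, c i j * (-1) ^ (j : ℕ) * X ^ (i : ℕ) * Y ^ (2 - (j : ℕ))
  have hF : ∀ u ∈ W, F u (starRingEnd ℂ u) = 0 := by
    intro u hu
    obtain ⟨hu0, hb⟩ := h0 u hu
    have hc0 : starRingEnd ℂ u ≠ 0 := by simpa using hu0
    have : F u (starRingEnd ℂ u) = (starRingEnd ℂ u) ^ 2 * bq c u (anti u) := by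
      simp only [F, bq, Finset.mul_sum]
      refine Finset.sum_congr rfl fun i _ => Finset.sum_congr rfl fun j _ => ?_
      have hj : (starRingEnd ℂ u) ^ 2 = (starRingEnd ℂ u) ^ (2 - (j : ℕ)) * (starRingEnd ℂ u) ^ (j : ℕ) := by
        rw [← pow_add]
        congr 1
        omega
      have ha : anti u ^ (j : ℕ) = (-1) ^ (j : ℕ) * ((starRingEnd ℂ u) ^ (j : ℕ))⁻¹ := by
        unfold anti
        rw [neg_pow, inv_pow]
      rw [hj, ha]
      have hcj : (starRingEnd ℂ u) ^ (j : ℕ) ≠ 0 := pow_ne_zero _ hc0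
      field_simp
    rw [this, hb, mul_zero]
  -- along real translations
  have hF1 : ∀ t : ℝ, |t| < r / 2 → ∀ s : ℂ,
      F (a + t * Complex.I + s) (starRingEnd ℂ a - t * Complex.I + s) = 0 := by
    intro t ht s
    set α := a + t * Complex.I with hα
    set β := starRingEnd ℂ a - t * Complex.I with hβ
    set P : Polynomial ℂ := ∑ i : Fin 3, ∑ j : Fin 3,
      Polynomial.C (c i j * (-1) ^ (j : ℕ)) * (Polynomial.C α + Polynomial.X) ^ (i : ℕ) *
        (Polynomial.C β + Polynomial.X) ^ (2 - (j : ℕ)) with hP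
    have hPe : ∀ s, P.eval s = F (α + s) (β + s) := by
      intro s
      rw [hP]
      simp only [Polynomial.eval_finsetSum, Polynomial.eval_mul, Polynomial.eval_C,
        Polynomial.eval_pow, Polynomial.eval_add, Polynomial.eval_X, F]
    have hP0 : P = 0 := by
      apply Polynomial.eq_zero_of_infinite_isRoot
      refine (infinite_seg (r / 2) (by positivity) 0 1 one_ne_zero).mono ?_
      rintro _ ⟨s, hs, rfl⟩
      change P.eval _ = 0
      rw [hPe]
      have hmem : a + t * Complex.I + s ∈ W := by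
        apply hball
        rw [mem_ball, dist_eq_norm]
        have : a + t * Complex.I + s - a = t * Complex.I + s := by ring
        rw [this]
        calc ‖(t : ℂ) * Complex.I + s‖ ≤ ‖(t : ℂ) * Complex.I‖ + ‖(s : ℂ)‖ := norm_add_le _ _
          _ = |t| + |s| := by simp
          _ < r := by linarith
      have h := hF _ hmem
      have hconj : starRingEnd ℂ (a + t * Complex.I + s) = β + s := by
        simp [hβ, map_add, map_mul, sub_eq_add_neg]
      rw [hconj] at h
      simpa [hα] using h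
    rw [← hPe, hP0, Polynomial.eval_zero]
  -- for fixed X
  have hF2 : ∀ X : ℂ, ∀ Y : ℂ, Y ∈ {x : ℂ | ∃ t : ℝ, |t| < r / 2 ∧
      x = (X + starRingEnd ℂ a - a) + t * (-2 * Complex.I)} → F X Y = 0 := by
    rintro X _ ⟨t, ht, rfl⟩
    have := hF1 t ht (X - a - t * Complex.I)
    convert this using 2 <;> ring
  have hF3 : ∀ X : ℂ, ∀ j : Fin 3, ∑ i : Fin 3, c i j * X ^ (i : ℕ) = 0 := by
    intro X
    have hz := coef_zero (n := 3) (fun k : Fin 3 =>
      ∑ i : Fin 3, c i (2 - k) * (-1) ^ ((2 - k : Fin 3) : ℕ) * X ^ (i : ℕ)) _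
      (infinite_seg (r / 2) (by positivity) (X + starRingEnd ℂ a - a) (-2 * Complex.I) (by simp)) (by
        intro Y hY
        have := hF2 X Y hY
        simp only [F] at this
        rw [Finset.sum_comm] at this
        simp only [Fin.sum_univ_three] at this ⊢
        simp at this ⊢
        linear_combination this)
    intro j
    have h := hz (2 - j)
    fin_cases j
    · simp [Fin.sum_univ_three] at h ⊢
      linear_combination h
    · simp [Fin.sum_univ_three] at h ⊢
      linear_combination -h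
    · simp [Fin.sum_univ_three] at h ⊢
      linear_combination h
  intro i j
  exact coef_zero (fun i : Fin 3 => c i j) univ infinite_univ (fun X _ => hF3 X j) i

/-- identity theorem + Baire: if off a countable set the value of a holomorphic function on a disc is
the value of one of countably many polynomials, it is one of these polynomials. -/
theorem quad_ext {v1 : ℂ} {r : ℝ} (hr : 0 < r) {f : ℂ → ℂ} (hf : DifferentiableOn ℂ f (ball v1 r))
    {C : Set ℂ} (hC : C.Countable) {Q : Set (Polynomial ℂ)} (hQ : Q.Countable)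
    (h : ∀ v ∈ ball v1 r, v ∉ C → ∃ q ∈ Q, f v = q.eval v) :
    ∃ q ∈ Q, ∀ v ∈ ball v1 r, f v = q.eval v := by
  have : Countable Q := hQ.to_subtype
  obtain ⟨q, B, hB, ⟨z, hz⟩, hBW, hEq⟩ := countable_pick (W := ball v1 r) (C := C) isOpen_ball
    ⟨v1, mem_ball_self hr⟩ hC (ι := Q) f (fun q v => q.1.eval v) hf.continuousOn
    (fun q => q.1.continuous.continuousOn) (by
      intro v hv hvC
      obtain ⟨q, hq, he⟩ := h v hv hvC
      exact ⟨⟨q, hq⟩, he⟩)
  refine ⟨q.1, q.2, ?_⟩
  have hfa : AnalyticOnNhd ℂ f (ball v1 r) := hf.analyticOnNhd isOpen_ball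
  have hqa : AnalyticOnNhd ℂ (fun v => q.1.eval v) (ball v1 r) :=
    q.1.differentiable.differentiableOn.analyticOnNhd isOpen_ball
  have := hfa.eqOn_of_preconnected_of_eventuallyEq hqa (convex_ball v1 r).isPreconnected (hBW hz)
    (by filter_upwards [hB.mem_nhds hz] with v hv using hEq hv)
  exact this

/-- three nodes in a disc -/
noncomputable def nd (c : ℂ) (r : ℝ) (j : Fin 3) : ℂ := c + ((r / 4 : ℝ) : ℂ) * ((j : ℕ) : ℂ)

theorem nd_mem (c : ℂ) {r : ℝ} (hr : 0 < r) (j : Fin 3) : nd c r j ∈ ball c r := by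
  rw [mem_ball, dist_eq_norm]
  unfold nd
  rw [add_sub_cancel_left, norm_mul, Complex.norm_real, Real.norm_of_nonneg (by positivity),
    Complex.norm_natCast]
  have : ((j : ℕ) : ℝ) ≤ 2 := by exact_mod_cast (show (j : ℕ) ≤ 2 by omega)
  nlinarith

theorem nd_inj (c : ℂ) {r : ℝ} (hr : 0 < r) : Function.Injective (nd c r) := by
  intro i j h
  unfold nd at h
  have h1 : ((r / 4 : ℝ) : ℂ) ≠ 0 := by
    exact_mod_cast (by positivity : (r / 4 : ℝ) ≠ 0)
  have h2 := mul_left_cancel₀ h1 (add_left_cancel h)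
  exact Fin.ext (by exact_mod_cast h2)

/-- Lagrange polynomials at the three nodes -/
noncomputable def lg (c : ℂ) (r : ℝ) (j : Fin 3) : Polynomial ℂ :=
  Lagrange.basis Finset.univ (nd c r) j

theorem natDegree_lg (c : ℂ) {r : ℝ} (hr : 0 < r) (j : Fin 3) : (lg c r j).natDegree ≤ 2 := by
  have := Lagrange.degree_basis (s := Finset.univ) (v := nd c r) (nd_inj c hr).injOn (Finset.mem_univ j)
  apply Polynomial.natDegree_le_of_degree_le
  unfold lg
  rw [this]
  simp

theorem interp {c : ℂ} {r : ℝ} (hr : 0 < r) (q : Polynomial ℂ) (hq : q.natDegree ≤ 2) (v : ℂ) :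
    q.eval v = ∑ j : Fin 3, q.eval (nd c r j) * (lg c r j).eval v := by
  have hd : q.degree < ((Finset.univ : Finset (Fin 3)).card : WithBot ℕ) := by
    refine lt_of_le_of_lt Polynomial.degree_le_natDegree ?_
    simp only [Finset.card_univ, Fintype.card_fin]
    exact_mod_cast (by omega : q.natDegree < 3)
  have h := Lagrange.eq_interpolate (s := Finset.univ) (v := nd c r) (nd_inj c hr).injOn hd
  conv_lhs => rw [h]
  rw [Lagrange.interpolate_apply, Polynomial.eval_finsetSum]
  refine Finset.sum_congr rfl fun j _ => ?_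
  rw [Polynomial.eval_mul, Polynomial.eval_C]
  rfl

theorem lg_eval (c : ℂ) {r : ℝ} (hr : 0 < r) (j : Fin 3) (v : ℂ) :
    (lg c r j).eval v = ∑ k : Fin 3, (lg c r j).coeff k * v ^ (k : ℕ) := by
  rw [Polynomial.eval_eq_sum_range' (lt_of_le_of_lt (natDegree_lg c hr j) (by norm_num : 2 < 3)),
    Finset.sum_range]

theorem dense_key {T : Type*} [TopologicalSpace T] {N : Set T} (hN : IsOpen N) (g : T → ℂ)
    (hg : ContinuousOn g N) {D : Set T} (hD : Dense D) (h : ∀ a ∈ D, a ∈ N → g a = 0) :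
    ∀ a ∈ N, g a = 0 := by
  intro a ha
  by_contra hne
  have hopen : IsOpen (N ∩ g ⁻¹' {0}ᶜ) := hg.isOpen_inter_preimage hN isOpen_compl_singleton
  obtain ⟨b, ⟨hbN, hb0⟩, hbD⟩ := hD.inter_open_nonempty _ hopen ⟨a, ha, hne⟩
  exact hb0 (h b hbD hbN)

/-- closing a relation under limits, twice -/
theorem dense_close {A B : Type*} [TopologicalSpace A] [TopologicalSpace B] {N : Set A} {M : Set B}
    (hN : IsOpen N) (hM : IsOpen M) (f : A → B → ℂ)
    (hfa : ∀ b ∈ M, ContinuousOn (fun a => f a b) N) (hfb : ∀ a ∈ N, ContinuousOn (f a) M)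
    {DA : Set A} (hDA : Dense DA)
    (h : ∀ a ∈ DA, a ∈ N → ∃ DB : Set B, Dense DB ∧ ∀ b ∈ DB, b ∈ M → f a b = 0) :
    ∀ a ∈ N, ∀ b ∈ M, f a b = 0 := by
  intro a ha b hb
  refine dense_key hN (fun a => f a b) (hfa b hb) hDA ?_ a ha
  intro a' ha' haN'
  obtain ⟨DB, hDB, hz⟩ := h a' ha' haN'
  exact dense_key hM (f a') (hfb a' haN') hDB hz b hb

end Crest.Agent.R260.Out_516
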