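import Mathlib

/-!
# R260 (S0398), AG-PAIR, part 1 (helper764): complexification lemma

`totally_real_zero` : a holomorphic function on a polydisc of `ℂ^m` centred at a real point which
vanishes at the real points of the polydisc is zero.
`anti_diag_zero`    : `h` holomorphic near `(a, conj a)` with `h (ζ, conj ζ) = 0` is zero near
`(a, conj a)`.
-/

set_option autoImplicit false

open Set Filter Topology Complex Metric
open scoped ComplexConjugate

namespace Crest.Agent.R260.Pair_764

/-- one variable: a holomorphic function on a disc with centre `0` vanishing on the real diameter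
is zero. -/
theorem disc_zero (g : ℂ → ℂ) (r : ℝ) (hr : 0 < r) (hg : DifferentiableOn ℂ g (ball 0 r))
    (h0 : ∀ t : ℝ, |t| < r → g t = 0) : ∀ z ∈ ball (0 : ℂ) r, g z = 0 := by
  have han : AnalyticOnNhd ℂ g (ball 0 r) := hg.analyticOnNhd isOpen_ball
  have hfr : ∃ᶠ z in 𝓝[≠] (0 : ℂ), g z = 0 := by
    have hlim : Tendsto (fun j : ℕ => ((r / (j + 2 : ℝ) : ℝ) : ℂ)) atTop (𝓝[≠] (0 : ℂ)) := by
      apply tendsto_nhdsWithin_of_tendsto_nhds_of_eventually_within
      · have h1 : Tendsto (fun j : ℕ => (r / (j + 2 : ℝ) : ℝ)) atTop (𝓝 0) := by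
          apply Tendsto.div_atTop tendsto_const_nhds
          exact tendsto_atTop_add_const_right _ _ tendsto_natCast_atTop_atTop
        have h2 : Tendsto (fun x : ℝ => (x : ℂ)) (𝓝 0) (𝓝 ((0 : ℝ) : ℂ)) :=
          Complex.continuous_ofReal.tendsto 0
        have h3 := h2.comp h1
        rw [Complex.ofReal_zero] at h3
        exact h3
      · refine Eventually.of_forall (fun j => ?_)
        have hpos : (0 : ℝ) < (j : ℝ) + 2 := by positivity
        have : (r / (j + 2 : ℝ) : ℝ) ≠ 0 := (div_pos hr hpos).ne'
        simpa using (Complex.ofReal_ne_zero.mpr this)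
    refine hlim.frequently (Eventually.frequently (Eventually.of_forall (fun j => ?_)))
    apply h0
    have hpos : (0 : ℝ) < (j : ℝ) + 2 := by positivity
    rw [abs_of_pos (div_pos hr hpos), div_lt_iff₀ hpos]
    have : (0 : ℝ) ≤ j := Nat.cast_nonneg j
    nlinarith
  have := han.eqOn_zero_of_preconnected_of_frequently_eq_zero
    (convex_ball (0 : ℂ) r).isPreconnected (mem_ball_self hr) hfr
  exact fun z hz => this hz

/-- a holomorphic function on a polydisc centred at `0` which vanishes at real points is zero. -/
theorem totally_real_zero {m : ℕ} (f : (Fin m → ℂ) → ℂ) (r : ℝ) (hr : 0 < r)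
    (hf : DifferentiableOn ℂ f (ball 0 r))
    (h0 : ∀ x : Fin m → ℝ, (∀ i, |x i| < r) → f (fun i => (x i : ℂ)) = 0) :
    ∀ z ∈ ball (0 : Fin m → ℂ) r, f z = 0 := by
  classical
  have key : ∀ s : Finset (Fin m), ∀ z ∈ ball (0 : Fin m → ℂ) r,
      (∀ i, i ∉ s → (z i).im = 0) → f z = 0 := by
    intro s
    induction s using Finset.induction_on with
    | empty =>
      intro z hz him
      have hz' : ∀ i, ‖z i‖ < r := by
        intro i
        have := (dist_pi_lt_iff hr).1 (mem_ball.1 hz) i
        simpa using this
      have hzr : z = fun i => ((z i).re : ℂ) := by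
        funext i
        apply Complex.ext
        · simp
        · simpa using him i (Finset.notMem_empty i)
      rw [hzr]
      apply h0
      intro i
      exact lt_of_le_of_lt (Complex.abs_re_le_norm (z i)) (hz' i)
    | insert i s his ih =>
      intro z hz him
      have hz' : ∀ j, ‖z j‖ < r := by
        intro j
        have := (dist_pi_lt_iff hr).1 (mem_ball.1 hz) j
        simpa using this
      have hup : ∀ t ∈ ball (0 : ℂ) r, Function.update z i t ∈ ball (0 : Fin m → ℂ) r := by
        intro t ht
        rw [mem_ball, dist_pi_lt_iff hr]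
        intro j
        by_cases hj : j = i
        · subst hj
          simpa using ht
        · simp [Function.update_of_ne hj, hz' j]
      have hg : DifferentiableOn ℂ (fun t => f (Function.update z i t)) (ball 0 r) := by
        refine hf.comp ?_ hup
        have : Differentiable ℂ (fun t : ℂ => Function.update z i t) := by
          rw [differentiable_pi]
          intro j
          by_cases hj : j = i
          · subst hj
            simp
          · simp [Function.update_of_ne hj]
        exact this.differentiableOn
      have hz0 : ∀ t : ℝ, |t| < r → (fun t : ℂ => f (Function.update z i t)) (t : ℂ) = 0 := by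
        intro t ht
        apply ih
        · exact hup _ (by simpa using ht)
        · intro j hj
          by_cases hji : j = i
          · subst hji
            simp
          · rw [Function.update_of_ne hji]
            exact him j (by simp [hji, hj])
      have := disc_zero _ r hr hg hz0 (z i) (by simpa using hz' i)
      simpa using this
  intro z hz
  exact key Finset.univ z hz (fun i hi => absurd (Finset.mem_univ i) hi)

/-- coordinatewise conjugation -/
def cj {m : ℕ} (z : Fin m → ℂ) : Fin m → ℂ := fun i => conj (z i)

/-- `h` holomorphic on a product of two polydiscs of radius `r` with centres `a`, `conj a`, with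
`h (ζ, conj ζ) = 0`, vanishes on the product of the polydiscs of radius `r / 2`. -/
theorem anti_diag_zero {m : ℕ} (h : (Fin m → ℂ) × (Fin m → ℂ) → ℂ) (a : Fin m → ℂ) (r : ℝ)
    (hr : 0 < r) (hh : DifferentiableOn ℂ h (ball a r ×ˢ ball (cj a) r))
    (h0 : ∀ ζ ∈ ball a r, h (ζ, cj ζ) = 0) :
    ∀ z ∈ ball a (r / 2), ∀ w ∈ ball (cj a) (r / 2), h (z, w) = 0 := by
  classical
  -- coordinates `x + i y`, `x - i y`
  let e : Fin (m + m) ≃ Fin m ⊕ Fin m := finSumFinEquiv.symm
  let X : (Fin (m + m) → ℂ) → Fin m → ℂ := fun v i => v (e.symm (Sum.inl i))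
  let Y : (Fin (m + m) → ℂ) → Fin m → ℂ := fun v i => v (e.symm (Sum.inr i))
  let φ : (Fin (m + m) → ℂ) → (Fin m → ℂ) × (Fin m → ℂ) := fun v =>
    (fun i => a i + (X v i + I * Y v i), fun i => conj (a i) + (X v i - I * Y v i))
  have hφd : Differentiable ℂ φ := by
    apply Differentiable.prodMk
    · rw [differentiable_pi]
      intro i
      fun_prop
    · rw [differentiable_pi]
      intro i
      fun_prop
  have hr2 : 0 < r / 2 := by positivity
  have hmem : ∀ v ∈ ball (0 : Fin (m + m) → ℂ) (r / 2), φ v ∈ ball a r ×ˢ ball (cj a) r := by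
    intro v hv
    have hv' : ∀ j, ‖v j‖ < r / 2 := by
      intro j
      have := (dist_pi_lt_iff hr2).1 (mem_ball.1 hv) j
      simpa using this
    refine ⟨?_, ?_⟩
    · rw [mem_ball, dist_pi_lt_iff hr]
      intro i
      have h1 : ‖X v i + I * Y v i‖ < r := by
        calc ‖X v i + I * Y v i‖ ≤ ‖X v i‖ + ‖I * Y v i‖ := norm_add_le _ _
          _ = ‖X v i‖ + ‖Y v i‖ := by simp
          _ < r / 2 + r / 2 := add_lt_add (hv' _) (hv' _)
          _ = r := by ring
      simpa [φ, dist_eq_norm] using h1
    · rw [mem_ball, dist_pi_lt_iff hr]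
      intro i
      have h1 : ‖X v i - I * Y v i‖ < r := by
        calc ‖X v i - I * Y v i‖ ≤ ‖X v i‖ + ‖I * Y v i‖ := norm_sub_le _ _
          _ = ‖X v i‖ + ‖Y v i‖ := by simp
          _ < r / 2 + r / 2 := add_lt_add (hv' _) (hv' _)
          _ = r := by ring
      simpa [φ, dist_eq_norm, cj] using h1
  have hfz : ∀ v ∈ ball (0 : Fin (m + m) → ℂ) (r / 2), h (φ v) = 0 := by
    apply totally_real_zero (fun v => h (φ v)) (r / 2) hr2
    · exact hh.comp hφd.differentiableOn hmem
    · intro x hx
      have hx' : (fun i => (x i : ℂ)) ∈ ball (0 : Fin (m + m) → ℂ) (r / 2) := by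
        rw [mem_ball, dist_pi_lt_iff hr2]
        intro j
        simpa using hx j
      have hm := hmem _ hx'
      have h2 : (φ (fun i => (x i : ℂ))).2 = cj (φ (fun i => (x i : ℂ))).1 := by
        funext i
        simp [φ, cj, X, Y]
        ring
      have h3 := h0 _ hm.1
      rw [← h2] at h3
      simpa using h3
  intro z hz w hw
  let v : Fin (m + m) → ℂ := fun j => Sum.elim (fun i => ((z i - a i) + (w i - conj (a i))) / 2)
    (fun i => ((z i - a i) - (w i - conj (a i))) / (2 * I)) (e j)
  have hz' : ∀ j, ‖z j - a j‖ < r / 2 := by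
    intro j
    have := (dist_pi_lt_iff hr2).1 (mem_ball.1 hz) j
    simpa [dist_eq_norm] using this
  have hw' : ∀ j, ‖w j - conj (a j)‖ < r / 2 := by
    intro j
    have := (dist_pi_lt_iff hr2).1 (mem_ball.1 hw) j
    simpa [dist_eq_norm, cj] using this
  have hv : v ∈ ball (0 : Fin (m + m) → ℂ) (r / 2) := by
    rw [mem_ball, dist_pi_lt_iff hr2]
    intro j
    rcases hj : e j with i | i
    · have : v j = ((z i - a i) + (w i - conj (a i))) / 2 := by simp [v, hj]
      rw [Pi.zero_apply, dist_zero_right, this, norm_div]
      have h1 : ‖(z i - a i) + (w i - conj (a i))‖ < r / 2 + r / 2 :=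
        lt_of_le_of_lt (norm_add_le _ _) (add_lt_add (hz' i) (hw' i))
      simp only [Complex.norm_ofNat]
      linarith
    · have : v j = ((z i - a i) - (w i - conj (a i))) / (2 * I) := by simp [v, hj]
      rw [Pi.zero_apply, dist_zero_right, this, norm_div]
      have h1 : ‖(z i - a i) - (w i - conj (a i))‖ < r / 2 + r / 2 :=
        lt_of_le_of_lt (norm_sub_le _ _) (add_lt_add (hz' i) (hw' i))
      simp only [norm_mul, Complex.norm_ofNat, Complex.norm_I, mul_one]
      linarith
  have hφv : φ v = (z, w) := by
    have hX : ∀ i, X v i = ((z i - a i) + (w i - conj (a i))) / 2 := by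
      intro i
      simp [X, v]
    have hY : ∀ i, Y v i = ((z i - a i) - (w i - conj (a i))) / (2 * I) := by
      intro i
      simp [Y, v]
    apply Prod.ext
    · funext i
      simp only [φ, hX, hY]
      field_simp
      ring
    · funext i
      simp only [φ, hX, hY]
      field_simp
      ring
  rw [← hφv]
  exact hfz v hv

end Crest.Agent.R260.Pair_764
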