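import Crest.Agent.R260.Pair1_764
import Crest.Agent.R275.Core_144

/-!
# R260 (S0398), AG-PAIR, part 2 (helper764): the anti-diagonal of a complex manifold

`M` connected complex manifold (`Atl n M`), `σ : M → M` a continuous antiholomorphic involution.
`anti_diag_manifold` : a family of local holomorphic functions on `M × M` with a chart independent
zero set, vanishing at `(z, σ z)` for `z` in a non-empty open set, vanishes on `M × M`.
`antiHol_of_real`    : antiholomorphic = real derivative anticommutes with `i`.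
`poly_anti_diag`     : the same for polynomials in homogeneous coordinates.
-/

set_option autoImplicit false

open Set Filter Topology Complex Metric
open scoped ComplexConjugate

namespace Crest.Agent.R260.Pair_764

open Crest.Agent.R275.Geo Crest.Agent.R275.Core144

/-- identity theorem on a convex open set -/
theorem convex_zero {E : Type*} [NormedAddCommGroup E] [NormedSpace ℂ E] {U V : Set E}
    (hU : IsOpen U) (hc : Convex ℝ U) (f : E → ℂ) (hf : DifferentiableOn ℂ f U)
    (hV : IsOpen V) (hne : (V ∩ U).Nonempty) (h0 : ∀ x ∈ V ∩ U, f x = 0) : ∀ x ∈ U, f x = 0 := by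
  obtain ⟨p, hpV, hpU⟩ := hne
  intro q hq
  let γ : ℂ → E := fun t => p + t • (q - p)
  have hγd : Differentiable ℂ γ := by
    intro t
    exact (differentiableAt_const _).add ((differentiableAt_id).smul_const _)
  have hγc : Continuous γ := hγd.continuous
  let S : Set ℂ := γ ⁻¹' U
  have hSo : IsOpen S := hU.preimage hγc
  have hSc : Convex ℝ S := by
    intro s hs t ht a b ha hb hab
    have h1 : γ (a • s + b • t) = a • γ s + b • γ t := by
      simp only [γ]
      have e1 : p = (a : ℝ) • p + (b : ℝ) • p := by rw [← add_smul, hab, one_smul]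
      have e2 : (a • s + b • t) • (q - p) = a • (s • (q - p)) + b • (t • (q - p)) := by
        rw [add_smul, smul_assoc, smul_assoc]
      rw [e2, smul_add, smul_add]
      nth_rewrite 1 [e1]
      abel
    show γ (a • s + b • t) ∈ U
    rw [h1]
    exact hc hs ht ha hb hab
  have hg : DifferentiableOn ℂ (fun t => f (γ t)) S :=
    hf.comp hγd.differentiableOn (fun t ht => ht)
  have han : AnalyticOnNhd ℂ (fun t => f (γ t)) S := hg.analyticOnNhd hSo
  have h0S : (0 : ℂ) ∈ S := by
    show γ 0 ∈ U
    simpa [γ] using hpU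
  have h1S : (1 : ℂ) ∈ S := by
    show γ 1 ∈ U
    simpa [γ] using hq
  have hev : (fun t => f (γ t)) =ᶠ[𝓝 (0 : ℂ)] 0 := by
    have : γ ⁻¹' (V ∩ U) ∈ 𝓝 (0 : ℂ) := by
      apply ((hV.inter hU).preimage hγc).mem_nhds
      show γ 0 ∈ V ∩ U
      simpa [γ] using ⟨hpV, hpU⟩
    filter_upwards [this] with t ht
    exact h0 _ ht
  have := han.eqOn_zero_of_preconnected_of_eventuallyEq_zero hSc.isPreconnected h0S hev h1S
  simpa [γ] using this

/-- coordinatewise conjugation of `ℂ^n` -/
def cjE {n : ℕ} (z : Cn n) : Cn n := WithLp.toLp 2 (fun a => conj (z a))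

@[simp] theorem cjE_apply {n : ℕ} (z : Cn n) (a : Fin n) : cjE z a = conj (z a) := rfl

@[simp] theorem cjE_cjE {n : ℕ} (z : Cn n) : cjE (cjE z) = z := by
  ext a
  simp

theorem cjE_add {n : ℕ} (z w : Cn n) : cjE (z + w) = cjE z + cjE w := by
  ext a
  simp

theorem cjE_smul {n : ℕ} (c : ℂ) (z : Cn n) : cjE (c • z) = conj c • cjE z := by
  ext a
  simp

/-- `cjE` as a real continuous linear map -/
noncomputable def cjL (n : ℕ) : Cn n →L[ℝ] Cn n :=
  LinearMap.toContinuousLinearMap
    { toFun := cjE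
      map_add' := cjE_add
      map_smul' := fun c z => by
        have := cjE_smul (c : ℂ) z
        simpa using this }

@[simp] theorem cjL_apply {n : ℕ} (z : Cn n) : cjL n z = cjE z := rfl

theorem continuous_cjE {n : ℕ} : Continuous (cjE : Cn n → Cn n) := (cjL n).continuous

variable {n : ℕ} {M : Type} [TopologicalSpace M]

/-- `σ` is antiholomorphic in the charts -/
def AntiHol (A : Atl n M) (σ : M → M) : Prop :=
  ∀ i j, DifferentiableOn ℂ (fun w => A.e j (σ ((A.e i).symm (cjE w))))
    {w | cjE w ∈ (A.e i).target ∧ σ ((A.e i).symm (cjE w)) ∈ (A.e j).source}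

/-- a map whose real derivative anticommutes with `i` is antiholomorphic -/
theorem antiHol_of_real (A : Atl n M) (σ : M → M)
    (h : ∀ i j, ∀ x ∈ (A.e i).source, σ x ∈ (A.e j).source →
      DifferentiableAt ℝ (fun z => A.e j (σ ((A.e i).symm z))) (A.e i x) ∧
      ∀ v : Cn n, fderiv ℝ (fun z => A.e j (σ ((A.e i).symm z))) (A.e i x) (Complex.I • v) =
        - Complex.I • fderiv ℝ (fun z => A.e j (σ ((A.e i).symm z))) (A.e i x) v) :
    AntiHol A σ := by
  intro i j w hw
  obtain ⟨hw1, hw2⟩ := hw
  have hx := (A.e i).map_target hw1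
  obtain ⟨hd, hI⟩ := h i j _ hx hw2
  rw [(A.e i).right_inv hw1] at hd hI
  set f : Cn n → Cn n := fun z => A.e j (σ ((A.e i).symm z)) with hf
  set D := fderiv ℝ f (cjE w) with hD
  have h1 : HasFDerivAt f D (cjE w) := hd.hasFDerivAt
  have h2 : HasFDerivAt (fun w => f (cjL n w)) (D.comp (cjL n)) w :=
    HasFDerivAt.comp w (f := fun w => cjL n w) h1 (cjL n).hasFDerivAt
  -- the derivative is complex linear
  let L : Cn n →ₗ[ℂ] Cn n :=
    { toFun := fun v => D (cjE v)
      map_add' := fun u v => by rw [cjE_add, map_add]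
      map_smul' := fun c v => by
        have hI' : ∀ v : Cn n, D (Complex.I • v) = - (Complex.I • D v) := by
          intro v
          rw [hI v, neg_smul]
        rw [cjE_smul]
        have e1 : (conj c) • cjE v = (c.re : ℝ) • cjE v + (-(c.im) : ℝ) • (Complex.I • cjE v) := by
          ext a
          simp only [cjE_apply, PiLp.smul_apply, PiLp.add_apply, smul_eq_mul, Complex.real_smul]
          rw [show conj c = (c.re : ℂ) - (c.im : ℂ) * Complex.I from by
            apply Complex.ext <;> simp]
          push_cast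
          ring
        have e2 : c • D (cjE v) = (c.re : ℝ) • D (cjE v) + (c.im : ℝ) • (Complex.I • D (cjE v)) := by
          ext a
          simp only [PiLp.smul_apply, PiLp.add_apply, smul_eq_mul, Complex.real_smul]
          nth_rewrite 1 [← Complex.re_add_im c]
          ring
        rw [e1, map_add, map_smul, map_smul, hI', RingHom.id_apply, e2, smul_neg, neg_smul,
          neg_neg] }
  have hLc : Continuous L := L.continuous_of_finiteDimensional
  have h3 : HasFDerivAt (𝕜 := ℂ) (fun w => f (cjE w)) (⟨L, hLc⟩ : Cn n →L[ℂ] Cn n) w := by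
    refine hasFDerivAt_of_restrictScalars ℝ (g' := D.comp (cjL n)) ?_ ?_
    · exact h2
    · ext v
      rfl
  exact h3.differentiableAt.differentiableWithinAt

variable {A : Atl n M}

/-- **P1b**: the anti-diagonal `{(z, σ z)}` is Zariski dense -/
theorem anti_diag_manifold [PreconnectedSpace M] (σ : M → M) (hσ : Continuous σ)
    (hσσ : ∀ x, σ (σ x) = x) (hanti : AntiHol A σ) {Γ : Type*}
    (h : A.ι → A.ι → Γ → M → M → ℂ)
    (hol : ∀ i j c, DifferentiableOn ℂ
      (fun p : Cn n × Cn n => h i j c ((A.e i).symm p.1) ((A.e j).symm p.2))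
      ((A.e i).target ×ˢ (A.e j).target))
    (cc : ∀ i i' j j' x y, x ∈ (A.e i).source → x ∈ (A.e i').source → y ∈ (A.e j).source →
      y ∈ (A.e j').source → (∀ c, h i j c x y = 0) → ∀ c, h i' j' c x y = 0)
    (W : Set M) (hW : IsOpen W) (hne : W.Nonempty)
    (hz : ∀ z ∈ W, ∀ i j c, z ∈ (A.e i).source → σ z ∈ (A.e j).source → h i j c z (σ z) = 0) :
    ∀ x y i j c, x ∈ (A.e i).source → y ∈ (A.e j).source → h i j c x y = 0 := by
  classical
  let V : Set (M × M) := {p | ∀ i j c, p.1 ∈ (A.e i).source → p.2 ∈ (A.e j).source →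
    h i j c p.1 p.2 = 0}
  have hVmem : ∀ x y i j, x ∈ (A.e i).source → y ∈ (A.e j).source → (∀ c, h i j c x y = 0) →
      (x, y) ∈ V := by
    intro x y i j hx hy h0 i' j' c hx' hy'
    exact cc i i' j j' x y hx hx' hy hy' h0 c
  -- Step 1: the zero set has interior
  have step1 : (interior V).Nonempty := by
    obtain ⟨z0, hz0⟩ := hne
    obtain ⟨i, hi⟩ := A.cover z0
    obtain ⟨j, hj⟩ := A.cover (σ z0)
    let L : Cn n ≃L[ℂ] (Fin n → ℂ) := EuclideanSpace.equiv (Fin n) ℂ
    have hLcj : ∀ z : Cn n, L (cjE z) = cj (L z) := fun z => rfl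
    have hLcj' : ∀ u : Fin n → ℂ, cjE (L.symm u) = L.symm (cj u) := by
      intro u
      apply L.injective
      rw [hLcj, L.apply_symm_apply, L.apply_symm_apply]
    have hcj2 : ∀ u : Fin n → ℂ, cj (cj u) = u := by
      intro u
      funext a
      simp [cj]
    have hballcj : ∀ (u a : Fin n → ℂ) (s : ℝ), u ∈ ball a s → cj u ∈ ball (cj a) s := by
      intro u a s hu
      have hs : 0 < s := pos_of_mem_ball hu
      rw [mem_ball, dist_pi_lt_iff hs] at hu ⊢
      intro b
      have := hu b
      simp only [cj]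
      rw [dist_eq_norm] at this ⊢
      rw [← map_sub, Complex.norm_conj]
      exact this
    -- the open set of good points
    let O : Set M := (A.e i).source ∩ (W ∩ σ ⁻¹' (A.e j).source)
    have hO : IsOpen O := (A.e i).open_source.inter (hW.inter ((A.e j).open_source.preimage hσ))
    let O' : Set (Cn n) := (A.e i).target ∩ (A.e i).symm ⁻¹' O
    have hO' : IsOpen O' := (A.e i).isOpen_inter_preimage_symm hO
    have haO' : A.e i z0 ∈ O' := by
      refine ⟨(A.e i).map_source hi, ?_⟩
      rw [mem_preimage, (A.e i).left_inv hi]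
      exact ⟨hi, hz0, hj⟩
    have hLO : IsOpen (L.symm ⁻¹' O') := hO'.preimage L.symm.continuous
    have hamem : L (A.e i z0) ∈ L.symm ⁻¹' O' := by
      rw [mem_preimage, L.symm_apply_apply]
      exact haO'
    obtain ⟨r, hr, hball⟩ := Metric.isOpen_iff.1 hLO _ hamem
    have hball' : ∀ u ∈ ball (L (A.e i z0)) r, L.symm u ∈ (A.e i).target ∧
        (A.e i).symm (L.symm u) ∈ W ∧ σ ((A.e i).symm (L.symm u)) ∈ (A.e j).source := by
      intro u hu
      obtain ⟨h1, h2⟩ := hball hu
      exact ⟨h1, h2.2.1, h2.2.2⟩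
    have hQ : ∀ c, ∀ u ∈ ball (L (A.e i z0)) (r / 2), ∀ v ∈ ball (cj (L (A.e i z0))) (r / 2),
        h i j c ((A.e i).symm (L.symm u)) (σ ((A.e i).symm (L.symm (cj v)))) = 0 := by
      intro c
      have hd : DifferentiableOn ℂ (fun q : (Fin n → ℂ) × (Fin n → ℂ) =>
          h i j c ((A.e i).symm (L.symm q.1)) (σ ((A.e i).symm (L.symm (cj q.2)))))
          (ball (L (A.e i z0)) r ×ˢ ball (cj (L (A.e i z0))) r) := by
        have hv : ∀ v ∈ ball (cj (L (A.e i z0))) r, cj v ∈ ball (L (A.e i z0)) r := by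
          intro v hv
          have := hballcj _ _ _ hv
          rwa [hcj2] at this
        have hmap : DifferentiableOn ℂ (fun q : (Fin n → ℂ) × (Fin n → ℂ) =>
            (L.symm q.1, A.e j (σ ((A.e i).symm (cjE (L.symm q.2))))))
            (ball (L (A.e i z0)) r ×ˢ ball (cj (L (A.e i z0))) r) := by
          apply DifferentiableOn.prodMk
          · exact (L.symm.differentiable.comp differentiable_fst).differentiableOn
          · refine (hanti i j).comp
              ((L.symm.differentiable.comp differentiable_snd).differentiableOn) ?_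
            rintro ⟨q1, q2⟩ ⟨-, hq2⟩
            have := hball' _ (hv _ hq2)
            show cjE (L.symm q2) ∈ (A.e i).target ∧ σ ((A.e i).symm (cjE (L.symm q2))) ∈
              (A.e j).source
            rw [hLcj']
            exact ⟨this.1, this.2.2⟩
        have hcomp := (hol i j c).comp hmap (by
          rintro ⟨q1, q2⟩ ⟨hq1, hq2⟩
          refine ⟨(hball' _ hq1).1, ?_⟩
          apply (A.e j).map_source
          show σ ((A.e i).symm (cjE (L.symm q2))) ∈ (A.e j).source
          rw [hLcj']
          exact (hball' _ (hv _ hq2)).2.2)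
        refine hcomp.congr ?_
        rintro ⟨q1, q2⟩ ⟨hq1, hq2⟩
        simp only [Function.comp]
        rw [hLcj', (A.e j).left_inv (hball' _ (hv _ hq2)).2.2]
      have h00 : ∀ ζ ∈ ball (L (A.e i z0)) r, (fun q : (Fin n → ℂ) × (Fin n → ℂ) =>
          h i j c ((A.e i).symm (L.symm q.1)) (σ ((A.e i).symm (L.symm (cj q.2)))))
            (ζ, cj ζ) = 0 := by
        intro ζ hζ
        simp only
        rw [hcj2]
        obtain ⟨h1, h2, h3⟩ := hball' _ hζ
        exact hz _ h2 i j c ((A.e i).map_target h1) h3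
      exact anti_diag_zero _ _ r hr hd h00
    -- the open box
    let B : Set M := (A.e i).source ∩ (A.e i) ⁻¹' (L ⁻¹' ball (L (A.e i z0)) (r / 2))
    have hB : IsOpen B :=
      (A.e i).isOpen_inter_preimage (isOpen_ball.preimage L.continuous)
    have hBV : B ×ˢ (σ ⁻¹' B) ⊆ V := by
      rintro ⟨x, y⟩ ⟨hx, hy⟩
      obtain ⟨hx1, hx2⟩ := hx
      obtain ⟨hy1, hy2⟩ := hy
      simp only [mem_preimage] at hx2 hy2
      have hyW := hball' (L (A.e i (σ y))) (ball_subset_ball (by linarith) hy2)
      rw [L.symm_apply_apply, (A.e i).left_inv hy1, hσσ] at hyW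
      have hy3 : y ∈ (A.e j).source := hyW.2.2
      apply hVmem x y i j hx1 hy3
      intro c
      have := hQ c (L (A.e i x)) hx2 (cj (L (A.e i (σ y)))) (hballcj _ _ _ hy2)
      rwa [L.symm_apply_apply, (A.e i).left_inv hx1, hcj2, L.symm_apply_apply,
        (A.e i).left_inv hy1, hσσ] at this
    refine ⟨(z0, σ z0), ?_⟩
    rw [mem_interior]
    refine ⟨B ×ˢ (σ ⁻¹' B), hBV, hB.prod (hB.preimage hσ), ?_, ?_⟩
    · exact ⟨hi, mem_ball_self (by positivity)⟩
    · show σ (σ z0) ∈ B
      rw [hσσ]
      exact ⟨hi, mem_ball_self (by positivity)⟩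
  -- Step 2: the interior is closed
  have step2 : IsClosed (interior V) := by
    rw [← closure_subset_iff_isClosed]
    rintro ⟨x, y⟩ hxy
    obtain ⟨i, hi⟩ := A.cover x
    obtain ⟨j, hj⟩ := A.cover y
    obtain ⟨ε, hε, hεb⟩ := Metric.isOpen_iff.1 (A.e i).open_target _ ((A.e i).map_source hi)
    obtain ⟨δ, hδ, hδb⟩ := Metric.isOpen_iff.1 (A.e j).open_target _ ((A.e j).map_source hj)
    let N : Set (M × M) := ((A.e i).source ∩ (A.e i) ⁻¹' ball (A.e i x) ε) ×ˢ
      ((A.e j).source ∩ (A.e j) ⁻¹' ball (A.e j y) δ)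
    have hN : IsOpen N :=
      ((A.e i).isOpen_inter_preimage isOpen_ball).prod ((A.e j).isOpen_inter_preimage isOpen_ball)
    have hxyN : (x, y) ∈ N := ⟨⟨hi, mem_ball_self hε⟩, ⟨hj, mem_ball_self hδ⟩⟩
    obtain ⟨⟨x', y'⟩, hN', hV'⟩ := mem_closure_iff.1 hxy N hN hxyN
    have hNV : N ⊆ V := by
      rintro ⟨s, t⟩ ⟨⟨hs1, hs2⟩, ⟨ht1, ht2⟩⟩
      simp only [mem_preimage] at hs2 ht2
      apply hVmem s t i j hs1 ht1
      intro c
      let U : Set (Cn n × Cn n) := ball (A.e i x) ε ×ˢ ball (A.e j y) δ
      have hUo : IsOpen U := isOpen_ball.prod isOpen_ball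
      have hUc : Convex ℝ U := (convex_ball _ _).prod (convex_ball _ _)
      have hUs : U ⊆ (A.e i).target ×ˢ (A.e j).target := prod_mono hεb hδb
      -- open subset of zeros
      let T : Set (Cn n × Cn n) := U ∩ (fun p => ((A.e i).symm p.1, (A.e j).symm p.2)) ⁻¹'
        interior V
      have hT : IsOpen T := by
        apply ContinuousOn.isOpen_inter_preimage _ hUo isOpen_interior
        apply ContinuousOn.prodMk
        · exact ((A.e i).continuousOn_symm).comp continuousOn_fst (fun p hp => hεb hp.1)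
        · exact ((A.e j).continuousOn_symm).comp continuousOn_snd (fun p hp => hδb hp.2)
      have hTne : (T ∩ U).Nonempty := by
        refine ⟨(A.e i x', A.e j y'), ⟨⟨hN'.1.2, hN'.2.2⟩, ?_⟩, ⟨hN'.1.2, hN'.2.2⟩⟩
        simp only [mem_preimage]
        rw [(A.e i).left_inv hN'.1.1, (A.e j).left_inv hN'.2.1]
        exact hV'
      have hzero := convex_zero hUo hUc _ ((hol i j c).mono hUs) hT hTne (by
        rintro ⟨p1, p2⟩ ⟨⟨hp, hpV⟩, -⟩
        have := interior_subset hpV
        exact this i j c ((A.e i).map_target (hεb hp.1)) ((A.e j).map_target (hδb hp.2)))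
        (A.e i s, A.e j t) ⟨hs2, ht2⟩
      simp only at hzero
      rwa [(A.e i).left_inv hs1, (A.e j).left_inv ht1] at hzero
    exact mem_interior.2 ⟨N, hNV, hN, hxyN⟩
  have hclopen : IsClopen (interior V) := ⟨step2, isOpen_interior⟩
  have huniv : interior V = univ := IsClopen.eq_univ hclopen step1
  intro x y i j c hx hy
  have : (x, y) ∈ interior V := by rw [huniv]; trivial
  exact interior_subset this i j c hx hy

/-! ### polynomials in homogeneous coordinates -/

/-- scaling of the blocks of variables in a multihomogeneous polynomial -/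
theorem scale_blocks {k R τ B : Type*} [DecidableEq B] [CommSemiring k] [CommRing R] [Algebra k R] (blk : τ → B)
    {p : MvPolynomial τ k} {d : B → ℕ}
    (hd : MvPolynomial.IsWeightedHomogeneous (fun x : τ => (Pi.single (blk x) 1 : B → ℕ)) p d)
    (c : B → R) (v : τ → R) (h : MvPolynomial.aeval v p = 0) :
    MvPolynomial.aeval (fun x => c (blk x) * v x) p = 0 := by
  classical
  by_cases hp0 : p = 0
  · rw [hp0, map_zero]
  obtain ⟨m0, hm0⟩ : ∃ m0, m0 ∈ p.support := by
    by_contra hcon
    push Not at hcon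
    exact hp0 (MvPolynomial.support_eq_empty.1 (Finset.eq_empty_of_forall_notMem hcon))
  have weight_eq : ∀ m : τ →₀ ℕ, Finsupp.weight (fun x : τ => (Pi.single (blk x) 1 : B → ℕ)) m =
      ⇑(m.mapDomain blk) := by
    intro m
    rw [Finsupp.weight_apply]
    funext i
    rw [Finsupp.mapDomain, Finsupp.sum, Finsupp.sum, Finset.sum_apply, Finsupp.finsetSum_apply]
    refine Finset.sum_congr rfl fun x _ => ?_
    rw [Pi.smul_apply, smul_eq_mul, Pi.single_apply, Finsupp.single_apply]
    by_cases h : i = blk x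
    · subst h; simp
    · rw [if_neg h, if_neg fun h' => h h'.symm, mul_zero]
  have hsup : ∀ m ∈ p.support, m.mapDomain blk = m0.mapDomain blk := by
    intro m hm
    apply DFunLike.coe_injective
    rw [← weight_eq, ← weight_eq]
    rw [hd (MvPolynomial.mem_support_iff.1 hm), hd (MvPolynomial.mem_support_iff.1 hm0)]
  have hfac : ∀ m : τ →₀ ℕ, (m.prod fun x e => c (blk x) ^ e) =
      (m.mapDomain blk).prod fun i e => c i ^ e := by
    intro m
    rw [Finsupp.prod_mapDomain_index (h := fun i e => c i ^ e) (fun i => pow_zero _)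
      (fun i a b => pow_add _ a b)]
  have key : MvPolynomial.aeval (fun x => c (blk x) * v x) p =
      ((m0.mapDomain blk).prod fun i e => c i ^ e) * MvPolynomial.aeval v p := by
    rw [MvPolynomial.aeval_def, MvPolynomial.aeval_def, MvPolynomial.eval₂_eq,
      MvPolynomial.eval₂_eq, Finset.mul_sum]
    refine Finset.sum_congr rfl fun m hm => ?_
    rw [← hsup m hm, ← hfac m, Finsupp.prod]
    simp only [mul_pow, Finset.prod_mul_distrib]
    ring
  rw [key, h, mul_zero]

/-- a polynomial in holomorphic functions is holomorphic -/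
theorem aeval_differentiableOn {E τ : Type*} [NormedAddCommGroup E] [NormedSpace ℂ E] {U : Set E}
    (v : E → τ → ℂ) (hv : ∀ t, DifferentiableOn ℂ (fun x => v x t) U) (p : MvPolynomial τ ℂ) :
    DifferentiableOn ℂ (fun x => MvPolynomial.aeval (v x) p) U := by
  induction p using MvPolynomial.induction_on with
  | C a =>
    simp only [MvPolynomial.aeval_C]
    exact differentiableOn_const _
  | add p q hp hq =>
    simp only [map_add]
    exact hp.add hq
  | mul_X p t hp =>
    simp only [map_mul, MvPolynomial.aeval_X]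
    exact hp.mul (hv t)

/-- **P1b for polynomials**: `v` = homogeneous coordinates (in blocks `B`), `P` a set of
polynomials in two sets of variables, homogeneous in every block; if they vanish at
`(v z, v (σ z))` for `z` in a non-empty open set, they vanish at all `(v x, v y)`. -/
theorem poly_anti_diag [PreconnectedSpace M] (σ : M → M) (hσ : Continuous σ)
    (hσσ : ∀ x, σ (σ x) = x) (hanti : AntiHol A σ) {τ B : Type*} [DecidableEq (B ⊕ B)] (blk : τ → B)
    (v : A.ι → M → τ → ℂ) (hv : ∀ i t, HolAt A i univ (fun x => v i x t))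
    (tr : ∀ i j, ∀ x ∈ (A.e i).source ∩ (A.e j).source, ∃ c : B → ℂ, ∀ t,
      v i x t = c (blk t) * v j x t)
    (P : Set (MvPolynomial (τ ⊕ τ) ℂ))
    (hP : ∀ p ∈ P, ∃ d : B ⊕ B → ℕ, MvPolynomial.IsWeightedHomogeneous
      (fun x : τ ⊕ τ => (Pi.single (Sum.map blk blk x) 1 : B ⊕ B → ℕ)) p d)
    (W : Set M) (hW : IsOpen W) (hne : W.Nonempty)
    (hz : ∀ z ∈ W, ∀ i j, z ∈ (A.e i).source → σ z ∈ (A.e j).source → ∀ p ∈ P,
      MvPolynomial.aeval (Sum.elim (v i z) (v j (σ z))) p = 0) :
    ∀ x y i j, x ∈ (A.e i).source → y ∈ (A.e j).source → ∀ p ∈ P,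
      MvPolynomial.aeval (Sum.elim (v i x) (v j y)) p = 0 := by
  classical
  have := anti_diag_manifold (A := A) σ hσ hσσ hanti (Γ := P)
    (fun i j p x y => MvPolynomial.aeval (Sum.elim (v i x) (v j y)) p.1) ?_ ?_ W hW hne ?_
  · intro x y i j hx hy p hp
    exact this x y i j ⟨p, hp⟩ hx hy
  · intro i j p
    refine aeval_differentiableOn
      (v := fun q : Cn n × Cn n => Sum.elim (v i ((A.e i).symm q.1)) (v j ((A.e j).symm q.2)))
      ?_ p.1
    have hv' : ∀ i t, DifferentiableOn ℂ (fun z => v i ((A.e i).symm z) t) (A.e i).target := by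
      intro i t
      exact DifferentiableOn.mono (hv i t) (fun z hz => ⟨hz, trivial⟩)
    rintro (t | t)
    · exact (hv' i t).comp differentiableOn_fst (fun q hq => hq.1)
    · exact (hv' j t).comp differentiableOn_snd (fun q hq => hq.2)
  · intro i i' j j' x y hx hx' hy hy' h0 p
    obtain ⟨c, hc⟩ := tr i' i x ⟨hx', hx⟩
    obtain ⟨c', hc'⟩ := tr j' j y ⟨hy', hy⟩
    obtain ⟨d, hd⟩ := hP p.1 p.2
    have h1 := scale_blocks (R := ℂ) (Sum.map blk blk) hd (Sum.elim c c')
      (Sum.elim (v i x) (v j y)) (h0 p)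
    have h2 : (fun x_1 : τ ⊕ τ => Sum.elim c c' (Sum.map blk blk x_1) *
        Sum.elim (v i x) (v j y) x_1) = Sum.elim (v i' x) (v j' y) := by
      funext t
      rcases t with t | t
      · simp [hc t]
      · simp [hc' t]
    rw [h2] at h1
    exact h1
  · intro z hzW i j p hi hj
    exact hz z hzW i j hi hj p.1 p.2

/-- input of the Baire argument: a bihomogeneous polynomial which does not vanish identically on
`Z × Z` is non-zero at `(v z, v (σ z))` for `z` in a dense open set. -/
theorem anti_diag_dense [PreconnectedSpace M] (σ : M → M) (hσ : Continuous σ)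
    (hσσ : ∀ x, σ (σ x) = x) (hanti : AntiHol A σ) {τ B : Type*} [DecidableEq (B ⊕ B)] (blk : τ → B)
    (v : A.ι → M → τ → ℂ) (hv : ∀ i t, HolAt A i univ (fun x => v i x t))
    (tr : ∀ i j, ∀ x ∈ (A.e i).source ∩ (A.e j).source, ∃ c : B → ℂ, ∀ t,
      v i x t = c (blk t) * v j x t)
    (p : MvPolynomial (τ ⊕ τ) ℂ) (d : B ⊕ B → ℕ) (hp : MvPolynomial.IsWeightedHomogeneous
      (fun x : τ ⊕ τ => (Pi.single (Sum.map blk blk x) 1 : B ⊕ B → ℕ)) p d)
    (hne : ∃ x y i j, x ∈ (A.e i).source ∧ y ∈ (A.e j).source ∧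
      MvPolynomial.aeval (Sum.elim (v i x) (v j y)) p ≠ 0) :
    IsOpen {z | ∃ i j, z ∈ (A.e i).source ∧ σ z ∈ (A.e j).source ∧
      MvPolynomial.aeval (Sum.elim (v i z) (v j (σ z))) p ≠ 0} ∧
    Dense {z | ∃ i j, z ∈ (A.e i).source ∧ σ z ∈ (A.e j).source ∧
      MvPolynomial.aeval (Sum.elim (v i z) (v j (σ z))) p ≠ 0} := by
  classical
  have hv' : ∀ i t, DifferentiableOn ℂ (fun z => v i ((A.e i).symm z) t) (A.e i).target := by
    intro i t
    exact DifferentiableOn.mono (hv i t) (fun z hz => ⟨hz, trivial⟩)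
  have hvc : ∀ i t, ContinuousOn (fun x => v i x t) (A.e i).source := by
    intro i t
    have h1 := ((hv' i t).continuousOn).comp (A.e i).continuousOn
      (fun x hx => (A.e i).map_source hx)
    refine h1.congr (fun x hx => ?_)
    simp only [Function.comp]
    rw [(A.e i).left_inv hx]
  constructor
  · rw [isOpen_iff_mem_nhds]
    rintro z ⟨i, j, hi, hj, hzne⟩
    have hO : IsOpen ((A.e i).source ∩ σ ⁻¹' (A.e j).source) :=
      (A.e i).open_source.inter ((A.e j).open_source.preimage hσ)
    have hcont : ContinuousOn (fun z => MvPolynomial.aeval (Sum.elim (v i z) (v j (σ z))) p)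
        ((A.e i).source ∩ σ ⁻¹' (A.e j).source) := by
      have hpc : Continuous (fun w : τ ⊕ τ → ℂ => MvPolynomial.aeval w p) := by
        simpa [MvPolynomial.aeval_eq_eval] using MvPolynomial.continuous_eval p
      refine hpc.comp_continuousOn ?_
      rw [continuousOn_pi]
      rintro (t | t)
      · exact (hvc i t).mono inter_subset_left
      · exact (hvc j t).comp hσ.continuousOn (fun z hz => hz.2)
    have := hcont.isOpen_inter_preimage hO (isOpen_ne (x := (0 : ℂ)))
    refine mem_of_superset (this.mem_nhds ⟨⟨hi, hj⟩, hzne⟩) ?_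
    rintro z' ⟨⟨hi', hj'⟩, hz'⟩
    exact ⟨i, j, hi', hj', hz'⟩
  · rw [dense_iff_inter_open]
    intro W hW hWne
    by_contra hcon
    obtain ⟨x, y, i, j, hx, hy, hxy⟩ := hne
    refine hxy (poly_anti_diag σ hσ hσσ hanti blk v hv tr {p} ?_ W hW hWne ?_ x y i j hx hy p rfl)
    · rintro q hq
      rw [mem_singleton_iff] at hq
      subst hq
      exact ⟨d, hp⟩
    · intro z hz i' j' hi' hj' q hq
      rw [mem_singleton_iff] at hq
      subst hq
      by_contra hq0
      exact hcon ⟨z, hz, i', j', hi', hj', hq0⟩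

end Crest.Agent.R260.Pair_764
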