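import Crest.Agent.R260.Pair2_764
import Crest.Agent.R266.SCV

/-!
# R260 (S0398), AG-PAIR, part 3 (helper764): CR-generic submanifolds are sets of uniqueness

`cr_iter`     : `φ : V → E` real differentiable with `span_ℂ (range dφ) = ⊤`, `g ∘ φ = 0`,
                `g` holomorphic: all derivatives of `g` vanish on the image of `φ`.
`cr_zero`     : so `g = 0` near the image of `φ`.
`cr_manifold` : the same for families of local holomorphic functions on `M × M`.
-/

set_option autoImplicit false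

open Set Filter Topology Complex Metric
open scoped ComplexConjugate

namespace Crest.Agent.R260.Pair_764

open Crest.Agent.R275.Geo Crest.Agent.R275.Core144

section Abstract

variable {E V : Type} [NormedAddCommGroup E] [NormedSpace ℂ E]
  [NormedAddCommGroup V] [NormedSpace ℝ V]

/-- a holomorphic function which vanishes on the image of a CR-generic map vanishes there with all
its derivatives -/
theorem cr_iter {O : Set E} {U : Set V} (hU : IsOpen U) (φ : V → E)
    (hφ : ∀ x ∈ U, DifferentiableAt ℝ φ x) (hφO : ∀ x ∈ U, φ x ∈ O)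
    (hspan : ∀ x ∈ U, Submodule.span ℂ (Set.range (fderiv ℝ φ x)) = ⊤) (k : ℕ) :
    ∀ {F : Type} [NormedAddCommGroup F] [NormedSpace ℂ F] [CompleteSpace F] (g : E → F),
      AnalyticOnNhd ℂ g O → (∀ x ∈ U, g (φ x) = 0) → ∀ x ∈ U, iteratedFDeriv ℂ k g (φ x) = 0 := by
  induction k with
  | zero =>
    intro F _ _ _ g hg h0 x hx
    ext m
    simp [h0 x hx]
  | succ k ih =>
    intro F _ _ _ g hg h0 x hx
    have hfd : ∀ x ∈ U, fderiv ℂ g (φ x) = 0 := by
      intro x hx
      have h1 : HasFDerivAt g ((fderiv ℂ g (φ x)).restrictScalars ℝ) (φ x) :=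
        ((hg _ (hφO x hx)).differentiableAt.hasFDerivAt).restrictScalars ℝ
      have h2 : HasFDerivAt (fun y => g (φ y))
          (((fderiv ℂ g (φ x)).restrictScalars ℝ).comp (fderiv ℝ φ x)) x :=
        h1.comp x (hφ x hx).hasFDerivAt
      have h3 : HasFDerivAt (fun y => g (φ y)) (0 : V →L[ℝ] F) x := by
        have h4 : (fun y => g (φ y)) =ᶠ[𝓝 x] fun _ => (0 : F) := by
          filter_upwards [hU.mem_nhds hx] with y hy
          exact h0 y hy
        exact (hasFDerivAt_const (0 : F) x).congr_of_eventuallyEq h4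
      have h5 := h2.unique h3
      have h6 : ∀ w ∈ Submodule.span ℂ (Set.range (fderiv ℝ φ x)), fderiv ℂ g (φ x) w = 0 := by
        intro w hw
        induction hw using Submodule.span_induction with
        | mem w hw =>
          obtain ⟨v, rfl⟩ := hw
          have := congrArg (fun L : V →L[ℝ] F => L v) h5
          simpa using this
        | zero => simp
        | add a b _ _ ha hb => rw [map_add, ha, hb, add_zero]
        | smul c a _ ha => rw [map_smul, ha, smul_zero]
      ext w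
      have hw : w ∈ Submodule.span ℂ (Set.range (fderiv ℝ φ x)) := by
        rw [hspan x hx]
        trivial
      simpa using h6 w hw
    have := ih (fderiv ℂ g) hg.fderiv hfd x hx
    rw [iteratedFDeriv_succ_eq_comp_right, Function.comp_apply, this]
    exact (continuousMultilinearCurryRightEquiv' ℂ k E F).symm.map_zero

/-- a holomorphic function which vanishes on the image of a CR-generic map vanishes near the
image -/
theorem cr_zero {O : Set E} {U : Set V} (hU : IsOpen U) (φ : V → E)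
    (hφ : ∀ x ∈ U, DifferentiableAt ℝ φ x) (hφO : ∀ x ∈ U, φ x ∈ O)
    (hspan : ∀ x ∈ U, Submodule.span ℂ (Set.range (fderiv ℝ φ x)) = ⊤)
    {F : Type} [NormedAddCommGroup F] [NormedSpace ℂ F] [CompleteSpace F] (g : E → F)
    (hg : AnalyticOnNhd ℂ g O) (h0 : ∀ x ∈ U, g (φ x) = 0) :
    ∀ x ∈ U, g =ᶠ[𝓝 (φ x)] 0 := by
  intro x hx
  obtain ⟨p, r, hp⟩ := hg _ (hφO x hx)
  have hr := hp.r_pos
  have hball : Metric.eball (φ x) r ∈ 𝓝 (φ x) := Metric.eball_mem_nhds _ hr
  filter_upwards [hball] with y hy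
  have hy' : y - φ x ∈ Metric.eball (0 : E) r := by
    rw [Metric.mem_eball] at hy ⊢
    rwa [edist_eq_enorm_sub, sub_zero, ← edist_eq_enorm_sub]
  have hs := hp.hasSum_iteratedFDeriv hy'
  have hz : (fun n : ℕ => ((Nat.factorial n : ℕ) : ℂ)⁻¹ •
      (iteratedFDeriv ℂ n g (φ x)) fun _ => y - φ x) = fun _ => 0 := by
    funext n
    rw [cr_iter hU φ hφ hφO hspan n g hg h0 x hx]
    simp
  rw [hz] at hs
  have := hs.unique hasSum_zero
  simpa using this

end Abstract

variable {n : ℕ} {M : Type} [TopologicalSpace M] {A : Atl n M}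

/-- identity theorem on `M × M`, `M` connected: a family of local holomorphic functions on `M × M`
with a chart independent zero set which vanishes on a non-empty open set vanishes. -/
theorem zero_of_open [PreconnectedSpace M] {Γ : Type*}
    (h : A.ι → A.ι → Γ → M → M → ℂ)
    (hol : ∀ i j c, DifferentiableOn ℂ
      (fun p : Cn n × Cn n => h i j c ((A.e i).symm p.1) ((A.e j).symm p.2))
      ((A.e i).target ×ˢ (A.e j).target))
    (cc : ∀ i i' j j' x y, x ∈ (A.e i).source → x ∈ (A.e i').source → y ∈ (A.e j).source →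
      y ∈ (A.e j').source → (∀ c, h i j c x y = 0) → ∀ c, h i' j' c x y = 0)
    (W : Set (M × M)) (hW : IsOpen W) (hne : W.Nonempty)
    (hz : ∀ q ∈ W, ∃ i j, q.1 ∈ (A.e i).source ∧ q.2 ∈ (A.e j).source ∧
      ∀ c, h i j c q.1 q.2 = 0) :
    ∀ x y i j c, x ∈ (A.e i).source → y ∈ (A.e j).source → h i j c x y = 0 := by
  classical
  let V : Set (M × M) := {p | ∀ i j c, p.1 ∈ (A.e i).source → p.2 ∈ (A.e j).source →
    h i j c p.1 p.2 = 0}
  have hVmem : ∀ x y i j, x ∈ (A.e i).source → y ∈ (A.e j).source → (∀ c, h i j c x y = 0) →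
      (x, y) ∈ V := by
    intro x y i j hx hy h0 i' j' c hx' hy'
    exact cc i i' j j' x y hx hx' hy hy' h0 c
  have step1 : (interior V).Nonempty := by
    obtain ⟨q, hq⟩ := hne
    refine ⟨q, mem_interior.2 ⟨W, ?_, hW, hq⟩⟩
    rintro ⟨x, y⟩ hxy
    obtain ⟨i, j, hi, hj, h0⟩ := hz _ hxy
    exact hVmem x y i j hi hj h0
  have step2 : IsClosed (interior V) := by
    rw [← closure_subset_iff_isClosed]
    rintro ⟨x, y⟩ hxy
    obtain ⟨i, hi⟩ := A.cover x
    obtain ⟨j, hj⟩ := A.cover y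
    obtain ⟨ε, hε, hεb⟩ := Metric.isOpen_iff.1 (A.e i).open_target _ ((A.e i).map_source hi)
    obtain ⟨δ, hδ, hδb⟩ := Metric.isOpen_iff.1 (A.e j).open_target _ ((A.e j).map_source hj)
    let N : Set (M × M) := ((A.e i).source ∩ (A.e i) ⁻¹' ball (A.e i x) ε) ×ˢ
      ((A.e j).source ∩ (A.e j) ⁻¹' ball (A.e j y) δ)
    have hN : IsOpen N :=
      ((A.e i).isOpen_inter_preimage isOpen_ball).prod ((A.e j).isOpen_inter_preimage isOpen_ball)
    have hxyN : (x, y) ∈ N := ⟨⟨hi, mem_ball_self hε⟩, ⟨hj, mem_ball_self hδ⟩⟩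
    obtain ⟨⟨x', y'⟩, hN', hV'⟩ := mem_closure_iff.1 hxy N hN hxyN
    have hNV : N ⊆ V := by
      rintro ⟨s, t⟩ ⟨⟨hs1, hs2⟩, ⟨ht1, ht2⟩⟩
      simp only [mem_preimage] at hs2 ht2
      apply hVmem s t i j hs1 ht1
      intro c
      let U : Set (Cn n × Cn n) := ball (A.e i x) ε ×ˢ ball (A.e j y) δ
      have hUo : IsOpen U := isOpen_ball.prod isOpen_ball
      have hUc : Convex ℝ U := (convex_ball _ _).prod (convex_ball _ _)
      have hUs : U ⊆ (A.e i).target ×ˢ (A.e j).target := prod_mono hεb hδb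
      let T : Set (Cn n × Cn n) := U ∩ (fun p => ((A.e i).symm p.1, (A.e j).symm p.2)) ⁻¹'
        interior V
      have hT : IsOpen T := by
        apply ContinuousOn.isOpen_inter_preimage _ hUo isOpen_interior
        apply ContinuousOn.prodMk
        · exact ((A.e i).continuousOn_symm).comp continuousOn_fst (fun p hp => hεb hp.1)
        · exact ((A.e j).continuousOn_symm).comp continuousOn_snd (fun p hp => hδb hp.2)
      have hTne : (T ∩ U).Nonempty := by
        refine ⟨(A.e i x', A.e j y'), ⟨⟨hN'.1.2, hN'.2.2⟩, ?_⟩, ⟨hN'.1.2, hN'.2.2⟩⟩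
        simp only [mem_preimage]
        rw [(A.e i).left_inv hN'.1.1, (A.e j).left_inv hN'.2.1]
        exact hV'
      have hzero := convex_zero hUo hUc _ ((hol i j c).mono hUs) hT hTne (by
        rintro ⟨p1, p2⟩ ⟨⟨hp, hpV⟩, -⟩
        have := interior_subset hpV
        exact this i j c ((A.e i).map_target (hεb hp.1)) ((A.e j).map_target (hδb hp.2)))
        (A.e i s, A.e j t) ⟨hs2, ht2⟩
      simp only at hzero
      rwa [(A.e i).left_inv hs1, (A.e j).left_inv ht1] at hzero
    exact mem_interior.2 ⟨N, hNV, hN, hxyN⟩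
  have hclopen : IsClopen (interior V) := ⟨step2, isOpen_interior⟩
  have huniv : interior V = univ := IsClopen.eq_univ hclopen step1
  intro x y i j c hx hy
  have : (x, y) ∈ interior V := by rw [huniv]; trivial
  exact interior_subset this i j c hx hy

/-- **(P1), CR-generic form**: `(φ₁, φ₂) : U → M × M` real differentiable, the complex span of the
image of its differential is everything (in the charts, at every point): a family of local
holomorphic functions on `M × M` vanishing on the image vanishes on `M × M`. -/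
theorem cr_manifold [PreconnectedSpace M] {Γ : Type*}
    (h : A.ι → A.ι → Γ → M → M → ℂ)
    (hol : ∀ i j c, DifferentiableOn ℂ
      (fun p : Cn n × Cn n => h i j c ((A.e i).symm p.1) ((A.e j).symm p.2))
      ((A.e i).target ×ˢ (A.e j).target))
    (cc : ∀ i i' j j' x y, x ∈ (A.e i).source → x ∈ (A.e i').source → y ∈ (A.e j).source →
      y ∈ (A.e j').source → (∀ c, h i j c x y = 0) → ∀ c, h i' j' c x y = 0)
    {V : Type} [NormedAddCommGroup V] [NormedSpace ℝ V] (U : Set V) (hU : IsOpen U)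
    (hne : U.Nonempty) (φ₁ φ₂ : V → M) (hφ₁ : ContinuousOn φ₁ U) (hφ₂ : ContinuousOn φ₂ U)
    (hd : ∀ x ∈ U, ∀ i j, φ₁ x ∈ (A.e i).source → φ₂ x ∈ (A.e j).source →
      DifferentiableAt ℝ (fun y => (A.e i (φ₁ y), A.e j (φ₂ y))) x ∧
      Submodule.span ℂ (Set.range (fderiv ℝ (fun y => (A.e i (φ₁ y), A.e j (φ₂ y))) x)) = ⊤)
    (hz : ∀ x ∈ U, ∀ i j c, φ₁ x ∈ (A.e i).source → φ₂ x ∈ (A.e j).source →
      h i j c (φ₁ x) (φ₂ x) = 0) :
    ∀ x y i j c, x ∈ (A.e i).source → y ∈ (A.e j).source → h i j c x y = 0 := by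
  classical
  obtain ⟨x0, hx0⟩ := hne
  obtain ⟨i, hi⟩ := A.cover (φ₁ x0)
  obtain ⟨j, hj⟩ := A.cover (φ₂ x0)
  let U' : Set V := (U ∩ φ₁ ⁻¹' (A.e i).source) ∩ (U ∩ φ₂ ⁻¹' (A.e j).source)
  have hU' : IsOpen U' := (hφ₁.isOpen_inter_preimage hU (A.e i).open_source).inter
    (hφ₂.isOpen_inter_preimage hU (A.e j).open_source)
  have hx0' : x0 ∈ U' := ⟨⟨hx0, hi⟩, ⟨hx0, hj⟩⟩
  let O : Set (Cn n × Cn n) := (A.e i).target ×ˢ (A.e j).target
  have hO : IsOpen O := (A.e i).open_target.prod (A.e j).open_target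
  let φ : V → Cn n × Cn n := fun y => (A.e i (φ₁ y), A.e j (φ₂ y))
  let g : Cn n × Cn n → Γ → ℂ := fun p c => h i j c ((A.e i).symm p.1) ((A.e j).symm p.2)
  have hg : ∀ c, AnalyticOnNhd ℂ (fun p => g p c) O := fun c =>
    Crest.Agent.R266.SCV.analyticOnNhd_of_differentiableOn hO (hol i j c)
  have hev : ∀ c, (fun p => g p c) =ᶠ[𝓝 (φ x0)] 0 := by
    intro c
    refine cr_zero (O := O) hU' φ (fun x hx => (hd x hx.1.1 i j hx.1.2 hx.2.2).1)
      (fun x hx => ⟨(A.e i).map_source hx.1.2, (A.e j).map_source hx.2.2⟩)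
      (fun x hx => (hd x hx.1.1 i j hx.1.2 hx.2.2).2) _ (hg c) ?_ x0 hx0'
    intro x hx
    simp only [g, φ]
    rw [(A.e i).left_inv hx.1.2, (A.e j).left_inv hx.2.2]
    exact hz x hx.1.1 i j c hx.1.2 hx.2.2
  -- a convex neighbourhood on which all the functions vanish
  have hφO : φ x0 ∈ O := ⟨(A.e i).map_source hi, (A.e j).map_source hj⟩
  obtain ⟨r, hr, hball⟩ := Metric.isOpen_iff.1 hO _ hφO
  have hzb : ∀ c, ∀ p ∈ ball (φ x0) r, g p c = 0 := by
    intro c
    obtain ⟨s, hs, hsb⟩ := Metric.eventually_nhds_iff_ball.1 (hev c)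
    exact convex_zero isOpen_ball (convex_ball _ _) (fun p => g p c) ((hol i j c).mono hball)
      (isOpen_ball (x := φ x0) (ε := s)) ⟨φ x0, mem_ball_self hs, mem_ball_self hr⟩
      (fun p hp => hsb p hp.1)
  let W : Set (M × M) := ((A.e i).source ×ˢ (A.e j).source) ∩
    (fun q : M × M => (A.e i q.1, A.e j q.2)) ⁻¹' ball (φ x0) r
  have hW : IsOpen W := by
    apply ContinuousOn.isOpen_inter_preimage _ ((A.e i).open_source.prod (A.e j).open_source)
      isOpen_ball
    apply ContinuousOn.prodMk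
    · exact ((A.e i).continuousOn).comp continuousOn_fst (fun p hp => hp.1)
    · exact ((A.e j).continuousOn).comp continuousOn_snd (fun p hp => hp.2)
  refine zero_of_open h hol cc W hW ⟨(φ₁ x0, φ₂ x0), ⟨hi, hj⟩, mem_ball_self hr⟩ ?_
  rintro ⟨x, y⟩ ⟨⟨hx, hy⟩, hxy⟩
  refine ⟨i, j, hx, hy, fun c => ?_⟩
  have := hzb c _ hxy
  simp only [g] at this
  rwa [(A.e i).left_inv hx, (A.e j).left_inv hy] at this

end Crest.Agent.R260.Pair_764
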