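import Mathlib

/-!
Row 260 (S0398), leaf PROPER (helper703): properness of the projective line.

If the coefficients of the polynomial vector `f` over `K` satisfy all relations over `k` of the
coefficients of the polynomial vector `H` over `k'`, and a point `H(u)`, `u ∈ P^1(k')`, lies in
a closed subset of weighted projective space over `k`, then some point `f(z)`, `z ∈ P^1(K)`, lies
in the same closed subset.
-/

set_option autoImplicit false
set_option linter.unusedSectionVars false

namespace Crest.Agent.R260.Prop_703

open Polynomial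

/-- value of a polynomial vector at a point of `P^1`; at `none` (infinity) the coefficients of
degree `b x`. -/
noncomputable def val {K : Type*} [Field K] {σ : Type*} (b : σ → ℕ) (F : σ → K[X]) :
    Option K → σ → K
  | none => fun x => (F x).coeff (b x)
  | some t => fun x => (F x).eval t

@[simp] theorem val_none {K : Type*} [Field K] {σ : Type*} (b : σ → ℕ) (F : σ → K[X]) (x : σ) :
    val b F none x = (F x).coeff (b x) := rfl

@[simp] theorem val_some {K : Type*} [Field K] {σ : Type*} (b : σ → ℕ) (F : σ → K[X]) (t : K)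
    (x : σ) : val b F (some t) x = (F x).eval t := rfl

section universal

variable {k : Type*} [Field k] {σ : Type*} (b : σ → ℕ)

/-- the universal polynomial vector. -/
noncomputable def uni (x : σ) : (MvPolynomial (σ × ℕ) k)[X] :=
  ∑ n ∈ Finset.range (b x + 1), C (MvPolynomial.X (x, n)) * X ^ n

theorem map_uni {R : Type*} [CommRing R] (φ : MvPolynomial (σ × ℕ) k →+* R) (x : σ) :
    (uni b x).map φ = ∑ n ∈ Finset.range (b x + 1), C (φ (MvPolynomial.X (x, n))) * X ^ n := by
  simp only [uni, Polynomial.map_sum, Polynomial.map_mul, map_C, Polynomial.map_pow, map_X]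

theorem eval_map_uni {R : Type*} [CommRing R] (φ : MvPolynomial (σ × ℕ) k →+* R) (t : R)
    (p : MvPolynomial σ k) :
    ((MvPolynomial.aeval (uni b) p).map φ).eval t =
      MvPolynomial.eval₂Hom (φ.comp MvPolynomial.C) (fun x => ((uni b x).map φ).eval t) p := by
  let F1 : MvPolynomial σ k →+* R :=
    ((evalRingHom t).comp (mapRingHom φ)).comp (MvPolynomial.aeval (uni (k := k) b)).toRingHom
  have : F1 = MvPolynomial.eval₂Hom (φ.comp MvPolynomial.C)
      (fun x => ((uni b x).map φ).eval t) := by
    apply MvPolynomial.ringHom_ext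
    · intro r
      simp only [F1, RingHom.comp_apply, MvPolynomial.eval₂Hom_C]
      change ((MvPolynomial.aeval (uni b) (MvPolynomial.C r) : (MvPolynomial (σ × ℕ) k)[X]).map
        φ).eval t = _
      rw [MvPolynomial.algHom_C]
      change ((C (MvPolynomial.C r) : (MvPolynomial (σ × ℕ) k)[X]).map φ).eval t = _
      rw [map_C, eval_C]
    · intro x
      simp only [F1, RingHom.comp_apply, MvPolynomial.eval₂Hom_X']
      change ((MvPolynomial.aeval (uni b) (MvPolynomial.X x) : (MvPolynomial (σ × ℕ) k)[X]).map
        φ).eval t = _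
      rw [MvPolynomial.aeval_X]
  exact DFunLike.congr_fun this p

/-- the top coefficients. -/
noncomputable def topc (p : MvPolynomial σ k) : MvPolynomial (σ × ℕ) k :=
  MvPolynomial.aeval (fun x => MvPolynomial.X (x, b x)) p

theorem map_topc {R : Type*} [CommRing R] (φ : MvPolynomial (σ × ℕ) k →+* R)
    (p : MvPolynomial σ k) :
    φ (topc b p) = MvPolynomial.eval₂Hom (φ.comp MvPolynomial.C)
      (fun x => φ (MvPolynomial.X (x, b x))) p := by
  let F1 : MvPolynomial σ k →+* R := φ.comp
    (MvPolynomial.aeval (fun x : σ => (MvPolynomial.X (x, b x) : MvPolynomial (σ × ℕ) k))).toRingHom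
  have : F1 = MvPolynomial.eval₂Hom (φ.comp MvPolynomial.C)
      (fun x => φ (MvPolynomial.X (x, b x))) := by
    apply MvPolynomial.ringHom_ext
    · intro r
      simp only [F1, RingHom.comp_apply, MvPolynomial.eval₂Hom_C]
      congr 1
      exact MvPolynomial.algHom_C _ r
    · intro x
      simp only [F1, RingHom.comp_apply, MvPolynomial.eval₂Hom_X']
      congr 1
      exact MvPolynomial.aeval_X _ x
  exact DFunLike.congr_fun this p

variable {K : Type*} [Field K] [Algebra k K] {F : σ → K[X]}

theorem uni_eq {b : σ → ℕ} (hF : ∀ x, (F x).natDegree ≤ b x) (x : σ) :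
    (uni b x).map (MvPolynomial.aeval (R := k) fun y : σ × ℕ => (F y.1).coeff y.2).toRingHom =
      F x := by
  rw [map_uni]
  conv_rhs => rw [as_sum_range_C_mul_X_pow' (F x) (Nat.lt_succ_of_le (hF x))]
  refine Finset.sum_congr rfl fun n _ => ?_
  congr 2
  exact MvPolynomial.aeval_X _ _

theorem aeval_eq_zero_iff_some {b : σ → ℕ} (hF : ∀ x, (F x).natDegree ≤ b x) (t : K)
    (p : MvPolynomial σ k) :
    ((MvPolynomial.aeval (uni b) p).map
      (MvPolynomial.aeval (R := k) fun y : σ × ℕ => (F y.1).coeff y.2).toRingHom).eval t =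
      MvPolynomial.aeval (val b F (some t)) p := by
  rw [eval_map_uni]
  simp only [uni_eq hF]
  rw [MvPolynomial.aeval_def, ← MvPolynomial.coe_eval₂Hom]
  congr 2
  ext r
  exact MvPolynomial.algHom_C (MvPolynomial.aeval (R := k) fun y : σ × ℕ => (F y.1).coeff y.2) r

theorem aeval_eq_none (b : σ → ℕ) (p : MvPolynomial σ k) :
    MvPolynomial.aeval (R := k) (fun y : σ × ℕ => (F y.1).coeff y.2) (topc b p) =
      MvPolynomial.aeval (val b F none) p := by
  have := map_topc b (MvPolynomial.aeval (R := k) fun y : σ × ℕ => (F y.1).coeff y.2).toRingHom p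
  refine this.trans ?_
  rw [MvPolynomial.aeval_def, ← MvPolynomial.coe_eval₂Hom]
  congr 2
  · ext r
    exact MvPolynomial.algHom_C (MvPolynomial.aeval (R := k) fun y : σ × ℕ => (F y.1).coeff y.2) r
  · funext x
    exact MvPolynomial.aeval_X _ _

end universal

end Crest.Agent.R260.Prop_703
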