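import Mathlib
import Crest.Agent.R260.Prop1_703

/-!
Row 260 (S0398), leaf PROPER (helper703), part 2: the main statement.
-/

set_option autoImplicit false
set_option linter.unusedSectionVars false

namespace Crest.Agent.R260.Prop_703

open Polynomial IsLocalRing

/-- a homomorphism to a field is induced by a place. -/
theorem exists_place {R k' K : Type*} [CommRing R] [Field k'] [Field K] (ψ : R →+* k')
    (θ : R →+* K) (h : ∀ r, ψ r = 0 → θ r = 0) :
    ∃ (V : ValuationSubring k') (hV : ∀ r, ψ r ∈ V), ∀ r, θ r = 0 ↔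
      (⟨ψ r, hV r⟩ : V) ∈ maximalIdeal V := by
  let A : Subring k' := ψ.range
  have hs : Function.Surjective ψ.rangeRestrict := ψ.rangeRestrict_surjective
  have hk : RingHom.ker ψ.rangeRestrict ≤ RingHom.ker θ := fun r hr =>
    h r (congrArg Subtype.val hr)
  let θ' : A →+* K := ψ.rangeRestrict.liftOfSurjective hs ⟨θ, hk⟩
  have hθ' : ∀ r, θ' (ψ.rangeRestrict r) = θ r := fun r =>
    RingHom.liftOfSurjective_comp_apply _ hs ⟨θ, hk⟩ r
  have hP : (RingHom.ker θ').IsPrime := RingHom.ker_isPrime θ'
  obtain ⟨V, hV⟩ := (LocalSubring.ofPrime A (RingHom.ker θ')).exists_le_valuationSubring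
  obtain ⟨hV1, hV2⟩ := hV
  have hA : ∀ r, ψ r ∈ V := fun r =>
    hV1 (LocalSubring.le_ofPrime A (RingHom.ker θ') (ψ.rangeRestrict r).2)
  refine ⟨V, hA, fun r => ?_⟩
  have h1 : θ r = 0 ↔ ψ.rangeRestrict r ∈ RingHom.ker θ' := by
    rw [RingHom.mem_ker, hθ']
  have h2 := IsLocalization.AtPrime.to_map_mem_maximal_iff
    (LocalSubring.ofPrime A (RingHom.ker θ')).toSubring (RingHom.ker θ') (ψ.rangeRestrict r)
  rw [h1, ← h2, mem_maximalIdeal, mem_nonunits_iff, mem_maximalIdeal, mem_nonunits_iff, not_iff_not]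
  have h3 : (⟨ψ r, hA r⟩ : V) = Subring.inclusion hV1
      (algebraMap A (LocalSubring.ofPrime A (RingHom.ker θ')).toSubring (ψ.rangeRestrict r)) := rfl
  rw [h3]
  constructor
  · intro h
    exact h.map _
  · intro h
    exact hV2.map_nonunit _ h

/-- polynomials over a ring `R` with a common root in a field `κ` (along `ρ`) have a common root
in an algebraically closed field `K` (along `θ`), if the kernels of `ρ` and `θ` are equal. -/
theorem exists_common_root {R κ K : Type*} [CommRing R] [Field κ] [Field K] [IsAlgClosed K]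
    (ρ : R →+* κ) (θ : R →+* K) (h : ∀ r, ρ r = 0 ↔ θ r = 0) (S : Set R[X]) (t : κ)
    (ht : ∀ P ∈ S, (P.map ρ).eval t = 0) : ∃ z : K, ∀ P ∈ S, (P.map θ).eval z = 0 := by
  let R0 : Subring K := θ.range
  have hs : Function.Surjective θ.rangeRestrict := θ.rangeRestrict_surjective
  have hk : RingHom.ker θ.rangeRestrict ≤ RingHom.ker ρ := fun r hr =>
    (h r).2 (congrArg Subtype.val hr)
  let ρ' : R0 →+* κ := θ.rangeRestrict.liftOfSurjective hs ⟨ρ, hk⟩
  have hρ' : ∀ r, ρ' (θ.rangeRestrict r) = ρ r := fun r =>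
    RingHom.liftOfSurjective_comp_apply _ hs ⟨ρ, hk⟩ r
  have hinj : Function.Injective ρ' := by
    rw [injective_iff_map_eq_zero]
    intro x hx
    obtain ⟨r, rfl⟩ := hs x
    rw [hρ', h] at hx
    exact Subtype.ext hx
  let i1 : FractionRing R0 →+* K := IsFractionRing.lift (A := R0) (g := R0.subtype)
    Subtype.val_injective
  let i2 : FractionRing R0 →+* κ := IsFractionRing.lift (A := R0) (g := ρ') hinj
  have hi1 : ∀ x, i1 (algebraMap R0 (FractionRing R0) x) = x := fun x =>
    IsFractionRing.lift_algebraMap _ x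
  have hi2 : ∀ x, i2 (algebraMap R0 (FractionRing R0) x) = ρ' x := fun x =>
    IsFractionRing.lift_algebraMap _ x
  let j : R →+* FractionRing R0 := (algebraMap R0 (FractionRing R0)).comp θ.rangeRestrict
  have hj1 : i1.comp j = θ := RingHom.ext fun r => hi1 _
  have hj2 : i2.comp j = ρ := RingHom.ext fun r => (hi2 _).trans (hρ' r)
  let 𝔞 : Ideal (FractionRing R0)[X] := Ideal.span ((fun P => Polynomial.map j P) '' S)
  obtain ⟨g, hg⟩ := (IsPrincipalIdealRing.principal 𝔞).principal
  have hg' : 𝔞 = Ideal.span {g} := hg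
  have hgt : (g.map i2).eval t = 0 := by
    have h1 : 𝔞 ≤ RingHom.ker ((evalRingHom t).comp (mapRingHom i2)) := by
      rw [Ideal.span_le]
      rintro _ ⟨P, hP, rfl⟩
      rw [SetLike.mem_coe, RingHom.mem_ker]
      change ((P.map j).map i2).eval t = 0
      rw [Polynomial.map_map, hj2]
      exact ht P hP
    exact h1 (hg' ▸ Ideal.mem_span_singleton_self g)
  have hdiv : ∀ P ∈ S, g ∣ P.map j := fun P hP => by
    have : P.map j ∈ 𝔞 := Ideal.subset_span ⟨P, hP, rfl⟩
    rw [hg', Ideal.mem_span_singleton] at this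
    exact this
  obtain ⟨z, hz⟩ : ∃ z, (g.map i1).eval z = 0 := by
    by_cases hg0 : g = 0
    · exact ⟨0, by rw [hg0, Polynomial.map_zero, eval_zero]⟩
    have hdeg : (g.map i1).degree ≠ 0 := by
      rw [degree_map]
      intro h0
      rw [eq_C_of_degree_eq_zero h0, map_C, eval_C] at hgt
      have h1 : g.coeff 0 = 0 := i2.injective (by rw [hgt, map_zero])
      rw [eq_C_of_degree_eq_zero h0, h1, C_0] at hg0
      exact hg0 rfl
    exact IsAlgClosed.exists_root _ hdeg
  refine ⟨z, fun P hP => ?_⟩
  obtain ⟨q, hq⟩ := hdiv P hP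
  have : P.map θ = g.map i1 * q.map i1 := by
    rw [← Polynomial.map_mul, ← hq, Polynomial.map_map, hj1]
  rw [this, eval_mul, hz, zero_mul]

theorem aeval_scale {k A : Type*} [Field k] [CommRing A] [Algebra k A] {σ : Type*} {b : σ → ℕ}
    {p : MvPolynomial σ k} {N : ℕ} (hp : MvPolynomial.IsWeightedHomogeneous b p N) (w : A)
    (y : σ → A) :
    MvPolynomial.aeval (fun x => w ^ b x * y x) p = w ^ N * MvPolynomial.aeval y p := by
  rw [MvPolynomial.aeval_def, MvPolynomial.aeval_def, MvPolynomial.eval₂_eq,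
    MvPolynomial.eval₂_eq, Finset.mul_sum]
  refine Finset.sum_congr rfl fun d hd => ?_
  have h1 : ∏ i ∈ d.support, (w ^ b i * y i) ^ d i = w ^ N * ∏ i ∈ d.support, y i ^ d i := by
    simp only [mul_pow]
    rw [Finset.prod_mul_distrib]
    congr 1
    have h2 := hp (MvPolynomial.mem_support_iff.1 hd)
    rw [Finsupp.weight_apply, Finsupp.sum] at h2
    rw [← h2, ← Finset.prod_pow_eq_pow_sum]
    refine Finset.prod_congr rfl fun i _ => ?_
    rw [← pow_mul, smul_eq_mul, mul_comm]
  rw [h1]
  ring

/-- **PROPER.** -/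
theorem proper {k k' K : Type*} [Field k] [Field k'] [Field K] [Algebra k k'] [Algebra k K]
    [IsAlgClosed K] {σ : Type*} {b : σ → ℕ} {H : σ → k'[X]} {f : σ → K[X]}
    (hH : ∀ x, (H x).natDegree ≤ b x) (hf : ∀ x, (f x).natDegree ≤ b x)
    (hspec : ∀ Q : MvPolynomial (σ × ℕ) k,
      MvPolynomial.aeval (fun y : σ × ℕ => (H y.1).coeff y.2) Q = 0 →
        MvPolynomial.aeval (fun y : σ × ℕ => (f y.1).coeff y.2) Q = 0) (u : Option k') :
    ∃ z : Option K, ∀ (p : MvPolynomial σ k) (N : ℕ), MvPolynomial.IsWeightedHomogeneous b p N →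
      MvPolynomial.aeval (val b H u) p = 0 → MvPolynomial.aeval (val b f z) p = 0 := by
  classical
  let ψa := MvPolynomial.aeval (R := k) fun y : σ × ℕ => (H y.1).coeff y.2
  let θa := MvPolynomial.aeval (R := k) fun y : σ × ℕ => (f y.1).coeff y.2
  let ψ : MvPolynomial (σ × ℕ) k →+* k' := ψa.toRingHom
  let θ : MvPolynomial (σ × ℕ) k →+* K := θa.toRingHom
  obtain ⟨V, hV, hVi⟩ := exists_place ψ θ hspec
  let ψV : MvPolynomial (σ × ℕ) k →+* V := ψ.codRestrict V hV
  let ρ : MvPolynomial (σ × ℕ) k →+* ResidueField V := (residue V).comp ψV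
  have hρ : ∀ r, ρ r = 0 ↔ θ r = 0 := fun r => by
    rw [hVi]
    exact residue_eq_zero_iff _
  cases u with
  | none =>
    refine ⟨none, fun p N _ hp => ?_⟩
    rw [← aeval_eq_none b p] at hp ⊢
    exact hspec _ hp
  | some u =>
    by_cases hu : u ∈ V
    · let S : Set (MvPolynomial (σ × ℕ) k)[X] := {P | ∃ p : MvPolynomial σ k,
        MvPolynomial.aeval (val b H (some u)) p = 0 ∧ P = MvPolynomial.aeval (uni b) p}
      obtain ⟨z, hz⟩ := exists_common_root ρ θ hρ S (residue V ⟨u, hu⟩) (by
        rintro _ ⟨p, hp, rfl⟩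
        have h1 : (((MvPolynomial.aeval (uni b) p).map ψV).eval ⟨u, hu⟩ : V) = 0 := by
          apply Subtype.ext
          rw [← aeval_eq_zero_iff_some hH] at hp
          refine Eq.trans ?_ hp
          change V.subtype (((MvPolynomial.aeval (uni b) p).map ψV).eval ⟨u, hu⟩) = _
          rw [← eval_map_apply, Polynomial.map_map]
          rfl
        have h2 := congrArg (residue V) h1
        rw [map_zero, ← eval_map_apply, Polynomial.map_map] at h2
        exact h2)
      refine ⟨some z, fun p N _ hp => ?_⟩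
      rw [← aeval_eq_zero_iff_some hf]
      exact hz _ ⟨p, hp, rfl⟩
    · -- `u` is a pole
      have hw : u⁻¹ ∈ V := (V.mem_or_inv_mem u).resolve_left hu
      have hu0 : u ≠ 0 := fun h => hu (h ▸ V.zero_mem)
      let w : V := ⟨u⁻¹, hw⟩
      have hwm : residue V w = 0 := by
        rw [residue_eq_zero_iff, mem_maximalIdeal, mem_nonunits_iff]
        intro h
        obtain ⟨v, hv⟩ := isUnit_iff_exists_inv.1 h
        have h1 : u⁻¹ * (v : k') = 1 := congrArg Subtype.val hv
        have h2 : (v : k') = u := by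
          rw [← mul_one u, ← h1, ← mul_assoc, mul_inv_cancel₀ hu0, one_mul]
        exact hu (h2 ▸ v.2)
      refine ⟨none, fun p N hN hp => ?_⟩
      rw [← aeval_eq_none b p]
      change θ (topc b p) = 0
      rw [← hρ]
      let v : σ → V := fun x =>
        ∑ n ∈ Finset.range (b x + 1), ψV (MvPolynomial.X (x, n)) * w ^ (b x - n)
      have hv : ∀ x, residue V (v x) = ρ (MvPolynomial.X (x, b x)) := by
        intro x
        rw [map_sum, Finset.sum_range_succ, Finset.sum_eq_zero, zero_add, Nat.sub_self, pow_zero,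
          mul_one]
        · rfl
        · intro n hn
          have : b x - n ≠ 0 := by
            have := Finset.mem_range.1 hn
            omega
          rw [map_mul, map_pow, hwm, zero_pow this, mul_zero]
      have hv' : ∀ x, (v x : k') = (u⁻¹) ^ b x * (H x).eval u := by
        intro x
        change V.subtype (v x) = _
        rw [map_sum, eval_eq_sum_range' (Nat.lt_succ_of_le (hH x)), Finset.mul_sum]
        refine Finset.sum_congr rfl fun n hn => ?_
        rw [map_mul, map_pow]
        have h1 : V.subtype (ψV (MvPolynomial.X (x, n))) = (H x).coeff n :=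
          MvPolynomial.aeval_X _ _
        have h2 : V.subtype w = u⁻¹ := rfl
        rw [h1, h2]
        have h3 : b x = (b x - n) + n := by
          have := Finset.mem_range.1 hn
          omega
        have h4 : (u⁻¹) ^ b x * u ^ n = (u⁻¹) ^ (b x - n) := by
          conv_lhs => rw [h3]
          rw [pow_add, mul_assoc, ← mul_pow, inv_mul_cancel₀ hu0, one_pow, mul_one]
        rw [← h4]
        ring
      have h1 : MvPolynomial.eval₂Hom (ψV.comp MvPolynomial.C) v p = 0 := by
        apply Subtype.ext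
        have h2 : V.subtype (MvPolynomial.eval₂Hom (ψV.comp MvPolynomial.C) v p) =
            MvPolynomial.aeval (fun x => (u⁻¹) ^ b x * (H x).eval u) p := by
          rw [← RingHom.comp_apply, MvPolynomial.comp_eval₂Hom, MvPolynomial.aeval_def,
            ← MvPolynomial.coe_eval₂Hom]
          congr 2
          · ext r
            exact MvPolynomial.algHom_C ψa r
          · funext x
            exact hv' x
        refine h2.trans ?_
        rw [aeval_scale hN]
        have h3 : MvPolynomial.aeval (fun x => (H x).eval u) p = 0 := hp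
        rw [h3, mul_zero]
        rfl
      rw [map_topc]
      have h2 := congrArg (residue V) h1
      rw [map_zero, ← RingHom.comp_apply, MvPolynomial.comp_eval₂Hom] at h2
      rw [← h2]
      congr 2
      funext x
      exact (hv x).symm

end Crest.Agent.R260.Prop_703
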