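import Mathlib

/-!
# Purity in characteristic zero by derivations, part 1 (helper340, row 260)

A local ring `O` with coordinates `x i` generating the maximal ideal and derivations `d i` with
`d i (x j) = δ_ij`, in which the positive integers are units, has no proper nonzero ideals stable
under the `d i` (`Coord.eq_top`), and every finite module with a connection along the `d i`
is free (`Coord.free`).
-/

set_option autoImplicit false

namespace Crest.Agent.R260.Pur1_340

open IsLocalRing

/-- Coordinates and dual derivations of a local ring. -/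
structure Coord (O : Type*) [CommRing O] [IsLocalRing O] (ι : Type*) [Fintype ι]
    [DecidableEq ι] where
  x : ι → O
  d : ι → Derivation ℤ O O
  span_x : Ideal.span (Set.range x) = maximalIdeal O
  d_x : ∀ i j, d i (x j) = if i = j then 1 else 0

namespace Coord

variable {O : Type*} [CommRing O] [IsLocalRing O] {ι : Type*} [Fintype ι] [DecidableEq ι]
  (C : Coord O ι)

/-- the Euler derivation -/
noncomputable def eul : Derivation ℤ O O := ∑ i, C.x i • C.d i

theorem eul_apply (f : O) : C.eul f = ∑ i, C.x i * C.d i f := by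
  unfold eul
  have h : ∀ s : Finset ι, (∑ i ∈ s, C.x i • C.d i : Derivation ℤ O O) f
      = ∑ i ∈ s, C.x i * C.d i f := by
    classical
    intro s
    induction s using Finset.induction_on with
    | empty => simp
    | insert a s ha ih => rw [Finset.sum_insert ha, Finset.sum_insert ha, Derivation.add_apply, ih]; rfl
  exact h Finset.univ

theorem x_mem (i : ι) : C.x i ∈ maximalIdeal O := by
  rw [← C.span_x]; exact Ideal.subset_span ⟨i, rfl⟩

theorem eul_x (j : ι) : C.eul (C.x j) = C.x j := by
  rw [C.eul_apply]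
  simp [C.d_x]

theorem eul_mem (f : O) : C.eul f ∈ maximalIdeal O := by
  rw [C.eul_apply]
  exact Ideal.sum_mem _ fun i _ => Ideal.mul_mem_right _ _ (C.x_mem i)

theorem eul_one (g : O) (hg : g ∈ maximalIdeal O) : C.eul g - g ∈ maximalIdeal O ^ 2 := by
  rw [← C.span_x] at hg
  induction hg using Submodule.span_induction with
  | mem g hg =>
    obtain ⟨j, rfl⟩ := hg
    rw [C.eul_x, sub_self]; exact Ideal.zero_mem _
  | zero => simp
  | add a b _ _ ha hb =>
    rw [map_add]
    have : C.eul a + C.eul b - (a + b) = (C.eul a - a) + (C.eul b - b) := by ring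
    rw [this]; exact Ideal.add_mem _ ha hb
  | smul c a hmem ha =>
    have hm : a ∈ maximalIdeal O := by rw [← C.span_x]; exact hmem
    rw [smul_eq_mul, Derivation.leibniz, smul_eq_mul, smul_eq_mul]
    have : c * C.eul a + a * C.eul c - c * a = c * (C.eul a - a) + a * C.eul c := by ring
    rw [this]
    refine Ideal.add_mem _ (Ideal.mul_mem_left _ _ ha) ?_
    rw [pow_two]
    exact Ideal.mul_mem_mul hm (C.eul_mem c)

theorem eul_pow (a : ℕ) (f : O) (hf : f ∈ maximalIdeal O ^ a) :
    C.eul f - (a : O) * f ∈ maximalIdeal O ^ (a + 1) := by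
  induction a generalizing f with
  | zero => simpa using C.eul_mem f
  | succ a ih =>
    rw [pow_succ] at hf
    induction hf using Submodule.mul_induction_on' with
    | mem_mul_mem h hh g hg =>
      rw [Derivation.leibniz, smul_eq_mul, smul_eq_mul]
      have e1 : h * C.eul g + g * C.eul h - ((a + 1 : ℕ) : O) * (h * g)
          = h * (C.eul g - g) + (C.eul h - (a : O) * h) * g := by push_cast; ring
      rw [e1]
      refine Ideal.add_mem _ ?_ ?_
      · have : maximalIdeal O ^ (a + 1 + 1) = maximalIdeal O ^ a * maximalIdeal O ^ 2 := by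
          rw [← pow_add]
        rw [this]; exact Ideal.mul_mem_mul hh (C.eul_one g hg)
      · rw [pow_succ]; exact Ideal.mul_mem_mul (ih h hh) hg
    | add u _ v _ hu hv =>
      rw [map_add]
      have : C.eul u + C.eul v - ((a + 1 : ℕ) : O) * (u + v)
          = (C.eul u - ((a + 1 : ℕ) : O) * u) + (C.eul v - ((a + 1 : ℕ) : O) * v) := by ring
      rw [this]; exact Ideal.add_mem _ hu hv

/-- order drop: an element of order exactly `a ≥ 1` has a derivative of order `a - 1`. -/
theorem mem_pow_succ (hQ : ∀ n : ℕ, n ≠ 0 → IsUnit (n : O)) (a : ℕ) (f : O)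
    (hf : f ∈ maximalIdeal O ^ (a + 1)) (hd : ∀ i, C.d i f ∈ maximalIdeal O ^ (a + 1)) :
    f ∈ maximalIdeal O ^ (a + 2) := by
  have h1 := C.eul_pow (a + 1) f hf
  have h2 : C.eul f ∈ maximalIdeal O ^ (a + 2) := by
    rw [C.eul_apply]
    refine Ideal.sum_mem _ fun i _ => ?_
    rw [show a + 2 = (a + 1) + 1 from rfl, pow_succ, mul_comm (C.x i)]
    exact Ideal.mul_mem_mul (hd i) (C.x_mem i)
  have h3 : ((a + 1 : ℕ) : O) * f ∈ maximalIdeal O ^ (a + 2) := by
    have := Ideal.sub_mem _ h2 h1
    simpa using this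
  obtain ⟨u, hu⟩ := hQ (a + 1) (Nat.succ_ne_zero a)
  have : f = (↑u⁻¹ : O) * (((a + 1 : ℕ) : O) * f) := by
    rw [← hu, ← mul_assoc, Units.inv_mul, one_mul]
  rw [this]
  exact Ideal.mul_mem_left _ _ h3

/-- **D-simplicity.** -/
theorem eq_top [IsNoetherianRing O] (hQ : ∀ n : ℕ, n ≠ 0 → IsUnit (n : O)) (I : Ideal O)
    (h0 : I ≠ ⊥) (hI : ∀ i, ∀ f ∈ I, C.d i f ∈ I) : I = ⊤ := by
  classical
  have hex : ∃ a : ℕ, ∃ f ∈ I, f ∉ maximalIdeal O ^ a := by
    obtain ⟨f, hfI, hf0⟩ := Submodule.exists_mem_ne_zero_of_ne_bot h0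
    by_contra hcon
    push Not at hcon
    apply hf0
    have hk := Ideal.iInf_pow_eq_bot_of_isLocalRing (maximalIdeal O) (maximalIdeal.isMaximal O).ne_top
    have : f ∈ (⨅ i : ℕ, maximalIdeal O ^ i) := by
      rw [Submodule.mem_iInf]
      exact fun i => hcon i f hfI
    rw [hk] at this
    simpa using this
  obtain ⟨f, hfI, hf⟩ := Nat.find_spec hex
  have hmin : ∀ b, b < Nat.find hex → ∀ g ∈ I, g ∈ maximalIdeal O ^ b := by
    intro b hb g hg
    by_contra hcon
    exact Nat.find_min hex hb ⟨g, hg, hcon⟩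
  rcases Nat.lt_or_ge 1 (Nat.find hex) with h1 | h1
  · exfalso
    obtain ⟨a, ha⟩ : ∃ a, Nat.find hex = a + 2 := ⟨Nat.find hex - 2, by omega⟩
    rw [ha] at hf
    apply hf
    refine C.mem_pow_succ hQ a f (hmin (a + 1) (by omega) f hfI) fun i => ?_
    exact hmin (a + 1) (by omega) _ (hI i f hfI)
  · have hfm : f ∉ maximalIdeal O := by
      intro hm
      apply hf
      rcases Nat.le_one_iff_eq_zero_or_eq_one.mp h1 with h | h
      · rw [h, pow_zero, Ideal.one_eq_top]; exact Submodule.mem_top
      · rw [h, pow_one]; exact hm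
    have hu : IsUnit f := by
      by_contra hn
      exact hfm ((mem_maximalIdeal f).mpr hn)
    exact Ideal.eq_top_of_isUnit_mem _ hfI hu

/-- A connection on a module along the derivations `d i`. -/
structure Conn (M : Type*) [AddCommGroup M] [Module O M] where
  D : ι → M →+ M
  leib : ∀ (i : ι) (f : O) (m : M), D i (f • m) = C.d i f • m + f • D i m

variable {M : Type*} [AddCommGroup M] [Module O M]

/-- **A finite module with a connection is free.** -/
theorem free [IsNoetherianRing O] (hQ : ∀ n : ℕ, n ≠ 0 → IsUnit (n : O)) [Module.Finite O M]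
    (D : Conn C M) : Module.Free O M := by
  classical
  -- minimal spanning family
  have hex : ∃ n : ℕ, ∃ v : Fin n → M, Submodule.span O (Set.range v) = ⊤ := by
    obtain ⟨n, v, hv⟩ := Module.Finite.exists_fin (R := O) (M := M)
    exact ⟨n, v, hv⟩
  obtain ⟨n, ⟨v, hv⟩, hmin⟩ : ∃ n : ℕ, (∃ v : Fin n → M, Submodule.span O (Set.range v) = ⊤) ∧
      ∀ k, k < n → ∀ w : Fin k → M, Submodule.span O (Set.range w) ≠ ⊤ :=
    ⟨Nat.find hex, Nat.find_spec hex, fun k hk w hw => Nat.find_min hex hk ⟨w, hw⟩⟩
  -- the coefficients of a relation lie in the maximal ideal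
  have hrel : ∀ f : Fin n → O, ∑ j, f j • v j = 0 → ∀ j, f j ∈ maximalIdeal O := by
    intro f hf j
    by_contra hj
    have hu : IsUnit (f j) := by
      by_contra h
      exact hj ((mem_maximalIdeal _).mpr h)
    obtain ⟨u, hu⟩ := hu
    obtain ⟨k, rfl⟩ : ∃ k, n = k + 1 := by
      rcases Nat.eq_zero_or_pos n with h | h
      · exact absurd j.2 (by omega)
      · exact ⟨n - 1, by omega⟩
    apply hmin k (by omega) (fun l => v (j.succAbove l))
    rw [eq_top_iff, ← hv, Submodule.span_le]
    rintro _ ⟨l, rfl⟩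
    rcases Fin.eq_self_or_eq_succAbove j l with h | ⟨l', h⟩
    · subst h
      rw [Fin.sum_univ_succAbove _ l] at hf
      have : v l = -((↑u⁻¹ : O) • ∑ i : Fin k, f (l.succAbove i) • v (l.succAbove i)) := by
        have h2 : (f l) • v l = -∑ i : Fin k, f (l.succAbove i) • v (l.succAbove i) :=
          eq_neg_of_add_eq_zero_left hf
        rw [← smul_neg, ← h2, ← hu, smul_smul, Units.inv_mul, one_smul]
      rw [this]
      refine Submodule.neg_mem _ (Submodule.smul_mem _ _ (Submodule.sum_mem _ fun i _ => ?_))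
      exact Submodule.smul_mem _ _ (Submodule.subset_span ⟨i, rfl⟩)
    · rw [h]
      exact Submodule.subset_span ⟨l', rfl⟩
  -- connection coefficients
  have hG : ∀ i j, ∃ G : Fin n → O, D.D i (v j) = ∑ l, G l • v l := by
    intro i j
    have : D.D i (v j) ∈ Submodule.span O (Set.range v) := by rw [hv]; exact Submodule.mem_top
    obtain ⟨G, hG⟩ := (Submodule.mem_span_range_iff_exists_fun O).mp this
    exact ⟨G, hG.symm⟩
  choose G hG using hG
  -- the content ideal of the relations
  let R : Set (Fin n → O) := {f | ∑ j, f j • v j = 0}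
  let J : Ideal O := Ideal.span {c | ∃ f ∈ R, ∃ j, c = f j}
  have hJd : ∀ i, ∀ c ∈ J, C.d i c ∈ J := by
    intro i c hc
    induction hc using Submodule.span_induction with
    | mem c hc =>
      obtain ⟨f, hf, j, rfl⟩ := hc
      have hf' : ∑ j, f j • v j = 0 := hf
      have hR : (fun l => C.d i (f l) + ∑ j, f j * G i j l) ∈ R := by
        show ∑ l, (C.d i (f l) + ∑ j, f j * G i j l) • v l = 0
        have h1 : D.D i (∑ j, f j • v j) = 0 := by rw [hf', map_zero]
        rw [map_sum] at h1
        rw [← h1]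
        simp_rw [D.leib, hG, add_smul, Finset.sum_smul, Finset.smul_sum, mul_smul]
        rw [Finset.sum_add_distrib, Finset.sum_add_distrib]
        congr 1
        rw [Finset.sum_comm]
      have h2 : C.d i (f j) = (C.d i (f j) + ∑ p, f p * G i p j) - ∑ p, f p * G i p j := by ring
      rw [h2]
      refine Ideal.sub_mem _ (Ideal.subset_span ⟨_, hR, j, rfl⟩) ?_
      exact Ideal.sum_mem _ fun p _ => Ideal.mul_mem_right _ _ (Ideal.subset_span ⟨f, hf, p, rfl⟩)
    | zero => simp
    | add a b _ _ ha hb => rw [map_add]; exact Ideal.add_mem _ ha hb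
    | smul r a hmem ha =>
      rw [smul_eq_mul, Derivation.leibniz, smul_eq_mul, smul_eq_mul]
      exact Ideal.add_mem _ (Ideal.mul_mem_left _ _ ha) (Ideal.mul_mem_right _ _ hmem)
  have hJm : J ≤ maximalIdeal O := by
    refine Ideal.span_le.mpr ?_
    rintro _ ⟨f, hf, j, rfl⟩
    exact hrel f hf j
  have hJ0 : J = ⊥ := by
    by_contra h
    have := C.eq_top hQ J h hJd
    exact (maximalIdeal.isMaximal O).ne_top (top_le_iff.mp (this ▸ hJm))
  have hli : LinearIndependent O v := by
    rw [Fintype.linearIndependent_iff]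
    intro f hf j
    have : f j ∈ J := Ideal.subset_span ⟨f, hf, j, rfl⟩
    rw [hJ0] at this
    simpa using this
  exact Module.Free.of_basis (Module.Basis.mk hli (by rw [hv]))

end Coord

end Crest.Agent.R260.Pur1_340
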