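import Mathlib

/-!
# Row 260: moving line lemma (helper920), step (5) of #5156 in the form #5517 / #5602

* `der_zero`, `der_unique`: derivations over an algebraic extension of characteristic zero
* `mov`, `mov_mem`: the identity `ψ (∂ b) = Σ c_j D_j ψ b` extends from `K` to `K'`
* `int_iff`: integrality over `A_R = ψ⁻¹ O` is regularity of all conjugates
* `int_deriv`: integral elements are stable under the derivation `∂`
-/

set_option autoImplicit false

noncomputable section

open Polynomial

namespace Crest.Agent.R260.Pur920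

section DerZero

variable {K K' M : Type*} [Field K] [Field K'] [Field M] [CharZero K] [Algebra K K']
  [Algebra.IsAlgebraic K K']

omit [CharZero K] [Algebra.IsAlgebraic K K'] in
/-- an additive map with the product rule over `ψ` which vanishes on `K`, on polynomials -/
lemma der_aeval (ψ : K' →+* M) (δ : K' →+ M)
    (hδ : ∀ a b, δ (a * b) = ψ a * δ b + ψ b * δ a)
    (h0 : ∀ a : K, δ (algebraMap K K' a) = 0) (b : K') (q : K[X]) :
    δ (aeval b q) = ψ (aeval b (derivative q)) * δ b := by
  have hpow : ∀ n : ℕ, δ (b ^ n) = ψ ((n : K') * b ^ (n - 1)) * δ b := by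
    intro n
    induction n with
    | zero =>
      have h1 := h0 1
      rw [map_one] at h1
      simp [h1]
    | succ n ih =>
      rw [pow_succ, hδ, ih]
      rcases n with _ | n
      · simp
      · simp only [map_mul, map_pow, map_natCast, Nat.add_sub_cancel, Nat.cast_add, Nat.cast_one,
          map_add, map_one]
        ring
  induction q using Polynomial.induction_on' with
  | add p q hp hq => simp only [map_add, hp, hq, add_mul]
  | monomial n a =>
    rw [aeval_monomial, hδ, h0, hpow, derivative_monomial, aeval_monomial]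
    simp only [map_mul, map_natCast, map_pow, mul_zero, add_zero]
    ring

/-- an additive map with the product rule over `ψ` which vanishes on `K` vanishes -/
theorem der_zero (ψ : K' →+* M) (δ : K' →+ M)
    (hδ : ∀ a b, δ (a * b) = ψ a * δ b + ψ b * δ a)
    (h0 : ∀ a : K, δ (algebraMap K K' a) = 0) (b : K') : δ b = 0 := by
  have hb : IsIntegral K b := Algebra.IsIntegral.isIntegral b
  have h1 := der_aeval ψ δ hδ h0 b (minpoly K b)
  rw [minpoly.aeval, map_zero] at h1
  have h2 : aeval b (derivative (minpoly K b)) ≠ 0 :=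
    (minpoly.irreducible hb).separable.aeval_derivative_ne_zero (minpoly.aeval K b)
  have h3 : ψ (aeval b (derivative (minpoly K b))) ≠ 0 := by
    intro h
    exact h2 (ψ.injective (by rw [h, map_zero]))
  rcases mul_eq_zero.mp h1.symm with h | h
  · exact absurd h h3
  · exact h

end DerZero

section Mov

variable {K K' M : Type*} [Field K] [Field K'] [Field M] [CharZero K] [Algebra K K']
  [Algebra.IsAlgebraic K K']

/-- **(MOV)** the identity `ψ (∂ b) = Σ c_j D_j (ψ b)` extends from `K` to `K'` -/
theorem mov (ψ : K' →+* M) (der : Derivation ℤ K' K') {ι : Type*} (s : Finset ι) (c : ι → M)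
    (D : ι → Derivation ℤ M M)
    (hK : ∀ a : K, ψ (der (algebraMap K K' a)) = ∑ j ∈ s, c j * D j (ψ (algebraMap K K' a)))
    (b : K') : ψ (der b) = ∑ j ∈ s, c j * D j (ψ b) := by
  let δ : K' →+ M :=
    { toFun := fun b => ψ (der b) - ∑ j ∈ s, c j * D j (ψ b)
      map_zero' := by simp
      map_add' := by
        intro a b
        simp only [map_add, mul_add, Finset.sum_add_distrib]
        ring }
  have h1 : δ b = 0 := by
    refine der_zero (K := K) ψ δ ?_ ?_ b
    · intro a b
      show ψ (der (a * b)) - ∑ j ∈ s, c j * D j (ψ (a * b)) =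
        ψ a * (ψ (der b) - ∑ j ∈ s, c j * D j (ψ b)) +
          ψ b * (ψ (der a) - ∑ j ∈ s, c j * D j (ψ a))
      have e1 : ∑ j ∈ s, c j * D j (ψ (a * b)) =
          ψ a * ∑ j ∈ s, c j * D j (ψ b) + ψ b * ∑ j ∈ s, c j * D j (ψ a) := by
        rw [Finset.mul_sum, Finset.mul_sum, ← Finset.sum_add_distrib]
        refine Finset.sum_congr rfl fun j _ => ?_
        rw [map_mul, Derivation.leibniz, smul_eq_mul, smul_eq_mul]
        ring
      rw [e1, Derivation.leibniz, smul_eq_mul, smul_eq_mul, map_add, map_mul, map_mul]
      ring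
    · intro a
      show ψ (der (algebraMap K K' a)) - ∑ j ∈ s, c j * D j (ψ (algebraMap K K' a)) = 0
      rw [hK, sub_self]
  exact sub_eq_zero.mp h1

/-- **(MOV)** regular elements stay regular -/
theorem mov_mem (ψ : K' →+* M) (der : Derivation ℤ K' K') {ι : Type*} (s : Finset ι) (c : ι → M)
    (D : ι → Derivation ℤ M M) (O : Subring M) (hc : ∀ j ∈ s, c j ∈ O)
    (hD : ∀ j ∈ s, ∀ x ∈ O, D j x ∈ O)
    (hK : ∀ a : K, ψ (der (algebraMap K K' a)) = ∑ j ∈ s, c j * D j (ψ (algebraMap K K' a)))
    {b : K'} (hb : ψ b ∈ O) : ψ (der b) ∈ O := by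
  rw [mov (K := K) ψ der s c D hK b]
  exact sum_mem fun j hj => O.mul_mem (hc j hj) (hD j hj _ hb)

/-- derivations of `K'` are determined on `K` -/
theorem der_unique (d d' : Derivation ℤ K' K')
    (h : ∀ a : K, d (algebraMap K K' a) = d' (algebraMap K K' a)) : d = d' := by
  ext b
  have h1 := mov (K := K) (RingHom.id K') d {()} (fun _ => (1 : K')) (fun _ => d')
    (fun a => by simp [h a]) b
  simpa using h1

/-- a derivation of `K'` preserving `K` commutes with the automorphisms -/
theorem der_comm (der : Derivation ℤ K' K') (d : K → K)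
    (hd : ∀ a, der (algebraMap K K' a) = algebraMap K K' (d a)) (σ : K' ≃ₐ[K] K') (b : K') :
    σ (der b) = der (σ b) := by
  have h1 : ∀ b : K', ((σ : K' →+* K')) (der b) - der (σ b) = 0 := by
    intro b
    let δ : K' →+ K' :=
      { toFun := fun b => σ (der b) - der (σ b)
        map_zero' := by simp
        map_add' := by
          intro a b
          simp only [map_add]
          ring }
    refine der_zero (K := K) (σ : K' →+* K') δ ?_ ?_ b
    · intro a b
      show σ (der (a * b)) - der (σ (a * b)) =
        σ a * (σ (der b) - der (σ b)) + σ b * (σ (der a) - der (σ a))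
      rw [Derivation.leibniz, map_mul σ a b, Derivation.leibniz, smul_eq_mul, smul_eq_mul,
        smul_eq_mul, smul_eq_mul, map_add σ, map_mul σ, map_mul σ]
      ring
    · intro a
      show σ (der (algebraMap K K' a)) - der (σ (algebraMap K K' a)) = 0
      rw [hd, σ.commutes, σ.commutes, hd, sub_self]
  have h2 := h1 b
  exact sub_eq_zero.mp h2

end Mov

section Int

variable {K K' M : Type*} [Field K] [Field K'] [Field M] [Algebra K K']

/-- `A_R`: the elements of `K` with `ψ`-value in `O` -/
def AR (K : Type*) {K' M : Type*} [Field K] [Field K'] [Field M] [Algebra K K'] (ψ : K' →+* M)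
    (O : Subring M) : Subring K :=
  O.comap (ψ.comp (algebraMap K K'))

lemma mem_AR (ψ : K' →+* M) (O : Subring M) (a : K) :
    a ∈ AR K ψ O ↔ ψ (algebraMap K K' a) ∈ O := Iff.rfl

/-- **(INT)** `b` is integral over `A_R` iff all conjugates of `b` are regular -/
theorem int_iff [Normal K K'] (ψ : K' →+* M) (O : Subring M)
    (hO : ∀ x : M, IsIntegral O x → x ∈ O) (b : K') :
    IsIntegral (AR K ψ O) b ↔ ∀ σ : K' ≃ₐ[K] K', ψ (σ b) ∈ O := by
  constructor
  · rintro ⟨p, hp, hp0⟩ σ
    apply hO
    let φ : AR K ψ O →+* O :=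
      { toFun := fun a => ⟨ψ (algebraMap K K' a), a.2⟩
        map_one' := by ext; simp
        map_mul' := by intro a b; ext; simp
        map_zero' := by ext; simp
        map_add' := by intro a b; ext; simp }
    refine ⟨p.map φ, hp.map φ, ?_⟩
    rw [eval₂_map]
    have e1 : (algebraMap O M).comp φ =
        (ψ.comp (σ : K' →+* K')).comp (algebraMap (AR K ψ O) K') := by
      ext a
      show ψ (algebraMap K K' a) = ψ (σ (algebraMap K K' a))
      rw [σ.commutes]
    rw [e1]
    have e2 := Polynomial.hom_eval₂ p (algebraMap (AR K ψ O) K') (ψ.comp (σ : K' →+* K')) b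
    rw [hp0, map_zero] at e2
    exact e2.symm
  · intro h
    have hb : IsIntegral K b := Normal.isIntegral inferInstance b
    -- the coefficients of the minimal polynomial
    have hsp : ((minpoly K b).map (algebraMap K K')).Splits :=
      Normal.splits inferInstance b
    have hroots : ∀ r ∈ ((minpoly K b).map (algebraMap K K')).roots, ψ r ∈ O := by
      intro r hr
      have h1 : aeval r (minpoly K b) = 0 := by
        have := (mem_roots ((minpoly.monic hb).map (algebraMap K K')).ne_zero).mp hr
        rwa [IsRoot.def, eval_map, ← aeval_def] at this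
      obtain ⟨σ, hσ⟩ := minpoly.exists_algEquiv_of_root' (K := K) (L := K') (x := r) (y := b)
        hb.isAlgebraic h1
      rw [← hσ]
      exact h σ
    have hprod : ((minpoly K b).map (algebraMap K K')).map ψ =
        ((((minpoly K b).map (algebraMap K K')).roots.map ψ).map (fun r => X - C r)).prod := by
      have h1 := hsp.eq_prod_roots_of_monic ((minpoly.monic hb).map (algebraMap K K'))
      conv_lhs => rw [h1]
      rw [Polynomial.map_multiset_prod, Multiset.map_map, Multiset.map_map]
      congr 1
      refine Multiset.map_congr rfl fun r _ => ?_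
      simp
    have hmem : ∀ S : Multiset M, (∀ r ∈ S, r ∈ O) →
        ∀ i, ((S.map (fun r => X - C r)).prod).coeff i ∈ O := by
      intro S hS
      have hl : (S.map (fun r => X - C r)).prod ∈ Polynomial.lifts (O.subtype) := by
        apply Subsemiring.multiset_prod_mem
        intro q hq
        obtain ⟨r, hr, rfl⟩ := Multiset.mem_map.mp hq
        refine Subring.sub_mem (Polynomial.liftsRing O.subtype) ?_ ?_
        · exact Polynomial.X_mem_lifts _
        · exact (Polynomial.lifts_iff_coeff_lifts _).mpr (by
            intro n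
            rw [coeff_C]
            split_ifs
            · exact ⟨⟨r, hS r hr⟩, rfl⟩
            · exact ⟨0, by simp⟩)
      intro i
      obtain ⟨x, hx⟩ := (Polynomial.lifts_iff_coeff_lifts _).mp hl i
      rw [← hx]
      exact x.2
    have hcoef : ∀ i, (minpoly K b).coeff i ∈ AR K ψ O := by
      intro i
      rw [mem_AR]
      have h1 : ψ (algebraMap K K' ((minpoly K b).coeff i)) =
          (((minpoly K b).map (algebraMap K K')).map ψ).coeff i := by
        rw [coeff_map, coeff_map]
      rw [h1, hprod]
      apply hmem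
      intro r hr
      obtain ⟨r', hr', rfl⟩ := Multiset.mem_map.mp hr
      exact hroots r' hr'
    have hl : minpoly K b ∈ Polynomial.lifts ((AR K ψ O).subtype) :=
      (Polynomial.lifts_iff_coeff_lifts _).mpr fun n => ⟨⟨_, hcoef n⟩, rfl⟩
    obtain ⟨q, hq, -, hqm⟩ := Polynomial.lifts_and_natDegree_eq_and_monic hl (minpoly.monic hb)
    refine ⟨q, hqm, ?_⟩
    have h2 : (algebraMap (AR K ψ O) K') = (algebraMap K K').comp (AR K ψ O).subtype := rfl
    rw [h2, ← eval₂_map, hq, ← aeval_def, minpoly.aeval]

/-- **(INT)** integrality over `A_R` is stable under the derivation -/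
theorem int_deriv [CharZero K] [Normal K K'] (ψ : K' →+* M) (O : Subring M)
    (hO : ∀ x : M, IsIntegral O x → x ∈ O)
    (der : Derivation ℤ K' K') (d : K → K)
    (hd : ∀ a, der (algebraMap K K' a) = algebraMap K K' (d a))
    {ι : Type*} (s : Finset ι) (c : ι → M)
    (D : ι → Derivation ℤ M M) (hc : ∀ j ∈ s, c j ∈ O)
    (hD : ∀ j ∈ s, ∀ x ∈ O, D j x ∈ O)
    (hK : ∀ a : K, ψ (algebraMap K K' (d a)) = ∑ j ∈ s, c j * D j (ψ (algebraMap K K' a)))
    {b : K'} (hb : IsIntegral (AR K ψ O) b) : IsIntegral (AR K ψ O) (der b) := by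
  have halg : Algebra.IsAlgebraic K K' := Normal.toIsAlgebraic
  rw [int_iff ψ O hO] at hb ⊢
  intro σ
  rw [der_comm (K := K) der d hd σ b]
  exact mov_mem (K := K) ψ der s c D O hc hD (fun a => by rw [hd]; exact hK a) (hb σ)

end Int

end Crest.Agent.R260.Pur920
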