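import Crest.Agent.R260.Pur1_920

/-!
# Row 260: the conic lemma (P1) of #5602 (helper920)

* `chain_mem`: derivatives along a generic curve of elements with integral derivatives
* `quad_of_int`: integral derivatives at every place of `k(u)` and a pole of order two at infinity
  ==> quadratic polynomial
-/

set_option autoImplicit false

noncomputable section

open Polynomial

namespace Crest.Agent.R260.Pur920

section Chain

variable {K K' L : Type*} [Field K] [Field K'] [Field L] [CharZero K] [Algebra K K']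
  [Algebra.IsAlgebraic K K']

/-- **(CHAIN)** `S ⊆ K'` stable under the derivations `∂_j`, `d (ψ b) = Σ e_j ψ (∂_j b)` on `K`:
all derivatives of `g * ψ b` stay in `O`. -/
theorem chain_mem (ψ : K' →+* L) (dL : Derivation ℤ L L) {ι : Type*} (s : Finset ι)
    (e : ι → L) (der : ι → Derivation ℤ K' K')
    (hK : ∀ a : K, dL (ψ (algebraMap K K' a)) = ∑ j ∈ s, e j * ψ (der j (algebraMap K K' a)))
    (S : Subring K') (hS : ∀ j ∈ s, ∀ b ∈ S, der j b ∈ S)
    (O0 O : Subring L) (h0 : O0 ≤ O) (hSO : ∀ b ∈ S, ψ b ∈ O) (hd0 : ∀ x ∈ O0, dL x ∈ O0)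
    (he : ∀ j ∈ s, e j ∈ O0) {g : L} (hg : g ∈ O0) {b : K'} (hb : b ∈ S) (r : ℕ) :
    (dL)^[r] (g * ψ b) ∈ O := by
  -- the identity extends to `K'`
  have hK' : ∀ b : K', dL (ψ b) = ∑ j ∈ s, e j * ψ (der j b) := by
    intro b
    let δ : K' →+ L :=
      { toFun := fun b => dL (ψ b) - ∑ j ∈ s, e j * ψ (der j b)
        map_zero' := by simp
        map_add' := by
          intro a b
          simp only [map_add, mul_add, Finset.sum_add_distrib]
          ring }
    have h1 : δ b = 0 := by
      refine der_zero (K := K) ψ δ ?_ ?_ b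
      · intro a b
        show dL (ψ (a * b)) - ∑ j ∈ s, e j * ψ (der j (a * b)) =
          ψ a * (dL (ψ b) - ∑ j ∈ s, e j * ψ (der j b)) +
            ψ b * (dL (ψ a) - ∑ j ∈ s, e j * ψ (der j a))
        have e1 : ∑ j ∈ s, e j * ψ (der j (a * b)) =
            ψ a * ∑ j ∈ s, e j * ψ (der j b) + ψ b * ∑ j ∈ s, e j * ψ (der j a) := by
          rw [Finset.mul_sum, Finset.mul_sum, ← Finset.sum_add_distrib]
          refine Finset.sum_congr rfl fun j _ => ?_
          rw [Derivation.leibniz, smul_eq_mul, smul_eq_mul, map_add, map_mul, map_mul]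
          ring
        rw [e1, map_mul, Derivation.leibniz, smul_eq_mul, smul_eq_mul]
        ring
      · intro a
        show dL (ψ (algebraMap K K' a)) - ∑ j ∈ s, e j * ψ (der j (algebraMap K K' a)) = 0
        rw [hK, sub_self]
    exact sub_eq_zero.mp h1
  -- the `O0`-span of `ψ S`
  let T : AddSubgroup L := AddSubgroup.closure {x | ∃ g ∈ O0, ∃ b ∈ S, x = g * ψ b}
  have hTO : T ≤ O.toAddSubgroup := by
    rw [AddSubgroup.closure_le]
    rintro x ⟨g, hg, b, hb, rfl⟩
    exact O.mul_mem (h0 hg) (hSO b hb)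
  have hTd : ∀ x ∈ T, dL x ∈ T := by
    intro x hx
    induction hx using AddSubgroup.closure_induction with
    | mem x hx =>
      obtain ⟨g, hg, b, hb, rfl⟩ := hx
      rw [Derivation.leibniz, smul_eq_mul, smul_eq_mul, hK', Finset.mul_sum]
      refine T.add_mem (T.sum_mem fun j hj => ?_) ?_
      · exact AddSubgroup.subset_closure ⟨g * e j, O0.mul_mem hg (he j hj), der j b, hS j hj b hb,
          by ring⟩
      · exact AddSubgroup.subset_closure ⟨dL g, hd0 g hg, b, hb, by ring⟩
    | zero => rw [map_zero]; exact T.zero_mem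
    | add x y _ _ hx hy => rw [map_add]; exact T.add_mem hx hy
    | neg x _ hx => rw [map_neg]; exact T.neg_mem hx
  have hr : ∀ r : ℕ, (dL)^[r] (g * ψ b) ∈ T := by
    intro r
    induction r with
    | zero => exact AddSubgroup.subset_closure ⟨g, hg, b, hb, rfl⟩
    | succ n ih => rw [Function.iterate_succ_apply']; exact hTd _ ih
  exact hTO (hr r)

end Chain

section Places

variable {k : Type*} [Field k] {Kr : Type*} [Field Kr] [Algebra k[X] Kr] [IsFractionRing k[X] Kr]

/-- the local ring of `k(u)` at the finite place `a` -/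
def Va (Kr : Type*) [Field Kr] [Algebra k[X] Kr] [IsFractionRing k[X] Kr] (a : k) :
    ValuationSubring Kr where
  carrier := {x | ∃ p q : k[X], q.eval a ≠ 0 ∧ x * algebraMap k[X] Kr q = algebraMap k[X] Kr p}
  mul_mem' := by
    rintro x y ⟨p, q, hq, h⟩ ⟨p', q', hq', h'⟩
    refine ⟨p * p', q * q', by rw [eval_mul]; exact mul_ne_zero hq hq', ?_⟩
    rw [map_mul, map_mul, ← h, ← h']
    ring
  one_mem' := ⟨1, 1, by simp, by simp⟩
  add_mem' := by
    rintro x y ⟨p, q, hq, h⟩ ⟨p', q', hq', h'⟩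
    refine ⟨p * q' + p' * q, q * q', by rw [eval_mul]; exact mul_ne_zero hq hq', ?_⟩
    rw [map_add, map_mul, map_mul, map_mul, ← h, ← h']
    ring
  zero_mem' := ⟨0, 1, by simp, by simp⟩
  neg_mem' := by
    rintro x ⟨p, q, hq, h⟩
    exact ⟨-p, q, hq, by rw [map_neg, ← h]; ring⟩
  mem_or_inv_mem' := by
    intro x
    obtain ⟨p, q, hq, rfl⟩ := IsFractionRing.div_surjective (A := k[X]) x
    have hq0 : q ≠ 0 := nonZeroDivisors.ne_zero hq
    by_cases hp0 : p = 0
    · left
      exact ⟨0, 1, by simp, by simp [hp0]⟩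
    obtain ⟨p', hp', hpn⟩ := exists_eq_pow_rootMultiplicity_mul_and_not_dvd p hp0 a
    obtain ⟨q', hq', hqn⟩ := exists_eq_pow_rootMultiplicity_mul_and_not_dvd q hq0 a
    rw [dvd_iff_isRoot, IsRoot.def] at hpn hqn
    have hX : algebraMap k[X] Kr (X - C a) ≠ 0 := by
      rw [Ne, FaithfulSMul.algebraMap_eq_zero_iff]
      exact X_sub_C_ne_zero a
    have hp1 : algebraMap k[X] Kr p' ≠ 0 := by
      rw [Ne, FaithfulSMul.algebraMap_eq_zero_iff]
      rintro rfl
      simp at hpn
    have hq1 : algebraMap k[X] Kr q' ≠ 0 := by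
      rw [Ne, FaithfulSMul.algebraMap_eq_zero_iff]
      rintro rfl
      simp at hqn
    rcases le_total (q.rootMultiplicity a) (p.rootMultiplicity a) with h | h
    · left
      refine ⟨(X - C a) ^ (p.rootMultiplicity a - q.rootMultiplicity a) * p', q', hqn, ?_⟩
      rw [hp', hq']
      simp only [map_mul, map_pow]
      have e1 : algebraMap k[X] Kr (X - C a) ^ p.rootMultiplicity a =
          algebraMap k[X] Kr (X - C a) ^ (p.rootMultiplicity a - q.rootMultiplicity a) *
            algebraMap k[X] Kr (X - C a) ^ q.rootMultiplicity a := by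
        rw [← pow_add, Nat.sub_add_cancel h]
      rw [← hp', ← hq', e1]
      field_simp
    · right
      refine ⟨(X - C a) ^ (q.rootMultiplicity a - p.rootMultiplicity a) * q', p', hpn, ?_⟩
      rw [hp', hq']
      simp only [map_mul, map_pow]
      have e1 : algebraMap k[X] Kr (X - C a) ^ q.rootMultiplicity a =
          algebraMap k[X] Kr (X - C a) ^ (q.rootMultiplicity a - p.rootMultiplicity a) *
            algebraMap k[X] Kr (X - C a) ^ p.rootMultiplicity a := by
        rw [← pow_add, Nat.sub_add_cancel h]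
      rw [← hp', ← hq', e1]
      field_simp

lemma mem_Va {a : k} {x : Kr} : x ∈ Va Kr a ↔
    ∃ p q : k[X], q.eval a ≠ 0 ∧ x * algebraMap k[X] Kr q = algebraMap k[X] Kr p := Iff.rfl

/-- the local ring of `k(u)` at infinity -/
def Vinf (k Kr : Type*) [Field k] [Field Kr] [Algebra k[X] Kr] [IsFractionRing k[X] Kr] :
    ValuationSubring Kr where
  carrier := {x | ∃ p q : k[X], q ≠ 0 ∧ p.degree ≤ q.degree ∧
    x * algebraMap k[X] Kr q = algebraMap k[X] Kr p}
  mul_mem' := by
    rintro x y ⟨p, q, hq, hd, h⟩ ⟨p', q', hq', hd', h'⟩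
    refine ⟨p * p', q * q', mul_ne_zero hq hq', ?_, ?_⟩
    · rw [degree_mul, degree_mul]
      exact add_le_add hd hd'
    · rw [map_mul, map_mul, ← h, ← h']
      ring
  one_mem' := ⟨1, 1, one_ne_zero, le_rfl, by simp⟩
  add_mem' := by
    rintro x y ⟨p, q, hq, hd, h⟩ ⟨p', q', hq', hd', h'⟩
    refine ⟨p * q' + p' * q, q * q', mul_ne_zero hq hq', ?_, ?_⟩
    · refine (degree_add_le _ _).trans (max_le ?_ ?_)
      · rw [degree_mul, degree_mul]
        gcongr
      · rw [degree_mul, degree_mul, add_comm q.degree]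
        gcongr
    · rw [map_add, map_mul, map_mul, map_mul, ← h, ← h']
      ring
  zero_mem' := ⟨0, 1, one_ne_zero, by simp, by simp⟩
  neg_mem' := by
    rintro x ⟨p, q, hq, hd, h⟩
    exact ⟨-p, q, hq, by rwa [degree_neg], by rw [map_neg, ← h]; ring⟩
  mem_or_inv_mem' := by
    intro x
    obtain ⟨p, q, hq, rfl⟩ := IsFractionRing.div_surjective (A := k[X]) x
    have hq0 : q ≠ 0 := nonZeroDivisors.ne_zero hq
    by_cases hp0 : p = 0
    · left
      exact ⟨0, 1, one_ne_zero, by simp, by simp [hp0]⟩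
    have hp1 : algebraMap k[X] Kr p ≠ 0 := by
      rwa [Ne, FaithfulSMul.algebraMap_eq_zero_iff]
    have hq1 : algebraMap k[X] Kr q ≠ 0 := by
      rwa [Ne, FaithfulSMul.algebraMap_eq_zero_iff]
    rcases le_total p.degree q.degree with h | h
    · left
      exact ⟨p, q, hq0, h, by field_simp⟩
    · right
      exact ⟨q, p, hp0, h, by field_simp⟩

lemma mem_Vinf {x : Kr} : x ∈ Vinf k Kr ↔
    ∃ p q : k[X], q ≠ 0 ∧ p.degree ≤ q.degree ∧
      x * algebraMap k[X] Kr q = algebraMap k[X] Kr p := Iff.rfl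

/-- elements of all finite local rings are polynomials -/
lemma exists_poly [IsAlgClosed k] {x : Kr} (hx : ∀ a : k, x ∈ Va Kr a) :
    ∃ p : k[X], x = algebraMap k[X] Kr p := by
  classical
  -- a representation with denominator of minimal degree
  have hex : ∃ n : ℕ, ∃ p q : k[X], q ≠ 0 ∧ q.natDegree = n ∧
      x * algebraMap k[X] Kr q = algebraMap k[X] Kr p := by
    obtain ⟨p, q, hq, h⟩ := hx 0
    exact ⟨q.natDegree, p, q, by rintro rfl; simp at hq, rfl, h⟩
  obtain ⟨p, q, hq0, hqn, h⟩ := Nat.find_spec hex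
  have hmin := fun m (hm : m < Nat.find hex) => Nat.find_min hex hm
  by_cases hdeg : q.natDegree = 0
  · rw [natDegree_eq_zero] at hdeg
    obtain ⟨c, rfl⟩ := hdeg
    have hc : c ≠ 0 := by rintro rfl; simp at hq0
    refine ⟨C c⁻¹ * p, ?_⟩
    rw [map_mul, ← h, mul_comm x, ← mul_assoc, ← map_mul, ← C_mul, inv_mul_cancel₀ hc, C_1,
      map_one, one_mul]
  · exfalso
    have hdeg' : q.degree ≠ 0 := by
      rw [degree_eq_natDegree hq0]
      exact_mod_cast hdeg
    obtain ⟨a, ha⟩ := IsAlgClosed.exists_root q hdeg'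
    obtain ⟨q₁, hq₁⟩ := dvd_iff_isRoot.mpr ha
    obtain ⟨p', q', hq', h'⟩ := hx a
    -- p q' = p' q, so (X - a) | p
    have h2 : p * q' = p' * q := by
      apply FaithfulSMul.algebraMap_injective k[X] Kr
      rw [map_mul, map_mul, ← h, ← h']
      ring
    have h3 : (X - C a) ∣ p := by
      have h4 : (X - C a) ∣ p * q' := by
        rw [h2]
        exact (dvd_iff_isRoot.mpr ha).mul_left p'
      rcases (prime_X_sub_C a).dvd_or_dvd h4 with h5 | h5
      · exact h5
      · exact absurd (dvd_iff_isRoot.mp h5) hq'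
    obtain ⟨p₁, hp₁⟩ := h3
    have hX : algebraMap k[X] Kr (X - C a) ≠ 0 := by
      rw [Ne, FaithfulSMul.algebraMap_eq_zero_iff]
      exact X_sub_C_ne_zero a
    have hq₁0 : q₁ ≠ 0 := by
      rintro rfl
      rw [mul_zero] at hq₁
      exact hq0 hq₁
    refine hmin q₁.natDegree ?_ ⟨p₁, q₁, hq₁0, rfl, ?_⟩
    · rw [← hqn, hq₁, natDegree_mul (X_sub_C_ne_zero a) hq₁0, natDegree_X_sub_C]
      omega
    · rw [hq₁, hp₁, map_mul, map_mul] at h
      apply mul_left_cancel₀ hX
      rw [← h]
      ring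

/-- coefficients of the minimal polynomial of an integral element lie in the valuation ring -/
lemma coeff_mem {L : Type*} [Field L] [Algebra Kr L] (V : ValuationSubring Kr) {f : L}
    (hf : IsIntegral V f) (i : ℕ) : (minpoly Kr f).coeff i ∈ V := by
  obtain ⟨p, hp, hp0⟩ := hf
  have h1 : minpoly Kr f ∣ p.map (algebraMap V Kr) := by
    apply minpoly.dvd
    rw [aeval_map_algebraMap]
    exact hp0
  have hfi : IsIntegral Kr f := ⟨p.map (algebraMap V Kr), hp.map _, by
    rw [eval₂_map]
    exact hp0⟩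
  have h2 := Polynomial.isIntegral_coeff_of_dvd p (minpoly Kr f) hp (minpoly.monic hfi) h1 i
  obtain ⟨y, hy⟩ := (IsIntegrallyClosed.isIntegral_iff (R := V) (K := Kr)).mp h2
  rw [← hy]
  exact y.2

end Places

end Crest.Agent.R260.Pur920
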