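import Crest.Agent.R260.Pur2_920

/-!
# Row 260: quadratic polynomials from integrality at all places (helper920)

* `zero_of_int`: `h` integral at all finite places, `u ^ m h` integral at infinity, `m > 0` ==> `h = 0`
* `const_of_der`: constants of `d/du` are in `k`
* `quad_of_int`, `quad_of_int'`
-/

set_option autoImplicit false

noncomputable section

open Polynomial

namespace Crest.Agent.R260.Pur920

variable {k : Type*} [Field k] {Kr : Type*} [Field Kr] [Algebra k[X] Kr] [IsFractionRing k[X] Kr]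
variable {L : Type*} [Field L] [Algebra Kr L]

/-- the variable `u` in `L` -/
def U (k Kr L : Type*) [Field k] [Field Kr] [Algebra k[X] Kr] [Field L] [Algebra Kr L] : L :=
  algebraMap Kr L (algebraMap k[X] Kr X)

lemma algebraMap_X_ne_zero : algebraMap k[X] Kr X ≠ 0 := by
  rw [Ne, FaithfulSMul.algebraMap_eq_zero_iff]
  exact X_ne_zero

lemma U_ne_zero : U k Kr L ≠ 0 := by
  rw [U, Ne, FaithfulSMul.algebraMap_eq_zero_iff]
  exact algebraMap_X_ne_zero

lemma degree_le_of_mem_Vinf {p : k[X]} (hp : algebraMap k[X] Kr p ∈ Vinf k Kr) : p.degree ≤ 0 := by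
  obtain ⟨a, q, hq, hd, h⟩ := hp
  have h1 : p * q = a := by
    apply FaithfulSMul.algebraMap_injective k[X] Kr
    rw [map_mul, h]
  by_contra hc
  rw [not_le] at hc
  rw [← h1, degree_mul, degree_eq_natDegree hq, degree_eq_natDegree (ne_zero_of_degree_gt hc)] at hd
  rw [degree_eq_natDegree (ne_zero_of_degree_gt hc)] at hc
  have h2 : p.natDegree + q.natDegree ≤ q.natDegree := by exact_mod_cast hd
  have h3 : 0 < p.natDegree := by exact_mod_cast hc
  omega

/-- integral at all finite places and vanishing at infinity ==> zero -/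
theorem zero_of_int [IsAlgClosed k] {h : L} (hfin : ∀ a : k, IsIntegral (Va Kr a) h) {m : ℕ}
    (hm : 0 < m) (hinf : IsIntegral (Vinf k Kr) (U k Kr L ^ m * h)) : h = 0 := by
  -- `h` is algebraic
  have hh : IsIntegral Kr h := by
    obtain ⟨p, hp, hp0⟩ := hfin 0
    exact ⟨p.map (algebraMap (Va Kr 0) Kr), hp.map _, by rw [eval₂_map]; exact hp0⟩
  set s : Kr := algebraMap k[X] Kr X ^ m with hs
  have hs0 : s ≠ 0 := pow_ne_zero _ algebraMap_X_ne_zero
  have hsU : U k Kr L ^ m * h = algebraMap Kr L s * h := by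
    rw [U, hs, map_pow]
  rw [hsU] at hinf
  set h' : L := algebraMap Kr L s * h with hh'
  have hh1 : IsIntegral Kr h' := isIntegral_algebraMap.mul hh
  -- the two minimal polynomials
  have hm1 : minpoly Kr h' = (minpoly Kr h).scaleRoots s := by
    have d1 : minpoly Kr h' ∣ (minpoly Kr h).scaleRoots s := by
      apply minpoly.dvd
      exact scaleRoots_aeval_eq_zero (minpoly.aeval Kr h)
    have d2 : minpoly Kr h ∣ (minpoly Kr h').scaleRoots s⁻¹ := by
      apply minpoly.dvd
      have h1 := scaleRoots_aeval_eq_zero (r := s⁻¹) (minpoly.aeval Kr h')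
      have h2 : algebraMap Kr L s⁻¹ * h' = h := by
        rw [hh', ← mul_assoc, ← map_mul, inv_mul_cancel₀ hs0, map_one, one_mul]
      rwa [h2] at h1
    have n1 := natDegree_le_of_dvd d1 (scaleRoots_ne_zero (minpoly.ne_zero hh) s)
    have n2 := natDegree_le_of_dvd d2 (scaleRoots_ne_zero (minpoly.ne_zero hh1) s⁻¹)
    rw [natDegree_scaleRoots] at n1 n2
    symm
    apply eq_of_monic_of_dvd_of_natDegree_le (minpoly.monic hh1)
    · exact (monic_scaleRoots_iff s).mpr (minpoly.monic hh)
    · exact d1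
    · rw [natDegree_scaleRoots]
      exact n2
  -- the coefficients vanish
  have hc : ∀ i, i < (minpoly Kr h).natDegree → (minpoly Kr h).coeff i = 0 := by
    intro i hi
    obtain ⟨P, hP⟩ := exists_poly (k := k) (x := (minpoly Kr h).coeff i)
      (fun a => coeff_mem (Va Kr a) (hfin a) i)
    have h1 := coeff_mem (Vinf k Kr) hinf i
    rw [hm1, coeff_scaleRoots, hP, hs, ← pow_mul, ← map_pow, ← map_mul] at h1
    have h2 := degree_le_of_mem_Vinf h1
    have hP0 : P = 0 := by
      by_contra hP0
      rw [degree_mul, degree_X_pow, degree_eq_natDegree hP0] at h2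
      have h3 : P.natDegree + m * ((minpoly Kr h).natDegree - i) ≤ 0 := by exact_mod_cast h2
      have h4 : 0 < m * ((minpoly Kr h).natDegree - i) := Nat.mul_pos hm (by omega)
      omega
    rw [hP, hP0, map_zero]
  have h3 : minpoly Kr h = X ^ (minpoly Kr h).natDegree := by
    ext i
    rw [coeff_X_pow]
    rcases lt_trichotomy i (minpoly Kr h).natDegree with h | h | h
    · rw [hc i h, if_neg h.ne]
    · rw [if_pos h, h]
      exact (minpoly.monic hh).coeff_natDegree
    · rw [if_neg h.ne', coeff_eq_zero_of_natDegree_lt h]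
  have h4 := minpoly.aeval Kr h
  rw [h3, map_pow, aeval_X] at h4
  exact (pow_eq_zero_iff (minpoly.natDegree_pos hh).ne').mp h4

section Const

variable (dL : Derivation ℤ L L)
  (hdL : ∀ p : k[X], dL (algebraMap Kr L (algebraMap k[X] Kr p)) =
    algebraMap Kr L (algebraMap k[X] Kr (derivative p)))

include hdL

/-- `d/du` maps `k(u)` to `k(u)` -/
lemma der_Kr (x : Kr) : ∃ y : Kr, dL (algebraMap Kr L x) = algebraMap Kr L y := by
  obtain ⟨p, q, hq, rfl⟩ := IsFractionRing.div_surjective (A := k[X]) x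
  have hq0 : algebraMap k[X] Kr q ≠ 0 := by
    rw [Ne, FaithfulSMul.algebraMap_eq_zero_iff]
    exact nonZeroDivisors.ne_zero hq
  have hq1 : algebraMap Kr L (algebraMap k[X] Kr q) ≠ 0 := by
    rwa [Ne, FaithfulSMul.algebraMap_eq_zero_iff]
  refine ⟨(algebraMap k[X] Kr (derivative p) * algebraMap k[X] Kr q -
    algebraMap k[X] Kr p * algebraMap k[X] Kr (derivative q)) / algebraMap k[X] Kr q ^ 2, ?_⟩
  have h1 := hdL p
  have h2 : algebraMap Kr L (algebraMap k[X] Kr p) =
      algebraMap Kr L (algebraMap k[X] Kr p / algebraMap k[X] Kr q) *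
        algebraMap Kr L (algebraMap k[X] Kr q) := by
    rw [← map_mul, div_mul_cancel₀ _ hq0]
  rw [h2, Derivation.leibniz, hdL q, smul_eq_mul, smul_eq_mul] at h1
  have e1 : algebraMap Kr L ((algebraMap k[X] Kr (derivative p) * algebraMap k[X] Kr q -
      algebraMap k[X] Kr p * algebraMap k[X] Kr (derivative q)) / algebraMap k[X] Kr q ^ 2) =
      (algebraMap Kr L (algebraMap k[X] Kr (derivative p)) *
        algebraMap Kr L (algebraMap k[X] Kr q) - algebraMap Kr L (algebraMap k[X] Kr p) *
        algebraMap Kr L (algebraMap k[X] Kr (derivative q))) /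
        algebraMap Kr L (algebraMap k[X] Kr q) ^ 2 := by
    rw [map_div₀, map_sub, map_mul, map_mul, map_pow]
  rw [e1, eq_div_iff (pow_ne_zero _ hq1), h2]
  linear_combination algebraMap Kr L (algebraMap k[X] Kr q) * h1

/-- constants of `k(u)` are in `k` -/
lemma const_Kr [CharZero k] {x : Kr} (hx : dL (algebraMap Kr L x) = 0) :
    ∃ c : k, x = algebraMap k[X] Kr (C c) := by
  classical
  set p := IsFractionRing.num k[X] x with hp
  set q : k[X] := (IsFractionRing.den k[X] x : k[X]) with hq
  have hq0 : q ≠ 0 := nonZeroDivisors.ne_zero (IsFractionRing.den k[X] x).2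
  have hqK : algebraMap k[X] Kr q ≠ 0 := by rwa [Ne, FaithfulSMul.algebraMap_eq_zero_iff]
  have hx1 : x * algebraMap k[X] Kr q = algebraMap k[X] Kr p := by
    have := IsFractionRing.mk'_num_den' k[X] x
    rw [← this]
    exact div_mul_cancel₀ _ hqK
  have hcop : IsCoprime p q := (IsFractionRing.num_den_reduced k[X] x).isCoprime
  have h1 := hdL p
  rw [← hx1, map_mul, Derivation.leibniz, hx, hdL, smul_eq_mul, smul_zero, add_zero] at h1
  have h2 : p * derivative q = derivative p * q := by
    apply FaithfulSMul.algebraMap_injective k[X] Kr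
    apply FaithfulSMul.algebraMap_injective Kr L
    rw [map_mul, map_mul, map_mul, map_mul, ← h1, ← hx1, map_mul]
    ring
  have hq' : derivative q = 0 := by
    have h3 : q ∣ derivative q := hcop.symm.dvd_of_dvd_mul_left (Dvd.intro_left _ h2.symm)
    by_contra hne
    have := degree_le_of_dvd h3 hne
    exact absurd (degree_derivative_lt hq0) (not_lt.mpr this)
  have hp' : derivative p = 0 := by
    rw [hq', mul_zero] at h2
    rcases mul_eq_zero.mp h2.symm with h | h
    · exact h
    · exact absurd h hq0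
  have hqc : q = C (q.coeff 0) := eq_C_of_derivative_eq_zero hq'
  have hpc : p = C (p.coeff 0) := eq_C_of_derivative_eq_zero hp'
  have hc0 : q.coeff 0 ≠ 0 := by
    intro h
    rw [h, C_0] at hqc
    exact hq0 hqc
  refine ⟨(q.coeff 0)⁻¹ * p.coeff 0, ?_⟩
  apply mul_right_cancel₀ hqK
  rw [hx1, ← map_mul]
  congr 1
  conv_rhs => rw [hqc]
  rw [← C_mul]
  conv_lhs => rw [hpc]
  congr 1
  rw [coeff_C_zero]
  field_simp

/-- constants of `d/du` are in `k` -/
theorem const_of_der [IsAlgClosed k] [CharZero k] {h : L} (hh : IsIntegral Kr h)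
    (h0 : dL h = 0) : ∃ c : k, h = algebraMap Kr L (algebraMap k[X] Kr (C c)) := by
  classical
  -- differentiate the minimal polynomial
  choose y hy using der_Kr dL hdL
  have hpow : ∀ n : ℕ, dL (h ^ n) = 0 := by
    intro n
    rw [Derivation.leibniz_pow, h0, smul_zero, smul_zero]
  set P := minpoly Kr h with hP
  have hsum : ∑ i ∈ Finset.range P.natDegree, algebraMap Kr L (y (P.coeff i)) * h ^ i = 0 := by
    have h1 : dL (aeval h P) = 0 := by rw [hP, minpoly.aeval, map_zero]
    rw [aeval_eq_sum_range, Finset.sum_range_succ, map_add, map_sum] at h1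
    have h2 : P.coeff P.natDegree = 1 := (minpoly.monic hh).coeff_natDegree
    rw [h2, one_smul, hpow, add_zero] at h1
    rw [← h1]
    refine Finset.sum_congr rfl fun i _ => ?_
    rw [Algebra.smul_def, Derivation.leibniz, hpow, smul_zero, zero_add, smul_eq_mul, hy]
    ring
  have hy0 : ∀ i, i < P.natDegree → y (P.coeff i) = 0 := by
    set Q : Kr[X] := ∑ i ∈ Finset.range P.natDegree, monomial i (y (P.coeff i)) with hQ
    have hQ0 : Q = 0 := by
      by_contra hne
      have h1 : aeval h Q = 0 := by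
        rw [hQ, map_sum, ← hsum]
        refine Finset.sum_congr rfl fun i _ => ?_
        rw [aeval_monomial]
      have h2 := minpoly.degree_le_of_ne_zero Kr h hne h1
      have h3 : Q.degree < P.degree := by
        rw [degree_eq_natDegree (minpoly.ne_zero hh), hQ]
        refine (degree_sum_le _ _).trans_lt ?_
        rw [Finset.sup_lt_iff (WithBot.bot_lt_coe _)]
        intro i hi
        refine (degree_monomial_le _ _).trans_lt ?_
        exact_mod_cast Finset.mem_range.mp hi
      exact absurd h2 (not_le.mpr h3)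
    intro i hi
    have h1 : Q.coeff i = y (P.coeff i) := by
      rw [hQ, finsetSum_coeff, Finset.sum_eq_single i]
      · rw [coeff_monomial_same]
      · intro j _ hj
        rw [coeff_monomial, if_neg hj]
      · intro hni
        exact absurd (Finset.mem_range.mpr hi) hni
    rw [← h1, hQ0, coeff_zero]
  have hcc : ∀ i, ∃ c : k, P.coeff i = algebraMap k[X] Kr (C c) := by
    intro i
    rcases lt_trichotomy i P.natDegree with hi | hi | hi
    · apply const_Kr dL hdL
      rw [hy, hy0 i hi, map_zero]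
    · exact ⟨1, by rw [hi, (minpoly.monic hh).coeff_natDegree, C_1, map_one]⟩
    · exact ⟨0, by rw [coeff_eq_zero_of_natDegree_lt hi, C_0, map_zero]⟩
  -- descend the minimal polynomial
  let ι : k →+* Kr := (algebraMap k[X] Kr).comp C
  have hl : P ∈ Polynomial.lifts ι := (Polynomial.lifts_iff_coeff_lifts _).mpr fun n => by
    obtain ⟨c, hc⟩ := hcc n
    exact ⟨c, hc.symm⟩
  obtain ⟨q, hq, hqd, hqm⟩ := Polynomial.lifts_and_natDegree_eq_and_monic hl (minpoly.monic hh)
  have hqd' : q.degree ≠ 0 := by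
    rw [degree_eq_natDegree hqm.ne_zero, hqd]
    exact_mod_cast (minpoly.natDegree_pos hh).ne'
  obtain ⟨c, hc⟩ := IsAlgClosed.exists_root q hqd'
  have h1 : P.eval (ι c) = 0 := by
    have h2 := Polynomial.hom_eval₂ q (RingHom.id k) ι c
    have hc' : q.eval c = 0 := hc
    rw [eval₂_id, hc', map_zero, RingHom.comp_id] at h2
    rw [← hq, eval_map, ← h2]
  obtain ⟨R, hR⟩ := dvd_iff_isRoot.mpr h1
  have h3 : IsUnit R := by
    rcases (minpoly.irreducible hh).isUnit_or_isUnit hR with h4 | h4
    · exact absurd h4 (not_isUnit_X_sub_C _)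
    · exact h4
  have h4 := minpoly.aeval Kr h
  rw [← hP, hR, map_mul] at h4
  have h5 : aeval h R ≠ 0 := by
    have := h3.map (aeval h)
    exact this.ne_zero
  have h6 : aeval h (X - C (ι c)) = 0 := by
    rcases mul_eq_zero.mp h4 with h | h
    · exact h
    · exact absurd h h5
  refine ⟨c, ?_⟩
  rw [map_sub, aeval_X, aeval_C, sub_eq_zero] at h6
  exact h6

/-- **(P1)** `f` with `d^3 f` integral at the finite places and `u^4 d^3 f` integral at infinity is a
quadratic polynomial -/
theorem quad_of_int [IsAlgClosed k] [CharZero k] [Algebra.IsAlgebraic Kr L] (f : L)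
    (hfin : ∀ a : k, IsIntegral (Va Kr a) (dL (dL (dL f))))
    (hinf : IsIntegral (Vinf k Kr) (U k Kr L ^ 4 * dL (dL (dL f)))) :
    ∃ a b c : k, f = algebraMap Kr L (algebraMap k[X] Kr (C a + C b * X + C c * X ^ 2)) := by
  have h3 : dL (dL (dL f)) = 0 := zero_of_int hfin (by norm_num) hinf
  obtain ⟨c, hc⟩ := const_of_der dL hdL (Algebra.IsIntegral.isIntegral (dL (dL f))) h3
  have h2 : dL (dL f - algebraMap Kr L (algebraMap k[X] Kr (C c * X))) = 0 := by
    rw [map_sub, hdL, hc]
    simp
  obtain ⟨b, hb⟩ := const_of_der dL hdL (Algebra.IsIntegral.isIntegral _) h2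
  have h1 : dL (f - algebraMap Kr L (algebraMap k[X] Kr (C b * X + C (c / 2) * X ^ 2))) = 0 := by
    rw [map_sub, hdL]
    have e1 : derivative (C b * X + C (c / 2) * X ^ 2) = C b + C c * X := by
      rw [derivative_add, derivative_C_mul_X, derivative_C_mul, derivative_X_pow]
      simp only [Nat.cast_ofNat, Nat.add_one_sub_one, pow_one]
      have e2 : C (c / 2) * (C 2 * X) = C c * (X : k[X]) := by
        rw [← mul_assoc, ← C_mul, div_mul_cancel₀ _ (two_ne_zero)]
      rw [e2]
    rw [e1, map_add, map_add, ← hb]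
    ring
  obtain ⟨a, ha⟩ := const_of_der dL hdL (Algebra.IsIntegral.isIntegral _) h1
  refine ⟨a, b, c / 2, ?_⟩
  rw [add_assoc, map_add, map_add (algebraMap Kr L), ← ha]
  ring

/-- the derivation `d/dw = - u^2 d/du`, `w = 1/u` -/
def dw : Derivation ℤ L L := -(U k Kr L ^ 2) • dL

omit hdL [IsFractionRing k[X] Kr] in
lemma dw_apply (x : L) : dw (k := k) (Kr := Kr) dL x = -(U k Kr L ^ 2) * dL x := rfl

omit [IsFractionRing k[X] Kr] in
lemma dL_U : dL (U k Kr L) = 1 := by
  rw [U, hdL, derivative_X, map_one, map_one]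

/-- the third `w`-derivative of `w^2 f` -/
lemma dw_three (f : L) : dw (k := k) (Kr := Kr) dL (dw (k := k) (Kr := Kr) dL
    (dw (k := k) (Kr := Kr) dL ((U k Kr L)⁻¹ ^ 2 * f))) = -(U k Kr L ^ 4 * dL (dL (dL f))) := by
  have hU := U_ne_zero (k := k) (Kr := Kr) (L := L)
  have hd := dL_U dL hdL
  set u : L := U k Kr L with hu
  have hinv : dL u⁻¹ = -(u⁻¹ ^ 2) := by
    have h1 := congrArg dL (inv_mul_cancel₀ hU)
    rw [Derivation.leibniz, hd, Derivation.map_one_eq_zero, smul_eq_mul, smul_eq_mul, mul_one] at h1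
    field_simp at h1 ⊢
    linear_combination h1
  have e1 : dw (k := k) (Kr := Kr) dL (u⁻¹ ^ 2 * f) = 2 * (u⁻¹ * f) - dL f := by
    have e0 : dL (u⁻¹ ^ 2) = 2 * (u⁻¹ * -(u⁻¹ ^ 2)) := by
      rw [pow_two u⁻¹, Derivation.leibniz, hinv]
      simp only [smul_eq_mul]
      ring
    rw [dw_apply, ← hu, Derivation.leibniz, e0]
    simp only [smul_eq_mul]
    field_simp
    ring
  have e2 : dw (k := k) (Kr := Kr) dL (2 * (u⁻¹ * f) - dL f) =
      2 * f - 2 * (u * dL f) + u ^ 2 * dL (dL f) := by
    have h2 : dL (2 : L) = 0 := by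
      have := Derivation.map_natCast dL 2
      simpa using this
    rw [dw_apply, ← hu, map_sub, Derivation.leibniz, Derivation.leibniz, hinv, h2]
    simp only [smul_eq_mul]
    field_simp
    ring
  have e3 : dw (k := k) (Kr := Kr) dL (2 * f - 2 * (u * dL f) + u ^ 2 * dL (dL f)) =
      -(u ^ 4 * dL (dL (dL f))) := by
    have h2 : dL (2 : L) = 0 := by
      have := Derivation.map_natCast dL 2
      simpa using this
    rw [dw_apply, ← hu, map_add, map_sub, Derivation.leibniz, Derivation.leibniz,
      Derivation.leibniz, Derivation.leibniz, pow_two, Derivation.leibniz, h2, hd]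
    simp only [smul_eq_mul]
    ring
  rw [e1, e2, e3]

/-- **(P1)**, with the `w`-derivatives of `w^2 f` at infinity -/
theorem quad_of_int' [IsAlgClosed k] [CharZero k] [Algebra.IsAlgebraic Kr L] (f : L)
    (hfin : ∀ a : k, IsIntegral (Va Kr a) ((dL)^[3] f))
    (hinf : IsIntegral (Vinf k Kr)
      ((dw (k := k) (Kr := Kr) dL)^[3] ((U k Kr L)⁻¹ ^ 2 * f))) :
    ∃ a b c : k, f = algebraMap Kr L (algebraMap k[X] Kr (C a + C b * X + C c * X ^ 2)) := by
  apply quad_of_int dL hdL f hfin
  have h1 : IsIntegral (Vinf k Kr) (-(U k Kr L ^ 4 * dL (dL (dL f)))) := by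
    rw [← dw_three dL hdL f]
    exact hinf
  simpa using h1.neg

end Const

end Crest.Agent.R260.Pur920
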