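import Crest.Agent.R260.QKm_838

/-!
# Row 260, END-2PT: the two-point tensor end

`G (x, y) ∈ Q_x ⊗ Q_y` with the twistor equation in both variables and `G (x, x) = δ`
gives, near a point `p`, a Killing field `K` with `K p = 0` and `(dK)² = -1`.
-/

set_option autoImplicit false
open scoped ContDiff Topology
open Crest.GeometryTopology.CoordMetric Crest.GeometryTopology.ChartRiem
open Crest.Agent.R260.QKk_838 Crest.Agent.R260.QKm_838

namespace Crest.Agent.R260.QKe_838

variable {n : ℕ}

/-! ## Algebra -/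

/-- Step (1): `J_a K'_b + J_b K_a = 0` for all `a, b` forces `K = K' = 0`. -/
theorem alg_diag {J : Fin 3 → Matrix (Fin n) (Fin n) ℝ} (hsq : ∀ a, J a * J a = -1)
    (h01 : J 0 * J 1 = J 2) (h10 : J 1 * J 0 = -J 2) {K K' : Fin 3 → Fin n → ℝ}
    (h : ∀ a b, (J a).mulVec (K' b) + (J b).mulVec (K a) = 0) :
    (∀ a, K a = 0) ∧ ∀ a, K' a = 0 := by
  obtain ⟨h12, h21, h20, h02⟩ := quat hsq h01 h10
  have inj : ∀ a (v : Fin n → ℝ), (J a).mulVec v = 0 → v = 0 := by
    intro a v hv
    have : (J a).mulVec ((J a).mulVec v) = 0 := by rw [hv, Matrix.mulVec_zero]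
    rw [Matrix.mulVec_mulVec, hsq, Matrix.neg_mulVec, Matrix.one_mulVec, neg_eq_zero] at this
    exact this
  have hK' : ∀ a, K' a = -K a := by
    intro a
    have := h a a
    rw [← Matrix.mulVec_add] at this
    exact eq_neg_of_add_eq_zero_left (inj a _ this)
  have hc : ∀ a b, (J b).mulVec (K a) = (J a).mulVec (K b) := by
    intro a b
    have := h a b
    rw [hK' b, Matrix.mulVec_neg] at this
    exact (neg_add_eq_zero.1 this).symm
  -- `J 0 (K 1) = J 1 (K 0)`, `J 0 (K 2) = J 2 (K 0)`, `J 1 (K 2) = J 2 (K 1)`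
  have k1 : K 1 = -(J 2).mulVec (K 0) := by
    have := congrArg (J 0).mulVec (hc 1 0)
    rw [Matrix.mulVec_mulVec, Matrix.mulVec_mulVec, hsq, h01, Matrix.neg_mulVec,
      Matrix.one_mulVec] at this
    rw [← this, neg_neg]
  have k2 : K 2 = (J 1).mulVec (K 0) := by
    have := congrArg (J 0).mulVec (hc 2 0)
    rw [Matrix.mulVec_mulVec, Matrix.mulVec_mulVec, hsq, h02, Matrix.neg_mulVec,
      Matrix.neg_mulVec, Matrix.one_mulVec] at this
    exact neg_injective this
  have k0 : K 0 = 0 := by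
    have := hc 2 1
    rw [k1, k2, Matrix.mulVec_neg, Matrix.mulVec_mulVec, Matrix.mulVec_mulVec, hsq, hsq,
      Matrix.neg_mulVec, Matrix.one_mulVec, neg_neg] at this
    have h2 : (2 : ℝ) • K 0 = 0 := by
      rw [two_smul]; nth_rewrite 1 [← this]; simp
    exact (smul_eq_zero.1 h2).resolve_left two_ne_zero
  have hK : ∀ a, K a = 0 := by
    intro a
    fin_cases a
    · exact k0
    · show K 1 = 0
      rw [k1, k0]; simp
    · show K 2 = 0
      rw [k2, k0]; simp
  exact ⟨hK, fun a => by rw [hK' a, hK a, neg_zero]⟩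

/-- Step (3): the `sp(m)` parts vanish. -/
theorem alg_mix {G : Matrix (Fin n) (Fin n) ℝ} (hG : IsUnit G) (hGs : G.transpose = G)
    {J : Fin 3 → Matrix (Fin n) (Fin n) ℝ} (hsq : ∀ a, J a * J a = -1)
    (h01 : J 0 * J 1 = J 2) (h10 : J 1 * J 0 = -J 2)
    (ho : ∀ a, (J a).transpose * G * J a = G) {t : ℝ}
    {A A' : Fin 3 → Matrix (Fin n) (Fin n) ℝ}
    (hA' : ∀ a, (A' a).transpose * G = -(G * A' a))
    (hc : ∀ a b, J b * A a = A a * J b) (hc' : ∀ a b, J b * A' a = A' a * J b)
    (h : ∀ a b, G * J b * (A a - t • J a) = (G * J a * (A' b - t • J b)).transpose) :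
    ∀ a, A a = 0 := by
  obtain ⟨h12, h21, h20, h02⟩ := quat hsq h01 h10
  have hJG : ∀ a, (J a).transpose * G = -(G * J a) := fun a => orth_skew (hsq a) (ho a)
  have e1 : ∀ a b, J b * A a = J a * A' b := by
    intro a b
    have hh := h a b
    have e : (G * J a * (A' b - t • J b)).transpose = G * ((A' b - t • J b) * J a) := by
      rw [Matrix.transpose_mul, Matrix.transpose_mul, hGs, hJG a]
      rw [Matrix.mul_neg, Matrix.transpose_sub, Matrix.transpose_smul, ← Matrix.mul_assoc,
        Matrix.sub_mul, hA' b, Matrix.smul_mul, hJG b]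
      simp only [smul_neg, ← Matrix.mul_smul, ← Matrix.mul_assoc,
        Matrix.sub_mul, Matrix.neg_mul, Matrix.mul_sub]
      abel
    rw [e, Matrix.mul_assoc] at hh
    have h2 := hG.mul_left_cancel hh
    rw [Matrix.mul_sub, Matrix.sub_mul, Matrix.mul_smul, Matrix.smul_mul, sub_left_inj] at h2
    rw [h2, hc' b a]
  have e2 : ∀ a, A a = A' a := by
    intro a
    have := congrArg (J a * ·) (e1 a a)
    simp only [← Matrix.mul_assoc, hsq, Matrix.neg_mul, Matrix.one_mul] at this
    exact neg_injective this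
  have e3 : ∀ a b, J b * A a = J a * A b := fun a b => by rw [e1 a b, e2 b]
  have two : ∀ X : Matrix (Fin n) (Fin n) ℝ, X = -X → X = 0 := by
    intro X hX
    have : (2 : ℝ) • X = 0 := by rw [two_smul]; nth_rewrite 1 [hX]; simp
    exact (smul_eq_zero.1 this).resolve_left two_ne_zero
  -- `A 1 = - J 2 A 0`
  have a1 : A 1 = -(J 2 * A 0) := by
    have := congrArg (J 0 * ·) (e3 1 0)
    simp only [← Matrix.mul_assoc, hsq, h01, Matrix.neg_mul, Matrix.one_mul] at this
    rw [← this, neg_neg]
  have a0 : A 0 = 0 := by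
    have c1 : J 0 * A 1 = A 1 * J 0 := hc 1 0
    rw [a1] at c1
    have c2 : J 0 * (J 2 * A 0) = J 2 * (J 0 * A 0) := by
      have : J 0 * -(J 2 * A 0) = -(J 2 * (J 0 * A 0)) := by
        rw [c1, Matrix.neg_mul, Matrix.mul_assoc, ← hc 0 0]
      rw [Matrix.mul_neg] at this
      exact neg_injective this
    rw [← Matrix.mul_assoc, ← Matrix.mul_assoc, h02, h20, Matrix.neg_mul] at c2
    have c3 := two _ c2.symm
    have := congrArg (J 1 * ·) c3
    simp only [← Matrix.mul_assoc, hsq, Matrix.neg_mul, Matrix.one_mul, Matrix.mul_zero] at this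
    exact neg_eq_zero.1 this
  intro a
  fin_cases a
  · exact a0
  · show A 1 = 0
    rw [a1, a0]; simp
  · show A 2 = 0
    have := congrArg (J 0 * ·) (e3 2 0)
    simp only [← Matrix.mul_assoc, hsq, Matrix.neg_mul, Matrix.one_mul] at this
    rw [a0] at this
    simpa using this

/-! ## Calculus on `E × E` -/

local notation "E" => EuclideanSpace ℝ (Fin n)

section Calc
variable {F : EuclideanSpace ℝ (Fin n) × EuclideanSpace ℝ (Fin n) → ℝ}

theorem pd_fst {x y : EuclideanSpace ℝ (Fin n)} (hF : DifferentiableAt ℝ F (x, y)) (i : Fin n) :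
    pderiv i (fun x' => F (x', y)) x = fderiv ℝ F (x, y) (EuclideanSpace.single i 1, 0) := by
  unfold pderiv
  have h2 : HasFDerivAt (fun x' => F (x', y)) _ x := HasFDerivAt.comp x
    (f := fun x' : EuclideanSpace ℝ (Fin n) => (x', y)) hF.hasFDerivAt
    ((hasFDerivAt_id x).prodMk (hasFDerivAt_const y x))
  rw [h2.fderiv]
  simp

theorem pd_snd {x y : EuclideanSpace ℝ (Fin n)} (hF : DifferentiableAt ℝ F (x, y)) (i : Fin n) :
    pderiv i (fun y' => F (x, y')) y = fderiv ℝ F (x, y) (0, EuclideanSpace.single i 1) := by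
  unfold pderiv
  have h2 : HasFDerivAt (fun y' => F (x, y')) _ y := HasFDerivAt.comp y
    (f := fun y' : EuclideanSpace ℝ (Fin n) => (x, y')) hF.hasFDerivAt
    ((hasFDerivAt_const x y).prodMk (hasFDerivAt_id y))
  rw [h2.fderiv]
  simp

theorem pd_diag {x : EuclideanSpace ℝ (Fin n)} (hF : DifferentiableAt ℝ F (x, x)) (i : Fin n) :
    pderiv i (fun x' => F (x', x')) x
      = pderiv i (fun x' => F (x', x)) x + pderiv i (fun y' => F (x, y')) x := by
  rw [pd_fst hF, pd_snd hF]
  unfold pderiv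
  have h2 : HasFDerivAt (fun x' => F (x', x')) _ x := HasFDerivAt.comp x
    (f := fun x' : EuclideanSpace ℝ (Fin n) => (x', x')) hF.hasFDerivAt
    ((hasFDerivAt_id x).prodMk (hasFDerivAt_id x))
  rw [h2.fderiv]
  simp only [ContinuousLinearMap.comp_apply, ContinuousLinearMap.prod_apply,
    ContinuousLinearMap.id_apply]
  rw [← map_add]
  simp

/-- Mixed second derivatives commute. -/
theorem pd_mixed {x y : EuclideanSpace ℝ (Fin n)} (hF : ContDiffAt ℝ 2 F (x, y)) (i j : Fin n) :
    pderiv j (fun x' => pderiv i (fun y' => F (x', y')) y) x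
      = pderiv i (fun y' => pderiv j (fun x' => F (x', y')) x) y := by
  have hs : IsSymmSndFDerivAt ℝ F (x, y) := hF.isSymmSndFDerivAt (by simp)
  have hd : DifferentiableAt ℝ (fderiv ℝ F) (x, y) :=
    (hF.fderiv_right (m := 1) (by norm_num)).differentiableAt (by norm_num)
  have hev : ∀ᶠ z in 𝓝 (x, y), DifferentiableAt ℝ F z := by
    have := hF.eventually (by simp)
    filter_upwards [this] with z hz
    exact hz.differentiableAt (by norm_num)
  have hx : ∀ᶠ x' in 𝓝 x, DifferentiableAt ℝ F (x', y) :=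
    (Continuous.prodMk continuous_id continuous_const).continuousAt.eventually hev
  have hy : ∀ᶠ y' in 𝓝 y, DifferentiableAt ℝ F (x, y') :=
    (Continuous.prodMk continuous_const continuous_id).continuousAt.eventually hev
  have e1 : pderiv j (fun x' => pderiv i (fun y' => F (x', y')) y) x
      = pderiv j (fun x' => (fun z => fderiv ℝ F z (0, EuclideanSpace.single i 1)) (x', y)) x :=
    pd_congr (by filter_upwards [hx] with x' hx'; exact pd_snd hx' i) j
  have e2 : pderiv i (fun y' => pderiv j (fun x' => F (x', y')) x) y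
      = pderiv i (fun y' => (fun z => fderiv ℝ F z (EuclideanSpace.single j 1, 0)) (x, y')) y :=
    pd_congr (by filter_upwards [hy] with y' hy'; exact pd_fst hy' j) i
  have d1 : ∀ v : E × E, DifferentiableAt ℝ (fun z => fderiv ℝ F z v) (x, y) := fun v =>
    hd.clm_apply (differentiableAt_const _)
  have d2 : ∀ v w : E × E, fderiv ℝ (fun z => fderiv ℝ F z v) (x, y) w
      = fderiv ℝ (fderiv ℝ F) (x, y) w v := by
    intro v w
    rw [fderiv_clm_apply hd (differentiableAt_const _)]
    simp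
  rw [e1, e2, pd_fst (d1 _), pd_snd (d1 _), d2, d2]
  exact hs _ _

end Calc

end Crest.Agent.R260.QKe_838
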