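import Crest.Agent.R260.QKe_838

/-!
# Row 260, END-2PT: main theorem
-/

set_option autoImplicit false
open scoped ContDiff Topology
open Crest.GeometryTopology.CoordMetric Crest.GeometryTopology.ChartRiem
open Crest.Agent.R260.QKk_838 Crest.Agent.R260.QKm_838 Crest.Agent.R260.QKe_838

namespace Crest.Agent.R260.QKf_838

variable {n : ℕ}

/-! ## Smoothness of the inverse matrix -/

theorem smDet {X : Type*} [NormedAddCommGroup X] [NormedSpace ℝ X] {m : ℕ} {S : Set X}
    {M : X → Matrix (Fin m) (Fin m) ℝ} (h : ∀ i j, ContDiffOn ℝ ∞ (fun y => M y i j) S) :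
    ContDiffOn ℝ ∞ (fun y => (M y).det) S := by
  simp only [Matrix.det_apply]
  exact ContDiffOn.sum fun σ _ => (contDiffOn_prod fun i _ => h _ _).const_smul _

theorem smInv {X : Type*} [NormedAddCommGroup X] [NormedSpace ℝ X] {m : ℕ} {S : Set X}
    {M : X → Matrix (Fin m) (Fin m) ℝ} (h : ∀ i j, ContDiffOn ℝ ∞ (fun y => M y i j) S)
    (h0 : ∀ y ∈ S, (M y).det ≠ 0) (i j : Fin m) : ContDiffOn ℝ ∞ (fun y => (M y)⁻¹ i j) S := by
  have e : (fun y => (M y)⁻¹ i j) = fun y => ((M y).det)⁻¹ * (M y).adjugate i j := by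
    funext y
    rw [Matrix.inv_def, Matrix.smul_apply, Ring.inverse_eq_inv', smul_eq_mul]
  rw [e]
  refine ContDiffOn.mul ((smDet h).inv h0) ?_
  simp only [Matrix.adjugate_apply]
  refine smDet fun k l => ?_
  by_cases hk : k = j
  · subst hk; simp only [Matrix.updateRow_self]; exact contDiffOn_const
  · simp only [Matrix.updateRow_ne hk]; exact h k l

theorem mono {g : MetricField n} {U V : Set (EuclideanSpace ℝ (Fin n))}
    {J : Fin 3 → EuclideanSpace ℝ (Fin n) → Matrix (Fin n) (Fin n) ℝ}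
    {c : EuclideanSpace ℝ (Fin n) → Fin n → Fin 3 → Fin 3 → ℝ} {lam : ℝ}
    (h : Dat g U J c lam) (hV : IsOpen V) (hVU : V ⊆ U) : Dat g V J c lam where
  riem := ⟨hV, fun i j => (h.riem.contDiffOn i j).mono hVU, fun x hx => h.riem.posDef x (hVU hx)⟩
  smJ a l p := (h.smJ a l p).mono hVU
  sq x hx := h.sq x (hVU hx)
  mul x hx := h.mul x (hVU hx)
  orth x hx := h.orth x (hVU hx)
  cov x hx := h.cov x (hVU hx)
  smc i a b := (h.smc i a b).mono hVU
  skc x hx := h.skc x (hVU hx)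
  curv x hx := h.curv x (hVU hx)

/-! ## The vector field of a two-point tensor -/

/-- `∇^y_i G_ab`. -/
noncomputable def Ty (c : EuclideanSpace ℝ (Fin n) → Fin n → Fin 3 → Fin 3 → ℝ)
    (G : EuclideanSpace ℝ (Fin n) → EuclideanSpace ℝ (Fin n) → Fin 3 → Fin 3 → ℝ)
    (x y : EuclideanSpace ℝ (Fin n)) (a : Fin 3) (i : Fin n) (b : Fin 3) : ℝ :=
  pderiv i (fun y' => G x y' a b) y + ∑ d, G x y a d * c y i d b

/-- `K_a (x, y) = - J_0 g⁻¹ ∇^y G_{a0}`. -/
noncomputable def Ky (g : MetricField n)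
    (J : Fin 3 → EuclideanSpace ℝ (Fin n) → Matrix (Fin n) (Fin n) ℝ)
    (c : EuclideanSpace ℝ (Fin n) → Fin n → Fin 3 → Fin 3 → ℝ)
    (G : EuclideanSpace ℝ (Fin n) → EuclideanSpace ℝ (Fin n) → Fin 3 → Fin 3 → ℝ)
    (x y : EuclideanSpace ℝ (Fin n)) (a : Fin 3) : EuclideanSpace ℝ (Fin n) :=
  WithLp.toLp 2 (-((J 0 y * (g y)⁻¹).mulVec fun i => Ty c G x y a i 0))

/-- The twistor equation in the second variable. -/
def T2 (g : MetricField n) (W : Set (EuclideanSpace ℝ (Fin n) × EuclideanSpace ℝ (Fin n)))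
    (J : Fin 3 → EuclideanSpace ℝ (Fin n) → Matrix (Fin n) (Fin n) ℝ)
    (c : EuclideanSpace ℝ (Fin n) → Fin n → Fin 3 → Fin 3 → ℝ)
    (G : EuclideanSpace ℝ (Fin n) → EuclideanSpace ℝ (Fin n) → Fin 3 → Fin 3 → ℝ) : Prop :=
  ∀ x y, (x, y) ∈ W → ∀ a, ∃ K : Fin n → ℝ, ∀ i b,
    pderiv i (fun y' => G x y' a b) y + ∑ d, G x y a d * c y i d b
      = ∑ l, ∑ q, g y i l * J b y l q * K q

/-- The twistor equation in the first variable. -/
def T1 (g : MetricField n) (W : Set (EuclideanSpace ℝ (Fin n) × EuclideanSpace ℝ (Fin n)))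
    (J : Fin 3 → EuclideanSpace ℝ (Fin n) → Matrix (Fin n) (Fin n) ℝ)
    (c : EuclideanSpace ℝ (Fin n) → Fin n → Fin 3 → Fin 3 → ℝ)
    (G : EuclideanSpace ℝ (Fin n) → EuclideanSpace ℝ (Fin n) → Fin 3 → Fin 3 → ℝ) : Prop :=
  ∀ x y, (x, y) ∈ W → ∀ b, ∃ K : Fin n → ℝ, ∀ i a,
    pderiv i (fun x' => G x' y a b) x + ∑ d, G x y d b * c x i d a
      = ∑ l, ∑ q, g x i l * J a x l q * K q

/-- The two variables exchanged. -/
def sw (G : EuclideanSpace ℝ (Fin n) → EuclideanSpace ℝ (Fin n) → Fin 3 → Fin 3 → ℝ) :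
    EuclideanSpace ℝ (Fin n) → EuclideanSpace ℝ (Fin n) → Fin 3 → Fin 3 → ℝ :=
  fun x y a b => G y x b a

variable {g : MetricField n} {U V : Set (EuclideanSpace ℝ (Fin n))}
  {J : Fin 3 → EuclideanSpace ℝ (Fin n) → Matrix (Fin n) (Fin n) ℝ}
  {c : EuclideanSpace ℝ (Fin n) → Fin n → Fin 3 → Fin 3 → ℝ} {lam : ℝ}
  {G : EuclideanSpace ℝ (Fin n) → EuclideanSpace ℝ (Fin n) → Fin 3 → Fin 3 → ℝ}

theorem sw_T2 (h : T1 g (V ×ˢ V) J c G) : T2 g (V ×ˢ V) J c (sw G) :=
  fun x y hxy a => h y x ⟨hxy.2, hxy.1⟩ a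

theorem Ky_spec (h : Dat g V J c lam) (h2 : T2 g (V ×ˢ V) J c G)
    {x y : EuclideanSpace ℝ (Fin n)} (hx : x ∈ V) (hy : y ∈ V) (a : Fin 3) (i : Fin n)
    (b : Fin 3) :
    pderiv i (fun y' => G x y' a b) y + ∑ d, G x y a d * c y i d b
      = ∑ l, ∑ q, g y i l * J b y l q * Ky g J c G x y a q := by
  obtain ⟨K, hK⟩ := h2 x y ⟨hx, hy⟩ a
  have e : (fun i => Ty c G x y a i 0) = (g y * J 0 y).mulVec K := by
    funext i
    unfold Ty
    rw [hK i 0, Matrix.mulVec, dotProduct]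
    simp only [Matrix.mul_apply, Finset.sum_mul]
    rw [Finset.sum_comm]
  have hinv : (g y)⁻¹ * g y = 1 :=
    Matrix.nonsing_inv_mul _ ((Matrix.isUnit_iff_isUnit_det _).1 (g_unit h.riem hy))
  have e2 : -((J 0 y * (g y)⁻¹).mulVec fun i => Ty c G x y a i 0) = K := by
    rw [e, Matrix.mulVec_mulVec]
    have : J 0 y * (g y)⁻¹ * (g y * J 0 y) = -1 := by
      calc J 0 y * (g y)⁻¹ * (g y * J 0 y) = J 0 y * ((g y)⁻¹ * g y) * J 0 y := by
            simp only [Matrix.mul_assoc]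
        _ = -1 := by rw [hinv, Matrix.mul_one, h.sq y hy]
    rw [this, Matrix.neg_mulVec, Matrix.one_mulVec, neg_neg]
  have e3 : ∀ q, Ky g J c G x y a q = K q := fun q => congrFun e2 q
  simp only [e3]
  exact hK i b

theorem smTy (h : Dat g V J c lam)
    (smG : ∀ a b, ContDiffOn ℝ ∞ (fun z : EuclideanSpace ℝ (Fin n) × EuclideanSpace ℝ (Fin n) =>
      G z.1 z.2 a b) (V ×ˢ V)) (a : Fin 3) (i : Fin n) (b : Fin 3) :
    ContDiffOn ℝ ∞ (fun z : EuclideanSpace ℝ (Fin n) × EuclideanSpace ℝ (Fin n) =>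
      Ty c G z.1 z.2 a i b) (V ×ˢ V) := by
  have hV := h.riem.isOpen
  have hVV : IsOpen (V ×ˢ V) := hV.prod hV
  unfold Ty
  refine ContDiffOn.add ?_ (ContDiffOn.sum fun d _ => (smG a d).mul ?_)
  · have h1 := ((smG a b).fderiv_of_isOpen (m := ∞) hVV (by norm_cast)).clm_apply
      (contDiffOn_const (c := ((0 : EuclideanSpace ℝ (Fin n)), EuclideanSpace.single i (1 : ℝ))))
    refine h1.congr fun z hz => ?_
    have hd : DifferentiableAt ℝ (fun z : EuclideanSpace ℝ (Fin n) × EuclideanSpace ℝ (Fin n) =>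
        G z.1 z.2 a b) (z.1, z.2) :=
      ((smG a b z hz).contDiffAt (hVV.mem_nhds hz)).differentiableAt (by simp)
    exact pd_snd hd i
  · exact (h.smc i d b).comp contDiff_snd.contDiffOn fun z hz => hz.2

theorem smKy (h : Dat g V J c lam)
    (smG : ∀ a b, ContDiffOn ℝ ∞ (fun z : EuclideanSpace ℝ (Fin n) × EuclideanSpace ℝ (Fin n) =>
      G z.1 z.2 a b) (V ×ˢ V)) (a : Fin 3) (q : Fin n) :
    ContDiffOn ℝ ∞ (fun z : EuclideanSpace ℝ (Fin n) × EuclideanSpace ℝ (Fin n) =>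
      Ky g J c G z.1 z.2 a q) (V ×ˢ V) := by
  have e : (fun z : EuclideanSpace ℝ (Fin n) × EuclideanSpace ℝ (Fin n) =>
      Ky g J c G z.1 z.2 a q)
      = fun z => -∑ i, (∑ l, J 0 z.2 q l * (g z.2)⁻¹ l i) * Ty c G z.1 z.2 a i 0 := by
    funext z
    simp only [Ky, Matrix.mulVec, dotProduct, Matrix.mul_apply, Pi.neg_apply]
  rw [e]
  refine ContDiffOn.neg (ContDiffOn.sum fun i _ => ContDiffOn.mul (ContDiffOn.sum fun l _ =>
    ContDiffOn.mul ?_ ?_) (smTy h smG a i 0))
  · exact (h.smJ 0 q l).comp contDiff_snd.contDiffOn fun z hz => hz.2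
  · have := smInv h.riem.contDiffOn (fun y hy => ((h.riem.posDef y hy).det_pos).ne') l i
    exact this.comp contDiff_snd.contDiffOn fun z hz => hz.2

/-- For fixed first variable the twistor equation in the sense of `Tw`. -/
theorem tw_of (h : Dat g V J c lam)
    (smG : ∀ a b, ContDiffOn ℝ ∞ (fun z : EuclideanSpace ℝ (Fin n) × EuclideanSpace ℝ (Fin n) =>
      G z.1 z.2 a b) (V ×ˢ V)) (h2 : T2 g (V ×ˢ V) J c G)
    {x : EuclideanSpace ℝ (Fin n)} (hx : x ∈ V) (a : Fin 3) :
    Tw g V J c (fun b y => G x y a b) (fun y => Ky g J c G x y a) where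
  sms b := by
    exact (smG a b).comp (f := fun y => (x, y)) (contDiff_const.prodMk contDiff_id).contDiffOn
      fun y hy => ⟨hx, hy⟩
  smK q := by
    exact (smKy h smG a q).comp (f := fun y => (x, y))
      (contDiff_const.prodMk contDiff_id).contDiffOn fun y hy => ⟨hx, hy⟩
  tw y hy i b := Ky_spec h h2 hx hy a i b

/-! ## The diagonal -/

theorem swG (smG : ∀ a b, ContDiffOn ℝ ∞
      (fun z : EuclideanSpace ℝ (Fin n) × EuclideanSpace ℝ (Fin n) => G z.1 z.2 a b) (V ×ˢ V))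
    (a b : Fin 3) : ContDiffOn ℝ ∞
      (fun z : EuclideanSpace ℝ (Fin n) × EuclideanSpace ℝ (Fin n) => sw G z.1 z.2 a b)
      (V ×ˢ V) := by
  have h := (smG b a).comp (f := fun z : EuclideanSpace ℝ (Fin n) × EuclideanSpace ℝ (Fin n) =>
    (z.2, z.1)) (s := V ×ˢ V) (contDiff_snd.prodMk contDiff_fst).contDiffOn
    fun z hz => ⟨hz.2, hz.1⟩
  exact h

theorem sumJ (p : EuclideanSpace ℝ (Fin n)) (hD : ∀ a b, G p p a b = if a = b then 1 else 0)
    (a : Fin 3) : ∑ b, G p p a b • J b p = J a p := by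
  simp [hD]

theorem K_diag (h : Dat g V J c lam)
    (smG : ∀ a b, ContDiffOn ℝ ∞ (fun z : EuclideanSpace ℝ (Fin n) × EuclideanSpace ℝ (Fin n) =>
      G z.1 z.2 a b) (V ×ˢ V)) (h2 : T2 g (V ×ˢ V) J c G) (h1 : T1 g (V ×ˢ V) J c G)
    (hD : ∀ x ∈ V, ∀ a b, G x x a b = if a = b then 1 else 0)
    {x : EuclideanSpace ℝ (Fin n)} (hx : x ∈ V) :
    (∀ a q, Ky g J c G x x a q = 0) ∧ ∀ a q, Ky g J c (sw G) x x a q = 0 := by
  have hV := h.riem.isOpen
  have hVV : IsOpen (V ×ˢ V) := hV.prod hV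
  have key : ∀ a b, (J a x).mulVec (fun q => Ky g J c (sw G) x x b q)
      + (J b x).mulVec (fun q => Ky g J c G x x a q) = 0 := by
    intro a b
    have e : (g x).mulVec ((J a x).mulVec (fun q => Ky g J c (sw G) x x b q)
      + (J b x).mulVec (fun q => Ky g J c G x x a q)) = 0 := by
      rw [Matrix.mulVec_add, Matrix.mulVec_mulVec, Matrix.mulVec_mulVec]
      funext i
      have hd : DifferentiableAt ℝ (fun z : EuclideanSpace ℝ (Fin n) × EuclideanSpace ℝ (Fin n) =>
          G z.1 z.2 a b) (x, x) :=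
        ((smG a b (x, x) ⟨hx, hx⟩).contDiffAt (hVV.mem_nhds ⟨hx, hx⟩)).differentiableAt (by simp)
      have d0 : pderiv i (fun x' => G x' x' a b) x = 0 := by
        have : pderiv i (fun x' => G x' x' a b) x
            = pderiv i (fun _ => if a = b then (1 : ℝ) else 0) x :=
          pd_congr (by filter_upwards [hV.mem_nhds hx] with y hy; exact hD y hy a b) i
        rw [this]; unfold pderiv; simp
      have d1 := pd_diag hd i
      simp only at d1
      rw [d0] at d1
      have s1 := Ky_spec h h2 hx hx a i b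
      have s2 := Ky_spec h (sw_T2 h1) hx hx b i a
      have c1 : ∑ d, G x x a d * c x i d b = c x i a b := by simp [hD x hx]
      have c2 : ∑ d, sw G x x b d * c x i d a = c x i b a := by simp [sw, hD x hx]
      rw [c1] at s1
      rw [c2] at s2
      have sk := h.skc x hx i a b
      have m1 : ((g x * J b x).mulVec fun q => Ky g J c G x x a q) i
          = ∑ l, ∑ q, g x i l * J b x l q * Ky g J c G x x a q := by
        simp only [Matrix.mulVec, dotProduct, Matrix.mul_apply, Finset.sum_mul]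
        rw [Finset.sum_comm]
      have m2 : ((g x * J a x).mulVec fun q => Ky g J c (sw G) x x b q) i
          = ∑ l, ∑ q, g x i l * J a x l q * Ky g J c (sw G) x x b q := by
        simp only [Matrix.mulVec, dotProduct, Matrix.mul_apply, Finset.sum_mul]
        rw [Finset.sum_comm]
      rw [Pi.add_apply, m1, m2, ← s1, ← s2]
      have s3 : pderiv i (fun y' => sw G x y' b a) x = pderiv i (fun x' => G x' x a b) x := rfl
      rw [s3, Pi.zero_apply]
      linarith
    have hinv : (g x)⁻¹ * g x = 1 :=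
      Matrix.nonsing_inv_mul _ ((Matrix.isUnit_iff_isUnit_det _).1 (g_unit h.riem hx))
    have := congrArg ((g x)⁻¹).mulVec e
    rwa [Matrix.mulVec_mulVec, hinv, Matrix.one_mulVec, Matrix.mulVec_zero] at this
  obtain ⟨k1, k2⟩ := alg_diag (h.sq x hx) (h.mul x hx).1 (h.mul x hx).2 key
  exact ⟨fun a q => congrFun (k1 a) q, fun a q => congrFun (k2 a) q⟩

/-- One half of the mixed derivative identity. -/
theorem mixed_half (h : Dat g V J c lam)
    (smG : ∀ a b, ContDiffOn ℝ ∞ (fun z : EuclideanSpace ℝ (Fin n) × EuclideanSpace ℝ (Fin n) =>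
      G z.1 z.2 a b) (V ×ˢ V)) (h2 : T2 g (V ×ˢ V) J c G) (h1 : T1 g (V ×ˢ V) J c G)
    (hD : ∀ x ∈ V, ∀ a b, G x x a b = if a = b then 1 else 0)
    {p : EuclideanSpace ℝ (Fin n)} (hp : p ∈ V) (a b : Fin 3) (i j : Fin n) :
    pderiv j (fun x' => pderiv i (fun y' => G x' y' a b) p) p
      = -(g p * J b p * covK g (fun y => Ky g J c G p y a) p) i j
        + ∑ d, c p j d a * c p i d b := by
  have hV := h.riem.isOpen
  have hVV : IsOpen (V ×ˢ V) := hV.prod hV
  have e1 : pderiv j (fun x' => pderiv i (fun y' => G x' y' a b) p) p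
      = pderiv j (fun x' => (∑ l, ∑ q, g p i l * J b p l q * Ky g J c G x' p a q)
        - ∑ d, G x' p a d * c p i d b) p :=
    pd_congr (by
      filter_upwards [hV.mem_nhds hp] with x' hx'
      have := Ky_spec h h2 hx' hp a i b
      linarith) j
  have dK : ∀ q, DifferentiableAt ℝ (fun x' => Ky g J c G x' p a q) p := by
    intro q
    have := (smKy h smG a q).comp (f := fun x' => (x', p)) (s := V)
      (contDiff_id.prodMk contDiff_const).contDiffOn fun y hy => ⟨hy, hp⟩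
    exact dAt hV this hp
  have dG : ∀ d, DifferentiableAt ℝ (fun x' => G x' p a d) p := by
    intro d
    have := (smG a d).comp (f := fun x' => (x', p)) (s := V)
      (contDiff_id.prodMk contDiff_const).contDiffOn fun y hy => ⟨hy, hp⟩
    exact dAt hV this hp
  have hc0 : ∀ r : ℝ, DifferentiableAt ℝ (fun _ : EuclideanSpace ℝ (Fin n) => r) p := fun r =>
    differentiableAt_const r
  have pc : ∀ r : ℝ, pderiv j (fun _ : EuclideanSpace ℝ (Fin n) => r) p = 0 := by
    intro r; unfold pderiv; simp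
  rw [e1, pd_sub (DifferentiableAt.fun_sum fun l _ => DifferentiableAt.fun_sum fun q _ =>
      (hc0 _).fun_mul (dK q)) (DifferentiableAt.fun_sum fun d _ => (dG d).fun_mul (hc0 _)),
    pd_sum (fun l _ => DifferentiableAt.fun_sum fun q _ => (hc0 _).fun_mul (dK q)),
    pd_sum (fun d _ => (dG d).fun_mul (hc0 _))]
  have hG1 : ∀ d, pderiv j (fun x' => G x' p a d) p = -c p j d a := by
    intro d
    have s2 := Ky_spec h (sw_T2 h1) hp hp d j a
    have z := (K_diag h smG h2 h1 hD hp).2 d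
    simp only [z, mul_zero, Finset.sum_const_zero] at s2
    have c2 : ∑ e, sw G p p d e * c p j e a = c p j d a := by simp [sw, hD p hp]
    rw [c2] at s2
    have s3 : pderiv j (fun y' => sw G p y' d a) p = pderiv j (fun x' => G x' p a d) p := rfl
    rw [s3] at s2
    linarith
  have hX : ∀ q, pderiv j (fun x' => Ky g J c G x' p a q) p
      = -covK g (fun y => Ky g J c G p y a) p q j := by
    intro q
    have hd : DifferentiableAt ℝ (fun z : EuclideanSpace ℝ (Fin n) × EuclideanSpace ℝ (Fin n) =>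
        Ky g J c G z.1 z.2 a q) (p, p) :=
      ((smKy h smG a q (p, p) ⟨hp, hp⟩).contDiffAt
        (hVV.mem_nhds ⟨hp, hp⟩)).differentiableAt (by simp)
    have d0 : pderiv j (fun x' => Ky g J c G x' x' a q) p = 0 := by
      have : pderiv j (fun x' => Ky g J c G x' x' a q) p
          = pderiv j (fun _ => (0 : ℝ)) p :=
        pd_congr (by
          filter_upwards [hV.mem_nhds hp] with y hy
          exact (K_diag h smG h2 h1 hD hy).1 a q) j
      rw [this, pc]
    have d1 := pd_diag hd j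
    simp only at d1
    rw [d0] at d1
    have z := (K_diag h smG h2 h1 hD hp).1 a
    have : covK g (fun y => Ky g J c G p y a) p q j
        = pderiv j (fun y' => Ky g J c G p y' a q) p := by
      simp [covK, z]
    rw [this]; linarith
  have e2 : ∀ l, pderiv j (fun x' => ∑ q, g p i l * J b p l q * Ky g J c G x' p a q) p
      = ∑ q, g p i l * J b p l q * -covK g (fun y => Ky g J c G p y a) p q j := by
    intro l
    rw [pd_sum (fun q _ => (hc0 _).fun_mul (dK q))]
    refine Finset.sum_congr rfl fun q _ => ?_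
    rw [pd_mul (hc0 _) (dK q), pc, hX q]; ring
  have e3 : ∀ d, pderiv j (fun x' => G x' p a d * c p i d b) p = -c p j d a * c p i d b := by
    intro d
    rw [pd_mul (dG d) (hc0 _), pc, hG1 d]; ring
  simp only [e2, e3]
  have m1 : (g p * J b p * covK g (fun y => Ky g J c G p y a) p) i j
      = ∑ l, ∑ q, g p i l * J b p l q * covK g (fun y => Ky g J c G p y a) p q j := by
    simp only [Matrix.mul_apply, Finset.sum_mul]
    rw [Finset.sum_comm]
  rw [m1]
  simp only [mul_neg, neg_mul, Finset.sum_neg_distrib]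
  ring

/-- **END-2PT, local form.** -/
theorem end2pt_V (h : Dat g V J c lam)
    (smG : ∀ a b, ContDiffOn ℝ ∞ (fun z : EuclideanSpace ℝ (Fin n) × EuclideanSpace ℝ (Fin n) =>
      G z.1 z.2 a b) (V ×ˢ V)) (h2 : T2 g (V ×ˢ V) J c G) (h1 : T1 g (V ×ˢ V) J c G)
    (hD : ∀ x ∈ V, ∀ a b, G x x a b = if a = b then 1 else 0)
    {p : EuclideanSpace ℝ (Fin n)} (hp : p ∈ V) (a : Fin 3) :
    covK g (fun y => Ky g J c G p y a) p + (lam / 2) • J a p = 0 := by
  have hV := h.riem.isOpen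
  have hVV : IsOpen (V ×ˢ V) := hV.prod hV
  have hgs : (g p).transpose = g p := by
    ext i j; exact g_symm h.riem hp j i
  have hDs : ∀ x ∈ V, ∀ a b, sw G x x a b = if a = b then 1 else 0 := by
    intro x hx a b
    simp only [sw, hD x hx b a, eq_comm]
  have h1s : T1 g (V ×ˢ V) J c (sw G) := fun x y hxy b => h2 y x ⟨hxy.2, hxy.1⟩ b
  have hJ : ∀ a, ∑ b, G p p a b • J b p = J a p := sumJ p (hD p hp)
  have hJs : ∀ a, ∑ b, sw G p p a b • J b p = J a p := sumJ p (hDs p hp)
  have tA := fun a => twist h (tw_of h smG h2 hp a) hp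
  have tA' := fun a => twist h (tw_of h (swG smG) (sw_T2 h1) hp a) hp
  simp only [hJ] at tA
  simp only [hJs] at tA'
  have key : ∀ a b, g p * J b p * (covK g (fun y => Ky g J c G p y a) p + (lam / 2) • J a p
        - (lam / 2) • J a p)
      = (g p * J a p * (covK g (fun y => Ky g J c (sw G) p y b) p + (lam / 2) • J b p
        - (lam / 2) • J b p)).transpose := by
    intro a b
    rw [add_sub_cancel_right, add_sub_cancel_right]
    ext i j
    rw [Matrix.transpose_apply]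
    have m1 := mixed_half h smG h2 h1 hD hp a b i j
    have m2 := mixed_half h (swG smG) (sw_T2 h1) h1s hDs hp b a j i
    have hc2 : ContDiffAt ℝ 2 (fun z : EuclideanSpace ℝ (Fin n) × EuclideanSpace ℝ (Fin n) =>
        G z.1 z.2 a b) (p, p) :=
      ((smG a b (p, p) ⟨hp, hp⟩).contDiffAt (hVV.mem_nhds ⟨hp, hp⟩)).of_le (by norm_cast)
    have m3 := pd_mixed hc2 i j
    simp only at m3
    have m4 : pderiv i (fun x' => pderiv j (fun y' => sw G x' y' b a) p) p
        = pderiv i (fun y' => pderiv j (fun x' => G x' y' a b) p) p := rfl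
    rw [m1, ← m4, m2] at m3
    have m5 : ∑ d, c p j d a * c p i d b = ∑ d, c p i d b * c p j d a :=
      Finset.sum_congr rfl fun d _ => mul_comm _ _
    rw [m5] at m3
    linarith
  exact alg_mix (g_unit h.riem hp) hgs (h.sq p hp) (h.mul p hp).1 (h.mul p hp).2 (h.orth p hp)
    (t := lam / 2) (A := fun a => covK g (fun y => Ky g J c G p y a) p + (lam / 2) • J a p)
    (A' := fun b => covK g (fun y => Ky g J c (sw G) p y b) p + (lam / 2) • J b p)
    (fun a => (tA' a).1) (fun a b => (tA a).2.1 b) (fun a b => (tA' a).2.1 b) key a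

end Crest.Agent.R260.QKf_838
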