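import Crest.Agent.R260.QKf_838

/-!
# Row 260, END-2PT: final form

`end2pt` : a real two-point tensor `G` on a neighbourhood `W` of `(p, p)` with the twistor
equation in both variables and `G (x, x) = δ` gives a Killing field `K` near `p` with `K p = 0`
and `(dK)_p² = -1`.

`end2pt_C` : the same for complex valued `G` with `G (x, x) = κ δ`, `κ ≠ 0`.
-/

set_option autoImplicit false
open scoped ContDiff Topology
open Crest.GeometryTopology.CoordMetric Crest.GeometryTopology.ChartRiem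
open Crest.Agent.R260.QKk_838 Crest.Agent.R260.QKm_838 Crest.Agent.R260.QKe_838
open Crest.Agent.R260.QKf_838

namespace Crest.Agent.R260.QKg_838

variable {n : ℕ} {g : MetricField n} {U : Set (EuclideanSpace ℝ (Fin n))}
  {J : Fin 3 → EuclideanSpace ℝ (Fin n) → Matrix (Fin n) (Fin n) ℝ}
  {c : EuclideanSpace ℝ (Fin n) → Fin n → Fin 3 → Fin 3 → ℝ} {lam : ℝ}
  {G : EuclideanSpace ℝ (Fin n) → EuclideanSpace ℝ (Fin n) → Fin 3 → Fin 3 → ℝ}

theorem pd_smul {f : EuclideanSpace ℝ (Fin n) → ℝ} {x : EuclideanSpace ℝ (Fin n)}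
    (hf : DifferentiableAt ℝ f x) (r : ℝ) (i : Fin n) :
    pderiv i (fun y => r * f y) x = r * pderiv i f x := by
  rw [pd_mul (differentiableAt_const r) hf]
  unfold pderiv
  simp

/-- **END-2PT.** -/
theorem end2pt (h : Dat g U J c lam) (hlam : lam ≠ 0)
    {W : Set (EuclideanSpace ℝ (Fin n) × EuclideanSpace ℝ (Fin n))} (hWo : IsOpen W)
    (hWU : W ⊆ U ×ˢ U) {p : EuclideanSpace ℝ (Fin n)} (hp : (p, p) ∈ W)
    (smG : ∀ a b, ContDiffOn ℝ ∞ (fun z : EuclideanSpace ℝ (Fin n) × EuclideanSpace ℝ (Fin n) =>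
      G z.1 z.2 a b) W)
    (h2 : T2 g W J c G) (h1 : T1 g W J c G)
    (hD : ∀ x, (x, x) ∈ W → ∀ a b, G x x a b = if a = b then 1 else 0) :
    ∃ (V : Set (EuclideanSpace ℝ (Fin n))) (K : EuclideanSpace ℝ (Fin n) → EuclideanSpace ℝ (Fin n)),
      IsOpen V ∧ p ∈ V ∧ V ⊆ U ∧ (∀ q, ContDiffOn ℝ ∞ (fun y => K y q) V)
      ∧ (∀ x ∈ V, ∀ i j, ∑ a, (K x a * pderiv a (fun y => g y i j) x
          + g x a j * pderiv i (fun y => K y a) x + g x i a * pderiv j (fun y => K y a) x) = 0)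
      ∧ K p = 0
      ∧ (Matrix.of fun l j => pderiv j (fun y => K y l) p)
          * (Matrix.of fun l j => pderiv j (fun y => K y l) p) = -1 := by
  -- a product neighbourhood
  obtain ⟨V₁, V₂, hV₁, hV₂, hp₁, hp₂, hVW⟩ := isOpen_prod_iff.1 hWo p p hp
  set V := V₁ ∩ V₂ with hVd
  have hV : IsOpen V := hV₁.inter hV₂
  have hpV : p ∈ V := ⟨hp₁, hp₂⟩
  have hVV : V ×ˢ V ⊆ W := fun z hz => hVW ⟨hz.1.1, hz.2.2⟩
  have hVU : V ⊆ U := fun x hx => (hWU (hVV (⟨hx, hx⟩ : (x, x) ∈ V ×ˢ V))).1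
  have hh : Dat g V J c lam := mono h hV hVU
  have smG' := fun a b => (smG a b).mono hVV
  have h2' : T2 g (V ×ˢ V) J c G := fun x y hxy => h2 x y (hVV hxy)
  have h1' : T1 g (V ×ˢ V) J c G := fun x y hxy => h1 x y (hVV hxy)
  have hD' : ∀ x ∈ V, ∀ a b, G x x a b = if a = b then 1 else 0 := fun x hx =>
    hD x (hVV (⟨hx, hx⟩ : (x, x) ∈ V ×ˢ V))
  have htw := tw_of hh smG' h2' hpV 0
  have hK0 : ∀ q, Ky g J c G p p 0 q = 0 := (K_diag hh smG' h2' h1' hD' hpV).1 0
  have hcov := end2pt_V hh smG' h2' h1' hD' hpV 0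
  have hdK : ∀ x ∈ V, ∀ q, DifferentiableAt ℝ (fun y => Ky g J c G p y 0 q) x := fun x hx q =>
    dAt hV (htw.smK q) hx
  refine ⟨V, fun y => (2 / lam) • Ky g J c G p y 0, hV, hpV, hVU, fun q => ?_, ?_, ?_, ?_⟩
  · exact (htw.smK q).const_smul (2 / lam)
  · intro x hx i j
    have hk := killing hh htw hx i j
    have e : ∀ a m, pderiv m (fun y => ((2 / lam) • Ky g J c G p y 0) a) x
        = (2 / lam) * pderiv m (fun y => Ky g J c G p y 0 a) x := fun a m =>
      pd_smul (hdK x hx a) _ m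
    simp only [e]
    simp only [PiLp.smul_apply, smul_eq_mul]
    have : ∑ a, ((2 / lam) * Ky g J c G p x 0 a * pderiv a (fun y => g y i j) x
        + g x a j * ((2 / lam) * pderiv i (fun y => Ky g J c G p y 0 a) x)
        + g x i a * ((2 / lam) * pderiv j (fun y => Ky g J c G p y 0 a) x))
        = (2 / lam) * ∑ a, (Ky g J c G p x 0 a * pderiv a (fun y => g y i j) x
          + g x a j * pderiv i (fun y => Ky g J c G p y 0 a) x
          + g x i a * pderiv j (fun y => Ky g J c G p y 0 a) x) := by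
      rw [Finset.mul_sum]
      exact Finset.sum_congr rfl fun a _ => by ring
    rw [this, hk, mul_zero]
  · ext q
    simp [hK0 q]
  · have e1 : (Matrix.of fun l j => pderiv j (fun y => ((2 / lam) • Ky g J c G p y 0) l) p)
        = -J 0 p := by
      have e2 : covK g (fun y => Ky g J c G p y 0) p = -((lam / 2) • J 0 p) :=
        eq_neg_of_add_eq_zero_left hcov
      ext l j
      have e3 := congrFun (congrFun e2 l) j
      simp only [covK, Matrix.of_apply, hK0, mul_zero, Finset.sum_const_zero, add_zero,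
        Matrix.neg_apply, Matrix.smul_apply, smul_eq_mul] at e3
      have e4 : pderiv j (fun y => ((2 / lam) • Ky g J c G p y 0) l) p
          = (2 / lam) * pderiv j (fun y => Ky g J c G p y 0 l) p := pd_smul (hdK p hpV l) _ j
      rw [Matrix.of_apply, e4, e3, Matrix.neg_apply]
      field_simp
    rw [e1, Matrix.neg_mul, Matrix.mul_neg, neg_neg, hh.sq p hpV]

end Crest.Agent.R260.QKg_838
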