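import Crest.Agent.R260.QKg_838
import Crest.Agent.R260.EndDefs_919
import Crest.Agent.R260.KEnd5_361

/-!
# Row 260, END-2PT + KEND: `TwoPt` implies `∇R = 0`
-/

set_option autoImplicit false
open scoped ContDiff Topology
open Crest.GeometryTopology.CoordMetric Crest.GeometryTopology.ChartRiem
open Crest.Agent.R260.QKm_838 Crest.Agent.R260.QKf_838 Crest.Agent.R260.QKg_838

namespace Crest.Agent.R260.QKh_838

variable {n : ℕ} {g : MetricField n} {U : Set (EuclideanSpace ℝ (Fin n))}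
  {J : Fin 3 → EuclideanSpace ℝ (Fin n) → Matrix (Fin n) (Fin n) ℝ}
  {c : EuclideanSpace ℝ (Fin n) → Fin n → Fin 3 → Fin 3 → ℝ} {lam : ℝ}

/-- **The two-point end of row 260, general neighbourhood of the diagonal point.** -/
theorem symm_of_W {G : EuclideanSpace ℝ (Fin n) → EuclideanSpace ℝ (Fin n) → Fin 3 → Fin 3 → ℝ}
    (h : Dat g U J c lam) (hlam : lam ≠ 0)
    {W : Set (EuclideanSpace ℝ (Fin n) × EuclideanSpace ℝ (Fin n))} (hWo : IsOpen W)
    (hWU : W ⊆ U ×ˢ U) {p : EuclideanSpace ℝ (Fin n)} (hp : (p, p) ∈ W)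
    (smG : ∀ a b, ContDiffOn ℝ ∞ (fun z : EuclideanSpace ℝ (Fin n) × EuclideanSpace ℝ (Fin n) =>
      G z.1 z.2 a b) W)
    (h2 : T2 g W J c G) (h1 : T1 g W J c G)
    (hD : ∀ x, (x, x) ∈ W → ∀ a b, G x x a b = if a = b then 1 else 0)
    (m l i j k : Fin n) : covDerivRiemann g p m l i j k = 0 := by
  obtain ⟨V, K, hV, hpV, hVU, hsm, hkill, h0, hJ⟩ := end2pt h hlam hWo hWU hp smG h2 h1 hD
  exact KEnd_361.kend (U := V) (K := fun a y => K y a)
    ⟨hV, fun i j => (h.riem.contDiffOn i j).mono hVU, fun x hx => h.riem.posDef x (hVU hx)⟩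
    ⟨hsm, hkill⟩ hpV (fun a => by rw [h0]; rfl) hJ m l i j k

/-- **The two-point end of row 260** from 919's frozen `TwoPt`. -/
theorem symm_of_twoPt {G : Fin 3 → Fin 3 → EuclideanSpace ℝ (Fin n) → EuclideanSpace ℝ (Fin n) → ℝ}
    (h : Dat g U J c lam) (hlam : lam ≠ 0) (hT : End_919.TwoPt g U J c G)
    {x : EuclideanSpace ℝ (Fin n)} (hx : x ∈ U) (m l i j k : Fin n) :
    covDerivRiemann g x m l i j k = 0 :=
  symm_of_W (G := fun x y a b => G a b x y) h hlam (h.riem.isOpen.prod h.riem.isOpen)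
    (le_refl _) (⟨hx, hx⟩ : (x, x) ∈ U ×ˢ U) hT.smG
    (fun x y hxy a => hT.t2 x hxy.1 y hxy.2 a) (fun x y hxy b => hT.t1 x hxy.1 y hxy.2 b)
    (fun x hx a b => hT.diag x hx.1 a b) m l i j k

end Crest.Agent.R260.QKh_838
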