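import Crest.Agent.R260.QKh_838

/-!
# Row 260: from a dense set of points to all points
-/

set_option autoImplicit false
open scoped ContDiff Topology Manifold
open Crest.GeometryTopology.CoordMetric Crest.GeometryTopology.ChartRiem
open Crest.Agent.R260.QKm_838 Crest.Agent.R260.QKf_838

namespace Crest.Agent.R260.QKi_838

variable {n : ℕ} {g : MetricField n} {U : Set (EuclideanSpace ℝ (Fin n))}

/-- The covariant derivative of the curvature tensor is smooth. -/
theorem sm_cov (hg : IsRiemannianOn g U) (m l i j k : Fin n) :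
    ContDiffOn ℝ ∞ (fun x => covDerivRiemann g x m l i j k) U := by
  have h1 : KEnd_361.SmM U (fun x => KEnd_361.pdM m (KEnd_361.Rm g i j) x
      + (KEnd_361.Gm g m x * KEnd_361.Rm g i j x - KEnd_361.Rm g i j x * KEnd_361.Gm g m x)
      - ∑ p, KEnd_361.Gm g m x p i • KEnd_361.Rm g p j x
      - ∑ p, KEnd_361.Gm g m x p j • KEnd_361.Rm g i p x) :=
    ((((KEnd_361.sm_Rm hg i j).pd hg.isOpen m).add
      (((KEnd_361.sm_Gm hg m).mul (KEnd_361.sm_Rm hg i j)).sub
        ((KEnd_361.sm_Rm hg i j).mul (KEnd_361.sm_Gm hg m)))).sub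
      (KEnd_361.SmM.sum fun p _ => KEnd_361.SmM.smul (KEnd_361.sm_Gm hg m p i)
        (KEnd_361.sm_Rm hg p j))).sub
      (KEnd_361.SmM.sum fun p _ => KEnd_361.SmM.smul (KEnd_361.sm_Gm hg m p j)
        (KEnd_361.sm_Rm hg i p))
  have h2 := h1.congr (Y := KEnd_361.Nm g m i j) fun y _ => KEnd_361.Nm_eq g m i j y
  exact h2 l k

/-- If every non-empty open subset of `U` contains a point with `∇R = 0`, then `∇R = 0` on `U`. -/
theorem all_of_dense (hg : IsRiemannianOn g U)
    (hd : ∀ O : Set (EuclideanSpace ℝ (Fin n)), IsOpen O → O ⊆ U → O.Nonempty → ∃ x ∈ O,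
      ∀ m l i j k : Fin n, covDerivRiemann g x m l i j k = 0)
    {x : EuclideanSpace ℝ (Fin n)} (hx : x ∈ U) (m l i j k : Fin n) :
    covDerivRiemann g x m l i j k = 0 := by
  by_contra hne
  have hc : ContinuousOn (fun x => covDerivRiemann g x m l i j k) U :=
    (sm_cov hg m l i j k).continuousOn
  have hO : IsOpen (U ∩ (fun x => covDerivRiemann g x m l i j k) ⁻¹' {0}ᶜ) :=
    hc.isOpen_inter_preimage hg.isOpen isOpen_compl_singleton
  obtain ⟨y, hy, hy0⟩ := hd _ hO Set.inter_subset_left ⟨x, hx, hne⟩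
  exact hy.2 (hy0 m l i j k)

/-- **K side of `S0398`.**  In every chart `e` of the atlas the data `Dat` (from `QKOn`) on the
target, and two-point tensors on a neighbourhood of a dense set of points. -/
theorem main_end {M : Type} [TopologicalSpace M] [ChartedSpace (EuclideanSpace ℝ (Fin n)) M]
    (G : ChartMetric n M) (Q : QuaternionicStructure n M G)
    (H : ∀ e ∈ atlas (EuclideanSpace ℝ (Fin n)) M,
      ∃ (c : EuclideanSpace ℝ (Fin n) → Fin n → Fin 3 → Fin 3 → ℝ) (lam : ℝ), lam ≠ 0 ∧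
        Dat (G.g e) e.target (Q.J e) c lam ∧
        ∀ O : Set (EuclideanSpace ℝ (Fin n)), IsOpen O → O ⊆ e.target → O.Nonempty →
          ∃ V ⊆ O, IsOpen V ∧ V.Nonempty ∧ ∃ Gt, End_919.TwoPt (G.g e) V (Q.J e) c Gt) :
    ∀ e ∈ atlas (EuclideanSpace ℝ (Fin n)) M, ∀ x ∈ e.target, ∀ a l i j k : Fin n,
      covDerivRiemann (G.g e) x a l i j k = 0 := by
  intro e he x hx a l i j k
  obtain ⟨c, lam, hlam, hdat, hden⟩ := H e he
  refine all_of_dense (G.riemannian e he) (fun O hO hOU hOn => ?_) hx a l i j k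
  obtain ⟨V, hVO, hV, ⟨y, hy⟩, Gt, hT⟩ := hden O hO hOU hOn
  exact ⟨y, hVO hy, fun m l i j k =>
    QKh_838.symm_of_twoPt (mono hdat hV (hVO.trans hOU)) hlam hT hy m l i j k⟩

end Crest.Agent.R260.QKi_838
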