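import Mathlib
import Crest.Prelude.Def_ChartRiemQK

/-!
# QK-TWK (row 260): the twistor equation gives a Killing field (chart language)

* `alg` : linear algebra.
* `pd_*`, `dg`, `chr_symm` : partial derivatives, `∇ g = 0`, symmetry of the Christoffel symbols.
* `twist_B` : `G J_a B - (G J_a B)ᵀ = lam G M_a`.
* `twist` : `∇K = A - (lam/2) S`, `A` skew and commuting with the `J_a`; `K` Killing.
-/

set_option autoImplicit false
open scoped ContDiff Topology
open Crest.GeometryTopology.CoordMetric Crest.GeometryTopology.ChartRiem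

namespace Crest.Agent.R260.QKk_838

variable {n : ℕ}

/-! ## Linear algebra -/

/-- The cyclic combinations `M_a = ½ [S, J_a]`, `S = ∑ s_b J_b`. -/
def Mc (s : Fin 3 → ℝ) (J : Fin 3 → Matrix (Fin n) (Fin n) ℝ) : Fin 3 → Matrix (Fin n) (Fin n) ℝ
  | 0 => s 2 • J 1 - s 1 • J 2
  | 1 => s 0 • J 2 - s 2 • J 0
  | 2 => s 1 • J 0 - s 0 • J 1

theorem quat {J : Fin 3 → Matrix (Fin n) (Fin n) ℝ} (hsq : ∀ a, J a * J a = -1)
    (h01 : J 0 * J 1 = J 2) (h10 : J 1 * J 0 = -J 2) :
    J 1 * J 2 = J 0 ∧ J 2 * J 1 = -J 0 ∧ J 2 * J 0 = J 1 ∧ J 0 * J 2 = -J 1 := by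
  refine ⟨?_, ?_, ?_, ?_⟩
  · have : J 1 * J 2 = (J 1 * J 0) * J 1 := by rw [← h01, Matrix.mul_assoc]
    rw [this, h10, Matrix.neg_mul]
    have : J 2 * J 1 = J 0 * (J 1 * J 1) := by rw [← h01, Matrix.mul_assoc]
    rw [this, hsq]; simp
  · have : J 2 * J 1 = J 0 * (J 1 * J 1) := by rw [← h01, Matrix.mul_assoc]
    rw [this, hsq]; simp
  · have : J 2 * J 0 = -(J 1 * J 0) * J 0 := by rw [h10]; simp
    rw [this, Matrix.neg_mul, Matrix.mul_assoc, hsq]; simp
  · have : J 0 * J 2 = (J 0 * J 0) * J 1 := by rw [← h01, Matrix.mul_assoc]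
    rw [this, hsq]; simp

theorem comm_S {J : Fin 3 → Matrix (Fin n) (Fin n) ℝ} (hsq : ∀ a, J a * J a = -1)
    (h01 : J 0 * J 1 = J 2) (h10 : J 1 * J 0 = -J 2) (s : Fin 3 → ℝ) (a : Fin 3) :
    (∑ b, s b • J b) * J a - J a * (∑ b, s b • J b) = (2 : ℝ) • Mc s J a := by
  obtain ⟨h12, h21, h20, h02⟩ := quat hsq h01 h10
  fin_cases a
  · simp only [Fin.sum_univ_three, Matrix.add_mul, Matrix.mul_add, Matrix.smul_mul,
      Matrix.mul_smul, Mc, Fin.zero_eta]
    rw [h10, h20, h01, h02]; module
  · simp only [Fin.sum_univ_three, Matrix.add_mul, Matrix.mul_add, Matrix.smul_mul,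
      Matrix.mul_smul, Mc, Fin.mk_one]
    rw [h10, h21, h01, h12]; module
  · simp only [Fin.sum_univ_three, Matrix.add_mul, Matrix.mul_add, Matrix.smul_mul,
      Matrix.mul_smul, Mc, Fin.reduceFinMk]
    rw [h12, h21, h20, h02]; module

theorem orth_skew {G J : Matrix (Fin n) (Fin n) ℝ} (hsq : J * J = -1)
    (ho : J.transpose * G * J = G) : J.transpose * G = -(G * J) := by
  have h : J.transpose * G * J * J = G * J := by rw [ho]
  rw [Matrix.mul_assoc (J.transpose * G), hsq] at h
  rw [← h]; simp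

/-- **Algebra of the twistor equation.** -/
theorem alg {G : Matrix (Fin n) (Fin n) ℝ} (hG : IsUnit G) (hGs : G.transpose = G)
    {J : Fin 3 → Matrix (Fin n) (Fin n) ℝ} (hsq : ∀ a, J a * J a = -1)
    (h01 : J 0 * J 1 = J 2) (h10 : J 1 * J 0 = -J 2)
    (ho : ∀ a, (J a).transpose * G * J a = G) {s : Fin 3 → ℝ} {lam : ℝ}
    {B : Matrix (Fin n) (Fin n) ℝ}
    (hB : ∀ a, G * J a * B - (G * J a * B).transpose = lam • (G * Mc s J a)) :
    let A := B + (lam / 2) • (∑ b, s b • J b)
    A.transpose * G = -(G * A) ∧ (∀ a, J a * A = A * J a) ∧ B.transpose * G = -(G * B) := by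
  intro A
  set S : Matrix (Fin n) (Fin n) ℝ := ∑ b, s b • J b with hS
  have hJG : ∀ a, (J a).transpose * G = -(G * J a) := fun a => orth_skew (hsq a) (ho a)
  have hSG : S.transpose * G = -(G * S) := by
    rw [hS, Matrix.transpose_sum, Finset.sum_mul, Finset.mul_sum, ← Finset.sum_neg_distrib]
    refine Finset.sum_congr rfl fun b _ => ?_
    rw [Matrix.transpose_smul, Matrix.smul_mul, hJG, Matrix.mul_smul, smul_neg]
  -- the equation for `B`
  have hB' : ∀ a, G * J a * B + B.transpose * G * J a = lam • (G * Mc s J a) := by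
    intro a
    have e : (G * J a * B).transpose = -(B.transpose * G * J a) := by
      rw [Matrix.transpose_mul, Matrix.transpose_mul, hGs, hJG a]
      simp only [Matrix.mul_neg, Matrix.mul_assoc]
    rw [← hB a, e, sub_neg_eq_add]
  have hA' : ∀ a, G * J a * A + A.transpose * G * J a = 0 := by
    intro a
    have e1 : G * J a * A + A.transpose * G * J a
        = (G * J a * B + B.transpose * G * J a)
          + (lam / 2) • (G * J a * S + S.transpose * G * J a) := by
      simp only [A, Matrix.transpose_add, Matrix.transpose_smul, Matrix.mul_add, Matrix.add_mul,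
        Matrix.mul_smul, Matrix.smul_mul, smul_add]
      abel
    rw [e1, hB' a, hSG]
    have e2 : G * J a * S + -(G * S) * J a = -(G * ((2 : ℝ) • Mc s J a)) := by
      rw [← comm_S hsq h01 h10 s a, ← hS]
      simp only [Matrix.mul_sub, Matrix.neg_mul, Matrix.mul_assoc]; abel
    rw [e2, Matrix.mul_smul, smul_neg, smul_smul]
    rw [show lam / 2 * 2 = lam by ring]; simp
  have hD : ∀ a, A.transpose * G = G * (J a * A * J a) := by
    intro a
    have h := congrArg (· * J a) (hA' a)
    simp only [Matrix.add_mul, Matrix.zero_mul] at h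
    rw [Matrix.mul_assoc (A.transpose * G), hsq a] at h
    have h2 : G * J a * A * J a = A.transpose * G := by
      have := eq_neg_of_add_eq_zero_left h
      rw [this]; simp
    rw [← h2]; simp only [Matrix.mul_assoc]
  have hcan : ∀ X Y : Matrix (Fin n) (Fin n) ℝ, G * X = G * Y → X = Y := by
    intro X Y h
    exact hG.mul_left_cancel h
  have hDD : ∀ a b, J a * A * J a = J b * A * J b := by
    intro a b
    apply hcan
    rw [← hD a, ← hD b]
  have hAm : A = -(J 2 * A * J 2) := by
    have h := hDD 0 1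
    have h2 : J 0 * (J 0 * A * J 0) * J 0 = A := by
      have : J 0 * (J 0 * A * J 0) * J 0 = (J 0 * J 0) * A * (J 0 * J 0) := by
        simp only [Matrix.mul_assoc]
      rw [this, hsq]; simp
    have h3 : J 0 * (J 1 * A * J 1) * J 0 = -(J 2 * A * J 2) := by
      have : J 0 * (J 1 * A * J 1) * J 0 = (J 0 * J 1) * A * (J 1 * J 0) := by
        simp only [Matrix.mul_assoc]
      rw [this, h01, h10]; simp
    rw [← h3, ← h, h2]
  have hAa : ∀ a, A = -(J a * A * J a) := fun a => by rw [hDD a 2]; exact hAm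
  have hAG : A.transpose * G = -(G * A) := by
    rw [hD 2, ← Matrix.mul_neg]
    congr 1
    rw [← neg_eq_iff_eq_neg]
    exact hAm.symm
  refine ⟨hAG, fun a => ?_, ?_⟩
  · calc J a * A = J a * (-(J a * A * J a)) := by rw [← hAa a]
      _ = -((J a * J a) * A * J a) := by simp only [Matrix.mul_neg, Matrix.mul_assoc]
      _ = A * J a := by rw [hsq]; simp
  · have hBA : B = A - (lam / 2) • S := by simp only [A, hS]; abel
    rw [hBA, Matrix.transpose_sub, Matrix.transpose_smul, Matrix.sub_mul, Matrix.smul_mul, hSG,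
      hAG, Matrix.mul_sub, Matrix.mul_smul]
    simp only [smul_neg]; abel

/-! ## Partial derivatives -/



theorem pd_congr {f h : EuclideanSpace ℝ (Fin n) → ℝ} {x : EuclideanSpace ℝ (Fin n)} (e : f =ᶠ[𝓝 x] h) (i : Fin n) :
    pderiv i f x = pderiv i h x := by
  unfold pderiv; rw [e.fderiv_eq]

theorem pd_add {f h : EuclideanSpace ℝ (Fin n) → ℝ} {x : EuclideanSpace ℝ (Fin n)} (hf : DifferentiableAt ℝ f x) (hh : DifferentiableAt ℝ h x)
    (i : Fin n) : pderiv i (fun y => f y + h y) x = pderiv i f x + pderiv i h x := by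
  unfold pderiv; rw [fderiv_fun_add hf hh]; rfl

theorem pd_sub {f h : EuclideanSpace ℝ (Fin n) → ℝ} {x : EuclideanSpace ℝ (Fin n)} (hf : DifferentiableAt ℝ f x) (hh : DifferentiableAt ℝ h x)
    (i : Fin n) : pderiv i (fun y => f y - h y) x = pderiv i f x - pderiv i h x := by
  unfold pderiv; rw [fderiv_fun_sub hf hh]; rfl

theorem pd_mul {f h : EuclideanSpace ℝ (Fin n) → ℝ} {x : EuclideanSpace ℝ (Fin n)} (hf : DifferentiableAt ℝ f x) (hh : DifferentiableAt ℝ h x)
    (i : Fin n) : pderiv i (fun y => f y * h y) x = pderiv i f x * h x + f x * pderiv i h x := by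
  unfold pderiv; rw [fderiv_fun_mul hf hh]; simp; ring

theorem pd_sum {ι : Type*} {S : Finset ι} {f : ι → EuclideanSpace ℝ (Fin n) → ℝ} {x : EuclideanSpace ℝ (Fin n)}
    (hf : ∀ j ∈ S, DifferentiableAt ℝ (f j) x) (i : Fin n) :
    pderiv i (fun y => ∑ j ∈ S, f j y) x = ∑ j ∈ S, pderiv i (f j) x := by
  unfold pderiv; rw [fderiv_fun_sum hf]; simp

theorem pd_pd {f : EuclideanSpace ℝ (Fin n) → ℝ} {x : EuclideanSpace ℝ (Fin n)} (hf : ContDiffAt ℝ 2 f x) (i j : Fin n) :
    pderiv j (fun y => pderiv i f y) x = pderiv i (fun y => pderiv j f y) x := by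
  have hs : IsSymmSndFDerivAt ℝ f x := hf.isSymmSndFDerivAt (by simp)
  have hd : DifferentiableAt ℝ (fderiv ℝ f) x :=
    (hf.fderiv_right (m := 1) (by norm_num)).differentiableAt (by norm_num)
  have key : ∀ a b : Fin n, pderiv b (fun y => pderiv a f y) x
      = fderiv ℝ (fderiv ℝ f) x (EuclideanSpace.single b 1) (EuclideanSpace.single a 1) := by
    intro a b
    unfold pderiv
    rw [fderiv_clm_apply hd (differentiableAt_const _)]
    simp
  rw [key, key]; exact hs _ _

/-! ## `∇ g = 0` -/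

variable {g : MetricField n} {U : Set (EuclideanSpace ℝ (Fin n))}

theorem g_symm (hg : IsRiemannianOn g U) {x : EuclideanSpace ℝ (Fin n)} (hx : x ∈ U) (i j : Fin n) : g x i j = g x j i := by
  have h := (hg.posDef x hx).1
  have := congrFun (congrFun h j) i
  simpa [Matrix.conjTranspose_apply] using this

theorem g_unit (hg : IsRiemannianOn g U) {x : EuclideanSpace ℝ (Fin n)} (hx : x ∈ U) : IsUnit (g x) :=
  (hg.posDef x hx).isUnit

theorem chr_symm (hg : IsRiemannianOn g U) {x : EuclideanSpace ℝ (Fin n)} (hx : x ∈ U) (k i j : Fin n) :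
    christoffel g x k i j = christoffel g x k j i := by
  unfold christoffel
  congr 1
  refine Finset.sum_congr rfl fun l _ => ?_
  have e : ∀ m, pderiv m (fun y => g y i j) x = pderiv m (fun y => g y j i) x := fun m =>
    pd_congr (by
      filter_upwards [hg.isOpen.mem_nhds hx] with y hy
      exact g_symm hg hy i j) m
  rw [e l]; ring

theorem lower (hg : IsRiemannianOn g U) {x : EuclideanSpace ℝ (Fin n)} (hx : x ∈ U) (q i j : Fin n) :
    ∑ k, g x q k * christoffel g x k i j
      = (1 / 2) * (pderiv i (fun y => g y j q) x + pderiv j (fun y => g y i q) x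
          - pderiv q (fun y => g y i j) x) := by
  unfold christoffel
  have hu : g x * (g x)⁻¹ = 1 := Matrix.mul_nonsing_inv _ ((Matrix.isUnit_iff_isUnit_det _).1 (g_unit hg hx))
  set D : Fin n → ℝ := fun l => pderiv i (fun y => g y j l) x + pderiv j (fun y => g y i l) x
    - pderiv l (fun y => g y i j) x with hD
  have h1 : ∑ k, g x q k * ((1 / 2) * ∑ l, inverseField g x k l * D l)
      = (1 / 2) * ∑ l, (∑ k, g x q k * (g x)⁻¹ k l) * D l := by
    simp only [Finset.mul_sum, Finset.sum_mul, inverseField]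
    rw [Finset.sum_comm]
    refine Finset.sum_congr rfl fun l _ => Finset.sum_congr rfl fun k _ => by ring
  rw [h1]
  congr 1
  have h2 : ∀ l, (∑ k, g x q k * (g x)⁻¹ k l) = (1 : Matrix (Fin n) (Fin n) ℝ) q l := by
    intro l; rw [← hu, Matrix.mul_apply]
  simp only [h2, Matrix.one_apply, ite_mul, one_mul, zero_mul]
  rw [Finset.sum_ite_eq]; simp [hD]

/-- `∇ g = 0`. -/
theorem dg (hg : IsRiemannianOn g U) {x : EuclideanSpace ℝ (Fin n)} (hx : x ∈ U) (j i l : Fin n) :
    pderiv j (fun y => g y i l) x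
      = ∑ p, christoffel g x p j i * g x p l + ∑ p, g x i p * christoffel g x p j l := by
  have h1 := lower hg hx l j i
  have h2 := lower hg hx i j l
  have e1 : ∑ p, christoffel g x p j i * g x p l = ∑ k, g x l k * christoffel g x k j i :=
    Finset.sum_congr rfl fun p _ => by rw [g_symm hg hx p l]; ring
  rw [e1, h1, h2]
  have e : ∀ m a b, pderiv m (fun y => g y a b) x = pderiv m (fun y => g y b a) x := fun m a b =>
    pd_congr (by
      filter_upwards [hg.isOpen.mem_nhds hx] with y hy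
      exact g_symm hg hy a b) m
  rw [e j l i, e i j l, e l j i]; ring

end Crest.Agent.R260.QKk_838
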