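import Crest.Agent.R260.QKk_838

/-!
# QK-TWK (row 260), main theorem: twistor equation ⟹ Killing field
-/

set_option autoImplicit false
open scoped ContDiff Topology
open Crest.GeometryTopology.CoordMetric Crest.GeometryTopology.ChartRiem
open Crest.Agent.R260.QKk_838

namespace Crest.Agent.R260.QKm_838

variable {n : ℕ}

/-- `∑_c ε_{abc} J_c`. -/
def E3 (J : Fin 3 → Matrix (Fin n) (Fin n) ℝ) : Fin 3 → Fin 3 → Matrix (Fin n) (Fin n) ℝ
  | 0, 1 => J 2
  | 1, 0 => -J 2
  | 1, 2 => J 0
  | 2, 1 => -J 0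
  | 2, 0 => J 1
  | 0, 2 => -J 1
  | _, _ => 0

theorem sum_E3 (s : Fin 3 → ℝ) (J : Fin 3 → Matrix (Fin n) (Fin n) ℝ) (a : Fin 3) :
    ∑ b, s b • E3 J b a = Mc s J a := by
  fin_cases a <;> simp [Fin.sum_univ_three, E3, Mc] <;> abel

/-- Local quaternion-Kähler data with connection coefficients `c` and constant `lam`:
`∇_i J_a = ∑_b c_{iab} J_b`, curvature `F_{ji,ab} = lam ∑_c ε_{abc} g(J_c ∂_j, ∂_i)`. -/
structure Dat (g : MetricField n) (U : Set (EuclideanSpace ℝ (Fin n)))
    (J : Fin 3 → EuclideanSpace ℝ (Fin n) → Matrix (Fin n) (Fin n) ℝ)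
    (c : EuclideanSpace ℝ (Fin n) → Fin n → Fin 3 → Fin 3 → ℝ) (lam : ℝ) : Prop where
  riem : IsRiemannianOn g U
  smJ : ∀ a l p, ContDiffOn ℝ ∞ (fun y => J a y l p) U
  sq : ∀ x ∈ U, ∀ a, J a x * J a x = -1
  mul : ∀ x ∈ U, J 0 x * J 1 x = J 2 x ∧ J 1 x * J 0 x = -J 2 x
  orth : ∀ x ∈ U, ∀ a, (J a x).transpose * g x * J a x = g x
  cov : ∀ x ∈ U, ∀ i a, covDerivEndo g (J a) x i = ∑ b, c x i a b • J b x
  smc : ∀ i a b, ContDiffOn ℝ ∞ (fun y => c y i a b) U
  skc : ∀ x ∈ U, ∀ i a b, c x i a b = -c x i b a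
  curv : ∀ x ∈ U, ∀ i j a b, pderiv j (fun y => c y i a b) x - pderiv i (fun y => c y j a b) x
      + ∑ d, (c x i a d * c x j d b - c x j a d * c x i d b)
    = lam * (g x * E3 (fun d => J d x) a b) i j

/-- `∇_j K^l`. -/
noncomputable def covK (g : MetricField n) (K : EuclideanSpace ℝ (Fin n) → EuclideanSpace ℝ (Fin n))
    (x : EuclideanSpace ℝ (Fin n)) : Matrix (Fin n) (Fin n) ℝ :=
  Matrix.of fun l j => pderiv j (fun y => K y l) x + ∑ p, christoffel g x l j p * K x p

/-- The twistor equation `∇_i s_a = g(J_a K, ∂_i)` on `U`. -/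
structure Tw (g : MetricField n) (U : Set (EuclideanSpace ℝ (Fin n)))
    (J : Fin 3 → EuclideanSpace ℝ (Fin n) → Matrix (Fin n) (Fin n) ℝ)
    (c : EuclideanSpace ℝ (Fin n) → Fin n → Fin 3 → Fin 3 → ℝ)
    (s : Fin 3 → EuclideanSpace ℝ (Fin n) → ℝ)
    (K : EuclideanSpace ℝ (Fin n) → EuclideanSpace ℝ (Fin n)) : Prop where
  sms : ∀ a, ContDiffOn ℝ ∞ (s a) U
  smK : ∀ p, ContDiffOn ℝ ∞ (fun y => K y p) U
  tw : ∀ x ∈ U, ∀ i a, pderiv i (s a) x + ∑ b, s b x * c x i b a
    = ∑ l, ∑ p, g x i l * J a x l p * K x p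

variable {g : MetricField n} {U : Set (EuclideanSpace ℝ (Fin n))}
  {J : Fin 3 → EuclideanSpace ℝ (Fin n) → Matrix (Fin n) (Fin n) ℝ}
  {c : EuclideanSpace ℝ (Fin n) → Fin n → Fin 3 → Fin 3 → ℝ} {lam : ℝ}
  {s : Fin 3 → EuclideanSpace ℝ (Fin n) → ℝ}
  {K : EuclideanSpace ℝ (Fin n) → EuclideanSpace ℝ (Fin n)}

theorem dAt {f : EuclideanSpace ℝ (Fin n) → ℝ} (hU : IsOpen U) (hf : ContDiffOn ℝ ∞ f U)
    {x : EuclideanSpace ℝ (Fin n)} (hx : x ∈ U) : DifferentiableAt ℝ f x :=
  ((hf x hx).contDiffAt (hU.mem_nhds hx)).differentiableAt (by simp)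

/-- `T_a = g (J_a K, ·)`. -/
def TT (g : MetricField n) (J : Fin 3 → EuclideanSpace ℝ (Fin n) → Matrix (Fin n) (Fin n) ℝ)
    (K : EuclideanSpace ℝ (Fin n) → EuclideanSpace ℝ (Fin n)) (a : Fin 3) (i : Fin n)
    (x : EuclideanSpace ℝ (Fin n)) : ℝ := ∑ l, ∑ p, g x i l * J a x l p * K x p

theorem dJ (h : Dat g U J c lam) {x : EuclideanSpace ℝ (Fin n)} (hx : x ∈ U) (j : Fin n) (a : Fin 3)
    (l p : Fin n) : pderiv j (fun y => J a y l p) x
      = ∑ b, c x j a b * J b x l p - ∑ q, christoffel g x l j q * J a x q p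
        + ∑ q, J a x l q * christoffel g x q j p := by
  have e := congrFun (congrFun (h.cov x hx j a) l) p
  simp only [covDerivEndo, Matrix.add_apply, Matrix.of_apply, Matrix.sub_apply, Matrix.mul_apply,
    christoffelMatrix, Matrix.sum_apply, Matrix.smul_apply, smul_eq_mul] at e
  linarith

theorem pd_TT (h : Dat g U J c lam) (hw : Tw g U J c s K) {x : EuclideanSpace ℝ (Fin n)}
    (hx : x ∈ U) (a : Fin 3) (i j : Fin n) :
    pderiv j (TT g J K a i) x = ∑ q, christoffel g x q j i * TT g J K a q x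
      + ∑ b, c x j a b * TT g J K b i x + (g x * J a x * covK g K x) i j := by
  have hU := h.riem.isOpen
  have hgd : ∀ i l, DifferentiableAt ℝ (fun y => g y i l) x := fun i l =>
    dAt hU (h.riem.contDiffOn i l) hx
  have hJd : ∀ l p, DifferentiableAt ℝ (fun y => J a y l p) x := fun l p => dAt hU (h.smJ a l p) hx
  have hKd : ∀ p, DifferentiableAt ℝ (fun y => K y p) x := fun p => dAt hU (hw.smK p) hx
  have e1 : pderiv j (TT g J K a i) x = ∑ l, ∑ p,
      ((pderiv j (fun y => g y i l) x * J a x l p + g x i l * pderiv j (fun y => J a y l p) x)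
        * K x p + g x i l * J a x l p * pderiv j (fun y => K y p) x) := by
    have : TT g J K a i = fun y => ∑ l, ∑ p, g y i l * J a y l p * K y p := rfl
    rw [this, pd_sum (fun l _ => DifferentiableAt.fun_sum fun p _ =>
      ((hgd i l).fun_mul (hJd l p)).fun_mul (hKd p))]
    refine Finset.sum_congr rfl fun l _ => ?_
    rw [pd_sum (fun p _ => ((hgd i l).fun_mul (hJd l p)).fun_mul (hKd p))]
    refine Finset.sum_congr rfl fun p _ => ?_
    rw [pd_mul ((hgd i l).fun_mul (hJd l p)) (hKd p), pd_mul (hgd i l) (hJd l p)]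
  -- matrix form
  set G := g x
  set Γ := christoffelMatrix g x j with hΓ
  have hG' : (Matrix.of fun i l => pderiv j (fun y => g y i l) x) = Γ.transpose * G + G * Γ := by
    ext i l
    simp only [Matrix.of_apply, Matrix.add_apply, Matrix.mul_apply, Matrix.transpose_apply, hΓ,
      christoffelMatrix]
    exact dg h.riem hx j i l
  have hJ' : (Matrix.of fun l p => pderiv j (fun y => J a y l p) x)
      = ∑ b, c x j a b • J b x - Γ * J a x + J a x * Γ := by
    ext l p
    simp only [Matrix.of_apply, Matrix.add_apply, Matrix.sub_apply, Matrix.mul_apply, hΓ,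
      christoffelMatrix, Matrix.sum_apply, Matrix.smul_apply, smul_eq_mul]
    exact dJ h hx j a l p
  have hK' : (fun p => pderiv j (fun y => K y p) x)
      = (fun p => covK g K x p j) - Γ.mulVec (fun p => K x p) := by
    ext p
    simp only [covK, Matrix.of_apply, Pi.sub_apply, Matrix.mulVec, dotProduct, hΓ,
      christoffelMatrix]
    ring
  have e2 : pderiv j (TT g J K a i) x
      = (((Matrix.of fun i l => pderiv j (fun y => g y i l) x) * J a x
          + G * (Matrix.of fun l p => pderiv j (fun y => J a y l p) x)).mulVec (fun p => K x p)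
        + (G * J a x).mulVec (fun p => pderiv j (fun y => K y p) x)) i := by
    rw [e1]
    simp only [Pi.add_apply, Matrix.mulVec, dotProduct, Matrix.add_apply, Matrix.mul_apply,
      Matrix.of_apply, Finset.sum_mul, Finset.sum_add_distrib, add_mul]
    rw [Finset.sum_comm (s := Finset.univ) (t := Finset.univ)
      (f := fun p l => pderiv j (fun y => g y i l) x * J a x l p * K x p),
      Finset.sum_comm (s := Finset.univ) (t := Finset.univ)
      (f := fun p l => G i l * pderiv j (fun y => J a y l p) x * K x p),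
      Finset.sum_comm (s := Finset.univ) (t := Finset.univ)
      (f := fun p l => G i l * J a x l p * pderiv j (fun y => K y p) x)]
  have hTT : ∀ b, (fun i => TT g J K b i x) = (G * J b x).mulVec (fun p => K x p) := by
    intro b; ext i
    simp only [TT, Matrix.mulVec, dotProduct, Matrix.mul_apply, Finset.sum_mul]
    rw [Finset.sum_comm]
  rw [e2, hG', hJ', hK']
  have e3 : ((Γ.transpose * G + G * Γ) * J a x
      + G * (∑ b, c x j a b • J b x - Γ * J a x + J a x * Γ)).mulVec (fun p => K x p)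
      + (G * J a x).mulVec ((fun p => covK g K x p j) - Γ.mulVec (fun p => K x p))
      = Γ.transpose.mulVec ((G * J a x).mulVec (fun p => K x p))
        + ∑ b, c x j a b • (G * J b x).mulVec (fun p => K x p)
        + (G * J a x).mulVec (fun p => covK g K x p j) := by
    rw [Matrix.mulVec_sub, Matrix.mulVec_mulVec, Matrix.mulVec_mulVec]
    simp only [← Matrix.smul_mulVec, ← Matrix.sum_mulVec]
    rw [add_sub_assoc', ← Matrix.add_mulVec, add_sub_right_comm, ← Matrix.sub_mulVec]
    congr 2
    simp only [Matrix.add_mul, Matrix.mul_add, Matrix.mul_sub, Finset.mul_sum, Matrix.mul_smul,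
      Matrix.mul_assoc]
    abel
  rw [e3, ← hTT a]
  simp only [← hTT, Pi.add_apply, Finset.sum_apply, Pi.smul_apply, smul_eq_mul]
  have e4 : (Γ.transpose.mulVec fun i => TT g J K a i x) i
      = ∑ q, christoffel g x q j i * TT g J K a q x := by
    simp only [Matrix.mulVec, dotProduct, Matrix.transpose_apply, hΓ, christoffelMatrix,
      Matrix.of_apply]
  have e5 : ((G * J a x).mulVec fun p => covK g K x p j) i = (G * J a x * covK g K x) i j := by
    rw [Matrix.mul_apply]; rfl
  rw [e4, e5]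

theorem smTT (h : Dat g U J c lam) (hw : Tw g U J c s K) (a : Fin 3) (i : Fin n) :
    ContDiffOn ℝ ∞ (TT g J K a i) U := by
  unfold TT
  refine ContDiffOn.sum fun l _ => ContDiffOn.sum fun p _ => ?_
  exact ((h.riem.contDiffOn i l).mul (h.smJ a l p)).mul (hw.smK p)

/-- The antisymmetrised derivative of the twistor equation. -/
theorem twist_B (h : Dat g U J c lam) (hw : Tw g U J c s K) {x : EuclideanSpace ℝ (Fin n)}
    (hx : x ∈ U) (a : Fin 3) :
    g x * J a x * covK g K x - (g x * J a x * covK g K x).transpose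
      = lam • (g x * Mc (fun b => s b x) (fun b => J b x) a) := by
  have hU := h.riem.isOpen
  have hsd : ∀ b, DifferentiableAt ℝ (s b) x := fun b => dAt hU (hw.sms b) hx
  have hcd : ∀ i b d, DifferentiableAt ℝ (fun y => c y i b d) x := fun i b d =>
    dAt hU (h.smc i b d) hx
  have hTd : ∀ b i, DifferentiableAt ℝ (TT g J K b i) x := fun b i => dAt hU (smTT h hw b i) hx
  have hps : ∀ y ∈ U, ∀ i b, pderiv i (s b) y = TT g J K b i y - ∑ d, s d y * c y i d b := by
    intro y hy i b
    have := hw.tw y hy i b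
    simp only [TT]; linarith
  have key : ∀ i j, pderiv j (fun y => pderiv i (s a) y) x
      = pderiv j (TT g J K a i) x
        - ∑ d, (pderiv j (s d) x * c x i d a + s d x * pderiv j (fun y => c y i d a) x) := by
    intro i j
    rw [pd_congr (h := fun y => TT g J K a i y - ∑ d, s d y * c y i d a)
      (by filter_upwards [hU.mem_nhds hx] with y hy; exact hps y hy i a) j,
      pd_sub (hTd a i) (DifferentiableAt.fun_sum fun d _ => (hsd d).fun_mul (hcd i d a)),
      pd_sum (fun d _ => (hsd d).fun_mul (hcd i d a))]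
    congr 1
    exact Finset.sum_congr rfl fun d _ => pd_mul (hsd d) (hcd i d a) j
  have hsym : ∀ i j, pderiv j (fun y => pderiv i (s a) y) x
      = pderiv i (fun y => pderiv j (s a) y) x := fun i j =>
    pd_pd (((hw.sms a x hx).contDiffAt (hU.mem_nhds hx)).of_le (by norm_cast)) i j
  ext i j
  have e := hsym i j
  rw [key i j, key j i, pd_TT h hw hx a i j, pd_TT h hw hx a j i] at e
  have hΓ : ∑ q, christoffel g x q j i * TT g J K a q x
      = ∑ q, christoffel g x q i j * TT g J K a q x :=
    Finset.sum_congr rfl fun q _ => by rw [chr_symm h.riem hx q j i]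
  -- curvature contribution
  have hc := fun d => h.curv x hx i j d a
  have hR : lam * (g x * Mc (fun b => s b x) (fun b => J b x) a) i j
      = ∑ d, s d x * (pderiv j (fun y => c y i d a) x - pderiv i (fun y => c y j d a) x
        + ∑ e, (c x i d e * c x j e a - c x j d e * c x i e a)) := by
    rw [← sum_E3, Finset.mul_sum, Matrix.sum_apply, Finset.mul_sum]
    refine Finset.sum_congr rfl fun d _ => ?_
    rw [hc d, Matrix.mul_smul, Matrix.smul_apply, smul_eq_mul]; ring
  rw [Matrix.sub_apply, Matrix.transpose_apply, Matrix.smul_apply, smul_eq_mul, hR]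
  rw [hΓ] at e
  simp only [hps x hx] at e
  have hk : ∀ i b, c x i b a = -c x i a b := fun i b => h.skc x hx i b a
  simp only [Fin.sum_univ_three] at e ⊢
  have k00 := h.skc x hx i 0 0
  have k11 := h.skc x hx i 1 1
  have k22 := h.skc x hx i 2 2
  have k10 := h.skc x hx i 1 0
  have k20 := h.skc x hx i 2 0
  have k21 := h.skc x hx i 2 1
  have l00 := h.skc x hx j 0 0
  have l11 := h.skc x hx j 1 1
  have l22 := h.skc x hx j 2 2
  have l10 := h.skc x hx j 1 0
  have l20 := h.skc x hx j 2 0
  have l21 := h.skc x hx j 2 1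
  have m00 : c x i 0 0 = 0 := by linarith
  have m11 : c x i 1 1 = 0 := by linarith
  have m22 : c x i 2 2 = 0 := by linarith
  have o00 : c x j 0 0 = 0 := by linarith
  have o11 : c x j 1 1 = 0 := by linarith
  have o22 : c x j 2 2 = 0 := by linarith
  fin_cases a <;>
    simp only [Fin.zero_eta, Fin.mk_one, Fin.reduceFinMk, m00, m11, m22, o00, o11, o22,
      k10, k20, k21, l10, l20, l21] at e ⊢ <;>
    linear_combination e

/-- **The twistor equation gives a Killing field.**  `∇K = A - (lam/2) ∑ s_a J_a` with `A`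
skew and commuting with the `J_a`; in particular `∇K` is skew. -/
theorem twist (h : Dat g U J c lam) (hw : Tw g U J c s K) {x : EuclideanSpace ℝ (Fin n)}
    (hx : x ∈ U) :
    let A := covK g K x + (lam / 2) • ∑ b, s b x • J b x
    A.transpose * g x = -(g x * A) ∧ (∀ a, J a x * A = A * J a x)
      ∧ (covK g K x).transpose * g x = -(g x * covK g K x) := by
  have hgs : (g x).transpose = g x := by
    ext i j; exact g_symm h.riem hx j i
  exact alg (g_unit h.riem hx) hgs (h.sq x hx) (h.mul x hx).1 (h.mul x hx).2 (h.orth x hx)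
    (fun a => twist_B h hw hx a)

/-- The coordinate form of the Killing equation. -/
theorem killing (h : Dat g U J c lam) (hw : Tw g U J c s K) {x : EuclideanSpace ℝ (Fin n)}
    (hx : x ∈ U) (i j : Fin n) :
    ∑ a, (K x a * pderiv a (fun y => g y i j) x + g x a j * pderiv i (fun y => K y a) x
      + g x i a * pderiv j (fun y => K y a) x) = 0 := by
  have e := congrFun (congrFun (twist h hw hx).2.2 i) j
  simp only [Matrix.mul_apply, Matrix.transpose_apply, Matrix.neg_apply, covK,
    Matrix.of_apply] at e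
  have e1 : ∀ a, pderiv a (fun y => g y i j) x
      = ∑ p, christoffel g x p i a * g x p j + ∑ p, g x i p * christoffel g x p j a := by
    intro a
    rw [dg h.riem hx a i j]
    congr 1
    · exact Finset.sum_congr rfl fun p _ => by rw [chr_symm h.riem hx p a i]
    · exact Finset.sum_congr rfl fun p _ => by rw [chr_symm h.riem hx p a j]
  simp only [e1, Finset.sum_add_distrib, mul_add, add_mul, Finset.mul_sum, Finset.sum_mul] at e ⊢
  have s1 : ∑ a, ∑ p, K x a * (christoffel g x p i a * g x p j)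
      = ∑ p, ∑ a, christoffel g x p i a * K x a * g x p j := by
    rw [Finset.sum_comm]
    exact Finset.sum_congr rfl fun p _ => Finset.sum_congr rfl fun a _ => by ring
  have s2 : ∑ a, ∑ p, K x a * (g x i p * christoffel g x p j a)
      = ∑ p, ∑ a, g x i p * (christoffel g x p j a * K x a) := by
    rw [Finset.sum_comm]
    exact Finset.sum_congr rfl fun p _ => Finset.sum_congr rfl fun a _ => by ring
  have s3 : ∑ a, g x a j * pderiv i (fun y => K y a) x
      = ∑ a, pderiv i (fun y => K y a) x * g x a j :=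
    Finset.sum_congr rfl fun p _ => by ring
  rw [s1, s2, s3]
  linarith

/-- **Consumer form.**  `K(x) = 0` and `A(x) = 0`, `s(x) ≠ 0`, `lam ≠ 0`: after rescaling the
Jacobian of `K` at `x` has square `-1`. -/
theorem jac (h : Dat g U J c lam) {x : EuclideanSpace ℝ (Fin n)} (hx : x ∈ U)
    (hK : ∀ p, K x p = 0) (hA : covK g K x + (lam / 2) • ∑ b, s b x • J b x = 0) :
    (Matrix.of fun l j => pderiv j (fun y => K y l) x) = -(lam / 2) • ∑ b, s b x • J b x
    ∧ (Matrix.of fun l j => pderiv j (fun y => K y l) x)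
        * (Matrix.of fun l j => pderiv j (fun y => K y l) x)
      = -((lam / 2) ^ 2 * ∑ b, s b x ^ 2) • (1 : Matrix (Fin n) (Fin n) ℝ) := by
  have e1 : (Matrix.of fun l j => pderiv j (fun y => K y l) x) = covK g K x := by
    ext l j; simp [covK, hK]
  have e2 : covK g K x = -(lam / 2) • ∑ b, s b x • J b x := by
    rw [eq_neg_of_add_eq_zero_left hA, neg_smul]
  rw [e1, e2]
  refine ⟨rfl, ?_⟩
  obtain ⟨h12, h21, h20, h02⟩ := quat (h.sq x hx) (h.mul x hx).1 (h.mul x hx).2
  have h01 := (h.mul x hx).1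
  have h10 := (h.mul x hx).2
  have q := h.sq x hx
  have e3 : (∑ b, s b x • J b x) * (∑ b, s b x • J b x)
      = -(∑ b, s b x ^ 2) • (1 : Matrix (Fin n) (Fin n) ℝ) := by
    simp only [Fin.sum_univ_three, Matrix.add_mul, Matrix.mul_add, Matrix.smul_mul,
      Matrix.mul_smul, q, h01, h10, h12, h21, h20, h02]
    module
  rw [Matrix.smul_mul, Matrix.mul_smul, e3]
  module

end Crest.Agent.R260.QKm_838
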