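import Mathlib

/-!
# Row 260, QK-LOC file 1 (helper151): pointwise quaternion-Kähler curvature algebra

`QV n V` : an `n`-dimensional real vector space with a positive definite form `B`, an orthonormal
frame `ξ` and a `B`-skew quaternionic triple `J 0, J 1, J 2` (`J 0 J 1 = J 2 = - J 1 J 0`).
`IsCurv D R` : algebraic curvature tensor (`R X Y Z`); `IsQCurv D R` : moreover `[R X Y, J a]` is a
combination of the `J b`.

Main results (`n = 4 m`, `2 ≤ m`), with `f c X Y = -(1/n) tr (R X Y ∘ J c)`: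
* `comm0` : `[R X Y, J 0] = 2 f₂ J 1 - 2 f₁ J 2` (and cyclic, `comm_eps`);
* `einstein` : `f c X Y = -(ν/2) B (J c X) Y` and `Ric X Y = (m+2) ν B X Y`,
  `ν = (Σ_b Ric ξ_b ξ_b) / (4 m (m+2))`.
-/

set_option autoImplicit false

noncomputable section

namespace Crest.Agent.R260.Qk1_151

variable {n : ℕ} {V : Type*} [AddCommGroup V] [Module ℝ V]

/-- a real vector space with a positive definite form, an orthonormal frame and a skew
quaternionic triple. -/
structure QV (n : ℕ) (V : Type*) [AddCommGroup V] [Module ℝ V] where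
  B : V →ₗ[ℝ] V →ₗ[ℝ] ℝ
  ξ : Fin n → V
  J : Fin 3 → Module.End ℝ V
  symm : ∀ X Y, B X Y = B Y X
  orth : ∀ a b, B (ξ a) (ξ b) = if a = b then 1 else 0
  expand : ∀ X, X = ∑ a, B X (ξ a) • ξ a
  sq : ∀ a X, J a (J a X) = -X
  mul01 : ∀ X, J 0 (J 1 X) = J 2 X
  mul10 : ∀ X, J 1 (J 0 X) = -J 2 X
  skew : ∀ a X Y, B (J a X) Y = -B X (J a Y)

namespace QV

variable (D : QV n V)

lemma mul12 (X : V) : D.J 1 (D.J 2 X) = D.J 0 X := by
  rw [← D.mul01, D.mul10, ← D.mul01, D.sq, map_neg, neg_neg]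

lemma mul21 (X : V) : D.J 2 (D.J 1 X) = -D.J 0 X := by
  rw [← D.mul01, D.sq, map_neg]

lemma mul20 (X : V) : D.J 2 (D.J 0 X) = D.J 1 X := by
  rw [← D.mul01, D.mul10, map_neg, ← D.mul01, D.sq, neg_neg]

lemma mul02 (X : V) : D.J 0 (D.J 2 X) = -D.J 1 X := by
  rw [← D.mul01, D.sq]

/-- cyclic rotation of the triple -/
def rot : QV n V where
  B := D.B
  ξ := D.ξ
  J := ![D.J 1, D.J 2, D.J 0]
  symm := D.symm
  orth := D.orth
  expand := D.expand
  sq := by intro a X; fin_cases a <;> exact D.sq _ X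
  mul01 := D.mul12
  mul10 := D.mul21
  skew := by intro a X Y; fin_cases a <;> exact D.skew _ X Y

lemma rot_J0 : D.rot.J 0 = D.J 1 := rfl
lemma rot_J1 : D.rot.J 1 = D.J 2 := rfl
lemma rot_J2 : D.rot.J 2 = D.J 0 := rfl

lemma ext {X Y : V} (h : ∀ Z, D.B X Z = D.B Y Z) : X = Y := by
  rw [D.expand X, D.expand Y]
  simp only [h]

/-- Parseval -/
lemma parseval (X Y : V) : D.B X Y = ∑ a, D.B X (D.ξ a) * D.B Y (D.ξ a) := by
  conv_lhs => rw [D.expand X]
  simp only [map_sum, map_smul, LinearMap.sum_apply, LinearMap.smul_apply, smul_eq_mul]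
  exact Finset.sum_congr rfl fun a _ => by rw [D.symm (D.ξ a)]

/-- trace -/
def tr (T : V → V) : ℝ := ∑ a, D.B (T (D.ξ a)) (D.ξ a)

lemma tr_comm (S T : Module.End ℝ V) : D.tr (fun X => S (T X)) = D.tr (fun X => T (S X)) := by
  have key : ∀ S T : Module.End ℝ V, D.tr (fun X => S (T X)) =
      ∑ a, ∑ b, D.B (T (D.ξ a)) (D.ξ b) * D.B (S (D.ξ b)) (D.ξ a) := by
    intro S T
    refine Finset.sum_congr rfl fun a _ => ?_
    change D.B (S (T (D.ξ a))) (D.ξ a) = _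
    conv_lhs => rw [D.expand (T (D.ξ a))]
    simp only [map_sum, map_smul, LinearMap.sum_apply, LinearMap.smul_apply, smul_eq_mul]
  rw [key, key, Finset.sum_comm]
  exact Finset.sum_congr rfl fun a _ => Finset.sum_congr rfl fun b _ => mul_comm _ _

lemma tr_neg_id : D.tr (fun X => -X) = -(n : ℝ) := by
  simp [tr, D.orth]

lemma tr_id : D.tr (fun X => X) = (n : ℝ) := by
  simp [tr, D.orth]

lemma tr_J (a : Fin 3) : D.tr (fun X => D.J a X) = 0 := by
  have h : ∀ i, D.B (D.J a (D.ξ i)) (D.ξ i) = 0 := by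
    intro i
    have h1 := D.skew a (D.ξ i) (D.ξ i)
    rw [D.symm (D.ξ i)] at h1
    linarith
  simp [tr, h]

lemma B_J_self (a : Fin 3) (X : V) : D.B (D.J a X) X = 0 := by
  have h1 := D.skew a X X
  rw [D.symm X] at h1
  linarith

lemma B_J_J (a : Fin 3) (X Y : V) : D.B (D.J a X) (D.J a Y) = D.B X Y := by
  rw [D.skew, D.sq, map_neg, neg_neg]

lemma tr_add (S T : V → V) : D.tr (fun X => S X + T X) = D.tr S + D.tr T := by
  simp [tr, Finset.sum_add_distrib, map_add]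

lemma tr_sub (S T : V → V) : D.tr (fun X => S X - T X) = D.tr S - D.tr T := by
  simp [tr, Finset.sum_sub_distrib, map_sub]

lemma tr_smul (c : ℝ) (T : V → V) : D.tr (fun X => c • T X) = c * D.tr T := by
  simp [tr, Finset.mul_sum]

lemma tr_neg (T : V → V) : D.tr (fun X => - T X) = - D.tr T := by
  simp [tr, Finset.sum_neg_distrib]

/-- moving a skew endomorphism from one leg of the frame to the other. -/
lemma frame_J {W : Type*} [AddCommGroup W] [Module ℝ W] (a : Fin 3) (φ : V →ₗ[ℝ] V →ₗ[ℝ] W) :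
    ∑ i, φ (D.J a (D.ξ i)) (D.ξ i) = -∑ i, φ (D.ξ i) (D.J a (D.ξ i)) := by
  have h1 : ∀ i, φ (D.J a (D.ξ i)) (D.ξ i) =
      ∑ j, D.B (D.J a (D.ξ i)) (D.ξ j) • φ (D.ξ j) (D.ξ i) := by
    intro i
    conv_lhs => rw [D.expand (D.J a (D.ξ i))]
    simp only [map_sum, map_smul, LinearMap.sum_apply, LinearMap.smul_apply]
  have h2 : ∀ i, φ (D.ξ i) (D.J a (D.ξ i)) =
      ∑ j, D.B (D.J a (D.ξ i)) (D.ξ j) • φ (D.ξ i) (D.ξ j) := by
    intro i
    conv_lhs => rw [D.expand (D.J a (D.ξ i))]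
    simp only [map_sum, map_smul]
  simp only [h1, h2]
  rw [Finset.sum_comm, ← Finset.sum_neg_distrib]
  refine Finset.sum_congr rfl fun i _ => ?_
  rw [← Finset.sum_neg_distrib]
  refine Finset.sum_congr rfl fun j _ => ?_
  rw [← neg_smul]
  congr 1
  rw [D.skew, D.symm]

lemma frame_contract (φ : V →ₗ[ℝ] ℝ) (Y : V) : ∑ i, φ (D.ξ i) * D.B Y (D.ξ i) = φ Y := by
  conv_rhs => rw [D.expand Y]
  simp only [map_sum, map_smul, smul_eq_mul]
  exact Finset.sum_congr rfl fun i _ => mul_comm _ _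

end QV

/-- algebraic curvature tensor -/
structure IsCurv (D : QV n V) (R : V →ₗ[ℝ] V →ₗ[ℝ] Module.End ℝ V) : Prop where
  swap : ∀ X Y, R X Y = -R Y X
  skew : ∀ X Y Z W, D.B (R X Y Z) W = -D.B (R X Y W) Z
  first : ∀ X Y Z, R X Y Z + R Y Z X + R Z X Y = 0

lemma IsCurv.pair {D : QV n V} {R : V →ₗ[ℝ] V →ₗ[ℝ] Module.End ℝ V} (h : IsCurv D R)
    (X W Y Z : V) : D.B (R X W Y) Z = D.B (R Z Y W) X := by
  have A : ∀ a b c d : V, D.B (R a b c) d + D.B (R b c a) d + D.B (R c a b) d = 0 := by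
    intro a b c d
    have := congrArg (fun v => D.B v d) (h.first a b c)
    simpa [map_add] using this
  have S1 : ∀ a b c d : V, D.B (R a b c) d = - D.B (R b a c) d := by
    intro a b c d
    rw [h.swap]; simp
  have S2 : ∀ a b c d : V, D.B (R a b c) d = - D.B (R a b d) c := h.skew
  have a1 := A X W Y Z
  have a2 := A W Y Z X
  have a3 := A Y Z X W
  have a4 := A Z X W Y
  have s1 := S1 X W Y Z
  have t1 := S2 X W Y Z
  have t2 := S2 W Y X Z
  have t3 := S2 Y X W Z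
  have t4 := S2 W Y Z X
  have t5 := S2 Y Z W X
  have t6 := S2 Z W Y X
  have t7 := S2 Y Z X W
  have t8 := S2 Z X Y W
  have t9 := S2 X Y Z W
  have u1 := S1 X W Z Y
  have u2 := S1 Z Y W X
  have u3 := S1 Y X W Z
  have u4 := S1 W Z Y X
  have u5 := S1 Z X W Y
  have u6 := S1 X Y Z W
  have u7 := S1 Z W Y X
  have u8 := S1 Z X Y W
  have u9 := S1 W X Z Y
  have v1 := S2 Z X W Y
  have v2 := S2 X W Z Y
  have v3 := S2 W Z X Y
  have v4 := S1 W Z X Y
  have v5 := S1 W Y Z X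
  linarith

/-- curvature tensor of quaternionic type -/
structure IsQCurv (D : QV n V) (R : V →ₗ[ℝ] V →ₗ[ℝ] Module.End ℝ V) : Prop
    extends IsCurv D R where
  comm : ∀ X Y a, ∃ c : Fin 3 → ℝ, ∀ Z, R X Y (D.J a Z) - D.J a (R X Y Z) = ∑ b, c b • D.J b Z

/-- the Ricci form `Ric Y Z = tr (X ↦ R X Y Z)`. -/
def Ric (D : QV n V) (R : V →ₗ[ℝ] V →ₗ[ℝ] Module.End ℝ V) (Y Z : V) : ℝ :=
  D.tr (fun X => R X Y Z)

/-- the `sp(1)` parts of `R`. -/
def f (D : QV n V) (R : V →ₗ[ℝ] V →ₗ[ℝ] Module.End ℝ V) (c : Fin 3) (X Y : V) : ℝ :=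
  -(1 / (n : ℝ)) * D.tr (fun Z => R X Y (D.J c Z))

section

variable {D : QV n V} {R : V →ₗ[ℝ] V →ₗ[ℝ] Module.End ℝ V}

lemma IsQCurv.rot (h : IsQCurv D R) : IsQCurv D.rot R where
  swap := h.swap
  skew := h.skew
  first := h.first
  comm := by
    have key : ∀ X Y a, ∃ c : Fin 3 → ℝ, ∀ Z, R X Y (D.J a Z) - D.J a (R X Y Z) =
        ∑ b, c b • D.rot.J b Z := by
      intro X Y a
      obtain ⟨c, hc⟩ := h.comm X Y a
      refine ⟨![c 1, c 2, c 0], fun Z => ?_⟩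
      rw [hc]
      simp only [Fin.sum_univ_three, QV.rot_J0, QV.rot_J1, QV.rot_J2]
      simp only [Matrix.cons_val_zero, Matrix.cons_val_one, Matrix.cons_val]
      abel
    intro X Y a
    fin_cases a
    · exact key X Y 1
    · exact key X Y 2
    · exact key X Y 0

lemma f_add_left (c : Fin 3) (X X' Y : V) : f D R c (X + X') Y = f D R c X Y + f D R c X' Y := by
  simp [f, QV.tr, Finset.sum_add_distrib, mul_add]

lemma f_smul_left (c : Fin 3) (r : ℝ) (X Y : V) : f D R c (r • X) Y = r * f D R c X Y := by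
  simp only [f, QV.tr, map_smul, LinearMap.smul_apply, smul_eq_mul, ← Finset.mul_sum]
  ring

lemma f_neg_left (c : Fin 3) (X Y : V) : f D R c (-X) Y = -f D R c X Y := by
  have := f_smul_left (D := D) (R := R) c (-1) X Y
  simpa using this

lemma f_swap (h : IsCurv D R) (c : Fin 3) (X Y : V) : f D R c X Y = -f D R c Y X := by
  simp only [f, QV.tr]
  rw [h.swap X Y]
  simp

lemma Ric_symm (h : IsCurv D R) (Y Z : V) : Ric D R Y Z = Ric D R Z Y := by
  unfold Ric QV.tr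
  exact Finset.sum_congr rfl fun _ _ => h.pair _ _ _ _

lemma tr_RJ (hn : n ≠ 0) (c : Fin 3) (X Y : V) :
    D.tr (fun Z => R X Y (D.J c Z)) = -(n : ℝ) * f D R c X Y := by
  have : (n : ℝ) ≠ 0 := Nat.cast_ne_zero.2 hn
  rw [f]; field_simp

/-- `[R X Y, J 0] = 2 f₂ J 1 - 2 f₁ J 2`. -/
lemma comm0 (h : IsQCurv D R) (hn : n ≠ 0) (X Y Z : V) :
    R X Y (D.J 0 Z) - D.J 0 (R X Y Z) =
      (2 * f D R 2 X Y) • D.J 1 Z - (2 * f D R 1 X Y) • D.J 2 Z := by
  obtain ⟨c, hc⟩ := h.comm X Y 0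
  have hn' : (n : ℝ) ≠ 0 := Nat.cast_ne_zero.2 hn
  -- traces against `J b`
  have T : ∀ b : Fin 3, D.tr (fun Z => R X Y (D.J 0 (D.J b Z))) -
      D.tr (fun Z => R X Y (D.J b (D.J 0 Z))) =
      c 0 * D.tr (fun Z => D.J 0 (D.J b Z)) + c 1 * D.tr (fun Z => D.J 1 (D.J b Z)) +
        c 2 * D.tr (fun Z => D.J 2 (D.J b Z)) := by
    intro b
    have e1 : (fun Z => R X Y (D.J 0 (D.J b Z)) - D.J 0 (R X Y (D.J b Z))) =
        fun Z => c 0 • D.J 0 (D.J b Z) + c 1 • D.J 1 (D.J b Z) + c 2 • D.J 2 (D.J b Z) := by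
      funext Z
      rw [hc, Fin.sum_univ_three]
    have e2 := congrArg D.tr e1
    rw [D.tr_sub, D.tr_add, D.tr_add, D.tr_smul, D.tr_smul, D.tr_smul] at e2
    have e3 : D.tr (fun Z => D.J 0 (R X Y (D.J b Z))) =
        D.tr (fun Z => R X Y (D.J b (D.J 0 Z))) :=
      D.tr_comm (D.J 0) ((R X Y).comp (D.J b))
    rw [e3] at e2
    exact e2
  have T0 := T 0
  have T1 := T 1
  have T2 := T 2
  simp only [D.sq, D.mul01, D.mul10, D.mul12, D.mul21, D.mul20, D.mul02, D.tr_neg, D.tr_J,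
    D.tr_id, map_neg, tr_RJ hn] at T0 T1 T2
  have c0 : c 0 = 0 := by
    have : c 0 * (n : ℝ) = 0 := by linarith
    rcases mul_eq_zero.1 this with h | h
    · exact h
    · exact absurd h hn'
  have c1 : c 1 = 2 * f D R 2 X Y := by
    have : (n : ℝ) * c 1 = n * (2 * f D R 2 X Y) := by linarith
    exact mul_left_cancel₀ hn' this
  have c2 : c 2 = -(2 * f D R 1 X Y) := by
    have : (n : ℝ) * c 2 = n * (-(2 * f D R 1 X Y)) := by linarith
    exact mul_left_cancel₀ hn' this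
  rw [hc, Fin.sum_univ_three, c0, c1, c2, zero_smul, zero_add, neg_smul, sub_eq_add_neg]

lemma f_rot0 (X Y : V) : f D.rot R 0 X Y = f D R 1 X Y := rfl
lemma f_rot1 (X Y : V) : f D.rot R 1 X Y = f D R 2 X Y := rfl
lemma f_rot2 (X Y : V) : f D.rot R 2 X Y = f D R 0 X Y := rfl

lemma comm1 (h : IsQCurv D R) (hn : n ≠ 0) (X Y Z : V) :
    R X Y (D.J 1 Z) - D.J 1 (R X Y Z) =
      (2 * f D R 0 X Y) • D.J 2 Z - (2 * f D R 2 X Y) • D.J 0 Z :=
  comm0 h.rot hn X Y Z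

lemma comm2 (h : IsQCurv D R) (hn : n ≠ 0) (X Y Z : V) :
    R X Y (D.J 2 Z) - D.J 2 (R X Y Z) =
      (2 * f D R 1 X Y) • D.J 0 Z - (2 * f D R 0 X Y) • D.J 1 Z :=
  comm0 h.rot.rot hn X Y Z

/-- `-n f₀(X,Y) = 2 Ric(Y, J₀X) - 4 f₂(J₁X,Y) + 4 f₁(J₂X,Y)`. -/
lemma ricf0 (h : IsQCurv D R) (hn : n ≠ 0) (X Y : V) :
    -(n : ℝ) * f D R 0 X Y =
      2 * Ric D R Y (D.J 0 X) - 4 * f D R 2 (D.J 1 X) Y + 4 * f D R 1 (D.J 2 X) Y := by
  have h1 : -(n : ℝ) * f D R 0 X Y = ∑ a, D.B (R (D.ξ a) (D.J 0 (D.ξ a)) Y) X := by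
    rw [← tr_RJ hn]
    exact Finset.sum_congr rfl fun a _ => h.pair _ _ _ _
  -- first Bianchi
  have h2 : ∑ a, D.B (R (D.ξ a) (D.J 0 (D.ξ a)) Y) X =
      -∑ a, D.B (R (D.J 0 (D.ξ a)) Y (D.ξ a)) X + ∑ a, D.B (R (D.ξ a) Y (D.J 0 (D.ξ a))) X := by
    rw [← Finset.sum_neg_distrib, ← Finset.sum_add_distrib]
    refine Finset.sum_congr rfl fun a _ => ?_
    have e := congrArg (fun v => D.B v X) (h.first (D.ξ a) (D.J 0 (D.ξ a)) Y)
    have e2 : D.B (R Y (D.ξ a) (D.J 0 (D.ξ a))) X = -D.B (R (D.ξ a) Y (D.J 0 (D.ξ a))) X := by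
      rw [h.swap]; simp
    simp only [map_add, LinearMap.add_apply, map_zero, LinearMap.zero_apply] at e
    linarith
  have h3 : ∑ a, D.B (R (D.J 0 (D.ξ a)) Y (D.ξ a)) X =
      -∑ a, D.B (R (D.ξ a) Y (D.J 0 (D.ξ a))) X := by
    have := D.frame_J 0 (W := ℝ) (LinearMap.mk₂ ℝ (fun P Q => D.B (R P Y Q) X)
      (by intro a b c; simp) (by intro c a b; simp) (by intro a b c; simp)
      (by intro c a b; simp))
    simpa using this
  have h4 : ∀ a, D.B (R (D.ξ a) Y (D.J 0 (D.ξ a))) X =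
      D.B (R (D.ξ a) Y (D.J 0 X)) (D.ξ a) +
      (2 * f D R 2 (D.ξ a) Y) * D.B (D.J 1 (D.ξ a)) X -
        (2 * f D R 1 (D.ξ a) Y) * D.B (D.J 2 (D.ξ a)) X := by
    intro a
    have e := comm0 h hn (D.ξ a) Y (D.ξ a)
    have e1 : R (D.ξ a) Y (D.J 0 (D.ξ a)) = D.J 0 (R (D.ξ a) Y (D.ξ a)) +
        ((2 * f D R 2 (D.ξ a) Y) • D.J 1 (D.ξ a) - (2 * f D R 1 (D.ξ a) Y) • D.J 2 (D.ξ a)) := by
      rw [← e]; abel
    rw [e1]
    simp only [map_add, map_sub, map_smul, LinearMap.add_apply, LinearMap.sub_apply,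
      LinearMap.smul_apply, smul_eq_mul]
    rw [D.skew 0, h.skew (D.ξ a) Y (D.ξ a) (D.J 0 X)]
    ring
  have h5 : ∀ (b c : Fin 3), ∑ a, (2 * f D R b (D.ξ a) Y) * D.B (D.J c (D.ξ a)) X =
      -(2 * f D R b (D.J c X) Y) := by
    intro b c
    have e := D.frame_contract (φ := { toFun := fun P => f D R b P Y
                                       map_add' := fun P Q => f_add_left b P Q Y
                                       map_smul' := fun r P => f_smul_left b r P Y }) (D.J c X)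
    simp only [LinearMap.coe_mk, AddHom.coe_mk] at e
    rw [← e, Finset.mul_sum, ← Finset.sum_neg_distrib]
    refine Finset.sum_congr rfl fun a _ => ?_
    rw [D.skew, D.symm (D.ξ a)]
    ring
  have h6 : ∑ a, D.B (R (D.ξ a) Y (D.J 0 (D.ξ a))) X = Ric D R Y (D.J 0 X) -
      2 * f D R 2 (D.J 1 X) Y + 2 * f D R 1 (D.J 2 X) Y := by
    simp only [h4]
    rw [Finset.sum_sub_distrib, Finset.sum_add_distrib, h5, h5]
    simp only [Ric, QV.tr]
    ring
  rw [h1, h2, h3, h6]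
  ring

/-- `2 Ric(X,Y) = n p₀ + 4 p₁ + 4 p₂`, `p_c (X,Y) = f_c (J_c X, Y)`. -/
lemma ricp0 (h : IsQCurv D R) (hn : n ≠ 0) (X Y : V) :
    2 * Ric D R X Y = (n : ℝ) * f D R 0 (D.J 0 X) Y + 4 * f D R 1 (D.J 1 X) Y +
      4 * f D R 2 (D.J 2 X) Y := by
  have h1 := ricf0 h hn (D.J 0 X) Y
  have h2 : Ric D R Y (-X) = -Ric D R Y X := by simp [Ric, QV.tr]
  rw [D.sq, D.mul10, D.mul20, h2, f_neg_left, Ric_symm h.toIsCurv Y X] at h1
  linarith

lemma Ric_rot (X Y : V) : Ric D.rot R X Y = Ric D R X Y := rfl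

lemma ricp1 (h : IsQCurv D R) (hn : n ≠ 0) (X Y : V) :
    2 * Ric D R X Y = (n : ℝ) * f D R 1 (D.J 1 X) Y + 4 * f D R 2 (D.J 2 X) Y +
      4 * f D R 0 (D.J 0 X) Y := ricp0 h.rot hn X Y

lemma ricp2 (h : IsQCurv D R) (hn : n ≠ 0) (X Y : V) :
    2 * Ric D R X Y = (n : ℝ) * f D R 2 (D.J 2 X) Y + 4 * f D R 0 (D.J 0 X) Y +
      4 * f D R 1 (D.J 1 X) Y := ricp0 h.rot.rot hn X Y

/-- for `n = 4 m`, `m ≥ 2`, the three forms `f_c (J_c X, Y)` agree: `Ric = 2 (m + 2) p`. -/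
lemma p_eq {m : ℕ} (hm : 2 ≤ m) (hnm : n = 4 * m) (h : IsQCurv D R) (c : Fin 3) (X Y : V) :
    f D R c (D.J c X) Y = Ric D R X Y / (2 * (m + 2)) := by
  have hn : n ≠ 0 := by omega
  have h0 := ricp0 h hn X Y
  have h1 := ricp1 h hn X Y
  have h2 := ricp2 h hn X Y
  have hm' : (2 : ℝ) ≤ m := by exact_mod_cast hm
  have hnr : (n : ℝ) = 4 * m := by rw [hnm]; push_cast; ring
  rw [hnr] at h0 h1 h2
  have e01 : f D R 0 (D.J 0 X) Y = f D R 1 (D.J 1 X) Y := by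
    have : (4 * (m : ℝ) - 4) * (f D R 0 (D.J 0 X) Y - f D R 1 (D.J 1 X) Y) = 0 := by linarith
    rcases mul_eq_zero.1 this with h | h
    · linarith
    · linarith
  have e12 : f D R 1 (D.J 1 X) Y = f D R 2 (D.J 2 X) Y := by
    have : (4 * (m : ℝ) - 4) * (f D R 1 (D.J 1 X) Y - f D R 2 (D.J 2 X) Y) = 0 := by linarith
    rcases mul_eq_zero.1 this with h | h
    · linarith
    · linarith
  have hpos : (2 * ((m : ℝ) + 2)) ≠ 0 := by positivity
  have key : f D R 0 (D.J 0 X) Y = Ric D R X Y / (2 * (m + 2)) := by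
    rw [eq_div_iff hpos]
    rw [← e12, ← e01] at h0
    linarith
  fin_cases c
  · exact key
  · change f D R 1 (D.J 1 X) Y = _
    rw [← e01]; exact key
  · change f D R 2 (D.J 2 X) Y = _
    rw [← e12, ← e01]; exact key

lemma f_eq_Ric {m : ℕ} (hm : 2 ≤ m) (hnm : n = 4 * m) (h : IsQCurv D R) (c : Fin 3) (X Y : V) :
    f D R c X Y = -(Ric D R (D.J c X) Y / (2 * (m + 2))) := by
  have := p_eq hm hnm h c (D.J c X) Y
  rw [D.sq, f_neg_left] at this
  linarith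

/-- the Ricci form commutes with the `J c`. -/
lemma Ric_J {m : ℕ} (hm : 2 ≤ m) (hnm : n = 4 * m) (h : IsQCurv D R) (c : Fin 3) (X Y : V) :
    Ric D R (D.J c X) Y = -Ric D R X (D.J c Y) := by
  have h1 := f_eq_Ric hm hnm h c X Y
  have h2 := f_eq_Ric hm hnm h c Y X
  have h3 := f_swap h.toIsCurv c X Y
  have hpos : (2 * ((m : ℝ) + 2)) ≠ 0 := by positivity
  rw [h1, h2, Ric_symm h.toIsCurv (D.J c Y) X] at h3
  have : Ric D R (D.J c X) Y / (2 * (m + 2)) = (-Ric D R X (D.J c Y)) / (2 * (m + 2)) := by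
    rw [neg_div]; linarith
  field_simp at this
  linarith

lemma Ric_add_left (X X' Y : V) : Ric D R (X + X') Y = Ric D R X Y + Ric D R X' Y := by
  simp [Ric, QV.tr, Finset.sum_add_distrib]

lemma Ric_smul_left (r : ℝ) (X Y : V) : Ric D R (r • X) Y = r * Ric D R X Y := by
  simp [Ric, QV.tr, Finset.mul_sum]

lemma Ric_add_right (X Y Y' : V) : Ric D R X (Y + Y') = Ric D R X Y + Ric D R X Y' := by
  simp [Ric, QV.tr, Finset.sum_add_distrib]

lemma Ric_smul_right (r : ℝ) (X Y : V) : Ric D R X (r • Y) = r * Ric D R X Y := by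
  simp [Ric, QV.tr, Finset.mul_sum]

/-- Ricci as an endomorphism -/
def RicE (D : QV n V) (R : V →ₗ[ℝ] V →ₗ[ℝ] Module.End ℝ V) : Module.End ℝ V where
  toFun X := ∑ a, Ric D R X (D.ξ a) • D.ξ a
  map_add' X Y := by simp only [Ric_add_left, add_smul, Finset.sum_add_distrib]
  map_smul' r X := by simp only [Ric_smul_left, mul_smul, Finset.smul_sum, RingHom.id_apply]

lemma B_RicE (X Y : V) : D.B (RicE D R X) Y = Ric D R X Y := by
  have e := D.frame_contract (φ := { toFun := fun P => Ric D R X P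
                                     map_add' := fun P Q => Ric_add_right X P Q
                                     map_smul' := fun r P => Ric_smul_right r X P }) Y
  simp only [LinearMap.coe_mk, AddHom.coe_mk] at e
  rw [← e]
  simp only [RicE, LinearMap.coe_mk, AddHom.coe_mk, map_sum, map_smul, LinearMap.sum_apply,
    LinearMap.smul_apply, smul_eq_mul]
  exact Finset.sum_congr rfl fun a _ => by rw [D.symm Y]

/-- **Einstein**: a curvature tensor of quaternionic type in dimension `4 m ≥ 8` is Einstein. -/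
theorem Ric_eq {m : ℕ} (hm : 2 ≤ m) (hnm : n = 4 * m) (h : IsQCurv D R) :
    ∃ γ : ℝ, ∀ X Y, Ric D R X Y = γ * D.B X Y := by
  have hn : n ≠ 0 := by omega
  have hnr : (n : ℝ) = 4 * m := by rw [hnm]; push_cast; ring
  have hm' : (2 : ℝ) ≤ m := by exact_mod_cast hm
  set κ : ℝ := (n : ℝ) / (2 * (m + 2)) with hκ
  have hκ0 : κ ≠ 0 := by rw [hκ]; positivity
  -- `T = Σ R(ξ_a, J₀ ξ_a) = -κ Ric ∘ J₀`
  have hT : ∀ Y, ∑ a, R (D.ξ a) (D.J 0 (D.ξ a)) Y = -(κ • RicE D R (D.J 0 Y)) := by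
    intro Y
    refine D.ext fun X => ?_
    have h1 : -(n : ℝ) * f D R 0 X Y = ∑ a, D.B (R (D.ξ a) (D.J 0 (D.ξ a)) Y) X := by
      rw [← tr_RJ hn]
      exact Finset.sum_congr rfl fun a _ => h.pair _ _ _ _
    rw [map_sum, LinearMap.sum_apply, ← h1, f_eq_Ric hm hnm h]
    simp only [map_neg, map_smul, LinearMap.neg_apply, LinearMap.smul_apply, smul_eq_mul,
      B_RicE]
    rw [Ric_J hm hnm h, Ric_symm h.toIsCurv X, hκ]
    ring
  -- its commutator with `J 1`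
  have hRJ : ∀ c Y, RicE D R (D.J c Y) = D.J c (RicE D R Y) := by
    intro c Y
    refine D.ext fun X => ?_
    rw [B_RicE, D.skew, B_RicE, Ric_J hm hnm h]
  choose c hc using h.comm
  have hcomm : ∀ Y, ∑ a, R (D.ξ a) (D.J 0 (D.ξ a)) (D.J 1 Y) -
      D.J 1 (∑ a, R (D.ξ a) (D.J 0 (D.ξ a)) Y) =
      ∑ b, (∑ a, c (D.ξ a) (D.J 0 (D.ξ a)) 1 b) • D.J b Y := by
    intro Y
    rw [map_sum, ← Finset.sum_sub_distrib]
    simp only [hc, Finset.sum_smul]
    rw [Finset.sum_comm]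
  set s : Fin 3 → ℝ := fun b => ∑ a, c (D.ξ a) (D.J 0 (D.ξ a)) 1 b with hs
  -- `-2κ Ric J₂ = Σ s_b J_b`
  have h2 : ∀ Y, -(κ • RicE D R (D.J 2 Y)) - κ • RicE D R (D.J 2 Y) = ∑ b, s b • D.J b Y := by
    intro Y
    rw [← hcomm, hT, hT, D.mul01, map_neg, map_smul, ← hRJ, D.mul10, map_neg]
    simp
  have h3 : ∀ X, Ric D R X X = s 2 / (2 * κ) * -1 * D.B X X := by
    intro X
    have e := congrArg (fun v => D.B v (D.J 2 X)) (h2 X)
    simp only [Fin.sum_univ_three, map_add, map_sub, map_neg, map_smul, LinearMap.add_apply,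
      LinearMap.sub_apply, LinearMap.neg_apply, LinearMap.smul_apply, smul_eq_mul, B_RicE,
      D.B_J_J] at e
    have e0 : D.B (D.J 0 X) (D.J 2 X) = 0 := by
      rw [D.skew, D.mul02, map_neg, neg_neg, D.symm, D.B_J_self]
    have e1 : D.B (D.J 1 X) (D.J 2 X) = 0 := by
      rw [D.skew, D.mul12, D.symm, D.B_J_self, neg_zero]
    have e2 : Ric D R (D.J 2 X) (D.J 2 X) = Ric D R X X := by
      rw [Ric_J hm hnm h, D.sq]
      have : Ric D R X (-X) = -Ric D R X X := by simp [Ric, QV.tr]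
      rw [this, neg_neg]
    rw [e0, e1, e2] at e
    field_simp
    linarith
  refine ⟨s 2 / (2 * κ) * -1, fun X Y => ?_⟩
  have e := h3 (X + Y)
  have eX := h3 X
  have eY := h3 Y
  rw [Ric_add_left, Ric_add_right, Ric_add_right, Ric_symm h.toIsCurv Y X] at e
  simp only [map_add, LinearMap.add_apply] at e
  rw [D.symm Y X] at e
  nlinarith

/-- the scalar curvature -/
def scal (D : QV n V) (R : V →ₗ[ℝ] V →ₗ[ℝ] Module.End ℝ V) : ℝ := ∑ b, Ric D R (D.ξ b) (D.ξ b)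

/-- the normalised scalar curvature `ν`, `scal = 4 m (m+2) ν`. -/
def nu (m : ℕ) (D : QV n V) (R : V →ₗ[ℝ] V →ₗ[ℝ] Module.End ℝ V) : ℝ :=
  scal D R / (4 * m * (m + 2))

theorem einstein {m : ℕ} (hm : 2 ≤ m) (hnm : n = 4 * m) (h : IsQCurv D R) (X Y : V) :
    Ric D R X Y = (m + 2) * nu m D R * D.B X Y := by
  obtain ⟨γ, hγ⟩ := Ric_eq hm hnm h
  have hm' : (2 : ℝ) ≤ m := by exact_mod_cast hm
  have h1 : scal D R = 4 * m * γ := by
    rw [scal]
    simp only [hγ, D.orth, if_true, mul_one, Finset.sum_const, Finset.card_univ, Fintype.card_fin,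
      nsmul_eq_mul]
    rw [hnm]; push_cast; ring
  rw [hγ, nu, h1]
  field_simp

theorem f_eq {m : ℕ} (hm : 2 ≤ m) (hnm : n = 4 * m) (h : IsQCurv D R) (c : Fin 3) (X Y : V) :
    f D R c X Y = -(nu m D R / 2) * D.B (D.J c X) Y := by
  rw [f_eq_Ric hm hnm h, einstein hm hnm h]
  have : (0 : ℝ) < m + 2 := by positivity
  field_simp

end

end Crest.Agent.R260.Qk1_151
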