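import Crest.Agent.R260.Qk1_151

/-!
# Row 260, QK-LOC file 2 (helper151): the model curvature `R0` and the decomposition `R = ν R0 + W`

`R0 D X Y Z = ¼ (B Y Z • X - B X Z • Y + Σ_a (B (J a Y) Z • J a X - B (J a X) Z • J a Y
  - 2 B (J a X) Y • J a Z))`; `isQCurv_R0`, `Ric_R0`; `W = R - ν R0` is a curvature tensor,
commutes with all `J a` (`W_comm`) and is Ricci flat (`Ric_W`).
-/

set_option autoImplicit false
set_option linter.unusedSimpArgs false

noncomputable section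

namespace Crest.Agent.R260.Qk2_151

open Crest.Agent.R260.Qk1_151

variable {n : ℕ} {V : Type*} [AddCommGroup V] [Module ℝ V]

/-- the underlying endomorphism of the model curvature -/
def R0E (D : QV n V) (X Y : V) : Module.End ℝ V :=
  (1 / 4 : ℝ) • ((D.B Y).smulRight X - (D.B X).smulRight Y +
    ∑ a, ((D.B (D.J a Y)).smulRight (D.J a X) - (D.B (D.J a X)).smulRight (D.J a Y)
      - (2 * D.B (D.J a X) Y) • D.J a))

lemma R0E_apply (D : QV n V) (X Y Z : V) : R0E D X Y Z =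
    (1 / 4 : ℝ) • (D.B Y Z • X - D.B X Z • Y +
      ∑ a, (D.B (D.J a Y) Z • D.J a X - D.B (D.J a X) Z • D.J a Y
        - (2 * D.B (D.J a X) Y) • D.J a Z)) := by
  simp [R0E, LinearMap.sum_apply]

/-- the model curvature -/
def R0 (D : QV n V) : V →ₗ[ℝ] V →ₗ[ℝ] Module.End ℝ V :=
  LinearMap.mk₂ ℝ (R0E D)
    (by
      intro X X' Y
      refine LinearMap.ext fun Z => ?_
      simp only [R0E_apply, LinearMap.add_apply, map_add, Fin.sum_univ_three, add_smul]
      module)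
    (by
      intro c X Y
      refine LinearMap.ext fun Z => ?_
      simp only [R0E_apply, LinearMap.smul_apply, map_smul, Fin.sum_univ_three, smul_eq_mul]
      module)
    (by
      intro X Y Y'
      refine LinearMap.ext fun Z => ?_
      simp only [R0E_apply, LinearMap.add_apply, map_add, Fin.sum_univ_three, add_smul]
      module)
    (by
      intro c X Y
      refine LinearMap.ext fun Z => ?_
      simp only [R0E_apply, LinearMap.smul_apply, map_smul, Fin.sum_univ_three, smul_eq_mul]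
      module)

lemma R0_apply (D : QV n V) (X Y Z : V) : R0 D X Y Z =
    (1 / 4 : ℝ) • (D.B Y Z • X - D.B X Z • Y +
      ∑ a, (D.B (D.J a Y) Z • D.J a X - D.B (D.J a X) Z • D.J a Y
        - (2 * D.B (D.J a X) Y) • D.J a Z)) := R0E_apply D X Y Z

section

variable (D : QV n V)

/-- `B (J a X) Y` is antisymmetric. -/
lemma B_J_swap (a : Fin 3) (X Y : V) : D.B (D.J a X) Y = -D.B (D.J a Y) X := by
  rw [D.skew, D.symm X]

theorem isCurv_R0 : IsCurv D (R0 D) where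
  swap X Y := by
    refine LinearMap.ext fun Z => ?_
    rw [LinearMap.neg_apply, R0_apply, R0_apply]
    simp only [Fin.sum_univ_three]
    rw [B_J_swap D 0 X Y, B_J_swap D 1 X Y, B_J_swap D 2 X Y]
    module
  skew X Y Z W := by
    rw [R0_apply, R0_apply]
    simp only [Fin.sum_univ_three, map_smul, map_add, map_sub, LinearMap.smul_apply,
      LinearMap.add_apply, LinearMap.sub_apply, smul_eq_mul]
    rw [B_J_swap D 0 Z W, B_J_swap D 1 Z W, B_J_swap D 2 Z W]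
    ring
  first X Y Z := by
    rw [R0_apply, R0_apply, R0_apply]
    simp only [Fin.sum_univ_three]
    rw [D.symm Z X, D.symm Z Y, D.symm Y X, B_J_swap D 0 Z X, B_J_swap D 1 Z X,
      B_J_swap D 2 Z X, B_J_swap D 0 Z Y, B_J_swap D 1 Z Y,
      B_J_swap D 2 Z Y, B_J_swap D 0 Y X, B_J_swap D 1 Y X,
      B_J_swap D 2 Y X]
    module

lemma R0_comm0 (X Y Z : V) : R0 D X Y (D.J 0 Z) - D.J 0 (R0 D X Y Z) =
    D.B (D.J 1 X) Y • D.J 2 Z - D.B (D.J 2 X) Y • D.J 1 Z := by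
  rw [R0_apply, R0_apply]
  simp only [Fin.sum_univ_three, map_smul, map_add, map_sub, D.sq, D.mul01, D.mul10, D.mul12,
    D.mul21, D.mul20, D.mul02]
  have e0 : ∀ P Q, D.B P (D.J 0 Q) = - D.B (D.J 0 P) Q := by
    intro P Q; rw [D.skew, neg_neg]
  simp only [e0, D.sq, D.mul01, D.mul10, D.mul12, D.mul21, D.mul20, D.mul02, map_neg,
    LinearMap.neg_apply]
  module

lemma R0_rot (X Y Z : V) : R0 D.rot X Y Z = R0 D X Y Z := by
  rw [R0_apply, R0_apply]
  simp only [Fin.sum_univ_three, QV.rot_J0, QV.rot_J1, QV.rot_J2]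
  change (1 / 4 : ℝ) • (D.B Y Z • X - D.B X Z • Y + _) = _
  change (1 / 4 : ℝ) • (D.B Y Z • X - D.B X Z • Y +
    ((D.B (D.J 1 Y) Z • D.J 1 X - D.B (D.J 1 X) Z • D.J 1 Y - (2 * D.B (D.J 1 X) Y) • D.J 1 Z) +
    (D.B (D.J 2 Y) Z • D.J 2 X - D.B (D.J 2 X) Z • D.J 2 Y - (2 * D.B (D.J 2 X) Y) • D.J 2 Z) +
    (D.B (D.J 0 Y) Z • D.J 0 X - D.B (D.J 0 X) Z • D.J 0 Y - (2 * D.B (D.J 0 X) Y) • D.J 0 Z))) = _
  module

lemma R0_comm1 (X Y Z : V) : R0 D X Y (D.J 1 Z) - D.J 1 (R0 D X Y Z) =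
    D.B (D.J 2 X) Y • D.J 0 Z - D.B (D.J 0 X) Y • D.J 2 Z := by
  have h := R0_comm0 D.rot X Y Z
  rw [R0_rot, R0_rot] at h
  exact h

lemma R0_comm2 (X Y Z : V) : R0 D X Y (D.J 2 Z) - D.J 2 (R0 D X Y Z) =
    D.B (D.J 0 X) Y • D.J 1 Z - D.B (D.J 1 X) Y • D.J 0 Z := by
  have h := R0_comm1 D.rot X Y Z
  rw [R0_rot, R0_rot] at h
  exact h

theorem isQCurv_R0 : IsQCurv D (R0 D) where
  toIsCurv := isCurv_R0 D
  comm := by
    intro X Y a
    fin_cases a
    · refine ⟨![0, -D.B (D.J 2 X) Y, D.B (D.J 1 X) Y], fun Z => ?_⟩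
      refine (R0_comm0 D X Y Z).trans ?_
      simp only [Fin.sum_univ_three, Matrix.cons_val_zero, Matrix.cons_val_one, Matrix.cons_val]
      module
    · refine ⟨![D.B (D.J 2 X) Y, 0, -D.B (D.J 0 X) Y], fun Z => ?_⟩
      refine (R0_comm1 D X Y Z).trans ?_
      simp only [Fin.sum_univ_three, Matrix.cons_val_zero, Matrix.cons_val_one, Matrix.cons_val]
      module
    · refine ⟨![-D.B (D.J 1 X) Y, D.B (D.J 0 X) Y, 0], fun Z => ?_⟩
      refine (R0_comm2 D X Y Z).trans ?_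
      simp only [Fin.sum_univ_three, Matrix.cons_val_zero, Matrix.cons_val_one, Matrix.cons_val]
      module

/-- `Ric(R0) = (n + 8)/4 B`. -/
lemma Ric_R0 (Y Z : V) : Ric D (R0 D) Y Z = ((n : ℝ) + 8) / 4 * D.B Y Z := by
  have c1 : ∀ P Q, ∑ a, D.B (D.ξ a) P * D.B Q (D.ξ a) = D.B P Q := by
    intro P Q
    rw [D.symm P Q, D.parseval Q P]
    exact Finset.sum_congr rfl fun a _ => by rw [D.symm P]; ring
  have c2 : ∀ (c : Fin 3) P Q, ∑ a, D.B (D.J c (D.ξ a)) P * D.B Q (D.ξ a) = -D.B (D.J c P) Q := by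
    intro c P Q
    rw [← c1, ← Finset.sum_neg_distrib]
    exact Finset.sum_congr rfl fun a _ => by rw [D.skew]; ring
  have c3 : ∀ (c : Fin 3), ∑ a, D.B (D.J c (D.ξ a)) (D.ξ a) = 0 := fun c => by
    have := D.tr_J c
    exact this
  have c4 : ∑ a, D.B (D.ξ a) (D.ξ a) = (n : ℝ) := D.tr_id
  have e : ∀ a, D.B (R0 D (D.ξ a) Y Z) (D.ξ a) = (1 / 4 : ℝ) * (D.B Y Z * D.B (D.ξ a) (D.ξ a) -
      D.B (D.ξ a) Z * D.B Y (D.ξ a) +
      ∑ c, (D.B (D.J c Y) Z * D.B (D.J c (D.ξ a)) (D.ξ a) -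
        D.B (D.J c (D.ξ a)) Z * D.B (D.J c Y) (D.ξ a) -
        2 * (D.B (D.J c (D.ξ a)) Y * D.B (D.J c Z) (D.ξ a)))) := by
    intro a
    rw [R0_apply]
    simp only [Fin.sum_univ_three, map_smul, map_add, map_sub, LinearMap.smul_apply,
      LinearMap.add_apply, LinearMap.sub_apply, smul_eq_mul]
    ring
  unfold Ric QV.tr
  simp only [e]
  rw [← Finset.mul_sum, Finset.sum_add_distrib, Finset.sum_sub_distrib, ← Finset.mul_sum, c4, c1,
    Finset.sum_comm]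
  have e2 : ∀ c : Fin 3, ∑ a, (D.B (D.J c Y) Z * D.B (D.J c (D.ξ a)) (D.ξ a) -
        D.B (D.J c (D.ξ a)) Z * D.B (D.J c Y) (D.ξ a) -
        2 * (D.B (D.J c (D.ξ a)) Y * D.B (D.J c Z) (D.ξ a))) = 3 * D.B Y Z := by
    intro c
    rw [Finset.sum_sub_distrib, Finset.sum_sub_distrib, ← Finset.mul_sum, c3, c2, ← Finset.mul_sum,
      c2, D.B_J_J, D.B_J_J, D.symm Z Y]
    ring
  simp only [e2, Finset.sum_const, Finset.card_univ, Fintype.card_fin, nsmul_eq_mul]
  rw [D.symm Z Y]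
  push_cast
  ring

/-- the Weyl part -/
def Wp (m : ℕ) (R : V →ₗ[ℝ] V →ₗ[ℝ] Module.End ℝ V) : V →ₗ[ℝ] V →ₗ[ℝ] Module.End ℝ V :=
  R - nu m D R • R0 D

lemma Wp_apply (m : ℕ) (R : V →ₗ[ℝ] V →ₗ[ℝ] Module.End ℝ V) (X Y Z : V) :
    Wp D m R X Y Z = R X Y Z - nu m D R • R0 D X Y Z := rfl

variable {D} {R : V →ₗ[ℝ] V →ₗ[ℝ] Module.End ℝ V}

/-- the Weyl part commutes with the triple. -/
theorem Wp_comm {m : ℕ} (hm : 2 ≤ m) (hnm : n = 4 * m) (h : IsQCurv D R) (a : Fin 3) (X Y Z : V) :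
    Wp D m R X Y (D.J a Z) = D.J a (Wp D m R X Y Z) := by
  have hn : n ≠ 0 := by omega
  have key : R X Y (D.J a Z) - D.J a (R X Y Z) =
      nu m D R • (R0 D X Y (D.J a Z) - D.J a (R0 D X Y Z)) := by
    fin_cases a
    · refine (comm0 h hn X Y Z).trans (Eq.trans ?_ (congrArg _ (R0_comm0 D X Y Z)).symm)
      rw [f_eq hm hnm h, f_eq hm hnm h]
      module
    · refine (comm1 h hn X Y Z).trans (Eq.trans ?_ (congrArg _ (R0_comm1 D X Y Z)).symm)
      rw [f_eq hm hnm h, f_eq hm hnm h]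
      module
    · refine (comm2 h hn X Y Z).trans (Eq.trans ?_ (congrArg _ (R0_comm2 D X Y Z)).symm)
      rw [f_eq hm hnm h, f_eq hm hnm h]
      module
  rw [Wp_apply, Wp_apply, map_sub, map_smul, ← sub_eq_zero]
  rw [smul_sub] at key
  have : R X Y (D.J a Z) = D.J a (R X Y Z) +
      (nu m D R • R0 D X Y (D.J a Z) - nu m D R • D.J a (R0 D X Y Z)) := by
    rw [← key]; abel
  rw [this]
  abel

theorem isCurv_Wp (m : ℕ) (h : IsCurv D R) : IsCurv D (Wp D m R) where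
  swap X Y := by
    refine LinearMap.ext fun Z => ?_
    rw [LinearMap.neg_apply, Wp_apply, Wp_apply, h.swap X Y, (isCurv_R0 D).swap X Y]
    simp only [LinearMap.neg_apply]
    module
  skew X Y Z W := by
    have h1 := h.skew X Y Z W
    have h2 := (isCurv_R0 D).skew X Y Z W
    simp only [Wp_apply, map_sub, map_smul, LinearMap.sub_apply, LinearMap.smul_apply,
      smul_eq_mul]
    rw [h1, h2]
    ring
  first X Y Z := by
    have h1 := h.first X Y Z
    have h2 := (isCurv_R0 D).first X Y Z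
    simp only [Wp_apply]
    have : R X Y Z - nu m D R • R0 D X Y Z + (R Y Z X - nu m D R • R0 D Y Z X) +
        (R Z X Y - nu m D R • R0 D Z X Y) = (R X Y Z + R Y Z X + R Z X Y) -
        nu m D R • (R0 D X Y Z + R0 D Y Z X + R0 D Z X Y) := by module
    rw [this, h1, h2, smul_zero, sub_zero]

theorem Ric_Wp {m : ℕ} (hm : 2 ≤ m) (hnm : n = 4 * m) (h : IsQCurv D R) (Y Z : V) :
    Ric D (Wp D m R) Y Z = 0 := by
  have e : Ric D (Wp D m R) Y Z = Ric D R Y Z - nu m D R * Ric D (R0 D) Y Z := by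
    simp only [Ric, QV.tr, Wp_apply, map_sub, map_smul, LinearMap.sub_apply,
      LinearMap.smul_apply, smul_eq_mul, Finset.sum_sub_distrib, Finset.mul_sum]
  have hnr : (n : ℝ) = 4 * m := by rw [hnm]; push_cast; ring
  rw [e, einstein hm hnm h, Ric_R0, hnr]
  ring

end

end Crest.Agent.R260.Qk2_151
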