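import Crest.Agent.R260.Qk2_151
import Crest.Agent.R249.Bia3_104
import Crest.Prelude.Def_ChartRiemQK

/-!
# Row 260, QK-LOC file 3 (helper151): matrix calculus over `Def_ChartRiemQK`

* `mL A` : the endomorphism of `𝔼 = EuclideanSpace ℝ (Fin n)` of a matrix;
* `riemann_eq_curv`, `covDerivRiemann_eq_covR` : the frozen tensors in terms of `curv`, `covR`;
* `pd i A` : entrywise partial derivative of a matrix field, product rule;
* `covEndo_comm` : Ricci identity `[∇_i, ∇_j] J = [R_ij, J]` for endomorphism fields, where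
  `Rm g x i j` is the matrix `l k ↦ riemann g x l i j k`.
-/

set_option autoImplicit false
set_option linter.unusedSimpArgs false

open scoped ContDiff Topology
open Filter Set
open Crest.GeometryTopology.CoordMetric
open Crest.GeometryTopology.ChartRiem
open Crest.Agent.R202.Tens Crest.Agent.R247.Bo84
open Crest.Agent.R249.Bia1_104 Crest.Agent.R249.Bia2_104 Crest.Agent.R249.Bia3_104

noncomputable section

namespace Crest.Agent.R260.Qk3_151

variable {n : ℕ}

local notation "𝔼" => EuclideanSpace ℝ (Fin n)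

variable {g : MetricField n} {U : Set (EuclideanSpace ℝ (Fin n))} {x : EuclideanSpace ℝ (Fin n)}

/-! ### matrices as endomorphisms -/

/-- the endomorphism of a matrix -/
def mL (A : Matrix (Fin n) (Fin n) ℝ) : Module.End ℝ (EuclideanSpace ℝ (Fin n)) where
  toFun X := WithLp.toLp 2 fun i => ∑ k, A i k * X k
  map_add' X Y := by
    ext i
    simp [mul_add, Finset.sum_add_distrib]
  map_smul' c X := by
    ext i
    simp only [PiLp.smul_apply, smul_eq_mul, RingHom.id_apply, Finset.mul_sum]
    exact Finset.sum_congr rfl fun k _ => by ring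

lemma mL_apply (A : Matrix (Fin n) (Fin n) ℝ) (X : 𝔼) (i : Fin n) :
    mL A X i = ∑ k, A i k * X k := rfl

lemma mL_single (A : Matrix (Fin n) (Fin n) ℝ) (i k : Fin n) :
    mL A (EuclideanSpace.single k 1) i = A i k := by
  rw [mL_apply, Finset.sum_eq_single k]
  · simp
  · intro b _ hb; simp [hb]
  · simp

lemma mL_add (A B : Matrix (Fin n) (Fin n) ℝ) : mL (A + B) = mL A + mL B := by
  refine LinearMap.ext fun X => ?_
  ext i
  simp [mL_apply, add_mul, Finset.sum_add_distrib]

lemma mL_sub (A B : Matrix (Fin n) (Fin n) ℝ) : mL (A - B) = mL A - mL B := by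
  refine LinearMap.ext fun X => ?_
  ext i
  simp [mL_apply, sub_mul, Finset.sum_sub_distrib]

lemma mL_neg (A : Matrix (Fin n) (Fin n) ℝ) : mL (-A) = - mL A := by
  refine LinearMap.ext fun X => ?_
  ext i
  simp [mL_apply, Finset.sum_neg_distrib]

lemma mL_smul (c : ℝ) (A : Matrix (Fin n) (Fin n) ℝ) : mL (c • A) = c • mL A := by
  refine LinearMap.ext fun X => ?_
  ext i
  simp [mL_apply, Finset.mul_sum, mul_assoc]

lemma mL_zero : mL (0 : Matrix (Fin n) (Fin n) ℝ) = 0 := by
  refine LinearMap.ext fun X => ?_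
  ext i
  simp [mL_apply]

lemma mL_one : mL (1 : Matrix (Fin n) (Fin n) ℝ) = 1 := by
  refine LinearMap.ext fun X => ?_
  ext i
  simp [mL_apply, Matrix.one_apply]

lemma mL_mul (A B : Matrix (Fin n) (Fin n) ℝ) (X : 𝔼) : mL (A * B) X = mL A (mL B X) := by
  ext i
  rw [mL_apply, mL_apply]
  simp only [mL_apply, Matrix.mul_apply, Finset.sum_mul, Finset.mul_sum]
  rw [Finset.sum_comm]
  exact Finset.sum_congr rfl fun k _ => Finset.sum_congr rfl fun l _ => by ring

lemma mL_sum {ι : Type*} (s : Finset ι) (A : ι → Matrix (Fin n) (Fin n) ℝ) :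
    mL (∑ a ∈ s, A a) = ∑ a ∈ s, mL (A a) := by
  classical
  induction s using Finset.induction_on with
  | empty => simp [mL_zero]
  | insert a s ha ih => rw [Finset.sum_insert ha, Finset.sum_insert ha, mL_add, ih]

lemma mL_injective {A B : Matrix (Fin n) (Fin n) ℝ} (h : mL A = mL B) : A = B := by
  ext i k
  rw [← mL_single A i k, h, mL_single]

lemma tr_mL (A : Matrix (Fin n) (Fin n) ℝ) : trF (fun X => mL A X) = A.trace := by
  rw [trF, Matrix.trace]
  exact Finset.sum_congr rfl fun k _ => mL_single A k k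

/-! ### curvature in coordinates -/

lemma riemann_eq_riemann (g : MetricField n) (x : 𝔼) (l i j k : Fin n) :
    riemann g x l i j k = Crest.GeometryTopology.ChartCurvature.riemann g x l k i j := rfl

theorem riemann_eq_curv (hg : IsRiemannianOn g U) (hx : x ∈ U) (l i j k : Fin n) :
    riemann g x l i j k = curv (Gam g) x (EuclideanSpace.single i 1)
      (EuclideanSpace.single j 1) (EuclideanSpace.single k 1) l := by
  rw [curv_apply (fun k i j => differentiableAt_christoffel hg hx k i j), riemann_eq_riemann]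
  rw [Finset.sum_eq_single k, Finset.sum_eq_single i, Finset.sum_eq_single j]
  · simp
  · intro b _ hb; simp [hb]
  · simp
  · intro b _ hb
    refine Finset.sum_eq_zero fun c _ => ?_
    simp [hb]
  · simp
  · intro b _ hb
    refine Finset.sum_eq_zero fun c _ => Finset.sum_eq_zero fun d _ => ?_
    simp [hb]
  · simp

lemma Gam_single (g : MetricField n) (x : 𝔼) (l i j : Fin n) :
    Gam g x (EuclideanSpace.single i 1) (EuclideanSpace.single j 1) l =
      christoffel g x l i j := by
  rw [Gam_apply, Finset.sum_eq_single i, Finset.sum_eq_single j]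
  · simp
  · intro b _ hb; simp [hb]
  · simp
  · intro b _ hb
    refine Finset.sum_eq_zero fun c _ => ?_
    simp [hb]
  · simp

lemma Gam_single_left (g : MetricField n) (x Y : 𝔼) (l i : Fin n) :
    Gam g x (EuclideanSpace.single i 1) Y l = ∑ p, christoffel g x l i p * Y p := by
  rw [Gam_apply, Finset.sum_eq_single i]
  · refine Finset.sum_congr rfl fun p _ => ?_
    simp
  · intro b _ hb
    refine Finset.sum_eq_zero fun c _ => ?_
    simp [hb]
  · simp

lemma fderiv_coord {F : 𝔼 → 𝔼} (hF : DifferentiableAt ℝ F x) (V : 𝔼) (l : Fin n) :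
    fderiv ℝ F x V l = fderiv ℝ (fun y => F y l) x V := by
  have := ((EuclideanSpace.proj l : 𝔼 →L[ℝ] ℝ).hasFDerivAt.comp x hF.hasFDerivAt).fderiv
  have e : ((EuclideanSpace.proj l : 𝔼 →L[ℝ] ℝ) ∘ F) = fun y => F y l := rfl
  rw [e] at this
  rw [this]
  rfl

theorem covDerivRiemann_eq_covR (hg : IsRiemannianOn g U) (hx : x ∈ U) (m l i j k : Fin n) :
    covDerivRiemann g x m l i j k = covR g x (EuclideanSpace.single m 1)
      (EuclideanSpace.single i 1) (EuclideanSpace.single j 1) (EuclideanSpace.single k 1) l := by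
  rw [covDerivRiemann, covR]
  simp only [PiLp.sub_apply, PiLp.add_apply]
  rw [fderiv_coord (differentiableAt_curv hg hx _ _ _)]
  have e1 : pderiv m (fun y => riemann g y l i j k) x =
      fderiv ℝ (fun y => curv (Gam g) y (EuclideanSpace.single i 1) (EuclideanSpace.single j 1)
        (EuclideanSpace.single k 1) l) x (EuclideanSpace.single m 1) := by
    rw [pderiv]
    have : (fun y => riemann g y l i j k) =ᶠ[𝓝 x] fun y => curv (Gam g) y
        (EuclideanSpace.single i 1) (EuclideanSpace.single j 1) (EuclideanSpace.single k 1) l := by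
      filter_upwards [hg.isOpen.mem_nhds hx] with y hy using riemann_eq_curv hg hy l i j k
    rw [this.fderiv_eq]
  have e2 : Gam g x (EuclideanSpace.single m 1) (curv (Gam g) x (EuclideanSpace.single i 1)
      (EuclideanSpace.single j 1) (EuclideanSpace.single k 1)) l =
      ∑ p, christoffel g x l m p * riemann g x p i j k := by
    rw [Gam_single_left]
    exact Finset.sum_congr rfl fun p _ => by rw [riemann_eq_curv hg hx]
  have hE : ∀ i : Fin n, Gam g x (EuclideanSpace.single m 1) (EuclideanSpace.single i 1) =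
      ∑ p, christoffel g x p m i • EuclideanSpace.single p (1:ℝ) := by
    intro i
    conv_lhs => rw [eq_sum_single (Gam g x (EuclideanSpace.single m 1)
      (EuclideanSpace.single i 1))]
    exact Finset.sum_congr rfl fun p _ => by rw [Gam_single]
  have s1 : ∀ X Y : 𝔼, ∀ c : Fin n → ℝ, curv (Gam g) x (∑ p, c p • EuclideanSpace.single p (1:ℝ)) X Y l =
      ∑ p, c p * curv (Gam g) x (EuclideanSpace.single p (1:ℝ)) X Y l := by
    intro X Y c
    have : ∀ s : Finset (Fin n), curv (Gam g) x (∑ p ∈ s, c p • EuclideanSpace.single p (1:ℝ)) X Y l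
        = ∑ p ∈ s, c p * curv (Gam g) x (EuclideanSpace.single p (1:ℝ)) X Y l := by
      intro s
      induction s using Finset.induction_on with
      | empty =>
        have : curv (Gam g) x 0 X Y = 0 := by simp [curv]
        simp [this]
      | insert a s ha ih =>
        rw [Finset.sum_insert ha, Finset.sum_insert ha, curv_add1, PiLp.add_apply, ih,
          curv_smul1, PiLp.smul_apply, smul_eq_mul]
    exact this _
  have s2 : ∀ X Y : 𝔼, ∀ c : Fin n → ℝ, curv (Gam g) x X (∑ p, c p • EuclideanSpace.single p (1:ℝ)) Y l =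
      ∑ p, c p * curv (Gam g) x X (EuclideanSpace.single p (1:ℝ)) Y l := by
    intro X Y c
    rw [curv_swap, PiLp.neg_apply, s1, ← Finset.sum_neg_distrib]
    refine Finset.sum_congr rfl fun p _ => ?_
    rw [curv_swap g x X, PiLp.neg_apply]
    ring
  have s3 : ∀ X Y : 𝔼, ∀ c : Fin n → ℝ, curv (Gam g) x X Y (∑ p, c p • EuclideanSpace.single p (1:ℝ)) l =
      ∑ p, c p * curv (Gam g) x X Y (EuclideanSpace.single p (1:ℝ)) l := by
    intro X Y c
    have : ∀ s : Finset (Fin n), curv (Gam g) x X Y (∑ p ∈ s, c p • EuclideanSpace.single p (1:ℝ)) l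
        = ∑ p ∈ s, c p * curv (Gam g) x X Y (EuclideanSpace.single p (1:ℝ)) l := by
      intro s
      induction s using Finset.induction_on with
      | empty =>
        have : curv (Gam g) x X Y 0 = 0 := by simp [curv]
        simp [this]
      | insert a s ha ih =>
        rw [Finset.sum_insert ha, Finset.sum_insert ha, curv_add3, PiLp.add_apply, ih,
          curv_smul3, PiLp.smul_apply, smul_eq_mul]
    exact this _
  rw [e1, hE i, hE j, hE k, s1, s2, s3, e2]
  simp only [Finset.sum_sub_distrib, riemann_eq_curv hg hx]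
  ring

/-! ### matrix fields -/

/-- the curvature endomorphism `R(∂_i, ∂_j)` as a matrix -/
def Rm (g : MetricField n) (x : EuclideanSpace ℝ (Fin n)) (i j : Fin n) :
    Matrix (Fin n) (Fin n) ℝ := Matrix.of fun l k => riemann g x l i j k

/-- entrywise partial derivative -/
def pd (i : Fin n) (A : EuclideanSpace ℝ (Fin n) → Matrix (Fin n) (Fin n) ℝ)
    (x : EuclideanSpace ℝ (Fin n)) : Matrix (Fin n) (Fin n) ℝ :=
  Matrix.of fun l p => pderiv i (fun y => A y l p) x

/-- entrywise differentiability -/
def DM (A : EuclideanSpace ℝ (Fin n) → Matrix (Fin n) (Fin n) ℝ) (x : EuclideanSpace ℝ (Fin n)) :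
    Prop := ∀ l p, DifferentiableAt ℝ (fun y => A y l p) x

lemma pderiv_add {f h : 𝔼 → ℝ} (hf : DifferentiableAt ℝ f x) (hh : DifferentiableAt ℝ h x)
    (i : Fin n) : pderiv i (fun y => f y + h y) x = pderiv i f x + pderiv i h x := by
  unfold pderiv; rw [fderiv_fun_add hf hh]; rfl

lemma pderiv_sub {f h : 𝔼 → ℝ} (hf : DifferentiableAt ℝ f x) (hh : DifferentiableAt ℝ h x)
    (i : Fin n) : pderiv i (fun y => f y - h y) x = pderiv i f x - pderiv i h x := by
  unfold pderiv; rw [fderiv_fun_sub hf hh]; rfl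

lemma pderiv_mul {f h : 𝔼 → ℝ} (hf : DifferentiableAt ℝ f x) (hh : DifferentiableAt ℝ h x)
    (i : Fin n) : pderiv i (fun y => f y * h y) x = pderiv i f x * h x + f x * pderiv i h x := by
  unfold pderiv; rw [fderiv_fun_mul hf hh]
  simp only [add_apply, smul_apply, smul_eq_mul]; ring

lemma pderiv_sum {ι : Type*} (s : Finset ι) {f : ι → 𝔼 → ℝ}
    (hf : ∀ a ∈ s, DifferentiableAt ℝ (f a) x) (i : Fin n) :
    pderiv i (fun y => ∑ a ∈ s, f a y) x = ∑ a ∈ s, pderiv i (f a) x := by
  unfold pderiv; rw [fderiv_fun_sum hf]; simp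

lemma pderiv_congr {f h : 𝔼 → ℝ} (e : f =ᶠ[𝓝 x] h) (i : Fin n) :
    pderiv i f x = pderiv i h x := by
  unfold pderiv; rw [e.fderiv_eq]

lemma pderiv_const (c : ℝ) (i : Fin n) : pderiv i (fun _ : 𝔼 => c) x = 0 := by
  unfold pderiv; simp

lemma pderiv_neg {f : 𝔼 → ℝ} (i : Fin n) :
    pderiv i (fun y => - f y) x = - pderiv i f x := by
  unfold pderiv; rw [fderiv_fun_neg]; rfl

lemma pderiv_const_mul {f : 𝔼 → ℝ} (hf : DifferentiableAt ℝ f x) (c : ℝ) (i : Fin n) :
    pderiv i (fun y => c * f y) x = c * pderiv i f x := by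
  rw [pderiv_mul (differentiableAt_const c) hf, pderiv_const, zero_mul, zero_add]

lemma pderiv_comm {f : 𝔼 → ℝ} (hf : ContDiffAt ℝ 2 f x) (i j : Fin n) :
    pderiv i (fun y => pderiv j f y) x = pderiv j (fun y => pderiv i f y) x := by
  have hd : DifferentiableAt ℝ (fderiv ℝ f) x :=
    (hf.fderiv_right (m := 1) (by norm_num)).differentiableAt (by norm_num)
  have key : ∀ i j : Fin n, pderiv i (fun y => pderiv j f y) x =
      fderiv ℝ (fderiv ℝ f) x (EuclideanSpace.single i 1) (EuclideanSpace.single j 1) := by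
    intro i j
    unfold pderiv
    rw [fderiv_clm_apply hd (differentiableAt_const _)]
    simp
  rw [key, key]
  exact (hf.isSymmSndFDerivAt (by simp)).eq _ _

lemma pd_apply (i : Fin n) (A : 𝔼 → Matrix (Fin n) (Fin n) ℝ) (l p : Fin n) :
    pd i A x l p = pderiv i (fun y => A y l p) x := rfl

lemma DM.add {A B : 𝔼 → Matrix (Fin n) (Fin n) ℝ} (hA : DM A x) (hB : DM B x) :
    DM (fun y => A y + B y) x := fun l p => (hA l p).add (hB l p)

lemma DM.sub {A B : 𝔼 → Matrix (Fin n) (Fin n) ℝ} (hA : DM A x) (hB : DM B x) :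
    DM (fun y => A y - B y) x := fun l p => (hA l p).sub (hB l p)

lemma DM.mul {A B : 𝔼 → Matrix (Fin n) (Fin n) ℝ} (hA : DM A x) (hB : DM B x) :
    DM (fun y => A y * B y) x := fun l p => by
  simp only [Matrix.mul_apply]
  exact DifferentiableAt.fun_sum fun k _ => (hA l k).mul (hB k p)

lemma pd_add {A B : 𝔼 → Matrix (Fin n) (Fin n) ℝ} (hA : DM A x) (hB : DM B x) (i : Fin n) :
    pd i (fun y => A y + B y) x = pd i A x + pd i B x := by
  ext l p
  exact pderiv_add (hA l p) (hB l p) i

lemma pd_sub {A B : 𝔼 → Matrix (Fin n) (Fin n) ℝ} (hA : DM A x) (hB : DM B x) (i : Fin n) :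
    pd i (fun y => A y - B y) x = pd i A x - pd i B x := by
  ext l p
  exact pderiv_sub (hA l p) (hB l p) i

lemma pd_mul {A B : 𝔼 → Matrix (Fin n) (Fin n) ℝ} (hA : DM A x) (hB : DM B x) (i : Fin n) :
    pd i (fun y => A y * B y) x = pd i A x * B x + A x * pd i B x := by
  ext l p
  have e : (fun y => (A y * B y) l p) = fun y => ∑ k, A y l k * B y k p := by
    funext y; exact Matrix.mul_apply
  change pderiv i (fun y => (A y * B y) l p) x = _
  rw [e, pderiv_sum (f := fun k y => A y l k * B y k p) _ (fun k _ => (hA l k).mul (hB k p)),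
    Matrix.add_apply, Matrix.mul_apply, Matrix.mul_apply, ← Finset.sum_add_distrib]
  exact Finset.sum_congr rfl fun k _ => pderiv_mul (hA l k) (hB k p) i

lemma pd_smul {f : 𝔼 → ℝ} {A : 𝔼 → Matrix (Fin n) (Fin n) ℝ} (hf : DifferentiableAt ℝ f x)
    (hA : DM A x) (i : Fin n) :
    pd i (fun y => f y • A y) x = pderiv i f x • A x + f x • pd i A x := by
  ext l p
  exact pderiv_mul hf (hA l p) i

lemma pd_congr {A B : 𝔼 → Matrix (Fin n) (Fin n) ℝ} (e : A =ᶠ[𝓝 x] B) (i : Fin n) :
    pd i A x = pd i B x := by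
  ext l p
  exact pderiv_congr (e.mono fun y hy => by rw [hy]) i

lemma pd_const (C : Matrix (Fin n) (Fin n) ℝ) (i : Fin n) : pd i (fun _ => C) x = 0 := by
  ext l p
  exact pderiv_const _ i

lemma covDerivEndo_eq (g : MetricField n) (J : 𝔼 → Matrix (Fin n) (Fin n) ℝ) (x : 𝔼) (i : Fin n) :
    covDerivEndo g J x i = pd i J x + (christoffelMatrix g x i * J x -
      J x * christoffelMatrix g x i) := rfl

lemma DM_christoffel (hg : IsRiemannianOn g U) (hx : x ∈ U) (i : Fin n) :
    DM (fun y => christoffelMatrix g y i) x :=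
  fun l p => differentiableAt_christoffel hg hx l i p

lemma pd_christoffel (g : MetricField n) (x : 𝔼) (i j : Fin n) :
    pd i (fun y => christoffelMatrix g y j) x - pd j (fun y => christoffelMatrix g y i) x +
      (christoffelMatrix g x i * christoffelMatrix g x j -
        christoffelMatrix g x j * christoffelMatrix g x i) = Rm g x i j := by
  ext l k
  simp only [Rm, Matrix.of_apply, riemann, Matrix.add_apply, Matrix.sub_apply, pd_apply,
    christoffelMatrix, Matrix.mul_apply, Finset.sum_sub_distrib]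

/-- the Ricci identity for endomorphism fields. -/
theorem covEndo_comm (hg : IsRiemannianOn g U) (hx : x ∈ U)
    {J : 𝔼 → Matrix (Fin n) (Fin n) ℝ} (hJ : ∀ l p, ContDiffAt ℝ 2 (fun y => J y l p) x)
    (i j : Fin n) :
    covDerivEndo g (fun y => covDerivEndo g J y j) x i -
      covDerivEndo g (fun y => covDerivEndo g J y i) x j = Rm g x i j * J x - J x * Rm g x i j := by
  have hJ1 : DM J x := fun l p => (hJ l p).differentiableAt (by norm_num)
  have hG := DM_christoffel hg hx
  have hpd : ∀ j, DM (pd j J) x := fun j l p =>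
    ((((hJ l p).fderiv_right (m := 1) (by norm_num)).differentiableAt (by norm_num)).clm_apply
      (differentiableAt_const (EuclideanSpace.single j (1:ℝ))))
  have key : ∀ i j, covDerivEndo g (fun y => covDerivEndo g J y j) x i =
      pd i (pd j J) x + ((pd i (fun y => christoffelMatrix g y j) x * J x +
        christoffelMatrix g x j * pd i J x) - (pd i J x * christoffelMatrix g x j +
        J x * pd i (fun y => christoffelMatrix g y j) x)) +
      (christoffelMatrix g x i * (pd j J x + (christoffelMatrix g x j * J x -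
      J x * christoffelMatrix g x j)) - (pd j J x + (christoffelMatrix g x j * J x -
      J x * christoffelMatrix g x j)) * christoffelMatrix g x i) := by
    intro i j
    rw [covDerivEndo_eq, covDerivEndo_eq]
    congr 1
    have : (fun y => covDerivEndo g J y j) = fun y => pd j J y +
      (christoffelMatrix g y j * J y - J y * christoffelMatrix g y j) := rfl
    rw [this, pd_add (hpd j) (((hG j).mul hJ1).sub (hJ1.mul (hG j))),
      pd_sub ((hG j).mul hJ1) (hJ1.mul (hG j)), pd_mul (hG j) hJ1, pd_mul hJ1 (hG j)]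
  have hsymm : pd i (pd j J) x = pd j (pd i J) x := by
    ext l p
    exact pderiv_comm (hJ l p) i j
  rw [key, key, hsymm, ← pd_christoffel g x i j]
  noncomm_ring

end Crest.Agent.R260.Qk3_151
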