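import Crest.Agent.R260.Qk3_151

/-!
# Row 260, QK-LOC file 4 (helper151): connection forms and curvature forms of a quaternionic
structure in a chart (frozen language of `Def_ChartRiemQK`)

* `QKOn g J U` : the fields of `QuaternionicStructure` on an open set, `qkOn`;
* `cf g J x i a b` : `∇_i J_a = Σ_b cf i a b J_b` (`cf_spec`), antisymmetric (`cf_antisymm`),
  smooth (`cf_smooth`);
* `Fc g J x i j a b` : curvature of `cf`; `ricci_J` : `[R_ij, J_a] = Σ_b Fc i j a b J_b`.
-/

set_option autoImplicit false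
set_option linter.unusedSimpArgs false

open scoped Manifold ContDiff Topology
open Filter Set
open Crest.GeometryTopology.CoordMetric
open Crest.GeometryTopology.ChartRiem
open Crest.Agent.R202.Tens Crest.Agent.R247.Bo84

noncomputable section

namespace Crest.Agent.R260.Qk4_151

open Crest.Agent.R260.Qk3_151

variable {n : ℕ}

local notation "𝔼" => EuclideanSpace ℝ (Fin n)

/-- the data of a parallel orthogonal quaternionic structure on an open subset of `ℝⁿ`. -/
structure QKOn {n : ℕ} (g : MetricField n)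
    (J : Fin 3 → EuclideanSpace ℝ (Fin n) → Matrix (Fin n) (Fin n) ℝ)
    (U : Set (EuclideanSpace ℝ (Fin n))) : Prop where
  riem : IsRiemannianOn g U
  smooth : ∀ a : Fin 3, ∀ l p : Fin n, ContDiffOn ℝ ∞ (fun y => J a y l p) U
  sq : ∀ x ∈ U, ∀ a : Fin 3, J a x * J a x = -1
  mul : ∀ x ∈ U, J 0 x * J 1 x = J 2 x ∧ J 1 x * J 0 x = -J 2 x
  orth : ∀ x ∈ U, ∀ a : Fin 3, (J a x).transpose * g x * J a x = g x
  par : ∀ x ∈ U, ∀ i : Fin n, ∀ a : Fin 3,
    ∃ c : Fin 3 → ℝ, covDerivEndo g (J a) x i = ∑ b, c b • J b x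

/-- every atlas chart of a quaternionic structure gives local data. -/
theorem qkOn {n : ℕ} {M : Type} [TopologicalSpace M] [ChartedSpace (EuclideanSpace ℝ (Fin n)) M]
    (G : ChartMetric n M) (Q : QuaternionicStructure n M G)
    {e : OpenPartialHomeomorph M (EuclideanSpace ℝ (Fin n))}
    (he : e ∈ atlas (EuclideanSpace ℝ (Fin n)) M) : QKOn (G.g e) (Q.J e) e.target where
  riem := G.riemannian e he
  smooth := Q.smooth e he
  sq := Q.sq e he
  mul := Q.mul e he
  orth := Q.orthogonal e he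
  par := Q.parallel e he

/-- the connection coefficients: `∇_i J_a = Σ_b cf i a b J_b`. -/
def cf {n : ℕ} (g : MetricField n)
    (J : Fin 3 → EuclideanSpace ℝ (Fin n) → Matrix (Fin n) (Fin n) ℝ)
    (x : EuclideanSpace ℝ (Fin n)) (i : Fin n) (a b : Fin 3) : ℝ :=
  -(1 / (n : ℝ)) * (covDerivEndo g (J a) x i * J b x).trace

/-- the curvature forms: `[R_ij, J_a] = Σ_b Fc i j a b J_b`. -/
def Fc {n : ℕ} (g : MetricField n)
    (J : Fin 3 → EuclideanSpace ℝ (Fin n) → Matrix (Fin n) (Fin n) ℝ)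
    (x : EuclideanSpace ℝ (Fin n)) (i j : Fin n) (a b : Fin 3) : ℝ :=
  pderiv i (fun y => cf g J y j a b) x - pderiv j (fun y => cf g J y i a b) x +
    ∑ d, (cf g J x j a d * cf g J x i d b - cf g J x i a d * cf g J x j d b)

/-- the Levi-Civita symbol on `Fin 3` -/
def eps (a b c : Fin 3) : ℝ :=
  if b = a + 1 ∧ c = a + 2 then 1 else if b = a + 2 ∧ c = a + 1 then -1 else 0

section

variable {g : MetricField n} {J : Fin 3 → EuclideanSpace ℝ (Fin n) → Matrix (Fin n) (Fin n) ℝ}
  {U : Set (EuclideanSpace ℝ (Fin n))} {x : EuclideanSpace ℝ (Fin n)}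

namespace QKOn

lemma isOpen (h : QKOn g J U) : IsOpen U := h.riem.isOpen

lemma mul01 (h : QKOn g J U) (hx : x ∈ U) : J 0 x * J 1 x = J 2 x := (h.mul x hx).1
lemma mul10 (h : QKOn g J U) (hx : x ∈ U) : J 1 x * J 0 x = -J 2 x := (h.mul x hx).2

lemma mul12 (h : QKOn g J U) (hx : x ∈ U) : J 1 x * J 2 x = J 0 x := by
  rw [← h.mul01 hx, ← Matrix.mul_assoc, h.mul10 hx, ← h.mul01 hx, Matrix.neg_mul,
    Matrix.mul_assoc, h.sq x hx]
  simp

lemma mul21 (h : QKOn g J U) (hx : x ∈ U) : J 2 x * J 1 x = -J 0 x := by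
  rw [← h.mul01 hx, Matrix.mul_assoc, h.sq x hx]
  simp

lemma mul20 (h : QKOn g J U) (hx : x ∈ U) : J 2 x * J 0 x = J 1 x := by
  rw [← h.mul01 hx, Matrix.mul_assoc, h.mul10 hx, ← h.mul01 hx, Matrix.mul_neg,
    ← Matrix.mul_assoc, h.sq x hx]
  simp

lemma mul02 (h : QKOn g J U) (hx : x ∈ U) : J 0 x * J 2 x = -J 1 x := by
  rw [← h.mul01 hx, ← Matrix.mul_assoc, h.sq x hx]
  simp

lemma trace_J (h : QKOn g J U) (hx : x ∈ U) (a : Fin 3) : (J a x).trace = 0 := by
  have key : ∀ A B C : Matrix (Fin n) (Fin n) ℝ, A * B = C → B * A = -C → C.trace = 0 := by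
    intro A B C h1 h2
    have h3 := Matrix.trace_mul_comm A B
    rw [h1, h2, Matrix.trace_neg] at h3
    linarith
  fin_cases a
  · exact key _ _ _ (h.mul12 hx) (h.mul21 hx)
  · exact key _ _ _ (h.mul20 hx) (h.mul02 hx)
  · exact key _ _ _ (h.mul01 hx) (h.mul10 hx)

/-- `tr (J_a J_b) = -n δ_ab`. -/
lemma trace_JJ (h : QKOn g J U) (hx : x ∈ U) (a b : Fin 3) :
    (J a x * J b x).trace = if a = b then -(n : ℝ) else 0 := by
  have t0 := h.trace_J hx 0
  have t1 := h.trace_J hx 1
  have t2 := h.trace_J hx 2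
  have hs : ∀ c : Fin 3, (J c x * J c x).trace = -(n : ℝ) := by
    intro c
    rw [h.sq x hx, Matrix.trace_neg, Matrix.trace_one, Fintype.card_fin]
  fin_cases a <;> fin_cases b
  · exact hs 0
  · change (J 0 x * J 1 x).trace = 0
    rw [h.mul01 hx, t2]
  · change (J 0 x * J 2 x).trace = 0
    rw [h.mul02 hx, Matrix.trace_neg, t1, neg_zero]
  · change (J 1 x * J 0 x).trace = 0
    rw [h.mul10 hx, Matrix.trace_neg, t2, neg_zero]
  · exact hs 1
  · change (J 1 x * J 2 x).trace = 0
    rw [h.mul12 hx, t0]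
  · change (J 2 x * J 0 x).trace = 0
    rw [h.mul20 hx, t1]
  · change (J 2 x * J 1 x).trace = 0
    rw [h.mul21 hx, Matrix.trace_neg, t0, neg_zero]
  · exact hs 2

/-- coefficients of a combination of the `J_b` by traces. -/
lemma trace_comb (h : QKOn g J U) (hx : x ∈ U) (c : Fin 3 → ℝ) (b : Fin 3) :
    ((∑ d, c d • J d x) * J b x).trace = -(n : ℝ) * c b := by
  rw [Finset.sum_mul, Matrix.trace_sum]
  simp only [Matrix.smul_mul, Matrix.trace_smul, h.trace_JJ hx, smul_eq_mul]
  rw [Finset.sum_eq_single b]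
  · simp; ring
  · intro d _ hd; simp [hd]
  · simp

lemma comb_inj (h : QKOn g J U) (hx : x ∈ U) (hn : n ≠ 0) {c c' : Fin 3 → ℝ}
    (e : ∑ d, c d • J d x = ∑ d, c' d • J d x) : c = c' := by
  have hn' : (n : ℝ) ≠ 0 := Nat.cast_ne_zero.2 hn
  funext b
  have h1 := h.trace_comb hx c b
  rw [e, h.trace_comb hx c' b] at h1
  have : (n : ℝ) * c b = n * c' b := by linarith
  exact mul_left_cancel₀ hn' this

theorem cf_spec (h : QKOn g J U) (hx : x ∈ U) (i : Fin n) (a : Fin 3) :
    covDerivEndo g (J a) x i = ∑ b, cf g J x i a b • J b x := by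
  have hn : (n : ℝ) ≠ 0 := by
    have : 0 < n := Fin.pos i
    exact_mod_cast this.ne'
  obtain ⟨c, hc⟩ := h.par x hx i a
  have : ∀ b, cf g J x i a b = c b := by
    intro b
    rw [cf, hc, h.trace_comb hx]
    field_simp
  simp only [this]
  exact hc

lemma contDiffAt_J (h : QKOn g J U) (hx : x ∈ U) (a : Fin 3) (l p : Fin n) :
    ContDiffAt ℝ ∞ (fun y => J a y l p) x := (h.smooth a l p).contDiffAt (h.isOpen.mem_nhds hx)

lemma DM_J (h : QKOn g J U) (hx : x ∈ U) (a : Fin 3) : DM (J a) x :=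
  fun l p => (h.contDiffAt_J hx a l p).differentiableAt (by norm_num)

theorem cov_smooth (h : QKOn g J U) (i : Fin n) (a : Fin 3) (l p : Fin n) :
    ContDiffOn ℝ ∞ (fun y => covDerivEndo g (J a) y i l p) U := by
  have e : (fun y => covDerivEndo g (J a) y i l p) = fun y => pderiv i (fun z => J a z l p) y +
      (∑ k, christoffel g y l i k * J a y k p - ∑ k, J a y l k * christoffel g y k i p) := by
    funext y
    rfl
  rw [e]
  refine (contDiffOn_pderiv h.isOpen (h.smooth a l p) i).add (ContDiffOn.sub ?_ ?_)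
  · exact ContDiffOn.sum fun k _ => (contDiffOn_christoffel h.riem l i k).mul (h.smooth a k p)
  · exact ContDiffOn.sum fun k _ => (h.smooth a l k).mul (contDiffOn_christoffel h.riem k i p)

theorem cf_smooth (h : QKOn g J U) (i : Fin n) (a b : Fin 3) :
    ContDiffOn ℝ ∞ (fun y => cf g J y i a b) U := by
  unfold cf
  refine contDiffOn_const.mul ?_
  simp only [Matrix.trace, Matrix.diag_apply, Matrix.mul_apply]
  exact ContDiffOn.sum fun l _ => ContDiffOn.sum fun k _ => (h.cov_smooth i a l k).mul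
    (h.smooth b k l)

lemma cf_diff (h : QKOn g J U) (hx : x ∈ U) (i : Fin n) (a b : Fin 3) :
    DifferentiableAt ℝ (fun y => cf g J y i a b) x :=
  ((h.cf_smooth i a b).contDiffAt (h.isOpen.mem_nhds hx)).differentiableAt (by norm_num)

/-- metric connection: the coefficients are antisymmetric. -/
theorem cf_antisymm (h : QKOn g J U) (hx : x ∈ U) (i : Fin n) (a b : Fin 3) :
    cf g J x i a b = -cf g J x i b a := by
  have h1 : pderiv i (fun y => (J a y * J b y).trace) x = 0 := by
    have : (fun y => (J a y * J b y).trace) =ᶠ[𝓝 x] fun _ => if a = b then -(n : ℝ) else 0 := by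
      filter_upwards [h.isOpen.mem_nhds hx] with y hy using h.trace_JJ hy a b
    rw [pderiv_congr this, pderiv_const]
  have h2 : pderiv i (fun y => (J a y * J b y).trace) x = (pd i (fun y => J a y * J b y) x).trace := by
    simp only [Matrix.trace, Matrix.diag_apply]
    exact pderiv_sum _ (fun l _ => (h.DM_J hx a).mul (h.DM_J hx b) l l) i
  rw [h2, pd_mul (h.DM_J hx a) (h.DM_J hx b)] at h1
  have h3 : (covDerivEndo g (J a) x i * J b x).trace + (covDerivEndo g (J b) x i * J a x).trace =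
      0 := by
    have e1 : covDerivEndo g (J a) x i * J b x + J a x * covDerivEndo g (J b) x i =
        (pd i (J a) x * J b x + J a x * pd i (J b) x) +
        (christoffelMatrix g x i * (J a x * J b x) - (J a x * J b x) * christoffelMatrix g x i) := by
      rw [covDerivEndo_eq, covDerivEndo_eq]
      noncomm_ring
    have e2 := congrArg Matrix.trace e1
    rw [Matrix.trace_add, Matrix.trace_add, Matrix.trace_sub,
      Matrix.trace_mul_comm (christoffelMatrix g x i), sub_self, h1, add_zero,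
      Matrix.trace_mul_comm (J a x)] at e2
    exact e2
  unfold cf
  have : (covDerivEndo g (J a) x i * J b x).trace = -(covDerivEndo g (J b) x i * J a x).trace := by
    linarith
  rw [this]
  ring

lemma cf_self (h : QKOn g J U) (hx : x ∈ U) (i : Fin n) (a : Fin 3) : cf g J x i a a = 0 := by
  have := h.cf_antisymm hx i a a
  linarith

end QKOn

lemma covDerivEndo_congr {A B : 𝔼 → Matrix (Fin n) (Fin n) ℝ} (e : A =ᶠ[𝓝 x] B) (i : Fin n) :
    covDerivEndo g A x i = covDerivEndo g B x i := by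
  rw [covDerivEndo_eq, covDerivEndo_eq, pd_congr e, e.self_of_nhds]

lemma covDerivEndo_add {A B : 𝔼 → Matrix (Fin n) (Fin n) ℝ} (hA : DM A x) (hB : DM B x)
    (i : Fin n) : covDerivEndo g (fun y => A y + B y) x i =
      covDerivEndo g A x i + covDerivEndo g B x i := by
  simp only [covDerivEndo_eq]
  rw [pd_add hA hB]
  noncomm_ring

lemma covDerivEndo_mul {A B : 𝔼 → Matrix (Fin n) (Fin n) ℝ} (hA : DM A x) (hB : DM B x)
    (i : Fin n) : covDerivEndo g (fun y => A y * B y) x i =
      covDerivEndo g A x i * B x + A x * covDerivEndo g B x i := by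
  simp only [covDerivEndo_eq]
  rw [pd_mul hA hB]
  noncomm_ring

lemma covDerivEndo_smul {f : 𝔼 → ℝ} {A : 𝔼 → Matrix (Fin n) (Fin n) ℝ}
    (hf : DifferentiableAt ℝ f x) (hA : DM A x) (i : Fin n) :
    covDerivEndo g (fun y => f y • A y) x i = pderiv i f x • A x + f x • covDerivEndo g A x i := by
  simp only [covDerivEndo_eq]
  rw [pd_smul hf hA]
  simp only [Matrix.mul_smul, Matrix.smul_mul]
  module

lemma DM_smul {f : 𝔼 → ℝ} {A : 𝔼 → Matrix (Fin n) (Fin n) ℝ}
    (hf : DifferentiableAt ℝ f x) (hA : DM A x) : DM (fun y => f y • A y) x :=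
  fun l p => hf.mul (hA l p)

/-- covariant derivative of a section of the span of the `J_b`. -/
theorem covDerivEndo_comb (h : QKOn g J U) (hx : x ∈ U) {c : Fin 3 → 𝔼 → ℝ}
    (hc : ∀ b, DifferentiableAt ℝ (c b) x) (i : Fin n) :
    covDerivEndo g (fun y => ∑ b, c b y • J b y) x i =
      ∑ b, (pderiv i (c b) x + ∑ d, c d x * cf g J x i d b) • J b x := by
  have e : (fun y => ∑ b, c b y • J b y) = fun y => (c 0 y • J 0 y + c 1 y • J 1 y) + c 2 y • J 2 y := by
    funext y; rw [Fin.sum_univ_three]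
  rw [e, covDerivEndo_add ((DM_smul (hc 0) (h.DM_J hx 0)).add (DM_smul (hc 1) (h.DM_J hx 1)))
    (DM_smul (hc 2) (h.DM_J hx 2)), covDerivEndo_add (DM_smul (hc 0) (h.DM_J hx 0))
    (DM_smul (hc 1) (h.DM_J hx 1)), covDerivEndo_smul (hc 0) (h.DM_J hx 0),
    covDerivEndo_smul (hc 1) (h.DM_J hx 1), covDerivEndo_smul (hc 2) (h.DM_J hx 2),
    h.cf_spec hx, h.cf_spec hx, h.cf_spec hx]
  simp only [Fin.sum_univ_three]
  module

/-- `[R_ij, J_a] = Σ_b Fc i j a b J_b`. -/
theorem ricci_J (h : QKOn g J U) (hx : x ∈ U) (i j : Fin n) (a : Fin 3) :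
    Rm g x i j * J a x - J a x * Rm g x i j = ∑ b, Fc g J x i j a b • J b x := by
  have h2 : ∀ l p, ContDiffAt ℝ 2 (fun y => J a y l p) x := fun l p =>
    (h.contDiffAt_J hx a l p).of_le (WithTop.coe_le_coe.2 le_top)
  rw [← covEndo_comm h.riem hx h2 i j]
  have key : ∀ i j, covDerivEndo g (fun y => covDerivEndo g (J a) y j) x i =
      ∑ b, (pderiv i (fun y => cf g J y j a b) x + ∑ d, cf g J x j a d * cf g J x i d b) •
        J b x := by
    intro i j
    have e : (fun y => covDerivEndo g (J a) y j) =ᶠ[𝓝 x] fun y => ∑ b, cf g J y j a b • J b y := by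
      filter_upwards [h.isOpen.mem_nhds hx] with y hy using h.cf_spec hy j a
    rw [covDerivEndo_congr e]
    exact covDerivEndo_comb h hx (c := fun b y => cf g J y j a b) (fun b => h.cf_diff hx j a b) i
  rw [key i j, key j i, ← Finset.sum_sub_distrib]
  refine Finset.sum_congr rfl fun b _ => ?_
  rw [← sub_smul, Fc, Finset.sum_sub_distrib]
  congr 1
  ring

lemma Fc_swap (g : MetricField n) (J : Fin 3 → 𝔼 → Matrix (Fin n) (Fin n) ℝ) (x : 𝔼)
    (i j : Fin n) (a b : Fin 3) : Fc g J x i j a b = -Fc g J x j i a b := by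
  unfold Fc
  simp only [Finset.sum_sub_distrib]
  ring

lemma Fc_antisymm (h : QKOn g J U) (hx : x ∈ U) (i j : Fin n) (a b : Fin 3) :
    Fc g J x i j a b = -Fc g J x i j b a := by
  have e : ∀ j, pderiv i (fun y => cf g J y j a b) x = - pderiv i (fun y => cf g J y j b a) x := by
    intro j
    rw [← pderiv_neg]
    refine pderiv_congr ?_ i
    filter_upwards [h.isOpen.mem_nhds hx] with y hy using h.cf_antisymm hy j a b
  have e' : pderiv j (fun y => cf g J y i a b) x = - pderiv j (fun y => cf g J y i b a) x := by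
    rw [← pderiv_neg]
    refine pderiv_congr ?_ j
    filter_upwards [h.isOpen.mem_nhds hx] with y hy using h.cf_antisymm hy i a b
  unfold Fc
  rw [e, e']
  have s : ∑ d, (cf g J x j a d * cf g J x i d b - cf g J x i a d * cf g J x j d b) =
      -∑ d, (cf g J x j b d * cf g J x i d a - cf g J x i b d * cf g J x j d a) := by
    rw [← Finset.sum_neg_distrib]
    refine Finset.sum_congr rfl fun d _ => ?_
    rw [h.cf_antisymm hx j a d, h.cf_antisymm hx i d b, h.cf_antisymm hx i a d,
      h.cf_antisymm hx j d b]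
    ring
  rw [s]
  ring

end

end Crest.Agent.R260.Qk4_151
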