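import Crest.Agent.R260.Qk4_151

/-!
# Row 260, QK-LOC file 5 (helper151): quaternion-Kähler metrics are Einstein, pointwise

`qv h hx` : the pointwise algebra `QV n 𝔼` at `x`; `RL g x` : the curvature as a bilinear map with
values in endomorphisms; `isQCurv`.

Main (`n = 4 m`, `2 ≤ m`, `nu g m x = scalarCurv g x / (4 m (m+2))`):
* `Fc_eq` : `Fc g J x i j a b = nu * Σ_c eps a b c * (g x * J c x) i j`;
* `ricci_eq` : `ricci g x i j = (m+2) nu g x i j`.
-/

set_option autoImplicit false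
set_option linter.unusedSimpArgs false

open scoped Manifold ContDiff Topology
open Filter Set
open Crest.GeometryTopology.CoordMetric
open Crest.GeometryTopology.ChartRiem
open Crest.Agent.R202.Tens Crest.Agent.R247.Bo84
open Crest.Agent.R249.Bia1_104 Crest.Agent.R249.Bia2_104 Crest.Agent.R249.Bia3_104

noncomputable section

namespace Crest.Agent.R260.Qk5_151

open Crest.Agent.R260.Qk1_151 Crest.Agent.R260.Qk2_151
open Crest.Agent.R260.Qk3_151 Crest.Agent.R260.Qk4_151

variable {n : ℕ}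

local notation "𝔼" => EuclideanSpace ℝ (Fin n)

/-- the metric as a bilinear map -/
def bL (A : Matrix (Fin n) (Fin n) ℝ) :
    EuclideanSpace ℝ (Fin n) →ₗ[ℝ] EuclideanSpace ℝ (Fin n) →ₗ[ℝ] ℝ :=
  LinearMap.mk₂ ℝ (fun X Y => bil A X Y) (by intro a b c; simp) (by intro c a b; simp)
    (by intro a b c; simp) (by intro c a b; simp)

lemma bL_apply (A : Matrix (Fin n) (Fin n) ℝ) (X Y : 𝔼) : bL A X Y = bil A X Y := rfl

lemma bil_single (A : Matrix (Fin n) (Fin n) ℝ) (i j : Fin n) :
    bil A (EuclideanSpace.single i 1) (EuclideanSpace.single j 1) = A i j := by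
  rw [bil_apply, Finset.sum_eq_single i, Finset.sum_eq_single j]
  · simp
  · intro b _ hb; simp [hb]
  · simp
  · intro b _ hb
    refine Finset.sum_eq_zero fun c _ => ?_
    simp [hb]
  · simp

lemma bil_dot (M : Matrix (Fin n) (Fin n) ℝ) (X Y : 𝔼) :
    bil M X Y = (WithLp.ofLp X) ⬝ᵥ (M.mulVec (WithLp.ofLp Y)) := by
  rw [bil_apply]
  simp only [dotProduct, Matrix.mulVec, Finset.mul_sum]
  exact Finset.sum_congr rfl fun i _ => Finset.sum_congr rfl fun j _ => by ring

lemma mL_ofLp (A : Matrix (Fin n) (Fin n) ℝ) (X : 𝔼) :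
    WithLp.ofLp (mL A X) = A.mulVec (WithLp.ofLp X) := rfl

lemma bil_mL_right (M A : Matrix (Fin n) (Fin n) ℝ) (X Y : 𝔼) :
    bil M X (mL A Y) = bil (M * A) X Y := by
  rw [bil_dot, bil_dot, mL_ofLp, Matrix.mulVec_mulVec]

lemma bil_mL_left (M A : Matrix (Fin n) (Fin n) ℝ) (X Y : 𝔼) :
    bil M (mL A X) Y = bil (A.transpose * M) X Y := by
  rw [bil_dot, bil_dot, mL_ofLp, ← Matrix.mulVec_mulVec, Matrix.dotProduct_mulVec
    (WithLp.ofLp X), Matrix.vecMul_transpose]

lemma bil_mL_mL (M A : Matrix (Fin n) (Fin n) ℝ) (X Y : 𝔼) :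
    bil M (mL A X) (mL A Y) = bil (A.transpose * M * A) X Y := by
  rw [bil_mL_right, bil_mL_left, Matrix.mul_assoc]

/-- the curvature at `x` as an endomorphism valued bilinear map -/
def RL (g : MetricField n) (x : EuclideanSpace ℝ (Fin n)) :
    EuclideanSpace ℝ (Fin n) →ₗ[ℝ] EuclideanSpace ℝ (Fin n) →ₗ[ℝ]
      Module.End ℝ (EuclideanSpace ℝ (Fin n)) :=
  LinearMap.mk₂ ℝ (fun W X =>
    { toFun := fun Y => curv (Gam g) x W X Y
      map_add' := fun Y Y' => curv_add3 g x W X Y Y'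
      map_smul' := fun c Y => curv_smul3 g c x W X Y })
    (by intro W W' X; exact LinearMap.ext fun Y => curv_add1 g x W W' X Y)
    (by intro c W X; exact LinearMap.ext fun Y => curv_smul1 g c x W X Y)
    (by intro W X X'; exact LinearMap.ext fun Y => curv_add2 g x W X X' Y)
    (by intro c W X; exact LinearMap.ext fun Y => curv_smul2 g c x W X Y)

lemma RL_apply (g : MetricField n) (x W X Y : 𝔼) : RL g x W X Y = curv (Gam g) x W X Y := rfl

section

variable {g : MetricField n} {J : Fin 3 → EuclideanSpace ℝ (Fin n) → Matrix (Fin n) (Fin n) ℝ}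
  {U : Set (EuclideanSpace ℝ (Fin n))} {x : EuclideanSpace ℝ (Fin n)}

lemma RL_single (hg : IsRiemannianOn g U) (hx : x ∈ U) (i j : Fin n) :
    RL g x (EuclideanSpace.single i 1) (EuclideanSpace.single j 1) = mL (Rm g x i j) := by
  refine LinearMap.ext fun Y => ?_
  rw [eq_sum_single Y, map_sum, map_sum]
  refine Finset.sum_congr rfl fun k _ => ?_
  rw [map_smul, map_smul]
  congr 1
  ext l
  rw [RL_apply, mL_single, ← riemann_eq_curv hg hx]
  rfl

/-- the pointwise algebra of a quaternionic structure -/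
def qv (h : QKOn g J U) (hx : x ∈ U) : QV n (EuclideanSpace ℝ (Fin n)) where
  B := bL (g x)
  ξ := (exists_frame h.riem hx).choose
  J := fun a => mL (J a x)
  symm X Y := bil_symm h.riem hx X Y
  orth := (exists_frame h.riem hx).choose_spec.orth
  expand := (exists_frame h.riem hx).choose_spec.expand h.riem hx
  sq a X := by
    rw [← mL_mul, h.sq x hx, mL_neg, mL_one]
    simp
  mul01 X := by rw [← mL_mul, h.mul01 hx]
  mul10 X := by rw [← mL_mul, h.mul10 hx, mL_neg]; rfl
  skew a X Y := by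
    have h1 : bil (g x) (mL (J a x) X) (mL (J a x) (mL (J a x) Y)) = bil (g x) X (mL (J a x) Y) := by
      rw [bil_mL_mL, h.orth x hx]
    have h2 : mL (J a x) (mL (J a x) Y) = -Y := by
      rw [← mL_mul, h.sq x hx, mL_neg, mL_one]
      simp
    rw [h2, map_neg] at h1
    rw [bL_apply, bL_apply]
    linarith

lemma qv_B (h : QKOn g J U) (hx : x ∈ U) (X Y : 𝔼) : (qv h hx).B X Y = bil (g x) X Y := rfl

lemma qv_J (h : QKOn g J U) (hx : x ∈ U) (a : Fin 3) : (qv h hx).J a = mL (J a x) := rfl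

lemma qv_frame (h : QKOn g J U) (hx : x ∈ U) : IsFrame (g x) (qv h hx).ξ :=
  (exists_frame h.riem hx).choose_spec

lemma isCurv (h : QKOn g J U) (hx : x ∈ U) : IsCurv (qv h hx) (RL g x) where
  swap X Y := by
    refine LinearMap.ext fun Z => ?_
    exact curv_swap g x X Y Z
  skew X Y Z W := curv_skew h.riem hx X Y Z W
  first X Y Z := curv_first h.riem hx X Y Z

lemma commR (h : QKOn g J U) (hx : x ∈ U) (X Y : 𝔼) (a : Fin 3) (Z : 𝔼) :
    RL g x X Y (mL (J a x) Z) - mL (J a x) (RL g x X Y Z) =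
      ∑ b, (∑ i, ∑ j, X i * Y j * Fc g J x i j a b) • mL (J b x) Z := by
  have e : ∀ i j, RL g x (EuclideanSpace.single i 1) (EuclideanSpace.single j 1) (mL (J a x) Z) -
      mL (J a x) (RL g x (EuclideanSpace.single i 1) (EuclideanSpace.single j 1) Z) =
      ∑ b, Fc g J x i j a b • mL (J b x) Z := by
    intro i j
    rw [RL_single h.riem hx, ← mL_mul, ← mL_mul]
    have := congrArg (fun A => mL A Z) (ricci_J h hx i j a)
    simp only [mL_sub, mL_sum, mL_smul, LinearMap.sub_apply, LinearMap.sum_apply,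
      LinearMap.smul_apply] at this
    exact this
  have hX : RL g x X Y = ∑ i, ∑ j, (X i * Y j) •
      RL g x (EuclideanSpace.single i 1) (EuclideanSpace.single j 1) := by
    conv_lhs => rw [eq_sum_single X, eq_sum_single Y]
    simp only [map_sum, map_smul, LinearMap.sum_apply, LinearMap.smul_apply, Finset.smul_sum,
      smul_smul]
    refine Finset.sum_comm.trans ?_
    exact Finset.sum_congr rfl fun i _ => Finset.sum_congr rfl fun j _ => by
      first | rfl | (rw [mul_comm])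
  rw [hX]
  simp only [LinearMap.sum_apply, LinearMap.smul_apply, map_sum, map_smul]
  rw [← Finset.sum_sub_distrib]
  have e2 : ∀ i : Fin n, (∑ j, (X i * Y j) • RL g x (EuclideanSpace.single i 1)
      (EuclideanSpace.single j 1) (mL (J a x) Z)) -
      (∑ j, (X i * Y j) • mL (J a x) (RL g x (EuclideanSpace.single i 1)
        (EuclideanSpace.single j 1) Z)) =
      ∑ j, ∑ b, (X i * Y j * Fc g J x i j a b) • mL (J b x) Z := by
    intro i
    rw [← Finset.sum_sub_distrib]
    refine Finset.sum_congr rfl fun j _ => ?_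
    rw [← smul_sub, e, Finset.smul_sum]
    exact Finset.sum_congr rfl fun b _ => smul_smul _ _ _
  simp only [e2, Finset.sum_smul]
  have e3 : ∀ i : Fin n, ∑ j, ∑ b, (X i * Y j * Fc g J x i j a b) • mL (J b x) Z =
      ∑ b, ∑ j, (X i * Y j * Fc g J x i j a b) • mL (J b x) Z := fun i => Finset.sum_comm
  simp only [e3]
  exact Finset.sum_comm

theorem isQCurv (h : QKOn g J U) (hx : x ∈ U) : IsQCurv (qv h hx) (RL g x) where
  toIsCurv := isCurv h hx
  comm X Y a := ⟨_, fun Z => commR h hx X Y a Z⟩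

lemma Ric_eq_ricF (h : QKOn g J U) (hx : x ∈ U) (X Y : 𝔼) :
    Ric (qv h hx) (RL g x) X Y = ricF g x X Y := by
  rw [ricF_frame h.riem hx (qv_frame h hx)]
  rfl

/-- the normalised scalar curvature `ν = scal / (4 m (m+2))`. -/
def nu (g : MetricField n) (m : ℕ) (x : EuclideanSpace ℝ (Fin n)) : ℝ :=
  scalarCurv g x / (4 * m * (m + 2))

lemma ricF_single (hg : IsRiemannianOn g U) (hx : x ∈ U) (i j : Fin n) :
    ricF g x (EuclideanSpace.single i 1) (EuclideanSpace.single j 1) = ricci g x i j := by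
  rw [ricF_eq hg hx, Finset.sum_eq_single j, Finset.sum_eq_single i, ricci_symm hg hx]
  · simp
  · intro b _ hb; simp [hb]
  · simp
  · intro b _ hb
    refine Finset.sum_eq_zero fun c _ => ?_
    simp [hb]
  · simp

lemma scal_eq (h : QKOn g J U) (hx : x ∈ U) : scal (qv h hx) (RL g x) = scalarCurv g x := by
  have h1 : trL (ricE g x) = scalarCurv g x := trL_ricE g x h.riem hx
  rw [← h1, (qv_frame h hx).trL_eq h.riem hx, scal]
  refine Finset.sum_congr rfl fun b _ => ?_
  rw [bil_ricE h.riem hx, Ric_eq_ricF]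

lemma nu_eq (h : QKOn g J U) (hx : x ∈ U) (m : ℕ) :
    Qk1_151.nu m (qv h hx) (RL g x) = nu g m x := by
  rw [Qk1_151.nu, nu, scal_eq]

theorem ricF_eq_nu {m : ℕ} (hm : 2 ≤ m) (hnm : n = 4 * m) (h : QKOn g J U) (hx : x ∈ U) (X Y : 𝔼) :
    ricF g x X Y = (m + 2) * nu g m x * bil (g x) X Y := by
  rw [← Ric_eq_ricF h hx, einstein hm hnm (isQCurv h hx), nu_eq]
  rfl

/-- quaternion-Kähler metrics of dimension `4 m ≥ 8` are Einstein. -/
theorem ricci_eq {m : ℕ} (hm : 2 ≤ m) (hnm : n = 4 * m) (h : QKOn g J U) (hx : x ∈ U)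
    (i j : Fin n) : ricci g x i j = (m + 2) * nu g m x * g x i j := by
  rw [← ricF_single h.riem hx, ricF_eq_nu hm hnm h hx, bil_single]

/-- coefficients: `Fc i j a b = -(1/n) tr ([R_ij, J_a] J_b)`. -/
lemma Fc_eq_trace (h : QKOn g J U) (hx : x ∈ U) (hn : n ≠ 0) (i j : Fin n) (a b : Fin 3) :
    Fc g J x i j a b = -(1 / (n : ℝ)) * ((Rm g x i j * (J a x * J b x)).trace -
      (Rm g x i j * (J b x * J a x)).trace) := by
  have hn' : (n : ℝ) ≠ 0 := Nat.cast_ne_zero.2 hn
  have h1 := h.trace_comb hx (fun b => Fc g J x i j a b) b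
  rw [← ricci_J h hx i j a, Matrix.sub_mul, Matrix.trace_sub, Matrix.mul_assoc, Matrix.mul_assoc,
    Matrix.trace_mul_comm (J a x), Matrix.mul_assoc] at h1
  rw [h1]
  field_simp

/-- the `sp(1)` parts in coordinates. -/
lemma f_single (h : QKOn g J U) (hx : x ∈ U) (i j : Fin n) (c : Fin 3) :
    Qk1_151.f (qv h hx) (RL g x) c (EuclideanSpace.single i 1) (EuclideanSpace.single j 1) =
      -(1 / (n : ℝ)) * (Rm g x i j * J c x).trace := by
  rw [Qk1_151.f]
  congr 1
  have e : (fun Z => RL g x (EuclideanSpace.single i 1) (EuclideanSpace.single j 1)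
      ((qv h hx).J c Z)) = fun Z => mL (Rm g x i j * J c x) Z := by
    funext Z
    rw [RL_single h.riem hx, mL_mul, qv_J]
  rw [e, ← tr_mL]
  rw [trF_frame h.riem hx (qv_frame h hx) (fun X Y => map_add _ X Y) (fun c X => map_smul _ c X)]
  rfl

theorem trace_RmJ {m : ℕ} (hm : 2 ≤ m) (hnm : n = 4 * m) (h : QKOn g J U) (hx : x ∈ U)
    (i j : Fin n) (c : Fin 3) :
    (Rm g x i j * J c x).trace = -(n : ℝ) * (nu g m x / 2) * (g x * J c x) i j := by
  have hn : n ≠ 0 := by omega
  have hn' : (n : ℝ) ≠ 0 := Nat.cast_ne_zero.2 hn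
  have h1 := f_single h hx i j c
  rw [f_eq hm hnm (isQCurv h hx), nu_eq, QV.skew, qv_B, qv_J, bil_mL_right, bil_single] at h1
  field_simp at h1 ⊢
  linarith

/-- **the curvature forms of a quaternion-Kähler metric.** -/
theorem Fc_eq {m : ℕ} (hm : 2 ≤ m) (hnm : n = 4 * m) (h : QKOn g J U) (hx : x ∈ U)
    (i j : Fin n) (a b : Fin 3) :
    Fc g J x i j a b = nu g m x * ∑ c, eps a b c * (g x * J c x) i j := by
  have hn : n ≠ 0 := by omega
  have hn' : (n : ℝ) ≠ 0 := Nat.cast_ne_zero.2 hn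
  have T := fun c => trace_RmJ hm hnm h hx i j c
  have T0 := T 0
  have T1 := T 1
  have T2 := T 2
  have key : ∀ (a b : Fin 3) (A : Matrix (Fin n) (Fin n) ℝ) (t : ℝ), J a x * J b x = A →
      J b x * J a x = -A → (Rm g x i j * A).trace = -(n : ℝ) * (nu g m x / 2) * t →
      Fc g J x i j a b = nu g m x * t := by
    intro a b A t e1 e2 e3
    rw [Fc_eq_trace h hx hn, e1, e2, Matrix.mul_neg, Matrix.trace_neg, e3]
    field_simp
    ring
  have kneg : ∀ c : Fin 3, (Rm g x i j * -J c x).trace =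
      -(n : ℝ) * (nu g m x / 2) * (-(g x * J c x) i j) := by
    intro c
    rw [Matrix.mul_neg, Matrix.trace_neg, T c]; ring
  have hd : ∀ a : Fin 3, Fc g J x i j a a = 0 := by
    intro a
    have := Fc_antisymm h hx i j a a
    linarith
  fin_cases a <;> fin_cases b
  · refine (hd 0).trans ?_
    simp [Fin.sum_univ_three, eps]
  · refine (key 0 1 _ _ (h.mul01 hx) (h.mul10 hx) T2).trans ?_
    simp [Fin.sum_univ_three, eps]
  · refine (key 0 2 _ _ (h.mul02 hx) (by rw [h.mul20 hx, neg_neg]) (kneg 1)).trans ?_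
    simp [Fin.sum_univ_three, eps]
  · refine (key 1 0 _ _ (h.mul10 hx) (by rw [h.mul01 hx, neg_neg]) (kneg 2)).trans ?_
    simp [Fin.sum_univ_three, eps]
  · refine (hd 1).trans ?_
    simp [Fin.sum_univ_three, eps]
  · refine (key 1 2 _ _ (h.mul12 hx) (h.mul21 hx) T0).trans ?_
    simp [Fin.sum_univ_three, eps]
  · refine (key 2 0 _ _ (h.mul20 hx) (h.mul02 hx) T1).trans ?_
    simp [Fin.sum_univ_three, eps]
  · refine (key 2 1 _ _ (h.mul21 hx) (by rw [h.mul12 hx, neg_neg]) (kneg 0)).trans ?_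
    simp [Fin.sum_univ_three, eps]
  · refine (hd 2).trans ?_
    simp [Fin.sum_univ_three, eps]

end

end Crest.Agent.R260.Qk5_151
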