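import Crest.Agent.R260.Qk5_151

/-!
# Row 260, QK-LOC file 6 (helper151): the normalised scalar curvature is constant

* `pderiv_nu` : `∂_i ν = 0` on `U` (contracted Bianchi);
* `nu_const` : on a connected manifold `ν` is one constant, `> 0` under the hypothesis of S0398.
-/

set_option autoImplicit false
set_option linter.unusedSimpArgs false

open scoped Manifold ContDiff Topology
open Filter Set
open Crest.GeometryTopology.CoordMetric
open Crest.GeometryTopology.ChartRiem
open Crest.Agent.R202.Tens Crest.Agent.R247.Bo84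
open Crest.Agent.R249.Bia1_104 Crest.Agent.R249.Bia2_104 Crest.Agent.R249.Bia3_104

noncomputable section

namespace Crest.Agent.R260.Qk6_151

open Crest.Agent.R260.Qk3_151 Crest.Agent.R260.Qk4_151 Crest.Agent.R260.Qk5_151

variable {n : ℕ}

local notation "𝔼" => EuclideanSpace ℝ (Fin n)

section

variable {g : MetricField n} {J : Fin 3 → EuclideanSpace ℝ (Fin n) → Matrix (Fin n) (Fin n) ℝ}
  {U : Set (EuclideanSpace ℝ (Fin n))} {x : EuclideanSpace ℝ (Fin n)}

lemma contDiffOn_riemann (hg : IsRiemannianOn g U) (l i j k : Fin n) :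
    ContDiffOn ℝ ∞ (fun y => riemann g y l i j k) U := by
  unfold riemann
  refine ((contDiffOn_pderiv hg.isOpen (contDiffOn_christoffel hg l j k) i).sub
    (contDiffOn_pderiv hg.isOpen (contDiffOn_christoffel hg l i k) j)).add ?_
  exact ContDiffOn.sum fun p _ =>
    ((contDiffOn_christoffel hg l i p).mul (contDiffOn_christoffel hg p j k)).sub
      ((contDiffOn_christoffel hg l j p).mul (contDiffOn_christoffel hg p i k))

lemma ricci_eq_sum (hg : IsRiemannianOn g U) (hx : x ∈ U) (i j : Fin n) :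
    ricci g x i j = ∑ k, riemann g x k k j i := ricci_eq_sum_riemann hg hx i j

lemma contDiffOn_ricci (hg : IsRiemannianOn g U) (i j : Fin n) :
    ContDiffOn ℝ ∞ (fun y => ricci g y i j) U := by
  refine ContDiffOn.congr (f := fun y => ∑ k, riemann g y k k j i) ?_
    (fun y hy => ricci_eq_sum hg hy i j)
  exact ContDiffOn.sum fun k _ => contDiffOn_riemann hg k k j i

lemma contDiffOn_scalarCurv (hg : IsRiemannianOn g U) :
    ContDiffOn ℝ ∞ (fun y => scalarCurv g y) U := by
  unfold scalarCurv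
  exact ContDiffOn.sum fun j _ => ContDiffOn.sum fun k _ =>
    (contDiffOn_inv_entry hg j k).mul (contDiffOn_ricci hg j k)

lemma contDiffOn_nu (hg : IsRiemannianOn g U) (m : ℕ) :
    ContDiffOn ℝ ∞ (fun y => nu g m y) U := by
  unfold nu
  exact (contDiffOn_scalarCurv hg).div_const _

lemma nu_diff (hg : IsRiemannianOn g U) (hx : x ∈ U) (m : ℕ) :
    DifferentiableAt ℝ (fun y => nu g m y) x :=
  ((contDiffOn_nu hg m).contDiffAt (hg.isOpen.mem_nhds hx)).differentiableAt (by norm_num)

lemma covRic_eq {m : ℕ} (hm : 2 ≤ m) (hnm : n = 4 * m) (h : QKOn g J U) (hx : x ∈ U)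
    (V X Y : 𝔼) : covRic g x V X Y =
      (m + 2) * fderiv ℝ (fun y => nu g m y) x V * bil (g x) X Y := by
  have hb : DifferentiableAt ℝ (fun y => bil (g y) X Y) x := by
    have : DifferentiableAt ℝ (fun y => Gf g y X Y) x :=
      ((differentiableAt_Gf h.riem hx).clm_apply (differentiableAt_const _)).clm_apply
        (differentiableAt_const _)
    exact this
  have e : (fun y => ricF g y X Y) =ᶠ[𝓝 x] fun y => (((m : ℝ) + 2) * nu g m y) * bil (g y) X Y := by
    filter_upwards [h.isOpen.mem_nhds hx] with y hy using ricF_eq_nu hm hnm h hy X Y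
  have hν := nu_diff h.riem hx m
  rw [covRic, e.fderiv_eq, ricF_eq_nu hm hnm h hx, ricF_eq_nu hm hnm h hx,
    fderiv_fun_mul (hν.const_mul _) hb]
  simp only [add_apply, smul_apply, smul_eq_mul]
  rw [fderiv_const_mul hν, fderiv_bil h.riem hx (differentiableAt_const _)
    (differentiableAt_const _)]
  simp only [cov_apply, fderiv_fun_const, Pi.zero_apply, zero_apply, zero_add, smul_apply,
    smul_eq_mul]
  ring

/-- `dν = 0`. -/
theorem fderiv_nu {m : ℕ} (hm : 2 ≤ m) (hnm : n = 4 * m) (h : QKOn g J U) (hx : x ∈ U) :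
    fderiv ℝ (fun y => nu g m y) x = 0 := by
  refine ContinuousLinearMap.ext fun V => ?_
  have hF := qv_frame h hx
  have h1 := contracted h.riem hx hF V
  simp only [covRic_eq hm hnm h hx] at h1
  have h2 : ∑ a, (m + 2) * fderiv ℝ (fun y => nu g m y) x ((qv h hx).ξ a) *
      bil (g x) V ((qv h hx).ξ a) = (m + 2) * fderiv ℝ (fun y => nu g m y) x V := by
    conv_rhs => rw [hF.expand h.riem hx V]
    rw [map_sum, Finset.mul_sum]
    refine Finset.sum_congr rfl fun a _ => ?_
    rw [map_smul, smul_eq_mul]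
    ring
  have h3 : ∑ b, (m + 2) * fderiv ℝ (fun y => nu g m y) x V *
      bil (g x) ((qv h hx).ξ b) ((qv h hx).ξ b) =
      (n : ℝ) * ((m + 2) * fderiv ℝ (fun y => nu g m y) x V) := by
    simp only [hF.orth, if_true, mul_one, Finset.sum_const, Finset.card_univ, Fintype.card_fin,
      nsmul_eq_mul]
  rw [h2, h3] at h1
  have hm' : (2 : ℝ) ≤ m := by exact_mod_cast hm
  have hnr : (n : ℝ) = 4 * m := by rw [hnm]; push_cast; ring
  rw [hnr] at h1
  have h4 : ((4 * (m : ℝ) - 2) * (m + 2)) * fderiv ℝ (fun y => nu g m y) x V = 0 := by linarith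
  rcases mul_eq_zero.1 h4 with h5 | h5
  · exfalso
    have : 0 < (4 * (m : ℝ) - 2) * (m + 2) := by nlinarith
    exact this.ne' h5
  · exact h5

theorem pderiv_nu {m : ℕ} (hm : 2 ≤ m) (hnm : n = 4 * m) (h : QKOn g J U) (hx : x ∈ U)
    (i : Fin n) : pderiv i (fun y => nu g m y) x = 0 := by
  rw [pderiv, fderiv_nu hm hnm h hx]; rfl

/-- `ν` is locally constant. -/
theorem nu_locConst {m : ℕ} (hm : 2 ≤ m) (hnm : n = 4 * m) (h : QKOn g J U) (hx : x ∈ U) :
    ∀ᶠ y in 𝓝 x, nu g m y = nu g m x := by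
  obtain ⟨r, hr, hb⟩ := Metric.isOpen_iff.1 h.isOpen x hx
  filter_upwards [Metric.ball_mem_nhds x hr] with y hy
  have hconv : Convex ℝ (Metric.ball x r) := convex_ball x r
  have := hconv.is_const_of_fderivWithin_eq_zero (𝕜 := ℝ) (f := fun y => nu g m y)
    (fun z hz => (nu_diff h.riem (hb hz) m).differentiableWithinAt)
    (fun z hz => by
      rw [fderivWithin_of_isOpen Metric.isOpen_ball hz, fderiv_nu hm hnm h (hb hz)])
    hy (Metric.mem_ball_self hr)
  exact this

end

end Crest.Agent.R260.Qk6_151
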