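import Crest.Agent.R260.Qk6_151

/-!
# Row 260, QK-LOC file 7 (helper151): changes of charts, and `ν` is one constant

For a `ChartMetric` on a smooth manifold and two atlas charts `e, e'`:
* `pull_chart` : the structure `Pull` of R202 (hence `gam_eq`, `curv_eq`, `ricci_pull`, ...) for
  `Φ = e' ∘ e.symm` on `e.target ∩ e.symm ⁻¹' e'.source`;
* `jac_eq` : `fderiv ℝ Φ (e x)` is the endomorphism of `jacobianMatrix`;
* `nu_const` : under the hypotheses of S0398 there is `ν₀ > 0` with `nu (G.g e) m x = ν₀`.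
-/

set_option autoImplicit false
set_option linter.unusedSimpArgs false

open scoped Manifold ContDiff Topology
open Filter Set
open Crest.GeometryTopology.CoordMetric
open Crest.GeometryTopology.ChartRiem
open Crest.Agent.R202.Tens Crest.Agent.R247.Bo84
open Crest.Agent.R249.Bia1_104 Crest.Agent.R249.Bia2_104 Crest.Agent.R249.Bia3_104

noncomputable section

namespace Crest.Agent.R260.Qk7_151

open Crest.Agent.R260.Qk3_151 Crest.Agent.R260.Qk4_151 Crest.Agent.R260.Qk5_151
open Crest.Agent.R260.Qk6_151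

variable {n : ℕ} {M : Type} [TopologicalSpace M]

local notation "𝔼" => EuclideanSpace ℝ (Fin n)

/-- the change of charts -/
def chg (e e' : OpenPartialHomeomorph M (EuclideanSpace ℝ (Fin n)))
    (y : EuclideanSpace ℝ (Fin n)) : EuclideanSpace ℝ (Fin n) := e' (e.symm y)

/-- the domain of the change of charts -/
def dom (e e' : OpenPartialHomeomorph M (EuclideanSpace ℝ (Fin n))) :
    Set (EuclideanSpace ℝ (Fin n)) := e.target ∩ e.symm ⁻¹' e'.source

lemma isOpen_dom (e e' : OpenPartialHomeomorph M (EuclideanSpace ℝ (Fin n))) :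
    IsOpen (dom e e') := e.isOpen_inter_preimage_symm e'.open_source

lemma mem_dom {e e' : OpenPartialHomeomorph M (EuclideanSpace ℝ (Fin n))} {x : M}
    (hx : x ∈ e.source ∩ e'.source) : e x ∈ dom e e' := by
  refine ⟨e.map_source hx.1, ?_⟩
  rw [mem_preimage, e.left_inv hx.1]
  exact hx.2

lemma chg_mem {e e' : OpenPartialHomeomorph M (EuclideanSpace ℝ (Fin n))}
    {y : EuclideanSpace ℝ (Fin n)} (hy : y ∈ dom e e') : chg e e' y ∈ dom e' e := by
  refine ⟨e'.map_source hy.2, ?_⟩
  rw [mem_preimage, chg, e'.left_inv hy.2]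
  exact e.map_target hy.1

lemma chg_chg {e e' : OpenPartialHomeomorph M (EuclideanSpace ℝ (Fin n))}
    {y : EuclideanSpace ℝ (Fin n)} (hy : y ∈ dom e e') : chg e' e (chg e e' y) = y := by
  rw [chg, chg, e'.left_inv hy.2, e.right_inv hy.1]

lemma chg_apply {e e' : OpenPartialHomeomorph M (EuclideanSpace ℝ (Fin n))} {x : M}
    (hx : x ∈ e.source) : chg e e' (e x) = e' x := by rw [chg, e.left_inv hx]

section

variable [ChartedSpace (EuclideanSpace ℝ (Fin n)) M]
  [IsManifold 𝓘(ℝ, EuclideanSpace ℝ (Fin n)) ∞ M]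
  {e e' : OpenPartialHomeomorph M (EuclideanSpace ℝ (Fin n))}

lemma chg_smooth (he : e ∈ atlas (EuclideanSpace ℝ (Fin n)) M)
    (he' : e' ∈ atlas (EuclideanSpace ℝ (Fin n)) M) :
    ContDiffOn ℝ ∞ (chg e e') (dom e e') := by
  have h := (contDiffGroupoid ∞ 𝓘(ℝ, EuclideanSpace ℝ (Fin n))).compatible he he'
  rw [contDiffGroupoid, mem_groupoid_of_pregroupoid] at h
  have h1 := h.1
  simp only [contDiffPregroupoid, mfld_simps] at h1
  exact h1

lemma chg_diff (he : e ∈ atlas (EuclideanSpace ℝ (Fin n)) M)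
    (he' : e' ∈ atlas (EuclideanSpace ℝ (Fin n)) M) {y : EuclideanSpace ℝ (Fin n)}
    (hy : y ∈ dom e e') : DifferentiableAt ℝ (chg e e') y :=
  ((chg_smooth he he').contDiffAt ((isOpen_dom e e').mem_nhds hy)).differentiableAt (by norm_num)

/-- the derivative of the inverse change of charts is the inverse. -/
lemma fderiv_chg_chg (he : e ∈ atlas (EuclideanSpace ℝ (Fin n)) M)
    (he' : e' ∈ atlas (EuclideanSpace ℝ (Fin n)) M) {y : EuclideanSpace ℝ (Fin n)}
    (hy : y ∈ dom e e') (X : EuclideanSpace ℝ (Fin n)) :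
    fderiv ℝ (chg e' e) (chg e e' y) (fderiv ℝ (chg e e') y X) = X := by
  have h1 := fderiv_comp (x := y) (chg_diff he' he (chg_mem hy)) (chg_diff he he' hy)
  have h2 : (chg e' e ∘ chg e e') =ᶠ[𝓝 y] id := by
    filter_upwards [(isOpen_dom e e').mem_nhds hy] with z hz using chg_chg hz
  rw [h2.fderiv_eq, fderiv_id] at h1
  have := congrArg (fun L : EuclideanSpace ℝ (Fin n) →L[ℝ] EuclideanSpace ℝ (Fin n) => L X) h1
  exact this.symm

lemma jac_eq (he : e ∈ atlas (EuclideanSpace ℝ (Fin n)) M)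
    (he' : e' ∈ atlas (EuclideanSpace ℝ (Fin n)) M) {x : M} (hx : x ∈ e.source ∩ e'.source)
    (X : EuclideanSpace ℝ (Fin n)) :
    fderiv ℝ (chg e e') (e x) X = mL (jacobianMatrix n M e e' x) X := by
  conv_lhs => rw [eq_sum_single X]
  conv_rhs => rw [eq_sum_single X]
  rw [map_sum, map_sum]
  refine Finset.sum_congr rfl fun b _ => ?_
  rw [map_smul, map_smul]
  congr 1
  ext a
  rw [mL_single, fderiv_coord (chg_diff he he' (mem_dom hx))]
  rfl

/-- the change of charts pulls back the metric. -/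
theorem pull_chart (G : ChartMetric n M) (he : e ∈ atlas (EuclideanSpace ℝ (Fin n)) M)
    (he' : e' ∈ atlas (EuclideanSpace ℝ (Fin n)) M) :
    Pull (G.g e) (G.g e') (chg e e') (dom e e') e'.target where
  isOpen := isOpen_dom e e'
  riem := G.riemannian e' he'
  maps := fun y hy => (chg_mem hy).1
  smooth := chg_smooth he he'
  pull := by
    intro y hy i j
    have hx : e.symm y ∈ e.source ∩ e'.source := ⟨e.map_target hy.1, hy.2⟩
    have h1 := G.compat e he e' he' (e.symm y) hx
    rw [e.right_inv hy.1] at h1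
    have h2 : G.g e' (e' (e.symm y)) = G.g e' (chg e e' y) := rfl
    rw [h1, h2, Matrix.mul_apply]
    have hP : ∀ a b, jacobianMatrix n M e e' (e.symm y) a b =
        (fderiv ℝ (chg e e') y (EuclideanSpace.single b 1)) a := by
      intro a b
      have h3 := jac_eq he he' hx (EuclideanSpace.single b 1)
      rw [e.right_inv hy.1] at h3
      rw [h3, mL_single]
    have : ∀ b, ((jacobianMatrix n M e e' (e.symm y)).transpose * G.g e' (chg e e' y)) i b *
        jacobianMatrix n M e e' (e.symm y) b j = ∑ a, G.g e' (chg e e' y) a b *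
        (fderiv ℝ (chg e e') y (EuclideanSpace.single i 1)) a *
        (fderiv ℝ (chg e e') y (EuclideanSpace.single j 1)) b := by
      intro b
      rw [Matrix.mul_apply, Finset.sum_mul]
      refine Finset.sum_congr rfl fun a _ => ?_
      rw [Matrix.transpose_apply, hP, hP]
      ring
    simp only [this]
    rw [Finset.sum_comm]
  inj := by
    intro y hy X Y hXY
    rw [← fderiv_chg_chg he he' hy X, hXY, fderiv_chg_chg he he' hy Y]

/-- `ν` does not depend on the chart. -/
theorem nu_chart {m : ℕ} (hm : 2 ≤ m) (hnm : n = 4 * m) (G : ChartMetric n M)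
    (Q : QuaternionicStructure n M G) (he : e ∈ atlas (EuclideanSpace ℝ (Fin n)) M)
    (he' : e' ∈ atlas (EuclideanSpace ℝ (Fin n)) M) {x : M} (hx : x ∈ e.source ∩ e'.source) :
    nu (G.g e) m (e x) = nu (G.g e') m (e' x) := by
  have hP := pull_chart G he he'
  have hd := mem_dom hx
  have hn : 0 < n := by omega
  set X : EuclideanSpace ℝ (Fin n) := EuclideanSpace.single ⟨0, hn⟩ 1 with hX
  have hX0 : X ≠ 0 := by
    intro h0
    have := congrArg (fun v : EuclideanSpace ℝ (Fin n) => v ⟨0, hn⟩) h0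
    simp [hX] at this
  have h1 := hP.ricci_pull hd X X
  have hte : e x ∈ e.target := e.map_source hx.1
  have hte' : chg e e' (e x) ∈ e'.target := (chg_mem hd).1
  rw [← ricF_eq (G.riemannian e he) hte, ← ricF_eq (G.riemannian e' he') hte',
    ricF_eq_nu hm hnm (qkOn G Q he) hte, ricF_eq_nu hm hnm (qkOn G Q he') hte', hP.bil_eq hd X X]
    at h1
  have hpos := bil_pos (G.riemannian e he) hte hX0
  rw [hP.bil_eq hd X X] at hpos
  have h2 := mul_right_cancel₀ hpos.ne' h1
  have h3 : ((m : ℝ) + 2) ≠ 0 := by positivity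
  have h4 := mul_left_cancel₀ h3 h2
  rw [h4, chg_apply hx.1]

/-- **`ν` is one positive constant** under the hypotheses of S0398. -/
theorem nu_const {m : ℕ} (hm : 2 ≤ m) (hnm : n = 4 * m) [ConnectedSpace M] (G : ChartMetric n M)
    (Q : QuaternionicStructure n M G)
    (hpos : ∀ e ∈ atlas (EuclideanSpace ℝ (Fin n)) M, ∀ x ∈ e.target, 0 < scalarCurv (G.g e) x) :
    ∃ ν₀ : ℝ, 0 < ν₀ ∧ ∀ e ∈ atlas (EuclideanSpace ℝ (Fin n)) M, ∀ x ∈ e.target,
      nu (G.g e) m x = ν₀ := by
  classical
  set c : M → OpenPartialHomeomorph M (EuclideanSpace ℝ (Fin n)) := fun p =>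
    chartAt (EuclideanSpace ℝ (Fin n)) p with hc
  have hcm : ∀ p, c p ∈ atlas (EuclideanSpace ℝ (Fin n)) M := fun p => chart_mem_atlas _ p
  have hcs : ∀ p, p ∈ (c p).source := fun p => mem_chart_source _ p
  set N : M → ℝ := fun p => nu (G.g (c p)) m (c p p) with hN
  have hN' : ∀ e ∈ atlas (EuclideanSpace ℝ (Fin n)) M, ∀ p ∈ e.source,
      nu (G.g e) m (e p) = N p := fun e he p hp => nu_chart hm hnm G Q he (hcm p) ⟨hp, hcs p⟩
  have hloc : IsLocallyConstant N := by
    rw [IsLocallyConstant.iff_eventually_eq]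
    intro p
    have h1 := nu_locConst hm hnm (qkOn G Q (hcm p)) ((c p).map_source (hcs p))
    have h2 := ((c p).continuousAt (hcs p)).eventually h1
    filter_upwards [h2, (c p).open_source.mem_nhds (hcs p)] with q hq hqs
    rw [← hN' (c p) (hcm p) q hqs, hq]
  obtain ⟨p0⟩ : Nonempty M := inferInstance
  refine ⟨N p0, ?_, fun e he x hx => ?_⟩
  · have h1 := hpos (c p0) (hcm p0) (c p0 p0) ((c p0).map_source (hcs p0))
    have hm' : (2 : ℝ) ≤ m := by exact_mod_cast hm
    simp only [hN, nu]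
    positivity
  · have h1 := hN' e he (e.symm x) (e.map_target hx)
    rw [e.right_inv hx] at h1
    rw [h1]
    exact hloc.apply_eq_of_isPreconnected isPreconnected_univ (mem_univ _) (mem_univ _)

end

end Crest.Agent.R260.Qk7_151
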