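import Crest.Agent.R260.Qk7_151

/-!
# Row 260, QK-COC file 1 (helper151): change of frame of a quaternionic structure

`Pair g g' J J' φ V U'` : local quaternionic data `(g, J)` on `V`, `(g', J')` on `U'`, `φ : V → U'`
a local diffeomorphism pulling back the metric and the span.  With `P = jm φ y` the Jacobian matrix:
* `qm .. y b a` : the `SO(3)` matrix, `P * J a y = (Σ_b qm y b a • J' b (φ y)) * P` (`qm_spec`),
  unique (`qm_unique`), smooth (`qm_smooth`), orthogonal (`qm_orth`), `qm_cr`;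
* `cf_trans` : `Σ_b c_ab(i) q_db = ∂_i q_da + Σ_b q_ba c'_bd(φ_* ∂_i)`.
-/

set_option autoImplicit false
set_option linter.unusedSimpArgs false

open scoped Manifold ContDiff Topology
open Filter Set
open Crest.GeometryTopology.CoordMetric
open Crest.GeometryTopology.ChartRiem
open Crest.Agent.R202.Tens Crest.Agent.R247.Bo84
open Crest.Agent.R249.Bia1_104 Crest.Agent.R249.Bia2_104 Crest.Agent.R249.Bia3_104

noncomputable section

namespace Crest.Agent.R260.Qk8_151

open Crest.Agent.R260.Qk3_151 Crest.Agent.R260.Qk4_151 Crest.Agent.R260.Qk5_151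
open Crest.Agent.R260.Qk6_151 Crest.Agent.R260.Qk7_151

variable {n : ℕ}

local notation "𝔼" => EuclideanSpace ℝ (Fin n)

/-! ### smooth matrix fields -/

/-- entrywise smoothness on a set -/
def SmM (A : EuclideanSpace ℝ (Fin n) → Matrix (Fin n) (Fin n) ℝ)
    (V : Set (EuclideanSpace ℝ (Fin n))) : Prop := ∀ l p, ContDiffOn ℝ ∞ (fun y => A y l p) V

lemma SmM.mul {A B : 𝔼 → Matrix (Fin n) (Fin n) ℝ} {V : Set 𝔼} (hA : SmM A V) (hB : SmM B V) :
    SmM (fun y => A y * B y) V := fun l p => by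
  simp only [Matrix.mul_apply]
  exact ContDiffOn.sum fun k _ => (hA l k).mul (hB k p)

lemma SmM.transpose {A : 𝔼 → Matrix (Fin n) (Fin n) ℝ} {V : Set 𝔼} (hA : SmM A V) :
    SmM (fun y => (A y).transpose) V := fun l p => hA p l

lemma SmM.trace {A : 𝔼 → Matrix (Fin n) (Fin n) ℝ} {V : Set 𝔼} (hA : SmM A V) :
    ContDiffOn ℝ ∞ (fun y => (A y).trace) V := by
  simp only [Matrix.trace, Matrix.diag_apply]
  exact ContDiffOn.sum fun k _ => hA k k

lemma SmM.comp {A : 𝔼 → Matrix (Fin n) (Fin n) ℝ} {V W : Set 𝔼} {φ : 𝔼 → 𝔼} (hA : SmM A W)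
    (hφ : ContDiffOn ℝ ∞ φ V) (hm : ∀ y ∈ V, φ y ∈ W) : SmM (fun y => A (φ y)) V :=
  fun l p => (hA l p).comp hφ hm

lemma SmM.dm {A : 𝔼 → Matrix (Fin n) (Fin n) ℝ} {V : Set 𝔼} (hA : SmM A V) (hV : IsOpen V)
    {y : 𝔼} (hy : y ∈ V) : DM A y := fun l p =>
  ((hA l p).contDiffAt (hV.mem_nhds hy)).differentiableAt (by norm_num)

/-- the Jacobian matrix of a map -/
def jm (φ : EuclideanSpace ℝ (Fin n) → EuclideanSpace ℝ (Fin n)) (y : EuclideanSpace ℝ (Fin n)) :
    Matrix (Fin n) (Fin n) ℝ := Matrix.of fun a b => pderiv b (fun z => φ z a) y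

lemma jm_apply (φ : 𝔼 → 𝔼) (y : 𝔼) (a b : Fin n) : jm φ y a b = pderiv b (fun z => φ z a) y := rfl

lemma jm_eq {φ : 𝔼 → 𝔼} {y : 𝔼} (hφ : DifferentiableAt ℝ φ y) (X : 𝔼) :
    fderiv ℝ φ y X = mL (jm φ y) X := by
  conv_lhs => rw [eq_sum_single X]
  conv_rhs => rw [eq_sum_single X]
  rw [map_sum, map_sum]
  refine Finset.sum_congr rfl fun b _ => ?_
  rw [map_smul, map_smul]
  congr 1
  ext a
  rw [mL_single, fderiv_coord hφ]
  rfl

lemma jm_coord {φ : 𝔼 → 𝔼} {y : 𝔼} (hφ : DifferentiableAt ℝ φ y) (a b : Fin n) :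
    (fderiv ℝ φ y (EuclideanSpace.single b 1)) a = jm φ y a b := by
  rw [jm_eq hφ, mL_single]

lemma jm_comp {φ ψ : 𝔼 → 𝔼} {y : 𝔼} (hψ : DifferentiableAt ℝ ψ (φ y))
    (hφ : DifferentiableAt ℝ φ y) : jm (fun z => ψ (φ z)) y = jm ψ (φ y) * jm φ y := by
  have hc : DifferentiableAt ℝ (fun z => ψ (φ z)) y := hψ.comp y hφ
  ext a b
  rw [← jm_coord hc, fderiv_fun_comp y hψ hφ, ContinuousLinearMap.comp_apply, jm_eq hφ, jm_eq hψ,
    ← mL_mul, mL_single]

lemma jm_congr {φ ψ : 𝔼 → 𝔼} {y : 𝔼} (h : φ =ᶠ[𝓝 y] ψ) : jm φ y = jm ψ y := by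
  ext a b
  rw [jm_apply, jm_apply]
  exact pderiv_congr (h.mono fun z hz => by rw [hz]) b

lemma jm_id (y : 𝔼) : jm (fun z : 𝔼 => z) y = 1 := by
  ext a b
  have h1 := jm_coord (φ := fun z : 𝔼 => z) (y := y) differentiableAt_id a b
  have : fderiv ℝ (fun z : 𝔼 => z) y = ContinuousLinearMap.id ℝ 𝔼 := fderiv_fun_id
  rw [this] at h1
  rw [← h1, Matrix.one_apply]
  simp [PiLp.single_apply]

lemma jm_smooth {φ : 𝔼 → 𝔼} {V : Set 𝔼} (hV : IsOpen V) (hφ : ContDiffOn ℝ ∞ φ V) :
    SmM (jm φ) V := fun a b =>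
  contDiffOn_pderiv hV ((EuclideanSpace.proj a : 𝔼 →L[ℝ] ℝ).contDiff.comp_contDiffOn hφ) b

/-- chain rule for the entries of a matrix field. -/
lemma pd_comp {A : 𝔼 → Matrix (Fin n) (Fin n) ℝ} {φ : 𝔼 → 𝔼} {y : 𝔼} (hA : DM A (φ y))
    (hφ : DifferentiableAt ℝ φ y) (i : Fin n) :
    pd i (fun z => A (φ z)) y = ∑ k, jm φ y k i • pd k A (φ y) := by
  ext l p
  rw [pd_apply, Matrix.sum_apply]
  have h1 : pderiv i (fun z => A (φ z) l p) y =
      fderiv ℝ (fun w => A w l p) (φ y) (fderiv ℝ φ y (EuclideanSpace.single i 1)) := by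
    rw [pderiv, fderiv_fun_comp y (hA l p) hφ]
    rfl
  rw [h1, fderiv_eq_sum]
  refine Finset.sum_congr rfl fun k _ => ?_
  rw [jm_coord hφ]
  rfl

/-! ### pairs of local quaternionic data -/

/-- local quaternionic data related by a change of coordinates -/
structure Pair (g g' : MetricField n)
    (J J' : Fin 3 → EuclideanSpace ℝ (Fin n) → Matrix (Fin n) (Fin n) ℝ)
    (φ : EuclideanSpace ℝ (Fin n) → EuclideanSpace ℝ (Fin n))
    (V U' : Set (EuclideanSpace ℝ (Fin n))) : Prop where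
  pull : Pull g g' φ V U'
  qk : QKOn g J V
  qk' : QKOn g' J' U'
  span : ∀ y ∈ V, ∀ a : Fin 3, ∃ q : Fin 3 → ℝ,
    jm φ y * J a y = (∑ b, q b • J' b (φ y)) * jm φ y

/-- the inverse Jacobian `g⁻¹ Pᵀ g'(φ)` -/
def jinv (g g' : MetricField n) (φ : EuclideanSpace ℝ (Fin n) → EuclideanSpace ℝ (Fin n))
    (y : EuclideanSpace ℝ (Fin n)) : Matrix (Fin n) (Fin n) ℝ :=
  inverseField g y * ((jm φ y).transpose * g' (φ y))

/-- the change of frame: column `a` = coordinates of `J a` in the frame `J'`. -/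
def qm (g g' : MetricField n) (J J' : Fin 3 → EuclideanSpace ℝ (Fin n) → Matrix (Fin n) (Fin n) ℝ)
    (φ : EuclideanSpace ℝ (Fin n) → EuclideanSpace ℝ (Fin n)) (y : EuclideanSpace ℝ (Fin n)) :
    Matrix (Fin 3) (Fin 3) ℝ :=
  Matrix.of fun b a => -(1 / (n : ℝ)) * (jm φ y * J a y * jinv g g' φ y * J' b (φ y)).trace

lemma qm_apply (g g' : MetricField n) (J J' : Fin 3 → 𝔼 → Matrix (Fin n) (Fin n) ℝ)
    (φ : 𝔼 → 𝔼) (y : 𝔼) (b a : Fin 3) : qm g g' J J' φ y b a =
      -(1 / (n : ℝ)) * (jm φ y * J a y * jinv g g' φ y * J' b (φ y)).trace := rfl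

/-- cross product on `Fin 3 → ℝ` -/
def crs (u v : Fin 3 → ℝ) : Fin 3 → ℝ :=
  ![u 1 * v 2 - u 2 * v 1, u 2 * v 0 - u 0 * v 2, u 0 * v 1 - u 1 * v 0]

lemma QKOn_prod {g : MetricField n} {J : Fin 3 → 𝔼 → Matrix (Fin n) (Fin n) ℝ} {U : Set 𝔼}
    (h : QKOn g J U) {x : 𝔼} (hx : x ∈ U) (u v : Fin 3 → ℝ) :
    (∑ a, u a • J a x) * (∑ b, v b • J b x) =
      (-(∑ a, u a * v a)) • (1 : Matrix (Fin n) (Fin n) ℝ) + ∑ c, crs u v c • J c x := by
  simp only [Fin.sum_univ_three, Matrix.add_mul, Matrix.mul_add, Matrix.smul_mul, Matrix.mul_smul,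
    h.sq x hx, h.mul01 hx, h.mul10 hx, h.mul12 hx, h.mul21 hx, h.mul20 hx, h.mul02 hx, crs,
    Matrix.cons_val_zero, Matrix.cons_val_one, Matrix.cons_val]
  module

namespace Pair

variable {g g' : MetricField n} {J J' : Fin 3 → EuclideanSpace ℝ (Fin n) → Matrix (Fin n) (Fin n) ℝ}
  {φ : EuclideanSpace ℝ (Fin n) → EuclideanSpace ℝ (Fin n)}
  {V U' : Set (EuclideanSpace ℝ (Fin n))} {y : EuclideanSpace ℝ (Fin n)}

lemma isOpen (h : Pair g g' J J' φ V U') : IsOpen V := h.pull.isOpen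

lemma diff (h : Pair g g' J J' φ V U') (hy : y ∈ V) : DifferentiableAt ℝ φ y :=
  (h.pull.contDiffAt hy).differentiableAt (by norm_num)

lemma g_eq (h : Pair g g' J J' φ V U') (hy : y ∈ V) :
    g y = (jm φ y).transpose * g' (φ y) * jm φ y := by
  ext i j
  rw [h.pull.pull y hy i j, Matrix.mul_apply]
  have : ∀ b, ((jm φ y).transpose * g' (φ y)) i b * jm φ y b j = ∑ a, g' (φ y) a b *
      (fderiv ℝ φ y (EuclideanSpace.single i 1)) a *
      (fderiv ℝ φ y (EuclideanSpace.single j 1)) b := by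
    intro b
    rw [Matrix.mul_apply, Finset.sum_mul]
    refine Finset.sum_congr rfl fun a _ => ?_
    rw [Matrix.transpose_apply, jm_coord (h.diff hy), jm_coord (h.diff hy)]
    ring
  simp only [this]
  rw [Finset.sum_comm]

lemma jinv_mul (h : Pair g g' J J' φ V U') (hy : y ∈ V) : jinv g g' φ y * jm φ y = 1 := by
  rw [jinv, Matrix.mul_assoc, ← h.g_eq hy]
  exact Matrix.nonsing_inv_mul (g y) (det_pos h.qk.riem hy).ne'.isUnit

lemma mul_jinv (h : Pair g g' J J' φ V U') (hy : y ∈ V) : jm φ y * jinv g g' φ y = 1 :=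
  mul_eq_one_comm.1 (h.jinv_mul hy)

lemma conj_eq (h : Pair g g' J J' φ V U') (hy : y ∈ V) {A B : Matrix (Fin n) (Fin n) ℝ}
    (e : jm φ y * A = B * jm φ y) : jm φ y * A * jinv g g' φ y = B := by
  rw [e, Matrix.mul_assoc, h.mul_jinv hy, Matrix.mul_one]

lemma trace_conj (h : Pair g g' J J' φ V U') (hy : y ∈ V) {A B : Matrix (Fin n) (Fin n) ℝ}
    (e : jm φ y * A = B * jm φ y) : A.trace = B.trace := by
  rw [← h.conj_eq hy e, Matrix.mul_assoc, Matrix.trace_mul_comm, Matrix.mul_assoc, h.jinv_mul hy,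
    Matrix.mul_one]

/-- uniqueness of the change of frame -/
theorem qm_unique (h : Pair g g' J J' φ V U') (hy : y ∈ V) (hn : n ≠ 0) {a : Fin 3}
    {r : Fin 3 → ℝ} (e : jm φ y * J a y = (∑ b, r b • J' b (φ y)) * jm φ y) (b : Fin 3) :
    qm g g' J J' φ y b a = r b := by
  have hn' : (n : ℝ) ≠ 0 := Nat.cast_ne_zero.2 hn
  rw [qm_apply, h.conj_eq hy e, h.qk'.trace_comb (h.pull.maps y hy)]
  field_simp

theorem qm_spec (h : Pair g g' J J' φ V U') (hy : y ∈ V) (hn : n ≠ 0) (a : Fin 3) :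
    jm φ y * J a y = (∑ b, qm g g' J J' φ y b a • J' b (φ y)) * jm φ y := by
  obtain ⟨r, hr⟩ := h.span y hy a
  have : ∀ b, qm g g' J J' φ y b a = r b := fun b => h.qm_unique hy hn hr b
  simp only [this]
  exact hr

theorem qm_smooth (h : Pair g g' J J' φ V U') (b a : Fin 3) :
    ContDiffOn ℝ ∞ (fun y => qm g g' J J' φ y b a) V := by
  have h1 : SmM (jm φ) V := jm_smooth h.isOpen h.pull.smooth
  have h2 : SmM (fun y => g' (φ y)) V := SmM.comp (fun l p => h.pull.riem.contDiffOn l p)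
    h.pull.smooth h.pull.maps
  have h3 : SmM (fun y => J' b (φ y)) V := SmM.comp (fun l p => h.qk'.smooth b l p)
    h.pull.smooth h.pull.maps
  have h4 : SmM (fun y => inverseField g y) V := fun l p => contDiffOn_inv_entry h.qk.riem l p
  have h5 : SmM (J a) V := fun l p => h.qk.smooth a l p
  have h6 : SmM (fun y => jm φ y * J a y * jinv g g' φ y * J' b (φ y)) V :=
    ((h1.mul h5).mul (h4.mul (h1.transpose.mul h2))).mul h3
  exact contDiffOn_const.mul h6.trace

lemma qm_diff (h : Pair g g' J J' φ V U') (hy : y ∈ V) (b a : Fin 3) :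
    DifferentiableAt ℝ (fun y => qm g g' J J' φ y b a) y :=
  ((h.qm_smooth b a).contDiffAt (h.isOpen.mem_nhds hy)).differentiableAt (by norm_num)

/-- products transform -/
lemma prod_spec (h : Pair g g' J J' φ V U') (hy : y ∈ V) (hn : n ≠ 0) (a b : Fin 3) :
    jm φ y * (J a y * J b y) = ((∑ d, qm g g' J J' φ y d a • J' d (φ y)) *
      (∑ d, qm g g' J J' φ y d b • J' d (φ y))) * jm φ y := by
  rw [← Matrix.mul_assoc, h.qm_spec hy hn a, Matrix.mul_assoc, h.qm_spec hy hn b,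
    ← Matrix.mul_assoc]

/-- the change of frame is orthogonal -/
theorem qm_orth (h : Pair g g' J J' φ V U') (hy : y ∈ V) (hn : n ≠ 0) :
    (qm g g' J J' φ y).transpose * qm g g' J J' φ y = 1 := by
  have hn' : (n : ℝ) ≠ 0 := Nat.cast_ne_zero.2 hn
  ext a b
  have h1 := h.trace_conj hy (h.prod_spec hy hn a b)
  rw [h.qk.trace_JJ hy, QKOn_prod h.qk' (h.pull.maps y hy), Matrix.trace_add, Matrix.trace_smul,
    Matrix.trace_one, Fintype.card_fin, Matrix.trace_sum] at h1
  simp only [Matrix.trace_smul, h.qk'.trace_J (h.pull.maps y hy), mul_zero,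
    Finset.sum_const_zero, add_zero, smul_eq_mul] at h1
  rw [Matrix.mul_apply, Matrix.one_apply]
  simp only [Matrix.transpose_apply]
  have h2 : (∑ d, qm g g' J J' φ y d a * qm g g' J J' φ y d b) * (n : ℝ) =
      (if a = b then 1 else 0) * (n : ℝ) := by
    split_ifs at h1 ⊢ with hab
    · linarith
    · linarith
  exact mul_right_cancel₀ hn' h2

lemma crs_col (h : Pair g g' J J' φ V U') (hy : y ∈ V) (hn : n ≠ 0) {a b c : Fin 3}
    (habc : J a y * J b y = J c y) (d : Fin 3) :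
    crs (fun e => qm g g' J J' φ y e a) (fun e => qm g g' J J' φ y e b) d =
      qm g g' J J' φ y d c := by
  have hn' : (n : ℝ) ≠ 0 := Nat.cast_ne_zero.2 hn
  have hφ := h.pull.maps y hy
  have h1 := h.prod_spec hy hn a b
  rw [habc] at h1
  have h2 := h.conj_eq hy h1
  rw [h.conj_eq hy (h.qm_spec hy hn c), QKOn_prod h.qk' hφ] at h2
  have h3 := congrArg (fun A => (A * J' d (φ y)).trace) h2
  simp only [Matrix.add_mul, Matrix.trace_add, Matrix.smul_mul, Matrix.one_mul,
    Matrix.trace_smul, h.qk'.trace_J hφ, smul_zero, zero_add, h.qk'.trace_comb hφ] at h3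
  have : (n : ℝ) * qm g g' J J' φ y d c = n * crs (fun e => qm g g' J J' φ y e a)
      (fun e => qm g g' J J' φ y e b) d := by linarith
  exact (mul_left_cancel₀ hn' this).symm

/-- the change of frame preserves the cross product -/
theorem qm_cr (h : Pair g g' J J' φ V U') (hy : y ∈ V) (hn : n ≠ 0) (u v : Fin 3 → ℝ) :
    crs ((qm g g' J J' φ y).mulVec u) ((qm g g' J J' φ y).mulVec v) =
      (qm g g' J J' φ y).mulVec (crs u v) := by
  set q := qm g g' J J' φ y with hq
  have c2 : ∀ d, crs (fun e => q e 0) (fun e => q e 1) d = q d 2 :=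
    fun d => h.crs_col hy hn (h.qk.mul01 hy) d
  have c0 : ∀ d, crs (fun e => q e 1) (fun e => q e 2) d = q d 0 :=
    fun d => h.crs_col hy hn (h.qk.mul12 hy) d
  have c1 : ∀ d, crs (fun e => q e 2) (fun e => q e 0) d = q d 1 :=
    fun d => h.crs_col hy hn (h.qk.mul20 hy) d
  have c20 := c2 0
  have c21 := c2 1
  have c22 := c2 2
  have c00 := c0 0
  have c01 := c0 1
  have c02 := c0 2
  have c10 := c1 0
  have c11 := c1 1
  have c12 := c1 2
  simp only [crs, Matrix.cons_val_zero, Matrix.cons_val_one, Matrix.cons_val] at c20 c21 c22 c00 c01 c02 c10 c11 c12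
  funext d
  fin_cases d
  · simp only [crs, Matrix.mulVec, dotProduct, Fin.sum_univ_three, Matrix.cons_val_zero,
      Matrix.cons_val_one, Matrix.cons_val, Fin.zero_eta, Fin.mk_one, Fin.reduceFinMk]
    linear_combination (u 0 * v 1 - u 1 * v 0) * c20 + (u 1 * v 2 - u 2 * v 1) * c00 +
      (u 2 * v 0 - u 0 * v 2) * c10
  · simp only [crs, Matrix.mulVec, dotProduct, Fin.sum_univ_three, Matrix.cons_val_zero,
      Matrix.cons_val_one, Matrix.cons_val, Fin.zero_eta, Fin.mk_one, Fin.reduceFinMk]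
    linear_combination (u 0 * v 1 - u 1 * v 0) * c21 + (u 1 * v 2 - u 2 * v 1) * c01 +
      (u 2 * v 0 - u 0 * v 2) * c11
  · simp only [crs, Matrix.mulVec, dotProduct, Fin.sum_univ_three, Matrix.cons_val_zero,
      Matrix.cons_val_one, Matrix.cons_val, Fin.zero_eta, Fin.mk_one, Fin.reduceFinMk]
    linear_combination (u 0 * v 1 - u 1 * v 0) * c22 + (u 1 * v 2 - u 2 * v 1) * c02 +
      (u 2 * v 0 - u 0 * v 2) * c12

/-- transformation of the Christoffel matrices: `P Γ_i = (Σ_k P_ki Γ'_k) P + ∂_i P`. -/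
lemma gam_trans (h : Pair g g' J J' φ V U') (hy : y ∈ V) (i : Fin n) :
    jm φ y * christoffelMatrix g y i =
      (∑ k, jm φ y k i • christoffelMatrix g' (φ y) k) * jm φ y + pd i (jm φ) y := by
  have hd := h.diff hy
  have hdd : DifferentiableAt ℝ (fderiv ℝ φ) y :=
    ((h.pull.contDiffAt hy).fderiv_right (m := 1) (by norm_cast)).differentiableAt (by norm_num)
  have hG : ∀ (g : MetricField n) (x Y : 𝔼) (k : Fin n), Gam g x (EuclideanSpace.single k 1) Y =
      mL (christoffelMatrix g x k) Y := by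
    intro g x Y k
    ext l
    rw [Gam_single_left]
    rfl
  have hpd : ∀ p, mL (pd i (jm φ) y) (EuclideanSpace.single p 1) =
      fderiv ℝ (fderiv ℝ φ) y (EuclideanSpace.single i 1) (EuclideanSpace.single p 1) := by
    intro p
    ext l
    rw [mL_single, pd_apply]
    have e1 : (fun z => jm φ z l p) =ᶠ[𝓝 y] fun z => fderiv ℝ φ z (EuclideanSpace.single p 1) l := by
      filter_upwards [h.isOpen.mem_nhds hy] with z hz
      rw [jm_coord (h.diff hz)]
    rw [pderiv_congr e1, pderiv, ← fderiv_coord (hdd.clm_apply (differentiableAt_const _)),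
      fderiv_clm_apply hdd (differentiableAt_const _)]
    simp
  refine mL_injective (LinearMap.ext fun Y => ?_)
  have h1 := h.pull.gam_eq hy (EuclideanSpace.single i 1) Y
  have e1 : fderiv ℝ φ y (EuclideanSpace.single i 1) =
      ∑ k, jm φ y k i • EuclideanSpace.single k (1:ℝ) := by
    conv_lhs => rw [eq_sum_single (fderiv ℝ φ y (EuclideanSpace.single i 1))]
    exact Finset.sum_congr rfl fun k _ => by rw [jm_coord hd]
  have e2 : fderiv ℝ (fderiv ℝ φ) y (EuclideanSpace.single i 1) Y = mL (pd i (jm φ) y) Y := by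
    conv_lhs => rw [eq_sum_single Y]
    conv_rhs => rw [eq_sum_single Y]
    rw [map_sum, map_sum]
    exact Finset.sum_congr rfl fun p _ => by rw [map_smul, map_smul, hpd]
  rw [hG, jm_eq hd, ← mL_mul] at h1
  rw [h1, mL_add, LinearMap.add_apply, mL_mul, mL_sum, LinearMap.sum_apply, ← e2, e1, map_sum,
    sum_apply, jm_eq hd Y]
  congr 1
  refine Finset.sum_congr rfl fun k _ => ?_
  rw [map_smul, mL_smul, smul_apply, LinearMap.smul_apply, hG]

/-- **transformation of the connection coefficients** -/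
theorem cf_trans (h : Pair g g' J J' φ V U') (hy : y ∈ V) (hn : n ≠ 0) (i : Fin n) (a d : Fin 3) :
    ∑ b, cf g J y i a b * qm g g' J J' φ y d b =
      pderiv i (fun z => qm g g' J J' φ z d a) y +
        ∑ b, qm g g' J J' φ y b a * ∑ k, jm φ y k i * cf g' J' (φ y) k b d := by
  set q := qm g g' J J' φ with hq
  have hφ := h.pull.maps y hy
  have hd := h.diff hy
  have dP : DM (jm φ) y := (jm_smooth h.isOpen h.pull.smooth).dm h.isOpen hy
  have dJ : DM (J a) y := h.qk.DM_J hy a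
  have dJ' : ∀ b, DM (fun z => J' b (φ z)) y := fun b =>
    (SmM.comp (fun l p => h.qk'.smooth b l p) h.pull.smooth h.pull.maps).dm h.isOpen hy
  have dq : ∀ b, DifferentiableAt ℝ (fun z => q z b a) y := fun b => h.qm_diff hy b a
  have dA : DM (fun z => ∑ b, q z b a • J' b (φ z)) y := by
    intro l p
    have e : (fun z => (∑ b, q z b a • J' b (φ z)) l p) = fun z => ∑ b, q z b a * J' b (φ z) l p := by
      funext z
      rw [Matrix.sum_apply]
      rfl
    rw [e]
    exact DifferentiableAt.fun_sum fun b _ => (dq b).mul (dJ' b l p)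
  -- differentiate the defining relation
  have h1 : pd i (fun z => jm φ z * J a z) y =
      pd i (fun z => (∑ b, q z b a • J' b (φ z)) * jm φ z) y := by
    refine pd_congr ?_ i
    filter_upwards [h.isOpen.mem_nhds hy] with z hz using h.qm_spec hz hn a
  have h2 : pd i (fun z => ∑ b, q z b a • J' b (φ z)) y =
      ∑ b, (pderiv i (fun z => q z b a) y • J' b (φ y) +
        q y b a • ∑ k, jm φ y k i • pd k (J' b) (φ y)) := by
    have e : (fun z => ∑ b, q z b a • J' b (φ z)) = fun z =>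
        (q z 0 a • J' 0 (φ z) + q z 1 a • J' 1 (φ z)) + q z 2 a • J' 2 (φ z) := by
      funext z; rw [Fin.sum_univ_three]
    rw [e, pd_add ((DM_smul (dq 0) (dJ' 0)).add (DM_smul (dq 1) (dJ' 1)))
      (DM_smul (dq 2) (dJ' 2)), pd_add (DM_smul (dq 0) (dJ' 0)) (DM_smul (dq 1) (dJ' 1)),
      pd_smul (dq 0) (dJ' 0), pd_smul (dq 1) (dJ' 1), pd_smul (dq 2) (dJ' 2),
      pd_comp (h.qk'.DM_J hφ 0) hd, pd_comp (h.qk'.DM_J hφ 1) hd, pd_comp (h.qk'.DM_J hφ 2) hd,
      Fin.sum_univ_three]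
  rw [pd_mul dP dJ, pd_mul dA dP, h2] at h1
  -- covariant derivatives
  have hJ : pd i (J a) y = ∑ b, cf g J y i a b • J b y -
      (christoffelMatrix g y i * J a y - J a y * christoffelMatrix g y i) := by
    rw [← h.qk.cf_spec hy, covDerivEndo_eq]; abel
  have hJ' : ∀ b k, pd k (J' b) (φ y) = ∑ d, cf g' J' (φ y) k b d • J' d (φ y) -
      (christoffelMatrix g' (φ y) k * J' b (φ y) - J' b (φ y) * christoffelMatrix g' (φ y) k) := by
    intro b k
    rw [← h.qk'.cf_spec hφ, covDerivEndo_eq]; abel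
  set P := jm φ y with hP
  set G' := ∑ k, P k i • christoffelMatrix g' (φ y) k with hG'
  set A := ∑ b, q y b a • J' b (φ y) with hA
  have hPJ : P * J a y = A * P := h.qm_spec hy hn a
  have hPG : P * christoffelMatrix g y i = G' * P + pd i (jm φ) y := h.gam_trans hy i
  set K : Matrix (Fin n) (Fin n) ℝ := ∑ d, (∑ b, q y b a * ∑ k, P k i * cf g' J' (φ y) k b d) •
    J' d (φ y) with hK
  have h3 : ∀ b, ∑ k, P k i • pd k (J' b) (φ y) =
      ∑ d, (∑ k, P k i * cf g' J' (φ y) k b d) • J' d (φ y) - (G' * J' b (φ y) - J' b (φ y) * G') := by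
    intro b
    have e1 : ∑ k, P k i • ∑ d, cf g' J' (φ y) k b d • J' d (φ y) =
        ∑ d, (∑ k, P k i * cf g' J' (φ y) k b d) • J' d (φ y) := by
      simp only [Finset.smul_sum, smul_smul, Finset.sum_smul]
      exact Finset.sum_comm
    have e2 : ∑ k, P k i • (christoffelMatrix g' (φ y) k * J' b (φ y)) = G' * J' b (φ y) := by
      rw [hG', Finset.sum_mul]
      simp only [Matrix.smul_mul]
    have e3 : ∑ k, P k i • (J' b (φ y) * christoffelMatrix g' (φ y) k) = J' b (φ y) * G' := by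
      rw [hG', Finset.mul_sum]
      simp only [Matrix.mul_smul]
    simp only [hJ', smul_sub, Finset.sum_sub_distrib]
    rw [e1, e2, e3]
  have h4 : ∑ b, (pderiv i (fun z => q z b a) y • J' b (φ y) +
        q y b a • ∑ k, P k i • pd k (J' b) (φ y)) =
      ∑ b, pderiv i (fun z => q z b a) y • J' b (φ y) + (K - (G' * A - A * G')) := by
    have e0 : ∀ s : Fin 3 → Fin 3 → ℝ, ∑ b, q y b a • ∑ d, s b d • J' d (φ y) =
        ∑ d, (∑ b, q y b a * s b d) • J' d (φ y) := by
      intro s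
      simp only [Finset.smul_sum, smul_smul, Finset.sum_smul]
      exact Finset.sum_comm
    have e1 : ∑ b, q y b a • ∑ d, (∑ k, P k i * cf g' J' (φ y) k b d) • J' d (φ y) = K :=
      e0 fun b d => ∑ k, P k i * cf g' J' (φ y) k b d
    have e2 : ∑ b, q y b a • (G' * J' b (φ y)) = G' * A := by
      rw [hA, Finset.mul_sum]
      simp only [Matrix.mul_smul]
    have e3 : ∑ b, q y b a • (J' b (φ y) * G') = A * G' := by
      rw [hA, Finset.sum_mul]
      simp only [Matrix.smul_mul]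
    rw [Finset.sum_add_distrib]
    simp only [h3, smul_sub, Finset.sum_sub_distrib]
    rw [e1, e2, e3]
  rw [h4, hJ] at h1
  set C := ∑ b, cf g J y i a b • J b y with hC
  set D := ∑ b, pderiv i (fun z => q z b a) y • J' b (φ y) with hD
  have h5 : P * C = (D + K) * P := by
    have e1 : P * (christoffelMatrix g y i * J a y) = G' * A * P + pd i (jm φ) y * J a y := by
      rw [← Matrix.mul_assoc, hPG, Matrix.add_mul, Matrix.mul_assoc, hPJ, Matrix.mul_assoc]
    have e2 : P * (J a y * christoffelMatrix g y i) = A * G' * P + A * pd i (jm φ) y := by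
      rw [← Matrix.mul_assoc, hPJ, Matrix.mul_assoc, hPG, Matrix.mul_add, Matrix.mul_assoc]
    rw [Matrix.mul_sub, Matrix.mul_sub, e1, e2] at h1
    have : P * C = (pd i (jm φ) y * J a y + (P * C - (G' * A * P + pd i (jm φ) y * J a y -
        (A * G' * P + A * pd i (jm φ) y)))) + G' * A * P - A * G' * P - A * pd i (jm φ) y := by
      abel
    rw [this, h1]
    noncomm_ring
  have h6 : P * C = (∑ d, (∑ b, cf g J y i a b * q y d b) • J' d (φ y)) * P := by
    rw [hC, Finset.mul_sum]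
    have : ∀ b, P * (cf g J y i a b • J b y) =
        (∑ d, (cf g J y i a b * q y d b) • J' d (φ y)) * P := by
      intro b
      rw [Matrix.mul_smul, h.qm_spec hy hn b, ← Matrix.smul_mul, Finset.smul_sum]
      simp only [smul_smul]
      rfl
    simp only [this]
    rw [← Finset.sum_mul, Finset.sum_comm]
    simp only [Finset.sum_smul]
  have h7 : (∑ d, (∑ b, cf g J y i a b * q y d b) • J' d (φ y)) =
      ∑ d, (pderiv i (fun z => q z d a) y + ∑ b, q y b a * ∑ k, P k i * cf g' J' (φ y) k b d) •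
        J' d (φ y) := by
    have e := h5
    rw [h6] at e
    have e2 := congrArg (fun B => B * jinv g g' φ y) e
    have hPi : P * jinv g g' φ y = 1 := h.mul_jinv hy
    simp only [Matrix.mul_assoc, hPi, Matrix.mul_one] at e2
    rw [e2, hD, hK, ← Finset.sum_add_distrib]
    exact Finset.sum_congr rfl fun d _ => by rw [add_smul]
  exact congrFun (h.qk'.comb_inj hφ hn h7) d

end Pair

end Crest.Agent.R260.Qk8_151
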