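import Crest.Agent.R260.Qk7_151
import Crest.Agent.R260.QKm_838

/-!
# Row 260, QK-LOC file 9 (helper151): the `Dat` instance of division K

`dat_all` : under the hypotheses of S0398 there is `ν₀ > 0` such that every atlas chart carries
`QKm_838.Dat (G.g e) e.target (Q.J e) (cf (G.g e) (Q.J e)) (-ν₀)`.
-/

set_option autoImplicit false
set_option linter.unusedSimpArgs false

open scoped Manifold ContDiff Topology
open Filter Set
open Crest.GeometryTopology.CoordMetric
open Crest.GeometryTopology.ChartRiem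

noncomputable section

namespace Crest.Agent.R260.Qk9_151

open Crest.Agent.R260.Qk4_151 Crest.Agent.R260.Qk5_151
open Crest.Agent.R260.Qk6_151 Crest.Agent.R260.Qk7_151
open Crest.Agent.R260.QKm_838

variable {n : ℕ}

local notation "𝔼" => EuclideanSpace ℝ (Fin n)

section

variable {g : MetricField n} {J : Fin 3 → EuclideanSpace ℝ (Fin n) → Matrix (Fin n) (Fin n) ℝ}
  {U : Set (EuclideanSpace ℝ (Fin n))} {x : EuclideanSpace ℝ (Fin n)}

/-- `g J_a` is antisymmetric. -/
lemma gJ_antisymm (h : QKOn g J U) (hx : x ∈ U) (a : Fin 3) (i j : Fin n) :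
    (g x * J a x) i j = -(g x * J a x) j i := by
  have hs : (g x).transpose = g x := by
    have h0 := (h.riem.posDef x hx).isHermitian
    rwa [Matrix.IsHermitian, Matrix.conjTranspose_eq_transpose_of_trivial] at h0
  have h1 : (J a x).transpose * g x = -(g x * J a x) := by
    have h2 := congrArg (fun A => A * J a x) (h.orth x hx a)
    simp only [Matrix.mul_assoc, h.sq x hx a] at h2
    simp only [Matrix.mul_neg, Matrix.mul_one, neg_eq_iff_eq_neg] at h2
    exact h2
  have h3 : (g x * J a x).transpose = -(g x * J a x) := by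
    rw [Matrix.transpose_mul, hs, h1]
  have h4 := congrFun (congrFun h3 j) i
  simpa [Matrix.transpose_apply] using h4

lemma E3_eq (J' : Fin 3 → Matrix (Fin n) (Fin n) ℝ) (a b : Fin 3) :
    E3 J' a b = ∑ c, eps a b c • J' c := by
  fin_cases a <;> fin_cases b <;> simp [E3, Fin.sum_univ_three, eps]

/-- the local data of division K. -/
theorem dat {m : ℕ} (hm : 2 ≤ m) (hnm : n = 4 * m) (h : QKOn g J U) {ν₀ : ℝ}
    (hν : ∀ x ∈ U, nu g m x = ν₀) : Dat g U J (cf g J) (-ν₀) where
  riem := h.riem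
  smJ := h.smooth
  sq := h.sq
  mul := h.mul
  orth := h.orth
  cov := fun _ hx i a => h.cf_spec hx i a
  smc := fun i a b => h.cf_smooth i a b
  skc := fun _ hx i a b => h.cf_antisymm hx i a b
  curv := by
    intro x hx i j a b
    have h1 := Fc_eq hm hnm h hx j i a b
    rw [hν x hx] at h1
    have h2 : (g x * E3 (fun d => J d x) a b) i j = ∑ c, eps a b c * (g x * J c x) i j := by
      rw [E3_eq, Matrix.mul_sum, Matrix.sum_apply]
      refine Finset.sum_congr rfl fun c _ => ?_
      rw [Matrix.mul_smul, Matrix.smul_apply, smul_eq_mul]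
    have h3 : ∑ c, eps a b c * (g x * J c x) j i = -∑ c, eps a b c * (g x * J c x) i j := by
      rw [← Finset.sum_neg_distrib]
      refine Finset.sum_congr rfl fun c _ => ?_
      rw [gJ_antisymm h hx c j i]
      ring
    rw [h2]
    rw [h3] at h1
    rw [show -ν₀ * ∑ c, eps a b c * (g x * J c x) i j =
      ν₀ * -∑ c, eps a b c * (g x * J c x) i j by ring, ← h1]
    rfl

end

section

variable {M : Type} [TopologicalSpace M] [ChartedSpace (EuclideanSpace ℝ (Fin n)) M]
  [IsManifold 𝓘(ℝ, EuclideanSpace ℝ (Fin n)) ∞ M]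

/-- **all charts, one constant** -/
theorem dat_all {m : ℕ} (hm : 2 ≤ m) (hnm : n = 4 * m) [ConnectedSpace M] (G : ChartMetric n M)
    (Q : QuaternionicStructure n M G)
    (hpos : ∀ e ∈ atlas (EuclideanSpace ℝ (Fin n)) M, ∀ x ∈ e.target, 0 < scalarCurv (G.g e) x) :
    ∃ ν₀ : ℝ, 0 < ν₀ ∧ ∀ e ∈ atlas (EuclideanSpace ℝ (Fin n)) M,
      Dat (G.g e) e.target (Q.J e) (cf (G.g e) (Q.J e)) (-ν₀) := by
  obtain ⟨ν₀, h0, h1⟩ := nu_const hm hnm G Q hpos
  exact ⟨ν₀, h0, fun e he => dat hm hnm (qkOn G Q he) (h1 e he)⟩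

end

end Crest.Agent.R260.Qk9_151
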