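import Mathlib

/-!
H2 of 323 #5919: rank transfer from the `k`-points (k algebraically closed) of a family of
polynomial equations to the points over every field (Nullstellensatz on minors).
-/

namespace Crest.Agent.R260.Rk_406

open MvPolynomial Module

noncomputable section

/-! ### Nullstellensatz -/

theorem nsatz {k : Type*} [Field k] [IsAlgClosed k] {σ : Type*} [Finite σ]
    {E : Set (MvPolynomial σ k)} {p : MvPolynomial σ k}
    (h : ∀ v : σ → k, (∀ q ∈ E, eval v q = 0) → eval v p = 0)
    {A : Type*} [CommRing A] [IsReduced A] [Algebra k A] (v : σ → A)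
    (hv : ∀ q ∈ E, aeval v q = 0) : aeval v p = 0 := by
  have hp : p ∈ (Ideal.span E).radical := by
    rw [← vanishingIdeal_zeroLocus_eq_radical (K := k)]
    rw [mem_vanishingIdeal_iff]
    intro x hx
    rw [mem_zeroLocus_iff] at hx
    have := h x (fun q hq => by simpa [coe_aeval_eq_eval] using hx q (Ideal.subset_span hq))
    simpa [coe_aeval_eq_eval] using this
  obtain ⟨n, hn⟩ := hp
  have h1 : Ideal.span E ≤ RingHom.ker (aeval v : MvPolynomial σ k →ₐ[k] A) :=
    Ideal.span_le.2 hv
  have h2 : aeval v (p ^ n) = 0 := h1 hn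
  rw [map_pow] at h2
  exact IsReduced.eq_zero _ ⟨n, h2⟩

/-! ### linear algebra of a possibly infinite family of rows -/

section lin

variable {F : Type*} [Field F] {A b : Type*} [Fintype b]

/-- the kernel of a family of rows -/
def Ker (N : A → b → F) : Submodule F (b → F) where
  carrier := {t | ∀ a, ∑ y, N a y * t y = 0}
  add_mem' := by
    intro s t hs ht a
    have : ∑ y, N a y * (s + t) y = ∑ y, N a y * s y + ∑ y, N a y * t y := by
      rw [← Finset.sum_add_distrib]
      exact Finset.sum_congr rfl fun y _ => by simp [mul_add]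
    rw [this, hs a, ht a, add_zero]
  zero_mem' := by intro a; simp
  smul_mem' := by
    intro c t ht a
    have : ∑ y, N a y * (c • t) y = c * ∑ y, N a y * t y := by
      rw [Finset.mul_sum]
      exact Finset.sum_congr rfl fun y _ => by simp; ring
    rw [this, ht a, mul_zero]

theorem mem_Ker {N : A → b → F} {t : b → F} : t ∈ Ker N ↔ ∀ a, ∑ y, N a y * t y = 0 := Iff.rfl

/-- the span of the rows -/
def Row (N : A → b → F) : Submodule F (b → F) := Submodule.span F (Set.range N)

theorem row_add_ker (N : A → b → F) :
    finrank F (Row N) + finrank F (Ker N) = Fintype.card b := by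
  classical
  set e := dotProductEquiv F b
  have h1 : Ker N = ((Row N).map (e : (b → F) →ₗ[F] Module.Dual F (b → F))).dualCoannihilator := by
    ext t
    rw [Submodule.mem_dualCoannihilator, mem_Ker]
    constructor
    · intro h φ hφ
      obtain ⟨w, hw, rfl⟩ := Submodule.mem_map.1 hφ
      induction hw using Submodule.span_induction with
      | mem x hx =>
        obtain ⟨a, rfl⟩ := hx
        simpa [e, dotProduct] using h a
      | zero => simp
      | add x y _ _ hx hy =>
        have hx' := hx (Submodule.mem_map.2 ⟨x, by assumption, rfl⟩)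
        have hy' := hy (Submodule.mem_map.2 ⟨y, by assumption, rfl⟩)
        simp only [LinearEquiv.coe_coe, map_add, LinearMap.add_apply] at hx' hy' ⊢
        rw [hx', hy', add_zero]
      | smul c x _ hx =>
        have hx' := hx (Submodule.mem_map.2 ⟨x, by assumption, rfl⟩)
        simp only [LinearEquiv.coe_coe, map_smul, LinearMap.smul_apply] at hx' ⊢
        rw [hx', smul_zero]
    · intro h a
      have := h (e (N a)) (Submodule.mem_map.2 ⟨N a, Submodule.subset_span ⟨a, rfl⟩, rfl⟩)
      simpa [e, dotProduct] using this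
  rw [h1]
  have h2 : finrank F ((Row N).map (e : (b → F) →ₗ[F] Module.Dual F (b → F)))
      = finrank F (Row N) := LinearEquiv.finrank_map_eq e _
  rw [← h2, Subspace.finrank_add_finrank_dualCoannihilator_eq, finrank_fintype_fun_eq_card]

/-- rank ≥ r iff some r × r minor is non-zero -/
theorem le_row_iff (N : A → b → F) (r : ℕ) :
    r ≤ finrank F (Row N) ↔ ∃ (f : Fin r → A) (g : Fin r → b),
      (Matrix.of fun i j => N (f i) (g j)).det ≠ 0 := by
  classical
  constructor
  · intro h
    obtain ⟨κ, a, ha, hsp, hli⟩ := exists_linearIndependent' F N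
    have hfin : Finite κ := hli.finite
    have := Fintype.ofFinite κ
    have hc : Fintype.card κ = finrank F (Row N) := by
      rw [Row, ← hsp]
      exact (finrank_span_eq_card hli).symm
    have hr : r ≤ Fintype.card κ := hc ▸ h
    obtain ⟨u⟩ : Nonempty (Fin r ↪ κ) :=
      Function.Embedding.nonempty_of_card_le (by simpa using hr)
    set f : Fin r → A := a ∘ u
    have hlf : LinearIndependent F (fun i => N (f i)) := by
      have := hli.comp u u.injective
      exact this
    -- the r × b matrix
    set P : Matrix (Fin r) b F := Matrix.of fun i y => N (f i) y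
    have hP : P.rank = r := by
      have h3 : LinearIndependent F P.row := hlf
      simpa using h3.rank_matrix
    have hP2 : finrank F (Submodule.span F (Set.range P.col)) = r := by
      rw [← Matrix.rank_eq_finrank_span_cols, hP]
    obtain ⟨κ', a', ha', hsp', hli'⟩ := exists_linearIndependent' F P.col
    have hfin' : Finite κ' := hli'.finite
    have := Fintype.ofFinite κ'
    have hc' : Fintype.card κ' = r := by
      rw [← hP2, ← hsp']
      exact (finrank_span_eq_card hli').symm
    obtain ⟨u'⟩ : Nonempty (Fin r ≃ κ') := ⟨(Fintype.equivFinOfCardEq hc').symm⟩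
    refine ⟨f, a' ∘ u', ?_⟩
    have h4 : LinearIndependent F (Matrix.of fun i j => N (f i) ((a' ∘ u') j)).col := by
      have := hli'.comp u' u'.injective
      exact this
    have h5 := Matrix.linearIndependent_cols_iff_isUnit.1 h4
    rw [Matrix.isUnit_iff_isUnit_det] at h5
    exact h5.ne_zero
  · rintro ⟨f, g, hd⟩
    have h5 : IsUnit (Matrix.of fun i j => N (f i) (g j)) := by
      rw [Matrix.isUnit_iff_isUnit_det]; exact isUnit_iff_ne_zero.2 hd
    have h4 := Matrix.linearIndependent_rows_iff_isUnit.2 h5
    have h6 : LinearIndependent F (fun i => N (f i)) := by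
      let π : (b → F) →ₗ[F] (Fin r → F) := LinearMap.funLeft F F g
      have : LinearIndependent F (π ∘ (fun i => N (f i))) := h4
      exact LinearIndependent.of_comp π this
    have h7 : finrank F (Submodule.span F (Set.range fun i => N (f i))) = r := by
      simpa using finrank_span_eq_card h6
    rw [← h7]
    apply Submodule.finrank_mono
    rw [Submodule.span_le]
    rintro _ ⟨i, rfl⟩
    exact Submodule.subset_span ⟨f i, rfl⟩

/-- `Ker` in the exact complementary dimension -/
theorem ker_eq_iff (N : A → b → F) (s : ℕ) :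
    finrank F (Ker N) = s ↔ finrank F (Row N) + s = Fintype.card b := by
  have := row_add_ker N
  omega

/-- a vector annihilated by the kernel is in the row space -/
theorem mem_row_iff (N : A → b → F) (w : b → F) :
    w ∈ Row N ↔ ∀ t ∈ Ker N, ∑ y, w y * t y = 0 := by
  classical
  constructor
  · intro hw t ht
    induction hw using Submodule.span_induction with
    | mem x hx =>
      obtain ⟨a, rfl⟩ := hx
      exact ht a
    | zero => simp
    | add x y _ _ hx hy =>
      have : ∑ z, (x + y) z * t z = ∑ z, x z * t z + ∑ z, y z * t z := by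
        rw [← Finset.sum_add_distrib]
        exact Finset.sum_congr rfl fun y _ => by simp [add_mul]
      rw [this, hx, hy, add_zero]
    | smul c x _ hx =>
      have : ∑ z, (c • x) z * t z = c * ∑ z, x z * t z := by
        rw [Finset.mul_sum]
        exact Finset.sum_congr rfl fun y _ => by simp; ring
      rw [this, hx, mul_zero]
  · intro h
    -- the family N together with w has the same kernel, hence the same row rank
    let N' : Option A → b → F := fun o => o.elim w N
    have hk : Ker N' = Ker N := by
      ext t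
      constructor
      · intro ht a
        exact ht (some a)
      · intro ht o
        cases o with
        | none => exact h t ht
        | some a => exact ht a
    have h1 := row_add_ker N
    have h2 := row_add_ker N'
    rw [hk] at h2
    have h3 : Row N ≤ Row N' := by
      rw [Row, Submodule.span_le]
      rintro _ ⟨a, rfl⟩
      exact Submodule.subset_span ⟨some a, rfl⟩
    have h4 : Row N = Row N' := Submodule.eq_of_le_of_finrank_eq h3 (by omega)
    rw [h4]
    exact Submodule.subset_span ⟨none, rfl⟩

/-- the rank of the transposed family -/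
theorem row_transpose [Fintype A] (N : A → b → F) :
    finrank F (Row (fun (y : b) (a : A) => N a y)) = finrank F (Row N) := by
  have h1 : finrank F (Row N) = (Matrix.of N).rank := by
    rw [Matrix.rank_eq_finrank_span_row]; rfl
  have h2 : finrank F (Row (fun (y : b) (a : A) => N a y)) = (Matrix.of N).transpose.rank := by
    rw [Matrix.rank_eq_finrank_span_row]; rfl
  rw [h1, h2, Matrix.rank_transpose]

end lin

/-! ### transfer -/

section transfer

variable {k : Type*} [Field k] [IsAlgClosed k] {σ : Type*} [Finite σ]

/-- `v` is on `E` -/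
def On {k : Type*} [Field k] {σ : Type*} (E : Set (MvPolynomial σ k)) {A : Type*} [CommRing A]
    [Algebra k A] (v : σ → A) : Prop := ∀ p ∈ E, aeval v p = 0

/-- (T1) -/
theorem t1 {E : Set (MvPolynomial σ k)} {B : MvPolynomial σ k} {C : Type*}
    (G : C → MvPolynomial σ k)
    (h : ∀ v : σ → k, On E v → aeval v B ≠ 0 → ∃ c, aeval v (G c) ≠ 0)
    {κ : Type*} [Field κ] [Algebra k κ] (v : σ → κ) (hv : On E v) (hB : aeval v B ≠ 0) :
    ∃ c, aeval v (G c) ≠ 0 := by
  by_contra hcon
  push Not at hcon
  apply hB
  refine nsatz (E := E ∪ Set.range G) ?_ v ?_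
  · intro x hx
    by_contra hBx
    obtain ⟨c, hc⟩ := h x (fun p hp => by simpa [coe_aeval_eq_eval] using hx p (Or.inl hp))
      (by simpa [coe_aeval_eq_eval] using hBx)
    exact hc (by simpa [coe_aeval_eq_eval] using hx (G c) (Or.inr ⟨c, rfl⟩))
  · rintro q (hq | ⟨c, rfl⟩)
    · exact hv q hq
    · exact hcon c

/-- vanishing on `E` off `B = 0`, over every reduced algebra -/
theorem t0 {E : Set (MvPolynomial σ k)} {B Q : MvPolynomial σ k}
    (h : ∀ v : σ → k, On E v → aeval v B ≠ 0 → aeval v Q = 0)
    {A : Type*} [CommRing A] [IsReduced A] [Algebra k A] (v : σ → A) (hv : On E v)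
    (hB : IsUnit (aeval v B)) : aeval v Q = 0 := by
  have : aeval v (B * Q) = 0 := by
    refine nsatz (E := E) ?_ v hv
    intro x hx
    rw [map_mul]
    by_cases hBx : eval x B = 0
    · rw [hBx, zero_mul]
    · have := h x (fun p hp => by simpa [coe_aeval_eq_eval] using hx p hp)
        (by simpa [coe_aeval_eq_eval] using hBx)
      have h2 : eval x Q = 0 := by simpa [coe_aeval_eq_eval] using this
      rw [h2, mul_zero]
  rw [map_mul] at this
  exact (hB.mul_right_eq_zero).1 this

variable {A b : Type*} [Fintype b]

/-- evaluation of a family of rows of polynomials -/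
def ev {k : Type*} [Field k] {σ : Type*} {A b : Type*} (M : A → b → MvPolynomial σ k)
    {κ : Type*} [Field κ] [Algebra k κ] (v : σ → κ) : A → b → κ := fun a y => aeval v (M a y)

theorem det_ev {k : Type*} [Field k] {σ : Type*} {A b : Type*} (M : A → b → MvPolynomial σ k)
    {κ : Type*} [Field κ] [Algebra k κ] (v : σ → κ) {r : ℕ} (f : Fin r → A) (g : Fin r → b) :
    (Matrix.of fun i j => ev M v (f i) (g j)).det =
      aeval v (Matrix.of fun i j => M (f i) (g j)).det := by
  rw [AlgHom.map_det]
  rfl

variable {E : Set (MvPolynomial σ k)} {B : MvPolynomial σ k} (M : A → b → MvPolynomial σ k)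

/-- lower semicontinuity direction -/
theorem row_ge {r : ℕ}
    (h : ∀ v : σ → k, On E v → aeval v B ≠ 0 → r ≤ finrank k (Row (ev M v)))
    {κ : Type*} [Field κ] [Algebra k κ] (v : σ → κ) (hv : On E v) (hB : aeval v B ≠ 0) :
    r ≤ finrank κ (Row (ev M v)) := by
  obtain ⟨⟨f, g⟩, hfg⟩ := t1 (C := (Fin r → A) × (Fin r → b))
    (fun c => (Matrix.of fun i j => M (c.1 i) (c.2 j)).det) (by
      intro x hx hBx
      obtain ⟨f, g, hfg⟩ := (le_row_iff _ r).1 (h x hx hBx)
      rw [det_ev] at hfg
      exact ⟨(f, g), hfg⟩) v hv hB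
  refine (le_row_iff _ r).2 ⟨f, g, ?_⟩
  rw [det_ev]
  exact hfg

theorem row_le {r : ℕ}
    (h : ∀ v : σ → k, On E v → aeval v B ≠ 0 → finrank k (Row (ev M v)) ≤ r)
    {κ : Type*} [Field κ] [Algebra k κ] (v : σ → κ) (hv : On E v) (hB : aeval v B ≠ 0) :
    finrank κ (Row (ev M v)) ≤ r := by
  by_contra hcon
  push Not at hcon
  obtain ⟨f, g, hfg⟩ := (le_row_iff _ (r + 1)).1 hcon
  apply hfg
  rw [det_ev]
  refine t0 (E := E) (B := B) ?_ v hv (isUnit_iff_ne_zero.2 hB)
  intro x hx hBx
  by_contra hD
  rw [← det_ev] at hD
  have := (le_row_iff _ (r + 1)).2 ⟨f, g, hD⟩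
  have := h x hx hBx
  omega

theorem row_eq {r : ℕ}
    (h : ∀ v : σ → k, On E v → aeval v B ≠ 0 → finrank k (Row (ev M v)) = r)
    {κ : Type*} [Field κ] [Algebra k κ] (v : σ → κ) (hv : On E v) (hB : aeval v B ≠ 0) :
    finrank κ (Row (ev M v)) = r :=
  le_antisymm (row_le M (fun x hx hBx => (h x hx hBx).le) v hv hB)
    (row_ge M (fun x hx hBx => (h x hx hBx).ge) v hv hB)

theorem ker_eq {s : ℕ}
    (h : ∀ v : σ → k, On E v → aeval v B ≠ 0 → finrank k (Ker (ev M v)) = s)
    {κ : Type*} [Field κ] [Algebra k κ] (v : σ → κ) (hv : On E v) (hB : aeval v B ≠ 0) :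
    finrank κ (Ker (ev M v)) = s := by
  by_cases hs : s ≤ Fintype.card b
  · rw [ker_eq_iff]
    have := row_eq (r := Fintype.card b - s) M (fun x hx hBx => by
      have := (ker_eq_iff _ s).1 (h x hx hBx)
      omega) v hv hB
    omega
  · -- no `k`-point
    exfalso
    apply hB
    refine nsatz (E := E) ?_ v hv
    intro x hx
    by_contra hBx
    have h1 := (ker_eq_iff _ s).1 (h x (fun p hp => by simpa [coe_aeval_eq_eval] using hx p hp)
      (by simpa [coe_aeval_eq_eval] using hBx))
    omega

theorem ker_le {s : ℕ}
    (h : ∀ v : σ → k, On E v → aeval v B ≠ 0 → finrank k (Ker (ev M v)) ≤ s)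
    {κ : Type*} [Field κ] [Algebra k κ] (v : σ → κ) (hv : On E v) (hB : aeval v B ≠ 0) :
    finrank κ (Ker (ev M v)) ≤ s := by
  have := row_ge (r := Fintype.card b - s) M (fun x hx hBx => by
      have h1 := h x hx hBx
      have h2 := row_add_ker (ev M x)
      omega) v hv hB
  have h2 := row_add_ker (ev M v)
  omega

theorem ker_ge {s : ℕ}
    (h : ∀ v : σ → k, On E v → aeval v B ≠ 0 → s ≤ finrank k (Ker (ev M v)))
    {κ : Type*} [Field κ] [Algebra k κ] (v : σ → κ) (hv : On E v) (hB : aeval v B ≠ 0) :
    s ≤ finrank κ (Ker (ev M v)) := by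
  by_cases hs : s ≤ Fintype.card b
  · have := row_le (r := Fintype.card b - s) M (fun x hx hBx => by
      have h1 := h x hx hBx
      have h2 := row_add_ker (ev M x)
      omega) v hv hB
    have h2 := row_add_ker (ev M v)
    omega
  · exfalso
    apply hB
    refine nsatz (E := E) ?_ v hv
    intro x hx
    by_contra hBx
    have h1 := h x (fun p hp => by simpa [coe_aeval_eq_eval] using hx p hp)
      (by simpa [coe_aeval_eq_eval] using hBx)
    have h2 := row_add_ker (ev M x)
    omega

end transfer

end

end Crest.Agent.R260.Rk_406
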