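import Mathlib
import Crest.Agent.R260.Rank_406

/-!
H2 of 323 #5919, second part: (T3), (T4), tangent spaces of a family of equations.
-/

namespace Crest.Agent.R260.Rk_406

open MvPolynomial Module

noncomputable section

/-! ### linear algebra -/

section lin

variable {F : Type*} [Field F] {A b : Type*} [Fintype b]

/-- the radical of the form `Ω` on `Ker N` -/
def Rad (N : A → b → F) (Ω : b → b → F) : Submodule F (b → F) where
  carrier := {t | t ∈ Ker N ∧ ∀ t' ∈ Ker N, ∑ x, ∑ y, t x * Ω x y * t' y = 0}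
  add_mem' := by
    rintro s t ⟨hs, hs'⟩ ⟨ht, ht'⟩
    refine ⟨add_mem hs ht, fun u hu => ?_⟩
    have : ∑ x, ∑ y, (s + t) x * Ω x y * u y =
        ∑ x, ∑ y, s x * Ω x y * u y + ∑ x, ∑ y, t x * Ω x y * u y := by
      simp only [← Finset.sum_add_distrib]
      exact Finset.sum_congr rfl fun x _ => Finset.sum_congr rfl fun y _ => by
        simp only [Pi.add_apply]; ring
    rw [this, hs' u hu, ht' u hu, add_zero]
  zero_mem' := ⟨zero_mem _, fun u _ => by simp⟩
  smul_mem' := by
    rintro c t ⟨ht, ht'⟩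
    refine ⟨Submodule.smul_mem _ c ht, fun u hu => ?_⟩
    have : ∑ x, ∑ y, (c • t) x * Ω x y * u y = c * ∑ x, ∑ y, t x * Ω x y * u y := by
      simp only [Finset.mul_sum]
      exact Finset.sum_congr rfl fun x _ => Finset.sum_congr rfl fun y _ => by
        simp only [Pi.smul_apply, smul_eq_mul]; ring
    rw [this, ht' u hu, mul_zero]

theorem mem_Rad {N : A → b → F} {Ω : b → b → F} {t : b → F} :
    t ∈ Rad N Ω ↔ t ∈ Ker N ∧ ∀ t' ∈ Ker N, ∑ x, ∑ y, t x * Ω x y * t' y = 0 := Iff.rfl

theorem Rad_congr {A' : Type*} {N : A → b → F} {N' : A' → b → F} (Ω : b → b → F)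
    (h : Ker N = Ker N') : Rad N Ω = Rad N' Ω := by
  ext t
  rw [mem_Rad, mem_Rad, h]

/-- the bordered family of rows -/
def Bd {R : Type*} [Zero R] (N : A → b → R) (Ω : b → b → R) : A ⊕ b → b ⊕ A → R
  | .inl a, .inl y => N a y
  | .inl _, .inr _ => 0
  | .inr y, .inl x => Ω x y
  | .inr y, .inr a => N a y

variable [Fintype A]

theorem mem_Ker_Bd {N : A → b → F} {Ω : b → b → F} {w : b ⊕ A → F} :
    w ∈ Ker (Bd N Ω) ↔ (fun y => w (.inl y)) ∈ Ker N ∧
      ∀ y, ∑ x, Ω x y * w (.inl x) + ∑ a, N a y * w (.inr a) = 0 := by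
  rw [mem_Ker]
  constructor
  · intro h
    refine ⟨fun a => ?_, fun y => ?_⟩
    · have := h (.inl a)
      rw [Fintype.sum_sum_type] at this
      simpa [Bd] using this
    · have := h (.inr y)
      rw [Fintype.sum_sum_type] at this
      simpa [Bd] using this
  · rintro ⟨h1, h2⟩ (a | y)
    · rw [Fintype.sum_sum_type]
      simpa [Bd] using h1 a
    · rw [Fintype.sum_sum_type]
      simpa [Bd] using h2 y

theorem finrank_Ker_Bd (N : A → b → F) (Ω : b → b → F) :
    finrank F (Ker (Bd N Ω)) + finrank F (Row N) = finrank F (Rad N Ω) + Fintype.card A := by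
  -- projection
  let π : (b ⊕ A → F) →ₗ[F] (b → F) := LinearMap.funLeft F F Sum.inl
  let π' : Ker (Bd N Ω) →ₗ[F] (b → F) := π.domRestrict (Ker (Bd N Ω))
  have hr : LinearMap.range π' = Rad N Ω := by
    ext t
    constructor
    · rintro ⟨⟨w, hw⟩, rfl⟩
      obtain ⟨h1, h2⟩ := mem_Ker_Bd.1 hw
      refine ⟨h1, fun t' ht' => ?_⟩
      have h3 : ∑ x, ∑ y, w (.inl x) * Ω x y * t' y = 0 := by
        rw [Finset.sum_comm]
        have : ∀ y, ∑ x, w (.inl x) * Ω x y * t' y = - ∑ a, (N a y * t' y) * w (.inr a) := by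
          intro y
          have h4 := h2 y
          have h5 : ∑ x, w (.inl x) * Ω x y * t' y = (∑ x, Ω x y * w (.inl x)) * t' y := by
            rw [Finset.sum_mul]
            exact Finset.sum_congr rfl fun x _ => by ring
          have h6 : ∑ a, (N a y * t' y) * w (.inr a) = (∑ a, N a y * w (.inr a)) * t' y := by
            rw [Finset.sum_mul]
            exact Finset.sum_congr rfl fun x _ => by ring
          rw [h5, h6, eq_neg_of_add_eq_zero_left h4]
          ring
        rw [Finset.sum_congr rfl fun y _ => this y, Finset.sum_neg_distrib, Finset.sum_comm,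
          neg_eq_zero]
        refine Finset.sum_eq_zero fun a _ => ?_
        rw [← Finset.sum_mul, ht' a, zero_mul]
      exact h3
    · rintro ⟨h1, h2⟩
      have h3 : (fun y => ∑ x, t x * Ω x y) ∈ Row N := by
        rw [mem_row_iff]
        intro t' ht'
        have := h2 t' ht'
        rw [Finset.sum_comm] at this
        rw [← this]
        exact Finset.sum_congr rfl fun y _ => by rw [Finset.sum_mul]
      obtain ⟨c, hc⟩ := (Submodule.mem_span_range_iff_exists_fun F).1 h3
      have hw : Sum.elim t (fun a => - c a) ∈ Ker (Bd N Ω) := by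
        rw [mem_Ker_Bd]
        refine ⟨h1, fun y => ?_⟩
        have h4 := congrFun hc y
        simp only [Finset.sum_apply, Pi.smul_apply, smul_eq_mul] at h4
        simp only [Sum.elim_inl, Sum.elim_inr, mul_neg, Finset.sum_neg_distrib]
        have h5 : ∑ a, N a y * c a = ∑ a, c a * N a y :=
          Finset.sum_congr rfl fun a _ => mul_comm _ _
        have h6 : ∑ x, Ω x y * t x = ∑ x, t x * Ω x y :=
          Finset.sum_congr rfl fun a _ => mul_comm _ _
        rw [h5, h6, h4]
        ring
      exact ⟨⟨_, hw⟩, by ext y; rfl⟩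
  -- the kernel
  let j0 : Ker (fun (y : b) (a : A) => N a y) →ₗ[F] (b ⊕ A → F) :=
    { toFun := fun c => Sum.elim 0 c.1
      map_add' := by
        intro c d
        ext (x | x) <;> simp
      map_smul' := by
        intro c d
        ext (x | x) <;> simp }
  let j : Ker (fun (y : b) (a : A) => N a y) →ₗ[F] Ker (Bd N Ω) :=
    j0.codRestrict _ (by
      rintro ⟨c, hc⟩
      rw [mem_Ker_Bd]
      refine ⟨?_, fun y => ?_⟩
      · have : (fun y => j0 ⟨c, hc⟩ (Sum.inl y)) = 0 := by ext y; rfl
        rw [this]; exact zero_mem _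
      · have h1 : ∑ x, Ω x y * j0 ⟨c, hc⟩ (Sum.inl x) = 0 :=
          Finset.sum_eq_zero fun x _ => by
            have : j0 ⟨c, hc⟩ (Sum.inl x) = 0 := rfl
            rw [this, mul_zero]
        rw [h1, zero_add]
        exact hc y)
  have hj : Function.Injective j := by
    intro c d h
    have h1 : j0 c = j0 d := congrArg Subtype.val h
    ext a
    exact congrFun h1 (Sum.inr a)
  have hk : LinearMap.range j = LinearMap.ker π' := by
    ext ⟨w, hw⟩
    rw [LinearMap.mem_ker]
    constructor
    · rintro ⟨c, hc⟩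
      have h1 : j0 c = w := congrArg Subtype.val hc
      ext y
      change w (Sum.inl y) = 0
      rw [← h1]
      rfl
    · intro h
      have h0 : ∀ y, w (Sum.inl y) = 0 := fun y => congrFun h y
      have h2 := (mem_Ker_Bd.1 hw).2
      refine ⟨⟨fun a => w (Sum.inr a), fun y => ?_⟩, ?_⟩
      · have := h2 y
        rw [Finset.sum_eq_zero (fun x _ => by rw [h0 x, mul_zero]), zero_add] at this
        exact this
      · apply Subtype.ext
        ext (y | a)
        · exact (h0 y).symm
        · rfl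
  have e1 := LinearMap.finrank_range_add_finrank_ker π'
  rw [hr, ← hk, LinearMap.finrank_range_of_inj hj] at e1
  have e2 := row_add_ker (fun (y : b) (a : A) => N a y)
  rw [row_transpose] at e2
  omega

end lin

/-! ### reduction to finitely many rows -/

theorem exists_finite_rows {R : Type*} [CommRing R] [IsNoetherianRing R] {A b : Type*} [Finite b]
    (M : A → b → R) : ∃ (n : ℕ) (f : Fin n → A), ∀ a, ∃ c : Fin n → R,
      ∀ y, M a y = ∑ i, c i * M (f i) y := by
  have h1 : (Submodule.span R (Set.range M)).FG := IsNoetherian.noetherian _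
  obtain ⟨s, hs, hsp⟩ := (Submodule.fg_span_iff_fg_span_finset_subset _).1 h1
  choose g hg using fun x : s => hs x.2
  refine ⟨s.card, fun i => g (s.equivFin.symm i), fun a => ?_⟩
  have h2 : M a ∈ Submodule.span R (Set.range fun i : Fin s.card => M (g (s.equivFin.symm i))) := by
    have h3 : (Set.range fun i : Fin s.card => M (g (s.equivFin.symm i))) = (s : Set (b → R)) := by
      ext x
      constructor
      · rintro ⟨i, rfl⟩
        simp only [hg]
        exact (s.equivFin.symm i).2
      · intro hx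
        refine ⟨s.equivFin ⟨x, hx⟩, ?_⟩
        simp only [Equiv.symm_apply_apply, hg]
    rw [h3, ← hsp]
    exact Submodule.subset_span ⟨a, rfl⟩
  obtain ⟨c, hc⟩ := (Submodule.mem_span_range_iff_exists_fun R).1 h2
  refine ⟨c, fun y => ?_⟩
  rw [← hc]
  simp

section transfer

variable {k : Type*} [Field k] {σ : Type*} {A b : Type*} [Fintype b]

theorem Ker_sub (M : A → b → MvPolynomial σ k) {n : ℕ} {f : Fin n → A}
    (hf : ∀ a, ∃ c : Fin n → MvPolynomial σ k, ∀ y, M a y = ∑ i, c i * M (f i) y)
    {κ : Type*} [Field κ] [Algebra k κ] (v : σ → κ) :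
    Ker (ev (fun i => M (f i)) v) = Ker (ev M v) := by
  ext t
  constructor
  · intro ht a
    obtain ⟨c, hc⟩ := hf a
    have : ∑ y, ev M v a y * t y = ∑ i, aeval v (c i) * ∑ y, ev (fun i => M (f i)) v i y * t y := by
      simp only [ev, Finset.mul_sum]
      rw [Finset.sum_comm]
      refine Finset.sum_congr rfl fun y _ => ?_
      rw [hc y, map_sum, Finset.sum_mul]
      exact Finset.sum_congr rfl fun i _ => by rw [map_mul]; ring
    rw [this]
    exact Finset.sum_eq_zero fun i _ => by rw [ht i, mul_zero]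
  · intro ht i
    exact ht (f i)

omit [Fintype b] in
theorem ev_Bd (M : A → b → MvPolynomial σ k) (Ω : b → b → MvPolynomial σ k)
    {κ : Type*} [Field κ] [Algebra k κ] (v : σ → κ) :
    ev (Bd M Ω) v = Bd (ev M v) (ev Ω v) := by
  funext x y
  rcases x with a | y' <;> rcases y with y | a' <;> simp [ev, Bd]

variable [IsAlgClosed k] [Finite σ] {E : Set (MvPolynomial σ k)} {B : MvPolynomial σ k}
  (M : A → b → MvPolynomial σ k)

/-- (T4) -/
theorem rad_eq (Ω : b → b → MvPolynomial σ k) {N s : ℕ}
    (hN : ∀ v : σ → k, On E v → aeval v B ≠ 0 → finrank k (Ker (ev M v)) = N)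
    (h : ∀ v : σ → k, On E v → aeval v B ≠ 0 → finrank k (Rad (ev M v) (ev Ω v)) = s)
    {κ : Type*} [Field κ] [Algebra k κ] (v : σ → κ) (hv : On E v) (hB : aeval v B ≠ 0) :
    finrank κ (Rad (ev M v) (ev Ω v)) = s := by
  obtain ⟨n, f, hf⟩ := exists_finite_rows M
  set M0 : Fin n → b → MvPolynomial σ k := fun i => M (f i)
  have hk : ∀ x : σ → k, Ker (ev M0 x) = Ker (ev M x) := fun x => Ker_sub M hf x
  have hκ : Ker (ev M0 v) = Ker (ev M v) := Ker_sub M hf v
  have h1 : finrank κ (Ker (ev M v)) = N := ker_eq M hN v hv hB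
  have h2 := row_add_ker (ev M0 v)
  have h3 := finrank_Ker_Bd (ev M0 v) (ev Ω v)
  have h4 : finrank κ (Ker (ev (Bd M0 Ω) v)) = s + n - (Fintype.card b - N) := by
    refine ker_eq (E := E) (B := B) _ ?_ v hv hB
    intro x hx hBx
    rw [ev_Bd]
    have h5 := row_add_ker (ev M0 x)
    have h6 := finrank_Ker_Bd (ev M0 x) (ev Ω x)
    rw [Rad_congr _ (hk x), h x hx hBx, Fintype.card_fin] at h6
    rw [hk x, hN x hx hBx] at h5
    omega
  rw [ev_Bd] at h4
  rw [Rad_congr _ hκ, Fintype.card_fin] at h3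
  rw [hκ, h1] at h2
  -- the row rank is at most n
  have h7 : finrank κ (Row (ev M0 v)) ≤ n := by
    have h8 := finrank_range_le_card (R := κ) (ev M0 v)
    rw [Fintype.card_fin] at h8
    exact h8
  omega

/-- (T3), general linear version -/
theorem t3 {Q : MvPolynomial (σ ⊕ b) k}
    (h : ∀ (v : σ → k) (t : b → k), On E v → t ∈ Ker (ev M v) → aeval v B ≠ 0 →
      aeval (Sum.elim v t) Q = 0)
    {S : Type*} [CommRing S] [IsReduced S] [Algebra k S] (v : σ → S) (t : b → S) (hv : On E v)
    (ht : ∀ a, ∑ y, aeval v (M a y) * t y = 0)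
    (hB : IsUnit (aeval v B)) : aeval (Sum.elim v t) Q = 0 := by
  set E' : Set (MvPolynomial (σ ⊕ b) k) := (rename Sum.inl) '' E ∪
    Set.range (fun a => ∑ y, rename Sum.inl (M a y) * X (Sum.inr y)) with hE'
  refine t0 (E := E') (B := rename Sum.inl B) ?_ (Sum.elim v t) ?_ ?_
  · intro w hw hBw
    rw [aeval_rename] at hBw
    have h1 : On E (w ∘ Sum.inl) := by
      intro p hp
      have := hw (rename Sum.inl p) (Or.inl ⟨p, hp, rfl⟩)
      rwa [aeval_rename] at this
    have h2 : (w ∘ Sum.inr) ∈ Ker (ev M (w ∘ Sum.inl)) := by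
      intro a
      have := hw _ (Or.inr ⟨a, rfl⟩)
      simp only [map_sum, map_mul, aeval_rename, aeval_X] at this
      exact this
    have := h _ _ h1 h2 hBw
    rwa [Sum.elim_comp_inl_inr] at this
  · rintro q (⟨p, hp, rfl⟩ | ⟨a, rfl⟩)
    · rw [aeval_rename]
      exact hv p hp
    · simp only [map_sum, map_mul, aeval_rename, aeval_X, Sum.elim_inr]
      exact ht a
  · rw [aeval_rename]
    exact hB

/-- polynomial vectors which lie in the radical at all `k`-points lie in the radical everywhere -/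
theorem rad_mem (Ω : b → b → MvPolynomial σ k) (e : b → MvPolynomial σ k)
    (h : ∀ v : σ → k, On E v → aeval v B ≠ 0 → (fun y => aeval v (e y)) ∈ Rad (ev M v) (ev Ω v))
    {κ : Type*} [Field κ] [Algebra k κ] (v : σ → κ) (hv : On E v) (hB : aeval v B ≠ 0) :
    (fun y => aeval v (e y)) ∈ Rad (ev M v) (ev Ω v) := by
  refine ⟨fun a => ?_, fun t ht => ?_⟩
  · have := t0 (E := E) (B := B) (Q := ∑ y, M a y * e y) (by
      intro x hx hBx
      simp only [map_sum, map_mul]
      exact (h x hx hBx).1 a) v hv (isUnit_iff_ne_zero.2 hB)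
    simp only [map_sum, map_mul] at this
    exact this
  · have := t3 (E := E) (B := B) M
      (Q := ∑ x, ∑ y, rename Sum.inl (e x) * rename Sum.inl (Ω x y) * X (Sum.inr y)) (by
        intro x u hx hu hBx
        simp only [map_sum, map_mul, aeval_rename, aeval_X, Sum.elim_inr, Sum.elim_comp_inl]
        exact (h x hx hBx).2 u hu) v t hv ht (isUnit_iff_ne_zero.2 hB)
    simp only [map_sum, map_mul, aeval_rename, aeval_X, Sum.elim_inr, Sum.elim_comp_inl] at this
    exact this

/-- the radical is spanned by polynomial vectors -/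
theorem rad_eq_span (Ω : b → b → MvPolynomial σ k) {ι : Type*} (e : ι → b → MvPolynomial σ k)
    {N s : ℕ}
    (hN : ∀ v : σ → k, On E v → aeval v B ≠ 0 → finrank k (Ker (ev M v)) = N)
    (h : ∀ v : σ → k, On E v → aeval v B ≠ 0 →
      Rad (ev M v) (ev Ω v) = Submodule.span k (Set.range (ev e v)))
    (hs : ∀ v : σ → k, On E v → aeval v B ≠ 0 →
      finrank k (Submodule.span k (Set.range (ev e v))) = s)
    {κ : Type*} [Field κ] [Algebra k κ] (v : σ → κ) (hv : On E v) (hB : aeval v B ≠ 0) :
    Rad (ev M v) (ev Ω v) = Submodule.span κ (Set.range (ev e v)) := by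
  symm
  apply Submodule.eq_of_le_of_finrank_eq
  · rw [Submodule.span_le]
    rintro _ ⟨i, rfl⟩
    refine rad_mem (E := E) (B := B) M Ω (e i) ?_ v hv hB
    intro x hx hBx
    rw [h x hx hBx]
    exact Submodule.subset_span ⟨i, rfl⟩
  · have h1 : finrank κ (Rad (ev M v) (ev Ω v)) = s :=
      rad_eq M Ω hN (fun x hx hBx => by rw [h x hx hBx, hs x hx hBx]) v hv hB
    have h2 : finrank κ (Row (ev e v)) = s := row_eq e hs v hv hB
    rw [h1]
    exact h2

end transfer

end

end Crest.Agent.R260.Rk_406
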