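import Mathlib
import Crest.Agent.R260.Rank2_406

/-!
H2 of 323 #5919, third part: tangent vectors of a family of equations, flat form and curried
form (`TanC` is definitionally 323's `TanAt`, `OnC` is definitionally 360's `OnX`).
-/

namespace Crest.Agent.R260.Rk_406

open MvPolynomial Module

noncomputable section

/-! ### flat form -/

section flat

variable {k : Type*} [Field k] {σ : Type*} [Fintype σ]

/-- the Jacobian of the family `E` -/
def Jm (E : Set (MvPolynomial σ k)) : E → σ → MvPolynomial σ k := fun p x => pderiv x p.1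

/-- tangent vectors of `E` at `v` -/
def Tan (E : Set (MvPolynomial σ k)) {S : Type*} [CommRing S] [Algebra k S] (v t : σ → S) : Prop :=
  ∀ p ∈ E, ∑ x, aeval v (pderiv x p) * t x = 0

theorem mem_Ker_Jm {E : Set (MvPolynomial σ k)} {κ : Type*} [Field κ] [Algebra k κ]
    {v t : σ → κ} : t ∈ Ker (ev (Jm E) v) ↔ Tan E v t :=
  ⟨fun h p hp => h ⟨p, hp⟩, fun h p => h p.1 p.2⟩

variable [IsAlgClosed k] {E : Set (MvPolynomial σ k)} {B : MvPolynomial σ k}

/-- (T2) -/
theorem t2 {N : ℕ}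
    (h : ∀ v : σ → k, On E v → aeval v B ≠ 0 → finrank k (Ker (ev (Jm E) v)) = N)
    {κ : Type*} [Field κ] [Algebra k κ] (v : σ → κ) (hv : On E v) (hB : aeval v B ≠ 0) :
    finrank κ (Ker (ev (Jm E) v)) = N := ker_eq _ h v hv hB

/-- (T3) for tangent vectors -/
theorem t3_tan {Q : MvPolynomial (σ ⊕ σ) k}
    (h : ∀ v t : σ → k, On E v → Tan E v t → aeval v B ≠ 0 → aeval (Sum.elim v t) Q = 0)
    {S : Type*} [CommRing S] [IsReduced S] [Algebra k S] (v t : σ → S) (hv : On E v)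
    (ht : Tan E v t) (hB : IsUnit (aeval v B)) : aeval (Sum.elim v t) Q = 0 :=
  t3 (E := E) (B := B) (Jm E) (fun x u hx hu hBx => h x u hx (mem_Ker_Jm.1 hu) hBx) v t hv
    (fun a => ht a.1 a.2) hB

/-- (T3) for two tangent vectors -/
theorem t3_tan2 {Q : MvPolynomial (σ ⊕ (σ ⊕ σ)) k}
    (h : ∀ v t u : σ → k, On E v → Tan E v t → Tan E v u → aeval v B ≠ 0 →
      aeval (Sum.elim v (Sum.elim t u)) Q = 0)
    {S : Type*} [CommRing S] [IsReduced S] [Algebra k S] (v t u : σ → S) (hv : On E v)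
    (ht : Tan E v t) (hu : Tan E v u) (hB : IsUnit (aeval v B)) :
    aeval (Sum.elim v (Sum.elim t u)) Q = 0 := by
  refine t3 (E := E) (B := B)
    (fun (a : E × Bool) => Sum.elim (fun x => if a.2 then Jm E a.1 x else 0)
      (fun x => if a.2 then 0 else Jm E a.1 x)) ?_ v (Sum.elim t u) hv ?_ hB
  · intro x w hx hw hBx
    have h1 := h x (w ∘ Sum.inl) (w ∘ Sum.inr) hx
      (by
        intro p hp
        have := hw (⟨p, hp⟩, true)
        rw [Fintype.sum_sum_type] at this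
        simpa [ev, Jm] using this)
      (by
        intro p hp
        have := hw (⟨p, hp⟩, false)
        rw [Fintype.sum_sum_type] at this
        simpa [ev, Jm] using this) hBx
    rwa [Sum.elim_comp_inl_inr] at h1
  · rintro ⟨⟨p, hp⟩, c⟩
    rw [Fintype.sum_sum_type]
    cases c
    · simpa [Jm] using hu p hp
    · simpa [Jm] using ht p hp

end flat

/-! ### curried form -/

section curried

variable {I : Type*} {J : I → Type*} [Fintype I] [∀ i, Fintype (J i)]

/-- uncurrying -/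
def unc {S : Type*} (v : ∀ i, J i → S) : (Σ i, J i) → S := fun x => v x.1 x.2

/-- currying -/
def cur {S : Type*} (v : (Σ i, J i) → S) : ∀ i, J i → S := fun i a => v ⟨i, a⟩

omit [Fintype I] [∀ i, Fintype (J i)] in
@[simp] theorem unc_cur {S : Type*} (v : (Σ i, J i) → S) : unc (cur v) = v := rfl

omit [Fintype I] [∀ i, Fintype (J i)] in
@[simp] theorem cur_unc {S : Type*} (v : ∀ i, J i → S) : cur (unc v) = v := rfl

variable {k : Type*} [Field k]

/-- definitionally 360's `OnX` -/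
def OnC (E : Set (MvPolynomial (Σ i, J i) k)) {S : Type*} [CommRing S] [Algebra k S]
    (v : ∀ i, J i → S) : Prop := ∀ p ∈ E, aeval (fun x : Σ i, J i => v x.1 x.2) p = 0

/-- definitionally 323's `TanAt` -/
def TanC (E : Set (MvPolynomial (Σ i, J i) k)) {S : Type*} [CommRing S] [Algebra k S]
    (v t : ∀ i, J i → S) : Prop :=
  ∀ p ∈ E, ∑ x : Σ i, J i, aeval (fun y : Σ i, J i => v y.1 y.2) (pderiv x p) * t x.1 x.2 = 0

/-- the space of tangent vectors -/
def TanK (E : Set (MvPolynomial (Σ i, J i) k)) {κ : Type*} [Field κ] [Algebra k κ]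
    (v : ∀ i, J i → κ) : Submodule κ (∀ i, J i → κ) :=
  (Ker (ev (Jm E) (unc v))).map
    (LinearEquiv.piCurry κ (fun (i : I) (_ : J i) => κ) :
      ((Σ i, J i) → κ) →ₗ[κ] (∀ i, J i → κ))

theorem mem_TanK {E : Set (MvPolynomial (Σ i, J i) k)} {κ : Type*} [Field κ] [Algebra k κ]
    {v t : ∀ i, J i → κ} : t ∈ TanK E v ↔ TanC E v t := by
  rw [TanK, Submodule.mem_map]
  constructor
  · rintro ⟨w, hw, rfl⟩
    exact mem_Ker_Jm.1 hw
  · intro h
    exact ⟨unc t, mem_Ker_Jm.2 h, rfl⟩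

theorem finrank_TanK (E : Set (MvPolynomial (Σ i, J i) k)) {κ : Type*} [Field κ] [Algebra k κ]
    (v : ∀ i, J i → κ) : finrank κ (TanK E v) = finrank κ (Ker (ev (Jm E) (unc v))) :=
  LinearEquiv.finrank_map_eq (LinearEquiv.piCurry κ (fun (i : I) (_ : J i) => κ)) _

/-- the radical of the form `Ω` on the tangent space -/
def RadK (E : Set (MvPolynomial (Σ i, J i) k)) (Ω : (Σ i, J i) → (Σ i, J i) → MvPolynomial (Σ i, J i) k)
    {κ : Type*} [Field κ] [Algebra k κ]
    (v : ∀ i, J i → κ) : Submodule κ (∀ i, J i → κ) :=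
  (Rad (ev (Jm E) (unc v)) (ev Ω (unc v))).map
    (LinearEquiv.piCurry κ (fun (i : I) (_ : J i) => κ) :
      ((Σ i, J i) → κ) →ₗ[κ] (∀ i, J i → κ))

theorem mem_RadK {E : Set (MvPolynomial (Σ i, J i) k)}
    {Ω : (Σ i, J i) → (Σ i, J i) → MvPolynomial (Σ i, J i) k}
    {κ : Type*} [Field κ] [Algebra k κ]
    {v t : ∀ i, J i → κ} : t ∈ RadK E Ω v ↔ TanC E v t ∧ ∀ t' : ∀ i, J i → κ, TanC E v t' →
      ∑ x : Σ i, J i, ∑ y : Σ i, J i,
        t x.1 x.2 * aeval (fun y : Σ i, J i => v y.1 y.2) (Ω x y) * t' y.1 y.2 = 0 := by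
  rw [RadK, Submodule.mem_map]
  constructor
  · rintro ⟨w, ⟨hw, hw'⟩, rfl⟩
    exact ⟨mem_Ker_Jm.1 hw, fun t' ht' => hw' (unc t') (mem_Ker_Jm.2 ht')⟩
  · rintro ⟨h1, h2⟩
    exact ⟨unc t, ⟨mem_Ker_Jm.2 h1, fun t' ht' => h2 (cur t') (mem_Ker_Jm.1 ht')⟩, rfl⟩

theorem finrank_RadK (E : Set (MvPolynomial (Σ i, J i) k))
    (Ω : (Σ i, J i) → (Σ i, J i) → MvPolynomial (Σ i, J i) k)
    {κ : Type*} [Field κ] [Algebra k κ] (v : ∀ i, J i → κ) :
    finrank κ (RadK E Ω v) = finrank κ (Rad (ev (Jm E) (unc v)) (ev Ω (unc v))) :=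
  LinearEquiv.finrank_map_eq (LinearEquiv.piCurry κ (fun (i : I) (_ : J i) => κ)) _

variable [IsAlgClosed k] {E : Set (MvPolynomial (Σ i, J i) k)} {B : MvPolynomial (Σ i, J i) k}

/-- (T0), curried -/
theorem c0 {Q : MvPolynomial (Σ i, J i) k}
    (h : ∀ v : ∀ i, J i → k, OnC E v → aeval (unc v) B ≠ 0 → aeval (unc v) Q = 0)
    {S : Type*} [CommRing S] [IsReduced S] [Algebra k S] (v : ∀ i, J i → S) (hv : OnC E v)
    (hB : IsUnit (aeval (unc v) B)) : aeval (unc v) Q = 0 :=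
  t0 (E := E) (B := B) (fun x hx hBx => h (cur x) hx hBx) (unc v) hv hB

/-- (T1), curried -/
theorem c1 {C : Type*} (G : C → MvPolynomial (Σ i, J i) k)
    (h : ∀ v : ∀ i, J i → k, OnC E v → aeval (unc v) B ≠ 0 → ∃ c, aeval (unc v) (G c) ≠ 0)
    {κ : Type*} [Field κ] [Algebra k κ] (v : ∀ i, J i → κ) (hv : OnC E v)
    (hB : aeval (unc v) B ≠ 0) : ∃ c, aeval (unc v) (G c) ≠ 0 :=
  t1 (E := E) (B := B) G (fun x hx hBx => h (cur x) hx hBx) (unc v) hv hB

/-- (T1) with "all blocks nonzero" instead of `B ≠ 0` -/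
theorem c1' {C : Type*} (G : C → MvPolynomial (Σ i, J i) k)
    (h : ∀ v : ∀ i, J i → k, OnC E v → (∀ i, v i ≠ 0) → ∃ c, aeval (unc v) (G c) ≠ 0)
    {κ : Type*} [Field κ] [Algebra k κ] (v : ∀ i, J i → κ) (hv : OnC E v)
    (hv0 : ∀ i, v i ≠ 0) : ∃ c, aeval (unc v) (G c) ≠ 0 := by
  have h1 : ∀ i, ∃ a, v i a ≠ 0 := fun i => Function.ne_iff.1 (hv0 i)
  choose a ha using h1
  refine c1 (E := E) (B := ∏ i, X ⟨i, a i⟩) G ?_ v hv ?_
  · intro x hx hBx
    rw [map_prod, Finset.prod_ne_zero_iff] at hBx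
    refine h x hx fun i h0 => ?_
    have := hBx i (Finset.mem_univ i)
    rw [aeval_X] at this
    exact this (congrFun h0 (a i))
  · rw [map_prod, Finset.prod_ne_zero_iff]
    intro i _
    rw [aeval_X]
    exact ha i

/-- (T2), curried -/
theorem c2 {N : ℕ}
    (h : ∀ v : ∀ i, J i → k, OnC E v → aeval (unc v) B ≠ 0 → finrank k (TanK E v) = N)
    {κ : Type*} [Field κ] [Algebra k κ] (v : ∀ i, J i → κ) (hv : OnC E v)
    (hB : aeval (unc v) B ≠ 0) : finrank κ (TanK E v) = N := by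
  rw [finrank_TanK]
  refine t2 (E := E) (B := B) ?_ (unc v) hv hB
  intro x hx hBx
  rw [← h (cur x) hx hBx, finrank_TanK]
  rfl

/-- (T2) with "all blocks nonzero" instead of `B ≠ 0` -/
theorem c2' {N : ℕ}
    (h : ∀ v : ∀ i, J i → k, OnC E v → (∀ i, v i ≠ 0) → finrank k (TanK E v) = N)
    {κ : Type*} [Field κ] [Algebra k κ] (v : ∀ i, J i → κ) (hv : OnC E v)
    (hv0 : ∀ i, v i ≠ 0) : finrank κ (TanK E v) = N := by
  have h1 : ∀ i, ∃ a, v i a ≠ 0 := fun i => Function.ne_iff.1 (hv0 i)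
  choose a ha using h1
  refine c2 (E := E) (B := ∏ i, X ⟨i, a i⟩) ?_ v hv ?_
  · intro x hx hBx
    rw [map_prod, Finset.prod_ne_zero_iff] at hBx
    refine h x hx fun i h0 => ?_
    have := hBx i (Finset.mem_univ i)
    rw [aeval_X] at this
    exact this (congrFun h0 (a i))
  · rw [map_prod, Finset.prod_ne_zero_iff]
    intro i _
    rw [aeval_X]
    exact ha i

/-- (T3), curried -/
theorem c3 {Q : MvPolynomial ((Σ i, J i) ⊕ (Σ i, J i)) k}
    (h : ∀ v t : ∀ i, J i → k, OnC E v → TanC E v t → aeval (unc v) B ≠ 0 →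
      aeval (Sum.elim (unc v) (unc t)) Q = 0)
    {S : Type*} [CommRing S] [IsReduced S] [Algebra k S] (v t : ∀ i, J i → S) (hv : OnC E v)
    (ht : TanC E v t) (hB : IsUnit (aeval (unc v) B)) :
    aeval (Sum.elim (unc v) (unc t)) Q = 0 :=
  t3_tan (E := E) (B := B) (fun x u hx hu hBx => h (cur x) (cur u) hx hu hBx) (unc v) (unc t)
    hv ht hB

/-- (T3), two tangent vectors, curried -/
theorem c3₂ {Q : MvPolynomial ((Σ i, J i) ⊕ ((Σ i, J i) ⊕ (Σ i, J i))) k}
    (h : ∀ v t u : ∀ i, J i → k, OnC E v → TanC E v t → TanC E v u → aeval (unc v) B ≠ 0 →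
      aeval (Sum.elim (unc v) (Sum.elim (unc t) (unc u))) Q = 0)
    {S : Type*} [CommRing S] [IsReduced S] [Algebra k S] (v t u : ∀ i, J i → S) (hv : OnC E v)
    (ht : TanC E v t) (hu : TanC E v u) (hB : IsUnit (aeval (unc v) B)) :
    aeval (Sum.elim (unc v) (Sum.elim (unc t) (unc u))) Q = 0 :=
  t3_tan2 (E := E) (B := B) (fun x y z hx hy hz hBx => h (cur x) (cur y) (cur z) hx hy hz hBx)
    (unc v) (unc t) (unc u) hv ht hu hB

/-- (T4), curried -/
theorem c4 (Ω : (Σ i, J i) → (Σ i, J i) → MvPolynomial (Σ i, J i) k) {N s : ℕ}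
    (hN : ∀ v : ∀ i, J i → k, OnC E v → aeval (unc v) B ≠ 0 → finrank k (TanK E v) = N)
    (h : ∀ v : ∀ i, J i → k, OnC E v → aeval (unc v) B ≠ 0 → finrank k (RadK E Ω v) = s)
    {κ : Type*} [Field κ] [Algebra k κ] (v : ∀ i, J i → κ) (hv : OnC E v)
    (hB : aeval (unc v) B ≠ 0) : finrank κ (RadK E Ω v) = s := by
  rw [finrank_RadK]
  refine rad_eq (E := E) (B := B) (Jm E) Ω (N := N) ?_ ?_ (unc v) hv hB
  · intro x hx hBx
    rw [← hN (cur x) hx hBx, finrank_TanK]
    rfl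
  · intro x hx hBx
    rw [← h (cur x) hx hBx, finrank_RadK]
    rfl

/-- (T5), curried: if the radical is spanned by the polynomial vectors `e j` at all `k`-points and
its dimension is `s`, the same holds over every field -/
theorem c5 (Ω : (Σ i, J i) → (Σ i, J i) → MvPolynomial (Σ i, J i) k) {ι : Type*}
    (e : ι → (Σ i, J i) → MvPolynomial (Σ i, J i) k) {N s : ℕ}
    (hN : ∀ v : ∀ i, J i → k, OnC E v → aeval (unc v) B ≠ 0 → finrank k (TanK E v) = N)
    (h : ∀ v : ∀ i, J i → k, OnC E v → aeval (unc v) B ≠ 0 →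
      RadK E Ω v = Submodule.span k (Set.range fun j => cur fun x => aeval (unc v) (e j x)))
    (hs : ∀ v : ∀ i, J i → k, OnC E v → aeval (unc v) B ≠ 0 → finrank k
      (Submodule.span k (Set.range fun j => cur (J := J) fun x => aeval (unc v) (e j x))) = s)
    {κ : Type*} [Field κ] [Algebra k κ] (v : ∀ i, J i → κ) (hv : OnC E v)
    (hB : aeval (unc v) B ≠ 0) :
    RadK E Ω v = Submodule.span κ (Set.range fun j => cur fun x => aeval (unc v) (e j x)) := by
  have key : ∀ {κ' : Type _} [Field κ'] [Algebra k κ'] (w : ∀ i, J i → κ'),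
      Submodule.span κ' (Set.range fun j => cur (J := J) fun x => aeval (unc w) (e j x)) =
      (Submodule.span κ' (Set.range (ev e (unc w)))).map
        (LinearEquiv.piCurry κ' (fun (i : I) (_ : J i) => κ') :
          ((Σ i, J i) → κ') →ₗ[κ'] (∀ i, J i → κ')) := by
    intro κ' _ _ w
    rw [Submodule.map_span, ← Set.range_comp]
    rfl
  have key' : ∀ (w : ∀ i, J i → k),
      Submodule.span k (Set.range fun j => cur (J := J) fun x => aeval (unc w) (e j x)) =
      (Submodule.span k (Set.range (ev e (unc w)))).map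
        (LinearEquiv.piCurry k (fun (i : I) (_ : J i) => k) :
          ((Σ i, J i) → k) →ₗ[k] (∀ i, J i → k)) := by
    intro w
    rw [Submodule.map_span, ← Set.range_comp]
    rfl
  rw [key, RadK]
  congr 1
  refine rad_eq_span (E := E) (B := B) (Jm E) Ω e (N := N) (s := s) ?_ ?_ ?_ (unc v) hv hB
  · intro x hx hBx
    rw [← hN (cur x) hx hBx, finrank_TanK]
    rfl
  · intro x hx hBx
    have h1 := h (cur x) hx hBx
    rw [key', RadK] at h1
    exact Submodule.map_injective_of_injective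
      (LinearEquiv.piCurry k (fun (i : I) (_ : J i) => k)).injective h1
  · intro x hx hBx
    rw [← hs (cur x) hx hBx, key', LinearEquiv.finrank_map_eq]
    rfl

end curried

end

end Crest.Agent.R260.Rk_406
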