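import Mathlib

/-!
# Row 260, K-REG (helper274), file 1: integrals over extra variables against an exponential kernel

`ker s = exp (s.2 + i s.1)`, `J Φ x = ∫ s, ker s * Φ (x, s)` for smooth compactly supported `Φ` on
`F × (ℝ × ℝ)`: smoothness, derivatives in `x`, integration by parts in `s`.
-/

set_option autoImplicit false
set_option linter.unusedSectionVars false

open MeasureTheory Set Filter Topology Convolution
open scoped ContDiff

noncomputable section

namespace Crest.Agent.R260.Reg_274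

/-- the exponential kernel -/
def ker (s : ℝ × ℝ) : ℂ := Complex.exp ((s.2 : ℂ) + Complex.I * (s.1 : ℂ))

theorem ker_contDiff : ContDiff ℝ ∞ ker := by
  unfold ker
  refine Complex.contDiff_exp.comp ?_
  exact ((Complex.ofRealCLM.contDiff.comp contDiff_snd).add
    (contDiff_const.mul (Complex.ofRealCLM.contDiff.comp contDiff_fst)))

theorem ker_ne (s : ℝ × ℝ) : ker s ≠ 0 := Complex.exp_ne_zero _

theorem ker_cont : Continuous ker := ker_contDiff.continuous

theorem ker_fderiv (s v : ℝ × ℝ) :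
    fderiv ℝ ker s v = ((v.2 : ℂ) + Complex.I * (v.1 : ℂ)) * ker s := by
  have h1 : HasFDerivAt (fun s : ℝ × ℝ => ((s.2 : ℂ) + Complex.I * (s.1 : ℂ)))
      ((Complex.ofRealCLM.comp (ContinuousLinearMap.snd ℝ ℝ ℝ)) +
        Complex.I • (Complex.ofRealCLM.comp (ContinuousLinearMap.fst ℝ ℝ ℝ))) s := by
    have h2 : HasFDerivAt (fun s : ℝ × ℝ => (s.2 : ℂ))
        (Complex.ofRealCLM.comp (ContinuousLinearMap.snd ℝ ℝ ℝ)) s :=
      (Complex.ofRealCLM.comp (ContinuousLinearMap.snd ℝ ℝ ℝ)).hasFDerivAt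
    have h3 : HasFDerivAt (fun s : ℝ × ℝ => (s.1 : ℂ))
        (Complex.ofRealCLM.comp (ContinuousLinearMap.fst ℝ ℝ ℝ)) s :=
      (Complex.ofRealCLM.comp (ContinuousLinearMap.fst ℝ ℝ ℝ)).hasFDerivAt
    exact h2.add (h3.const_mul Complex.I)
  have h4 := h1.cexp
  have h5 : HasFDerivAt ker _ s := h4
  rw [h5.fderiv]
  simp only [_root_.smul_apply, _root_.add_apply,
    ContinuousLinearMap.comp_apply, Complex.ofRealCLM_apply, ContinuousLinearMap.coe_fst',
    ContinuousLinearMap.coe_snd', smul_eq_mul, ker]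
  ring

variable {F : Type} [NormedAddCommGroup F] [NormedSpace ℝ F]

/-- integral over the extra variables -/
def J (Φ : F × (ℝ × ℝ) → ℝ) (x : F) : ℂ := ∫ s : ℝ × ℝ, ker s * (Φ (x, s) : ℂ)

/-- the family used for convolution -/
def fam (Φ : F × (ℝ × ℝ) → ℝ) (p : F) (s : ℝ × ℝ) : ℂ := (Φ (p, -s) : ℂ)

theorem J_eq (Φ : F × (ℝ × ℝ) → ℝ) (x : F) :
    J Φ x = (ker ⋆[ContinuousLinearMap.mul ℝ ℂ, (volume : Measure (ℝ × ℝ))] fam Φ x) 0 := by
  unfold J convolution fam
  simp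

theorem fam_supp {Φ : F × (ℝ × ℝ) → ℝ} (hc : HasCompactSupport Φ) :
    ∃ k : Set (ℝ × ℝ), IsCompact k ∧ ∀ p : F, ∀ s, s ∉ k → fam Φ p s = 0 := by
  refine ⟨(fun s : ℝ × ℝ => -s) '' (Prod.snd '' tsupport Φ), ?_, ?_⟩
  · exact (hc.isCompact.image continuous_snd).image continuous_neg
  · intro p s hs
    unfold fam
    have : (p, -s) ∉ tsupport Φ := fun h => hs ⟨-s, ⟨(p, -s), h, rfl⟩, by simp⟩
    rw [image_eq_zero_of_notMem_tsupport this]
    simp

theorem fam_contDiff {Φ : F × (ℝ × ℝ) → ℝ} (hΦ : ContDiff ℝ ∞ Φ) :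
    ContDiff ℝ ∞ (Function.uncurry (fam Φ)) := by
  have : Function.uncurry (fam Φ) = fun q : F × (ℝ × ℝ) => ((Φ (q.1, -q.2) : ℝ) : ℂ) := by
    funext q; rfl
  rw [this]
  exact Complex.ofRealCLM.contDiff.comp (hΦ.comp (contDiff_fst.prodMk contDiff_snd.neg))

theorem ker_li : LocallyIntegrable ker (volume : Measure (ℝ × ℝ)) := ker_cont.locallyIntegrable

theorem J_contDiff {Φ : F × (ℝ × ℝ) → ℝ} (hΦ : ContDiff ℝ ∞ Φ) (hc : HasCompactSupport Φ) :
    ContDiff ℝ ∞ (J Φ) := by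
  obtain ⟨k, hk, hk0⟩ := fam_supp hc
  have h := contDiffOn_convolution_right_with_param (𝕜 := ℝ) (μ := (volume : Measure (ℝ × ℝ)))
    (n := ⊤) (f := ker) (ContinuousLinearMap.mul ℝ ℂ) (g := fam Φ) (s := univ) (k := k)
    isOpen_univ hk (fun p x _ hx => hk0 p x hx) ker_li (fam_contDiff hΦ).contDiffOn
  rw [univ_prod_univ, contDiffOn_univ] at h
  have h2 : J Φ = (fun q : F × (ℝ × ℝ) =>
      (ker ⋆[ContinuousLinearMap.mul ℝ ℂ, (volume : Measure (ℝ × ℝ))] fam Φ q.1) q.2) ∘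
        fun x : F => (x, (0 : ℝ × ℝ)) := by
    funext x
    exact J_eq Φ x
  rw [h2]
  exact h.comp (contDiff_id.prodMk contDiff_const)

theorem J_supp {Φ : F × (ℝ × ℝ) → ℝ} {x : F} (hx : x ∉ Prod.fst '' tsupport Φ) : J Φ x = 0 := by
  unfold J
  have : ∀ s : ℝ × ℝ, ker s * (Φ (x, s) : ℂ) = 0 := fun s => by
    have : (x, s) ∉ tsupport Φ := fun h => hx ⟨(x, s), h, rfl⟩
    rw [image_eq_zero_of_notMem_tsupport this]; simp
  simp [this]

theorem J_hasCompactSupport {Φ : F × (ℝ × ℝ) → ℝ} (hc : HasCompactSupport Φ) :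
    HasCompactSupport (J Φ) :=
  HasCompactSupport.intro (hc.isCompact.image continuous_fst) fun _ hx => J_supp hx

theorem J_tsupport {Φ : F × (ℝ × ℝ) → ℝ} (hc : HasCompactSupport Φ) :
    tsupport (J Φ) ⊆ Prod.fst '' tsupport Φ := by
  refine closure_minimal ?_ (hc.isCompact.image continuous_fst).isClosed
  intro x hx
  by_contra h
  exact hx (J_supp h)

theorem J_fderiv {Φ : F × (ℝ × ℝ) → ℝ} (hΦ : ContDiff ℝ ∞ Φ) (hc : HasCompactSupport Φ)
    (x v : F) :
    fderiv ℝ (J Φ) x v = J (fun y => fderiv ℝ Φ y (v, 0)) x := by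
  obtain ⟨k, hk, hk0⟩ := fam_supp hc
  have h := hasFDerivAt_convolution_right_with_param (𝕜 := ℝ) (μ := (volume : Measure (ℝ × ℝ)))
    (f := ker) (ContinuousLinearMap.mul ℝ ℂ) (g := fam Φ) (s := univ) (k := k)
    isOpen_univ hk (fun p x _ hx => hk0 p x hx) ker_li
    ((fam_contDiff hΦ).of_le (by exact_mod_cast le_top)).contDiffOn (x, 0) (mem_univ _)
  have h2 : HasFDerivAt (fun y : F => (y, (0 : ℝ × ℝ))) (ContinuousLinearMap.inl ℝ F (ℝ × ℝ)) x :=
    hasFDerivAt_prodMk_left x 0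
  have h3 := h.comp x h2
  have h4 : (fun q : F × (ℝ × ℝ) =>
      (ker ⋆[ContinuousLinearMap.mul ℝ ℂ, (volume : Measure (ℝ × ℝ))] fam Φ q.1) q.2) ∘
        (fun y : F => (y, (0 : ℝ × ℝ))) = J Φ := by
    funext y
    exact (J_eq Φ y).symm
  rw [h4] at h3
  rw [h3.fderiv, ContinuousLinearMap.comp_apply, ContinuousLinearMap.inl_apply]
  have hcont : Continuous fun t : ℝ × ℝ => fderiv ℝ (Function.uncurry (fam Φ)) (x, -t) :=
    ((fam_contDiff hΦ).continuous_fderiv (by simp)).comp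
      (continuous_const.prodMk continuous_neg)
  have hz : ∀ t : ℝ × ℝ, t ∉ (fun s : ℝ × ℝ => -s) '' k →
      fderiv ℝ (Function.uncurry (fam Φ)) (x, -t) = 0 := by
    intro t ht
    have hk' : -t ∉ k := fun h => ht ⟨-t, h, by simp⟩
    have ho : IsOpen (univ ×ˢ kᶜ : Set (F × (ℝ × ℝ))) := isOpen_univ.prod hk.isClosed.isOpen_compl
    have hev : Function.uncurry (fam Φ) =ᶠ[𝓝 (x, -t)] fun _ => 0 := by
      filter_upwards [ho.mem_nhds (⟨mem_univ _, hk'⟩ : (x, -t) ∈ (univ ×ˢ kᶜ : Set _))] with q hq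
      exact hk0 q.1 q.2 hq.2
    rw [hev.fderiv_eq]
    simp
  rw [convolution_def]
  have hint : Integrable (fun t : ℝ × ℝ =>
      ((ContinuousLinearMap.mul ℝ ℂ).precompR (F × (ℝ × ℝ)) (ker t))
        (fderiv ℝ (Function.uncurry (fam Φ)) (x, 0 - t))) volume := by
    have hc1 : Continuous (fun t : ℝ × ℝ =>
      ((ContinuousLinearMap.mul ℝ ℂ).precompR (F × (ℝ × ℝ)) (ker t))
        (fderiv ℝ (Function.uncurry (fam Φ)) (x, 0 - t))) := by
      have h0 : Continuous fun t : ℝ × ℝ =>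
          fderiv ℝ (Function.uncurry (fam Φ)) (x, 0 - t) := by simpa using hcont
      exact (((ContinuousLinearMap.mul ℝ ℂ).precompR (F × (ℝ × ℝ))).continuous.comp
        ker_cont).clm_apply h0
    refine hc1.integrable_of_hasCompactSupport
      (HasCompactSupport.intro (hk.image continuous_neg) fun t ht => ?_)
    have : fderiv ℝ (Function.uncurry (fam Φ)) (x, 0 - t) = 0 := by
      rw [zero_sub]; exact hz t ht
    rw [this, map_zero]
  change (∫ t : ℝ × ℝ, ((ContinuousLinearMap.mul ℝ ℂ).precompR (F × (ℝ × ℝ)) (ker t))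
        (fderiv ℝ (Function.uncurry (fam Φ)) (x, 0 - t))) (v, 0) = _
  rw [ContinuousLinearMap.integral_apply hint]
  unfold J
  refine integral_congr_ae (Eventually.of_forall fun t => ?_)
  simp only [zero_sub, ContinuousLinearMap.precompR_apply]
  have e1 : fderiv ℝ (Function.uncurry (fam Φ)) (x, -t) (v, 0) =
      ((fderiv ℝ Φ (x, t) (v, 0) : ℝ) : ℂ) := by
    have hd : HasFDerivAt Φ (fderiv ℝ Φ (x, t)) ((fun q : F × (ℝ × ℝ) => (q.1, -q.2)) (x, -t)) := by
      have : ((fun q : F × (ℝ × ℝ) => (q.1, -q.2)) (x, -t)) = (x, t) := by simp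
      rw [this]
      exact (hΦ.differentiable (by simp)).differentiableAt.hasFDerivAt
    have hd2 : HasFDerivAt (fun q : F × (ℝ × ℝ) => (q.1, -q.2))
        ((ContinuousLinearMap.fst ℝ F (ℝ × ℝ)).prod (-(ContinuousLinearMap.snd ℝ F (ℝ × ℝ))))
        (x, -t) := hasFDerivAt_fst.prodMk hasFDerivAt_snd.neg
    have hd3 : HasFDerivAt (fun q : F × (ℝ × ℝ) => Complex.ofRealCLM (Φ (q.1, -q.2))) _ (x, -t) :=
      Complex.ofRealCLM.hasFDerivAt.comp (x, -t) (hd.comp (x, -t) hd2)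
    have hd4 : HasFDerivAt (Function.uncurry (fam Φ)) _ (x, -t) := hd3
    rw [hd4.fderiv]
    simp
  rw [← e1]
  rfl

theorem J_parts {Φ : F × (ℝ × ℝ) → ℝ} (hΦ : ContDiff ℝ ∞ Φ) (hc : HasCompactSupport Φ)
    (x : F) (w : ℝ × ℝ) :
    J (fun y => fderiv ℝ Φ y (0, w)) x = -((w.2 : ℂ) + Complex.I * (w.1 : ℂ)) * J Φ x := by
  set g : ℝ × ℝ → ℂ := fun s => (Φ (x, s) : ℂ) with hg
  have hgs : ContDiff ℝ ∞ g :=
    Complex.ofRealCLM.contDiff.comp (hΦ.comp (contDiff_const.prodMk contDiff_id))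
  have hgc : HasCompactSupport g := by
    refine HasCompactSupport.intro (hc.isCompact.image continuous_snd) fun s hs => ?_
    have : (x, s) ∉ tsupport Φ := fun h => hs ⟨(x, s), h, rfl⟩
    simp [hg, image_eq_zero_of_notMem_tsupport this]
  have hfd : ∀ s, fderiv ℝ g s w = ((fderiv ℝ Φ (x, s) (0, w) : ℝ) : ℂ) := by
    intro s
    have h1 : HasFDerivAt Φ (fderiv ℝ Φ (x, s)) (x, s) :=
      (hΦ.differentiable (by simp)).differentiableAt.hasFDerivAt
    have h2 : HasFDerivAt (fun t : ℝ × ℝ => (x, t)) (ContinuousLinearMap.inr ℝ F (ℝ × ℝ)) s :=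
      hasFDerivAt_prodMk_right x s
    have h3 := (Complex.ofRealCLM.hasFDerivAt (x := Φ (x, s))).comp s (h1.comp s h2)
    have h4 : HasFDerivAt g _ s := h3
    rw [h4.fderiv]
    simp
  have hcont : Continuous fun s => fderiv ℝ g s w :=
    (hgs.continuous_fderiv (by simp)).clm_apply continuous_const
  have hcs : HasCompactSupport fun s => fderiv ℝ g s w :=
    (hgc.fderiv (𝕜 := ℝ)).comp_left (g := fun L : (ℝ × ℝ) →L[ℝ] ℂ => L w) rfl
  have hkc : Continuous fun s => fderiv ℝ ker s w :=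
    (ker_contDiff.continuous_fderiv (by simp)).clm_apply continuous_const
  have h := integral_mul_fderiv_eq_neg_fderiv_mul_of_integrable (μ := (volume : Measure (ℝ × ℝ)))
    (f := ker) (g := g) (v := w)
    ((hkc.mul hgs.continuous).integrable_of_hasCompactSupport hgc.mul_left)
    ((ker_cont.mul hcont).integrable_of_hasCompactSupport hcs.mul_left)
    ((ker_cont.mul hgs.continuous).integrable_of_hasCompactSupport hgc.mul_left)
    (fun s _ => (ker_contDiff.differentiable (by simp)).differentiableAt)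
    (fun s _ => (hgs.differentiable (by simp)).differentiableAt)
  unfold J
  have e1 : (∫ s : ℝ × ℝ, ker s * ((fderiv ℝ Φ (x, s) (0, w) : ℝ) : ℂ)) =
      ∫ s, ker s * fderiv ℝ g s w := by
    refine integral_congr_ae (Eventually.of_forall fun s => ?_)
    simp only [hfd]
  rw [e1, h, ← integral_const_mul, ← integral_neg]
  refine integral_congr_ae (Eventually.of_forall fun s => ?_)
  simp only [ker_fderiv, hg]
  ring

theorem J_integrable {Φ : F × (ℝ × ℝ) → ℝ} (hΦ : Continuous Φ) (hc : HasCompactSupport Φ) (x : F) :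
    Integrable (fun s : ℝ × ℝ => ker s * (Φ (x, s) : ℂ)) volume := by
  refine (ker_cont.mul (Complex.continuous_ofReal.comp (hΦ.comp
    (continuous_const.prodMk continuous_id)))).integrable_of_hasCompactSupport
      (HasCompactSupport.intro (hc.isCompact.image continuous_snd) fun s hs => ?_)
  have : (x, s) ∉ tsupport Φ := fun h => hs ⟨(x, s), h, rfl⟩
  simp [image_eq_zero_of_notMem_tsupport this]

theorem J_add {Φ Ψ : F × (ℝ × ℝ) → ℝ} (hΦ : Continuous Φ) (hc : HasCompactSupport Φ)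
    (hΨ : Continuous Ψ) (hc' : HasCompactSupport Ψ) (x : F) :
    J (fun y => Φ y + Ψ y) x = J Φ x + J Ψ x := by
  unfold J
  rw [← integral_add (J_integrable hΦ hc x) (J_integrable hΨ hc' x)]
  refine integral_congr_ae (Eventually.of_forall fun s => ?_)
  simp only [Complex.ofReal_add]
  ring

theorem J_sum {ι : Type} (S : Finset ι) {Φ : ι → F × (ℝ × ℝ) → ℝ}
    (hΦ : ∀ i ∈ S, Continuous (Φ i)) (hc : ∀ i ∈ S, HasCompactSupport (Φ i)) (x : F) :
    J (fun y => ∑ i ∈ S, Φ i y) x = ∑ i ∈ S, J (Φ i) x := by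
  unfold J
  rw [← integral_finsetSum S fun i hi => J_integrable (hΦ i hi) (hc i hi) x]
  refine integral_congr_ae (Eventually.of_forall fun s => ?_)
  simp only [Complex.ofReal_sum, Finset.mul_sum]

theorem J_coef (c : F → ℝ) (Φ : F × (ℝ × ℝ) → ℝ) (x : F) :
    J (fun y => c y.1 * Φ y) x = (c x : ℂ) * J Φ x := by
  unfold J
  rw [← integral_const_mul]
  refine integral_congr_ae (Eventually.of_forall fun s => ?_)
  simp only [Complex.ofReal_mul]
  ring

end Crest.Agent.R260.Reg_274
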