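import Mathlib

/-!
# Row 260, K-REG (helper899), part 1: iterated partial derivatives, L² norms on balls,
the prolongation of a first order system

* `pd i f`        : partial derivative
* `Dw w f`        : iterated partial derivatives along a word `w`
* `N2 r f`        : `∫_{closedBall 0 r} ‖f‖²`
* `HN k r f`      : the sum of `N2 r (Dw w f)` over the words of length `≤ k`
* `CB k Λ R f`    : all `Dw w f`, `|w| ≤ k`, are bounded by `Λ` on `closedBall 0 R`
-/

set_option autoImplicit false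
set_option linter.unusedSectionVars false

open MeasureTheory Set Filter Metric Topology
open scoped ContDiff

namespace Crest.Agent.R260.Reg899

noncomputable section

universe u v w

abbrev E (n : ℕ) := EuclideanSpace ℝ (Fin n)

theorem two_le_inf : (2 : WithTop ℕ∞) ≤ ∞ := WithTop.coe_le_coe.2 (le_top : (2 : ℕ∞) ≤ ⊤)

section basics

variable {n : ℕ} {F : Type u} {G : Type v} {H : Type w}
  [NormedAddCommGroup F] [NormedSpace ℝ F] [NormedAddCommGroup G] [NormedSpace ℝ G]
  [NormedAddCommGroup H] [NormedSpace ℝ H]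

/-- partial derivative -/
def pd (i : Fin n) (f : E n → F) (x : E n) : F := fderiv ℝ f x (EuclideanSpace.single i 1)

/-- iterated partial derivatives, the head of the word first -/
def Dw : List (Fin n) → (E n → F) → E n → F
  | [], f => f
  | i :: w, f => Dw w (pd i f)

@[simp] theorem Dw_nil (f : E n → F) : Dw [] f = f := rfl
@[simp] theorem Dw_cons (i : Fin n) (w : List (Fin n)) (f : E n → F) :
    Dw (i :: w) f = Dw w (pd i f) := rfl

theorem Dw_append (w w' : List (Fin n)) (f : E n → F) : Dw (w ++ w') f = Dw w' (Dw w f) := by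
  induction w generalizing f with
  | nil => rfl
  | cons i w ih => simp [ih]

variable {U : Set (E n)}

theorem sm_pd (hU : IsOpen U) {f : E n → F} (hf : ContDiffOn ℝ ∞ f U) (i : Fin n) :
    ContDiffOn ℝ ∞ (pd i f) U := by
  have h := hf.fderiv_of_isOpen (m := ∞) hU (by simp)
  exact h.clm_apply contDiffOn_const

theorem sm_Dw (hU : IsOpen U) {f : E n → F} (hf : ContDiffOn ℝ ∞ f U) (w : List (Fin n)) :
    ContDiffOn ℝ ∞ (Dw w f) U := by
  induction w generalizing f with
  | nil => exact hf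
  | cons i w ih => exact ih (sm_pd hU hf i)

theorem pd_congr (hU : IsOpen U) {f g : E n → F} (h : EqOn f g U) (i : Fin n) :
    EqOn (pd i f) (pd i g) U := by
  intro x hx
  have : f =ᶠ[𝓝 x] g := by
    filter_upwards [hU.mem_nhds hx] with y hy using h hy
  unfold pd
  rw [this.fderiv_eq]

theorem Dw_congr (hU : IsOpen U) {f g : E n → F} (h : EqOn f g U) (w : List (Fin n)) :
    EqOn (Dw w f) (Dw w g) U := by
  induction w generalizing f g with
  | nil => exact h
  | cons i w ih => exact ih (pd_congr hU h i)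

theorem diffAt (hU : IsOpen U) {f : E n → F} (hf : ContDiffOn ℝ ∞ f U) {x : E n} (hx : x ∈ U) :
    DifferentiableAt ℝ f x :=
  (hf.contDiffAt (hU.mem_nhds hx)).differentiableAt (by simp)

theorem pd_add (hU : IsOpen U) {f g : E n → F} (hf : ContDiffOn ℝ ∞ f U)
    (hg : ContDiffOn ℝ ∞ g U) (i : Fin n) :
    EqOn (pd i (fun x => f x + g x)) (fun x => pd i f x + pd i g x) U := by
  intro x hx
  unfold pd
  rw [fderiv_fun_add (diffAt hU hf hx) (diffAt hU hg hx)]
  rfl

theorem pd_sum (hU : IsOpen U) {ι : Type*} (s : Finset ι) {f : ι → E n → F}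
    (hf : ∀ j ∈ s, ContDiffOn ℝ ∞ (f j) U) (i : Fin n) :
    EqOn (pd i (fun x => ∑ j ∈ s, f j x)) (fun x => ∑ j ∈ s, pd i (f j) x) U := by
  intro x hx
  unfold pd
  rw [fderiv_fun_sum fun j hj => diffAt hU (hf j hj) hx]
  simp

theorem pd_clm (hU : IsOpen U) {f : E n → F} (hf : ContDiffOn ℝ ∞ f U) (T : F →L[ℝ] G)
    (i : Fin n) : EqOn (pd i (fun x => T (f x))) (fun x => T (pd i f x)) U := by
  intro x hx
  unfold pd
  have := (T.hasFDerivAt.comp x (diffAt hU hf hx).hasFDerivAt).fderiv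
  have e : (fun x => T (f x)) = T ∘ f := rfl
  rw [e, this]
  rfl

theorem pd_apply (hU : IsOpen U) {A : E n → F →L[ℝ] G} (hA : ContDiffOn ℝ ∞ A U) {f : E n → F}
    (hf : ContDiffOn ℝ ∞ f U) (i : Fin n) :
    EqOn (pd i (fun x => A x (f x))) (fun x => pd i A x (f x) + A x (pd i f x)) U := by
  intro x hx
  unfold pd
  rw [((diffAt hU hA hx).hasFDerivAt.clm_apply (diffAt hU hf hx).hasFDerivAt).fderiv]
  simp [add_comm]

theorem pd_smul (hU : IsOpen U) {a : E n → ℝ} (ha : ContDiffOn ℝ ∞ a U) {f : E n → F}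
    (hf : ContDiffOn ℝ ∞ f U) (i : Fin n) :
    EqOn (pd i (fun x => a x • f x)) (fun x => pd i a x • f x + a x • pd i f x) U := by
  intro x hx
  unfold pd
  rw [fderiv_fun_smul (diffAt hU ha hx) (diffAt hU hf hx)]
  simp [add_comm]

theorem pd_comm (hU : IsOpen U) {f : E n → F} (hf : ContDiffOn ℝ ∞ f U) (i j : Fin n) :
    EqOn (pd i (pd j f)) (pd j (pd i f)) U := by
  intro x hx
  have h1 : ContDiffAt ℝ ∞ f x := hf.contDiffAt (hU.mem_nhds hx)
  have hsym : IsSymmSndFDerivAt ℝ f x := h1.isSymmSndFDerivAt (by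
    rw [minSmoothness_of_isRCLikeNormedField]
    exact two_le_inf)
  have h2 : DifferentiableAt ℝ (fderiv ℝ f) x :=
    (h1.fderiv_right (m := 1) (by
      rw [one_add_one_eq_two]; exact two_le_inf)).differentiableAt (by simp)
  have h3 : ∀ a b : Fin n, pd a (pd b f) x =
      fderiv ℝ (fderiv ℝ f) x (EuclideanSpace.single a 1) (EuclideanSpace.single b 1) := by
    intro a b
    unfold pd
    have := (h2.hasFDerivAt.clm_apply
      (hasFDerivAt_const (EuclideanSpace.single b (1 : ℝ)) x)).fderiv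
    rw [this]
    simp
  rw [h3, h3]
  exact hsym _ _

theorem Dw_clm (hU : IsOpen U) {f : E n → F} (hf : ContDiffOn ℝ ∞ f U) (T : F →L[ℝ] G)
    (w : List (Fin n)) : EqOn (Dw w (fun x => T (f x))) (fun x => T (Dw w f x)) U := by
  induction w generalizing f with
  | nil => exact fun x _ => rfl
  | cons i w ih => exact (Dw_congr hU (pd_clm hU hf T i) w).trans (ih (sm_pd hU hf i))

theorem Dw_add (hU : IsOpen U) {f g : E n → F} (hf : ContDiffOn ℝ ∞ f U)
    (hg : ContDiffOn ℝ ∞ g U) (w : List (Fin n)) :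
    EqOn (Dw w (fun x => f x + g x)) (fun x => Dw w f x + Dw w g x) U := by
  induction w generalizing f g with
  | nil => exact fun x _ => rfl
  | cons i w ih =>
    exact (Dw_congr hU (pd_add hU hf hg i) w).trans (ih (sm_pd hU hf i) (sm_pd hU hg i))

theorem Dw_sum (hU : IsOpen U) {ι : Type*} (s : Finset ι) {f : ι → E n → F}
    (hf : ∀ j ∈ s, ContDiffOn ℝ ∞ (f j) U) (w : List (Fin n)) :
    EqOn (Dw w (fun x => ∑ j ∈ s, f j x)) (fun x => ∑ j ∈ s, Dw w (f j) x) U := by
  induction w generalizing f with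
  | nil => exact fun x _ => rfl
  | cons i w ih =>
    exact (Dw_congr hU (pd_sum hU s hf i) w).trans (ih fun j hj => sm_pd hU (hf j hj) i)

/-! ### L² norms on balls -/

/-- `∫_{closedBall 0 r} ‖f‖²` -/
def N2 (r : ℝ) (f : E n → F) : ℝ := ∫ x in closedBall (0 : E n) r, ‖f x‖ ^ 2

/-- the sum of the squares of the L² norms of all iterated derivatives of order `≤ k` -/
def HN : ℕ → ℝ → (E n → F) → ℝ
  | 0, r, f => N2 r f
  | k + 1, r, f => N2 r f + ∑ i : Fin n, HN k r (pd i f)

theorem N2_nonneg (r : ℝ) (f : E n → F) : 0 ≤ N2 r f :=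
  setIntegral_nonneg isClosed_closedBall.measurableSet fun _ _ => by positivity

theorem HN_nonneg (k : ℕ) (r : ℝ) (f : E n → F) : 0 ≤ HN k r f := by
  induction k generalizing f with
  | zero => exact N2_nonneg r f
  | succ k ih => exact add_nonneg (N2_nonneg r f) (Finset.sum_nonneg fun i _ => ih _)

theorem N2_le_HN (k : ℕ) (r : ℝ) (f : E n → F) : N2 r f ≤ HN k r f := by
  cases k with
  | zero => exact le_rfl
  | succ k => exact le_add_of_nonneg_right (Finset.sum_nonneg fun i _ => HN_nonneg _ _ _)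

theorem HN_le_succ (k : ℕ) (r : ℝ) (f : E n → F) : HN k r f ≤ HN (k + 1) r f := by
  induction k generalizing f with
  | zero => exact N2_le_HN 1 r f
  | succ k ih => exact add_le_add le_rfl (Finset.sum_le_sum fun i _ => ih _)

theorem HN_mono_left {k l : ℕ} (h : k ≤ l) (r : ℝ) (f : E n → F) : HN k r f ≤ HN l r f := by
  induction l, h using Nat.le_induction with
  | base => exact le_rfl
  | succ l _ ih => exact ih.trans (HN_le_succ l r f)

theorem N2_Dw_le (w : List (Fin n)) {k : ℕ} (hw : w.length ≤ k) (r : ℝ) (f : E n → F) :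
    N2 r (Dw w f) ≤ HN k r f := by
  induction w generalizing f k with
  | nil => exact N2_le_HN k r f
  | cons i w ih =>
    obtain ⟨k, rfl⟩ : ∃ l, k = l + 1 := ⟨k - 1, by
      have : 0 < (i :: w).length := by simp
      omega⟩
    have h1 := ih (k := k) (by simpa using hw) (pd i f)
    have h2 : HN k r (pd i f) ≤ ∑ i : Fin n, HN k r (pd i f) :=
      Finset.single_le_sum (f := fun i => HN k r (pd i f)) (fun j _ => HN_nonneg _ _ _)
        (Finset.mem_univ i)
    have h3 := N2_nonneg r f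
    change N2 r (Dw w (pd i f)) ≤ N2 r f + ∑ i : Fin n, HN k r (pd i f)
    linarith

theorem intOn {f : E n → F} {r : ℝ} (hf : ContinuousOn f (closedBall 0 r)) :
    IntegrableOn (fun x => ‖f x‖ ^ 2) (closedBall (0 : E n) r) volume :=
  (hf.norm.pow 2).integrableOn_compact (isCompact_closedBall 0 r)

theorem N2_congr {r : ℝ} {f g : E n → F} (h : EqOn f g (closedBall 0 r)) : N2 r f = N2 r g := by
  unfold N2
  exact setIntegral_congr_fun isClosed_closedBall.measurableSet fun x hx => by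
    simp only [h hx]

theorem HN_congr (hU : IsOpen U) (k : ℕ) {r : ℝ} (hr : closedBall 0 r ⊆ U) {f g : E n → F}
    (h : EqOn f g U) : HN k r f = HN k r g := by
  induction k generalizing f g with
  | zero => exact N2_congr (h.mono hr)
  | succ k ih =>
    change N2 r f + _ = N2 r g + _
    rw [N2_congr (h.mono hr)]
    congr 1
    exact Finset.sum_congr rfl fun i _ => ih (pd_congr hU h i)

theorem N2_mono {r R : ℝ} (hrR : r ≤ R) {f : E n → F} (hf : ContinuousOn f (closedBall 0 R)) :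
    N2 r f ≤ N2 R f :=
  setIntegral_mono_set (intOn hf) (Eventually.of_forall fun _ => by positivity)
    (Eventually.of_forall (closedBall_subset_closedBall hrR))

theorem HN_mono (hU : IsOpen U) (k : ℕ) {r R : ℝ} (hrR : r ≤ R) (hR : closedBall 0 R ⊆ U)
    {f : E n → F} (hf : ContDiffOn ℝ ∞ f U) : HN k r f ≤ HN k R f := by
  induction k generalizing f with
  | zero => exact N2_mono hrR (hf.continuousOn.mono hR)
  | succ k ih =>
    exact add_le_add (N2_mono hrR (hf.continuousOn.mono hR))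
      (Finset.sum_le_sum fun i _ => ih (sm_pd hU hf i))

theorem N2_le_of_norm {r a : ℝ} {f : E n → F} {g : E n → G}
    (hf : ContinuousOn f (closedBall 0 r)) (hg : ContinuousOn g (closedBall 0 r))
    (h : ∀ x ∈ closedBall (0 : E n) r, ‖f x‖ ^ 2 ≤ a * ‖g x‖ ^ 2) : N2 r f ≤ a * N2 r g := by
  unfold N2
  rw [← integral_const_mul]
  exact setIntegral_mono_on (intOn hf) ((intOn hg).const_mul a)
    isClosed_closedBall.measurableSet h

theorem HN_clm (hU : IsOpen U) (k : ℕ) {r : ℝ} (hr : closedBall 0 r ⊆ U) {f : E n → F}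
    (hf : ContDiffOn ℝ ∞ f U) (T : F →L[ℝ] G) :
    HN k r (fun x => T (f x)) ≤ ‖T‖ ^ 2 * HN k r f := by
  have h0 : ∀ {f : E n → F}, ContDiffOn ℝ ∞ f U →
      N2 r (fun x => T (f x)) ≤ ‖T‖ ^ 2 * N2 r f := by
    intro f hf
    refine N2_le_of_norm ((T.continuous.comp_continuousOn hf.continuousOn).mono hr)
      (hf.continuousOn.mono hr) fun x _ => ?_
    rw [← mul_pow]
    exact pow_le_pow_left₀ (norm_nonneg _) (T.le_opNorm _) 2
  induction k generalizing f with
  | zero => exact h0 hf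
  | succ k ih =>
    change N2 r (fun x => T (f x)) + _ ≤ ‖T‖ ^ 2 * (N2 r f + _)
    rw [mul_add, Finset.mul_sum]
    refine add_le_add (h0 hf) (Finset.sum_le_sum fun i _ => ?_)
    rw [HN_congr hU k hr (pd_clm hU hf T i)]
    exact ih (sm_pd hU hf i)

/-- the sup norm of a tuple is bounded by the sum -/
theorem norm_pi_sq_le {ι : Type*} [Fintype ι] (V : ι → F) : ‖V‖ ^ 2 ≤ ∑ o, ‖V o‖ ^ 2 := by
  rcases isEmpty_or_nonempty ι with h | h
  · have : V = 0 := Subsingleton.elim _ _
    simp [this]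
  obtain ⟨o, ho⟩ : ∃ o, ‖V‖ = ‖V o‖ := by
    obtain ⟨o, -, ho⟩ := Finset.exists_mem_eq_sup (Finset.univ : Finset ι)
      Finset.univ_nonempty (fun b => ‖V b‖₊)
    refine ⟨o, ?_⟩
    have : ‖V‖₊ = ‖V o‖₊ := by rw [← ho]; rfl
    exact congrArg NNReal.toReal this
  rw [ho]
  exact Finset.single_le_sum (f := fun o => ‖V o‖ ^ 2) (fun o _ => by positivity)
    (Finset.mem_univ o)

theorem HN_pi {ι : Type*} [Fintype ι] (hU : IsOpen U) (k : ℕ) {r : ℝ} (hr : closedBall 0 r ⊆ U)
    {V : E n → ι → F} (hV : ContDiffOn ℝ ∞ V U) :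
    HN k r V ≤ ∑ o, HN k r (fun x => V x o) := by
  have hVo : ∀ {V : E n → ι → F}, ContDiffOn ℝ ∞ V U → ∀ o,
      ContDiffOn ℝ ∞ (fun x => V x o) U := fun hV o => contDiffOn_pi.1 hV o
  have h0 : ∀ {V : E n → ι → F}, ContDiffOn ℝ ∞ V U →
      N2 r V ≤ ∑ o, N2 r (fun x => V x o) := by
    intro V hV
    unfold N2
    rw [← integral_finsetSum _ fun o _ => intOn ((hVo hV o).continuousOn.mono hr)]
    exact setIntegral_mono_on (intOn (hV.continuousOn.mono hr))
      (integrable_finsetSum _ fun o _ => intOn ((hVo hV o).continuousOn.mono hr))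
      isClosed_closedBall.measurableSet fun x _ => norm_pi_sq_le _
  induction k generalizing V with
  | zero => exact h0 hV
  | succ k ih =>
    change N2 r V + _ ≤ ∑ o, (N2 r (fun x => V x o) + ∑ i, HN k r (pd i (fun x => V x o)))
    rw [Finset.sum_add_distrib, Finset.sum_comm]
    refine add_le_add (h0 hV) (Finset.sum_le_sum fun i _ => ?_)
    refine (ih (sm_pd hU hV i)).trans (Finset.sum_le_sum fun o _ => le_of_eq ?_)
    refine HN_congr hU k hr fun x hx => ?_
    exact (pd_clm hU hV (ContinuousLinearMap.proj (R := ℝ) (φ := fun _ : ι => F) o) i hx).symm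

/-! ### bounds for coefficients -/

/-- all derivatives of order `≤ k` are bounded by `Λ` on the closed ball -/
def CB (k : ℕ) (Λ R : ℝ) (f : E n → F) : Prop :=
  ∀ w : List (Fin n), w.length ≤ k → ∀ x ∈ closedBall (0 : E n) R, ‖Dw w f x‖ ≤ Λ

theorem CB.pd {k : ℕ} {Λ R : ℝ} {f : E n → F} (h : CB (k + 1) Λ R f) (i : Fin n) :
    CB k Λ R (pd i f) := fun w hw x hx => h (i :: w) (by simpa using hw) x hx

theorem CB.mono {k l : ℕ} {Λ Λ' R R' : ℝ} {f : E n → F} (h : CB k Λ R f) (hl : l ≤ k)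
    (hΛ : Λ ≤ Λ') (hR : R' ≤ R) : CB l Λ' R' f := fun w hw x hx =>
  (h w (hw.trans hl) x (closedBall_subset_closedBall hR hx)).trans hΛ

theorem CB.add (hU : IsOpen U) {k : ℕ} {Λ Λ' R : ℝ} (hR : closedBall 0 R ⊆ U) {f g : E n → F}
    (hf : ContDiffOn ℝ ∞ f U) (hg : ContDiffOn ℝ ∞ g U) (h : CB k Λ R f) (h' : CB k Λ' R g) :
    CB k (Λ + Λ') R (fun x => f x + g x) := by
  intro w hw x hx
  rw [Dw_add hU hf hg w (hR hx)]
  exact (norm_add_le _ _).trans (add_le_add (h w hw x hx) (h' w hw x hx))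

theorem CB.sum (hU : IsOpen U) {k : ℕ} {Λ R : ℝ} (hR : closedBall 0 R ⊆ U) {ι : Type*}
    (s : Finset ι) {f : ι → E n → F} (hf : ∀ j ∈ s, ContDiffOn ℝ ∞ (f j) U)
    (h : ∀ j ∈ s, CB k Λ R (f j)) : CB k (s.card * Λ) R (fun x => ∑ j ∈ s, f j x) := by
  intro w hw x hx
  rw [Dw_sum hU s hf w (hR hx)]
  refine (norm_sum_le _ _).trans ((Finset.sum_le_sum fun j hj => h j hj w hw x hx).trans ?_)
  rw [Finset.sum_const, nsmul_eq_mul]

theorem CB.clm (hU : IsOpen U) {k : ℕ} {Λ R : ℝ} (hR : closedBall 0 R ⊆ U) {f : E n → F}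
    (hf : ContDiffOn ℝ ∞ f U) (h : CB k Λ R f) (T : F →L[ℝ] G) (hT : ‖T‖ ≤ 1) :
    CB k Λ R (fun x => T (f x)) := by
  intro w hw x hx
  rw [Dw_clm hU hf T w (hR hx)]
  refine (T.le_opNorm _).trans ?_
  have := h w hw x hx
  calc ‖T‖ * ‖Dw w f x‖ ≤ 1 * ‖Dw w f x‖ := by gcongr
    _ ≤ Λ := by rw [one_mul]; exact this

end basics

end

end Crest.Agent.R260.Reg899
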