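import Crest.Agent.R260.Reg1_274
import Crest.Agent.R202.EllFinal

/-!
# Row 260, K-REG (helper274), file 2: regularity of very weak solutions of COMPLEX scalar second
order elliptic equations with real principal part

`Lc G κ d φ = Σ_i (∂_i + κ_i) (Σ_j G_ij (∂_j + κ_j) φ) + d φ`, `κ`, `d` complex.

`reg` : `u ∈ L¹_loc(U; ℂ)`, `∫ u * Lc φ = ∫ f * φ` for complex test functions ==> `u` is smooth.
-/

set_option autoImplicit false
set_option linter.unusedSectionVars false
set_option linter.unusedVariables false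
set_option linter.unusedSimpArgs false

open MeasureTheory Set Filter Topology
open scoped ContDiff Matrix
open Crest.GeometryTopology.CoordMetric Crest.Agent.R202.Ell

noncomputable section

namespace Crest.Agent.R260.Reg_274

variable {n : ℕ}

abbrev EE (n : ℕ) : Type := EuclideanSpace ℝ (Fin n)

/-- complex partial derivative -/
def cd (i : Fin n) (φ : EE n → ℂ) (x : EE n) : ℂ := fderiv ℝ φ x (EuclideanSpace.single i 1)

/-- the operator -/
def Lc (G : EE n → Matrix (Fin n) (Fin n) ℝ) (κ : EE n → Fin n → ℂ) (d : EE n → ℂ)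
    (φ : EE n → ℂ) (x : EE n) : ℂ :=
  ∑ i, cd i (fun y => ∑ j, (G y i j : ℂ) * (cd j φ y + κ y j * φ y)) x
    + (∑ i, κ x i * ∑ j, (G x i j : ℂ) * (cd j φ x + κ x j * φ x)) + d x * φ x

/-- coordinates: the two extra variables are number `0` (real exponential) and `1` (phase) -/
def LamL (n : ℕ) : EE (n + 2) →ₗ[ℝ] EE n × (ℝ × ℝ) where
  toFun y := (WithLp.toLp 2 fun i => y i.succ.succ, (y 1, y 0))
  map_add' x y := rfl
  map_smul' c x := rfl

def LamInv (n : ℕ) (z : EE n × (ℝ × ℝ)) : EE (n + 2) :=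
  WithLp.toLp 2 (Fin.cons z.2.2 (Fin.cons z.2.1 fun i => z.1 i))

def Lam (n : ℕ) : EE (n + 2) ≃L[ℝ] EE n × (ℝ × ℝ) :=
  LinearEquiv.toContinuousLinearEquiv
    { LamL n with
      invFun := LamInv n
      left_inv := by
        intro y
        ext i
        refine Fin.cases rfl (fun i => Fin.cases rfl (fun i => rfl) i) i
      right_inv := by
        intro z
        rfl }

theorem Lam_apply (y : EE (n + 2)) :
    Lam n y = (WithLp.toLp 2 fun i => y i.succ.succ, (y 1, y 0)) := rfl

theorem Lam_single_zero : Lam n (EuclideanSpace.single 0 1) = (0, (0, 1)) := by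
  rw [Lam_apply]
  refine Prod.ext ?_ (Prod.ext ?_ ?_)
  · ext i; simp [PiLp.single_apply, Fin.succ_ne_zero]
  · simp [PiLp.single_apply]
  · simp [PiLp.single_apply]

theorem Lam_single_one : Lam n (EuclideanSpace.single 1 1) = (0, (1, 0)) := by
  rw [Lam_apply]
  refine Prod.ext ?_ (Prod.ext ?_ ?_)
  · ext i
    have : (i.succ.succ : Fin (n + 2)) ≠ 1 := by
      intro h
      have := congrArg Fin.val h
      simp at this
    simp [PiLp.single_apply, this]
  · simp [PiLp.single_apply]
  · simp [PiLp.single_apply]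

theorem Lam_single_succ (j : Fin n) :
    Lam n (EuclideanSpace.single j.succ.succ 1) = (EuclideanSpace.single j 1, 0) := by
  rw [Lam_apply]
  refine Prod.ext ?_ (Prod.ext ?_ ?_)
  · ext i; simp [PiLp.single_apply]
  · have : (1 : Fin (n + 2)) ≠ j.succ.succ := by
      intro h
      have := congrArg Fin.val h
      simp at this
    simp [PiLp.single_apply, this]
  · simp [PiLp.single_apply, (Fin.succ_ne_zero _).symm]

/-- the direction in the product space belonging to a coordinate -/
def dir (k : Fin (n + 2)) : EE n × (ℝ × ℝ) := Lam n (EuclideanSpace.single k 1)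

theorem sum_fin2 {M : Type} [AddCommMonoid M] (f : Fin (n + 2) → M) :
    ∑ k, f k = f 0 + (f 1 + ∑ i : Fin n, f i.succ.succ) := by
  rw [Fin.sum_univ_succ, Fin.sum_univ_succ]
  rfl

/-- vector attached to a coordinate -/
def wv (α β : Fin n → ℝ) : Fin (n + 2) → (Fin n → ℝ) :=
  Fin.cons β (Fin.cons α fun i => Pi.single i 1)

/-- block of the extra variables -/
def Dm (a b γ : ℝ) (k l : Fin (n + 2)) : ℝ :=
  if k = 0 then (if l = 0 then b else if l = 1 then γ else 0)
  else if k = 1 then (if l = 0 then γ else if l = 1 then a else 0) else 0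

/-- the real matrix on `ℝ^(n+2)` -/
def Bm (G : Matrix (Fin n) (Fin n) ℝ) (α β : Fin n → ℝ) (a b γ : ℝ) :
    Matrix (Fin (n + 2)) (Fin (n + 2)) ℝ :=
  Matrix.of fun k l => wv α β k ⬝ᵥ (G *ᵥ wv α β l) + Dm a b γ k l

theorem one_ne_zero' : (1 : Fin (n + 2)) ≠ 0 := by
  intro h
  have := congrArg Fin.val h
  simp at this

theorem succ_ne_one (i : Fin n) : (i.succ.succ : Fin (n + 2)) ≠ 1 := by
  intro h
  have := congrArg Fin.val h
  simp at this

theorem Bm_posDef {G : Matrix (Fin n) (Fin n) ℝ} (hG : G.PosDef) (α β : Fin n → ℝ) {a b γ : ℝ}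
    (ha : 0 < a) (hab : γ ^ 2 < a * b) : (Bm G α β a b γ).PosDef := by
  have hb : 0 < b := by
    by_contra h
    push Not at h
    nlinarith [sq_nonneg γ, mul_nonneg ha.le (neg_nonneg.2 h)]
  have hsymG : ∀ i j, G i j = G j i := fun i j => by
    have := congrFun (congrFun hG.1 j) i
    simpa [Matrix.conjTranspose_apply] using this
  have hsym : (Bm G α β a b γ).IsHermitian := by
    ext k l
    simp only [Matrix.conjTranspose_apply, star_trivial, Bm, Matrix.of_apply]
    have h1 : wv α β l ⬝ᵥ (G *ᵥ wv α β k) = wv α β k ⬝ᵥ (G *ᵥ wv α β l) := by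
      simp only [dotProduct, Matrix.mulVec, Finset.mul_sum]
      rw [Finset.sum_comm]
      refine Finset.sum_congr rfl fun i _ => Finset.sum_congr rfl fun j _ => ?_
      rw [hsymG j i]; ring
    have h2 : Dm a b γ l k = Dm a b γ k l := by
      unfold Dm
      split_ifs <;> simp_all
    rw [h1, h2]
  refine Matrix.PosDef.of_dotProduct_mulVec_pos hsym fun v hv => ?_
  set τ : ℝ := v 1
  set σ : ℝ := v 0
  set ξ : Fin n → ℝ := fun i => v i.succ.succ with hξ
  set η : Fin n → ℝ := fun i => ξ i + τ * α i + σ * β i with hη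
  have hw : ∀ i, ∑ k, v k * wv α β k i = η i := by
    intro i
    rw [sum_fin2]
    have h1 : ∑ j : Fin n, v j.succ.succ * wv α β j.succ.succ i = ξ i := by
      rw [Finset.sum_eq_single i]
      · simp [wv, hξ]
      · intro j _ hj
        simp [wv, Pi.single_apply, hj.symm]
      · simp
    rw [h1]
    simp only [hη]
    change σ * β i + (τ * α i + ξ i) = _
    ring
  have hq : star v ⬝ᵥ (Bm G α β a b γ *ᵥ v) =
      η ⬝ᵥ (G *ᵥ η) + (a * τ ^ 2 + 2 * γ * τ * σ + b * σ ^ 2) := by
    have h1 : star v ⬝ᵥ (Bm G α β a b γ *ᵥ v) =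
        (∑ k, ∑ l, v k * v l * (wv α β k ⬝ᵥ (G *ᵥ wv α β l))) +
          ∑ k, ∑ l, v k * v l * Dm a b γ k l := by
      simp only [dotProduct, Matrix.mulVec, Bm, Matrix.of_apply, star_trivial, Pi.star_apply]
      rw [← Finset.sum_add_distrib]
      refine Finset.sum_congr rfl fun k _ => ?_
      rw [Finset.mul_sum, ← Finset.sum_add_distrib]
      refine Finset.sum_congr rfl fun l _ => ?_
      ring
    have h2 : (∑ k, ∑ l, v k * v l * (wv α β k ⬝ᵥ (G *ᵥ wv α β l))) = η ⬝ᵥ (G *ᵥ η) := by
      have e1 : ∀ k l, v k * v l * (wv α β k ⬝ᵥ (G *ᵥ wv α β l)) =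
          ∑ i, ∑ j, (v k * wv α β k i) * G i j * (v l * wv α β l j) := by
        intro k l
        simp only [dotProduct, Matrix.mulVec, Finset.mul_sum]
        refine Finset.sum_congr rfl fun i _ => Finset.sum_congr rfl fun j _ => ?_
        ring
      simp only [e1]
      have e2 : η ⬝ᵥ (G *ᵥ η) = ∑ i, ∑ j, (∑ k, v k * wv α β k i) * G i j *
          (∑ l, v l * wv α β l j) := by
        simp only [dotProduct, Matrix.mulVec, Finset.mul_sum, hw]
        refine Finset.sum_congr rfl fun i _ => ?_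
        refine Finset.sum_congr rfl fun j _ => ?_
        ring
      rw [e2]
      simp only [Finset.sum_mul, Finset.mul_sum]
      calc (∑ k, ∑ l, ∑ i, ∑ j, (v k * wv α β k i) * G i j * (v l * wv α β l j))
          = ∑ k, ∑ i, ∑ l, ∑ j, (v k * wv α β k i) * G i j * (v l * wv α β l j) :=
            Finset.sum_congr rfl fun k _ => Finset.sum_comm
        _ = ∑ i, ∑ k, ∑ l, ∑ j, (v k * wv α β k i) * G i j * (v l * wv α β l j) :=
            Finset.sum_comm
        _ = ∑ i, ∑ k, ∑ j, ∑ l, (v k * wv α β k i) * G i j * (v l * wv α β l j) :=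
            Finset.sum_congr rfl fun i _ => Finset.sum_congr rfl fun k _ => Finset.sum_comm
        _ = ∑ i, ∑ j, ∑ k, ∑ l, (v k * wv α β k i) * G i j * (v l * wv α β l j) :=
            Finset.sum_congr rfl fun i _ => Finset.sum_comm
        _ = _ := Finset.sum_congr rfl fun i _ => Finset.sum_congr rfl fun j _ =>
            Finset.sum_comm
    have h3 : (∑ k, ∑ l, v k * v l * Dm a b γ k l) =
        a * τ ^ 2 + 2 * γ * τ * σ + b * σ ^ 2 := by
      simp only [sum_fin2]
      simp only [Dm, if_true, one_ne_zero', if_false, Fin.succ_ne_zero, succ_ne_one, mul_zero,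
        Finset.sum_const_zero, add_zero]
      change σ * σ * b + σ * τ * γ + (τ * σ * γ + τ * τ * a) = _
      ring
    rw [h1, h2, h3]
  rw [hq]
  have hG0 : 0 ≤ η ⬝ᵥ (G *ᵥ η) := by
    have := hG.posSemidef.dotProduct_mulVec_nonneg η
    simpa using this
  by_cases h0 : τ = 0 ∧ σ = 0
  · have hη0 : η ≠ 0 := by
      intro h
      apply hv
      funext k
      refine Fin.cases h0.2 (fun k => Fin.cases h0.1 (fun i => ?_) k) k
      have := congrFun h i
      simp only [hη, h0.1, h0.2, zero_mul, add_zero, Pi.zero_apply] at this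
      exact this
    have := hG.dotProduct_mulVec_pos hη0
    simp only [star_trivial] at this
    rw [h0.1, h0.2]
    nlinarith
  · have hpos : 0 < a * τ ^ 2 + 2 * γ * τ * σ + b * σ ^ 2 := by
      have key : a * (a * τ ^ 2 + 2 * γ * τ * σ + b * σ ^ 2) =
          (a * τ + γ * σ) ^ 2 + (a * b - γ ^ 2) * σ ^ 2 := by ring
      by_cases hσ : σ = 0
      · have hτ : τ ≠ 0 := fun h => h0 ⟨h, hσ⟩
        rw [hσ]
        have : 0 < τ ^ 2 := by positivity
        nlinarith [mul_pos ha this]
      · have h2 : 0 < σ ^ 2 := by positivity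
        have h3 : 0 < a * (a * τ ^ 2 + 2 * γ * τ * σ + b * σ ^ 2) := by
          rw [key]
          nlinarith [sq_nonneg (a * τ + γ * σ), mul_pos (sub_pos.2 hab) h2]
        exact (mul_pos_iff_of_pos_left ha).1 h3
    linarith

end Crest.Agent.R260.Reg_274
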