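import Crest.Agent.R260.Reg1_899

/-!
# Row 260, K-REG (helper899), part 2: interior estimates for first order systems

* `opL A B u`   : `∑ A_i ∂_i u + B u`
* `Coer c R A`  : `∑ ∫ ‖∂_i v‖² ≤ c (∫ ‖∑ A_i ∂_i v‖² + ∫ ‖v‖²)` for `v ∈ C_c^∞(ball 0 R)`
* `interior`    : `‖u‖_{H^{k+1}(B_r)}² ≤ C (‖u‖²_{L²(B_R)} + ‖opL A B u‖²_{H^k(B_R)})`, `C` only
                  depending on `n`, `k`, `c`, the bounds of the coefficients, `r`, `R`.
-/

set_option autoImplicit false
set_option linter.unusedSectionVars false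

open MeasureTheory Set Filter Metric Topology
open scoped ContDiff

namespace Crest.Agent.R260.Reg899

noncomputable section

universe u v w

section ops

variable {n : ℕ} {F : Type u} {G : Type v}
  [NormedAddCommGroup F] [NormedSpace ℝ F] [NormedAddCommGroup G] [NormedSpace ℝ G]

/-- the first order operator `∑ A_i ∂_i + B` -/
def opL (A : Fin n → E n → F →L[ℝ] G) (B : E n → F →L[ℝ] G) (u : E n → F) (x : E n) : G :=
  ∑ i, A i x (pd i u x) + B x (u x)

/-- coercivity of the principal part -/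
def Coer (c R : ℝ) (A : Fin n → E n → F →L[ℝ] G) : Prop :=
  ∀ v : E n → F, ContDiff ℝ ∞ v → HasCompactSupport v → tsupport v ⊆ ball (0 : E n) R →
    ∑ i, ∫ x, ‖pd i v x‖ ^ 2 ≤ c * ((∫ x, ‖∑ i, A i x (pd i v x)‖ ^ 2) + ∫ x, ‖v x‖ ^ 2)

variable {U : Set (E n)}

theorem sm_opL (hU : IsOpen U) {A : Fin n → E n → F →L[ℝ] G} {B : E n → F →L[ℝ] G}
    {u : E n → F} (hA : ∀ i, ContDiffOn ℝ ∞ (A i) U) (hB : ContDiffOn ℝ ∞ B U)
    (hu : ContDiffOn ℝ ∞ u U) : ContDiffOn ℝ ∞ (opL A B u) U :=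
  (ContDiffOn.sum fun i _ => (hA i).clm_apply (sm_pd hU hu i)).add (hB.clm_apply hu)

/-- cut-off functions between two balls -/
theorem exists_cut {r R : ℝ} (hr : 0 < r) (hrR : r < R) : ∃ χ : E n → ℝ, ContDiff ℝ ∞ χ ∧
    HasCompactSupport χ ∧ tsupport χ ⊆ ball 0 R ∧ (∀ x, 0 ≤ χ x) ∧ (∀ x, χ x ≤ 1) ∧
    ∃ r', r < r' ∧ ∀ x ∈ ball (0 : E n) r', χ x = 1 := by
  let b : ContDiffBump (0 : E n) :=
    { rIn := (2 * r + R) / 3, rOut := (r + 2 * R) / 3, rIn_pos := by linarith,
      rIn_lt_rOut := by linarith }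
  refine ⟨b, b.contDiff, b.hasCompactSupport, ?_, fun x => b.nonneg, fun x => b.le_one,
    (2 * r + R) / 3, by linarith, fun x hx => b.one_of_mem_closedBall
      (ball_subset_closedBall hx)⟩
  rw [b.tsupport_eq]
  exact closedBall_subset_ball (by change (r + 2 * R) / 3 < R; linarith)

/-- a product with a cut-off is smooth on the whole space -/
theorem sm_cut (hU : IsOpen U) {χ : E n → ℝ} (hχ : ContDiff ℝ ∞ χ) (hs : tsupport χ ⊆ U)
    {u : E n → F} (hu : ContDiffOn ℝ ∞ u U) : ContDiff ℝ ∞ (fun x => χ x • u x) := by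
  rw [contDiff_iff_contDiffAt]
  intro x
  by_cases hx : x ∈ U
  · exact hχ.contDiffAt.smul (hu.contDiffAt (hU.mem_nhds hx))
  · have hx' : x ∉ tsupport χ := fun h => hx (hs h)
    have h0 : (fun x => χ x • u x) =ᶠ[𝓝 x] fun _ => 0 := by
      filter_upwards [(isClosed_tsupport χ).isOpen_compl.mem_nhds hx'] with y hy
      rw [image_eq_zero_of_notMem_tsupport hy, zero_smul]
    exact contDiffAt_const.congr_of_eventuallyEq h0

theorem tsupport_pd_subset (i : Fin n) (f : E n → F) : tsupport (pd i f) ⊆ tsupport f := by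
  refine (closure_mono ?_).trans (tsupport_fderiv_subset ℝ (f := f))
  intro x hx h0
  apply hx
  unfold pd
  rw [h0]; rfl

theorem cont_of_zero {W : Type*} [TopologicalSpace W] [Zero W] {f : E n → W} {K : Set (E n)}
    (hU : IsOpen U) (hK : IsClosed K) (hKU : K ⊆ U) (hf : ContinuousOn f U)
    (h0 : ∀ x, x ∉ K → f x = 0) : Continuous f := by
  rw [continuous_iff_continuousAt]
  intro x
  by_cases hx : x ∈ U
  · exact hf.continuousAt (hU.mem_nhds hx)
  · have hx' : x ∉ K := fun h => hx (hKU h)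
    have h1 : f =ᶠ[𝓝 x] fun _ => 0 := by
      filter_upwards [hK.isOpen_compl.mem_nhds hx'] with y hy using h0 y hy
    exact continuousAt_const.congr h1.symm

theorem int_sq {W : Type*} [NormedAddCommGroup W] {f : E n → W} (hf : Continuous f)
    (hc : HasCompactSupport f) : Integrable (fun x => ‖f x‖ ^ 2) (volume : Measure (E n)) := by
  have : HasCompactSupport (fun x => ‖f x‖ ^ 2) := by
    have := hc.norm
    exact this.comp_left (g := fun t => t ^ 2) (by simp)
  exact (hf.norm.pow 2).integrable_of_hasCompactSupport this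

theorem integral_le_N2 {R : ℝ} {f : E n → F} {h : E n → ℝ}
    (hf : Continuous f) (h0 : ∀ x, x ∉ closedBall (0 : E n) R → f x = 0)
    (hh : IntegrableOn h (closedBall (0 : E n) R) volume)
    (hle : ∀ x ∈ closedBall (0 : E n) R, ‖f x‖ ^ 2 ≤ h x) :
    ∫ x, ‖f x‖ ^ 2 ≤ ∫ x in closedBall (0 : E n) R, h x := by
  rw [← setIntegral_eq_integral_of_forall_compl_eq_zero (s := closedBall (0 : E n) R)
    (fun x hx => by simp [h0 x hx])]
  exact setIntegral_mono_on (intOn hf.continuousOn) hh isClosed_closedBall.measurableSet hle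

theorem N2_le_integral {r : ℝ} {f g : E n → F} (hg : Continuous g) (hgc : HasCompactSupport g)
    (hfg : EqOn f g (closedBall 0 r)) : N2 r f ≤ ∫ x, ‖g x‖ ^ 2 := by
  rw [N2_congr hfg]
  unfold N2
  exact setIntegral_le_integral (int_sq hg hgc) (Eventually.of_forall fun _ => by positivity)

/-- **the base estimate** -/
theorem interior0 (n : ℕ) (c Λ r R : ℝ) (hc : 0 ≤ c) (hΛ : 0 ≤ Λ) (hr : 0 < r) (hrR : r < R) :
    ∃ C : ℝ, 0 ≤ C ∧ ∀ (F : Type u) (G : Type v) [NormedAddCommGroup F] [NormedSpace ℝ F]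
      [NormedAddCommGroup G] [NormedSpace ℝ G] (U : Set (E n)) (A : Fin n → E n → F →L[ℝ] G)
      (B : E n → F →L[ℝ] G) (u : E n → F), IsOpen U → closedBall 0 R ⊆ U →
      (∀ i, ContDiffOn ℝ ∞ (A i) U) → ContDiffOn ℝ ∞ B U → (∀ i, CB 0 Λ R (A i)) →
      CB 0 Λ R B → Coer c R A → ContDiffOn ℝ ∞ u U →
      HN 1 r u ≤ C * (N2 R u + N2 R (opL A B u)) := by
  obtain ⟨χ, hχ, hχc, hχs, hχ0, hχ1, r', hr', hχr⟩ := exists_cut (n := n) hr hrR
  obtain ⟨K, hK⟩ : ∃ K, ∀ i : Fin n, ∀ x, ‖pd i χ x‖ ≤ K := by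
    have h1 : ∀ i : Fin n, ∃ K, ∀ x, ‖pd i χ x‖ ≤ K := by
      intro i
      have h2 : Continuous (pd i χ) := by
        have := sm_pd isOpen_univ hχ.contDiffOn i
        exact (contDiffOn_univ.1 this).continuous
      have h3 : HasCompactSupport (pd i χ) :=
        hχc.mono' (subset_closure.trans (tsupport_pd_subset i χ))
      exact h3.exists_bound_of_continuous h2
    choose K hK using h1
    refine ⟨∑ i, |K i|, fun i x => (hK i x).trans ((le_abs_self _).trans
      (Finset.single_le_sum (f := fun i => |K i|) (fun _ _ => abs_nonneg _)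
        (Finset.mem_univ i)))⟩
  have hK0 : ∀ i : Fin n, ∀ x, ‖pd i χ x‖ ≤ |K| := fun i x => (hK i x).trans (le_abs_self _)
  set M : ℝ := Λ + n * (|K| * Λ) with hM
  have hM0 : 0 ≤ M := by positivity
  refine ⟨1 + c * (2 + 2 * M ^ 2 + 1), by positivity, ?_⟩
  intro F G _ _ _ _ U A B u hU hRU hA hB hAb hBb hco hu
  have hsU : tsupport χ ⊆ U := hχs.trans (ball_subset_closedBall.trans hRU)
  set v : E n → F := fun x => χ x • u x with hv
  have hvs : ContDiff ℝ ∞ v := sm_cut hU hχ hsU hu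
  have hvt : tsupport v ⊆ tsupport χ := tsupport_smul_subset_left χ u
  have hvc : HasCompactSupport v := hχc.mono' (subset_closure.trans hvt)
  have hco' := hco v hvs hvc (hvt.trans hχs)
  -- the derivatives of `v`
  have hpdv : ∀ i, ∀ x ∈ U, pd i v x = pd i χ x • u x + χ x • pd i u x := fun i x hx =>
    pd_smul hU hχ.contDiffOn hu i hx
  have hpdv0 : ∀ i, ∀ x, x ∉ tsupport χ → pd i v x = 0 := fun i x hx =>
    image_eq_zero_of_notMem_tsupport fun h => hx (hvt (tsupport_pd_subset i v h))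
  have hpdχ0 : ∀ i, ∀ x, x ∉ tsupport χ → pd i χ x = 0 := fun i x hx =>
    image_eq_zero_of_notMem_tsupport fun h => hx (tsupport_pd_subset i χ h)
  have hrR' : closedBall (0 : E n) r ⊆ closedBall 0 R := closedBall_subset_closedBall hrR.le
  have hLs := sm_opL hU hA hB hu
  -- left hand side
  have hL : ∀ i, N2 r (pd i u) ≤ ∫ x, ‖pd i v x‖ ^ 2 := by
    intro i
    refine N2_le_integral ?_ (hvc.mono' (subset_closure.trans (tsupport_pd_subset i v))) ?_
    · exact (contDiffOn_univ.1 (sm_pd isOpen_univ hvs.contDiffOn i)).continuous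
    · intro x hx
      refine pd_congr (isOpen_ball (x := (0 : E n)) (ε := r')) (fun y hy => ?_) i
        (closedBall_subset_ball hr' hx)
      simp [hv, hχr y hy]
  -- the principal part
  set f : E n → G := fun x => ∑ i, A i x (pd i v x) with hf
  have hfe : f = fun x => χ x • (opL A B u x - B x (u x)) + ∑ i, pd i χ x • A i x (u x) := by
    funext x
    by_cases hx : x ∈ U
    · simp only [hf, opL, add_sub_cancel_right, Finset.smul_sum, ← Finset.sum_add_distrib]
      refine Finset.sum_congr rfl fun i _ => ?_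
      rw [hpdv i x hx]
      simp [add_comm]
    · have hx' : x ∉ tsupport χ := fun h => hx (hsU h)
      simp only [hf]
      rw [image_eq_zero_of_notMem_tsupport hx', zero_smul, zero_add]
      refine Finset.sum_congr rfl fun i _ => ?_
      rw [hpdv0 i x hx', hpdχ0 i x hx', map_zero, zero_smul]
  have hfc : Continuous f := by
    rw [hfe]
    refine Continuous.add (sm_cut hU hχ hsU (hLs.sub (hB.clm_apply hu))).continuous ?_
    refine continuous_finsetSum _ fun i _ => ?_
    have h1 : ContDiff ℝ ∞ (pd i χ) := contDiffOn_univ.1 (sm_pd isOpen_univ hχ.contDiffOn i)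
    exact (sm_cut hU h1 ((tsupport_pd_subset i χ).trans hsU) ((hA i).clm_apply hu)).continuous
  have hf0 : ∀ x, x ∉ closedBall (0 : E n) R → f x = 0 := by
    intro x hx
    have hx' : x ∉ tsupport χ := fun h => hx (ball_subset_closedBall (hχs h))
    simp only [hf]
    exact Finset.sum_eq_zero fun i _ => by rw [hpdv0 i x hx', map_zero]
  have hfb : ∀ x ∈ closedBall (0 : E n) R,
      ‖f x‖ ^ 2 ≤ 2 * ‖opL A B u x‖ ^ 2 + 2 * M ^ 2 * ‖u x‖ ^ 2 := by
    intro x hx
    have h1 : ‖f x‖ ≤ ‖opL A B u x‖ + M * ‖u x‖ := by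
      rw [hfe]
      refine (norm_add_le _ _).trans ?_
      have h2 : ‖χ x • (opL A B u x - B x (u x))‖ ≤ ‖opL A B u x‖ + Λ * ‖u x‖ := by
        rw [norm_smul, Real.norm_eq_abs, abs_of_nonneg (hχ0 x)]
        have h3 : ‖B x (u x)‖ ≤ Λ * ‖u x‖ :=
          ((B x).le_opNorm _).trans (by
            have := hBb [] (by simp) x hx
            simp only [Dw_nil] at this
            gcongr)
        calc χ x * ‖opL A B u x - B x (u x)‖ ≤ 1 * ‖opL A B u x - B x (u x)‖ := by
              gcongr; exact hχ1 x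
          _ ≤ ‖opL A B u x‖ + Λ * ‖u x‖ := by
              rw [one_mul]; exact (norm_sub_le _ _).trans (by gcongr)
      have h4 : ‖∑ i, pd i χ x • A i x (u x)‖ ≤ n * (|K| * Λ) * ‖u x‖ := by
        refine (norm_sum_le _ _).trans ((Finset.sum_le_card_nsmul _ _ (|K| * Λ * ‖u x‖)
          fun i _ => ?_).trans (le_of_eq ?_))
        · rw [norm_smul]
          have h5 : ‖A i x (u x)‖ ≤ Λ * ‖u x‖ :=
            ((A i x).le_opNorm _).trans (by
              have := hAb i [] (by simp) x hx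
              simp only [Dw_nil] at this
              gcongr)
          calc ‖pd i χ x‖ * ‖A i x (u x)‖ ≤ |K| * (Λ * ‖u x‖) := by
                gcongr; exact hK0 i x
            _ = |K| * Λ * ‖u x‖ := by ring
        · simp; ring
      rw [hM]
      calc _ ≤ (‖opL A B u x‖ + Λ * ‖u x‖) + n * (|K| * Λ) * ‖u x‖ := add_le_add h2 h4
        _ = _ := by ring
    calc ‖f x‖ ^ 2 ≤ (‖opL A B u x‖ + M * ‖u x‖) ^ 2 := pow_le_pow_left₀ (norm_nonneg _) h1 2
      _ ≤ 2 * ‖opL A B u x‖ ^ 2 + 2 * M ^ 2 * ‖u x‖ ^ 2 := by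
        nlinarith [sq_nonneg (‖opL A B u x‖ - M * ‖u x‖)]
  have iu := intOn (hu.continuousOn.mono hRU)
  have iL := intOn (hLs.continuousOn.mono hRU)
  have ih : IntegrableOn (fun x => 2 * ‖opL A B u x‖ ^ 2 + 2 * M ^ 2 * ‖u x‖ ^ 2)
      (closedBall (0 : E n) R) volume := by
    have i1 := iL.const_mul 2
    have i2 := iu.const_mul (2 * M ^ 2)
    exact i1.add i2
  have h1 : ∫ x, ‖f x‖ ^ 2 ≤ 2 * N2 R (opL A B u) + 2 * M ^ 2 * N2 R u := by
    refine (integral_le_N2 (h := fun x => 2 * ‖opL A B u x‖ ^ 2 + 2 * M ^ 2 * ‖u x‖ ^ 2) hfc hf0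
      ih hfb).trans (le_of_eq ?_)
    unfold N2
    rw [integral_add (iL.const_mul _) (iu.const_mul _), integral_const_mul, integral_const_mul]
  have h2 : ∫ x, ‖v x‖ ^ 2 ≤ N2 R u := by
    refine integral_le_N2 hvs.continuous (fun x hx => ?_) iu fun x _ => ?_
    · exact image_eq_zero_of_notMem_tsupport fun h => hx (ball_subset_closedBall (hχs (hvt h)))
    · simp only [hv]
      rw [norm_smul, Real.norm_eq_abs, abs_of_nonneg (hχ0 x), mul_pow]
      calc χ x ^ 2 * ‖u x‖ ^ 2 ≤ 1 ^ 2 * ‖u x‖ ^ 2 := by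
            gcongr
            · exact hχ0 x
            · exact hχ1 x
        _ = ‖u x‖ ^ 2 := by ring
  have h3 : HN 1 r u ≤ N2 R u + c * ((2 * N2 R (opL A B u) + 2 * M ^ 2 * N2 R u) + N2 R u) := by
    change N2 r u + ∑ i, N2 r (pd i u) ≤ _
    refine add_le_add (N2_mono hrR.le (hu.continuousOn.mono hRU)) ?_
    refine (Finset.sum_le_sum fun i _ => hL i).trans (hco'.trans ?_)
    gcongr
  have p1 := N2_nonneg R u
  have p2 := N2_nonneg R (opL A B u)
  refine h3.trans ?_
  have : 0 ≤ c * M ^ 2 * N2 R (opL A B u) := by positivity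
  have : 0 ≤ c * N2 R (opL A B u) := by positivity
  nlinarith [mul_nonneg hc p1, mul_nonneg hc p2]

/-! ### prolongation -/

/-- the matrix unit: `M` in the position `(o, o')` -/
def S (n : ℕ) (F : Type u) (G : Type v) [NormedAddCommGroup F] [NormedSpace ℝ F]
    [NormedAddCommGroup G] [NormedSpace ℝ G] (o o' : Option (Fin n)) :
    (F →L[ℝ] G) →L[ℝ] ((Option (Fin n) → F) →L[ℝ] (Option (Fin n) → G)) :=
  (ContinuousLinearMap.compL ℝ (Option (Fin n) → F) G (Option (Fin n) → G)
    (ContinuousLinearMap.single ℝ (fun _ : Option (Fin n) => G) o)).comp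
    ((ContinuousLinearMap.compL ℝ (Option (Fin n) → F) F G).flip
      (ContinuousLinearMap.proj (R := ℝ) (φ := fun _ : Option (Fin n) => F) o'))

theorem S_apply (o o' p : Option (Fin n)) (M : F →L[ℝ] G) (V : Option (Fin n) → F) :
    S n F G o o' M V p = if p = o then M (V o') else 0 := by
  unfold S
  simp only [ContinuousLinearMap.comp_apply, ContinuousLinearMap.compL_apply,
    ContinuousLinearMap.flip_apply]
  simp [Pi.single_apply]

theorem norm_S_le (o o' : Option (Fin n)) : ‖S n F G o o'‖ ≤ 1 := by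
  refine ContinuousLinearMap.opNorm_le_bound _ zero_le_one fun M => ?_
  rw [one_mul]
  refine ContinuousLinearMap.opNorm_le_bound _ (norm_nonneg _) fun V => ?_
  refine (pi_norm_le_iff_of_nonneg (by positivity)).2 fun p => ?_
  rw [S_apply]
  split_ifs
  · exact (M.le_opNorm _).trans (by gcongr; exact norm_le_pi_norm V o')
  · rw [norm_zero]; positivity

/-- the 1-jet -/
def J (u : E n → F) (x : E n) : Option (Fin n) → F
  | none => u x
  | some i => pd i u x

/-- principal part of the prolonged system -/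
def pA (A : Fin n → E n → F →L[ℝ] G) (i : Fin n) (x : E n) :
    (Option (Fin n) → F) →L[ℝ] (Option (Fin n) → G) := ∑ o, S n F G o o (A i x)

/-- zero order part of the prolonged system -/
def pB (A : Fin n → E n → F →L[ℝ] G) (B : E n → F →L[ℝ] G) (x : E n) :
    (Option (Fin n) → F) →L[ℝ] (Option (Fin n) → G) :=
  ∑ o, S n F G o o (B x) + ∑ j : Fin n, (∑ i : Fin n, S n F G (some j) (some i) (pd j (A i) x) +
    S n F G (some j) none (pd j B x))

theorem pA_apply (A : Fin n → E n → F →L[ℝ] G) (i : Fin n) (x : E n) (V : Option (Fin n) → F)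
    (o : Option (Fin n)) : pA A i x V o = A i x (V o) := by
  unfold pA
  rw [_root_.sum_apply, Finset.sum_apply]
  simp [S_apply]

theorem pB_none (A : Fin n → E n → F →L[ℝ] G) (B : E n → F →L[ℝ] G) (x : E n)
    (V : Option (Fin n) → F) : pB A B x V none = B x (V none) := by
  unfold pB
  simp [S_apply, _root_.sum_apply, Finset.sum_apply]

theorem pB_some (A : Fin n → E n → F →L[ℝ] G) (B : E n → F →L[ℝ] G) (x : E n)
    (V : Option (Fin n) → F) (j : Fin n) : pB A B x V (some j) =
      B x (V (some j)) + (∑ i, pd j (A i) x (V (some i)) + pd j B x (V none)) := by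
  unfold pB
  simp only [_root_.add_apply, _root_.sum_apply, Pi.add_apply,
    Finset.sum_apply, S_apply, Option.some.injEq]
  congr 1
  · simp
  · rw [Finset.sum_eq_single j]
    · simp
    · intro b _ hb
      simp [hb.symm]
    · simp

theorem J_apply_none (u : E n → F) (x : E n) : J u x none = u x := rfl
theorem J_apply_some (u : E n → F) (x : E n) (i : Fin n) : J u x (some i) = pd i u x := rfl

theorem sm_J (hU : IsOpen U) {u : E n → F} (hu : ContDiffOn ℝ ∞ u U) :
    ContDiffOn ℝ ∞ (J u) U := by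
  refine contDiffOn_pi.2 fun o => ?_
  cases o with
  | none => exact hu
  | some i => exact sm_pd hU hu i

theorem pd_J (hU : IsOpen U) {u : E n → F} (hu : ContDiffOn ℝ ∞ u U) (i : Fin n) {x : E n}
    (hx : x ∈ U) (o : Option (Fin n)) : pd i (J u) x o = pd i (fun y => J u y o) x :=
  (pd_clm hU (sm_J hU hu)
    (ContinuousLinearMap.proj (R := ℝ) (φ := fun _ : Option (Fin n) => F) o) i hx).symm

/-- the prolonged system is satisfied by the 1-jet -/
theorem opL_J (hU : IsOpen U) {A : Fin n → E n → F →L[ℝ] G} {B : E n → F →L[ℝ] G}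
    {u : E n → F} (hA : ∀ i, ContDiffOn ℝ ∞ (A i) U) (hB : ContDiffOn ℝ ∞ B U)
    (hu : ContDiffOn ℝ ∞ u U) : EqOn (opL (pA A) (pB A B) (J u)) (J (opL A B u)) U := by
  intro x hx
  funext o
  have h1 : opL (pA A) (pB A B) (J u) x o =
      ∑ i, A i x (pd i (fun y => J u y o) x) + pB A B x (J u x) o := by
    unfold opL
    rw [Pi.add_apply, Finset.sum_apply]
    congr 1
    exact Finset.sum_congr rfl fun i _ => by rw [pA_apply, pd_J hU hu i hx]
  rw [h1]
  cases o with
  | none => rw [pB_none]; rfl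
  | some j =>
    rw [pB_some]
    change _ = pd j (opL A B u) x
    have h2 : pd j (opL A B u) x = ∑ i, (pd j (A i) x (pd i u x) + A i x (pd j (pd i u) x)) +
        (pd j B x (u x) + B x (pd j u x)) := by
      have e1 := pd_add hU (f := fun x => ∑ i, A i x (pd i u x)) (g := fun x => B x (u x))
        (ContDiffOn.sum fun i _ => (hA i).clm_apply (sm_pd hU hu i)) (hB.clm_apply hu) j hx
      have e2 := pd_sum hU Finset.univ (f := fun i x => A i x (pd i u x))
        (fun i _ => (hA i).clm_apply (sm_pd hU hu i)) j hx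
      simp only at e1 e2
      have e0 : opL A B u = fun x => ∑ i, A i x (pd i u x) + B x (u x) := rfl
      rw [e0, e1, e2]
      congr 1
      · exact Finset.sum_congr rfl fun i _ => pd_apply hU (hA i) (sm_pd hU hu i) j hx
      · exact pd_apply hU hB hu j hx
    rw [h2]
    simp only [J_apply_none, J_apply_some]
    have h3 : ∀ i, pd i (fun y => pd j u y) x = pd j (pd i u) x := fun i =>
      pd_comm hU hu i j hx
    simp only [h3, Finset.sum_add_distrib]
    abel

theorem sm_pA {A : Fin n → E n → F →L[ℝ] G} (hA : ∀ i, ContDiffOn ℝ ∞ (A i) U)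
    (i : Fin n) : ContDiffOn ℝ ∞ (pA A i) U :=
  ContDiffOn.sum fun o _ => (S n F G o o).contDiff.comp_contDiffOn (hA i)

theorem sm_pB (hU : IsOpen U) {A : Fin n → E n → F →L[ℝ] G} {B : E n → F →L[ℝ] G}
    (hA : ∀ i, ContDiffOn ℝ ∞ (A i) U) (hB : ContDiffOn ℝ ∞ B U) :
    ContDiffOn ℝ ∞ (pB A B) U := by
  refine (ContDiffOn.sum fun o _ => (S n F G o o).contDiff.comp_contDiffOn hB).add
    (ContDiffOn.sum fun j _ => (ContDiffOn.sum fun i _ => ?_).add ?_)
  · exact (S n F G (some j) (some i)).contDiff.comp_contDiffOn (sm_pd hU (hA i) j)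
  · exact (S n F G (some j) none).contDiff.comp_contDiffOn (sm_pd hU hB j)

theorem cb_pA (hU : IsOpen U) {k : ℕ} {Λ R : ℝ} (hR : closedBall 0 R ⊆ U) (hΛ : 0 ≤ Λ)
    {A : Fin n → E n → F →L[ℝ] G} (hA : ∀ i, ContDiffOn ℝ ∞ (A i) U)
    (h : ∀ i, CB k Λ R (A i)) (i : Fin n) : CB k (((n : ℝ) + 1) ^ 2 * Λ) R (pA A i) := by
  have h1 := CB.sum hU hR (Finset.univ : Finset (Option (Fin n)))
    (f := fun o x => S n F G o o (A i x))
    (fun o _ => (S n F G o o).contDiff.comp_contDiffOn (hA i))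
    (fun o _ => (h i).clm hU hR (hA i) (S n F G o o) (norm_S_le o o))
  refine CB.mono h1 le_rfl ?_ le_rfl
  have : (Finset.card (Finset.univ : Finset (Option (Fin n))) : ℝ) = n + 1 := by simp
  rw [this]
  have hn : (0 : ℝ) ≤ n := Nat.cast_nonneg n
  nlinarith [mul_nonneg hn hΛ, mul_nonneg (mul_nonneg hn hn) hΛ]

theorem cb_pB (hU : IsOpen U) {k : ℕ} {Λ R : ℝ} (hR : closedBall 0 R ⊆ U)
    {A : Fin n → E n → F →L[ℝ] G} {B : E n → F →L[ℝ] G}
    (hA : ∀ i, ContDiffOn ℝ ∞ (A i) U) (hB : ContDiffOn ℝ ∞ B U)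
    (h : ∀ i, CB (k + 1) Λ R (A i)) (h' : CB (k + 1) Λ R B) :
    CB k (((n : ℝ) + 1) ^ 2 * Λ) R (pB A B) := by
  have h1 := CB.sum hU hR (Finset.univ : Finset (Option (Fin n)))
    (f := fun o x => S n F G o o (B x))
    (fun o _ => (S n F G o o).contDiff.comp_contDiffOn hB)
    (fun o _ => (h'.mono (Nat.le_succ k) le_rfl le_rfl).clm hU hR hB (S n F G o o)
      (norm_S_le o o))
  have h2 : ∀ j : Fin n, CB k ((n : ℝ) * Λ + Λ) R (fun x =>
      (∑ i : Fin n, S n F G (some j) (some i) (pd j (A i) x)) +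
        S n F G (some j) none (pd j B x)) := by
    intro j
    have h3 := CB.sum hU hR (Finset.univ : Finset (Fin n))
      (f := fun i x => S n F G (some j) (some i) (pd j (A i) x))
      (fun i _ => (S n F G (some j) (some i)).contDiff.comp_contDiffOn (sm_pd hU (hA i) j))
      (fun i _ => ((h i).pd j).clm hU hR (sm_pd hU (hA i) j) _ (norm_S_le _ _))
    rw [Finset.card_univ, Fintype.card_fin] at h3
    refine CB.add hU hR (ContDiffOn.sum fun i _ =>
      (S n F G (some j) (some i)).contDiff.comp_contDiffOn (sm_pd hU (hA i) j))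
      ((S n F G (some j) none).contDiff.comp_contDiffOn (sm_pd hU hB j)) h3
      ((h'.pd j).clm hU hR (sm_pd hU hB j) _ (norm_S_le _ _))
  have h4 := CB.sum hU hR (Finset.univ : Finset (Fin n)) (f := fun j x =>
      (∑ i : Fin n, S n F G (some j) (some i) (pd j (A i) x)) +
        S n F G (some j) none (pd j B x)) (fun j _ => (ContDiffOn.sum fun i _ =>
      (S n F G (some j) (some i)).contDiff.comp_contDiffOn (sm_pd hU (hA i) j)).add
      ((S n F G (some j) none).contDiff.comp_contDiffOn (sm_pd hU hB j))) (fun j _ => h2 j)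
  have h5 := CB.add hU hR (ContDiffOn.sum fun o _ =>
      (S n F G o o).contDiff.comp_contDiffOn hB) (ContDiffOn.sum fun j _ =>
      (ContDiffOn.sum fun i _ =>
      (S n F G (some j) (some i)).contDiff.comp_contDiffOn (sm_pd hU (hA i) j)).add
      ((S n F G (some j) none).contDiff.comp_contDiffOn (sm_pd hU hB j))) h1 h4
  refine CB.mono h5 le_rfl (le_of_eq ?_) le_rfl
  simp
  ring

theorem coer_pA {c R : ℝ} (hc : 0 ≤ c) (hU : IsOpen U) (hR : closedBall 0 R ⊆ U)
    {A : Fin n → E n → F →L[ℝ] G} (hA : ∀ i, ContDiffOn ℝ ∞ (A i) U)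
    (h : Coer c R A) : Coer (c * ((n : ℝ) + 1)) R (pA A) := by
  intro V hV hVc hVs
  have hVU : tsupport V ⊆ U := hVs.trans (ball_subset_closedBall.trans hR)
  have hVo : ∀ o, ContDiff ℝ ∞ (fun x => V x o) := fun o => contDiff_pi.1 hV o
  have hst : ∀ o, tsupport (fun x => V x o) ⊆ tsupport V := fun o =>
    closure_mono fun x hx h0 => hx (by simp [h0])
  have hVoc : ∀ o, HasCompactSupport (fun x => V x o) := fun o =>
    hVc.mono' (subset_closure.trans (hst o))
  have hpd : ∀ i o x, pd i V x o = pd i (fun y => V y o) x := fun i o x =>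
    (pd_clm isOpen_univ hV.contDiffOn
      (ContinuousLinearMap.proj (R := ℝ) (φ := fun _ : Option (Fin n) => F) o) i
      (mem_univ x)).symm
  -- continuity and compact supports
  have cpd : ∀ i, Continuous (pd i V) := fun i =>
    (contDiffOn_univ.1 (sm_pd isOpen_univ hV.contDiffOn i)).continuous
  have kpd : ∀ i, HasCompactSupport (pd i V) := fun i =>
    hVc.mono' (subset_closure.trans (tsupport_pd_subset i V))
  set P : E n → Option (Fin n) → G := fun x => ∑ i, pA A i x (pd i V x) with hP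
  have hP0 : ∀ x, x ∉ tsupport V → P x = 0 := fun x hx =>
    Finset.sum_eq_zero fun i _ => by
      rw [image_eq_zero_of_notMem_tsupport fun h => hx (tsupport_pd_subset i V h), map_zero]
  have cP : Continuous P := by
    refine cont_of_zero hU (isClosed_tsupport V) hVU ?_ hP0
    exact continuousOn_finsetSum _ fun i _ =>
      (sm_pA hA i).continuousOn.clm_apply (cpd i).continuousOn
  have kP : HasCompactSupport P := hVc.mono' fun x hx => by
    by_contra h
    exact hx (hP0 x h)
  have hPo : ∀ x o, P x o = ∑ i, A i x (pd i (fun y => V y o) x) := by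
    intro x o
    have e : P x = ∑ i, pA A i x (pd i V x) := rfl
    rw [e, Finset.sum_apply]
    exact Finset.sum_congr rfl fun i _ => by rw [pA_apply, hpd]
  have h1 : ∀ o, ∑ i, ∫ x, ‖pd i (fun y => V y o) x‖ ^ 2 ≤
      c * ((∫ x, ‖P x‖ ^ 2) + ∫ x, ‖V x‖ ^ 2) := by
    intro o
    refine (h _ (hVo o) (hVoc o) ((hst o).trans hVs)).trans ?_
    refine mul_le_mul_of_nonneg_left (add_le_add ?_ ?_) hc
    · refine integral_mono_of_nonneg (Eventually.of_forall fun _ => by positivity)
        (int_sq cP kP) (Eventually.of_forall fun x => ?_)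
      simp only
      rw [← hPo]
      exact pow_le_pow_left₀ (norm_nonneg _) (norm_le_pi_norm _ o) 2
    · refine integral_mono_of_nonneg (Eventually.of_forall fun _ => by positivity)
        (int_sq hV.continuous hVc) (Eventually.of_forall fun x => ?_)
      exact pow_le_pow_left₀ (norm_nonneg _) (norm_le_pi_norm _ o) 2
  have h2 : ∀ i, ∫ x, ‖pd i V x‖ ^ 2 ≤ ∑ o, ∫ x, ‖pd i (fun y => V y o) x‖ ^ 2 := by
    intro i
    have hi : ∀ o, Integrable (fun x => ‖pd i (fun y => V y o) x‖ ^ 2)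
        (volume : Measure (E n)) := fun o => int_sq
      (contDiffOn_univ.1 (sm_pd isOpen_univ (hVo o).contDiffOn i)).continuous
      ((hVoc o).mono' (subset_closure.trans (tsupport_pd_subset i _)))
    rw [← integral_finsetSum _ fun o _ => hi o]
    refine integral_mono_of_nonneg (Eventually.of_forall fun _ => by positivity)
      (integrable_finsetSum _ fun o _ => hi o) (Eventually.of_forall fun x => ?_)
    simp only
    refine (norm_pi_sq_le _).trans (le_of_eq ?_)
    exact Finset.sum_congr rfl fun o _ => by rw [hpd]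
  calc ∑ i, ∫ x, ‖pd i V x‖ ^ 2
      ≤ ∑ i, ∑ o, ∫ x, ‖pd i (fun y => V y o) x‖ ^ 2 := Finset.sum_le_sum fun i _ => h2 i
    _ = ∑ o, ∑ i, ∫ x, ‖pd i (fun y => V y o) x‖ ^ 2 := Finset.sum_comm
    _ ≤ ∑ _o : Option (Fin n), c * ((∫ x, ‖P x‖ ^ 2) + ∫ x, ‖V x‖ ^ 2) :=
      Finset.sum_le_sum fun o _ => h1 o
    _ = c * ((n : ℝ) + 1) * ((∫ x, ‖P x‖ ^ 2) + ∫ x, ‖V x‖ ^ 2) := by
      rw [Finset.sum_const, Finset.card_univ, Fintype.card_option, Fintype.card_fin,
        nsmul_eq_mul]
      push_cast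
      ring

/-- **interior estimates for first order systems**, constants independent of the coefficients -/
theorem interior (n : ℕ) (k : ℕ) : ∀ (c Λ r R : ℝ), 0 ≤ c → 0 ≤ Λ → 0 < r → r < R →
    ∃ C : ℝ, 0 ≤ C ∧ ∀ (F : Type u) (G : Type v) [NormedAddCommGroup F] [NormedSpace ℝ F]
      [NormedAddCommGroup G] [NormedSpace ℝ G] (U : Set (E n)) (A : Fin n → E n → F →L[ℝ] G)
      (B : E n → F →L[ℝ] G) (u : E n → F), IsOpen U → closedBall 0 R ⊆ U →
      (∀ i, ContDiffOn ℝ ∞ (A i) U) → ContDiffOn ℝ ∞ B U → (∀ i, CB k Λ R (A i)) →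
      CB k Λ R B → Coer c R A → ContDiffOn ℝ ∞ u U →
      HN (k + 1) r u ≤ C * (N2 R u + HN k R (opL A B u)) := by
  induction k with
  | zero =>
    intro c Λ r R hc hΛ hr hrR
    exact interior0 n c Λ r R hc hΛ hr hrR
  | succ k ih =>
    intro c Λ r R hc hΛ hr hrR
    have hn : (0 : ℝ) ≤ n := Nat.cast_nonneg n
    obtain ⟨C1, hC1, h1⟩ := ih (c * ((n : ℝ) + 1)) (((n : ℝ) + 1) ^ 2 * Λ) r ((r + R) / 2)
      (by positivity) (by positivity) hr (by linarith)
    obtain ⟨C0, hC0, h0⟩ := interior0.{u, v} n c Λ ((r + R) / 2) R hc hΛ (by linarith)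
      (by linarith)
    refine ⟨C0 + (n + 1) * C1 * (C0 + 2), by positivity, ?_⟩
    intro F G _ _ _ _ U A B u hU hRU hA hB hAb hBb hco hu
    set ρ : ℝ := (r + R) / 2 with hρ
    have hρR : closedBall (0 : E n) ρ ⊆ closedBall 0 R :=
      closedBall_subset_closedBall (by rw [hρ]; linarith)
    have hρU : closedBall (0 : E n) ρ ⊆ U := hρR.trans hRU
    have hrρ : r ≤ ρ := by rw [hρ]; linarith
    have hrU : closedBall (0 : E n) r ⊆ U := (closedBall_subset_closedBall hrρ).trans hρU
    have hL := sm_opL hU hA hB hu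
    have hcoρ : Coer c ρ A := fun v hv hvc hvs =>
      hco v hv hvc (hvs.trans (ball_subset_ball (by rw [hρ]; linarith)))
    have e1 := h1 (Option (Fin n) → F) (Option (Fin n) → G) U (pA A) (pB A B) (J u) hU hρU
      (sm_pA hA) (sm_pB hU hA hB)
      (fun i => (cb_pA hU hRU hΛ hA hAb i).mono (Nat.le_succ k) le_rfl
        (by rw [hρ]; linarith))
      ((cb_pB hU hRU hA hB hAb hBb).mono le_rfl le_rfl (by rw [hρ]; linarith))
      (coer_pA hc hU hρU hA hcoρ) (sm_J hU hu)
    have e0 := h0 F G U A B u hU hRU hA hB (fun i => (hAb i).mono (Nat.zero_le _) le_rfl le_rfl)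
      (hBb.mono (Nat.zero_le _) le_rfl le_rfl) hco hu
    -- the norms of the jets
    have a1 : N2 ρ (J u) ≤ HN 1 ρ u := by
      refine (HN_pi hU 0 hρU (sm_J hU hu)).trans ?_
      rw [Fintype.sum_option]
      exact le_rfl
    have a2 : HN k ρ (opL (pA A) (pB A B) (J u)) ≤ 2 * HN (k + 1) R (opL A B u) := by
      rw [HN_congr hU k hρU (opL_J hU hA hB hu)]
      refine (HN_pi hU k hρU (sm_J hU hL)).trans ?_
      rw [Fintype.sum_option]
      have b1 : HN k ρ (opL A B u) ≤ HN (k + 1) R (opL A B u) :=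
        (HN_mono hU k (by rw [hρ]; linarith) hRU hL).trans (HN_le_succ k R _)
      have b2 : ∑ i, HN k ρ (pd i (opL A B u)) ≤ HN (k + 1) R (opL A B u) := by
        refine (Finset.sum_le_sum fun i _ =>
          HN_mono hU k (by rw [hρ]; linarith) hRU (sm_pd hU hL i)).trans ?_
        exact le_add_of_nonneg_left (N2_nonneg R _)
      change HN k ρ (opL A B u) + ∑ i, HN k ρ (pd i (opL A B u)) ≤ _
      linarith
    have a3 : ∀ i, HN (k + 1) r (pd i u) ≤ HN (k + 1) r (J u) := by
      intro i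
      have b1 := HN_clm hU (k + 1) hrU (sm_J hU hu)
        (ContinuousLinearMap.proj (R := ℝ) (φ := fun _ : Option (Fin n) => F) (some i))
      have b2 : ‖(ContinuousLinearMap.proj (R := ℝ) (φ := fun _ : Option (Fin n) => F)
          (some i))‖ ≤ 1 :=
        ContinuousLinearMap.opNorm_le_bound _ zero_le_one fun V => by
          rw [one_mul]; exact norm_le_pi_norm V (some i)
      refine le_trans b1 ?_
      have b3 := HN_nonneg (k + 1) r (J u)
      calc _ ≤ 1 ^ 2 * HN (k + 1) r (J u) := by gcongr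
        _ = _ := by ring
    have p0 : N2 R (opL A B u) ≤ HN (k + 1) R (opL A B u) := N2_le_HN _ _ _
    have q1 := N2_nonneg R u
    have q2 := HN_nonneg (k + 1) R (opL A B u)
    have a4 : N2 r u ≤ C0 * (N2 R u + HN (k + 1) R (opL A B u)) := by
      have b1 : N2 r u ≤ HN 1 ρ u :=
        (N2_mono hrρ (hu.continuousOn.mono hρU)).trans (N2_le_HN 1 ρ u)
      exact b1.trans (e0.trans (by gcongr))
    have a5 : HN (k + 1) r (J u) ≤ C1 * (C0 + 2) * (N2 R u + HN (k + 1) R (opL A B u)) := by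
      refine e1.trans ?_
      have b1 : N2 ρ (J u) ≤ C0 * (N2 R u + HN (k + 1) R (opL A B u)) :=
        a1.trans (e0.trans (by gcongr))
      calc C1 * (N2 ρ (J u) + HN k ρ (opL (pA A) (pB A B) (J u)))
          ≤ C1 * (C0 * (N2 R u + HN (k + 1) R (opL A B u)) +
              2 * HN (k + 1) R (opL A B u)) := by gcongr
        _ ≤ C1 * ((C0 + 2) * (N2 R u + HN (k + 1) R (opL A B u))) := by
            gcongr
            nlinarith
        _ = _ := by ring
    change N2 r u + ∑ i, HN (k + 1) r (pd i u) ≤ _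
    have a6 : ∑ i : Fin n, HN (k + 1) r (pd i u) ≤
        n * (C1 * (C0 + 2) * (N2 R u + HN (k + 1) R (opL A B u))) := by
      refine (Finset.sum_le_card_nsmul _ _ _ fun i _ => (a3 i).trans a5).trans (le_of_eq ?_)
      simp
    have a7 : 0 ≤ C1 * (C0 + 2) * (N2 R u + HN (k + 1) R (opL A B u)) := by positivity
    nlinarith

end ops

end

end Crest.Agent.R260.Reg899
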