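import Crest.Agent.R260.Reg2_274

/-!
# Row 260, K-REG (helper274), file 3: the identity `J ((div B ∇ φ) ∘ Λ⁻¹) = Lc ψ`, `ψ = J (φ ∘ Λ⁻¹)`
-/

set_option autoImplicit false
set_option linter.unusedSectionVars false
set_option linter.unusedVariables false
set_option linter.unusedSimpArgs false

open MeasureTheory Set Filter Topology
open scoped ContDiff Matrix
open Crest.GeometryTopology.CoordMetric Crest.Agent.R202.Ell

noncomputable section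

namespace Crest.Agent.R260.Reg_274

variable {n : ℕ}

/-- derivative in a coordinate direction of the product space -/
def DD (k : Fin (n + 2)) (Ψ : EE n × (ℝ × ℝ) → ℝ) (z : EE n × (ℝ × ℝ)) : ℝ :=
  fderiv ℝ Ψ z (dir k)

theorem DD_contDiff (k : Fin (n + 2)) {Ψ : EE n × (ℝ × ℝ) → ℝ} (h : ContDiff ℝ ∞ Ψ) :
    ContDiff ℝ ∞ (DD k Ψ) := (h.fderiv_right (by simp)).clm_apply contDiff_const

theorem DD_tsupport (k : Fin (n + 2)) (Ψ : EE n × (ℝ × ℝ) → ℝ) :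
    tsupport (DD k Ψ) ⊆ tsupport Ψ :=
  (tsupport_fderiv_apply_subset ℝ (dir k) : _)

theorem DD_compact (k : Fin (n + 2)) {Ψ : EE n × (ℝ × ℝ) → ℝ} (h : HasCompactSupport Ψ) :
    HasCompactSupport (DD k Ψ) :=
  h.of_isClosed_subset (isClosed_tsupport _) (DD_tsupport k Ψ)

theorem pderiv_Lam {φ : EE (n + 2) → ℝ} (hφ : Differentiable ℝ φ) (k : Fin (n + 2))
    (z : EE n × (ℝ × ℝ)) :
    pderiv k φ ((Lam n).symm z) = DD k (φ ∘ (Lam n).symm) z := by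
  unfold DD dir pderiv
  rw [fderiv_comp _ (hφ _) (Lam n).symm.differentiableAt, ContinuousLinearEquiv.fderiv]
  simp

/-- coefficients on the product space -/
def Bf (G : EE n → Matrix (Fin n) (Fin n) ℝ) (α β : EE n → Fin n → ℝ) (a b γ : EE n → ℝ)
    (x : EE n) : Matrix (Fin (n + 2)) (Fin (n + 2)) ℝ := Bm (G x) (α x) (β x) (a x) (b x) (γ x)

/-- coefficients on `ℝ^(n+2)` -/
def BE (G : EE n → Matrix (Fin n) (Fin n) ℝ) (α β : EE n → Fin n → ℝ) (a b γ : EE n → ℝ)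
    (y : EE (n + 2)) : Matrix (Fin (n + 2)) (Fin (n + 2)) ℝ := Bf G α β a b γ (Lam n y).1

theorem wv_contDiffOn {U : Set (EE n)} {α β : EE n → Fin n → ℝ}
    (hα : ∀ i, ContDiffOn ℝ ∞ (fun x => α x i) U) (hβ : ∀ i, ContDiffOn ℝ ∞ (fun x => β x i) U)
    (k : Fin (n + 2)) (i : Fin n) : ContDiffOn ℝ ∞ (fun x => wv (α x) (β x) k i) U := by
  refine Fin.cases ?_ (fun k => Fin.cases ?_ (fun j => ?_) k) k
  · exact hβ i
  · exact hα i
  · exact contDiffOn_const (c := (Pi.single j 1 : Fin n → ℝ) i)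

theorem Bf_contDiffOn {U : Set (EE n)} {G : EE n → Matrix (Fin n) (Fin n) ℝ}
    {α β : EE n → Fin n → ℝ} {a b γ : EE n → ℝ}
    (hG : ∀ i j, ContDiffOn ℝ ∞ (fun x => G x i j) U)
    (hα : ∀ i, ContDiffOn ℝ ∞ (fun x => α x i) U) (hβ : ∀ i, ContDiffOn ℝ ∞ (fun x => β x i) U)
    (ha : ContDiffOn ℝ ∞ a U) (hb : ContDiffOn ℝ ∞ b U) (hγ : ContDiffOn ℝ ∞ γ U)
    (k l : Fin (n + 2)) : ContDiffOn ℝ ∞ (fun x => Bf G α β a b γ x k l) U := by
  simp only [Bf, Bm, Matrix.of_apply, dotProduct, Matrix.mulVec]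
  refine ContDiffOn.add (ContDiffOn.sum fun i _ => (wv_contDiffOn hα hβ k i).mul
    (ContDiffOn.sum fun j _ => (hG i j).mul (wv_contDiffOn hα hβ l j))) ?_
  unfold Dm
  split_ifs
  · exact hb
  · exact hγ
  · exact contDiffOn_const
  · exact hγ
  · exact ha
  · exact contDiffOn_const
  · exact contDiffOn_const

/-- product of a coefficient defined on `U` with a function supported over `U` -/
theorem coef_contDiff {U : Set (EE n)} (hU : IsOpen U) {c : EE n → ℝ} (hc : ContDiffOn ℝ ∞ c U)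
    {Ψ : EE n × (ℝ × ℝ) → ℝ} (hΨ : ContDiff ℝ ∞ Ψ) (hs : tsupport Ψ ⊆ U ×ˢ univ) :
    ContDiff ℝ ∞ fun z => c z.1 * Ψ z := by
  rw [contDiff_iff_contDiffAt]
  intro z
  by_cases hz : z ∈ tsupport Ψ
  · have hzU : z.1 ∈ U := (hs hz).1
    exact ((hc.contDiffAt (hU.mem_nhds hzU)).comp z contDiffAt_fst).mul hΨ.contDiffAt
  · have : (fun z => c z.1 * Ψ z) =ᶠ[𝓝 z] fun _ => 0 := by
      filter_upwards [(isClosed_tsupport Ψ).isOpen_compl.mem_nhds hz] with y hy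
      rw [image_eq_zero_of_notMem_tsupport hy, mul_zero]
    exact contDiffAt_const.congr_of_eventuallyEq this

theorem J_DD_zero {Ψ : EE n × (ℝ × ℝ) → ℝ} (h : ContDiff ℝ ∞ Ψ) (hc : HasCompactSupport Ψ)
    (x : EE n) : J (DD 0 Ψ) x = - J Ψ x := by
  have := J_parts h hc x (0, 1)
  unfold DD dir
  rw [Lam_single_zero, this]
  simp

theorem J_DD_one {Ψ : EE n × (ℝ × ℝ) → ℝ} (h : ContDiff ℝ ∞ Ψ) (hc : HasCompactSupport Ψ)
    (x : EE n) : J (DD 1 Ψ) x = - (Complex.I * J Ψ x) := by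
  have := J_parts h hc x (1, 0)
  unfold DD dir
  rw [Lam_single_one, this]
  simp

theorem J_DD_succ {Ψ : EE n × (ℝ × ℝ) → ℝ} (h : ContDiff ℝ ∞ Ψ) (hc : HasCompactSupport Ψ)
    (i : Fin n) (x : EE n) : J (DD i.succ.succ Ψ) x = cd i (J Ψ) x := by
  unfold DD dir cd
  rw [Lam_single_succ, J_fderiv h hc]

/-- `J ∘ DD` on the list of first derivatives -/
def mv (ψ : EE n → ℂ) (x : EE n) : Fin (n + 2) → ℂ :=
  Fin.cons (-ψ x) (Fin.cons (-(Complex.I * ψ x)) fun i => cd i ψ x)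

theorem J_DD {Ψ : EE n × (ℝ × ℝ) → ℝ} (h : ContDiff ℝ ∞ Ψ) (hc : HasCompactSupport Ψ)
    (k : Fin (n + 2)) (x : EE n) : J (DD k Ψ) x = mv (J Ψ) x k := by
  refine Fin.cases (J_DD_zero h hc x) (fun k => Fin.cases (J_DD_one h hc x)
    (fun i => J_DD_succ h hc i x) k) k

variable {U : Set (EE n)} {G : EE n → Matrix (Fin n) (Fin n) ℝ}
    {α β : EE n → Fin n → ℝ} {a b γ : EE n → ℝ}

/-- the flux -/
def Fl (G : EE n → Matrix (Fin n) (Fin n) ℝ) (α β : EE n → Fin n → ℝ) (a b γ : EE n → ℝ)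
    (Ψ : EE n × (ℝ × ℝ) → ℝ) (k : Fin (n + 2)) (z : EE n × (ℝ × ℝ)) : ℝ :=
  ∑ l, Bf G α β a b γ z.1 k l * DD l Ψ z

/-- complex covector -/
def kap (α β : EE n → Fin n → ℝ) (x : EE n) (i : Fin n) : ℂ :=
  -((β x i : ℂ) + Complex.I * (α x i : ℂ))

theorem sum_wv_mv (ψ : EE n → ℂ) (x : EE n) (j : Fin n) :
    ∑ l, (wv (α x) (β x) l j : ℂ) * mv ψ x l = cd j ψ x + kap α β x j * ψ x := by
  rw [sum_fin2]
  have h1 : ∑ i : Fin n, (wv (α x) (β x) i.succ.succ j : ℂ) * mv ψ x i.succ.succ = cd j ψ x := by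
    rw [Finset.sum_eq_single j]
    · simp [wv, mv]
    · intro i _ hi
      simp [wv, Pi.single_apply, hi.symm]
    · simp
  rw [h1]
  change (β x j : ℂ) * -ψ x + ((α x j : ℂ) * -(Complex.I * ψ x) + cd j ψ x) = _
  unfold kap
  ring

theorem J_Fl (hU : IsOpen U) (hG : ∀ i j, ContDiffOn ℝ ∞ (fun x => G x i j) U)
    (hα : ∀ i, ContDiffOn ℝ ∞ (fun x => α x i) U) (hβ : ∀ i, ContDiffOn ℝ ∞ (fun x => β x i) U)
    (ha : ContDiffOn ℝ ∞ a U) (hb : ContDiffOn ℝ ∞ b U) (hγ : ContDiffOn ℝ ∞ γ U)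
    {Ψ : EE n × (ℝ × ℝ) → ℝ} (h : ContDiff ℝ ∞ Ψ) (hc : HasCompactSupport Ψ)
    (hs : tsupport Ψ ⊆ U ×ˢ univ) (k : Fin (n + 2)) (x : EE n) :
    J (Fl G α β a b γ Ψ k) x =
      (∑ i, (wv (α x) (β x) k i : ℂ) *
        ∑ j, (G x i j : ℂ) * (cd j (J Ψ) x + kap α β x j * J Ψ x)) +
      ∑ l, (Dm (a x) (b x) (γ x) k l : ℂ) * mv (J Ψ) x l := by
  have h1 : J (Fl G α β a b γ Ψ k) x =
      ∑ l, (Bf G α β a b γ x k l : ℂ) * mv (J Ψ) x l := by
    unfold Fl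
    rw [J_sum Finset.univ (Φ := fun l z => Bf G α β a b γ z.1 k l * DD l Ψ z)]
    · refine Finset.sum_congr rfl fun l _ => ?_
      rw [J_coef (fun x => Bf G α β a b γ x k l), J_DD h hc]
    · intro l _
      exact (coef_contDiff hU (Bf_contDiffOn hG hα hβ ha hb hγ k l) (DD_contDiff l h)
        ((DD_tsupport l Ψ).trans hs)).continuous
    · intro l _
      exact (DD_compact l hc).mul_left
  rw [h1]
  have h2 : ∀ l, (Bf G α β a b γ x k l : ℂ) * mv (J Ψ) x l =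
      (∑ i, ∑ j, (wv (α x) (β x) k i : ℂ) * ((G x i j : ℂ) *
        ((wv (α x) (β x) l j : ℂ) * mv (J Ψ) x l))) +
        (Dm (a x) (b x) (γ x) k l : ℂ) * mv (J Ψ) x l := by
    intro l
    simp only [Bf, Bm, Matrix.of_apply, dotProduct, Matrix.mulVec, Complex.ofReal_add,
      Complex.ofReal_sum, Complex.ofReal_mul, add_mul, Finset.sum_mul, Finset.mul_sum]
    congr 1
    refine Finset.sum_congr rfl fun i _ => Finset.sum_congr rfl fun j _ => ?_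
    ring
  simp only [h2, Finset.sum_add_distrib]
  congr 1
  rw [Finset.sum_comm]
  refine Finset.sum_congr rfl fun i _ => ?_
  rw [Finset.sum_comm, Finset.mul_sum]
  refine Finset.sum_congr rfl fun j _ => ?_
  rw [← Finset.mul_sum, ← Finset.mul_sum, sum_wv_mv]

theorem Fl_contDiff (hU : IsOpen U) (hG : ∀ i j, ContDiffOn ℝ ∞ (fun x => G x i j) U)
    (hα : ∀ i, ContDiffOn ℝ ∞ (fun x => α x i) U) (hβ : ∀ i, ContDiffOn ℝ ∞ (fun x => β x i) U)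
    (ha : ContDiffOn ℝ ∞ a U) (hb : ContDiffOn ℝ ∞ b U) (hγ : ContDiffOn ℝ ∞ γ U)
    {Ψ : EE n × (ℝ × ℝ) → ℝ} (h : ContDiff ℝ ∞ Ψ)
    (hs : tsupport Ψ ⊆ U ×ˢ univ) (k : Fin (n + 2)) : ContDiff ℝ ∞ (Fl G α β a b γ Ψ k) :=
  ContDiff.sum fun l _ => coef_contDiff hU (Bf_contDiffOn hG hα hβ ha hb hγ k l)
    (DD_contDiff l h) ((DD_tsupport l Ψ).trans hs)

theorem Fl_tsupport (Ψ : EE n × (ℝ × ℝ) → ℝ) (k : Fin (n + 2)) :
    tsupport (Fl G α β a b γ Ψ k) ⊆ tsupport Ψ := by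
  refine closure_minimal ?_ (isClosed_tsupport _)
  intro z hz
  by_contra h
  apply hz
  unfold Fl
  refine Finset.sum_eq_zero fun l _ => ?_
  rw [image_eq_zero_of_notMem_tsupport fun h' => h (DD_tsupport l Ψ h'), mul_zero]

theorem Fl_compact {Ψ : EE n × (ℝ × ℝ) → ℝ} (hc : HasCompactSupport Ψ) (k : Fin (n + 2)) :
    HasCompactSupport (Fl G α β a b γ Ψ k) :=
  hc.of_isClosed_subset (isClosed_tsupport _) (Fl_tsupport Ψ k)

/-- zeroth order coefficient -/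
def dd0 (a b γ : EE n → ℝ) (x : EE n) : ℂ := (b x : ℂ) - (a x : ℂ) + 2 * Complex.I * (γ x : ℂ)

/-- **the main identity** -/
theorem J_div (hU : IsOpen U) (hG : ∀ i j, ContDiffOn ℝ ∞ (fun x => G x i j) U)
    (hα : ∀ i, ContDiffOn ℝ ∞ (fun x => α x i) U) (hβ : ∀ i, ContDiffOn ℝ ∞ (fun x => β x i) U)
    (ha : ContDiffOn ℝ ∞ a U) (hb : ContDiffOn ℝ ∞ b U) (hγ : ContDiffOn ℝ ∞ γ U)
    {Ψ : EE n × (ℝ × ℝ) → ℝ} (h : ContDiff ℝ ∞ Ψ) (hc : HasCompactSupport Ψ)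
    (hs : tsupport Ψ ⊆ U ×ˢ univ) (x : EE n) :
    J (fun z => ∑ k, DD k (Fl G α β a b γ Ψ k) z) x =
      Lc G (kap α β) (dd0 a b γ) (J Ψ) x := by
  have hF := Fl_contDiff hU hG hα hβ ha hb hγ h hs
  have hFc : ∀ k, HasCompactSupport (Fl G α β a b γ Ψ k) := Fl_compact hc
  have h1 : J (fun z => ∑ k, DD k (Fl G α β a b γ Ψ k) z) x =
      ∑ k, J (DD k (Fl G α β a b γ Ψ k)) x :=
    J_sum Finset.univ (fun k _ => (DD_contDiff k (hF k)).continuous)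
      (fun k _ => DD_compact k (hFc k)) x
  rw [h1, sum_fin2, J_DD_zero (hF 0) (hFc 0), J_DD_one (hF 1) (hFc 1)]
  have hJ := fun k x => J_Fl (U := U) hU hG hα hβ ha hb hγ h hc hs k x
  have h2 : ∀ i : Fin n, J (DD i.succ.succ (Fl G α β a b γ Ψ i.succ.succ)) x =
      cd i (fun y => ∑ j, (G y i j : ℂ) * (cd j (J Ψ) y + kap α β y j * J Ψ y)) x := by
    intro i
    rw [J_DD_succ (hF _) (hFc _)]
    congr 1
    funext y
    rw [hJ]
    have e1 : ∑ l, (Dm (a y) (b y) (γ y) i.succ.succ l : ℂ) * mv (J Ψ) y l = 0 := by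
      refine Finset.sum_eq_zero fun l _ => ?_
      simp [Dm, Fin.succ_ne_zero, succ_ne_one]
    rw [e1, add_zero, Finset.sum_eq_single i]
    · simp [wv]
    · intro j _ hj
      simp [wv, Pi.single_apply, hj]
    · simp
  rw [hJ, hJ]
  simp only [h2]
  have e0 : ∑ l, (Dm (a x) (b x) (γ x) 0 l : ℂ) * mv (J Ψ) x l =
      -((b x : ℂ) * J Ψ x) - Complex.I * (γ x : ℂ) * J Ψ x := by
    rw [sum_fin2]
    have : ∑ i : Fin n, (Dm (a x) (b x) (γ x) 0 i.succ.succ : ℂ) * mv (J Ψ) x i.succ.succ = 0 := by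
      refine Finset.sum_eq_zero fun l _ => ?_
      simp [Dm, Fin.succ_ne_zero, succ_ne_one]
    rw [this]
    simp only [Dm, if_true, one_ne_zero', if_false]
    change (b x : ℂ) * -J Ψ x + ((γ x : ℂ) * -(Complex.I * J Ψ x) + 0) = _
    ring
  have e1 : ∑ l, (Dm (a x) (b x) (γ x) 1 l : ℂ) * mv (J Ψ) x l =
      -((γ x : ℂ) * J Ψ x) - Complex.I * (a x : ℂ) * J Ψ x := by
    rw [sum_fin2]
    have : ∑ i : Fin n, (Dm (a x) (b x) (γ x) 1 i.succ.succ : ℂ) * mv (J Ψ) x i.succ.succ = 0 := by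
      refine Finset.sum_eq_zero fun l _ => ?_
      simp [Dm, Fin.succ_ne_zero, succ_ne_one, one_ne_zero']
    rw [this]
    simp only [Dm, if_true, one_ne_zero', if_false]
    change (γ x : ℂ) * -J Ψ x + ((a x : ℂ) * -(Complex.I * J Ψ x) + 0) = _
    ring
  rw [e0, e1]
  have w0 : ∀ i, (wv (α x) (β x) 0 i : ℂ) = (β x i : ℂ) := fun i => rfl
  have w1 : ∀ i, (wv (α x) (β x) 1 i : ℂ) = (α x i : ℂ) := fun i => rfl
  simp only [w0, w1]
  unfold Lc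
  have e2 : ∑ i, kap α β x i * ∑ j, (G x i j : ℂ) * (cd j (J Ψ) x + kap α β x j * J Ψ x) =
      -(∑ i, (β x i : ℂ) * ∑ j, (G x i j : ℂ) * (cd j (J Ψ) x + kap α β x j * J Ψ x)) -
      Complex.I * ∑ i, (α x i : ℂ) * ∑ j, (G x i j : ℂ) * (cd j (J Ψ) x + kap α β x j * J Ψ x) := by
    rw [Finset.mul_sum, ← Finset.sum_neg_distrib, ← Finset.sum_sub_distrib]
    refine Finset.sum_congr rfl fun i _ => ?_
    unfold kap
    ring
  rw [e2]
  unfold dd0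
  linear_combination ((a x : ℂ) * J Ψ x) * Complex.I_sq

end Crest.Agent.R260.Reg_274
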