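import Crest.Agent.R260.Reg2_899

/-!
# Row 260, K-REG (helper899), part 3: the Sobolev inequality with iterated derivatives

* `sup_le_compact` : `‖v x‖ ≤ ∫ ‖Dw w v‖`, `|w| = n`, `v ∈ C_c^∞`
* `sobolev`        : `‖f x‖² ≤ C · HN n R f` for `x ∈ closedBall 0 r`, `r < R`
* `sup_interior`   : sup bounds of all derivatives for solutions of first order systems
-/

set_option autoImplicit false
set_option linter.unusedSectionVars false

open MeasureTheory Set Filter Metric Topology Function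
open scoped ContDiff ENNReal

namespace Crest.Agent.R260.Reg899

noncomputable section

universe u v w

variable {n : ℕ} {F : Type u} {G : Type v}
  [NormedAddCommGroup F] [NormedSpace ℝ F] [NormedAddCommGroup G] [NormedSpace ℝ G]

/-- one variable at a time -/
theorem enorm_le_lintegral_pd {v : E n → F} (hv : ContDiff ℝ ∞ v) (hc : HasCompactSupport v)
    (i : Fin n) (y : Fin n → ℝ) :
    ‖v (WithLp.toLp 2 y)‖ₑ ≤ ∫⁻ t, ‖pd i v (WithLp.toLp 2 (update y i t))‖ₑ := by
  let γ : ℝ → E n := fun t => WithLp.toLp 2 (update y i t)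
  have hγd : ∀ t, HasDerivAt γ (EuclideanSpace.single i 1) t := by
    intro t
    have h1 : HasDerivAt (update y i) (Pi.single i (1 : ℝ)) t := hasDerivAt_update y i t
    have h2 := ((PiLp.continuousLinearEquiv 2 ℝ (fun _ : Fin n => ℝ)).symm :
      (Fin n → ℝ) →L[ℝ] E n).hasFDerivAt (x := update y i t) |>.comp_hasDerivAt t h1
    exact h2
  have hγ : ContDiff ℝ 1 γ :=
    ((PiLp.continuousLinearEquiv 2 ℝ (fun _ : Fin n => ℝ)).symm :
      (Fin n → ℝ) →L[ℝ] E n).contDiff.comp (by convert! contDiff_update 1 y i)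
  have h1v : ContDiff ℝ 1 (v ∘ γ) := (hv.of_le (by simp)).comp hγ
  have hcl : IsClosedEmbedding γ :=
    (PiLp.homeomorph 2 (fun _ : Fin n => ℝ)).symm.isClosedEmbedding.comp
      (isClosedEmbedding_update y i)
  have hcv : HasCompactSupport (v ∘ γ) := hc.comp_isClosedEmbedding hcl
  have h3 := hcv.enorm_le_lintegral_Ici_deriv h1v (y i)
  have e1 : (v ∘ γ) (y i) = v (WithLp.toLp 2 y) := by simp [γ]
  rw [e1] at h3
  refine h3.trans ((lintegral_mono' Measure.restrict_le_self le_rfl).trans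
    (le_of_eq (lintegral_congr fun t => ?_)))
  have h4 : HasDerivAt (v ∘ γ) (pd i v (γ t)) t :=
    ((hv.differentiable (by simp)).differentiableAt.hasFDerivAt (x := γ t)).comp_hasDerivAt t (hγd t)
  rw [h4.deriv]

theorem exists_word (s : Finset (Fin n)) : ∃ w : List (Fin n), w.length = s.card ∧
    ∀ v : E n → F, ContDiff ℝ ∞ v → HasCompactSupport v → ∀ y : Fin n → ℝ,
      ‖v (WithLp.toLp 2 y)‖ₑ ≤ (∫⋯∫⁻_s, fun z => ‖Dw w v (WithLp.toLp 2 z)‖ₑ) y := by
  classical
  induction s using Finset.induction_on with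
  | empty => exact ⟨[], rfl, fun v _ _ y => by simp⟩
  | insert i s hi ih =>
    obtain ⟨w, hw, h⟩ := ih
    refine ⟨w ++ [i], by simp [hw, Finset.card_insert_of_notMem hi], fun v hv hc y => ?_⟩
    have hDw : ContDiff ℝ ∞ (Dw w v) := contDiffOn_univ.1 (sm_Dw isOpen_univ hv.contDiffOn w)
    have hts : ∀ (w : List (Fin n)) (v : E n → F), tsupport (Dw w v) ⊆ tsupport v := by
      intro w
      induction w with
      | nil => exact fun v => le_rfl
      | cons j w ih' => exact fun v => (ih' _).trans (tsupport_pd_subset j v)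
    have hDc : HasCompactSupport (Dw w v) := hc.mono' (subset_closure.trans (hts w v))
    have hm : Measurable fun z : Fin n → ℝ => ‖Dw (w ++ [i]) v (WithLp.toLp 2 z)‖ₑ := by
      have h1 : ContDiff ℝ ∞ (Dw (w ++ [i]) v) :=
        contDiffOn_univ.1 (sm_Dw isOpen_univ hv.contDiffOn _)
      have h2 : Continuous fun z : Fin n → ℝ => Dw (w ++ [i]) v (WithLp.toLp 2 z) :=
        h1.continuous.comp (PiLp.continuous_toLp 2 _)
      exact h2.enorm.measurable
    rw [lmarginal_insert' _ hm hi]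
    refine (h v hv hc y).trans ?_
    refine lmarginal_mono (fun z => ?_) y
    have h1 := enorm_le_lintegral_pd hDw hDc i z
    refine h1.trans (le_of_eq (lintegral_congr fun t => ?_))
    rw [Dw_append]
    rfl

theorem sup_le_compact (n : ℕ) (F : Type u) [NormedAddCommGroup F] [NormedSpace ℝ F] :
    ∃ w : List (Fin n), w.length = n ∧
    ∀ v : E n → F, ContDiff ℝ ∞ v → HasCompactSupport v → ∀ x, ‖v x‖ₑ ≤ ∫⁻ y, ‖Dw w v y‖ₑ := by
  obtain ⟨w, hw, h⟩ := exists_word (n := n) (F := F) Finset.univ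
  refine ⟨w, by simpa using hw, fun v hv hc x => ?_⟩
  have h1 := h v hv hc (WithLp.ofLp x)
  rw [lmarginal_univ, WithLp.toLp_ofLp] at h1
  refine h1.trans (le_of_eq ?_)
  have hm : Measurable fun z : E n => ‖Dw w v z‖ₑ := by
    have h1 : ContDiff ℝ ∞ (Dw w v) := contDiffOn_univ.1 (sm_Dw isOpen_univ hv.contDiffOn _)
    exact h1.continuous.enorm.measurable
  exact (PiLp.volume_preserving_toLp (Fin n)).lintegral_comp hm

theorem tsupport_Dw_subset (w : List (Fin n)) (v : E n → F) : tsupport (Dw w v) ⊆ tsupport v := by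
  induction w generalizing v with
  | nil => exact le_rfl
  | cons j w ih => exact (ih _).trans (tsupport_pd_subset j v)

variable {U : Set (E n)}

theorem HN_add (hU : IsOpen U) (k : ℕ) {r : ℝ} (hr : closedBall 0 r ⊆ U) {f g : E n → F}
    (hf : ContDiffOn ℝ ∞ f U) (hg : ContDiffOn ℝ ∞ g U) :
    HN k r (fun x => f x + g x) ≤ 2 * (HN k r f + HN k r g) := by
  have h0 : ∀ {f g : E n → F}, ContDiffOn ℝ ∞ f U → ContDiffOn ℝ ∞ g U →
      N2 r (fun x => f x + g x) ≤ 2 * (N2 r f + N2 r g) := by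
    intro f g hf hg
    have i1 := intOn (hf.continuousOn.mono hr)
    have i2 := intOn (hg.continuousOn.mono hr)
    unfold N2
    rw [← integral_add i1 i2, ← integral_const_mul]
    refine setIntegral_mono_on (intOn ((hf.add hg).continuousOn.mono hr)) ((i1.add i2).const_mul 2)
      isClosed_closedBall.measurableSet fun x _ => ?_
    have h1 : ‖f x + g x‖ ^ 2 ≤ (‖f x‖ + ‖g x‖) ^ 2 :=
      pow_le_pow_left₀ (norm_nonneg _) (norm_add_le _ _) 2
    change ‖f x + g x‖ ^ 2 ≤ 2 * (‖f x‖ ^ 2 + ‖g x‖ ^ 2)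
    nlinarith [sq_nonneg (‖f x‖ - ‖g x‖)]
  induction k generalizing f g with
  | zero => exact h0 hf hg
  | succ k ih =>
    change N2 r _ + _ ≤ 2 * ((N2 r f + _) + (N2 r g + _))
    have h1 : ∑ i, HN k r (pd i fun x => f x + g x) ≤
        ∑ i, 2 * (HN k r (pd i f) + HN k r (pd i g)) := by
      refine Finset.sum_le_sum fun i _ => ?_
      rw [HN_congr hU k hr (pd_add hU hf hg i)]
      exact ih (sm_pd hU hf i) (sm_pd hU hg i)
    have h2 := h0 hf hg
    rw [← Finset.mul_sum, Finset.sum_add_distrib] at h1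
    linarith

/-- multiplication with a smooth function -/
theorem HN_smul (k : ℕ) (R : ℝ) : ∀ (χ : E n → ℝ), ContDiff ℝ ∞ χ → ∃ C : ℝ, 0 ≤ C ∧
    ∀ (F : Type u) [NormedAddCommGroup F] [NormedSpace ℝ F] (U : Set (E n)) (f : E n → F),
      IsOpen U → closedBall 0 R ⊆ U → ContDiffOn ℝ ∞ f U →
      HN k R (fun x => χ x • f x) ≤ C * HN k R f := by
  have h0 : ∀ (χ : E n → ℝ), ContDiff ℝ ∞ χ → ∃ C : ℝ, 0 ≤ C ∧
      ∀ (F : Type u) [NormedAddCommGroup F] [NormedSpace ℝ F] (U : Set (E n)) (f : E n → F),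
      IsOpen U → closedBall 0 R ⊆ U → ContDiffOn ℝ ∞ f U →
      N2 R (fun x => χ x • f x) ≤ C * N2 R f := by
    intro χ hχ
    obtain ⟨K, hK⟩ := (isCompact_closedBall (0 : E n) R).exists_bound_of_continuousOn
      hχ.continuous.continuousOn
    refine ⟨K ^ 2, by positivity, ?_⟩
    intro F _ _ U f hU hR hf
    refine N2_le_of_norm ((hχ.contDiffOn.smul hf).continuousOn.mono hR)
      (hf.continuousOn.mono hR) fun x hx => ?_
    rw [norm_smul, mul_pow]
    gcongr
    exact hK x hx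
  induction k with
  | zero => exact h0
  | succ k ih =>
    intro χ hχ
    obtain ⟨C0, hC0, h0'⟩ := h0 χ hχ
    obtain ⟨C1, hC1, h1⟩ := ih χ hχ
    have hpd : ∀ i : Fin n, ContDiff ℝ ∞ (pd i χ) := fun i =>
      contDiffOn_univ.1 (sm_pd isOpen_univ hχ.contDiffOn i)
    choose C2 hC2 h2 using fun i : Fin n => ih (pd i χ) (hpd i)
    have hS : 0 ≤ ∑ i, C2 i := Finset.sum_nonneg fun i _ => hC2 i
    refine ⟨C0 + 2 * (∑ i, C2 i) + 2 * C1, by positivity, ?_⟩
    intro F _ _ U f hU hR hf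
    have e0 := h0' F U f hU hR hf
    have e1 : ∀ i, HN k R (pd i fun x => χ x • f x) ≤
        2 * (C2 i * HN k R f + C1 * HN k R (pd i f)) := by
      intro i
      rw [HN_congr hU k hR (pd_smul hU hχ.contDiffOn hf i)]
      refine (HN_add hU k hR (f := fun x => pd i χ x • f x) (g := fun x => χ x • pd i f x)
        ((hpd i).contDiffOn.smul hf) (hχ.contDiffOn.smul (sm_pd hU hf i))).trans ?_
      have a := h2 i F U f hU hR hf
      have b := h1 F U (pd i f) hU hR (sm_pd hU hf i)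
      linarith
    have e2 := Finset.sum_le_sum fun i (_ : i ∈ Finset.univ) => e1 i
    rw [← Finset.mul_sum, Finset.sum_add_distrib, ← Finset.sum_mul, ← Finset.mul_sum] at e2
    change N2 R _ + _ ≤ _ * (N2 R f + ∑ i, HN k R (pd i f))
    have p1 : HN k R f ≤ N2 R f + ∑ i, HN k R (pd i f) := HN_le_succ k R f
    have p2 := N2_nonneg R f
    have p3 : 0 ≤ ∑ i, HN k R (pd i f) := Finset.sum_nonneg fun i _ => HN_nonneg _ _ _
    have p4 : (∑ i, C2 i) * HN k R f ≤ (∑ i, C2 i) * (N2 R f + ∑ i, HN k R (pd i f)) := by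
      gcongr
    nlinarith [mul_nonneg hC0 p3, mul_nonneg hC1 p2]

/-- **Sobolev inequality** -/
theorem sobolev (n : ℕ) (F : Type u) [NormedAddCommGroup F] [NormedSpace ℝ F] {r R : ℝ}
    (hr : 0 < r) (hrR : r < R) : ∃ C : ℝ, 0 ≤ C ∧ ∀ (U : Set (E n)) (f : E n → F),
      IsOpen U → closedBall 0 R ⊆ U → ContDiffOn ℝ ∞ f U → ∀ x ∈ closedBall (0 : E n) r,
      ‖f x‖ ^ 2 ≤ C * HN n R f := by
  obtain ⟨χ, hχ, hχc, hχs, hχ0, hχ1, r', hr', hχr⟩ := exists_cut (n := n) hr hrR
  obtain ⟨w, hw, hsup⟩ := sup_le_compact n F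
  obtain ⟨C1, hC1, h1⟩ := HN_smul.{u} (n := n) n R χ hχ
  set μ : Measure (E n) := volume.restrict (closedBall (0 : E n) R) with hμ
  have hfin : IsFiniteMeasure μ := ⟨by
    rw [hμ, Measure.restrict_apply_univ]; exact measure_closedBall_lt_top⟩
  refine ⟨μ.real univ * C1, by positivity, ?_⟩
  intro U f hU hR hf x hx
  have hsU : tsupport χ ⊆ U := hχs.trans (ball_subset_closedBall.trans hR)
  set v : E n → F := fun x => χ x • f x with hv
  have hvs : ContDiff ℝ ∞ v := sm_cut hU hχ hsU hf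
  have hvt : tsupport v ⊆ tsupport χ := tsupport_smul_subset_left χ f
  have hvc : HasCompactSupport v := hχc.mono' (subset_closure.trans hvt)
  have e1 : v x = f x := by
    simp [hv, hχr x (closedBall_subset_ball hr' hx)]
  have hD : ContDiff ℝ ∞ (Dw w v) := contDiffOn_univ.1 (sm_Dw isOpen_univ hvs.contDiffOn _)
  have hDc : HasCompactSupport (Dw w v) :=
    hvc.mono' (subset_closure.trans (tsupport_Dw_subset w v))
  have h2 : ‖v x‖ ≤ ∫ y, ‖Dw w v y‖ := by
    have h3 := hsup v hvs hvc x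
    have hi : Integrable (Dw w v) (volume : Measure (E n)) :=
      hD.continuous.integrable_of_hasCompactSupport hDc
    rw [← ofReal_norm, ← ofReal_integral_norm_eq_lintegral_enorm hi] at h3
    exact (ENNReal.ofReal_le_ofReal_iff (integral_nonneg fun _ => norm_nonneg _)).1 h3
  have h3 : ∫ y, ‖Dw w v y‖ = ∫ y, ‖Dw w v y‖ ∂μ := by
    rw [hμ]
    refine (setIntegral_eq_integral_of_forall_compl_eq_zero fun y hy => ?_).symm
    rw [image_eq_zero_of_notMem_tsupport fun h => hy (ball_subset_closedBall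
      (hχs (hvt (tsupport_Dw_subset w v h)))), norm_zero]
  -- Cauchy-Schwarz
  have hi1 : Integrable (fun y => ‖Dw w v y‖) μ :=
    (hD.continuous.norm.continuousOn.integrableOn_compact (isCompact_closedBall 0 R))
  have hi2 : Integrable (fun y => ‖Dw w v y‖ ^ 2) μ := intOn hD.continuous.continuousOn
  have h4 : (∫ y, ‖Dw w v y‖ ∂μ) ^ 2 ≤ μ.real univ * N2 R (Dw w v) := by
    have hN : N2 R (Dw w v) = ∫ y, ‖Dw w v y‖ ^ 2 ∂μ := rfl
    rw [hN]
    set a := ∫ y, ‖Dw w v y‖ ∂μ with ha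
    set m := μ.real univ with hm
    have key : 0 ≤ ∫ y, (m * ‖Dw w v y‖ - a) ^ 2 ∂μ := integral_nonneg fun _ => sq_nonneg _
    have e : ∫ y, (m * ‖Dw w v y‖ - a) ^ 2 ∂μ
        = m ^ 2 * (∫ y, ‖Dw w v y‖ ^ 2 ∂μ) - 2 * m * a * a + m * a ^ 2 := by
      have e2 : (fun y => (m * ‖Dw w v y‖ - a) ^ 2) =
          fun y => (m ^ 2 * ‖Dw w v y‖ ^ 2 - 2 * m * a * ‖Dw w v y‖) + a ^ 2 := by
        funext y; ring
      have i3 : Integrable (fun y => m ^ 2 * ‖Dw w v y‖ ^ 2 - 2 * m * a * ‖Dw w v y‖) μ :=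
        (hi2.const_mul (m ^ 2)).sub (hi1.const_mul (2 * m * a))
      rw [e2, integral_add i3 (integrable_const _),
        integral_sub (hi2.const_mul _) (hi1.const_mul _), integral_const_mul, integral_const_mul,
        integral_const, smul_eq_mul]
    rw [e] at key
    have hm0 : 0 ≤ m := by positivity
    rcases hm0.eq_or_lt with h0 | hpos
    · have hμ0 : μ = 0 := by
        rw [← Measure.measure_univ_eq_zero]
        have h5 := h0.symm
        rw [hm, Measure.real, ENNReal.toReal_eq_zero_iff] at h5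
        exact h5.resolve_right (measure_ne_top _ _)
      rw [ha, hμ0]
      simp
    · have h6 : 0 ≤ m * (m * (∫ y, ‖Dw w v y‖ ^ 2 ∂μ) - a ^ 2) := by nlinarith
      have h7 := nonneg_of_mul_nonneg_right h6 hpos
      linarith
  have h5 : N2 R (Dw w v) ≤ C1 * HN n R f :=
    (N2_Dw_le w (le_of_eq hw) R v).trans (h1 F U f hU hR hf)
  rw [← e1]
  calc ‖v x‖ ^ 2 ≤ (∫ y, ‖Dw w v y‖) ^ 2 := pow_le_pow_left₀ (norm_nonneg _) h2 2
    _ = (∫ y, ‖Dw w v y‖ ∂μ) ^ 2 := by rw [h3]
    _ ≤ μ.real univ * N2 R (Dw w v) := h4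
    _ ≤ μ.real univ * (C1 * HN n R f) := by gcongr
    _ = _ := by ring

theorem HN_Dw_le (w : List (Fin n)) (a : ℕ) (r : ℝ) (f : E n → F) :
    HN a r (Dw w f) ≤ HN (a + w.length) r f := by
  induction w generalizing f with
  | nil => exact le_rfl
  | cons i w ih =>
    refine (ih (pd i f)).trans ?_
    have h2 : HN (a + w.length) r (pd i f) ≤ ∑ i : Fin n, HN (a + w.length) r (pd i f) :=
      Finset.single_le_sum (f := fun i => HN (a + w.length) r (pd i f))
        (fun j _ => HN_nonneg _ _ _) (Finset.mem_univ i)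
    have h3 := N2_nonneg r f
    have e : a + (i :: w).length = (a + w.length) + 1 := by simp; ring
    rw [e]
    change _ ≤ N2 r f + ∑ i : Fin n, HN (a + w.length) r (pd i f)
    linarith

/-- **uniform interior sup estimates** for all derivatives of order `≤ m` of solutions of first
order systems with coercive principal part. -/
theorem sup_interior (n m : ℕ) (F : Type u) (G : Type v) [NormedAddCommGroup F]
    [NormedSpace ℝ F] [NormedAddCommGroup G] [NormedSpace ℝ G] (c Λ r R : ℝ) (hc : 0 ≤ c)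
    (hΛ : 0 ≤ Λ) (hr : 0 < r) (hrR : r < R) :
    ∃ C : ℝ, 0 ≤ C ∧ ∀ (U : Set (E n)) (A : Fin n → E n → F →L[ℝ] G)
      (B : E n → F →L[ℝ] G) (u : E n → F), IsOpen U → closedBall 0 R ⊆ U →
      (∀ i, ContDiffOn ℝ ∞ (A i) U) → ContDiffOn ℝ ∞ B U → (∀ i, CB (n + m) Λ R (A i)) →
      CB (n + m) Λ R B → Coer c R A → ContDiffOn ℝ ∞ u U →
      ∀ w : List (Fin n), w.length ≤ m → ∀ x ∈ closedBall (0 : E n) r,
        ‖Dw w u x‖ ^ 2 ≤ C * (N2 R u + HN (n + m) R (opL A B u)) := by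
  obtain ⟨C1, hC1, h1⟩ := sobolev n F hr (show r < (r + R) / 2 by linarith)
  obtain ⟨C2, hC2, h2⟩ := interior.{u, v} n (n + m) c Λ ((r + R) / 2) R hc hΛ (by linarith)
    (by linarith)
  refine ⟨C1 * C2, by positivity, ?_⟩
  intro U A B u hU hR hA hB hAb hBb hco hu w hw x hx
  have hρ : closedBall (0 : E n) ((r + R) / 2) ⊆ U :=
    (closedBall_subset_closedBall (by linarith)).trans hR
  have e1 := h1 U (Dw w u) hU hρ (sm_Dw hU hu w) x hx
  have e2 := h2 F G U A B u hU hR hA hB hAb hBb hco hu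
  have e3 : HN n ((r + R) / 2) (Dw w u) ≤ HN (n + m + 1) ((r + R) / 2) u :=
    (HN_Dw_le w n _ u).trans (HN_mono_left (by omega) _ _)
  calc ‖Dw w u x‖ ^ 2 ≤ C1 * HN n ((r + R) / 2) (Dw w u) := e1
    _ ≤ C1 * (C2 * (N2 R u + HN (n + m) R (opL A B u))) := by
        gcongr; exact e3.trans e2
    _ = _ := by ring

end

end Crest.Agent.R260.Reg899
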