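import Crest.Agent.R260.Reg3_274

/-!
# Row 260, K-REG (helper274), file 4: **regularity theorem**
-/

set_option autoImplicit false
set_option linter.unusedSectionVars false
set_option linter.unusedVariables false
set_option linter.unusedSimpArgs false

open MeasureTheory Set Filter Topology
open scoped ContDiff Matrix ENNReal
open Crest.GeometryTopology.CoordMetric Crest.Agent.R202.Ell

noncomputable section

namespace Crest.Agent.R260.Reg_274

variable {n : ℕ}

theorem vol_haar2 : (volume : Measure (ℝ × ℝ)).IsAddHaarMeasure := by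
  rw [Measure.volume_eq_prod]; infer_instance

theorem vol_haar : (volume : Measure (EE n × (ℝ × ℝ))).IsAddHaarMeasure := by
  haveI := vol_haar2
  rw [Measure.volume_eq_prod]; infer_instance

theorem map_Lam : ∃ c : ℝ≥0∞, c ≠ 0 ∧ c ≠ (⊤ : ℝ≥0∞) ∧
    (volume : Measure (EE (n + 2))).map (Lam n) =
      c • (volume : Measure (EE n × (ℝ × ℝ))) := by
  haveI := vol_haar (n := n)
  haveI : ((volume : Measure (EE (n + 2))).map (Lam n)).IsAddHaarMeasure :=
    (Lam n).isAddHaarMeasure_map _
  refine ⟨((Measure.addHaarScalarFactor ((volume : Measure (EE (n + 2))).map (Lam n))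
    (volume : Measure (EE n × (ℝ × ℝ)))) : ℝ≥0∞), ?_, ENNReal.coe_ne_top, ?_⟩
  · rw [Ne, ENNReal.coe_eq_zero]
    exact (Measure.addHaarScalarFactor_pos_of_isAddHaarMeasure _ _).ne'
  · exact Measure.isAddLeftInvariant_eq_smul _ _

theorem Lam_meas : MeasurableEmbedding (Lam n) := (Lam n).toHomeomorph.measurableEmbedding

variable {U : Set (EE n)}

/-- local integrability on the product -/
theorem locInt_prod (hU : IsOpen U) {u : EE n → ℂ} (hu : LocallyIntegrableOn u U) :
    LocallyIntegrableOn (fun z : EE n × (ℝ × ℝ) => u z.1) (U ×ˢ univ) := by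
  rw [locallyIntegrableOn_iff (hU.prod isOpen_univ).isLocallyClosed]
  intro K hK hKc
  set K1 := Prod.fst '' K
  set K2 := Prod.snd '' K
  have hK1 : IsCompact K1 := hKc.image continuous_fst
  have hK2 : IsCompact K2 := hKc.image continuous_snd
  have hK1U : K1 ⊆ U := by
    rintro x ⟨z, hz, rfl⟩
    exact (hK hz).1
  have h1 : IntegrableOn u K1 := hu.integrableOn_compact_subset hK1U hK1
  have h2 : IntegrableOn (fun _ : ℝ × ℝ => (1 : ℂ)) K2 :=
    integrableOn_const (hK2.measure_lt_top.ne)
  have h3 : Integrable (fun z : EE n × (ℝ × ℝ) => u z.1 * 1)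
      ((volume.restrict K1).prod (volume.restrict K2)) := Integrable.mul_prod h1 h2
  rw [Measure.prod_restrict] at h3
  have h4 : IntegrableOn (fun z : EE n × (ℝ × ℝ) => u z.1) (K1 ×ˢ K2) := by
    rw [IntegrableOn, Measure.volume_eq_prod]
    simpa using h3
  exact h4.mono_set fun z hz => ⟨⟨z, hz, rfl⟩, ⟨z, hz, rfl⟩⟩

theorem locInt_ker (hU : IsOpen U) {u : EE n → ℂ} (hu : LocallyIntegrableOn u U) :
    LocallyIntegrableOn (fun z : EE n × (ℝ × ℝ) => ker z.2 * u z.1) (U ×ˢ univ) :=
  LocallyIntegrableOn.continuousOn_mul (locInt_prod hU hu)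
    (ker_cont.comp continuous_snd).continuousOn (hU.prod isOpen_univ).isLocallyClosed

theorem integrable_of_test (hU : IsOpen U) {u : EE n → ℂ} (hu : LocallyIntegrableOn u U)
    {H : EE n × (ℝ × ℝ) → ℝ} (hH : Continuous H) (hc : HasCompactSupport H)
    (hs : tsupport H ⊆ U ×ˢ univ) :
    Integrable (fun z : EE n × (ℝ × ℝ) => ker z.2 * u z.1 * (H z : ℂ)) := by
  have h1 : IntegrableOn (fun z : EE n × (ℝ × ℝ) => ker z.2 * u z.1) (tsupport H) :=
    (locInt_ker hU hu).integrableOn_compact_subset hs hc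
  have h2 : IntegrableOn (fun z : EE n × (ℝ × ℝ) => ker z.2 * u z.1 * (H z : ℂ)) (tsupport H) :=
    h1.mul_continuousOn (Complex.continuous_ofReal.comp hH).continuousOn hc
  exact (integrableOn_iff_integrable_of_support_subset fun z hz => by
    apply subset_tsupport H
    intro h0
    apply hz
    simp [h0]).1 h2

theorem integral_Lam (hU : IsOpen U) {u : EE n → ℂ} (hu : LocallyIntegrableOn u U)
    {H : EE n × (ℝ × ℝ) → ℝ} (hH : Continuous H) (hc : HasCompactSupport H)
    (hs : tsupport H ⊆ U ×ˢ univ) {c : ℝ≥0∞}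
    (hcm : (volume : Measure (EE (n + 2))).map (Lam n) =
      c • (volume : Measure (EE n × (ℝ × ℝ)))) :
    ∫ y : EE (n + 2), ker (Lam n y).2 * u (Lam n y).1 * (H (Lam n y) : ℂ) =
      c.toReal • ∫ x : EE n, u x * J H x := by
  have h1 : ∫ y : EE (n + 2), ker (Lam n y).2 * u (Lam n y).1 * (H (Lam n y) : ℂ) =
      ∫ z : EE n × (ℝ × ℝ), ker z.2 * u z.1 * (H z : ℂ) ∂(volume.map (Lam n)) :=
    (Lam_meas.integral_map fun z : EE n × (ℝ × ℝ) => ker z.2 * u z.1 * (H z : ℂ)).symm
  rw [h1, hcm, integral_smul_measure]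
  congr 1
  have h2 := integrable_of_test hU hu hH hc hs
  rw [Measure.volume_eq_prod] at h2 ⊢
  rw [integral_prod _ h2]
  refine integral_congr_ae (Eventually.of_forall fun x => ?_)
  simp only [J]
  rw [← integral_const_mul]
  refine integral_congr_ae (Eventually.of_forall fun s => ?_)
  simp only
  ring

/-- **Regularity**: very weak solutions of complex scalar elliptic equations are smooth. -/
theorem reg (hU : IsOpen U) {G : EE n → Matrix (Fin n) (Fin n) ℝ}
    (hG : ∀ i j, ContDiffOn ℝ ∞ (fun x => G x i j) U) (hpos : ∀ x ∈ U, (G x).PosDef)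
    {κ : EE n → Fin n → ℂ} (hκ : ∀ i, ContDiffOn ℝ ∞ (fun x => κ x i) U)
    {d : EE n → ℂ} (hd : ContDiffOn ℝ ∞ d U)
    {f : EE n → ℂ} (hf : ContDiffOn ℝ ∞ f U) {u : EE n → ℂ} (hu : LocallyIntegrableOn u U)
    (h : ∀ φ : EE n → ℂ, ContDiff ℝ ∞ φ → HasCompactSupport φ → tsupport φ ⊆ U →
      ∫ x, u x * Lc G κ d φ x = ∫ x, f x * φ x) :
    ∃ v : EE n → ℂ, ContDiffOn ℝ ∞ v U ∧ ∀ᵐ x, x ∈ U → v x = u x := by
  -- real coefficients
  set α : EE n → Fin n → ℝ := fun x i => -(κ x i).im with hα
  set β : EE n → Fin n → ℝ := fun x i => -(κ x i).re with hβ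
  set r : EE n → ℝ := fun x => (d x).re with hr
  set γ : EE n → ℝ := fun x => (d x).im / 2 with hγ
  set a : EE n → ℝ := fun x => γ x ^ 2 + r x ^ 2 + 1 with ha
  set b : EE n → ℝ := fun x => γ x ^ 2 + r x ^ 2 + 1 + r x with hb
  have sre : ContDiff ℝ ∞ Complex.re := Complex.reCLM.contDiff
  have sim : ContDiff ℝ ∞ Complex.im := Complex.imCLM.contDiff
  have hαs : ∀ i, ContDiffOn ℝ ∞ (fun x => α x i) U := fun i =>
    (sim.comp_contDiffOn (hκ i)).neg
  have hβs : ∀ i, ContDiffOn ℝ ∞ (fun x => β x i) U := fun i =>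
    (sre.comp_contDiffOn (hκ i)).neg
  have hrs : ContDiffOn ℝ ∞ r U := sre.comp_contDiffOn hd
  have hγs : ContDiffOn ℝ ∞ γ U := (sim.comp_contDiffOn hd).div_const 2
  have has : ContDiffOn ℝ ∞ a U := ((hγs.pow 2).add (hrs.pow 2)).add contDiffOn_const
  have hbs : ContDiffOn ℝ ∞ b U := (((hγs.pow 2).add (hrs.pow 2)).add contDiffOn_const).add hrs
  have hkap : kap α β = κ := by
    funext x i
    unfold kap
    rw [hα, hβ]
    apply Complex.ext <;> simp
  have hdd : dd0 a b γ = d := by
    funext x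
    unfold dd0
    apply Complex.ext
    · simp [ha, hb, hr]
    · simp [ha, hb, hr, hγ]; ring
  -- the map
  obtain ⟨c, hc0, hct, hcm⟩ := map_Lam (n := n)
  set V : Set (EE (n + 2)) := (Lam n) ⁻¹' (U ×ˢ univ) with hV
  have hVo : IsOpen V := (hU.prod isOpen_univ).preimage (Lam n).continuous
  set B := BE G α β a b γ with hB
  have hBs : ∀ k l, ContDiffOn ℝ ∞ (fun y => B y k l) V := by
    intro k l
    refine (Bf_contDiffOn hG hαs hβs has hbs hγs k l).comp
      (t := U) (s := V) (f := fun y => (Lam n y).1) ?_ fun y hy => hy.1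
    exact (contDiff_fst.comp (Lam n).contDiff).contDiffOn
  have hBp : ∀ y ∈ V, (B y).PosDef := by
    intro y hy
    refine Bm_posDef (hpos _ hy.1) _ _ ?_ ?_
    · simp only [ha]; positivity
    · simp only [ha, hb]
      nlinarith [sq_nonneg (γ (Lam n y).1), sq_nonneg (r (Lam n y).1),
        sq_nonneg (r (Lam n y).1 + 1), sq_nonneg (r (Lam n y).1 + 1/2),
        mul_nonneg (sq_nonneg (γ (Lam n y).1)) (sq_nonneg (γ (Lam n y).1)),
        mul_nonneg (sq_nonneg (γ (Lam n y).1)) (sq_nonneg (r (Lam n y).1 + 1/2)),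
        mul_nonneg (sq_nonneg (r (Lam n y).1)) (sq_nonneg (r (Lam n y).1 + 1/2))]
  -- weak equation upstairs
  have hweak : ∀ φ : EE (n + 2) → ℝ, ContDiff ℝ ∞ φ → HasCompactSupport φ → tsupport φ ⊆ V →
      ∫ y, ker (Lam n y).2 * u (Lam n y).1 * (divA B φ y : ℂ) =
        ∫ y, ker (Lam n y).2 * f (Lam n y).1 * (φ y : ℂ) := by
    intro φ hφ hφc hφs
    set Ψ : EE n × (ℝ × ℝ) → ℝ := φ ∘ (Lam n).symm with hΨ
    have hΨs : ContDiff ℝ ∞ Ψ := hφ.comp (Lam n).symm.contDiff
    have hΨc : HasCompactSupport Ψ := hφc.comp_homeomorph (Lam n).symm.toHomeomorph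
    have hΨt : tsupport Ψ ⊆ U ×ˢ univ := by
      intro z hz
      have h1 : (Lam n).symm z ∈ tsupport φ :=
        tsupport_comp_subset_preimage φ (Lam n).symm.continuous hz
      have := hφs h1
      simpa [hV] using this
    have hφΨ : ∀ y, φ y = Ψ (Lam n y) := fun y => by simp [hΨ]
    set H : EE n × (ℝ × ℝ) → ℝ := fun z => ∑ k, DD k (Fl G α β a b γ Ψ k) z with hH
    have hFs := Fl_contDiff hU hG hαs hβs has hbs hγs hΨs hΨt
    have hHs : ContDiff ℝ ∞ H := ContDiff.sum fun k _ => DD_contDiff k (hFs k)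
    have hHt : tsupport H ⊆ tsupport Ψ := by
      refine closure_minimal ?_ (isClosed_tsupport _)
      intro z hz
      by_contra h'
      apply hz
      refine Finset.sum_eq_zero fun k _ => ?_
      exact image_eq_zero_of_notMem_tsupport fun h'' =>
        h' (Fl_tsupport Ψ k (DD_tsupport k _ h''))
    have hHc : HasCompactSupport H := hΨc.of_isClosed_subset (isClosed_tsupport _) hHt
    have hdiv : ∀ y, divA B φ y = H (Lam n y) := by
      intro y
      simp only [divA, hH]
      refine Finset.sum_congr rfl fun k _ => ?_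
      have e1 : (fun y => ∑ l, B y k l * pderiv l φ y) =
          fun y => Fl G α β a b γ Ψ k (Lam n y) := by
        funext y'
        unfold Fl
        refine Finset.sum_congr rfl fun l _ => ?_
        have := pderiv_Lam (hφ.differentiable (by simp)) l (Lam n y')
        rw [ContinuousLinearEquiv.symm_apply_apply] at this
        rw [this]
        rfl
      rw [e1]
      have e2 : Differentiable ℝ fun y => Fl G α β a b γ Ψ k (Lam n y) :=
        ((hFs k).comp (Lam n).contDiff).differentiable (by simp)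
      have := pderiv_Lam e2 k (Lam n y)
      rw [ContinuousLinearEquiv.symm_apply_apply] at this
      rw [this]
      have e3 : (fun y => Fl G α β a b γ Ψ k (Lam n y)) ∘ (Lam n).symm =
          Fl G α β a b γ Ψ k := by
        funext z
        simp [Function.comp]
      rw [e3]
    have l1 : ∫ y, ker (Lam n y).2 * u (Lam n y).1 * (divA B φ y : ℂ) =
        c.toReal • ∫ x : EE n, u x * J H x := by
      rw [← integral_Lam hU hu hHs.continuous hHc (hHt.trans hΨt) hcm]
      simp only [hdiv]
    have l2 : ∫ y, ker (Lam n y).2 * f (Lam n y).1 * (φ y : ℂ) =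
        c.toReal • ∫ x : EE n, f x * J Ψ x := by
      rw [← integral_Lam hU (hf.continuousOn.locallyIntegrableOn hU.measurableSet)
        hΨs.continuous hΨc hΨt hcm]
      simp only [hφΨ]
    rw [l1, l2]
    congr 1
    have l3 : ∀ x, J H x = Lc G κ d (J Ψ) x := by
      intro x
      have := J_div hU hG hαs hβs has hbs hγs hΨs hΨc hΨt x
      rw [hkap, hdd] at this
      exact this
    simp only [l3]
    refine h (J Ψ) (J_contDiff hΨs hΨc) (J_hasCompactSupport hΨc) ?_
    refine (J_tsupport hΨc).trans ?_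
    rintro x ⟨z, hz, rfl⟩
    exact (hΨt hz).1
  -- local integrability upstairs
  have hloc : LocallyIntegrableOn (fun y => ker (Lam n y).2 * u (Lam n y).1) V := by
    rw [locallyIntegrableOn_iff hVo.isLocallyClosed]
    intro K hK hKc
    have h1 : IntegrableOn (fun z : EE n × (ℝ × ℝ) => ker z.2 * u z.1) (Lam n '' K) :=
      (locInt_ker hU hu).integrableOn_compact_subset (by
        rintro z ⟨y, hy, rfl⟩
        exact hK hy) (hKc.image (Lam n).continuous)
    have h2 : IntegrableOn (fun z : EE n × (ℝ × ℝ) => ker z.2 * u z.1) (Lam n '' K)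
        ((volume : Measure (EE (n + 2))).map (Lam n)) := by
      rw [hcm, IntegrableOn, Measure.restrict_smul]
      exact h1.smul_measure hct
    have h3 := (Lam_meas.integrableOn_map_iff).1 h2
    rw [preimage_image_eq _ (Lam n).injective] at h3
    exact h3
  have hcomp : ∀ (g : EE (n + 2) → ℝ), ContDiff ℝ ∞ g → HasCompactSupport g → tsupport g ⊆ V →
      ∀ {w : EE n → ℂ}, LocallyIntegrableOn (fun y => ker (Lam n y).2 * w (Lam n y).1) V →
      Integrable fun y => ker (Lam n y).2 * w (Lam n y).1 * (g y : ℂ) := by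
    intro g hg hgc hgs w hw
    have h1 := hw.integrableOn_compact_subset hgs hgc
    have h2 := h1.mul_continuousOn (Complex.continuous_ofReal.comp hg.continuous).continuousOn hgc
    exact (integrableOn_iff_integrable_of_support_subset fun z hz => by
      apply subset_tsupport g
      intro h0
      apply hz
      simp [h0]).1 h2
  have hdivs : ∀ φ : EE (n + 2) → ℝ, ContDiff ℝ ∞ φ → HasCompactSupport φ → tsupport φ ⊆ V →
      ContDiff ℝ ∞ (divA B φ) := by
    intro φ hφ hφc hφs
    unfold divA pderiv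
    refine ContDiff.sum fun k _ => ContDiff.clm_apply (ContDiff.fderiv_right
      (m := ∞) (n := ∞) ?_ (by simp)) contDiff_const
    refine ContDiff.sum fun l _ => ?_
    have hp : ContDiff ℝ ∞ fun y => fderiv ℝ φ y (EuclideanSpace.single l 1) :=
      (hφ.fderiv_right (by simp)).clm_apply contDiff_const
    have := contDiff_mul_of_tsupport hVo hp
      ((tsupport_fderiv_apply_subset ℝ (EuclideanSpace.single l (1 : ℝ))).trans hφs) (hBs k l)
    simpa only [mul_comm] using this
  have hflc : LocallyIntegrableOn (fun y => ker (Lam n y).2 * f (Lam n y).1) V := by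
    refine ContinuousOn.locallyIntegrableOn ?_ hVo.measurableSet
    exact (ker_cont.comp (continuous_snd.comp (Lam n).continuous)).continuousOn.mul
      (hf.continuousOn.comp (continuous_fst.comp (Lam n).continuous).continuousOn
        fun y hy => hy.1)
  have hfs : ContDiffOn ℝ ∞ (fun y => ker (Lam n y).2 * f (Lam n y).1) V := by
    refine ContDiffOn.mul ?_ ?_
    · exact (ker_contDiff.comp (contDiff_snd.comp (Lam n).contDiff)).contDiffOn
    · exact hf.comp (contDiff_fst.comp (Lam n).contDiff).contDiffOn fun y hy => hy.1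
  -- real part
  obtain ⟨v1, hv1, hv1u, -⟩ := ell_regularity (n + 2) V hVo B hBs hBp
    (fun y => (ker (Lam n y).2 * f (Lam n y).1).re) (sre.comp_contDiffOn hfs)
    (fun y => (ker (Lam n y).2 * u (Lam n y).1).re)
    (fun y hy => by
      obtain ⟨t, ht, hi⟩ := hloc y hy
      exact ⟨t, ht, hi.re⟩)
    (by
      intro φ hφ hφc hφs
      have h1 := congrArg Complex.re (hweak φ hφ hφc hφs)
      have i1 := hcomp (divA B φ) (hdivs φ hφ hφc hφs)
        (hφc.of_isClosed_subset (isClosed_tsupport _) (tsupport_divA_subset B φ))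
        ((tsupport_divA_subset B φ).trans hφs) hloc
      have i2 := hcomp φ hφ hφc hφs hflc
      have e1 : ∀ {g : EE (n + 2) → ℂ}, Integrable g →
          (∫ y, g y).re = ∫ y, (g y).re := fun hg => (integral_re hg).symm
      rw [e1 i1, e1 i2] at h1
      simpa only [Complex.re_mul_ofReal] using h1)
  obtain ⟨v2, hv2, hv2u, -⟩ := ell_regularity (n + 2) V hVo B hBs hBp
    (fun y => (ker (Lam n y).2 * f (Lam n y).1).im) (sim.comp_contDiffOn hfs)
    (fun y => (ker (Lam n y).2 * u (Lam n y).1).im)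
    (fun y hy => by
      obtain ⟨t, ht, hi⟩ := hloc y hy
      exact ⟨t, ht, hi.im⟩)
    (by
      intro φ hφ hφc hφs
      have h1 := congrArg Complex.im (hweak φ hφ hφc hφs)
      have i1 := hcomp (divA B φ) (hdivs φ hφ hφc hφs)
        (hφc.of_isClosed_subset (isClosed_tsupport _) (tsupport_divA_subset B φ))
        ((tsupport_divA_subset B φ).trans hφs) hloc
      have i2 := hcomp φ hφ hφc hφs hflc
      have e1 : ∀ {g : EE (n + 2) → ℂ}, Integrable g →
          (∫ y, g y).im = ∫ y, (g y).im := fun hg => (integral_im hg).symm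
      rw [e1 i1, e1 i2] at h1
      simpa only [Complex.im_mul_ofReal] using h1)
  -- conclusion
  set W : EE n × (ℝ × ℝ) → ℂ := fun z =>
    (v1 ((Lam n).symm z) : ℂ) + Complex.I * (v2 ((Lam n).symm z) : ℂ) with hW
  have hsym : ∀ z ∈ U ×ˢ (univ : Set (ℝ × ℝ)), (Lam n).symm z ∈ V := by
    intro z hz
    simpa [hV] using hz
  have hWs : ContDiffOn ℝ ∞ W (U ×ˢ univ) := by
    have c1 : ContDiffOn ℝ ∞ (fun z => v1 ((Lam n).symm z)) (U ×ˢ (univ : Set (ℝ × ℝ))) :=
      hv1.comp (Lam n).symm.contDiff.contDiffOn hsym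
    have c2 : ContDiffOn ℝ ∞ (fun z => v2 ((Lam n).symm z)) (U ×ˢ (univ : Set (ℝ × ℝ))) :=
      hv2.comp (Lam n).symm.contDiff.contDiffOn hsym
    exact (Complex.ofRealCLM.contDiff.comp_contDiffOn c1).add
      (contDiffOn_const.mul (Complex.ofRealCLM.contDiff.comp_contDiffOn c2))
  have hae : ∀ᵐ z : EE n × (ℝ × ℝ), z.1 ∈ U → W z = ker z.2 * u z.1 := by
    have h1 : ∀ᵐ y : EE (n + 2), (Lam n y).1 ∈ U → W (Lam n y) =
        ker (Lam n y).2 * u (Lam n y).1 := by
      filter_upwards [hv1u, hv2u] with y h1 h2 hy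
      have hyV : y ∈ V := ⟨hy, mem_univ _⟩
      simp only [hW, ContinuousLinearEquiv.symm_apply_apply]
      rw [h1 hyV, h2 hyV, mul_comm Complex.I]
      exact Complex.re_add_im _
    have h2 : ∀ᵐ z ∂((volume : Measure (EE (n + 2))).map (Lam n)),
        z.1 ∈ U → W z = ker z.2 * u z.1 := Lam_meas.ae_map_iff.2 h1
    rw [hcm] at h2
    exact (Measure.ae_ennreal_smul_measure_iff hc0).1 h2
  refine ⟨fun x => W (x, 0), ?_, ?_⟩
  · exact hWs.comp (contDiff_id.prodMk contDiff_const).contDiffOn fun x hx => ⟨hx, mem_univ _⟩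
  · rw [Measure.volume_eq_prod] at hae
    filter_upwards [Measure.ae_ae_of_ae_prod hae] with x hx hxU
    have hx' : ∀ᵐ s : ℝ × ℝ, W (x, s) = ker s * u x := by
      filter_upwards [hx] with s hs
      exact hs hxU
    have hc1 : Continuous fun s : ℝ × ℝ => W (x, s) :=
      hWs.continuousOn.comp_continuous (continuous_const.prodMk continuous_id)
        fun s => ⟨hxU, mem_univ _⟩
    have hc2 : Continuous fun s : ℝ × ℝ => ker s * u x := ker_cont.mul continuous_const
    have h3 := (hc1.ae_eq_iff_eq volume hc2).1 hx'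
    have h4 : W (x, 0) = ker 0 * u x := congrFun h3 0
    change W (x, 0) = u x
    rw [h4]
    simp [ker]

end Crest.Agent.R260.Reg_274
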