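import Crest.Agent.R260.Reg3_899

/-!
# Row 260, K-REG (helper899), part 4: coercivity of `∂̄_J`, estimates at the scale `t`

* `AJ Jm i x`    : the principal part of `v ↦ ((∂_a v + I ∂_{J a} v) / 2)_a`, `Jm i a = (J e_a)_i`
* `coer_dbar`    : it is coercive if `Jm` varies by at most `1/(2n)`
-/

set_option autoImplicit false
set_option linter.unusedSectionVars false

open MeasureTheory Set Filter Metric Topology Function
open scoped ContDiff ENNReal ComplexConjugate

namespace Crest.Agent.R260.Reg899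

noncomputable section

variable {n : ℕ}

theorem int_of_cc {f : E n → ℂ} (hf : Continuous f) (hc : HasCompactSupport f) :
    Integrable f (volume : Measure (E n)) := hf.integrable_of_hasCompactSupport hc

/-- `∫ ∂_i v conj ∂_j v` is symmetric -/
theorem sym_M {v : E n → ℂ} (hv : ContDiff ℝ ∞ v) (hc : HasCompactSupport v) (i j : Fin n) :
    ∫ x, pd i v x * conj (pd j v x) = ∫ x, pd j v x * conj (pd i v x) := by
  set w : E n → ℂ := fun x => conj (v x) with hw
  have hws : ContDiff ℝ ∞ w := (Complex.conjCLE : ℂ →L[ℝ] ℂ).contDiff.comp hv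
  have hpw : ∀ k : Fin n, pd k w = fun x => conj (pd k v x) := fun k => by
    funext x
    exact pd_clm isOpen_univ hv.contDiffOn (Complex.conjCLE : ℂ →L[ℝ] ℂ) k (mem_univ x)
  have hpv : ∀ k : Fin n, ContDiff ℝ ∞ (pd k v) := fun k =>
    contDiffOn_univ.1 (sm_pd isOpen_univ hv.contDiffOn k)
  have hpws : ∀ k : Fin n, ContDiff ℝ ∞ (pd k w) := fun k =>
    contDiffOn_univ.1 (sm_pd isOpen_univ hws.contDiffOn k)
  have hppw : ∀ k l : Fin n, ContDiff ℝ ∞ (pd k (pd l w)) := fun k l =>
    contDiffOn_univ.1 (sm_pd isOpen_univ (hpws l).contDiffOn k)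
  have hpc : ∀ k : Fin n, HasCompactSupport (pd k v) := fun k =>
    hc.mono' (subset_closure.trans (tsupport_pd_subset k v))
  have key : ∀ k l : Fin n, ∫ x, pd k v x * pd l w x = - ∫ x, v x * pd k (pd l w) x := by
    intro k l
    have h := integral_mul_fderiv_eq_neg_fderiv_mul_of_integrable (μ := (volume : Measure (E n)))
      (f := v) (g := pd l w) (v := EuclideanSpace.single k (1 : ℝ))
      (int_of_cc ((hpv k).continuous.mul (hpws l).continuous) (hpc k).mul_right)
      (int_of_cc (hv.continuous.mul (hppw k l).continuous) hc.mul_right)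
      (int_of_cc (hv.continuous.mul (hpws l).continuous) hc.mul_right)
      (fun x _ => (hv.differentiable (by simp)).differentiableAt)
      (fun x _ => ((hpws l).differentiable (by simp)).differentiableAt)
    have h' : ∫ x, v x * pd k (pd l w) x = - ∫ x, pd k v x * pd l w x := h
    rw [h', neg_neg]
  have h1 := key i j
  have h2 := key j i
  have h3 : ∫ x, v x * pd i (pd j w) x = ∫ x, v x * pd j (pd i w) x := by
    refine integral_congr_ae (Eventually.of_forall fun x => ?_)
    simp only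
    rw [pd_comm isOpen_univ hws.contDiffOn i j (mem_univ x)]
  have h4 : ∫ x, pd i v x * pd j w x = ∫ x, pd j v x * pd i w x := by rw [h1, h2, h3]
  have e1 : ∀ x, pd j w x = conj (pd j v x) := fun x => congrFun (hpw j) x
  have e2 : ∀ x, pd i w x = conj (pd i v x) := fun x => congrFun (hpw i) x
  simpa only [e1, e2] using h4

/-- the integral of `Im (∂_i v conj ∂_j v)` vanishes -/
theorem int_im {v : E n → ℂ} (hv : ContDiff ℝ ∞ v) (hc : HasCompactSupport v) (i j : Fin n) :
    ∫ x, (pd i v x * conj (pd j v x)).im = 0 := by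
  have hpv : ∀ k : Fin n, ContDiff ℝ ∞ (pd k v) := fun k =>
    contDiffOn_univ.1 (sm_pd isOpen_univ hv.contDiffOn k)
  have hpc : ∀ k : Fin n, HasCompactSupport (pd k v) := fun k =>
    hc.mono' (subset_closure.trans (tsupport_pd_subset k v))
  have hi : ∀ k l : Fin n, Integrable (fun x => pd k v x * conj (pd l v x))
      (volume : Measure (E n)) := fun k l =>
    int_of_cc ((hpv k).continuous.mul (Complex.continuous_conj.comp (hpv l).continuous))
      (hpc k).mul_right
  have h1 := sym_M hv hc i j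
  have h2 : ∫ x, pd j v x * conj (pd i v x) = conj (∫ x, pd i v x * conj (pd j v x)) := by
    rw [← integral_conj]
    refine integral_congr_ae (Eventually.of_forall fun x => ?_)
    simp [mul_comm]
  rw [h2] at h1
  have h3 : (∫ x, pd i v x * conj (pd j v x)).im = 0 := by
    have := congrArg Complex.im h1
    simp at this
    linarith
  have h4 := (Complex.imCLM.integral_comp_comm (hi i j))
  simp only [Complex.imCLM_apply] at h4
  rw [h4, h3]

/-- for a real constant coefficient vector field `q`: `∫ |∂_a v|² ≤ ∫ |∂_a v + I ∂_q v|²` -/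
theorem const_coer {v : E n → ℂ} (hv : ContDiff ℝ ∞ v) (hc : HasCompactSupport v) (a : Fin n)
    (q : Fin n → ℝ) : ∫ x, ‖pd a v x‖ ^ 2 ≤
      ∫ x, ‖pd a v x + Complex.I * ∑ i, (q i : ℂ) * pd i v x‖ ^ 2 := by
  have hpv : ∀ k : Fin n, ContDiff ℝ ∞ (pd k v) := fun k =>
    contDiffOn_univ.1 (sm_pd isOpen_univ hv.contDiffOn k)
  have hpc : ∀ k : Fin n, HasCompactSupport (pd k v) := fun k =>
    hc.mono' (subset_closure.trans (tsupport_pd_subset k v))
  set Q : E n → ℂ := fun x => ∑ i, (q i : ℂ) * pd i v x with hQ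
  have hQc : Continuous Q := continuous_finsetSum _ fun i _ =>
    continuous_const.mul (hpv i).continuous
  have hts : ∀ x, x ∉ tsupport v → ∀ i : Fin n, pd i v x = 0 := fun x hx i =>
    image_eq_zero_of_notMem_tsupport fun h => hx (tsupport_pd_subset i v h)
  have hQk : HasCompactSupport Q := hc.mono' fun x hx => by
    by_contra h
    exact hx (Finset.sum_eq_zero fun i _ => by rw [hts x h i, mul_zero])
  have i1 : Integrable (fun x => ‖pd a v x‖ ^ 2) (volume : Measure (E n)) :=
    int_sq (hpv a).continuous (hpc a)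
  have i2 : Integrable (fun x => ‖Q x‖ ^ 2) (volume : Measure (E n)) := int_sq hQc hQk
  have i3 : ∀ i, Integrable (fun x => (pd a v x * conj (pd i v x)).im)
      (volume : Measure (E n)) := fun i =>
    Complex.imCLM.integrable_comp (int_of_cc ((hpv a).continuous.mul
      (Complex.continuous_conj.comp (hpv i).continuous)) (hpc a).mul_right)
  have e : (fun x => ‖pd a v x + Complex.I * Q x‖ ^ 2) = fun x =>
      (‖pd a v x‖ ^ 2 + ‖Q x‖ ^ 2) + ∑ i, 2 * q i * (pd a v x * conj (pd i v x)).im := by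
    funext x
    have h1 : ∀ z w : ℂ, ‖z + Complex.I * w‖ ^ 2 = ‖z‖ ^ 2 + ‖w‖ ^ 2 + 2 * (z * conj w).im := by
      intro z w
      rw [← Complex.normSq_eq_norm_sq, ← Complex.normSq_eq_norm_sq, ← Complex.normSq_eq_norm_sq,
        Complex.normSq_apply, Complex.normSq_apply, Complex.normSq_apply]
      simp [Complex.mul_re, Complex.mul_im]
      ring
    rw [h1]
    congr 1
    rw [hQ]
    simp only [map_sum, map_mul, Complex.conj_ofReal, Finset.mul_sum, Complex.im_sum]
    refine Finset.sum_congr rfl fun i _ => ?_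
    have : pd a v x * ((q i : ℂ) * conj (pd i v x)) = (q i : ℂ) * (pd a v x * conj (pd i v x)) := by
      ring
    rw [this, Complex.im_ofReal_mul]
    ring
  have e' : (fun x => ‖pd a v x + Complex.I * ∑ i, (q i : ℂ) * pd i v x‖ ^ 2) = fun x =>
      (‖pd a v x‖ ^ 2 + ‖Q x‖ ^ 2) + ∑ i, 2 * q i * (pd a v x * conj (pd i v x)).im := e
  have i12 : Integrable (fun x => ‖pd a v x‖ ^ 2 + ‖Q x‖ ^ 2) (volume : Measure (E n)) :=
    i1.add i2
  have i4 : Integrable (fun x => ∑ i, 2 * q i * (pd a v x * conj (pd i v x)).im)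
      (volume : Measure (E n)) := integrable_finsetSum _ fun i _ => (i3 i).const_mul (2 * q i)
  rw [e', integral_add i12 i4, integral_add i1 i2,
    integral_finsetSum _ fun i _ => (i3 i).const_mul (2 * q i)]
  have h0 : ∑ i, ∫ x, 2 * q i * (pd a v x * conj (pd i v x)).im = 0 :=
    Finset.sum_eq_zero fun i _ => by rw [integral_const_mul, int_im hv hc, mul_zero]
  rw [h0, add_zero]
  exact le_add_of_nonneg_right (integral_nonneg fun _ => by positivity)

/-- multiplication by a complex number as a real linear map -/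
def mulC (c : ℂ) : ℂ →L[ℝ] ℂ := ContinuousLinearMap.mul ℝ ℂ c

/-- the principal part of `v ↦ ((∂_a v + I ∂_{J a} v) / 2)_a` -/
def AJ (Jm : Fin n → Fin n → E n → ℝ) (i : Fin n) (x : E n) : ℂ →L[ℝ] (Fin n → ℂ) :=
  ContinuousLinearMap.pi fun a => mulC (((if a = i then 1 else 0) + Complex.I * (Jm i a x : ℂ)) / 2)

theorem AJ_apply (Jm : Fin n → Fin n → E n → ℝ) (i a : Fin n) (x : E n) (z : ℂ) :
    AJ Jm i x z a = ((if a = i then 1 else 0) + Complex.I * (Jm i a x : ℂ)) / 2 * z := rfl

theorem sum_AJ (Jm : Fin n → Fin n → E n → ℝ) (x : E n) (v : Fin n → ℂ) (a : Fin n) :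
    (∑ i, AJ Jm i x (v i)) a = (v a + Complex.I * ∑ i, (Jm i a x : ℂ) * v i) / 2 := by
  rw [Finset.sum_apply]
  simp only [AJ_apply]
  have : ∀ i, ((if a = i then (1 : ℂ) else 0) + Complex.I * (Jm i a x : ℂ)) / 2 * v i =
      (if a = i then v i / 2 else 0) + Complex.I * ((Jm i a x : ℂ) * v i) / 2 := by
    intro i
    split_ifs <;> ring
  simp only [this, Finset.sum_add_distrib, Finset.sum_ite_eq, Finset.mem_univ, if_true]
  rw [add_div, Finset.mul_sum, ← Finset.sum_div]

theorem sm_AJ {U : Set (E n)} {Jm : Fin n → Fin n → E n → ℝ}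
    (hJ : ∀ i a, ContDiffOn ℝ ∞ (Jm i a) U) (i : Fin n) : ContDiffOn ℝ ∞ (AJ Jm i) U := by
  refine contDiffOn_clm_apply.2 fun z => contDiffOn_pi.2 fun a => ?_
  have h2 : ContDiffOn ℝ ∞ (fun x => ((if a = i then 1 else 0) +
      Complex.I * (Jm i a x : ℂ)) / 2) U :=
    (contDiffOn_const.add (contDiffOn_const.mul
      (Complex.ofRealCLM.contDiff.comp_contDiffOn (hJ i a)))).div_const 2
  exact h2.mul contDiffOn_const

/-- **coercivity of `∂̄_J`** -/
theorem coer_dbar {R : ℝ} {U : Set (E n)} (hU : IsOpen U) (hR : closedBall 0 R ⊆ U)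
    {Jm : Fin n → Fin n → E n → ℝ} (hJ : ∀ i a, ContDiffOn ℝ ∞ (Jm i a) U)
    (hosc : ∀ i a, ∀ x ∈ closedBall (0 : E n) R, 2 * n * |Jm i a x - Jm i a 0| ≤ 1) :
    Coer (16 * n) R (AJ Jm) := by
  intro v hv hc hs
  have hpv : ∀ k : Fin n, ContDiff ℝ ∞ (pd k v) := fun k =>
    contDiffOn_univ.1 (sm_pd isOpen_univ hv.contDiffOn k)
  have hpc : ∀ k : Fin n, HasCompactSupport (pd k v) := fun k =>
    hc.mono' (subset_closure.trans (tsupport_pd_subset k v))
  have hts : ∀ x, x ∉ tsupport v → ∀ i : Fin n, pd i v x = 0 := fun x hx i =>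
    image_eq_zero_of_notMem_tsupport fun h => hx (tsupport_pd_subset i v h)
  set T := ∑ i, ∫ x, ‖pd i v x‖ ^ 2 with hT
  have hT0 : 0 ≤ T := Finset.sum_nonneg fun i _ => integral_nonneg fun _ => by positivity
  -- the operator
  set P : E n → Fin n → ℂ := fun x => ∑ i, AJ Jm i x (pd i v x) with hP
  have hP0 : ∀ x, x ∉ tsupport v → P x = 0 := fun x hx =>
    Finset.sum_eq_zero fun i _ => by rw [hts x hx, map_zero]
  have cP : Continuous P := by
    refine cont_of_zero hU (isClosed_tsupport v) (hs.trans (ball_subset_closedBall.trans hR)) ?_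
      hP0
    exact continuousOn_finsetSum _ fun i _ =>
      (sm_AJ hJ i).continuousOn.clm_apply (hpv i).continuous.continuousOn
  have kP : HasCompactSupport P := hc.mono' fun x hx => by
    by_contra h
    exact hx (hP0 x h)
  have iP : Integrable (fun x => ‖P x‖ ^ 2) (volume : Measure (E n)) := int_sq cP kP
  have ipd : ∀ i, Integrable (fun x => ‖pd i v x‖ ^ 2) (volume : Measure (E n)) := fun i =>
    int_sq (hpv i).continuous (hpc i)
  -- pointwise
  have hpt : ∀ a x, ‖pd a v x + Complex.I * ∑ i, ((Jm i a 0 : ℝ) : ℂ) * pd i v x‖ ^ 2 ≤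
      8 * ‖P x‖ ^ 2 + (1 / (2 * n)) * ∑ i, ‖pd i v x‖ ^ 2 := by
    intro a x
    by_cases hx : x ∈ tsupport v
    · have hxR : x ∈ closedBall (0 : E n) R := ball_subset_closedBall (hs hx)
      have hn : (0 : ℝ) < n := by
        have : 0 < n := Fin.pos a
        exact_mod_cast this
      have e1 : pd a v x + Complex.I * ∑ i, ((Jm i a 0 : ℝ) : ℂ) * pd i v x =
          2 * P x a + Complex.I * ∑ i, ((Jm i a 0 - Jm i a x : ℝ) : ℂ) * pd i v x := by
        have h9 : P x a = (pd a v x + Complex.I * ∑ i, (Jm i a x : ℂ) * pd i v x) / 2 :=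
          sum_AJ Jm x (fun i => pd i v x) a
        rw [h9]
        simp only [Complex.ofReal_sub, sub_mul, Finset.sum_sub_distrib]
        ring
      have e2 : ‖∑ i, ((Jm i a 0 - Jm i a x : ℝ) : ℂ) * pd i v x‖ ^ 2 ≤
          (1 / (4 * n)) * ∑ i, ‖pd i v x‖ ^ 2 := by
        have h1 : ‖∑ i, ((Jm i a 0 - Jm i a x : ℝ) : ℂ) * pd i v x‖ ≤
            ∑ i, (1 / (2 * n)) * ‖pd i v x‖ := by
          refine (norm_sum_le _ _).trans (Finset.sum_le_sum fun i _ => ?_)
          rw [norm_mul, Complex.norm_real, Real.norm_eq_abs]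
          gcongr
          rw [abs_sub_comm, le_div_iff₀ (by positivity)]
          have := hosc i a x hxR
          linarith
        rw [← Finset.mul_sum] at h1
        have h2 : (∑ i, ‖pd i v x‖) ^ 2 ≤ n * ∑ i, ‖pd i v x‖ ^ 2 := by
          have := sq_sum_le_card_mul_sum_sq (s := (Finset.univ : Finset (Fin n)))
            (f := fun i => ‖pd i v x‖)
          simpa using this
        calc _ ≤ (1 / (2 * n) * ∑ i, ‖pd i v x‖) ^ 2 := pow_le_pow_left₀ (norm_nonneg _) h1 2
          _ = (1 / (2 * n)) ^ 2 * (∑ i, ‖pd i v x‖) ^ 2 := by ring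
          _ ≤ (1 / (2 * n)) ^ 2 * (n * ∑ i, ‖pd i v x‖ ^ 2) := by gcongr
          _ = _ := by field_simp; ring
      rw [e1]
      have e3 : ‖2 * P x a‖ ≤ 2 * ‖P x‖ := by
        rw [norm_mul]
        have := norm_le_pi_norm (P x) a
        simp only [Complex.norm_ofNat]
        linarith
      have e4 : ‖Complex.I * ∑ i, ((Jm i a 0 - Jm i a x : ℝ) : ℂ) * pd i v x‖ ^ 2 ≤
          (1 / (4 * n)) * ∑ i, ‖pd i v x‖ ^ 2 := by
        rw [norm_mul, Complex.norm_I, one_mul]; exact e2
      set z := 2 * P x a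
      set y := Complex.I * ∑ i, ((Jm i a 0 - Jm i a x : ℝ) : ℂ) * pd i v x
      have h5 : ‖z + y‖ ^ 2 ≤ 2 * ‖z‖ ^ 2 + 2 * ‖y‖ ^ 2 := by
        have h6 : ‖z + y‖ ^ 2 ≤ (‖z‖ + ‖y‖) ^ 2 :=
          pow_le_pow_left₀ (norm_nonneg _) (norm_add_le _ _) 2
        nlinarith [sq_nonneg (‖z‖ - ‖y‖)]
      have h7 : ‖z‖ ^ 2 ≤ 4 * ‖P x‖ ^ 2 := by
        calc ‖z‖ ^ 2 ≤ (2 * ‖P x‖) ^ 2 := pow_le_pow_left₀ (norm_nonneg _) e3 2
          _ = _ := by ring
      have h8 : 2 * ((1 / (4 * (n : ℝ))) * ∑ i, ‖pd i v x‖ ^ 2) =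
          (1 / (2 * n)) * ∑ i, ‖pd i v x‖ ^ 2 := by field_simp; ring
      linarith
    · simp only [hts x hx, hP0 x hx]
      simp
  have h1 : ∀ a, ∫ x, ‖pd a v x‖ ^ 2 ≤ 8 * (∫ x, ‖P x‖ ^ 2) + (1 / (2 * n)) * T := by
    intro a
    refine (const_coer hv hc a (fun i => Jm i a 0)).trans ?_
    rw [hT, ← integral_const_mul, ← integral_finsetSum _ fun i _ => ipd i, ← integral_const_mul,
      ← integral_add (iP.const_mul 8) ((integrable_finsetSum _ fun i _ => ipd i).const_mul _)]
    refine integral_mono_of_nonneg (Eventually.of_forall fun _ => by positivity)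
      ((iP.const_mul 8).add ((integrable_finsetSum _ fun i _ => ipd i).const_mul _))
      (Eventually.of_forall fun x => hpt a x)
  have h2 : T ≤ n * (8 * (∫ x, ‖P x‖ ^ 2)) + (1 / 2) * T := by
    have h6 : T ≤ n * (8 * (∫ x, ‖P x‖ ^ 2) + (1 / (2 * n)) * T) := by
      refine (Finset.sum_le_card_nsmul _ _ _ fun a _ => h1 a).trans ?_
      rw [Finset.card_univ, Fintype.card_fin, nsmul_eq_mul]
    refine h6.trans ?_
    rw [mul_add]
    have h7 : (n : ℝ) * ((1 / (2 * n)) * T) ≤ (1 / 2) * T := by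
      rcases Nat.eq_zero_or_pos n with h0 | h0
      · subst h0
        simp only [Nat.cast_zero, zero_mul]
        positivity
      · have hn : (0 : ℝ) < n := by exact_mod_cast h0
        rw [← mul_assoc]
        have : (n : ℝ) * (1 / (2 * n)) = 1 / 2 := by field_simp
        rw [this]
    linarith
  have h3 : 0 ≤ ∫ x, ‖v x‖ ^ 2 := integral_nonneg fun _ => by positivity
  have h4 : 0 ≤ ∫ x, ‖P x‖ ^ 2 := integral_nonneg fun _ => by positivity
  have h5 : (0 : ℝ) ≤ 16 * n * ∫ x, ‖v x‖ ^ 2 := by positivity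
  calc T ≤ 16 * n * ∫ x, ‖P x‖ ^ 2 := by linarith
    _ ≤ 16 * n * ((∫ x, ‖P x‖ ^ 2) + ∫ x, ‖v x‖ ^ 2) := by linarith

end

end Crest.Agent.R260.Reg899
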