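import Crest.Agent.R260.Reg4_274

/-!
# Row 260, K-REG (helper274), file 5: general form

`cgen` : `u ∈ L¹_loc(U; ℂ)`, for complex test functions
`∫ u * (Σ_i ∂_i (Σ_j a_ij ∂_j φ) - Σ_i ∂_i (b_i φ) + c φ) = ∫ F * φ`, `a` real symmetric positive
definite, `b`, `c`, `F` complex, everything smooth ==> `u` is smooth and solves
`Σ_i ∂_i (Σ_j a_ij ∂_j v) + Σ b_i ∂_i v + c v = F` on `U`.
-/

set_option autoImplicit false
set_option linter.unusedSectionVars false
set_option linter.unusedVariables false
set_option linter.unusedSimpArgs false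

open MeasureTheory Set Filter Topology
open scoped ContDiff Matrix
open Crest.GeometryTopology.CoordMetric Crest.Agent.R202.Ell

noncomputable section

namespace Crest.Agent.R260.Reg_274

variable {n : ℕ} {U : Set (EE n)}

theorem contDiffOn_inv_of' {h : EE n → Matrix (Fin n) (Fin n) ℝ}
    (hs : ∀ a b, ContDiffOn ℝ ∞ (fun y => h y a b) U) (hd : ∀ y ∈ U, (h y).det ≠ 0)
    (a b : Fin n) : ContDiffOn ℝ ∞ (fun y => (h y)⁻¹ a b) U := by
  have h1 : ContDiffOn ℝ ∞ (fun y => (h y).det) U := by
    simp only [Matrix.det_apply]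
    refine ContDiffOn.sum fun σ _ => ?_
    refine ContDiffOn.const_smul _ ?_
    exact contDiffOn_prod fun i _ => hs _ _
  have h2 : ContDiffOn ℝ ∞ (fun y => (h y).adjugate a b) U := by
    simp only [Matrix.adjugate_apply, Matrix.det_apply]
    refine ContDiffOn.sum fun σ _ => ?_
    refine ContDiffOn.const_smul _ ?_
    refine contDiffOn_prod fun i _ => ?_
    by_cases hi : σ i = b
    · rw [hi]
      simp only [Matrix.updateRow_self]
      exact contDiffOn_const
    · simp only [Matrix.updateRow_ne hi]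
      exact hs _ _
  have h3 : ∀ y ∈ U, (h y)⁻¹ a b = ((h y).det)⁻¹ * (h y).adjugate a b := by
    intro y hy
    rw [Matrix.inv_def, Matrix.smul_apply, Ring.inverse_eq_inv', smul_eq_mul]
  exact ((h1.inv hd).mul h2).congr h3

/-- general operator (transposed form) -/
def Pg (a : EE n → Matrix (Fin n) (Fin n) ℝ) (b : Fin n → EE n → ℂ) (c : EE n → ℂ)
    (φ : EE n → ℂ) (x : EE n) : ℂ :=
  ∑ i, cd i (fun y => ∑ j, (a y i j : ℂ) * cd j φ y) x
    - ∑ i, cd i (fun y => b i y * φ y) x + c x * φ x

theorem cd_congr {f g : EE n → ℂ} {x : EE n} (h : f =ᶠ[𝓝 x] g) (i : Fin n) : cd i f x = cd i g x := by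
  unfold cd; rw [h.fderiv_eq]

theorem cd_add {f g : EE n → ℂ} {x : EE n} (hf : DifferentiableAt ℝ f x)
    (hg : DifferentiableAt ℝ g x) (i : Fin n) :
    cd i (fun y => f y + g y) x = cd i f x + cd i g x := by
  unfold cd; rw [fderiv_fun_add hf hg]; rfl

theorem cd_mul {f g : EE n → ℂ} {x : EE n} (hf : DifferentiableAt ℝ f x)
    (hg : DifferentiableAt ℝ g x) (i : Fin n) :
    cd i (fun y => f y * g y) x = f x * cd i g x + cd i f x * g x := by
  unfold cd
  rw [fderiv_fun_mul hf hg]
  simp only [_root_.add_apply, _root_.smul_apply, smul_eq_mul]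
  ring

theorem cd_contDiffOn (hU : IsOpen U) {f : EE n → ℂ} (hf : ContDiffOn ℝ ∞ f U) (i : Fin n) :
    ContDiffOn ℝ ∞ (cd i f) U :=
  (hf.fderiv_of_isOpen hU (by simp)).clm_apply contDiffOn_const

theorem cd_contDiff {f : EE n → ℂ} (hf : ContDiff ℝ ∞ f) (i : Fin n) :
    ContDiff ℝ ∞ (cd i f) := (hf.fderiv_right (by simp)).clm_apply contDiff_const

theorem cd_tsupport (f : EE n → ℂ) (i : Fin n) : tsupport (cd i f) ⊆ tsupport f :=
  tsupport_fderiv_apply_subset ℝ (EuclideanSpace.single i (1 : ℝ))

section alg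

variable (a : EE n → Matrix (Fin n) (Fin n) ℝ) (b : Fin n → EE n → ℂ) (c : EE n → ℂ)

/-- the covector `-(1/2) a⁻¹ b` -/
def kq (x : EE n) (i : Fin n) : ℂ := -(1 / 2) * ∑ j, (((a x)⁻¹ i j : ℝ) : ℂ) * b j x

/-- the zeroth order coefficient -/
def dq (x : EE n) : ℂ := c x - (1 / 2) * ∑ i, cd i (b i) x + (1 / 2) * ∑ i, kq a b x i * b i x

variable {a b c}

theorem a_kq {x : EE n} (hdet : (a x).det ≠ 0) (i : Fin n) :
    ∑ j, (a x i j : ℂ) * kq a b x j = -(1 / 2) * b i x := by
  have h1 : a x * (a x)⁻¹ = 1 := Matrix.mul_nonsing_inv _ (isUnit_iff_ne_zero.2 hdet)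
  have h2 : ∀ k, ∑ j, (a x i j : ℂ) * (((a x)⁻¹ j k : ℝ) : ℂ) = if i = k then 1 else 0 := by
    intro k
    have := congrFun (congrFun h1 i) k
    rw [Matrix.mul_apply, Matrix.one_apply] at this
    have h3 := congrArg (fun t : ℝ => (t : ℂ)) this
    simp only [Complex.ofReal_sum, Complex.ofReal_mul] at h3
    rw [h3]
    split_ifs <;> simp
  unfold kq
  have h4 : ∑ j, (a x i j : ℂ) * (-(1 / 2) * ∑ k, (((a x)⁻¹ j k : ℝ) : ℂ) * b k x) =
      -(1 / 2) * ∑ k, (∑ j, (a x i j : ℂ) * (((a x)⁻¹ j k : ℝ) : ℂ)) * b k x := by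
    simp only [Finset.mul_sum, Finset.sum_mul]
    rw [Finset.sum_comm]
    refine Finset.sum_congr rfl fun k _ => Finset.sum_congr rfl fun j _ => ?_
    ring
  rw [h4]
  simp only [h2, ite_mul, one_mul, zero_mul, Finset.sum_ite_eq, Finset.mem_univ, if_true]

theorem Lc_eq_Pg (hU : IsOpen U) (ha : ∀ i j, ContDiffOn ℝ ∞ (fun x => a x i j) U)
    (hpos : ∀ x ∈ U, (a x).PosDef) (hb : ∀ i, ContDiffOn ℝ ∞ (b i) U)
    {φ : EE n → ℂ} (hφ : ContDiff ℝ ∞ φ) {x : EE n} (hx : x ∈ U) :
    Lc a (kq a b) (dq a b c) φ x = Pg a b c φ x := by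
  have hdet : ∀ y ∈ U, (a y).det ≠ 0 := fun y hy => (hpos y hy).det_pos.ne'
  have hnx := hU.mem_nhds hx
  have hφd : DifferentiableAt ℝ φ x := (hφ.differentiable (by simp)).differentiableAt
  have hbd : ∀ i, DifferentiableAt ℝ (b i) x := fun i =>
    ((hb i).contDiffAt hnx).differentiableAt (by simp)
  have had : ∀ i j, DifferentiableAt ℝ (fun y => (a y i j : ℂ)) x := fun i j =>
    (Complex.ofRealCLM.differentiableAt).comp x
      (((ha i j).contDiffAt hnx).differentiableAt (by simp))
  have hcd : ∀ j, DifferentiableAt ℝ (cd j φ) x := fun j =>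
    ((cd_contDiff hφ j).differentiable (by simp)).differentiableAt
  -- inner function
  have h1 : ∀ i, (fun y => ∑ j, (a y i j : ℂ) * (cd j φ y + kq a b y j * φ y)) =ᶠ[𝓝 x]
      fun y => (∑ j, (a y i j : ℂ) * cd j φ y) + (-(1 / 2)) * (b i y * φ y) := by
    intro i
    filter_upwards [hnx] with y hy
    simp only [mul_add, Finset.sum_add_distrib]
    congr 1
    have := a_kq (b := b) (hdet y hy) i
    calc ∑ j, (a y i j : ℂ) * (kq a b y j * φ y)
        = (∑ j, (a y i j : ℂ) * kq a b y j) * φ y := by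
          rw [Finset.sum_mul]; exact Finset.sum_congr rfl fun j _ => by ring
      _ = _ := by rw [this]; ring
  have hs : ∀ i, DifferentiableAt ℝ (fun y => ∑ j, (a y i j : ℂ) * cd j φ y) x := fun i =>
    DifferentiableAt.fun_sum fun j _ => (had i j).mul (hcd j)
  have hbφ : ∀ i, DifferentiableAt ℝ (fun y => b i y * φ y) x := fun i => (hbd i).mul hφd
  have h2 : ∀ i, cd i (fun y => ∑ j, (a y i j : ℂ) * (cd j φ y + kq a b y j * φ y)) x =
      cd i (fun y => ∑ j, (a y i j : ℂ) * cd j φ y) x +
        (-(1 / 2)) * (b i x * cd i φ x + cd i (b i) x * φ x) := by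
    intro i
    rw [cd_congr (h1 i), cd_add (hs i) ((hbφ i).const_mul _)]
    congr 1
    rw [cd_mul (differentiableAt_const _) (hbφ i), cd_mul (hbd i) hφd]
    unfold cd
    simp
  have hsym : ∀ i j, a x i j = a x j i := fun i j => by
    have := congrFun (congrFun (hpos x hx).1 j) i
    simpa [Matrix.conjTranspose_apply] using this
  have h3 : ∑ i, kq a b x i * ∑ j, (a x i j : ℂ) * (cd j φ x + kq a b x j * φ x) =
      (-(1 / 2)) * ∑ j, b j x * cd j φ x + (-(1 / 2)) * (∑ i, kq a b x i * b i x) * φ x := by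
    have e1 : ∀ i, kq a b x i * ∑ j, (a x i j : ℂ) * (cd j φ x + kq a b x j * φ x) =
        (∑ j, (a x j i : ℂ) * kq a b x i * cd j φ x) +
          kq a b x i * (∑ j, (a x i j : ℂ) * kq a b x j) * φ x := by
      intro i
      simp only [mul_add, Finset.mul_sum, Finset.sum_mul, Finset.sum_add_distrib]
      congr 1
      · refine Finset.sum_congr rfl fun j _ => ?_
        rw [hsym i j]; ring
      · refine Finset.sum_congr rfl fun j _ => ?_
        ring
    simp only [e1, Finset.sum_add_distrib]
    congr 1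
    · rw [Finset.sum_comm, Finset.mul_sum]
      refine Finset.sum_congr rfl fun j _ => ?_
      rw [← Finset.sum_mul, a_kq (hdet x hx) j]
      ring
    · rw [Finset.mul_sum, Finset.sum_mul]
      refine Finset.sum_congr rfl fun i _ => ?_
      rw [a_kq (hdet x hx) i]
      ring
  unfold Lc Pg
  rw [h3]
  simp only [h2]
  have h4 : ∀ i, cd i (fun y => b i y * φ y) x = b i x * cd i φ x + cd i (b i) x * φ x :=
    fun i => cd_mul (hbd i) hφd i
  simp only [h4]
  unfold dq
  rw [Finset.sum_add_distrib, ← Finset.mul_sum, Finset.sum_add_distrib, ← Finset.sum_mul]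
  ring

theorem Lc_eq_Pg' (hU : IsOpen U) (ha : ∀ i j, ContDiffOn ℝ ∞ (fun x => a x i j) U)
    (hpos : ∀ x ∈ U, (a x).PosDef) (hb : ∀ i, ContDiffOn ℝ ∞ (b i) U)
    {φ : EE n → ℂ} (hφ : ContDiff ℝ ∞ φ) (hs : tsupport φ ⊆ U) (x : EE n) :
    Lc a (kq a b) (dq a b c) φ x = Pg a b c φ x := by
  by_cases hx : x ∈ U
  · exact Lc_eq_Pg hU ha hpos hb hφ hx
  · have hx' : x ∉ tsupport φ := fun h => hx (hs h)
    have hev : φ =ᶠ[𝓝 x] fun _ => 0 := by
      filter_upwards [(isClosed_tsupport φ).isOpen_compl.mem_nhds hx'] with y hy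
      exact image_eq_zero_of_notMem_tsupport hy
    have hev2 : ∀ᶠ y in 𝓝 x, φ =ᶠ[𝓝 y] fun _ => 0 := hev.eventuallyEq_nhds
    have h0 : φ x = 0 := hev.self_of_nhds
    have hcz : ∀ᶠ y in 𝓝 x, ∀ j, cd j φ y = 0 := by
      filter_upwards [hev2] with y hy j
      rw [cd_congr hy]
      unfold cd
      simp
    have c0 : ∀ j, cd j φ x = 0 := hcz.self_of_nhds
    have z : ∀ i, cd i (fun _ : EE n => (0 : ℂ)) x = 0 := fun i => by unfold cd; simp
    unfold Lc Pg
    have e1 : ∀ i, cd i (fun y => ∑ j, (a y i j : ℂ) * (cd j φ y + kq a b y j * φ y)) x = 0 := by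
      intro i
      rw [← z i]
      apply cd_congr
      filter_upwards [hcz, hev] with y hy1 hy2
      simp [hy1, hy2]
    have e2 : ∀ i, cd i (fun y => ∑ j, (a y i j : ℂ) * cd j φ y) x = 0 := by
      intro i
      rw [← z i]
      apply cd_congr
      filter_upwards [hcz] with y hy1
      simp [hy1]
    have e3 : ∀ i, cd i (fun y => b i y * φ y) x = 0 := by
      intro i
      rw [← z i]
      apply cd_congr
      filter_upwards [hev] with y hy1
      simp [hy1]
    simp [e1, e2, e3, h0, c0]

end alg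

/-- integration by parts against a function smooth near the support -/
theorem cd_parts (hU : IsOpen U) {v : EE n → ℂ} (hv : ContDiffOn ℝ ∞ v U) {g : EE n → ℂ}
    (hg : ContDiff ℝ ∞ g) (hc : HasCompactSupport g) (hs : tsupport g ⊆ U) (i : Fin n) :
    ∫ x, v x * cd i g x = - ∫ x, cd i v x * g x := by
  have key : ∀ {p q : EE n → ℂ}, ContinuousOn p U → Continuous q → tsupport q ⊆ tsupport g →
      Integrable fun x => p x * q x := by
    intro p q hp hq hqs
    have h1 : IntegrableOn p (tsupport g) :=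
      (hp.mono hs).integrableOn_compact hc
    have h2 := h1.mul_continuousOn hq.continuousOn hc
    exact (integrableOn_iff_integrable_of_support_subset fun z hz => by
      apply hqs
      apply subset_tsupport q
      intro h0
      apply hz
      simp [h0]).1 h2
  exact integral_mul_fderiv_eq_neg_fderiv_mul_of_integrable (μ := volume) (f := v) (g := g)
    (v := EuclideanSpace.single i (1 : ℝ))
    (key (cd_contDiffOn hU hv i).continuousOn hg.continuous subset_rfl)
    (key hv.continuousOn (cd_contDiff hg i).continuous (cd_tsupport g i))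
    (key hv.continuousOn hg.continuous subset_rfl)
    (fun x hx => (hv.contDiffAt (hU.mem_nhds (hs hx))).differentiableAt (by simp))
    (fun x _ => (hg.differentiable (by simp)).differentiableAt)

theorem mul_test (hU : IsOpen U) {p : EE n → ℂ} (hp : ContDiffOn ℝ ∞ p U) {q : EE n → ℂ}
    (hq : ContDiff ℝ ∞ q) (hs : tsupport q ⊆ U) : ContDiff ℝ ∞ fun x => p x * q x := by
  rw [contDiff_iff_contDiffAt]
  intro x
  by_cases hx : x ∈ U
  · exact (hp.contDiffAt (hU.mem_nhds hx)).mul hq.contDiffAt
  · have hx' : x ∉ tsupport q := fun h => hx (hs h)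
    have : (fun x => p x * q x) =ᶠ[𝓝 x] fun _ => 0 := by
      filter_upwards [(isClosed_tsupport q).isOpen_compl.mem_nhds hx'] with y hy
      rw [image_eq_zero_of_notMem_tsupport hy, mul_zero]
    exact contDiffAt_const.congr_of_eventuallyEq this

theorem integrable_test (hU : IsOpen U) {p q : EE n → ℂ} (hp : ContinuousOn p U)
    (hq : Continuous q) (hc : HasCompactSupport q) (hs : tsupport q ⊆ U) :
    Integrable fun x => p x * q x := by
  have h1 : IntegrableOn p (tsupport q) := (hp.mono hs).integrableOn_compact hc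
  have h2 := h1.mul_continuousOn hq.continuousOn hc
  exact (integrableOn_iff_integrable_of_support_subset fun z hz => by
    apply subset_tsupport q
    intro h0
    apply hz
    simp [h0]).1 h2

/-- pointwise form of a weak equation for a smooth function -/
theorem weak_pointwise (hU : IsOpen U) {a : EE n → Matrix (Fin n) (Fin n) ℝ}
    {b : Fin n → EE n → ℂ} {c F : EE n → ℂ}
    (ha : ∀ i j, ContDiffOn ℝ ∞ (fun x => a x i j) U) (hsym : ∀ x ∈ U, ∀ i j, a x i j = a x j i)
    (hb : ∀ i, ContDiffOn ℝ ∞ (b i) U)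
    (hc : ContDiffOn ℝ ∞ c U) (hF : ContDiffOn ℝ ∞ F U) {v : EE n → ℂ} (hv : ContDiffOn ℝ ∞ v U)
    (h : ∀ φ : EE n → ℂ, ContDiff ℝ ∞ φ → HasCompactSupport φ → tsupport φ ⊆ U →
      ∫ x, v x * Pg a b c φ x = ∫ x, F x * φ x) :
    ∀ x ∈ U, ∑ i, cd i (fun y => ∑ j, (a y i j : ℂ) * cd j v y) x + ∑ i, b i x * cd i v x
      + c x * v x = F x := by
  have hac : ∀ i j, ContDiffOn ℝ ∞ (fun x => (a x i j : ℂ)) U := fun i j =>
    Complex.ofRealCLM.contDiff.comp_contDiffOn (ha i j)
  set g : EE n → ℂ := fun x => ∑ i, cd i (fun y => ∑ j, (a y i j : ℂ) * cd j v y) x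
    + ∑ i, b i x * cd i v x + c x * v x with hg
  have hflux : ∀ i, ContDiffOn ℝ ∞ (fun y => ∑ j, (a y i j : ℂ) * cd j v y) U := fun i =>
    ContDiffOn.sum fun j _ => (hac i j).mul (cd_contDiffOn hU hv j)
  have hgs : ContDiffOn ℝ ∞ g U :=
    ((ContDiffOn.sum fun i _ => cd_contDiffOn hU (hflux i) i).add
      (ContDiffOn.sum fun i _ => (hb i).mul (cd_contDiffOn hU hv i))).add (hc.mul hv)
  have key : ∀ φ : EE n → ℂ, ContDiff ℝ ∞ φ → HasCompactSupport φ → tsupport φ ⊆ U →
      ∫ x, v x * Pg a b c φ x = ∫ x, g x * φ x := by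
    intro φ hφ hφc hφs
    have sA : ∀ i, ContDiff ℝ ∞ fun y => ∑ j, (a y i j : ℂ) * cd j φ y := fun i =>
      ContDiff.sum fun j _ => mul_test hU (hac i j) (cd_contDiff hφ j)
        ((cd_tsupport φ j).trans hφs)
    have tA : ∀ i, tsupport (fun y => ∑ j, (a y i j : ℂ) * cd j φ y) ⊆ tsupport φ := by
      intro i
      refine closure_minimal ?_ (isClosed_tsupport _)
      intro y hy
      by_contra h'
      apply hy
      refine Finset.sum_eq_zero fun j _ => ?_
      rw [image_eq_zero_of_notMem_tsupport fun h'' => h' (cd_tsupport φ j h''), mul_zero]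
    have cA : ∀ i, HasCompactSupport (fun y => ∑ j, (a y i j : ℂ) * cd j φ y) := fun i =>
      hφc.of_isClosed_subset (isClosed_tsupport _) (tA i)
    have sB : ∀ i, ContDiff ℝ ∞ fun y => b i y * φ y := fun i => mul_test hU (hb i) hφ hφs
    have tB : ∀ i, tsupport (fun y => b i y * φ y) ⊆ tsupport φ := fun i =>
      tsupport_mul_subset_right
    have cB : ∀ i, HasCompactSupport (fun y => b i y * φ y) := fun i => hφc.mul_left
    have i1 : ∀ i, Integrable fun x => v x * cd i (fun y => ∑ j, (a y i j : ℂ) * cd j φ y) x :=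
      fun i => integrable_test hU hv.continuousOn (cd_contDiff (sA i) i).continuous
        ((cA i).of_isClosed_subset (isClosed_tsupport _) (cd_tsupport _ i))
        ((cd_tsupport _ i).trans ((tA i).trans hφs))
    have i2 : ∀ i, Integrable fun x => v x * cd i (fun y => b i y * φ y) x :=
      fun i => integrable_test hU hv.continuousOn (cd_contDiff (sB i) i).continuous
        ((cB i).of_isClosed_subset (isClosed_tsupport _) (cd_tsupport _ i))
        ((cd_tsupport _ i).trans ((tB i).trans hφs))
    have i3 : Integrable fun x => v x * (c x * φ x) :=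
      integrable_test hU hv.continuousOn (mul_test hU hc hφ hφs).continuous
        hφc.mul_left (tsupport_mul_subset_right.trans hφs)
    have l1 : ∫ x, v x * Pg a b c φ x =
        (∑ i, ∫ x, v x * cd i (fun y => ∑ j, (a y i j : ℂ) * cd j φ y) x)
        - (∑ i, ∫ x, v x * cd i (fun y => b i y * φ y) x) + ∫ x, v x * (c x * φ x) := by
      have e : ∀ x, v x * Pg a b c φ x =
          (∑ i, v x * cd i (fun y => ∑ j, (a y i j : ℂ) * cd j φ y) x)
          - (∑ i, v x * cd i (fun y => b i y * φ y) x) + v x * (c x * φ x) := by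
        intro x
        unfold Pg
        rw [← Finset.mul_sum, ← Finset.mul_sum]
        ring
      simp only [e]
      have A1 : Integrable fun x =>
          ∑ i, v x * cd i (fun y => ∑ j, (a y i j : ℂ) * cd j φ y) x :=
        integrable_finsetSum _ fun i _ => i1 i
      have A2 : Integrable fun x => ∑ i, v x * cd i (fun y => b i y * φ y) x :=
        integrable_finsetSum _ fun i _ => i2 i
      have A3 : Integrable fun x =>
          (∑ i, v x * cd i (fun y => ∑ j, (a y i j : ℂ) * cd j φ y) x) -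
            ∑ i, v x * cd i (fun y => b i y * φ y) x := A1.sub A2
      rw [integral_add A3 i3, integral_sub A1 A2,
        integral_finsetSum _ fun i _ => i1 i, integral_finsetSum _ fun i _ => i2 i]
    -- first term
    have l2 : (∑ i, ∫ x, v x * cd i (fun y => ∑ j, (a y i j : ℂ) * cd j φ y) x) =
        ∑ i, ∫ x, cd i (fun y => ∑ j, (a y i j : ℂ) * cd j v y) x * φ x := by
      have e1 : ∀ i, ∫ x, v x * cd i (fun y => ∑ j, (a y i j : ℂ) * cd j φ y) x =
          - ∑ j, ∫ x, cd i v x * ((a x i j : ℂ) * cd j φ x) := by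
        intro i
        rw [cd_parts hU hv (sA i) (cA i) ((tA i).trans hφs)]
        congr 1
        rw [← integral_finsetSum]
        · refine integral_congr_ae (Eventually.of_forall fun x => ?_)
          simp only [Finset.mul_sum]
        · intro j _
          exact integrable_test hU (cd_contDiffOn hU hv i).continuousOn
            (mul_test hU (hac i j) (cd_contDiff hφ j) ((cd_tsupport φ j).trans hφs)).continuous
            (HasCompactSupport.mul_left (hφc.of_isClosed_subset (isClosed_tsupport _)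
              (cd_tsupport φ j) : HasCompactSupport (cd j φ)))
            (tsupport_mul_subset_right.trans ((cd_tsupport φ j).trans hφs))
      have e2 : ∀ j, ∫ x, cd j (fun y => ∑ i, (a y j i : ℂ) * cd i v y) x * φ x =
          - ∑ i, ∫ x, cd i v x * ((a x i j : ℂ) * cd j φ x) := by
        intro j
        have := cd_parts hU (hflux j) hφ hφc hφs j
        rw [eq_comm, neg_eq_iff_eq_neg] at this
        rw [this]
        congr 1
        rw [← integral_finsetSum]
        · refine integral_congr_ae (Eventually.of_forall fun x => ?_)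
          simp only [Finset.sum_mul]
          by_cases hx : x ∈ U
          · refine Finset.sum_congr rfl fun i _ => ?_
            rw [hsym x hx j i]; ring
          · have : cd j φ x = 0 := image_eq_zero_of_notMem_tsupport fun h' =>
              hx (hφs (cd_tsupport φ j h'))
            simp [this]
        · intro i _
          exact integrable_test hU (cd_contDiffOn hU hv i).continuousOn
            (mul_test hU (hac i j) (cd_contDiff hφ j) ((cd_tsupport φ j).trans hφs)).continuous
            (HasCompactSupport.mul_left (hφc.of_isClosed_subset (isClosed_tsupport _)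
              (cd_tsupport φ j) : HasCompactSupport (cd j φ)))
            (tsupport_mul_subset_right.trans ((cd_tsupport φ j).trans hφs))
      simp only [e1, e2, Finset.sum_neg_distrib]
      rw [Finset.sum_comm]
    have l3 : (∑ i, ∫ x, v x * cd i (fun y => b i y * φ y) x) =
        - ∑ i, ∫ x, (b i x * cd i v x) * φ x := by
      rw [← Finset.sum_neg_distrib]
      refine Finset.sum_congr rfl fun i _ => ?_
      rw [cd_parts hU hv (sB i) (cB i) ((tB i).trans hφs)]
      congr 1
      refine integral_congr_ae (Eventually.of_forall fun x => ?_)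
      simp only
      ring
    rw [l1, l2, l3, sub_neg_eq_add]
    have j1 : ∀ i, Integrable fun x =>
        cd i (fun y => ∑ j, (a y i j : ℂ) * cd j v y) x * φ x := fun i =>
      integrable_test hU (cd_contDiffOn hU (hflux i) i).continuousOn hφ.continuous hφc hφs
    have j2 : ∀ i, Integrable fun x => (b i x * cd i v x) * φ x := fun i =>
      integrable_test hU ((hb i).mul (cd_contDiffOn hU hv i)).continuousOn hφ.continuous hφc hφs
    have A1 : Integrable fun x =>
        ∑ i, cd i (fun y => ∑ j, (a y i j : ℂ) * cd j v y) x * φ x :=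
      integrable_finsetSum _ fun i _ => j1 i
    have A2 : Integrable fun x => ∑ i, (b i x * cd i v x) * φ x :=
      integrable_finsetSum _ fun i _ => j2 i
    have A3 : Integrable fun x =>
        (∑ i, cd i (fun y => ∑ j, (a y i j : ℂ) * cd j v y) x * φ x) +
          ∑ i, (b i x * cd i v x) * φ x := A1.add A2
    rw [← integral_finsetSum _ fun i _ => j1 i, ← integral_finsetSum _ fun i _ => j2 i,
      ← integral_add A1 A2, ← integral_add A3 i3]
    refine integral_congr_ae (Eventually.of_forall fun x => ?_)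
    simp only [hg, add_mul, Finset.sum_mul]
    ring
  have hd : ContinuousOn (fun x => g x - F x) U := hgs.continuousOn.sub hF.continuousOn
  have hae := hU.ae_eq_zero_of_integral_contDiff_smul_eq_zero (μ := volume)
    (f := fun x => g x - F x) (hd.locallyIntegrableOn hU.measurableSet) (by
      intro ψ hψ hψc hψs
      set φ : EE n → ℂ := fun x => (ψ x : ℂ) with hφ
      have h1 : ContDiff ℝ ∞ φ := Complex.ofRealCLM.contDiff.comp hψ
      have h2 : HasCompactSupport φ := hψc.comp_left (g := fun t : ℝ => (t : ℂ)) rfl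
      have h3 : tsupport φ ⊆ U := by
        refine (closure_mono ?_).trans hψs
        intro x hx h0
        apply hx
        simp [hφ, h0]
      have h4 := key φ h1 h2 h3
      rw [h φ h1 h2 h3] at h4
      have i1 := integrable_test hU hgs.continuousOn h1.continuous h2 h3
      have i2 := integrable_test hU hF.continuousOn h1.continuous h2 h3
      have h5 : ∫ x, ψ x • (g x - F x) = ∫ x, (g x * φ x - F x * φ x) := by
        refine integral_congr_ae (Eventually.of_forall fun x => ?_)
        simp only [hφ, Complex.real_smul]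
        ring
      rw [h5, integral_sub i1 i2, ← h4, sub_self])
  have hzero : EqOn (fun x => g x - F x) (fun _ => 0) U := by
    refine Measure.eqOn_open_of_ae_eq (μ := volume) ?_ hU hd continuousOn_const
    rw [EventuallyEq, ae_restrict_iff' hU.measurableSet]
    exact hae
  intro x hx
  exact sub_eq_zero.1 (hzero hx)

/-- **Regularity, general form.** -/
theorem cgen (hU : IsOpen U) {a : EE n → Matrix (Fin n) (Fin n) ℝ}
    {b : Fin n → EE n → ℂ} {c F : EE n → ℂ}
    (ha : ∀ i j, ContDiffOn ℝ ∞ (fun x => a x i j) U) (hpos : ∀ x ∈ U, (a x).PosDef)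
    (hb : ∀ i, ContDiffOn ℝ ∞ (b i) U) (hc : ContDiffOn ℝ ∞ c U) (hF : ContDiffOn ℝ ∞ F U)
    {u : EE n → ℂ} (hu : LocallyIntegrableOn u U)
    (h : ∀ φ : EE n → ℂ, ContDiff ℝ ∞ φ → HasCompactSupport φ → tsupport φ ⊆ U →
      ∫ x, u x * Pg a b c φ x = ∫ x, F x * φ x) :
    ∃ v : EE n → ℂ, ContDiffOn ℝ ∞ v U ∧ (∀ᵐ x, x ∈ U → v x = u x) ∧
      ∀ x ∈ U, ∑ i, cd i (fun y => ∑ j, (a y i j : ℂ) * cd j v y) x + ∑ i, b i x * cd i v x
        + c x * v x = F x := by
  have hdet : ∀ y ∈ U, (a y).det ≠ 0 := fun y hy => (hpos y hy).det_pos.ne'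
  have hk : ∀ i, ContDiffOn ℝ ∞ (fun x => kq a b x i) U := fun i =>
    contDiffOn_const.mul (ContDiffOn.sum fun j _ =>
      (Complex.ofRealCLM.contDiff.comp_contDiffOn (contDiffOn_inv_of' ha hdet i j)).mul (hb j))
  have hd : ContDiffOn ℝ ∞ (dq a b c) U :=
    (hc.sub (contDiffOn_const.mul (ContDiffOn.sum fun i _ => cd_contDiffOn hU (hb i) i))).add
      (contDiffOn_const.mul (ContDiffOn.sum fun i _ => (hk i).mul (hb i)))
  obtain ⟨v, hv, hvu⟩ := reg hU ha hpos hk hd hF hu (fun φ hφ hφc hφs => by
    rw [← h φ hφ hφc hφs]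
    refine integral_congr_ae (Eventually.of_forall fun x => ?_)
    simp only [Lc_eq_Pg' hU ha hpos hb hφ hφs x])
  refine ⟨v, hv, hvu, ?_⟩
  have hsym : ∀ x ∈ U, ∀ i j, a x i j = a x j i := fun x hx i j => by
    have := congrFun (congrFun (hpos x hx).1 j) i
    simpa [Matrix.conjTranspose_apply] using this
  refine weak_pointwise hU ha hsym hb hc hF hv fun φ hφ hφc hφs => ?_
  rw [← h φ hφ hφc hφs]
  refine integral_congr_ae ?_
  filter_upwards [hvu] with x hx
  by_cases hxU : x ∈ U
  · rw [hx hxU]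
  · have : Pg a b c φ x = 0 := by
      rw [← Lc_eq_Pg' (c := c) hU ha hpos hb hφ hφs x]
      have hx' : x ∉ tsupport φ := fun h => hxU (hφs h)
      have hev : φ =ᶠ[𝓝 x] fun _ => 0 := by
        filter_upwards [(isClosed_tsupport φ).isOpen_compl.mem_nhds hx'] with y hy
        exact image_eq_zero_of_notMem_tsupport hy
      have hcz : ∀ᶠ y in 𝓝 x, ∀ j, cd j φ y = 0 := by
        filter_upwards [hev.eventuallyEq_nhds] with y hy j
        rw [cd_congr hy]
        unfold cd
        simp
      have z : ∀ i, cd i (fun _ : EE n => (0 : ℂ)) x = 0 := fun i => by unfold cd; simp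
      have e1 : ∀ i, cd i (fun y => ∑ j, (a y i j : ℂ) * (cd j φ y + kq a b y j * φ y)) x = 0 := by
        intro i
        rw [← z i]
        apply cd_congr
        filter_upwards [hcz, hev] with y hy1 hy2
        simp [hy1, hy2]
      have h0 : φ x = 0 := hev.self_of_nhds
      have c0 : ∀ j, cd j φ x = 0 := hcz.self_of_nhds
      unfold Lc
      simp [e1, h0, c0]
    rw [this]
    simp

end Crest.Agent.R260.Reg_274
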