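import Crest.Agent.R260.RkT_12

/-!
Row 260 (S0398), helper12, Mathlib only: the radical of a polynomial bilinear form restricted to the solution
space of a polynomial linear system of constant rank has the same dimension at all points.

* `cr A f g j` : Cramer vector; `cr_mem_sol`, `smul_eq_sum_cr` (`D • t = ∑ j, t j • T j` for solutions `t`).
* `Rad A Ω`    : `{t ∈ Sol A | ∀ t' ∈ Sol A, ∑ x, ∑ y, Ω x y * t x * t' y = 0}`.
* `rad_eq_transfer`, `rad_le_transfer`, `rad_ge_transfer`.
-/

set_option autoImplicit false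

open MvPolynomial Module

namespace Crest.Agent.R260.RkT_12

universe u v w x y z

section Cramer

variable {R : Type u} [CommRing R] {ι : Type v} {n : Type w} [Fintype n] [DecidableEq n]

/-- the minor with rows `f` and columns `g` -/
def mnr {r : ℕ} (A : ι → n → R) (f : Fin r → ι) (g : Fin r → n) : Matrix (Fin r) (Fin r) R :=
  Matrix.of fun a b => A (f a) (g b)

/-- Cramer vector: `D e_j - ∑ b, (adj c_j)_b e_(g b)` -/
def cr {r : ℕ} (A : ι → n → R) (f : Fin r → ι) (g : Fin r → n) (j : n) : n → R := fun x =>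
  (if x = j then (mnr A f g).det else 0) -
    ∑ b, if x = g b then ((mnr A f g).adjugate.mulVec (fun a => A (f a) j)) b else 0

theorem sum_mul_cr {r : ℕ} (A : ι → n → R) (f : Fin r → ι) (g : Fin r → n) (j : n) (l : n → R) :
    ∑ x, l x * cr A f g j x = l j * (mnr A f g).det -
      ∑ b, l (g b) * ((mnr A f g).adjugate.mulVec (fun a => A (f a) j)) b := by
  simp only [cr, mul_sub, Finset.sum_sub_distrib, mul_ite, mul_zero, Finset.sum_ite_eq',
    Finset.mem_univ, if_true, Finset.mul_sum]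
  congr 1
  rw [Finset.sum_comm]
  refine Finset.sum_congr rfl fun b _ => ?_
  simp

/-- the Cramer vectors solve the equations `f a` -/
theorem sum_row_cr {r : ℕ} (A : ι → n → R) (f : Fin r → ι) (g : Fin r → n) (j : n) (a : Fin r) :
    ∑ x, A (f a) x * cr A f g j x = 0 := by
  rw [sum_mul_cr]
  have h1 : ∑ b, A (f a) (g b) * ((mnr A f g).adjugate.mulVec (fun a => A (f a) j)) b =
      ((mnr A f g).mulVec ((mnr A f g).adjugate.mulVec (fun a => A (f a) j))) a := rfl
  rw [h1, Matrix.mulVec_mulVec, Matrix.mul_adjugate, Matrix.smul_mulVec, Matrix.one_mulVec]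
  simp [mul_comm]

/-- a solution of the equations `f a` is a combination of the Cramer vectors -/
theorem smul_eq_sum_cr {r : ℕ} (A : ι → n → R) (f : Fin r → ι) (g : Fin r → n) {t : n → R}
    (ht : ∀ a, ∑ x, A (f a) x * t x = 0) :
    (mnr A f g).det • t = ∑ j, t j • cr A f g j := by
  funext x
  simp only [Pi.smul_apply, smul_eq_mul, Finset.sum_apply, cr, mul_sub, Finset.sum_sub_distrib,
    mul_ite, mul_zero, Finset.sum_ite_eq, Finset.mem_univ, if_true, Finset.mul_sum]
  have h1 : ∑ j, ∑ b, (if x = g b then t j * ((mnr A f g).adjugate.mulVec (fun a => A (f a) j)) b else 0)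
      = 0 := by
    rw [Finset.sum_comm]
    refine Finset.sum_eq_zero fun b _ => ?_
    by_cases hx : x = g b
    · simp only [hx, if_true]
      have h2 : ∑ j, t j * ((mnr A f g).adjugate.mulVec (fun a => A (f a) j)) b =
          ∑ a, (mnr A f g).adjugate b a * ∑ j, A (f a) j * t j := by
        simp only [Matrix.mulVec, dotProduct, Finset.mul_sum]
        rw [Finset.sum_comm]
        refine Finset.sum_congr rfl fun a _ => Finset.sum_congr rfl fun j _ => ?_
        ring
      rw [h2]
      refine Finset.sum_eq_zero fun a _ => ?_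
      rw [ht a, mul_zero]
    · simp [hx]
  rw [h1, sub_zero]
  ring

end Cramer

section CramerField

variable {K : Type u} [Field K] {ι : Type v} {n : Type w} [Fintype n] [DecidableEq n]

omit [DecidableEq n] in
/-- with `r = rank` and a non-zero minor the rows `f a` span all rows -/
theorem rows_eq_span {A : ι → n → K} {r : ℕ} (f : Fin r → ι) (g : Fin r → n)
    (hD : (mnr A f g).det ≠ 0) (hr : finrank K (rows A) = r) :
    rows (fun a => A (f a)) = rows A := by
  refine Submodule.eq_of_le_of_finrank_le (Submodule.span_mono ?_) ?_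
  · rintro _ ⟨a, rfl⟩; exact ⟨f a, rfl⟩
  · rw [hr]
    exact le_rank_of_minor (fun a => A (f a)) id g hD

omit [DecidableEq n] in
theorem sum_mul_eq_zero_of_mem_rows {A : ι → n → K} {t l : n → K} (ht : t ∈ Sol A) (hl : l ∈ rows A) :
    ∑ x, l x * t x = 0 := by
  refine Submodule.span_induction (p := fun l _ => ∑ x, l x * t x = 0) ?_ ?_ ?_ ?_ hl
  · rintro _ ⟨i, rfl⟩; exact ht i
  · simp
  · intro a b _ _ ha hb
    simp only [Pi.add_apply, add_mul, Finset.sum_add_distrib]
    rw [ha, hb, add_zero]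
  · intro c a _ ha
    simp only [Pi.smul_apply, smul_eq_mul, mul_assoc]
    rw [← Finset.mul_sum, ha, mul_zero]

theorem cr_mem_sol {A : ι → n → K} {r : ℕ} (f : Fin r → ι) (g : Fin r → n)
    (hD : (mnr A f g).det ≠ 0) (hr : finrank K (rows A) = r) (j : n) : cr A f g j ∈ Sol A := by
  intro i
  have h1 : cr A f g j ∈ Sol (fun a => A (f a)) := fun a => sum_row_cr A f g j a
  refine sum_mul_eq_zero_of_mem_rows h1 ?_
  rw [rows_eq_span f g hD hr]
  exact Submodule.subset_span ⟨i, rfl⟩

/-- the radical of a bilinear form on the solution space -/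
def Rad (A : ι → n → K) (Ω : n → n → K) : Submodule K (n → K) where
  carrier := {t | t ∈ Sol A ∧ ∀ t' ∈ Sol A, ∑ x, ∑ y, Ω x y * t x * t' y = 0}
  zero_mem' := ⟨Submodule.zero_mem _, by intro t' _; simp⟩
  add_mem' := by
    rintro a b ⟨ha, ha'⟩ ⟨hb, hb'⟩
    refine ⟨Submodule.add_mem _ ha hb, fun t' ht' => ?_⟩
    have : ∀ x y, Ω x y * (a + b) x * t' y = Ω x y * a x * t' y + Ω x y * b x * t' y := by
      intro x y; simp only [Pi.add_apply]; ring
    simp only [this, Finset.sum_add_distrib]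
    rw [ha' t' ht', hb' t' ht', add_zero]
  smul_mem' := by
    rintro c a ⟨ha, ha'⟩
    refine ⟨Submodule.smul_mem _ _ ha, fun t' ht' => ?_⟩
    have : ∀ x y, Ω x y * (c • a) x * t' y = c * (Ω x y * a x * t' y) := by
      intro x y; simp only [Pi.smul_apply, smul_eq_mul]; ring
    simp only [this, ← Finset.mul_sum]
    rw [ha' t' ht', mul_zero]

omit [DecidableEq n] in
theorem mem_Rad {A : ι → n → K} {Ω : n → n → K} {t : n → K} :
    t ∈ Rad A Ω ↔ t ∈ Sol A ∧ ∀ t' ∈ Sol A, ∑ x, ∑ y, Ω x y * t x * t' y = 0 := Iff.rfl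

end CramerField

section Ext

variable {R : Type u} [CommRing R] {ι : Type v} {n : Type w} [Fintype n] [DecidableEq n]

/-- the extended system: the rows of `A` and the rows `Ω (·, T j)` -/
def ext {r : ℕ} (A : ι → n → R) (Ω : n → n → R) (f : Fin r → ι) (g : Fin r → n) : ι ⊕ n → n → R :=
  Sum.elim A (fun j x => ∑ y, Ω x y * cr A f g j y)

end Ext

section RadField

variable {K : Type u} [Field K] {ι : Type v} {n : Type w} [Fintype n] [DecidableEq n]

theorem rad_eq_sol_ext {A : ι → n → K} {Ω : n → n → K} {r : ℕ} (f : Fin r → ι) (g : Fin r → n)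
    (hD : (mnr A f g).det ≠ 0) (hr : finrank K (rows A) = r) : Rad A Ω = Sol (ext A Ω f g) := by
  ext t
  rw [mem_Rad, mem_Sol]
  constructor
  · rintro ⟨h1, h2⟩ (i | j)
    · exact h1 i
    · have h3 := h2 _ (cr_mem_sol f g hD hr j)
      simp only [ext, Sum.elim_inr]
      rw [← h3]
      refine Finset.sum_congr rfl fun x _ => ?_
      rw [Finset.sum_mul]
      refine Finset.sum_congr rfl fun y _ => ?_
      ring
  · intro h
    have h1 : t ∈ Sol A := fun i => h (Sum.inl i)
    refine ⟨h1, fun t' ht' => ?_⟩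
    have h2 : ∀ j, ∑ x, ∑ y, Ω x y * t x * cr A f g j y = 0 := by
      intro j
      have h3 := h (Sum.inr j)
      simp only [ext, Sum.elim_inr] at h3
      rw [← h3]
      refine Finset.sum_congr rfl fun x _ => ?_
      rw [Finset.sum_mul]
      refine Finset.sum_congr rfl fun y _ => ?_
      ring
    have h4 := smul_eq_sum_cr A f g (t := t') (fun a => ht' (f a))
    have h5 : (mnr A f g).det * ∑ x, ∑ y, Ω x y * t x * t' y =
        ∑ j, t' j * ∑ x, ∑ y, Ω x y * t x * cr A f g j y := by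
      have h6 : ∀ y, (mnr A f g).det * t' y = ∑ j, t' j * cr A f g j y := by
        intro y
        have := congrFun h4 y
        simpa [Finset.sum_apply] using this
      simp only [Finset.mul_sum]
      rw [Finset.sum_comm]
      have h7 : ∀ y x, (mnr A f g).det * (Ω x y * t x * t' y) =
          ∑ j, t' j * (Ω x y * t x * cr A f g j y) := by
        intro y x
        have := congrArg (fun c => Ω x y * t x * c) (h6 y)
        simp only [Finset.mul_sum] at this
        calc (mnr A f g).det * (Ω x y * t x * t' y) = Ω x y * t x * ((mnr A f g).det * t' y) := by ring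
          _ = ∑ j, Ω x y * t x * (t' j * cr A f g j y) := this
          _ = _ := Finset.sum_congr rfl fun j _ => by ring
      simp only [h7]
      rw [Finset.sum_comm]
      refine (Finset.sum_congr rfl fun x _ => Finset.sum_comm).trans ?_
      rw [Finset.sum_comm]
    have h8 : ∑ j, t' j * ∑ x, ∑ y, Ω x y * t x * cr A f g j y = 0 :=
      Finset.sum_eq_zero fun j _ => by rw [h2 j, mul_zero]
    rw [h8] at h5
    exact (mul_eq_zero.1 h5).resolve_left hD

end RadField

section Transfer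

variable {k : Type u} [Field k] {σ : Type v} {ι : Type x} {n : Type y} [Fintype n] [DecidableEq n]

omit [Fintype n] [DecidableEq n] in
theorem mnr_ev {R : Type w} [CommRing R] [Algebra k R] (L : ι → n → MvPolynomial σ k) (v : σ → R) {r : ℕ}
    (f : Fin r → ι) (g : Fin r → n) :
    (mnr (ev L v) f g) = (mnr L f g).map (aeval v) := rfl

omit [Fintype n] [DecidableEq n] in
theorem mnr_det_ev {R : Type w} [CommRing R] [Algebra k R] (L : ι → n → MvPolynomial σ k) (v : σ → R) {r : ℕ}
    (f : Fin r → ι) (g : Fin r → n) :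
    (mnr (ev L v) f g).det = aeval v (mnr L f g).det := det_ev L v f g

omit [Fintype n] in
theorem cr_ev {R : Type w} [CommRing R] [Algebra k R] (L : ι → n → MvPolynomial σ k) (v : σ → R) {r : ℕ}
    (f : Fin r → ι) (g : Fin r → n) (j x : n) :
    cr (ev L v) f g j x = aeval v (cr L f g j x) := by
  have h1 : ∀ b, ((mnr (ev L v) f g).adjugate.mulVec (fun a => ev L v (f a) j)) b =
      aeval v (((mnr L f g).adjugate.mulVec (fun a => L (f a) j)) b) := by
    intro b
    have h2 : ∀ a, (mnr (ev L v) f g).adjugate b a = aeval v ((mnr L f g).adjugate b a) := by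
      intro a
      have h3 := RingHom.map_adjugate (aeval v : MvPolynomial σ k →ₐ[k] R).toRingHom (mnr L f g)
      have h4 := congrFun (congrFun h3 b) a
      exact h4.symm
    simp only [Matrix.mulVec, dotProduct, map_sum, map_mul, h2]
    rfl
  simp only [cr, h1, mnr_det_ev, map_sub, map_sum]
  congr 1
  · split_ifs <;> simp
  · refine Finset.sum_congr rfl fun b _ => ?_
    split_ifs <;> simp

theorem ext_ev {R : Type w} [CommRing R] [Algebra k R] (L : ι → n → MvPolynomial σ k)
    (Ω : n → n → MvPolynomial σ k) (v : σ → R) {r : ℕ} (f : Fin r → ι) (g : Fin r → n) :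
    ext (ev L v) (ev Ω v) f g = ev (ext L Ω f g) v := by
  funext i x
  rcases i with i | j
  · rfl
  · simp only [ext, Sum.elim_inr, ev, map_sum, map_mul]
    refine Finset.sum_congr rfl fun y _ => ?_
    rw [← cr_ev]

variable {K : Type z} [Field K] [IsAlgClosed K] [Algebra k K] [Finite σ]
variable {E B : Set (MvPolynomial σ k)} {L : ι → n → MvPolynomial σ k} {Ω : n → n → MvPolynomial σ k}
variable {r s : ℕ} {κ : Type w} [Field κ] [Algebra k κ]

variable (K) in
/-- general form: a property of dimensions passes -/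
theorem rad_transfer_aux
    (hr : ∀ v : σ → K, (∀ p ∈ E, aeval v p = 0) → (∃ b ∈ B, aeval v b ≠ 0) →
      finrank K (rows (ev L v)) = r)
    (v : σ → κ) (hv : ∀ p ∈ E, aeval v p = 0) (hB : ∃ b ∈ B, aeval v b ≠ 0) :
    ∃ (f : Fin r → ι) (g : Fin r → n) (B' : Set (MvPolynomial σ k)),
      (∃ b ∈ B', aeval v b ≠ 0) ∧ Rad (ev L v) (ev Ω v) = Sol (ev (ext L Ω f g) v) ∧
      ∀ x : σ → K, (∀ p ∈ E, aeval x p = 0) → (∃ b ∈ B', aeval x b ≠ 0) →
        (∃ b ∈ B, aeval x b ≠ 0) ∧ Rad (ev L x) (ev Ω x) = Sol (ev (ext L Ω f g) x) := by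
  have h1 := rows_eq_transfer K hr v hv hB
  obtain ⟨f, g, hfg⟩ := exists_minor (ev L v) h1.ge
  obtain ⟨b, hb, hb0⟩ := hB
  have hD : (mnr (ev L v) f g).det ≠ 0 := hfg
  refine ⟨f, g, {b * (mnr L f g).det}, ⟨_, rfl, ?_⟩, ?_, ?_⟩
  · rw [map_mul, ← mnr_det_ev]
    exact mul_ne_zero hb0 hD
  · rw [← ext_ev]
    exact rad_eq_sol_ext f g hD h1
  · rintro x hx ⟨_, rfl, hb'⟩
    rw [map_mul, ← mnr_det_ev] at hb'
    have hbx := left_ne_zero_of_mul hb'
    refine ⟨⟨b, hb, hbx⟩, ?_⟩
    rw [← ext_ev]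
    exact rad_eq_sol_ext f g (right_ne_zero_of_mul hb') (hr x hx ⟨b, hb, hbx⟩)

variable (K) in
theorem rad_le_transfer
    (hr : ∀ v : σ → K, (∀ p ∈ E, aeval v p = 0) → (∃ b ∈ B, aeval v b ≠ 0) →
      finrank K (rows (ev L v)) = r)
    (h : ∀ v : σ → K, (∀ p ∈ E, aeval v p = 0) → (∃ b ∈ B, aeval v b ≠ 0) →
      finrank K (Rad (ev L v) (ev Ω v)) ≤ s)
    (v : σ → κ) (hv : ∀ p ∈ E, aeval v p = 0) (hB : ∃ b ∈ B, aeval v b ≠ 0) :
    finrank κ (Rad (ev L v) (ev Ω v)) ≤ s := by
  obtain ⟨f, g, B', h1, h2, h3⟩ := rad_transfer_aux K (Ω := Ω) hr v hv hB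
  rw [h2]
  refine sol_le_transfer K (E := E) (B := B') (fun x hx hb => ?_) v hv h1
  obtain ⟨h4, h5⟩ := h3 x hx hb
  rw [← h5]
  exact h x hx h4

variable (K) in
theorem rad_ge_transfer
    (hr : ∀ v : σ → K, (∀ p ∈ E, aeval v p = 0) → (∃ b ∈ B, aeval v b ≠ 0) →
      finrank K (rows (ev L v)) = r)
    (h : ∀ v : σ → K, (∀ p ∈ E, aeval v p = 0) → (∃ b ∈ B, aeval v b ≠ 0) →
      s ≤ finrank K (Rad (ev L v) (ev Ω v)))
    (v : σ → κ) (hv : ∀ p ∈ E, aeval v p = 0) (hB : ∃ b ∈ B, aeval v b ≠ 0) :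
    s ≤ finrank κ (Rad (ev L v) (ev Ω v)) := by
  obtain ⟨f, g, B', h1, h2, h3⟩ := rad_transfer_aux K (Ω := Ω) hr v hv hB
  rw [h2]
  refine sol_ge_transfer K (E := E) (B := B') (fun x hx hb => ?_) v hv h1
  obtain ⟨h4, h5⟩ := h3 x hx hb
  rw [← h5]
  exact h x hx h4

variable (K) in
/-- **the radical of a polynomial form on a polynomial system of constant rank** -/
theorem rad_eq_transfer
    (hr : ∀ v : σ → K, (∀ p ∈ E, aeval v p = 0) → (∃ b ∈ B, aeval v b ≠ 0) →
      finrank K (rows (ev L v)) = r)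
    (h : ∀ v : σ → K, (∀ p ∈ E, aeval v p = 0) → (∃ b ∈ B, aeval v b ≠ 0) →
      finrank K (Rad (ev L v) (ev Ω v)) = s)
    (v : σ → κ) (hv : ∀ p ∈ E, aeval v p = 0) (hB : ∃ b ∈ B, aeval v b ≠ 0) :
    finrank κ (Rad (ev L v) (ev Ω v)) = s :=
  le_antisymm (rad_le_transfer K hr (fun x h1 h2 => (h x h1 h2).le) v hv hB)
    (rad_ge_transfer K hr (fun x h1 h2 => (h x h1 h2).ge) v hv hB)

omit [DecidableEq n] in
/-- a subspace of the radical of the right dimension is the radical -/
theorem eq_rad_of_le {A : ι → n → κ} {O : n → n → κ} {W : Submodule κ (n → κ)}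
    (hW : W ≤ Rad A O) (h1 : finrank κ (Rad A O) ≤ finrank κ W) : W = Rad A O :=
  Submodule.eq_of_le_of_finrank_le hW h1

end Transfer

end Crest.Agent.R260.RkT_12
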