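import Mathlib

/-!
Row 260 (S0398), task H2-RANK (helper12), Mathlib only. Polynomials over a field `k`, `K` an algebraically
closed extension of `k` (`K = k` allowed): rank conditions on polynomial matrices pass from the points
over `K` to the points over every field `κ` (or reduced `k`-algebra) over `k`.

* `nss_transfer` : Nullstellensatz for points with values in reduced `k`-algebras.
* `exists_minor`, `le_rank_of_minor` (`rk` = rank of a possibly infinite family of rows).
* `Sol A` : solution space of the linear system with rows `A i`; `finrank_rows_add_finrank_sol`.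
* `rows_ge_transfer`, `rows_le_transfer`, `rows_eq_transfer`, `sol_le_transfer`, `sol_ge_transfer`,
  `sol_eq_transfer` (infinite families of rows), `rank_ge_transfer`, `rank_le_transfer` (matrices).
The side condition is `∃ b ∈ B, b(v) ≠ 0`, `B` any set of polynomials.
-/

set_option autoImplicit false

open MvPolynomial Module

namespace Crest.Agent.R260.RkT_12

universe u v w x y z

/-! ### linear algebra -/

section Lin

variable {K : Type u} [Field K] {ι : Type v} {n : Type w} [Fintype n]

/-- the span of the rows -/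
def rows (A : ι → n → K) : Submodule K (n → K) := Submodule.span K (Set.range A)

/-- the solutions of the homogeneous linear system -/
def Sol (A : ι → n → K) : Submodule K (n → K) where
  carrier := {t | ∀ i, ∑ j, A i j * t j = 0}
  zero_mem' := by intro i; simp
  add_mem' := by
    intro a b ha hb i
    simp only [Pi.add_apply, mul_add, Finset.sum_add_distrib]
    rw [ha i, hb i, add_zero]
  smul_mem' := by
    intro c a ha i
    simp only [Pi.smul_apply, smul_eq_mul]
    have : ∑ j, A i j * (c * a j) = c * ∑ j, A i j * a j := by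
      rw [Finset.mul_sum]; exact Finset.sum_congr rfl fun j _ => by ring
    rw [this, ha i, mul_zero]

theorem mem_Sol {A : ι → n → K} {t : n → K} : t ∈ Sol A ↔ ∀ i, ∑ j, A i j * t j = 0 := Iff.rfl

theorem finrank_rows_add_finrank_sol (A : ι → n → K) :
    finrank K (rows A) + finrank K (Sol A) = Fintype.card n := by
  classical
  let Φ : (n → K) ≃ₗ[K] Dual K (n → K) := (Pi.basisFun K n).toDualEquiv
  have hΦ : ∀ s t : n → K, Φ s t = ∑ j, s j * t j := by
    intro s t
    have h2 : t = ∑ i, t i • (Pi.basisFun K n) i := by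
      funext j; simp [Finset.sum_apply, Pi.single_apply]
    conv_lhs => rw [h2]
    rw [map_sum]
    refine Finset.sum_congr rfl fun i _ => ?_
    rw [map_smul, Module.Basis.toDualEquiv_apply, Module.Basis.toDual_apply_left]
    simp [mul_comm]
  have h := Subspace.finrank_add_finrank_dualCoannihilator_eq ((rows A).map Φ.toLinearMap)
  have e1 : finrank K ((rows A).map Φ.toLinearMap) = finrank K (rows A) :=
    LinearEquiv.finrank_map_eq Φ (rows A)
  have e2 : ((rows A).map Φ.toLinearMap).dualCoannihilator = Sol A := by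
    ext t
    rw [Submodule.mem_dualCoannihilator, mem_Sol]
    constructor
    · intro h i
      rw [← hΦ]
      exact h _ ⟨A i, Submodule.subset_span ⟨i, rfl⟩, rfl⟩
    · rintro h φ ⟨s, hs, rfl⟩
      change Φ s t = 0
      refine Submodule.span_induction (p := fun s _ => Φ s t = 0) ?_ ?_ ?_ ?_ hs
      · rintro _ ⟨i, rfl⟩
        rw [hΦ]; exact h i
      · simp
      · intro a b _ _ ha hb
        rw [map_add, LinearMap.add_apply, ha, hb, add_zero]
      · intro c a _ ha
        rw [map_smul, LinearMap.smul_apply, ha, smul_zero]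
  rw [e1, e2, finrank_fintype_fun_eq_card] at h
  exact h

/-- a family of vectors of `K^n` of rank `≥ r` has an `r × r` minor `≠ 0` -/
theorem exists_minor (A : ι → n → K) {r : ℕ} (h : r ≤ finrank K (rows A)) :
    ∃ (f : Fin r → ι) (g : Fin r → n), (Matrix.of fun a b => A (f a) (g b)).det ≠ 0 := by
  classical
  obtain ⟨s, hs, -, hli⟩ := Submodule.exists_fun_fin_finrank_span_eq K (Set.range A)
  choose ρ hρ using hs
  let B : Matrix (Fin r) n K := Matrix.of fun a => A (ρ (Fin.castLE h a))
  have hB : LinearIndependent K B.row := by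
    have h1 : B.row = s ∘ Fin.castLE h := by
      funext a
      exact hρ _
    rw [h1]
    exact hli.comp _ (Fin.castLE_injective h)
  have hrB : B.rank = r := by
    rw [hB.rank_matrix, Fintype.card_fin]
  have hc : finrank K (Submodule.span K (Set.range B.col)) = r := by
    rw [← Matrix.rank_eq_finrank_span_cols]; exact hrB
  obtain ⟨t, ht, -, htl⟩ := Submodule.exists_fun_fin_finrank_span_eq K (Set.range B.col)
  choose γ hγ using ht
  refine ⟨fun a => ρ (Fin.castLE h a), fun b => γ (Fin.cast hc.symm b), ?_⟩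
  have h2 : LinearIndependent K (Matrix.of fun a b => A (ρ (Fin.castLE h a)) (γ (Fin.cast hc.symm b))).col := by
    have h3 : (Matrix.of fun a b => A (ρ (Fin.castLE h a)) (γ (Fin.cast hc.symm b))).col =
        t ∘ Fin.cast hc.symm := by
      funext b
      exact hγ _
    rw [h3]
    exact htl.comp _ (Fin.cast_injective _)
  have h4 := Matrix.linearIndependent_cols_iff_isUnit.1 h2
  exact ((Matrix.isUnit_iff_isUnit_det _).1 h4).ne_zero

theorem le_rank_of_minor (A : ι → n → K) {r : ℕ} (f : Fin r → ι) (g : Fin r → n)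
    (h : (Matrix.of fun a b => A (f a) (g b)).det ≠ 0) : r ≤ finrank K (rows A) := by
  classical
  have h1 : LinearIndependent K (Matrix.of fun a b => A (f a) (g b)).row :=
    Matrix.linearIndependent_rows_iff_isUnit.2 ((Matrix.isUnit_iff_isUnit_det _).2 h.isUnit)
  have h2 : LinearIndependent K (fun a => A (f a)) := by
    refine LinearIndependent.of_comp (LinearMap.funLeft K K g) ?_
    exact h1
  have h3 := finrank_span_eq_card h2
  rw [Fintype.card_fin] at h3
  calc r = finrank K (Submodule.span K (Set.range fun a => A (f a))) := h3.symm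
    _ ≤ finrank K (rows A) := Submodule.finrank_mono (Submodule.span_mono (by
        rintro _ ⟨a, rfl⟩; exact ⟨f a, rfl⟩))

theorem minor_iff (A : ι → n → K) (r : ℕ) :
    r ≤ finrank K (rows A) ↔
      ∃ (f : Fin r → ι) (g : Fin r → n), (Matrix.of fun a b => A (f a) (g b)).det ≠ 0 :=
  ⟨exists_minor A, fun ⟨f, g, h⟩ => le_rank_of_minor A f g h⟩

theorem rank_eq_finrank_rows {m : Type v} [Fintype m] (M : Matrix m n K) :
    M.rank = finrank K (rows (fun i => M i)) := by
  rw [Matrix.rank_eq_finrank_span_row]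
  rfl

end Lin

/-! ### Nullstellensatz -/

section Nss

variable {k : Type u} [Field k] {K : Type z} [Field K] [IsAlgClosed K] [Algebra k K]
variable {σ : Type v} [Finite σ]

variable (K) in
/-- a polynomial which vanishes at all `K`-points of `V(E)` vanishes at all points of `V(E)` with values in
a reduced `k`-algebra -/
theorem nss_transfer {E : Set (MvPolynomial σ k)} {b : MvPolynomial σ k}
    (h : ∀ v : σ → K, (∀ p ∈ E, aeval v p = 0) → aeval v b = 0)
    {R : Type w} [CommRing R] [IsReduced R] [Algebra k R] (v : σ → R) (hv : ∀ p ∈ E, aeval v p = 0) :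
    aeval v b = 0 := by
  have h1 : b ∈ vanishingIdeal k (zeroLocus K (Ideal.span E)) := by
    rw [mem_vanishingIdeal_iff]
    intro x hx
    rw [zeroLocus_span] at hx
    exact h x hx
  rw [vanishingIdeal_zeroLocus_eq_radical] at h1
  obtain ⟨N, hN⟩ := h1
  have h2 : ∀ p ∈ Ideal.span E, aeval v p = 0 := by
    intro p hp
    have : Ideal.span E ≤ RingHom.ker (aeval v : MvPolynomial σ k →ₐ[k] R) :=
      Ideal.span_le.2 fun p hp => hv p hp
    exact this hp
  have h3 := h2 _ hN
  rw [map_pow] at h3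
  exact eq_zero_of_pow_eq_zero h3

variable (K) in
/-- version with a side condition and a set of polynomials one of which is non-zero -/
theorem exists_ne_transfer {E S B : Set (MvPolynomial σ k)}
    (h : ∀ v : σ → K, (∀ p ∈ E, aeval v p = 0) → (∃ b ∈ B, aeval v b ≠ 0) → ∃ m ∈ S, aeval v m ≠ 0)
    {R : Type w} [CommRing R] [IsReduced R] [Algebra k R] (v : σ → R) (hv : ∀ p ∈ E, aeval v p = 0)
    (hB : ∃ b ∈ B, aeval v b ≠ 0) : ∃ m ∈ S, aeval v m ≠ 0 := by
  by_contra hcon
  have hcon' : ∀ m ∈ S, aeval v m = 0 := fun m hm => by_contra fun h0 => hcon ⟨m, hm, h0⟩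
  obtain ⟨b, hb, hb0⟩ := hB
  refine hb0 (nss_transfer K (E := E ∪ S) (b := b) ?_ v ?_)
  · intro x hx
    by_contra hbx
    obtain ⟨m, hm, hm0⟩ := h x (fun p hp => hx p (Or.inl hp)) ⟨b, hb, hbx⟩
    exact hm0 (hx m (Or.inr hm))
  · rintro p (hp | hp)
    · exact hv p hp
    · exact hcon' p hp

variable (K) in
/-- version with a side condition -/
theorem eq_zero_transfer {E B : Set (MvPolynomial σ k)} {m : MvPolynomial σ k}
    (h : ∀ v : σ → K, (∀ p ∈ E, aeval v p = 0) → (∃ b ∈ B, aeval v b ≠ 0) → aeval v m = 0)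
    {κ : Type w} [CommRing κ] [IsDomain κ] [Algebra k κ] (v : σ → κ) (hv : ∀ p ∈ E, aeval v p = 0)
    (hB : ∃ b ∈ B, aeval v b ≠ 0) : aeval v m = 0 := by
  obtain ⟨b, hb, hb0⟩ := hB
  have h1 : aeval v (m * b) = 0 := by
    refine nss_transfer K (E := E) ?_ v hv
    intro x hx
    rw [map_mul]
    by_cases hbx : aeval x b = 0
    · rw [hbx, mul_zero]
    · rw [h x hx ⟨b, hb, hbx⟩, zero_mul]
  rw [map_mul] at h1
  exact (mul_eq_zero.1 h1).resolve_right hb0

variable (K) in
/-- if `V(E) \ V(B)` has a point over a reduced `k`-algebra then it has a `K`-point -/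
theorem exists_point {E B : Set (MvPolynomial σ k)}
    {R : Type w} [CommRing R] [IsReduced R] [Algebra k R] (v : σ → R) (hv : ∀ p ∈ E, aeval v p = 0)
    (hB : ∃ b ∈ B, aeval v b ≠ 0) :
    ∃ x : σ → K, (∀ p ∈ E, aeval x p = 0) ∧ ∃ b ∈ B, aeval x b ≠ 0 := by
  by_contra hcon
  obtain ⟨b, hb, hb0⟩ := hB
  exact hb0 (nss_transfer K (E := E) (fun x hx => by_contra fun h0 => hcon ⟨x, hx, b, hb, h0⟩) v hv)

end Nss

section Sys

variable {k : Type u} [Field k] {σ : Type v} {ι : Type x} {n : Type y}

/-- the system of rows evaluated at a point -/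
noncomputable def ev {R : Type w} [CommRing R] [Algebra k R] (L : ι → n → MvPolynomial σ k) (v : σ → R) :
    ι → n → R :=
  fun i j => aeval v (L i j)

theorem det_ev {R : Type w} [CommRing R] [Algebra k R] (L : ι → n → MvPolynomial σ k) (v : σ → R) {r : ℕ}
    (f : Fin r → ι) (g : Fin r → n) :
    (Matrix.of fun a b => ev L v (f a) (g b)).det = aeval v (Matrix.of fun a b => L (f a) (g b)).det := by
  rw [AlgHom.map_det]
  rfl

variable {K : Type z} [Field K] [IsAlgClosed K] [Algebra k K] [Finite σ] [Fintype n]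
variable {E B : Set (MvPolynomial σ k)} {L : ι → n → MvPolynomial σ k} {r : ℕ}
variable {κ : Type w} [Field κ] [Algebra k κ]

variable (K) in
/-- lower bounds of the rank of a system of polynomial rows -/
theorem rows_ge_transfer
    (h : ∀ v : σ → K, (∀ p ∈ E, aeval v p = 0) → (∃ b ∈ B, aeval v b ≠ 0) → r ≤ finrank K (rows (ev L v)))
    (v : σ → κ) (hv : ∀ p ∈ E, aeval v p = 0) (hB : ∃ b ∈ B, aeval v b ≠ 0) :
    r ≤ finrank κ (rows (ev L v)) := by
  obtain ⟨m, ⟨⟨f, g⟩, rfl⟩, hm⟩ := exists_ne_transfer K (E := E) (B := B)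
    (S := Set.range fun fg : (Fin r → ι) × (Fin r → n) =>
      (Matrix.of fun a b => L (fg.1 a) (fg.2 b)).det)
    (fun x hx hb => by
      obtain ⟨f, g, hfg⟩ := exists_minor _ (h x hx hb)
      refine ⟨_, ⟨(f, g), rfl⟩, ?_⟩
      rw [det_ev] at hfg
      exact hfg) v hv hB
  refine le_rank_of_minor _ f g ?_
  rw [det_ev]
  exact hm

variable (K) in
/-- upper bounds of the rank of a system of polynomial rows -/
theorem rows_le_transfer
    (h : ∀ v : σ → K, (∀ p ∈ E, aeval v p = 0) → (∃ b ∈ B, aeval v b ≠ 0) → finrank K (rows (ev L v)) ≤ r)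
    (v : σ → κ) (hv : ∀ p ∈ E, aeval v p = 0) (hB : ∃ b ∈ B, aeval v b ≠ 0) :
    finrank κ (rows (ev L v)) ≤ r := by
  by_contra hcon
  obtain ⟨f, g, hfg⟩ := exists_minor (ev L v) (r := r + 1) (by omega)
  rw [det_ev] at hfg
  refine hfg (eq_zero_transfer K (E := E) (B := B) ?_ v hv hB)
  intro x hx hb
  by_contra h0
  have h1 : r + 1 ≤ finrank K (rows (ev L x)) :=
    le_rank_of_minor _ f g (by rw [det_ev]; exact h0)
  have h2 := h x hx hb
  omega

variable (K) in
theorem rows_eq_transfer
    (h : ∀ v : σ → K, (∀ p ∈ E, aeval v p = 0) → (∃ b ∈ B, aeval v b ≠ 0) → finrank K (rows (ev L v)) = r)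
    (v : σ → κ) (hv : ∀ p ∈ E, aeval v p = 0) (hB : ∃ b ∈ B, aeval v b ≠ 0) :
    finrank κ (rows (ev L v)) = r :=
  le_antisymm (rows_le_transfer K (fun x h1 h2 => (h x h1 h2).le) v hv hB)
    (rows_ge_transfer K (fun x h1 h2 => (h x h1 h2).ge) v hv hB)

variable (K) in
theorem sol_le_transfer
    (h : ∀ v : σ → K, (∀ p ∈ E, aeval v p = 0) → (∃ b ∈ B, aeval v b ≠ 0) → finrank K (Sol (ev L v)) ≤ r)
    (v : σ → κ) (hv : ∀ p ∈ E, aeval v p = 0) (hB : ∃ b ∈ B, aeval v b ≠ 0) :
    finrank κ (Sol (ev L v)) ≤ r := by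
  have h1 : Fintype.card n - r ≤ finrank κ (rows (ev L v)) := by
    refine rows_ge_transfer K (E := E) (B := B) (fun x h1 h2 => ?_) v hv hB
    have h3 := h x h1 h2
    have h4 := finrank_rows_add_finrank_sol (ev L x)
    omega
  have h4 := finrank_rows_add_finrank_sol (ev L v)
  omega

variable (K) in
theorem sol_ge_transfer
    (h : ∀ v : σ → K, (∀ p ∈ E, aeval v p = 0) → (∃ b ∈ B, aeval v b ≠ 0) → r ≤ finrank K (Sol (ev L v)))
    (v : σ → κ) (hv : ∀ p ∈ E, aeval v p = 0) (hB : ∃ b ∈ B, aeval v b ≠ 0) :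
    r ≤ finrank κ (Sol (ev L v)) := by
  have hr : r ≤ Fintype.card n := by
    obtain ⟨x, hx, hb⟩ := exists_point K v hv hB
    have h4 := finrank_rows_add_finrank_sol (ev L x)
    have h5 := h x hx hb
    omega
  have h1 : finrank κ (rows (ev L v)) ≤ Fintype.card n - r := by
    refine rows_le_transfer K (E := E) (B := B) (fun x h1 h2 => ?_) v hv hB
    have h3 := h x h1 h2
    have h4 := finrank_rows_add_finrank_sol (ev L x)
    omega
  have h4 := finrank_rows_add_finrank_sol (ev L v)
  omega

variable (K) in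
theorem sol_eq_transfer
    (h : ∀ v : σ → K, (∀ p ∈ E, aeval v p = 0) → (∃ b ∈ B, aeval v b ≠ 0) → finrank K (Sol (ev L v)) = r)
    (v : σ → κ) (hv : ∀ p ∈ E, aeval v p = 0) (hB : ∃ b ∈ B, aeval v b ≠ 0) :
    finrank κ (Sol (ev L v)) = r :=
  le_antisymm (sol_le_transfer K (fun x h1 h2 => (h x h1 h2).le) v hv hB)
    (sol_ge_transfer K (fun x h1 h2 => (h x h1 h2).ge) v hv hB)

end Sys

/-! ### matrices -/

section Mat

variable {k : Type u} [Field k] {σ : Type v} {m : Type x} {n : Type y} [Fintype m] [Fintype n]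
variable {M : Matrix m n (MvPolynomial σ k)} {r : ℕ}

theorem rank_map_aeval {κ : Type w} [Field κ] [Algebra k κ] (v : σ → κ) :
    (M.map (aeval v)).rank = finrank κ (rows (ev (fun i j => M i j) v)) := by
  rw [rank_eq_finrank_rows]
  rfl

variable {K : Type z} [Field K] [IsAlgClosed K] [Algebra k K] [Finite σ]
variable {E B : Set (MvPolynomial σ k)} {κ : Type w} [Field κ] [Algebra k κ]

variable (K) in
theorem rank_ge_transfer
    (h : ∀ v : σ → K, (∀ p ∈ E, aeval v p = 0) → (∃ b ∈ B, aeval v b ≠ 0) → r ≤ (M.map (aeval v)).rank)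
    (v : σ → κ) (hv : ∀ p ∈ E, aeval v p = 0) (hB : ∃ b ∈ B, aeval v b ≠ 0) :
    r ≤ (M.map (aeval v)).rank := by
  rw [rank_map_aeval]
  exact rows_ge_transfer K (fun x h1 h2 => by rw [← rank_map_aeval]; exact h x h1 h2) v hv hB

variable (K) in
theorem rank_le_transfer
    (h : ∀ v : σ → K, (∀ p ∈ E, aeval v p = 0) → (∃ b ∈ B, aeval v b ≠ 0) → (M.map (aeval v)).rank ≤ r)
    (v : σ → κ) (hv : ∀ p ∈ E, aeval v p = 0) (hB : ∃ b ∈ B, aeval v b ≠ 0) :
    (M.map (aeval v)).rank ≤ r := by
  rw [rank_map_aeval]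
  exact rows_le_transfer K (fun x h1 h2 => by rw [← rank_map_aeval]; exact h x h1 h2) v hv hB

omit [Finite σ] in
/-- over `k` itself `aeval` is `eval` (to produce the hypotheses from statements with `eval`) -/
theorem aeval_self (v : σ → k) (p : MvPolynomial σ k) : aeval v p = eval v p := by
  rw [← coe_aeval_eq_eval]; rfl

end Mat

end Crest.Agent.R260.RkT_12
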