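import Mathlib

/-!
Row 260, leaf TW-Z (helper979), part 1: fibre algebra of the twistor space.

`nn w` is the null vector of `ℂ³` with stereographic coordinate `w`, `nd w` its derivative,
`xx w` the unit vector of `ℝ³` with `w = (x₁ + i x₂)/(1 + x₀)` (indices 0,1,2).
-/

set_option autoImplicit false

open Complex Matrix

noncomputable section

namespace Crest.Agent.R260.Tw_979

/-- the null vector `(-2w, 1 - w², i(1 + w²))` -/
def nn (w : ℂ) : Fin 3 → ℂ := ![-2 * w, 1 - w ^ 2, I * (1 + w ^ 2)]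

/-- derivative of `nn` -/
def nd (w : ℂ) : Fin 3 → ℂ := ![-2, -2 * w, 2 * I * w]

/-- `1 + |w|²` -/
def den (w : ℂ) : ℝ := 1 + normSq w

/-- the unit vector with stereographic coordinate `w` -/
def xx (w : ℂ) : Fin 3 → ℝ := ![(1 - normSq w) / den w, 2 * w.re / den w, 2 * w.im / den w]

lemma den_pos (w : ℂ) : 0 < den w := by
  unfold den; have := normSq_nonneg w; linarith

lemma den_ne (w : ℂ) : den w ≠ 0 := (den_pos w).ne'

/-- complex dot product on `ℂ³` -/
def dt (u v : Fin 3 → ℂ) : ℂ := u 0 * v 0 + u 1 * v 1 + u 2 * v 2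

/-- cross product on `R³` -/
def cr {R : Type*} [CommRing R] (u v : Fin 3 → R) : Fin 3 → R :=
  ![u 1 * v 2 - u 2 * v 1, u 2 * v 0 - u 0 * v 2, u 0 * v 1 - u 1 * v 0]

/-- complexification of a real vector -/
def cx (u : Fin 3 → ℝ) : Fin 3 → ℂ := fun a => (u a : ℂ)

lemma nn_nn (w : ℂ) : dt (nn w) (nn w) = 0 := by
  simp only [dt, nn, Matrix.cons_val_zero, Matrix.cons_val_one, Matrix.cons_val]
  linear_combination (1 + w ^ 2) ^ 2 * I_sq

lemma nn_nd (w : ℂ) : dt (nn w) (nd w) = 0 := by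
  simp only [dt, nn, nd, Matrix.cons_val_zero, Matrix.cons_val_one, Matrix.cons_val]
  linear_combination 2 * w * (1 + w ^ 2) * I_sq

lemma cr_nn_nd (w : ℂ) : cr (nn w) (nd w) = (-2 * I) • nn w := by
  funext a
  fin_cases a
  · simp [cr, nn, nd]; ring
  · simp [cr, nn, nd]; ring
  · simp [cr, nn, nd]; linear_combination (2 + 2 * w ^ 2) * I_sq

lemma normSq_eq (w : ℂ) : normSq w = w.re ^ 2 + w.im ^ 2 := by rw [normSq_apply]; ring

lemma xx_sq (w : ℂ) : xx w 0 ^ 2 + xx w 1 ^ 2 + xx w 2 ^ 2 = 1 := by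
  have h := den_ne w
  simp only [xx, Matrix.cons_val_zero, Matrix.cons_val_one, Matrix.cons_val]
  field_simp
  simp only [den, normSq_eq]
  ring

lemma cx_den (w : ℂ) : ((den w : ℝ) : ℂ) = 1 + w * (starRingEnd ℂ) w := by
  rw [mul_conj]; simp [den]

lemma cden_ne (w : ℂ) : (1 + w * (starRingEnd ℂ) w : ℂ) ≠ 0 := by
  rw [← cx_den]; exact_mod_cast den_ne w

lemma xx_c (w : ℂ) : cx (xx w) = (1 + w * (starRingEnd ℂ) w : ℂ)⁻¹ •
    ![1 - w * (starRingEnd ℂ) w, w + (starRingEnd ℂ) w, -I * (w - (starRingEnd ℂ) w)] := by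
  have h1 : w * (starRingEnd ℂ) w = ((normSq w : ℝ) : ℂ) := mul_conj w
  have h2 : w + (starRingEnd ℂ) w = ((2 * w.re : ℝ) : ℂ) := add_conj w
  have h3 : w - (starRingEnd ℂ) w = ((2 * w.im : ℝ) : ℂ) * I := sub_conj w
  rw [h1, h2, h3]
  have h4 : (1 + ((normSq w : ℝ) : ℂ)) = ((den w : ℝ) : ℂ) := by simp [den]
  rw [h4]
  funext a
  fin_cases a
  · simp [cx, xx]; ring
  · simp [cx, xx]; ring
  · simp [cx, xx]
    ring_nf
    simp [I_sq]

/-- `x · n = 0` -/
lemma xx_nn (w : ℂ) : dt (cx (xx w)) (nn w) = 0 := by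
  rw [xx_c]
  simp only [dt, nn, Pi.smul_apply, smul_eq_mul, Matrix.cons_val_zero, Matrix.cons_val_one,
    Matrix.cons_val]
  linear_combination (-(1 + w * (starRingEnd ℂ) w)⁻¹ * (w - (starRingEnd ℂ) w) * (1 + w ^ 2)) * I_sq

/-- `x × n = - i n` -/
lemma cr_xx_nn (w : ℂ) : cr (cx (xx w)) (nn w) = (-I) • nn w := by
  have h := cden_ne w
  rw [xx_c]
  set c := (starRingEnd ℂ) w with hc
  funext a
  fin_cases a
  · simp [cr, nn]; field_simp; ring
  · simp [cr, nn]; field_simp; ring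
  · simp [cr, nn]; field_simp; linear_combination (1 + w * c + w ^ 2 + w ^ 3 * c) * I_sq

/-- `(x · n')`-type identity: `x - w̄ n / (1+|w|²) = - n'/2` -/
lemma xx_sub (w : ℂ) : cx (xx w) - ((starRingEnd ℂ) w / (1 + w * (starRingEnd ℂ) w)) • nn w =
    (-(1 / 2 : ℂ)) • nd w := by
  have h := cden_ne w
  rw [xx_c]
  set c := (starRingEnd ℂ) w with hc
  funext a
  fin_cases a
  · simp [nn, nd]; field_simp; ring
  · simp [nn, nd]; field_simp; ring
  · simp [nn, nd]; field_simp; ring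

/-- quaternionic triples of elements in a real algebra -/
structure QT {A : Type*} [Ring A] (J : Fin 3 → A) : Prop where
  sq : ∀ a, J a * J a = -1
  m01 : J 0 * J 1 = J 2
  m10 : J 1 * J 0 = -J 2

namespace QT

variable {A : Type*} [Ring A] {J : Fin 3 → A}

lemma m12 (h : QT J) : J 1 * J 2 = J 0 := by
  rw [← h.m01, ← mul_assoc, h.m10, neg_mul, ← h.m01, mul_assoc, h.sq 1]; simp

lemma m21 (h : QT J) : J 2 * J 1 = -J 0 := by
  rw [← h.m01, mul_assoc, h.sq 1]; simp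

lemma m20 (h : QT J) : J 2 * J 0 = J 1 := by
  have : J 2 = -(J 1 * J 0) := by rw [h.m10]; simp
  rw [this, neg_mul, mul_assoc, h.sq 0]; simp

lemma m02 (h : QT J) : J 0 * J 2 = -J 1 := by
  rw [← h.m01, ← mul_assoc, h.sq 0]; simp

end QT

end Crest.Agent.R260.Tw_979
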