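import Mathlib
import Crest.Agent.R260.Tw1_979

/-!
Row 260, leaf TW-LINE (helper660), part 1: the null operators `N w = ∑ nn_a(w) J_a` of a
quaternionic triple of complex matrices (conventions of `Tw1_979`).

* `anti`   : `N u * N v + N v * N u = 4 (u - v)^2`
* `ker_eq_range`, `finrank_ker` : `ker (N w) = range (N w)`, of dimension `n/2`
* `inf_*`  : the operator `Ninf = ∑ ninf_a J_a` at `w = ∞`.
-/

set_option autoImplicit false

open Complex Matrix

noncomputable section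

namespace Crest.Agent.R260.TL_660

open Crest.Agent.R260.Tw_979

/-- the null vector at `w = ∞`: `lim w⁻² nn w` -/
def ninf : Fin 3 → ℂ := ![0, -1, I]

section alg

variable {A : Type*} [Ring A] [Algebra ℂ A] {J : Fin 3 → A}

/-- `u · J` -/
def dJ (u : Fin 3 → ℂ) (J : Fin 3 → A) : A := u 0 • J 0 + u 1 • J 1 + u 2 • J 2

lemma dJ_mul (h : QT J) (u v : Fin 3 → ℂ) :
    dJ u J * dJ v J = -(dt u v) • (1 : A) + dJ (cr u v) J := by
  have h0 := h.sq 0
  have h1 := h.sq 1
  have h2 := h.sq 2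
  simp only [dJ, add_mul, mul_add, smul_mul_smul_comm, h0, h1, h2, h.m01, h.m10, h.m12, h.m21,
    h.m20, h.m02, dt, cr, Matrix.cons_val_zero, Matrix.cons_val_one, Matrix.cons_val]
  module

lemma dJ_anti (h : QT J) (u v : Fin 3 → ℂ) :
    dJ u J * dJ v J + dJ v J * dJ u J = -(2 * dt u v) • (1 : A) := by
  rw [dJ_mul h, dJ_mul h]
  simp only [dJ, dt, cr, Matrix.cons_val_zero, Matrix.cons_val_one, Matrix.cons_val]
  module

lemma dJ_smul (c : ℂ) (u : Fin 3 → ℂ) : dJ (c • u) J = c • dJ u J := by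
  simp only [dJ, Pi.smul_apply, smul_eq_mul]; module

lemma dJ_add (u v : Fin 3 → ℂ) : dJ (u + v) J = dJ u J + dJ v J := by
  simp only [dJ, Pi.add_apply]; module

lemma dt_nn_nn (u v : ℂ) : dt (nn u) (nn v) = -2 * (u - v) ^ 2 := by
  simp only [dt, nn, Matrix.cons_val_zero, Matrix.cons_val_one, Matrix.cons_val]
  linear_combination (1 + u ^ 2) * (1 + v ^ 2) * I_sq

lemma dt_nn_ninf (u : ℂ) : dt (nn u) ninf = -2 := by
  simp only [dt, nn, ninf, Matrix.cons_val_zero, Matrix.cons_val_one, Matrix.cons_val]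
  linear_combination (1 + u ^ 2) * I_sq

lemma dt_ninf : dt ninf ninf = 0 := by
  simp only [dt, ninf, Matrix.cons_val_zero, Matrix.cons_val_one, Matrix.cons_val]
  linear_combination I_sq

/-- `N u N v + N v N u = 4 (u - v)²` -/
lemma anti (h : QT J) (u v : ℂ) :
    dJ (nn u) J * dJ (nn v) J + dJ (nn v) J * dJ (nn u) J = (4 * (u - v) ^ 2) • (1 : A) := by
  rw [dJ_anti h, dt_nn_nn]; congr 1; ring

lemma anti_inf (h : QT J) (u : ℂ) :
    dJ (nn u) J * dJ ninf J + dJ ninf J * dJ (nn u) J = (4 : ℂ) • (1 : A) := by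
  rw [dJ_anti h, dt_nn_ninf]; congr 1; ring

lemma cr_self (u : Fin 3 → ℂ) : cr u u = 0 := by
  funext a
  fin_cases a
  · simp [cr]; ring
  · simp [cr]; ring
  · simp [cr]; ring

lemma dJ_zero : dJ (0 : Fin 3 → ℂ) J = 0 := by simp [dJ]

lemma N_sq (h : QT J) (u : ℂ) : dJ (nn u) J * dJ (nn u) J = 0 := by
  rw [dJ_mul h, nn_nn, cr_self, dJ_zero]; simp

lemma Ninf_sq (h : QT J) : dJ ninf J * dJ ninf J = 0 := by
  rw [dJ_mul h, dt_ninf, cr_self, dJ_zero]; simp

end alg

section lin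

variable {V : Type*} [AddCommGroup V] [Module ℂ V] {P Q : V →ₗ[ℂ] V}

/-- `P² = Q² = 0`, `PQ + QP = c ≠ 0`: kernels are complementary and equal to the ranges -/
lemma ker_eq_range {c : ℂ} (hc : c ≠ 0) (hP : P * P = 0) (hPQ : P * Q + Q * P = c • 1) :
    LinearMap.ker P = LinearMap.range P := by
  ext X
  constructor
  · intro hX
    have hX' : P X = 0 := hX
    have := LinearMap.congr_fun hPQ X
    simp only [LinearMap.add_apply, Module.End.mul_apply, hX', map_zero, add_zero,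
      LinearMap.smul_apply, Module.End.one_apply] at this
    refine ⟨c⁻¹ • Q X, ?_⟩
    rw [map_smul, this, smul_smul, inv_mul_cancel₀ hc, one_smul]
  · rintro ⟨Y, rfl⟩
    have := LinearMap.congr_fun hP Y
    simpa using this

lemma ker_inf_ker {c : ℂ} (hc : c ≠ 0) (hPQ : P * Q + Q * P = c • 1) :
    LinearMap.ker P ⊓ LinearMap.ker Q = ⊥ := by
  rw [eq_bot_iff]
  rintro X ⟨h1, h2⟩
  have h1' : P X = 0 := h1
  have h2' : Q X = 0 := h2
  have := LinearMap.congr_fun hPQ X
  simp only [LinearMap.add_apply, Module.End.mul_apply, h1', h2', map_zero, add_zero,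
      LinearMap.smul_apply, Module.End.one_apply] at this
  have := this.symm
  rw [smul_eq_zero] at this
  rcases this with h | h
  · exact absurd h hc
  · simpa using h

lemma finrank_ker [FiniteDimensional ℂ V] {c : ℂ} (hc : c ≠ 0) (hP : P * P = 0)
    (hPQ : P * Q + Q * P = c • 1) :
    2 * Module.finrank ℂ (LinearMap.ker P) = Module.finrank ℂ V := by
  have h := LinearMap.finrank_range_add_finrank_ker P
  rw [← ker_eq_range hc hP hPQ] at h
  omega

end lin

section quat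

variable {V : Type*} [AddCommGroup V] [Module ℂ V] {J : Fin 3 → (V →ₗ[ℂ] V)}

/-- the operator `N w` -/
def N (J : Fin 3 → (V →ₗ[ℂ] V)) (w : ℂ) : V →ₗ[ℂ] V := dJ (nn w) J

/-- the operator at `w = ∞` -/
def Ninf (J : Fin 3 → (V →ₗ[ℂ] V)) : V →ₗ[ℂ] V := dJ ninf J

lemma ker_N_inf (h : QT J) {u v : ℂ} (huv : u ≠ v) :
    LinearMap.ker (N J u) ⊓ LinearMap.ker (N J v) = ⊥ :=
  ker_inf_ker (c := 4 * (u - v) ^ 2)
    (mul_ne_zero (by norm_num) (pow_ne_zero 2 (sub_ne_zero.2 huv))) (anti h u v)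

lemma ker_N_Ninf (h : QT J) (u : ℂ) :
    LinearMap.ker (N J u) ⊓ LinearMap.ker (Ninf J) = ⊥ :=
  ker_inf_ker (c := 4) (by norm_num) (anti_inf h u)

lemma ker_N_eq (h : QT J) (u : ℂ) : LinearMap.ker (N J u) = LinearMap.range (N J u) :=
  ker_eq_range (c := 4) (by norm_num) (N_sq h u) (anti_inf h u)

lemma finrank_ker_N [FiniteDimensional ℂ V] (h : QT J) (u : ℂ) :
    2 * Module.finrank ℂ (LinearMap.ker (N J u)) = Module.finrank ℂ V :=
  finrank_ker (c := 4) (by norm_num) (N_sq h u) (anti_inf h u)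

lemma finrank_ker_Ninf [FiniteDimensional ℂ V] (h : QT J) :
    2 * Module.finrank ℂ (LinearMap.ker (Ninf J)) = Module.finrank ℂ V :=
  finrank_ker (c := 4) (by norm_num) (Ninf_sq h) (by rw [add_comm]; exact anti_inf h 0)

lemma ker_Ninf_eq (h : QT J) : LinearMap.ker (Ninf J) = LinearMap.range (Ninf J) :=
  ker_eq_range (c := 4) (by norm_num) (Ninf_sq h) (by rw [add_comm]; exact anti_inf h 0)

end quat

end Crest.Agent.R260.TL_660
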