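import Mathlib
import Crest.Agent.R260.TL1_660

/-!
Row 260, leaf TW-LINE (helper660), part 2: the frame of degree `-1` of the tangent bundle of the
cone along a twistor line, from the horizontal derivative `D` of the tuple `H` of the line.

`LineData` : `H` the tuple of polynomials of the line (block degrees `d i`), `D X` the derivative
of the tuple in the constant direction `X ∈ V = T_p M ⊗ ℂ` (covariant, a section again).
Input: `D X` vanishes at `w` for `X ∈ ker (N w)` (the equation `∂̄ s = 0`), and the immersion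
property at `w` and `∞`.
Output: `LineData.inf` (vanishing at `∞`), `LineData.frame_at`, `LineData.frame_inf`.
-/

set_option autoImplicit false

open Complex Matrix Polynomial

noncomputable section

namespace Crest.Agent.R260.TL_660

open Crest.Agent.R260.Tw_979

variable {V : Type*} [AddCommGroup V] [Module ℂ V] {I : Type*} {T : I → Type*}

/-- the tuple of a twistor line and its horizontal derivatives -/
structure LineData (J : Fin 3 → (V →ₗ[ℂ] V)) (d : I → ℕ) (H : ∀ i, T i → ℂ[X])
    (D : V →ₗ[ℂ] (∀ i, T i → ℂ[X])) : Prop where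
  qt : QT J
  pos : ∀ i, 1 ≤ d i
  degH : ∀ i a, (H i a).natDegree ≤ d i
  degD : ∀ X i a, (D X i a).natDegree ≤ d i
  hol : ∀ w X, N J w X = 0 → ∀ i a, (D X i a).eval w = 0
  imm : ∀ (w : ℂ) (X : V) (η : ℂ) (c : I → ℂ),
    (∀ i a, (D X i a).eval w + η * (H i a).derivative.eval w + c i * (H i a).eval w = 0) →
    N J w X = 0 ∧ η = 0 ∧ c = 0
  imm_inf : ∀ (X : V) (η : ℂ) (c : I → ℂ),
    (∀ i a, (D X i a).coeff (d i) + η * (H i a).coeff (d i - 1) + c i * (H i a).coeff (d i) = 0) →
    Ninf J X = 0 ∧ η = 0 ∧ c = 0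

namespace LineData

variable {J : Fin 3 → (V →ₗ[ℂ] V)} {d : I → ℕ} {H : ∀ i, T i → ℂ[X]}
  {D : V →ₗ[ℂ] (∀ i, T i → ℂ[X])}

lemma N_eq (w : ℂ) : N J w = dJ ![0, 1, Complex.I] J + w • ((-2 : ℂ) • J 0) + w ^ 2 • Ninf J := by
  simp only [N, Ninf, dJ, nn, ninf, Matrix.cons_val_zero, Matrix.cons_val_one, Matrix.cons_val]
  module

/-- the polynomial identity `D (N w Y) (w) = 0` -/
lemma ident (h : LineData J d H D) (Y : V) (i : I) (a : T i) :
    D (dJ ![0, 1, Complex.I] J Y) i a + X * D ((-2 : ℂ) • J 0 Y) i a + X ^ 2 * D (Ninf J Y) i a = 0 := by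
  apply Polynomial.funext
  intro w
  have h1 : N J w (N J w Y) = 0 := by
    have := LinearMap.congr_fun (N_sq h.qt w) Y
    simpa [N] using this
  have h2 := h.hol w _ h1 i a
  rw [N_eq w] at h2
  simp only [LinearMap.add_apply, LinearMap.smul_apply, map_add, map_smul, Pi.add_apply,
    Pi.smul_apply, eval_add, eval_smul, smul_eq_mul] at h2
  simp only [eval_add, eval_mul, eval_X, eval_pow, map_smul, Pi.smul_apply, eval_smul,
    smul_eq_mul, eval_zero]
  exact h2

/-- `D X` vanishes at `∞` for `X ∈ ker Ninf` -/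
lemma inf (h : LineData J d H D) {X : V} (hX : Ninf J X = 0) (i : I) (a : T i) :
    (D X i a).coeff (d i) = 0 := by
  have : X ∈ LinearMap.range (Ninf J) := by rw [← ker_Ninf_eq h.qt]; exact hX
  obtain ⟨Y, rfl⟩ := this
  have h1 := congrArg (fun p => p.coeff (d i + 2)) (h.ident Y i a)
  simp only [coeff_add, coeff_zero] at h1
  rw [coeff_eq_zero_of_natDegree_lt (lt_of_le_of_lt (h.degD _ i a) (by omega)),
    show d i + 2 = (d i + 1) + 1 from rfl, coeff_X_mul,
    coeff_eq_zero_of_natDegree_lt (lt_of_le_of_lt (h.degD _ i a) (by omega)),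
    show d i + 1 + 1 = d i + 2 from rfl, coeff_X_pow_mul] at h1
  simpa using h1

lemma deg (h : LineData J d H D) {X : V} (hX : Ninf J X = 0) (i : I) (a : T i) :
    (D X i a).natDegree ≤ d i - 1 := by
  rw [natDegree_le_iff_coeff_eq_zero]
  intro N hN
  rcases Nat.lt_or_ge (d i) N with h1 | h1
  · exact coeff_eq_zero_of_natDegree_lt (lt_of_le_of_lt (h.degD _ i a) h1)
  · have : N = d i := by have := h.pos i; omega
    rw [this]; exact h.inf hX i a

/-- leading coefficients of `D X`, `X ∈ ker Ninf` -/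
lemma coeff_top (h : LineData J d H D) (Y : V) (i : I) (a : T i) :
    (D (Ninf J Y) i a).coeff (d i - 1) = -(D ((-2 : ℂ) • J 0 Y) i a).coeff (d i) := by
  have hp := h.pos i
  have h1 := congrArg (fun p => p.coeff (d i + 1)) (h.ident Y i a)
  simp only [coeff_add, coeff_zero] at h1
  rw [coeff_eq_zero_of_natDegree_lt (lt_of_le_of_lt (h.degD _ i a) (by omega)),
    coeff_X_mul, show d i + 1 = (d i - 1) + 2 by omega, coeff_X_pow_mul] at h1
  linear_combination h1

/-- independence at a finite point -/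
theorem frame_at (h : LineData J d H D) (w : ℂ) {X : V} (hX : Ninf J X = 0) {η : ℂ} {c : I → ℂ}
    (h0 : ∀ i a, (D X i a).eval w + η * (H i a).derivative.eval w + c i * (H i a).eval w = 0) :
    X = 0 ∧ η = 0 ∧ c = 0 := by
  obtain ⟨h1, h2, h3⟩ := h.imm w X η c h0
  refine ⟨?_, h2, h3⟩
  have : X ∈ LinearMap.ker (N J w) ⊓ LinearMap.ker (Ninf J) := ⟨h1, hX⟩
  rw [ker_N_Ninf h.qt w] at this
  simpa using this

/-- independence at `∞` -/
theorem frame_inf (h : LineData J d H D) {X : V} (hX : Ninf J X = 0) {η : ℂ} {c : I → ℂ}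
    (h0 : ∀ i a, (D X i a).coeff (d i - 1) + η * (H i a).coeff (d i - 1) +
      c i * (H i a).coeff (d i) = 0) :
    X = 0 ∧ η = 0 ∧ c = 0 := by
  have : X ∈ LinearMap.range (Ninf J) := by rw [← ker_Ninf_eq h.qt]; exact hX
  obtain ⟨Y, rfl⟩ := this
  obtain ⟨h1, h2, h3⟩ := h.imm_inf (-((-2 : ℂ) • J 0 Y)) η c (by
    intro i a
    have := h0 i a
    rw [h.coeff_top] at this
    rw [map_neg, Pi.neg_apply, Pi.neg_apply, coeff_neg]
    exact this)
  refine ⟨?_, h2, h3⟩
  have h4 : Ninf J (J 0 Y) = 0 := by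
    rw [map_neg, map_smul, neg_eq_zero, smul_eq_zero] at h1
    rcases h1 with h1 | h1
    · norm_num at h1
    · exact h1
  have h5 : Ninf J * J 0 + J 0 * Ninf J = 0 := by
    simp only [Ninf, dJ, ninf, Matrix.cons_val_zero, Matrix.cons_val_one, Matrix.cons_val,
      add_mul, mul_add, smul_mul_assoc, mul_smul_comm, h.qt.m10, h.qt.m01, h.qt.m20, h.qt.m02,
      zero_smul, zero_mul, mul_zero]
    module
  have h6 := LinearMap.congr_fun h5 Y
  simp only [LinearMap.add_apply, Module.End.mul_apply, h4, zero_add, LinearMap.zero_apply] at h6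
  have h7 := LinearMap.congr_fun (h.qt.sq 0) (Ninf J Y)
  simp only [Module.End.mul_apply, h6, map_zero, LinearMap.neg_apply, Module.End.one_apply] at h7
  exact neg_eq_zero.1 h7.symm

end LineData

end Crest.Agent.R260.TL_660
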