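import Mathlib

/-! Row 260, TR-DIM: points of small transcendence degree over a countable field have small
Hausdorff dimension.  (helper816)

`Small k d z` : the tuple `z : ι → ℂ` has transcendence degree at most `d` over `k`.
-/

namespace Crest.Agent.R260.TrDim1_816

open Set Function Topology Module Algebra
open scoped ENNReal NNReal

/-! ## 1. locally antilipschitz maps and Hausdorff dimension -/

section Anti
variable {X Y : Type*} [EMetricSpace X] [EMetricSpace Y]

/-- an antilipschitz map on a set does not lower the dimension. -/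
theorem dimH_le_of_anti {t : Set X} {f : X → Y} {K : ℝ≥0}
    (h : ∀ x ∈ t, ∀ y ∈ t, edist x y ≤ K * edist (f x) (f y)) :
    dimH t ≤ dimH (f '' t) := by
  have h1 : AntilipschitzWith K (fun x : t => f x) := fun x y => h x x.2 y y.2
  have h2 := h1.le_dimH_image (Set.univ : Set t)
  have h3 : dimH (Set.univ : Set t) = dimH t := by
    have := (isometry_subtype_coe (s := t)).dimH_image (Set.univ : Set t)
    rw [image_univ, Subtype.range_coe] at this
    exact this.symm
  have h4 : (fun x : t => f x) '' Set.univ = f '' t := by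
    rw [image_univ]; exact (image_eq_range f t).symm
  rw [h3, h4] at h2
  exact h2

/-- a locally antilipschitz map on a set does not lower the dimension. -/
theorem dimH_le_of_locally_anti [SecondCountableTopology X] {A : Set X} {f : X → Y}
    (h : ∀ x ∈ A, ∃ K : ℝ≥0, ∃ t ∈ 𝓝[A] x, ∀ y ∈ t, ∀ z ∈ t,
      edist y z ≤ K * edist (f y) (f z)) :
    dimH A ≤ dimH (f '' A) := by
  by_contra hcon
  push Not at hcon
  obtain ⟨x, hx, hxt⟩ := exists_mem_nhdsWithin_lt_dimH_of_lt_dimH hcon
  obtain ⟨K, t, ht, hK⟩ := h x hx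
  have h1 : t ∩ A ∈ 𝓝[A] x := Filter.inter_mem ht self_mem_nhdsWithin
  have h2 := hxt _ h1
  have h3 : dimH (t ∩ A) ≤ dimH (f '' (t ∩ A)) :=
    dimH_le_of_anti (K := K) fun y hy z hz => hK y hy.1 z hz.1
  have h4 : dimH (f '' (t ∩ A)) ≤ dimH (f '' A) := dimH_mono (image_mono inter_subset_right)
  exact absurd (h2.trans_le (h3.trans h4)) (lt_irrefl _)

end Anti

section Imm
variable {E F : Type*} [NormedAddCommGroup E] [NormedSpace ℝ E] [FiniteDimensional ℝ E]
  [NormedAddCommGroup F] [NormedSpace ℝ F]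

/-- a map with injective strict derivative is locally antilipschitz. -/
theorem anti_of_strict {f : E → F} {f' : E →L[ℝ] F} {x : E} (hf : HasStrictFDerivAt f f' x)
    (hinj : Injective f') :
    ∃ K : ℝ≥0, ∃ t ∈ 𝓝 x, ∀ y ∈ t, ∀ z ∈ t, edist y z ≤ K * edist (f y) (f z) := by
  obtain ⟨K, hKpos, hK⟩ := (f' : E →ₗ[ℝ] F).exists_antilipschitzWith
    (LinearMap.ker_eq_bot.2 hinj)
  have hKn : ∀ v : E, ‖v‖ ≤ K * ‖f' v‖ := fun v => by
    have := hK.le_mul_dist v 0
    simpa using this
  have hKpos' : (0 : ℝ) < K := by exact_mod_cast hKpos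
  have hc : (0 : ℝ) < 1 / (2 * K) := by positivity
  have hs := (hasStrictFDerivAt_iff_isLittleO.1 hf).def hc
  rw [nhds_prod_eq] at hs
  obtain ⟨t, ht, htt⟩ := Filter.mem_prod_self_iff.1 hs
  refine ⟨2 * K, t, ht, fun y hy z hz => ?_⟩
  have h1 : ‖f y - f z - f' (y - z)‖ ≤ 1 / (2 * K) * ‖y - z‖ := htt (Set.mk_mem_prod hy hz)
  have h2 : ‖y - z‖ ≤ 2 * K * ‖f y - f z‖ := by
    have h3 : ‖f' (y - z)‖ ≤ ‖f y - f z‖ + 1 / (2 * K) * ‖y - z‖ := by
      have h4 : f' (y - z) = (f y - f z) - (f y - f z - f' (y - z)) := by abel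
      calc ‖f' (y - z)‖ = ‖(f y - f z) - (f y - f z - f' (y - z))‖ := by rw [← h4]
        _ ≤ ‖f y - f z‖ + ‖f y - f z - f' (y - z)‖ := norm_sub_le _ _
        _ ≤ _ := by gcongr
    have h5 := hKn (y - z)
    have h6 : K * ‖f' (y - z)‖ ≤ K * (‖f y - f z‖ + 1 / (2 * K) * ‖y - z‖) := by gcongr
    have h7 : (K : ℝ) * (‖f y - f z‖ + 1 / (2 * K) * ‖y - z‖)
        = K * ‖f y - f z‖ + ‖y - z‖ / 2 := by field_simp
    linarith
  rw [edist_nndist, edist_nndist, ← ENNReal.coe_mul, ENNReal.coe_le_coe]
  rw [← NNReal.coe_le_coe]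
  push_cast
  rw [dist_eq_norm, dist_eq_norm]
  exact h2

/-- an immersion does not lower the dimension of sets: dimension of the preimage. -/
theorem dimH_le_of_immersion [SecondCountableTopology E] {f : E → F} {A : Set E}
    (h : ∀ x ∈ A, ∃ f' : E →L[ℝ] F, HasStrictFDerivAt f f' x ∧ Injective f') :
    dimH A ≤ dimH (f '' A) := by
  refine dimH_le_of_locally_anti fun x hx => ?_
  obtain ⟨f', h1, h2⟩ := h x hx
  obtain ⟨K, t, ht, hK⟩ := anti_of_strict h1 h2
  exact ⟨K, t, mem_nhdsWithin_of_mem_nhds ht, hK⟩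

end Imm

/-! ## 2. polynomial maps -/

section Poly
variable {ι : Type*} [Fintype ι] {k : Type*} [Field k] [Algebra k ℂ]

/-- the derivative of `z ↦ aeval z P` (as a real linear map). -/
noncomputable def dP (P : MvPolynomial ι k) (z : ι → ℂ) : (ι → ℂ) →L[ℝ] ℂ :=
  ∑ j, (ContinuousLinearMap.mul ℝ ℂ (MvPolynomial.aeval z (MvPolynomial.pderiv j P))).comp
    (ContinuousLinearMap.proj (R := ℝ) (φ := fun _ : ι => ℂ) j)

theorem dP_apply (P : MvPolynomial ι k) (z v : ι → ℂ) :
    dP P z v = ∑ j, MvPolynomial.aeval z (MvPolynomial.pderiv j P) * v j := by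
  simp [dP]

theorem hasStrict (P : MvPolynomial ι k) (z : ι → ℂ) :
    HasStrictFDerivAt (fun w : ι → ℂ => MvPolynomial.aeval w P) (dP P z) z := by
  classical
  induction P using MvPolynomial.induction_on with
  | C a =>
    have h1 : (fun w : ι → ℂ => MvPolynomial.aeval w (MvPolynomial.C a)) =
        fun _ => algebraMap k ℂ a := by
      funext w; simp
    have h2 : dP (MvPolynomial.C (σ := ι) a) z = 0 := by
      ext v; rw [dP_apply]; simp
    rw [h1, h2]
    exact hasStrictFDerivAt_const _ _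
  | add P Q hP hQ =>
    have h1 : (fun w : ι → ℂ => MvPolynomial.aeval w (P + Q)) =
        fun w => MvPolynomial.aeval w P + MvPolynomial.aeval w Q := by
      funext w; simp
    have h2 : dP (P + Q) z = dP P z + dP Q z := by
      ext v
      rw [_root_.add_apply, dP_apply, dP_apply, dP_apply, ← Finset.sum_add_distrib]
      refine Finset.sum_congr rfl fun j _ => ?_
      rw [map_add, map_add]; ring
    rw [h1, h2]
    exact hP.add hQ
  | mul_X P i hP =>
    have h1 : (fun w : ι → ℂ => MvPolynomial.aeval w (P * MvPolynomial.X i)) =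
        fun w => MvPolynomial.aeval w P * w i := by
      funext w; simp
    have h3 : HasStrictFDerivAt (fun w : ι → ℂ => w i)
        (ContinuousLinearMap.proj (R := ℝ) (φ := fun _ : ι => ℂ) i) z :=
      (ContinuousLinearMap.proj (R := ℝ) (φ := fun _ : ι => ℂ) i).hasStrictFDerivAt
    have h4 := hP.mul h3
    rw [h1]
    refine h4.congr_fderiv ?_
    ext v
    rw [dP_apply]
    simp only [_root_.add_apply, _root_.smul_apply,
      ContinuousLinearMap.proj_apply, smul_eq_mul]
    rw [dP_apply]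
    have h5 : ∀ j, MvPolynomial.aeval z (MvPolynomial.pderiv j (P * MvPolynomial.X i)) * v j =
        z i * (MvPolynomial.aeval z (MvPolynomial.pderiv j P) * v j) +
        MvPolynomial.aeval z P * ((if i = j then 1 else 0) * v j) := by
      intro j
      rw [(MvPolynomial.pderiv j).leibniz, map_add, MvPolynomial.pderiv_X]
      simp only [smul_eq_mul, map_mul, MvPolynomial.aeval_X, Pi.single_apply]
      by_cases hij : i = j
      · subst hij; simp; ring
      · simp [hij]; ring
    rw [Finset.sum_congr rfl fun j _ => h5 j, Finset.sum_add_distrib, ← Finset.mul_sum,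
      ← Finset.mul_sum]
    simp
    ring

end Poly

/-! ## 3. small transcendence degree -/

section Small
variable {ι : Type*} (k : Type*) [Field k] [Algebra k ℂ]

/-- the tuple `z` has transcendence degree at most `d` over `k`. -/
def Small (d : ℕ) (z : ι → ℂ) : Prop :=
  ∃ s : Set ι, s.ncard ≤ d ∧ ∀ i, IsAlgebraic (Algebra.adjoin k (z '' s)) (z i)

variable {k}

theorem Small.mono {d e : ℕ} {z : ι → ℂ} (h : Small k d z) (hde : d ≤ e) : Small k e z := by
  obtain ⟨s, h1, h2⟩ := h
  exact ⟨s, h1.trans hde, h2⟩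

/-- a tuple which is not small contains `d+1` algebraically independent entries. -/
theorem exists_indep_of_not_small [Finite ι] {d : ℕ} {z : ι → ℂ} (h : ¬ Small k d z) :
    ∃ s : Set ι, s.ncard = d + 1 ∧ AlgebraicIndepOn k z s := by
  classical
  -- sizes of independent sets can be increased
  have key : ∀ n ≤ d + 1, ∃ s : Set ι, s.ncard = n ∧ AlgebraicIndepOn k z s := by
    intro n
    induction n with
    | zero =>
      intro _
      refine ⟨∅, by simp, ?_⟩
      have : IsEmpty (∅ : Set ι) := by infer_instance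
      exact (algebraicIndependent_empty_type_iff).2 (algebraMap k ℂ).injective
    | succ n ih =>
      intro hn
      obtain ⟨s, hs1, hs2⟩ := ih (by omega)
      by_contra hcon
      refine h ⟨s, by omega, fun i => ?_⟩
      by_contra hi
      have h3 := AlgebraicIndepOn.insert hs2 (i := i) hi
      have hne : i ∉ s := fun hmem => hi (isAlgebraic_algebraMap
        (⟨_, Algebra.subset_adjoin ⟨i, hmem, rfl⟩⟩ : Algebra.adjoin k (z '' s)))
      refine hcon ⟨insert i s, ?_, h3⟩
      rw [Set.ncard_insert_of_notMem hne (Set.toFinite s), hs1]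
  exact key (d + 1) le_rfl

/-- the polynomial data of an algebraic relation. -/
theorem exists_poly {z : ι → ℂ} {s : Set ι} {i : ι} (hi : i ∉ s)
    (h : IsAlgebraic (Algebra.adjoin k (z '' s)) (z i)) :
    ∃ P : MvPolynomial ι k, (∀ j, j ∉ s → j ≠ i → MvPolynomial.pderiv j P = 0) ∧
      MvPolynomial.aeval z P = 0 ∧ MvPolynomial.aeval z (MvPolynomial.pderiv i P) ≠ 0 := by
  classical
  set A := Algebra.adjoin k (z '' s) with hA
  -- a polynomial of minimal degree
  obtain ⟨q, hq0, hqz, hqmin⟩ : ∃ q : Polynomial A, q ≠ 0 ∧ Polynomial.aeval (z i) q = 0 ∧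
      ∀ r : Polynomial A, r ≠ 0 → Polynomial.aeval (z i) r = 0 → q.natDegree ≤ r.natDegree := by
    obtain ⟨q0, h0, h0'⟩ := h
    let S : Set ℕ := {n | ∃ q : Polynomial A, q ≠ 0 ∧ Polynomial.aeval (z i) q = 0 ∧
      q.natDegree = n}
    have hS : S.Nonempty := ⟨_, q0, h0, h0', rfl⟩
    obtain ⟨q, h1, h2, h3⟩ := Nat.sInf_mem hS
    refine ⟨q, h1, h2, fun r hr1 hr2 => ?_⟩
    rw [h3]
    exact Nat.sInf_le ⟨r, hr1, hr2, rfl⟩
  have hdeg : 0 < q.natDegree := by
    rcases Nat.eq_zero_or_pos q.natDegree with h0 | h0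
    · exfalso
      rw [Polynomial.eq_C_of_natDegree_eq_zero h0] at hqz hq0
      rw [Polynomial.aeval_C] at hqz
      have : q.coeff 0 = 0 := by
        apply Subtype.ext
        simpa using hqz
      rw [this] at hq0
      simp at hq0
    · exact h0
  have hder : Polynomial.aeval (z i) (Polynomial.derivative q) ≠ 0 := by
    intro h0
    have h1 : Polynomial.derivative q ≠ 0 := by
      intro h2
      have := Polynomial.derivative_eq_zero.1 h2
      omega
    have h2 := hqmin _ h1 h0
    have h3 := Polynomial.natDegree_derivative_lt hdeg.ne'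
    omega
  -- lift the coefficients
  have hlift : ∀ a : A, ∃ c ∈ MvPolynomial.supported k s, MvPolynomial.aeval z c = (a : ℂ) := by
    intro a
    have h1 : (a : ℂ) ∈ (MvPolynomial.supported k s).map (MvPolynomial.aeval z) := by
      rw [MvPolynomial.supported_eq_adjoin_X, AlgHom.map_adjoin, ← Set.image_comp]
      have h2 : ((MvPolynomial.aeval z : MvPolynomial ι k →ₐ[k] ℂ) ∘ MvPolynomial.X : ι → ℂ)
          = z := by
        funext j; simp
      have h3 : ((MvPolynomial.aeval z : MvPolynomial ι k →ₐ[k] ℂ) ∘ MvPolynomial.X) '' s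
        = z '' s := by
        rw [h2]
      rw [h3]
      exact a.2
    obtain ⟨c, hc, hc'⟩ := h1
    exact ⟨c, hc, hc'⟩
  choose c hc hc' using hlift
  have hpd : ∀ a j, j ∉ s → MvPolynomial.pderiv j (c a) = 0 := fun a j hj =>
    MvPolynomial.pderiv_eq_zero_of_notMem_vars fun hmem =>
      hj ((MvPolynomial.mem_supported.1 (hc a)) hmem)
  let P : MvPolynomial ι k := ∑ n ∈ Finset.range (q.natDegree + 1),
    c (q.coeff n) * MvPolynomial.X i ^ n
  refine ⟨P, fun j hj hji => ?_, ?_, ?_⟩
  · simp only [P, map_sum]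
    refine Finset.sum_eq_zero fun n _ => ?_
    rw [(MvPolynomial.pderiv j).leibniz, (MvPolynomial.pderiv j).leibniz_pow,
      MvPolynomial.pderiv_X, hpd _ j hj]
    simp [hji.symm]
  · simp only [P, map_sum, map_mul, map_pow, MvPolynomial.aeval_X, hc']
    rw [Polynomial.aeval_eq_sum_range] at hqz
    rw [← hqz]
    refine Finset.sum_congr rfl fun n _ => ?_
    rw [Algebra.smul_def]; rfl
  · have h1 : MvPolynomial.aeval z (MvPolynomial.pderiv i P) =
        Polynomial.aeval (z i) (Polynomial.derivative q) := by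
      have h2 : Polynomial.derivative q = ∑ n ∈ Finset.range (q.natDegree + 1),
          Polynomial.C (q.coeff n * n) * Polynomial.X ^ (n - 1) := by
        conv_lhs => rw [q.as_sum_range_C_mul_X_pow]
        rw [map_sum]
        refine Finset.sum_congr rfl fun n _ => ?_
        rw [Polynomial.derivative_C_mul_X_pow]
      rw [h2]
      simp only [P, map_sum]
      refine Finset.sum_congr rfl fun n _ => ?_
      rw [(MvPolynomial.pderiv i).leibniz, (MvPolynomial.pderiv i).leibniz_pow,
        MvPolynomial.pderiv_X, hpd _ i hi]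
      simp only [Pi.single_eq_same, smul_eq_mul, mul_zero, add_zero, map_mul, map_pow, map_natCast,
        nsmul_eq_mul, mul_one, MvPolynomial.aeval_X, hc', Polynomial.aeval_C, Polynomial.aeval_X]
      have h3 : (algebraMap A ℂ) (q.coeff n) = ((q.coeff n : A) : ℂ) := rfl
      rw [h3]; ring
    rw [h1]; exact hder

end Small

/-! ## 4. the dimension bound -/

section Dim
variable {ι : Type*} [Fintype ι] {k : Type*} [Field k] [Algebra k ℂ]

/-- one piece. -/
theorem dimH_piece (s : Set ι) (P : ι → MvPolynomial ι k)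
    (hP : ∀ i ∉ s, ∀ j, j ∉ s → j ≠ i → MvPolynomial.pderiv j (P i) = 0) :
    dimH {z : ι → ℂ | ∀ i ∉ s, MvPolynomial.aeval z (P i) = 0 ∧
      MvPolynomial.aeval z (MvPolynomial.pderiv i (P i)) ≠ 0} ≤ 2 * s.ncard := by
  classical
  set A : Set (ι → ℂ) := {z : ι → ℂ | ∀ i ∉ s, MvPolynomial.aeval z (P i) = 0 ∧
      MvPolynomial.aeval z (MvPolynomial.pderiv i (P i)) ≠ 0} with hA
  let f : (ι → ℂ) → (s → ℂ) × ((sᶜ : Set ι) → ℂ) := fun z =>
    (fun j => z j, fun i => MvPolynomial.aeval z (P i))
  let L1 : (ι → ℂ) →L[ℝ] (s → ℂ) := ContinuousLinearMap.pi fun j =>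
    ContinuousLinearMap.proj (R := ℝ) (φ := fun _ : ι => ℂ) (j : ι)
  have h1 : dimH A ≤ dimH (f '' A) := by
    refine dimH_le_of_immersion fun z hz => ?_
    refine ⟨L1.prod (ContinuousLinearMap.pi fun i => dP (P i) z), ?_, ?_⟩
    · refine HasStrictFDerivAt.prodMk ?_ ?_
      · exact L1.hasStrictFDerivAt
      · exact hasStrictFDerivAt_pi.2 fun i => hasStrict (P i) z
    · rw [injective_iff_map_eq_zero]
      intro v hv
      have hv1 : ∀ j ∈ s, v j = 0 := fun j hj => by
        have := congrArg (fun w => w.1 ⟨j, hj⟩) hv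
        simpa [L1] using this
      funext i
      by_cases hi : i ∈ s
      · exact hv1 i hi
      · have h2 := congrArg (fun w => w.2 ⟨i, hi⟩) hv
        simp only [ContinuousLinearMap.prod_apply, ContinuousLinearMap.coe_pi', Prod.snd_zero,
          Pi.zero_apply] at h2
        rw [dP_apply, Finset.sum_eq_single i] at h2
        · exact (mul_eq_zero.1 h2).resolve_left (hz i hi).2
        · intro j _ hji
          by_cases hj : j ∈ s
          · rw [hv1 j hj, mul_zero]
          · rw [hP i hi j hj hji]; simp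
        · intro h; exact absurd (Finset.mem_univ _) h
  -- the image lies in a copy of `s → ℂ`
  have h2 : f '' A ⊆ (fun w : s → ℂ => (w, (0 : (sᶜ : Set ι) → ℂ))) '' Set.univ := by
    rintro _ ⟨z, hz, rfl⟩
    refine ⟨fun j => z j, trivial, ?_⟩
    refine Prod.ext rfl ?_
    funext i
    exact ((hz i i.2).1).symm
  have h3 : LipschitzWith 1 (fun w : s → ℂ => (w, (0 : (sᶜ : Set ι) → ℂ))) := by
    refine LipschitzWith.of_dist_le_mul fun x y => ?_
    simp [Prod.dist_eq]
  have h4 := h3.dimH_image_le Set.univ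
  have h5 : dimH (Set.univ : Set (s → ℂ)) = 2 * s.ncard := by
    rw [Real.dimH_univ_eq_finrank]
    have : Module.finrank ℝ (s → ℂ) = 2 * s.ncard := by
      rw [Module.finrank_pi_fintype]
      simp [Complex.finrank_real_complex, Set.ncard_eq_toFinset_card', mul_comm]
    rw [this]; push_cast; rfl
  calc dimH A ≤ dimH (f '' A) := h1
    _ ≤ _ := dimH_mono h2
    _ ≤ _ := h4
    _ = _ := h5

/-- **TD1.** the set of tuples of transcendence degree at most `d` over a countable field has real
Hausdorff dimension at most `2 d`. -/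
theorem dimH_small [Countable k] (d : ℕ) : dimH {z : ι → ℂ | Small k d z} ≤ 2 * d := by
  classical
  let Idx : Type _ := {p : Set ι × (ι → MvPolynomial ι k) // p.1.ncard ≤ d ∧
    ∀ i ∉ p.1, ∀ j, j ∉ p.1 → j ≠ i → MvPolynomial.pderiv j (p.2 i) = 0}
  have hc0 : Countable (MvPolynomial ι k) := by
    rw [← Cardinal.mk_le_aleph0_iff]
    have h1 := MvPolynomial.cardinalMk_le_max_lift (σ := ι) (R := k)
    refine h1.trans ?_
    simp [Cardinal.mk_le_aleph0, Cardinal.lift_le_aleph0]
  have hc : Countable Idx := by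
    have : Countable (Set ι × (ι → MvPolynomial ι k)) := inferInstance
    exact Subtype.countable
  let A : Idx → Set (ι → ℂ) := fun p => {z : ι → ℂ | ∀ i ∉ p.1.1, MvPolynomial.aeval z (p.1.2 i) = 0 ∧
      MvPolynomial.aeval z (MvPolynomial.pderiv i (p.1.2 i)) ≠ 0}
  have hsub : {z : ι → ℂ | Small k d z} ⊆ ⋃ p : Idx, A p := by
    rintro z ⟨s, hs, hz⟩
    have h1 : ∀ i, ∃ P : MvPolynomial ι k, i ∉ s →
        ((∀ j, j ∉ s → j ≠ i → MvPolynomial.pderiv j P = 0) ∧
        MvPolynomial.aeval z P = 0 ∧ MvPolynomial.aeval z (MvPolynomial.pderiv i P) ≠ 0) := by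
      intro i
      by_cases hi : i ∈ s
      · exact ⟨0, fun h => absurd hi h⟩
      · obtain ⟨P, hP⟩ := exists_poly hi (hz i)
        exact ⟨P, fun _ => hP⟩
    choose P hP using h1
    exact mem_iUnion.2 ⟨⟨(s, P), hs, fun i hi => (hP i hi).1⟩, fun i hi => (hP i hi).2⟩
  refine (dimH_mono hsub).trans ?_
  rw [dimH_iUnion]
  refine iSup_le fun p => ?_
  refine (dimH_piece p.1.1 p.1.2 p.2.2).trans ?_
  have : ((p.1.1.ncard : ℕ) : ℝ≥0∞) ≤ d := by exact_mod_cast p.2.1
  gcongr

end Dim

end Crest.Agent.R260.TrDim1_816
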