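import Crest.Agent.R260.Tw1_979

/-!
Row 260, leaf TW-Z (helper979), part 2: the sphere `S2`, its stereographic chart, and the total
space of an `SO(3)`-cocycle acting on `S2` (topology: T2, compact, connected).
-/

set_option autoImplicit false

open Complex Matrix Set Topology

noncomputable section

namespace Crest.Agent.R260.Tw_979

/-- the unit sphere in `ℝ³` (coordinates `Fin 3 → ℝ`) -/
abbrev S2 : Type := {x : Fin 3 → ℝ // x 0 ^ 2 + x 1 ^ 2 + x 2 ^ 2 = 1}

namespace S2

lemma cont_val : Continuous (fun x : S2 => x.1) := continuous_subtype_val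

lemma cont_coord (a : Fin 3) : Continuous (fun x : S2 => x.1 a) :=
  (continuous_apply a).comp cont_val

lemma abs_coord_le (x : S2) (a : Fin 3) : |x.1 a| ≤ 1 := by
  have h := x.2
  have h0 := sq_nonneg (x.1 0)
  have h1 := sq_nonneg (x.1 1)
  have h2 := sq_nonneg (x.1 2)
  have : (x.1 a) ^ 2 ≤ 1 := by
    fin_cases a <;> simp only [Fin.zero_eta, Fin.mk_one, Fin.reduceFinMk] <;> linarith
  exact (sq_le_one_iff_abs_le_one _).1 this

instance : CompactSpace S2 := by
  have hc : IsCompact {x : Fin 3 → ℝ | x 0 ^ 2 + x 1 ^ 2 + x 2 ^ 2 = 1} := by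
    apply IsCompact.of_isClosed_subset (isCompact_univ_pi (s := fun _ : Fin 3 => Icc (-1 : ℝ) 1)
      (fun _ => isCompact_Icc))
    · exact isClosed_eq (by fun_prop) continuous_const
    · intro x hx a _
      exact abs_le.1 (abs_coord_le ⟨x, hx⟩ a)
  exact isCompact_iff_compactSpace.1 hc

instance : Nonempty S2 := ⟨⟨![1, 0, 0], by simp⟩⟩

end S2

/-- the point of the sphere with stereographic coordinate `w` -/
def pt (w : ℂ) : S2 := ⟨xx w, xx_sq w⟩

lemma cont_xx : Continuous xx := by
  refine continuous_pi fun a => ?_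
  have h1 : Continuous (fun w : ℂ => den w) := by
    unfold den; fun_prop
  fin_cases a
  · exact ((continuous_const.sub continuous_normSq).div h1 den_ne)
  · exact ((continuous_const.mul continuous_re).div h1 den_ne)
  · exact ((continuous_const.mul continuous_im).div h1 den_ne)

lemma xx0_ne (w : ℂ) : 1 + xx w 0 ≠ 0 := by
  have h := den_pos w
  have : 1 + xx w 0 = 2 / den w := by
    simp only [xx, Matrix.cons_val_zero]
    field_simp
    simp only [den]; ring
  rw [this]; positivity

/-- stereographic coordinate -/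
def st (x : Fin 3 → ℝ) : ℂ := ⟨x 1 / (1 + x 0), x 2 / (1 + x 0)⟩

lemma st_xx (w : ℂ) : st (xx w) = w := by
  have h := den_pos w
  have h1 : 1 + xx w 0 = 2 / den w := by
    simp only [xx, Matrix.cons_val_zero]
    field_simp
    simp only [den]; ring
  apply Complex.ext
  · simp only [st]
    rw [h1]
    simp only [xx, Matrix.cons_val_one, Matrix.cons_val_zero]
    field_simp
  · simp only [st]
    rw [h1]
    simp only [xx, Matrix.cons_val]
    field_simp

lemma xx_st {x : Fin 3 → ℝ} (hx : x 0 ^ 2 + x 1 ^ 2 + x 2 ^ 2 = 1) (h : 1 + x 0 ≠ 0) :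
    xx (st x) = x := by
  have hd : den (st x) = 2 / (1 + x 0) := by
    simp only [den, normSq_eq, st]
    field_simp
    nlinarith
  have hpos : den (st x) ≠ 0 := den_ne _
  have h2 : normSq (st x) = 2 / (1 + x 0) - 1 := by
    have : den (st x) = 1 + normSq (st x) := rfl
    linarith
  funext a
  fin_cases a
  · simp only [xx, Matrix.cons_val_zero, Fin.zero_eta, Fin.isValue]
    rw [h2, hd]; field_simp; ring
  · simp only [xx, Matrix.cons_val_one, Matrix.cons_val_zero, Fin.mk_one, Fin.isValue]
    rw [hd]; simp only [st]; field_simp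
  · simp only [xx, Matrix.cons_val, Fin.reduceFinMk, Fin.isValue]
    rw [hd]; simp only [st]; field_simp

/-- the stereographic chart of `S2` -/
def ster : OpenPartialHomeomorph S2 ℂ where
  toFun x := st x.1
  invFun w := pt w
  source := {x | 1 + x.1 0 ≠ 0}
  target := univ
  map_source' _ _ := mem_univ _
  map_target' w _ := xx0_ne w
  left_inv' x hx := Subtype.ext (xx_st x.2 hx)
  right_inv' w _ := st_xx w
  open_source := by
    have : Continuous (fun x : S2 => 1 + x.1 0) := continuous_const.add (S2.cont_coord 0)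
    exact isOpen_ne_fun this continuous_const
  open_target := isOpen_univ
  continuousOn_toFun := by
    intro x hx
    apply ContinuousAt.continuousWithinAt
    have h0 : ContinuousAt (fun x : S2 => 1 + x.1 0) x :=
      (continuous_const.add (S2.cont_coord 0)).continuousAt
    have h1 : ContinuousAt (fun x : S2 => x.1 1 / (1 + x.1 0)) x :=
      (S2.cont_coord 1).continuousAt.div h0 hx
    have h2 : ContinuousAt (fun x : S2 => x.1 2 / (1 + x.1 0)) x :=
      (S2.cont_coord 2).continuousAt.div h0 hx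
    have h3 : (fun x : S2 => st x.1) = fun x : S2 =>
        ((x.1 1 / (1 + x.1 0) : ℝ) : ℂ) + ((x.1 2 / (1 + x.1 0) : ℝ) : ℂ) * I := by
      funext x
      exact (Complex.mk_eq_add_mul_I _ _)
    rw [h3]
    exact (Complex.continuous_ofReal.continuousAt.comp h1).add
      ((Complex.continuous_ofReal.continuousAt.comp h2).mul continuousAt_const)
  continuousOn_invFun := (Continuous.subtype_mk cont_xx _).continuousOn

/-- an `SO(3)`-cocycle on `M` (index set `κ`): `q i j p` sends `i`-coordinates to `j`-coordinates -/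
structure Coc (M : Type) [TopologicalSpace M] (κ : Type) where
  U : κ → Set M
  isOpen_U : ∀ i, IsOpen (U i)
  idx : M → κ
  mem_idx : ∀ p, p ∈ U (idx p)
  q : κ → κ → M → Matrix (Fin 3) (Fin 3) ℝ
  orth : ∀ i j, ∀ p ∈ U i ∩ U j, (q i j p)ᵀ * q i j p = 1
  self : ∀ i, ∀ p ∈ U i, q i i p = 1
  comp : ∀ i j k, ∀ p ∈ U i ∩ U j ∩ U k, q j k p * q i j p = q i k p
  cont : ∀ i j a b, ContinuousOn (fun p => q i j p a b) (U i ∩ U j)

namespace Coc

variable {M : Type} [TopologicalSpace M] {κ : Type} (C : Coc M κ)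

lemma dot_self (x : Fin 3 → ℝ) : x ⬝ᵥ x = x 0 ^ 2 + x 1 ^ 2 + x 2 ^ 2 := by
  simp [dotProduct, Fin.sum_univ_three]; ring

lemma norm_mulVec {q : Matrix (Fin 3) (Fin 3) ℝ} (h : qᵀ * q = 1) (x : Fin 3 → ℝ) :
    (q *ᵥ x) 0 ^ 2 + (q *ᵥ x) 1 ^ 2 + (q *ᵥ x) 2 ^ 2 = x 0 ^ 2 + x 1 ^ 2 + x 2 ^ 2 := by
  rw [← dot_self, ← dot_self, Matrix.dotProduct_mulVec, ← Matrix.mulVec_transpose,
    Matrix.mulVec_mulVec, h, Matrix.one_mulVec]

open Classical in
/-- action of an orthogonal matrix on the sphere (junk: identity) -/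
def act (q : Matrix (Fin 3) (Fin 3) ℝ) (x : S2) : S2 :=
  if h : qᵀ * q = 1 then ⟨q *ᵥ x.1, by rw [norm_mulVec h]; exact x.2⟩ else x

lemma act_val {q : Matrix (Fin 3) (Fin 3) ℝ} (h : qᵀ * q = 1) (x : S2) :
    (act q x).1 = q *ᵥ x.1 := by
  unfold act; rw [dif_pos h]

/-- the fibre bundle core -/
def core : FiberBundleCore κ M S2 where
  baseSet := C.U
  isOpen_baseSet := C.isOpen_U
  indexAt := C.idx
  mem_baseSet_at := C.mem_idx
  coordChange i j p x := act (C.q i j p) x
  coordChange_self i p hp x := by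
    apply Subtype.ext
    rw [act_val (C.orth i i p ⟨hp, hp⟩), C.self i p hp, Matrix.one_mulVec]
  continuousOn_coordChange i j := by
    rw [continuousOn_iff_continuous_domRestrict, continuous_induced_rng]
    have : (Subtype.val ∘ (((C.U i ∩ C.U j) ×ˢ univ).domRestrict
        fun p : M × S2 => act (C.q i j p.1) p.2)) =
        fun p : ((C.U i ∩ C.U j) ×ˢ (univ : Set S2) : Set (M × S2)) =>
          C.q i j p.1.1 *ᵥ p.1.2.1 := by
      funext p
      exact act_val (C.orth i j p.1.1 p.2.1) _
    rw [this]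
    refine continuous_pi fun a => ?_
    simp only [Matrix.mulVec, dotProduct]
    refine continuous_finsetSum _ fun b _ => ?_
    refine Continuous.mul ?_ ?_
    · have h1 := C.cont i j a b
      rw [continuousOn_iff_continuous_domRestrict] at h1
      exact h1.comp (f := fun p : ((C.U i ∩ C.U j) ×ˢ (univ : Set S2) : Set (M × S2)) =>
        (⟨p.1.1, p.2.1⟩ : ↥(C.U i ∩ C.U j))) (by fun_prop)
    · exact (S2.cont_coord b).comp (continuous_snd.comp continuous_subtype_val)
  coordChange_comp i j k p hp x := by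
    apply Subtype.ext
    rw [act_val (C.orth j k p ⟨hp.1.2, hp.2⟩), act_val (C.orth i j p hp.1),
      act_val (C.orth i k p ⟨hp.1.1, hp.2⟩), Matrix.mulVec_mulVec, C.comp i j k p hp]

end Coc

end Crest.Agent.R260.Tw_979
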