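import Crest.Agent.R260.Tw2_979

/-!
Row 260, leaf TW-Z (helper979), part 3: topology of the total space (T2, compact, connected) and
its stereographic charts.
-/

set_option autoImplicit false

open Complex Matrix Set Topology

noncomputable section

namespace Crest.Agent.R260.Tw_979

namespace Coc

variable {M : Type} [TopologicalSpace M] {κ : Type} (C : Coc M κ)

/-- the total space of the bundle of spheres -/
abbrev Z : Type := C.core.TotalSpace

/-- projection -/
def pr (z : C.Z) : M := z.1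

/-- fibre coordinate of `z` in the frame `i` (meaningful over `U i`) -/
def fc (i : κ) (z : C.Z) : S2 := (C.core.localTriv i z).2

lemma cont_pr : Continuous C.pr := C.core.continuous_proj

lemma triv_apply (i : κ) (z : C.Z) : C.core.localTriv i z = (C.pr z, C.fc i z) := rfl

lemma source_eq (i : κ) : (C.core.localTriv i).source = C.pr ⁻¹' (C.U i) := rfl

lemma mem_source {i : κ} {z : C.Z} : z ∈ (C.core.localTriv i).source ↔ C.pr z ∈ C.U i := Iff.rfl

lemma mem_target {i : κ} {y : M × S2} : y ∈ (C.core.localTriv i).target ↔ y.1 ∈ C.U i := by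
  simp only [mfld_simps]; rfl

/-- the point with frame-`i` coordinates `(p, x)` -/
def mz (i : κ) (p : M) (x : S2) : C.Z := (C.core.localTriv i).toOpenPartialHomeomorph.symm (p, x)

lemma pr_mz (i : κ) (p : M) (x : S2) : C.pr (C.mz i p x) = p := rfl

lemma fc_mz {i : κ} {p : M} (hp : p ∈ C.U i) (x : S2) : C.fc i (C.mz i p x) = x := by
  have h := (C.core.localTriv i).apply_symm_apply (x := (p, x)) (C.mem_target.2 hp)
  exact congrArg Prod.snd h

lemma mz_fc {i : κ} {z : C.Z} (hz : C.pr z ∈ C.U i) : C.mz i (C.pr z) (C.fc i z) = z :=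
  (C.core.localTriv i).toOpenPartialHomeomorph.left_inv (C.mem_source.2 hz)

/-- change of fibre coordinates -/
lemma fc_val {i j : κ} {z : C.Z} (hi : C.pr z ∈ C.U i) (hj : C.pr z ∈ C.U j) :
    (C.fc j z).1 = C.q i j (C.pr z) *ᵥ (C.fc i z).1 := by
  have hk : C.pr z ∈ C.U (C.idx (C.pr z)) := C.mem_idx _
  have e1 : (C.fc i z).1 = C.q (C.idx (C.pr z)) i (C.pr z) *ᵥ (z.2 : S2).1 :=
    act_val (C.orth _ _ _ ⟨hk, hi⟩) _
  have e2 : (C.fc j z).1 = C.q (C.idx (C.pr z)) j (C.pr z) *ᵥ (z.2 : S2).1 :=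
    act_val (C.orth _ _ _ ⟨hk, hj⟩) _
  rw [e1, e2, Matrix.mulVec_mulVec, C.comp _ _ _ _ ⟨⟨hk, hi⟩, hj⟩]

lemma cont_mz {i : κ} : ContinuousOn (fun y : M × S2 => C.mz i y.1 y.2) (C.U i ×ˢ univ) := by
  have h := (C.core.localTriv i).toOpenPartialHomeomorph.continuousOn_symm
  refine h.mono ?_
  intro y hy
  exact C.mem_target.2 hy.1

lemma cont_fc {i : κ} : ContinuousOn (C.fc i) (C.pr ⁻¹' (C.U i)) := by
  have h := (C.core.localTriv i).toOpenPartialHomeomorph.continuousOn
  exact continuous_snd.comp_continuousOn h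

instance t2Z [T2Space M] : T2Space C.Z := by
  refine ⟨fun z z' hne => ?_⟩
  by_cases hp : C.pr z = C.pr z'
  · set i := C.idx (C.pr z)
    have hi : C.pr z ∈ C.U i := C.mem_idx _
    have hi' : C.pr z' ∈ C.U i := hp ▸ hi
    have hx : C.fc i z ≠ C.fc i z' := by
      intro h
      apply hne
      rw [← C.mz_fc hi, ← C.mz_fc hi', hp, h]
    obtain ⟨u, v, hu, hv, hxu, hxv, huv⟩ := t2_separation hx
    have hopen : IsOpen (C.pr ⁻¹' (C.U i)) := (C.isOpen_U i).preimage C.cont_pr
    refine ⟨C.pr ⁻¹' (C.U i) ∩ C.fc i ⁻¹' u, C.pr ⁻¹' (C.U i) ∩ C.fc i ⁻¹' v,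
      C.cont_fc.isOpen_inter_preimage hopen hu, C.cont_fc.isOpen_inter_preimage hopen hv,
      ⟨hi, hxu⟩, ⟨hi', hxv⟩, ?_⟩
    exact (huv.preimage (C.fc i)).mono inter_subset_right inter_subset_right
  · obtain ⟨u, v, hu, hv, hxu, hxv, huv⟩ := t2_separation hp
    exact ⟨C.pr ⁻¹' u, C.pr ⁻¹' v, hu.preimage C.cont_pr, hv.preimage C.cont_pr, hxu, hxv,
      huv.preimage _⟩

lemma isCompact_pre {K : Set M} (hK : IsCompact K) {i : κ} (h : K ⊆ C.U i) :
    IsCompact (C.pr ⁻¹' K) := by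
  have h1 : IsCompact (K ×ˢ (univ : Set S2)) := hK.prod isCompact_univ
  have h2 : C.pr ⁻¹' K = (fun y : M × S2 => C.mz i y.1 y.2) '' (K ×ˢ univ) := by
    ext z
    constructor
    · intro hz
      exact ⟨(C.pr z, C.fc i z), ⟨hz, mem_univ _⟩, C.mz_fc (h hz)⟩
    · rintro ⟨y, hy, rfl⟩
      exact hy.1
  rw [h2]
  exact h1.image_of_continuousOn (C.cont_mz.mono (prod_mono h (subset_refl _)))

instance compactZ [CompactSpace M] [T2Space M] : CompactSpace C.Z := by
  have hloc : ∀ p : M, ∃ K, IsCompact K ∧ K ∈ 𝓝 p ∧ K ⊆ C.U (C.idx p) := fun p => by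
    obtain ⟨K, hK, h1, h2⟩ := exists_compact_subset (C.isOpen_U (C.idx p)) (C.mem_idx p)
    exact ⟨K, hK, mem_interior_iff_mem_nhds.1 h1, h2⟩
  choose K hK hn hs using hloc
  obtain ⟨t, ht⟩ := isCompact_univ.elim_nhds_subcover K (fun p _ => hn p)
  refine ⟨?_⟩
  have : (univ : Set C.Z) = ⋃ p ∈ t, C.pr ⁻¹' (K p) := by
    ext z
    simp only [mem_univ, mem_iUnion, mem_preimage, true_iff]
    have := ht.2 (mem_univ (C.pr z))
    simpa using this
  rw [this]
  exact t.isCompact_biUnion fun p _ => C.isCompact_pre (hK p) (hs p)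

end Coc

/-- `S2` is connected -/
instance connS2 : ConnectedSpace S2 := by
  have h : IsConnected (Metric.sphere (0 : EuclideanSpace ℝ (Fin 3)) 1) := by
    apply isConnected_sphere
    · rw [← Module.finrank_eq_rank, finrank_euclideanSpace_fin]
      norm_num
    · norm_num
  have h2 : {x : Fin 3 → ℝ | x 0 ^ 2 + x 1 ^ 2 + x 2 ^ 2 = 1} =
      (fun x : EuclideanSpace ℝ (Fin 3) => (x : Fin 3 → ℝ)) '' (Metric.sphere 0 1) := by
    ext x
    constructor
    · intro hx
      refine ⟨WithLp.toLp 2 x, ?_, rfl⟩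
      rw [mem_sphere_zero_iff_norm, EuclideanSpace.norm_eq, Fin.sum_univ_three]
      simp only [Real.norm_eq_abs, sq_abs]
      have : x 0 ^ 2 + x 1 ^ 2 + x 2 ^ 2 = 1 := hx
      rw [this]; simp
    · rintro ⟨y, hy, rfl⟩
      rw [mem_sphere_zero_iff_norm, EuclideanSpace.norm_eq, Fin.sum_univ_three] at hy
      simp only [Real.norm_eq_abs, sq_abs] at hy
      have h0 : 0 ≤ y 0 ^ 2 + y 1 ^ 2 + y 2 ^ 2 := by positivity
      have h1 := Real.sq_sqrt h0
      rw [hy] at h1
      show y 0 ^ 2 + y 1 ^ 2 + y 2 ^ 2 = 1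
      linarith
  have h3 : IsConnected {x : Fin 3 → ℝ | x 0 ^ 2 + x 1 ^ 2 + x 2 ^ 2 = 1} := by
    rw [h2]
    exact h.image _ (by fun_prop)
  exact isConnected_iff_connectedSpace.1 h3

namespace Coc

variable {M : Type} [TopologicalSpace M] {κ : Type} (C : Coc M κ)

instance connectedZ [ConnectedSpace M] : ConnectedSpace C.Z := by
  have hfib : ∀ p : M, IsConnected (C.pr ⁻¹' {p}) := fun p => by
    have hp : p ∈ C.U (C.idx p) := C.mem_idx p
    have : C.pr ⁻¹' {p} = (fun x : S2 => C.mz (C.idx p) p x) '' univ := by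
      ext z
      constructor
      · intro hz
        have hz' : C.pr z = p := hz
        exact ⟨C.fc (C.idx p) z, mem_univ _, by
          have := C.mz_fc (i := C.idx p) (z := z) (hz'.symm ▸ hp)
          rw [hz'] at this; exact this⟩
      · rintro ⟨x, -, rfl⟩; rfl
    rw [this]
    refine isConnected_univ.image _ ?_
    exact C.cont_mz.comp (f := fun x : S2 => (p, x)) (by fun_prop) (fun x _ => ⟨hp, mem_univ _⟩)
  have hq : IsQuotientMap C.pr :=
    C.core.isOpenMap_proj.isQuotientMap C.cont_pr (fun p => ⟨C.mz (C.idx p) p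
      (Classical.arbitrary _), rfl⟩)
  obtain ⟨p⟩ := (inferInstance : Nonempty M)
  have h := preimage_connectedComponent_connected hfib hq.isCoinducing p
  rw [PreconnectedSpace.connectedComponent_eq_univ, preimage_univ] at h
  exact connectedSpace_iff_univ.2 h

end Coc

end Crest.Agent.R260.Tw_979
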