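import Crest.Agent.R260.Tw2_979

/-!
Row 260, leaf TW-Z (helper979), part 4: calculus of the stereographic coordinate, the almost
complex structure `JZ` of the twistor space in a frame, and its compatibility with changes of frame.
-/

set_option autoImplicit false

open Complex Matrix Set Topology
open scoped ContDiff

noncomputable section

namespace Crest.Agent.R260.Tw_979

/-! ### derivative of `xx` -/

/-- derivative of `xx` -/
def dxx (w : ℂ) : ℂ →L[ℝ] (Fin 3 → ℝ) :=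
  ContinuousLinearMap.pi fun a =>
    (2 / den w ^ 2) • (reCLM.comp ((ContinuousLinearMap.mul ℝ ℂ).flip ((starRingEnd ℂ) (nn w a))))

lemma dxx_apply (w η : ℂ) (a : Fin 3) :
    dxx w η a = 2 / den w ^ 2 * (η * (starRingEnd ℂ) (nn w a)).re := by
  simp [dxx, mul_comm]

lemma contDiff_normSq : ContDiff ℝ ∞ (fun w : ℂ => normSq w) := by
  have : (fun w : ℂ => normSq w) = fun w : ℂ => reCLM w * reCLM w + imCLM w * imCLM w := by
    funext w; simp [normSq_apply]
  rw [this]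
  exact (reCLM.contDiff.mul reCLM.contDiff).add (imCLM.contDiff.mul imCLM.contDiff)

lemma contDiff_den : ContDiff ℝ ∞ den := contDiff_const.add contDiff_normSq

lemma contDiff_xx : ContDiff ℝ ∞ xx := by
  rw [contDiff_pi]
  intro a
  fin_cases a
  · exact (contDiff_const.sub contDiff_normSq).div contDiff_den den_ne
  · exact (contDiff_const.mul reCLM.contDiff).div contDiff_den den_ne
  · exact (contDiff_const.mul imCLM.contDiff).div contDiff_den den_ne

lemma hasFDerivAt_normSq (w : ℂ) : HasFDerivAt (fun w : ℂ => normSq w)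
    ((2 * w.re) • reCLM + (2 * w.im) • imCLM) w := by
  have h1 : HasFDerivAt (fun w : ℂ => reCLM w) reCLM w := reCLM.hasFDerivAt
  have h2 : HasFDerivAt (fun w : ℂ => imCLM w) imCLM w := imCLM.hasFDerivAt
  have h : HasFDerivAt (fun w : ℂ => reCLM w * reCLM w + imCLM w * imCLM w) _ w :=
    (h1.mul h1).add (h2.mul h2)
  have e : (fun w : ℂ => normSq w) = fun w : ℂ => reCLM w * reCLM w + imCLM w * imCLM w := by
    funext w; simp [normSq_apply]
  rw [e]
  refine h.congr_fderiv ?_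
  ext v; simp; ring

lemma hasFDerivAt_den (w : ℂ) : HasFDerivAt den
    ((2 * w.re) • reCLM + (2 * w.im) • imCLM) w := by
  have := (hasFDerivAt_normSq w).const_add 1
  exact this

lemma hasFDerivAt_xx (w : ℂ) : HasFDerivAt xx (dxx w) w := by
  have hd := den_ne w
  have hden : den w = 1 + (w.re ^ 2 + w.im ^ 2) := by rw [den, normSq_eq]
  rw [hasFDerivAt_pi']
  have hre : HasFDerivAt (fun w : ℂ => 2 * w.re) ((2 : ℝ) • reCLM) w :=
    reCLM.hasFDerivAt.const_mul 2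
  have him : HasFDerivAt (fun w : ℂ => 2 * w.im) ((2 : ℝ) • imCLM) w :=
    imCLM.hasFDerivAt.const_mul 2
  have hdiv : HasFDerivAt (fun w : ℂ => (den w)⁻¹)
      (-(den w ^ 2)⁻¹ • ((2 * w.re) • reCLM + (2 * w.im) • imCLM)) w :=
    (hasDerivAt_inv hd).comp_hasFDerivAt w (hasFDerivAt_den w)
  intro a
  fin_cases a
  · have h := ((hasFDerivAt_normSq w).const_sub 1).mul hdiv
    have e : (fun v : ℂ => xx v 0) = (fun x => 1 - normSq x) * fun w => (den w)⁻¹ := by
      funext v; simp [xx, div_eq_mul_inv]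
    show HasFDerivAt (fun v : ℂ => xx v 0) _ w
    rw [e]
    refine h.congr_fderiv ?_
    ext v
    simp [dxx_apply, nn]
    field_simp
    rw [normSq_eq, hden]
    ring
  · have h := hre.mul hdiv
    have e : (fun v : ℂ => xx v 1) = (fun w : ℂ => 2 * w.re) * fun w => (den w)⁻¹ := by
      funext v; simp [xx, div_eq_mul_inv]
    show HasFDerivAt (fun v : ℂ => xx v 1) _ w
    rw [e]
    refine h.congr_fderiv ?_
    ext v
    simp [dxx_apply, nn, pow_two]
    field_simp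
    rw [hden]
    ring
  · have h := him.mul hdiv
    have e : (fun v : ℂ => xx v 2) = (fun w : ℂ => 2 * w.im) * fun w => (den w)⁻¹ := by
      funext v; simp [xx, div_eq_mul_inv]
    show HasFDerivAt (fun v : ℂ => xx v 2) _ w
    rw [e]
    refine h.congr_fderiv ?_
    ext v
    simp [dxx_apply, nn, pow_two]
    field_simp
    rw [hden]
    ring

/-! ### sphere identities -/

lemma cr_smul_right {R : Type*} [CommRing R] (u v : Fin 3 → R) (c : R) :
    cr u (c • v) = c • cr u v := by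
  funext a; fin_cases a <;> simp [cr] <;> ring

lemma dxx_I (w η : ℂ) : dxx w (I * η) = cr (xx w) (dxx w η) := by
  have h := cr_xx_nn w
  funext a
  have key : ∀ a, (cr (xx w) (dxx w η)) a =
      2 / den w ^ 2 * (η * (starRingEnd ℂ) (cr (cx (xx w)) (nn w) a)).re := by
    intro a
    fin_cases a
    all_goals
      simp only [cr, cx, dxx_apply, Fin.zero_eta, Fin.mk_one, Fin.reduceFinMk, Fin.isValue,
        Matrix.cons_val_zero, Matrix.cons_val_one, Matrix.cons_val, map_sub, map_mul,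
        Complex.conj_ofReal, mul_sub, Complex.sub_re]
      simp only [Complex.mul_re, Complex.mul_im, Complex.ofReal_re, Complex.ofReal_im,
        Complex.conj_re, Complex.conj_im]
      ring
  rw [key, h, dxx_apply]
  congr 1
  simp only [Pi.smul_apply, smul_eq_mul, map_mul, map_neg, Complex.conj_I]
  congr 1
  ring

/-- the horizontal part: `β = -(i/2) n(w)·Θ` -/
def be (w : ℂ) (Θ : Fin 3 → ℝ) : ℂ := -(I / 2) * dt (nn w) (cx Θ)

lemma dxx_be (w : ℂ) (Θ : Fin 3 → ℝ) : dxx w (be w Θ) = cr Θ (xx w) := by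
  have hd := den_ne w
  have hden : den w = 1 + (w.re ^ 2 + w.im ^ 2) := by rw [den, normSq_eq]
  funext a
  rw [dxx_apply]
  fin_cases a
  · simp [be, dt, nn, cx, cr, xx, pow_two]
    field_simp
    rw [hden]
    ring
  · simp [be, dt, nn, cx, cr, xx, pow_two]
    rw [show normSq w = w.re ^ 2 + w.im ^ 2 from normSq_eq w]
    field_simp
    rw [hden]
    ring
  · simp [be, dt, nn, cx, cr, xx, pow_two]
    rw [show normSq w = w.re ^ 2 + w.im ^ 2 from normSq_eq w]
    field_simp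
    rw [hden]
    ring

lemma dt_cx_re (u : Fin 3 → ℂ) (r : Fin 3 → ℝ) :
    (dt u (cx r)).re = (u 0).re * r 0 + (u 1).re * r 1 + (u 2).re * r 2 := by
  simp [dt, cx]

lemma dt_cx_im (u : Fin 3 → ℂ) (r : Fin 3 → ℝ) :
    (dt u (cx r)).im = (u 0).im * r 0 + (u 1).im * r 1 + (u 2).im * r 2 := by
  simp [dt, cx]

lemma eta_eq (w η : ℂ) : dt (nn w) (cx (dxx w η)) = 2 * η := by
  have hd := den_ne w
  have hden : den w = 1 + (w.re ^ 2 + w.im ^ 2) := by rw [den, normSq_eq]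
  apply Complex.ext
  · rw [dt_cx_re]
    simp [dxx_apply, nn, pow_two]
    field_simp
    rw [hden]
    ring
  · rw [dt_cx_im]
    simp [dxx_apply, nn, pow_two]
    field_simp
    rw [hden]
    ring

lemma dxx_inj {w η η' : ℂ} (h : dxx w η = dxx w η') : η = η' := by
  have h2 : (2 : ℂ) * η = 2 * η' := by rw [← eta_eq w η, ← eta_eq w η', h]
  exact mul_left_cancel₀ two_ne_zero h2

/-! ### the stereographic coordinate -/

lemma contDiffAt_st {x : Fin 3 → ℝ} (hx : 1 + x 0 ≠ 0) : ContDiffAt ℝ ∞ st x := by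
  have e : st = fun x : Fin 3 → ℝ =>
      ofRealCLM (x 1 / (1 + x 0)) + ofRealCLM (x 2 / (1 + x 0)) * I := by
    funext x
    exact (Complex.mk_eq_add_mul_I _ _)
  have h0 : ∀ a : Fin 3, ContDiffAt ℝ ∞ (fun x : Fin 3 → ℝ => x a) x := fun a =>
    (contDiff_apply ℝ ℝ a).contDiffAt
  have h1 : ∀ a : Fin 3, ContDiffAt ℝ ∞ (fun x : Fin 3 → ℝ => x a / (1 + x 0)) x := fun a =>
    (h0 a).div (contDiffAt_const.add (h0 0)) hx
  rw [e]
  exact (ofRealCLM.contDiff.contDiffAt.comp x (h1 1)).add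
    ((ofRealCLM.contDiff.contDiffAt.comp x (h1 2)).mul contDiffAt_const)

/-! ### orientation preserving orthogonal matrices -/

/-- `q ∈ SO(3)` in the form used here -/
structure SO (q : Matrix (Fin 3) (Fin 3) ℝ) : Prop where
  orth : qᵀ * q = 1
  cr : ∀ u v : Fin 3 → ℝ, cr (q *ᵥ u) (q *ᵥ v) = q *ᵥ cr u v

/-! ### the transition map -/

section trans

variable {E : Type*} [NormedAddCommGroup E] [NormedSpace ℝ E]

/-- the transition map between two charts of the twistor space -/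
def trn (φ : E → E) (q : E → Matrix (Fin 3) (Fin 3) ℝ) (z : E × ℂ) : E × ℂ :=
  (φ z.1, st (q z.1 *ᵥ xx z.2))

/-- the domain condition -/
def tdom (q : E → Matrix (Fin 3) (Fin 3) ℝ) (z : E × ℂ) : Prop := 1 + (q z.1 *ᵥ xx z.2) 0 ≠ 0

lemma xx_trn {q : Matrix (Fin 3) (Fin 3) ℝ} (hq : qᵀ * q = 1) {w : ℂ}
    (h : 1 + (q *ᵥ xx w) 0 ≠ 0) : xx (st (q *ᵥ xx w)) = q *ᵥ xx w := by
  refine xx_st ?_ h
  rw [Coc.norm_mulVec hq]
  exact xx_sq w

/-- derivative of `z ↦ q(z.1) x(z.2)` in the direction `v`; `dq` = derivative of the entries -/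
def dqx (q : E → Matrix (Fin 3) (Fin 3) ℝ) (z v : E × ℂ) : Fin 3 → ℝ :=
  (Matrix.of fun a b => fderiv ℝ (fun y => q y a b) z.1 v.1) *ᵥ xx z.2 + q z.1 *ᵥ dxx z.2 v.2

lemma hasFDerivAt_qx {q : E → Matrix (Fin 3) (Fin 3) ℝ} {z : E × ℂ}
    (hq : ∀ a b, DifferentiableAt ℝ (fun y => q y a b) z.1) :
    ∃ L : E × ℂ →L[ℝ] (Fin 3 → ℝ), HasFDerivAt (fun z : E × ℂ => q z.1 *ᵥ xx z.2) L z ∧
      ∀ v, L v = dqx q z v := by
  have h1 : ∀ a b, HasFDerivAt (fun z : E × ℂ => q z.1 a b)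
      ((fderiv ℝ (fun y => q y a b) z.1).comp (ContinuousLinearMap.fst ℝ E ℂ)) z := fun a b =>
    (hq a b).hasFDerivAt.comp z hasFDerivAt_fst
  have h2 : ∀ b, HasFDerivAt (fun z : E × ℂ => xx z.2 b)
      (((ContinuousLinearMap.proj b : (Fin 3 → ℝ) →L[ℝ] ℝ).comp (dxx z.2)).comp
        (ContinuousLinearMap.snd ℝ E ℂ)) z := fun b =>
    (((ContinuousLinearMap.proj b : (Fin 3 → ℝ) →L[ℝ] ℝ).hasFDerivAt.comp z.2
      (hasFDerivAt_xx z.2))).comp z hasFDerivAt_snd
  refine ⟨ContinuousLinearMap.pi fun a => ∑ b, (q z.1 a b • (((ContinuousLinearMap.proj b :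
    (Fin 3 → ℝ) →L[ℝ] ℝ).comp (dxx z.2)).comp (ContinuousLinearMap.snd ℝ E ℂ)) +
      xx z.2 b • ((fderiv ℝ (fun y => q y a b) z.1).comp (ContinuousLinearMap.fst ℝ E ℂ))),
    ?_, ?_⟩
  · rw [hasFDerivAt_pi']
    intro a
    have e : (fun z : E × ℂ => (q z.1 *ᵥ xx z.2) a) = fun z : E × ℂ => ∑ b, q z.1 a b * xx z.2 b := by
      funext z; rfl
    rw [e]
    refine (HasFDerivAt.fun_sum fun b _ => (h1 a b).mul (h2 b)).congr_fderiv ?_
    ext v <;> simp
  · intro v
    funext a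
    simp only [dqx, Matrix.mulVec, dotProduct, Pi.add_apply, Matrix.of_apply,
      ContinuousLinearMap.coe_pi', _root_.sum_apply, _root_.add_apply,
      _root_.smul_apply, ContinuousLinearMap.comp_apply, ContinuousLinearMap.coe_fst',
      ContinuousLinearMap.coe_snd', ContinuousLinearMap.proj_apply, smul_eq_mul,
      Finset.sum_add_distrib]
    rw [add_comm]
    congr 1
    exact Finset.sum_congr rfl fun b _ => mul_comm _ _

lemma differentiableAt_trn {φ : E → E} {q : E → Matrix (Fin 3) (Fin 3) ℝ} {z : E × ℂ}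
    (hφ : DifferentiableAt ℝ φ z.1) (hq : ∀ a b, DifferentiableAt ℝ (fun y => q y a b) z.1)
    (hd : tdom q z) : DifferentiableAt ℝ (trn φ q) z := by
  obtain ⟨L, hL, -⟩ := hasFDerivAt_qx hq
  have h1 : DifferentiableAt ℝ (fun z : E × ℂ => φ z.1) z :=
    hφ.comp z differentiableAt_fst
  have h2 : DifferentiableAt ℝ st (q z.1 *ᵥ xx z.2) :=
    (contDiffAt_st hd).differentiableAt (by norm_num)
  exact h1.prodMk (DifferentiableAt.comp (g := st) (f := fun z : E × ℂ => q z.1 *ᵥ xx z.2) z h2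
    hL.differentiableAt)

lemma fderiv_trn {φ : E → E} {q : E → Matrix (Fin 3) (Fin 3) ℝ} {z : E × ℂ}
    (hφ : DifferentiableAt ℝ φ z.1) (hq : ∀ a b, DifferentiableAt ℝ (fun y => q y a b) z.1)
    (ho : ∀ᶠ y in 𝓝 z.1, (q y)ᵀ * q y = 1) (hd : tdom q z) (v : E × ℂ) :
    (fderiv ℝ (trn φ q) z v).1 = fderiv ℝ φ z.1 v.1 ∧
      dxx (trn φ q z).2 (fderiv ℝ (trn φ q) z v).2 = dqx q z v := by
  have hD := differentiableAt_trn hφ hq hd
  have h1 : HasFDerivAt (fun z => (trn φ q z).1)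
      ((ContinuousLinearMap.fst ℝ E ℂ).comp (fderiv ℝ (trn φ q) z)) z :=
    (ContinuousLinearMap.fst ℝ E ℂ).hasFDerivAt.comp z hD.hasFDerivAt
  have h2 : HasFDerivAt (fun z => (trn φ q z).2)
      ((ContinuousLinearMap.snd ℝ E ℂ).comp (fderiv ℝ (trn φ q) z)) z :=
    (ContinuousLinearMap.snd ℝ E ℂ).hasFDerivAt.comp z hD.hasFDerivAt
  constructor
  · have h3 : HasFDerivAt (fun z : E × ℂ => φ z.1)
        ((fderiv ℝ φ z.1).comp (ContinuousLinearMap.fst ℝ E ℂ)) z :=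
      hφ.hasFDerivAt.comp z hasFDerivAt_fst
    have := h1.unique h3
    exact congrArg (fun L => L v) this
  · obtain ⟨L, hL, hLv⟩ := hasFDerivAt_qx hq
    have h4 : HasFDerivAt (fun z => xx (trn φ q z).2)
        ((dxx (trn φ q z).2).comp
          ((ContinuousLinearMap.snd ℝ E ℂ).comp (fderiv ℝ (trn φ q) z))) z :=
      (hasFDerivAt_xx _).comp z h2
    have hev : (fun z => xx (trn φ q z).2) =ᶠ[𝓝 z] fun z : E × ℂ => q z.1 *ᵥ xx z.2 := by
      have c1 : ∀ᶠ z' in 𝓝 z, (q z'.1)ᵀ * q z'.1 = 1 :=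
        (continuous_fst.tendsto z).eventually ho
      have c2 : ∀ᶠ z' in 𝓝 z, tdom q z' := by
        have hc : ContinuousAt (fun z' : E × ℂ => 1 + (q z'.1 *ᵥ xx z'.2) 0) z :=
          continuousAt_const.add ((continuousAt_apply _ _).comp hL.continuousAt)
        exact hc.eventually_ne hd
      filter_upwards [c1, c2] with z' h h'
      exact xx_trn h h'
    have h5 := (hL.congr_of_eventuallyEq hev).unique h4
    rw [← hLv v, h5]
    rfl

/-! ### the almost complex structure -/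

variable (Jo Jo' : E → Fin 3 → (E →L[ℝ] E)) (Th Th' : E → Fin 3 → (E →L[ℝ] ℝ))

/-- the complex structure `I_w` on the base tangent space -/
def Iw (z : E × ℂ) : E →L[ℝ] E := ∑ a, xx z.2 a • Jo z.1 a

/-- the connection vector `Θ(X)` -/
def thv (y X : E) : Fin 3 → ℝ := fun a => Th y a X

/-- `β_w` as a continuous linear map -/
def bec (z : E × ℂ) : E →L[ℝ] ℂ :=
  ∑ a, (-(I / 2) * nn z.2 a) • (ofRealCLM.comp (Th z.1 a))

lemma bec_apply (z : E × ℂ) (X : E) : bec Th z X = be z.2 (thv Th z.1 X) := by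
  simp only [bec, be, dt, cx, thv, Fin.sum_univ_three, _root_.add_apply, _root_.smul_apply,
    ContinuousLinearMap.comp_apply, ofRealCLM_apply, smul_eq_mul]
  ring

/-- **the almost complex structure of the twistor space in a frame** -/
def JZ (z : E × ℂ) : E × ℂ →L[ℝ] E × ℂ :=
  ((Iw Jo z).comp (ContinuousLinearMap.fst ℝ E ℂ)).prod
    (I • (ContinuousLinearMap.snd ℝ E ℂ) +
      ((bec Th z).comp ((Iw Jo z).comp (ContinuousLinearMap.fst ℝ E ℂ)) -
        I • (bec Th z).comp (ContinuousLinearMap.fst ℝ E ℂ)))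

lemma JZ_fst (z v : E × ℂ) : (JZ Jo Th z v).1 = Iw Jo z v.1 := rfl

lemma JZ_snd (z v : E × ℂ) :
    (JZ Jo Th z v).2 = I * v.2 + (bec Th z (Iw Jo z v.1) - I * bec Th z v.1) := rfl

lemma dxx_JZ (z v : E × ℂ) : dxx z.2 (JZ Jo Th z v).2 =
    cr (xx z.2) (dxx z.2 v.2) + (cr (thv Th z.1 (Iw Jo z v.1)) (xx z.2) -
      cr (xx z.2) (cr (thv Th z.1 v.1) (xx z.2))) := by
  rw [JZ_snd, map_add, map_sub, dxx_I, dxx_I, bec_apply, bec_apply, dxx_be, dxx_be]

lemma cr_add_right {R : Type*} [CommRing R] (u v w : Fin 3 → R) :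
    cr u (v + w) = cr u v + cr u w := by
  funext a; fin_cases a <;> simp [cr] <;> ring

variable {Jo Jo' Th Th'}

lemma Iw_compat {P : E →L[ℝ] E} {q : E → Matrix (Fin 3) (Fin 3) ℝ} {φ : E → E} {z : E × ℂ}
    (hJ : ∀ a X, P (Jo z.1 a X) = ∑ b, q z.1 b a • Jo' (φ z.1) b (P X))
    (ho : (q z.1)ᵀ * q z.1 = 1) (hd : tdom q z) (X : E) :
    P (Iw Jo z X) = Iw Jo' (trn φ q z) (P X) := by
  have hx : xx (trn φ q z).2 = q z.1 *ᵥ xx z.2 := xx_trn ho hd
  have h1 : (trn φ q z).1 = φ z.1 := rfl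
  simp only [Iw, _root_.sum_apply, _root_.smul_apply, map_sum, map_smul, hJ, hx, h1,
    Finset.smul_sum, smul_smul, Matrix.mulVec, dotProduct, Finset.sum_smul]
  rw [Finset.sum_comm]
  refine Finset.sum_congr rfl fun b _ => Finset.sum_congr rfl fun a _ => ?_
  rw [mul_comm]

/-- **compatibility of the almost complex structure with a change of frame** -/
theorem JZ_compat {φ : E → E} {q : E → Matrix (Fin 3) (Fin 3) ℝ} {z : E × ℂ}
    (hφ : DifferentiableAt ℝ φ z.1) (hq : ∀ a b, DifferentiableAt ℝ (fun y => q y a b) z.1)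
    (ho : ∀ᶠ y in 𝓝 z.1, (q y)ᵀ * q y = 1) (hso : SO (q z.1)) (hd : tdom q z)
    (hJ : ∀ a X, fderiv ℝ φ z.1 (Jo z.1 a X) = ∑ b, q z.1 b a • Jo' (φ z.1) b (fderiv ℝ φ z.1 X))
    (hT : ∀ X x, cr (thv Th' (φ z.1) (fderiv ℝ φ z.1 X)) (q z.1 *ᵥ x) =
      q z.1 *ᵥ cr (thv Th z.1 X) x + (Matrix.of fun a b => fderiv ℝ (fun y => q y a b) z.1 X) *ᵥ x)
    (v : E × ℂ) :
    fderiv ℝ (trn φ q) z (JZ Jo Th z v) = JZ Jo' Th' (trn φ q z) (fderiv ℝ (trn φ q) z v) := by
  have hx : xx (trn φ q z).2 = q z.1 *ᵥ xx z.2 := xx_trn hso.orth hd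
  obtain ⟨h1, h2⟩ := fderiv_trn hφ hq ho hd v
  obtain ⟨h3, h4⟩ := fderiv_trn hφ hq ho hd (JZ Jo Th z v)
  have hI : fderiv ℝ φ z.1 (Iw Jo z v.1) = Iw Jo' (trn φ q z) (fderiv ℝ φ z.1 v.1) :=
    Iw_compat hJ hso.orth hd v.1
  refine Prod.ext ?_ ?_
  · rw [h3, JZ_fst, JZ_fst, h1, hI]
  · refine dxx_inj (w := (trn φ q z).2) ?_
    rw [h4, dxx_JZ, h1, h2, ← hI, hx]
    have e1 : (trn φ q z).1 = φ z.1 := rfl
    rw [e1, hT, hT]
    unfold dqx
    rw [dxx_JZ, JZ_fst]
    simp only [Matrix.mulVec_add, Matrix.mulVec_sub, cr_add_right, hso.cr]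
    abel

end trans

end Crest.Agent.R260.Tw_979
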