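import Crest.Agent.R260.Tw4_979
import Crest.Agent.R260.Qk7_151

/-!
Row 260, leaf TW-Z (helper979), part 5: the frames of the quaternionic structure over the atlas
charts (two frames per chart) and the `SO(3)`-cocycle between them.
-/

set_option autoImplicit false

open scoped Manifold ContDiff Topology
open Filter Set Complex Matrix
open Crest.GeometryTopology.CoordMetric
open Crest.GeometryTopology.ChartRiem

noncomputable section

namespace Crest.Agent.R260.Tw_979

open Crest.Agent.R260.Qk3_151 Crest.Agent.R260.Qk4_151 Crest.Agent.R260.Qk7_151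

variable {n : ℕ}

local notation "𝔼" => EuclideanSpace ℝ (Fin n)

/-! ### the sign flip -/

/-- the signs of the second frame -/
def sg (s : Bool) : Fin 3 → ℝ := if s then ![1, 1, 1] else ![-1, 1, -1]

lemma sg_sq (s : Bool) (a : Fin 3) : sg s a * sg s a = 1 := by
  cases s <;> fin_cases a <;> simp [sg]

lemma sg_12 (s : Bool) : sg s 0 * sg s 1 = sg s 2 := by cases s <;> simp [sg]

lemma covDerivEndo_csmul (g : MetricField n) (A : 𝔼 → Matrix (Fin n) (Fin n) ℝ) (c : ℝ) (x : 𝔼)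
    (i : Fin n) : covDerivEndo g (fun y => c • A y) x i = c • covDerivEndo g A x i := by
  have h : (Matrix.of fun l p => pderiv i (fun y => (c • A y) l p) x) =
      c • Matrix.of (fun l p => pderiv i (fun y => A y l p) x) := by
    ext l p
    simp only [Matrix.of_apply, Matrix.smul_apply, smul_eq_mul, pderiv]
    rw [show (fun y => c * A y l p) = c • (fun y => A y l p) from rfl, fderiv_const_smul_field]
    simp
  unfold covDerivEndo
  rw [h]
  simp only [Matrix.mul_smul, Matrix.smul_mul, smul_add, smul_sub]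

/-- the flipped frame -/
def flip (s : Bool) (J : Fin 3 → 𝔼 → Matrix (Fin n) (Fin n) ℝ) :
    Fin 3 → 𝔼 → Matrix (Fin n) (Fin n) ℝ := fun a y => sg s a • J a y

lemma qkOn_flip {g : MetricField n} {J : Fin 3 → 𝔼 → Matrix (Fin n) (Fin n) ℝ} {U : Set 𝔼}
    (h : QKOn g J U) (s : Bool) : QKOn g (flip s J) U where
  riem := h.riem
  smooth a l p := (h.smooth a l p).const_smul (sg s a)
  sq x hx a := by
    simp only [flip, Matrix.smul_mul, Matrix.mul_smul, smul_smul, sg_sq, one_smul, h.sq x hx a]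
  mul x hx := by
    constructor
    · simp only [flip, Matrix.smul_mul, Matrix.mul_smul, smul_smul, (h.mul x hx).1]
      rw [mul_comm, sg_12]
    · simp only [flip, Matrix.smul_mul, Matrix.mul_smul, smul_smul, (h.mul x hx).2, smul_neg]
      rw [sg_12]
  orth x hx a := by
    simp only [flip, Matrix.transpose_smul, Matrix.smul_mul, Matrix.mul_smul, smul_smul, sg_sq,
      one_smul, h.orth x hx a]
  par x hx i a := by
    obtain ⟨c, hc⟩ := h.par x hx i a
    refine ⟨fun b => sg s a * c b * sg s b, ?_⟩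
    have e : covDerivEndo g (flip s J a) x i = sg s a • covDerivEndo g (J a) x i :=
      covDerivEndo_csmul g (J a) (sg s a) x i
    rw [e, hc, Finset.smul_sum]
    refine Finset.sum_congr rfl fun b _ => ?_
    simp only [flip, smul_smul]
    rw [mul_assoc, sg_sq, mul_one]

/-! ### products of imaginary quaternions -/

/-- `u · J` -/
def uJ (u : Fin 3 → ℝ) (J : Fin 3 → Matrix (Fin n) (Fin n) ℝ) : Matrix (Fin n) (Fin n) ℝ :=
  ∑ a, u a • J a

lemma uJ_mul {g : MetricField n} {J : Fin 3 → 𝔼 → Matrix (Fin n) (Fin n) ℝ} {U : Set 𝔼}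
    (h : QKOn g J U) {x : 𝔼} (hx : x ∈ U) (u v : Fin 3 → ℝ) :
    uJ u (fun a => J a x) * uJ v (fun a => J a x) =
      (-(u ⬝ᵥ v)) • (1 : Matrix (Fin n) (Fin n) ℝ) + uJ (cr u v) (fun a => J a x) := by
  simp only [uJ, Fin.sum_univ_three, add_mul, mul_add, Matrix.smul_mul, Matrix.mul_smul,
    h.sq x hx, h.mul01 hx, h.mul10 hx, h.mul12 hx, h.mul21 hx, h.mul20 hx, h.mul02 hx,
    dotProduct, cr, Matrix.cons_val_zero, Matrix.cons_val_one, Matrix.cons_val]
  module

/-! ### Jacobian matrices of changes of charts -/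

section manifold

variable {M : Type} [TopologicalSpace M] [ChartedSpace (EuclideanSpace ℝ (Fin n)) M]
  [IsManifold 𝓘(ℝ, EuclideanSpace ℝ (Fin n)) ∞ M]
  {e e' e'' : OpenPartialHomeomorph M (EuclideanSpace ℝ (Fin n))}

lemma jac_comp (he : e ∈ atlas (EuclideanSpace ℝ (Fin n)) M)
    (he' : e' ∈ atlas (EuclideanSpace ℝ (Fin n)) M)
    (he'' : e'' ∈ atlas (EuclideanSpace ℝ (Fin n)) M) {p : M}
    (hp : p ∈ e.source) (hp' : p ∈ e'.source) (hp'' : p ∈ e''.source) :
    jacobianMatrix n M e' e'' p * jacobianMatrix n M e e' p = jacobianMatrix n M e e'' p := by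
  apply mL_injective
  refine LinearMap.ext fun X => ?_
  rw [mL_mul, ← jac_eq he he' ⟨hp, hp'⟩, ← jac_eq he' he'' ⟨hp', hp''⟩, ← jac_eq he he'' ⟨hp, hp''⟩]
  have h1 : DifferentiableAt ℝ (chg e e') (e p) := chg_diff he he' (mem_dom ⟨hp, hp'⟩)
  have h2 : DifferentiableAt ℝ (chg e' e'') (chg e e' (e p)) := by
    rw [chg_apply hp]; exact chg_diff he' he'' (mem_dom ⟨hp', hp''⟩)
  have h3 : (chg e' e'' ∘ chg e e') =ᶠ[𝓝 (e p)] chg e e'' := by
    filter_upwards [(isOpen_dom e e').mem_nhds (mem_dom ⟨hp, hp'⟩)] with y hy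
    show e'' (e'.symm (e' (e.symm y))) = e'' (e.symm y)
    rw [e'.left_inv hy.2]
  have h4 := fderiv_comp (x := e p) h2 h1
  rw [h3.fderiv_eq, chg_apply hp] at h4
  rw [h4]
  rfl

lemma jac_self (he : e ∈ atlas (EuclideanSpace ℝ (Fin n)) M) {p : M} (hp : p ∈ e.source) :
    jacobianMatrix n M e e p = 1 := by
  apply mL_injective
  refine LinearMap.ext fun X => ?_
  rw [mL_one, ← jac_eq he he ⟨hp, hp⟩]
  have h3 : chg e e =ᶠ[𝓝 (e p)] id := by
    filter_upwards [(isOpen_dom e e).mem_nhds (mem_dom ⟨hp, hp⟩)] with y hy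
    exact e.right_inv hy.1
  rw [h3.fderiv_eq, fderiv_id]
  rfl

lemma jac_inv (he : e ∈ atlas (EuclideanSpace ℝ (Fin n)) M)
    (he' : e' ∈ atlas (EuclideanSpace ℝ (Fin n)) M) {p : M}
    (hp : p ∈ e.source) (hp' : p ∈ e'.source) :
    jacobianMatrix n M e' e p * jacobianMatrix n M e e' p = 1 := by
  rw [jac_comp he he' he hp hp' hp, jac_self he hp]

/-! ### the cocycle -/

/-- index set of the frames: an atlas chart and a sign -/
structure Idx (n : ℕ) (M : Type) [TopologicalSpace M]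
    [ChartedSpace (EuclideanSpace ℝ (Fin n)) M] : Type where
  /-- the chart -/
  e : OpenPartialHomeomorph M (EuclideanSpace ℝ (Fin n))
  he : e ∈ atlas (EuclideanSpace ℝ (Fin n)) M
  /-- the sign: `true` = frame `Q.J e`, `false` = frame `(-J 0, J 1, -J 2)` -/
  s : Bool

variable {G : ChartMetric n M} (Q : QuaternionicStructure n M G)

/-- the frame with index `k` -/
def fr (k : Idx n M) : Fin 3 → EuclideanSpace ℝ (Fin n) → Matrix (Fin n) (Fin n) ℝ :=
  flip k.s (Q.J k.e)

omit [IsManifold 𝓘(ℝ, EuclideanSpace ℝ (Fin n)) ∞ M] in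
lemma qk (k : Idx n M) : QKOn (G.g k.e) (fr Q k) k.e.target := qkOn_flip (qkOn G Q k.he) k.s

/-- the transition matrix: `P (J_a) P⁻¹ = Σ_b q_ba J'_b` -/
def qm (k k' : Idx n M) (p : M) : Matrix (Fin 3) (Fin 3) ℝ :=
  Matrix.of fun b a => -(1 / (n : ℝ)) * (jacobianMatrix n M k.e k'.e p * fr Q k a (k.e p) *
    jacobianMatrix n M k'.e k.e p * fr Q k' b (k'.e p)).trace

lemma qm_unique (hn : n ≠ 0) {k k' : Idx n M} {p : M} (hp : p ∈ k.e.source) (hp' : p ∈ k'.e.source)
    {a : Fin 3} {c : Fin 3 → ℝ} (h : jacobianMatrix n M k.e k'.e p * fr Q k a (k.e p) =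
      (∑ b, c b • fr Q k' b (k'.e p)) * jacobianMatrix n M k.e k'.e p) (b : Fin 3) :
    qm Q k k' p b a = c b := by
  have hn' : (n : ℝ) ≠ 0 := Nat.cast_ne_zero.2 hn
  simp only [qm, Matrix.of_apply]
  rw [h, Matrix.mul_assoc _ (jacobianMatrix n M k.e k'.e p),
    jac_inv k'.he k.he hp' hp, Matrix.mul_one, (qk Q k').trace_comb (k'.e.map_source hp')]
  field_simp

lemma qm_spec (hn : n ≠ 0) {k k' : Idx n M} {p : M} (hp : p ∈ k.e.source) (hp' : p ∈ k'.e.source)
    (a : Fin 3) : jacobianMatrix n M k.e k'.e p * fr Q k a (k.e p) =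
      (∑ b, qm Q k k' p b a • fr Q k' b (k'.e p)) * jacobianMatrix n M k.e k'.e p := by
  obtain ⟨c, hc⟩ := Q.compat k.e k.he k'.e k'.he p ⟨hp, hp'⟩ a
  have h : jacobianMatrix n M k.e k'.e p * fr Q k a (k.e p) =
      (∑ b, (sg k.s a * c b * sg k'.s b) • fr Q k' b (k'.e p)) * jacobianMatrix n M k.e k'.e p := by
    simp only [fr, flip]
    rw [Matrix.mul_smul, hc, ← Matrix.smul_mul, Finset.smul_sum]
    congr 1
    refine Finset.sum_congr rfl fun b _ => ?_
    rw [smul_smul, smul_smul]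
    congr 1
    rw [mul_assoc (sg k.s a * c b), sg_sq, mul_one]
  have hq : ∀ b, qm Q k k' p b a = sg k.s a * c b * sg k'.s b := qm_unique Q hn hp hp' h
  simp only [hq]
  exact h

lemma qm_uJ (hn : n ≠ 0) {k k' : Idx n M} {p : M} (hp : p ∈ k.e.source) (hp' : p ∈ k'.e.source)
    (u : Fin 3 → ℝ) : jacobianMatrix n M k.e k'.e p * uJ u (fun a => fr Q k a (k.e p)) =
      uJ (qm Q k k' p *ᵥ u) (fun a => fr Q k' a (k'.e p)) * jacobianMatrix n M k.e k'.e p := by
  simp only [uJ, Finset.mul_sum, Matrix.mul_smul, qm_spec Q hn hp hp', Finset.sum_mul,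
    Finset.smul_sum, Matrix.mulVec, dotProduct, Finset.sum_smul, Matrix.smul_mul, smul_smul]
  rw [Finset.sum_comm]
  refine Finset.sum_congr rfl fun b _ => Finset.sum_congr rfl fun a _ => ?_
  rw [mul_comm]

lemma qm_unique' (hn : n ≠ 0) {k k' : Idx n M} {p : M} (hp : p ∈ k.e.source)
    (hp' : p ∈ k'.e.source) {q : Matrix (Fin 3) (Fin 3) ℝ}
    (h : ∀ u : Fin 3 → ℝ, jacobianMatrix n M k.e k'.e p * uJ u (fun a => fr Q k a (k.e p)) =
      uJ (q *ᵥ u) (fun a => fr Q k' a (k'.e p)) * jacobianMatrix n M k.e k'.e p) :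
    qm Q k k' p = q := by
  ext b a
  have h1 := h (Pi.single a 1)
  have h2 : uJ (Pi.single a 1) (fun a => fr Q k a (k.e p)) = fr Q k a (k.e p) := by
    simp only [uJ]
    rw [Finset.sum_eq_single a]
    · simp
    · intro c _ hc; simp [hc]
    · simp
  rw [h2] at h1
  have h3 : q *ᵥ (Pi.single a 1) = fun b => q b a := by
    funext b; simp
  rw [h3] at h1
  exact qm_unique Q hn hp hp' h1 b

lemma uJ_inj {g : MetricField n} {J : Fin 3 → 𝔼 → Matrix (Fin n) (Fin n) ℝ} {U : Set 𝔼}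
    (h : QKOn g J U) {x : 𝔼} (hx : x ∈ U) (hn : n ≠ 0) {s t : ℝ} {u v : Fin 3 → ℝ}
    (e : s • (1 : Matrix (Fin n) (Fin n) ℝ) + uJ u (fun a => J a x) =
      t • (1 : Matrix (Fin n) (Fin n) ℝ) + uJ v (fun a => J a x)) : s = t ∧ u = v := by
  have hn' : (n : ℝ) ≠ 0 := Nat.cast_ne_zero.2 hn
  have ht : ∀ u : Fin 3 → ℝ, (uJ u (fun a => J a x)).trace = 0 := by
    intro u
    simp only [uJ, Matrix.trace_sum, Matrix.trace_smul, h.trace_J hx, smul_zero,
      Finset.sum_const_zero]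
  have h1 := congrArg Matrix.trace e
  rw [Matrix.trace_add, Matrix.trace_add, ht, ht, Matrix.trace_smul, Matrix.trace_smul,
    Matrix.trace_one, Fintype.card_fin, add_zero, add_zero, smul_eq_mul, smul_eq_mul] at h1
  have hst : s = t := mul_right_cancel₀ hn' h1
  refine ⟨hst, ?_⟩
  rw [hst] at e
  exact h.comb_inj hx hn (add_left_cancel e)

theorem qm_so (hn : n ≠ 0) {k k' : Idx n M} {p : M} (hp : p ∈ k.e.source)
    (hp' : p ∈ k'.e.source) : SO (qm Q k k' p) := by
  have key : ∀ u v : Fin 3 → ℝ, -(u ⬝ᵥ v) = -((qm Q k k' p *ᵥ u) ⬝ᵥ (qm Q k k' p *ᵥ v)) ∧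
      qm Q k k' p *ᵥ cr u v = cr (qm Q k k' p *ᵥ u) (qm Q k k' p *ᵥ v) := by
    intro u v
    refine uJ_inj (qk Q k') (k'.e.map_source hp') hn ?_
    have h1 : jacobianMatrix n M k.e k'.e p * (uJ u (fun a => fr Q k a (k.e p)) *
        uJ v (fun a => fr Q k a (k.e p))) = (uJ (qm Q k k' p *ᵥ u) (fun a => fr Q k' a (k'.e p)) *
        uJ (qm Q k k' p *ᵥ v) (fun a => fr Q k' a (k'.e p))) * jacobianMatrix n M k.e k'.e p := by
      rw [← Matrix.mul_assoc, qm_uJ Q hn hp hp', Matrix.mul_assoc, qm_uJ Q hn hp hp',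
        Matrix.mul_assoc]
    rw [uJ_mul (qk Q k) (k.e.map_source hp), uJ_mul (qk Q k') (k'.e.map_source hp'),
      Matrix.mul_add, qm_uJ Q hn hp hp', Matrix.mul_smul, Matrix.mul_one] at h1
    have h2 := congrArg (fun A => A * jacobianMatrix n M k'.e k.e p) h1
    simp only [Matrix.add_mul, Matrix.smul_mul, Matrix.mul_assoc, jac_inv k'.he k.he hp' hp,
      Matrix.mul_one, Matrix.one_mul] at h2
    exact h2
  refine ⟨?_, fun u v => (key u v).2.symm⟩
  ext a b
  have h1 := neg_injective (key (Pi.single a 1) (Pi.single b 1)).1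
  have h2 : ∀ a, qm Q k k' p *ᵥ (Pi.single a 1) = fun b => qm Q k k' p b a := by
    intro a; funext b; simp
  rw [h2, h2] at h1
  rw [Matrix.mul_apply]
  simp only [Matrix.transpose_apply]
  rw [show (∑ j, qm Q k k' p j a * qm Q k k' p j b) =
    (fun c => qm Q k k' p c a) ⬝ᵥ (fun c => qm Q k k' p c b) from rfl, ← h1]
  simp [Matrix.one_apply, Pi.single_apply, eq_comm]

theorem qm_self (hn : n ≠ 0) {k : Idx n M} {p : M} (hp : p ∈ k.e.source) : qm Q k k p = 1 := by
  refine qm_unique' Q hn hp hp fun u => ?_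
  rw [jac_self k.he hp, Matrix.one_mul, Matrix.mul_one, Matrix.one_mulVec]

theorem qm_comp (hn : n ≠ 0) {i j k : Idx n M} {p : M} (hi : p ∈ i.e.source)
    (hj : p ∈ j.e.source) (hk : p ∈ k.e.source) : qm Q j k p * qm Q i j p = qm Q i k p := by
  symm
  refine qm_unique' Q hn hi hk fun u => ?_
  rw [← jac_comp i.he j.he k.he hi hj hk, Matrix.mul_assoc, qm_uJ Q hn hi hj,
    ← Matrix.mul_assoc, qm_uJ Q hn hj hk, Matrix.mul_assoc, Matrix.mulVec_mulVec]

/-! ### smoothness of the transition matrices in the charts -/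

lemma jac_chg (he : e ∈ atlas (EuclideanSpace ℝ (Fin n)) M)
    (he' : e' ∈ atlas (EuclideanSpace ℝ (Fin n)) M) {y : 𝔼} (hy : y ∈ dom e e') (l p : Fin n) :
    jacobianMatrix n M e e' (e.symm y) l p = (fderiv ℝ (chg e e') y (EuclideanSpace.single p 1)) l := by
  have h3 := jac_eq he he' ⟨e.map_target hy.1, hy.2⟩ (EuclideanSpace.single p 1)
  rw [e.right_inv hy.1] at h3
  rw [h3, mL_single]

lemma jac_chg' (he : e ∈ atlas (EuclideanSpace ℝ (Fin n)) M)
    (he' : e' ∈ atlas (EuclideanSpace ℝ (Fin n)) M) {y : 𝔼} (hy : y ∈ dom e e') (l p : Fin n) :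
    jacobianMatrix n M e' e (e.symm y) l p =
      (fderiv ℝ (chg e' e) (chg e e' y) (EuclideanSpace.single p 1)) l := by
  have h1 := jac_chg he' he (chg_mem hy) l p
  have h2 : e'.symm (chg e e' y) = e.symm y := e'.left_inv hy.2
  rw [h2] at h1
  exact h1

lemma smooth_fderiv_chg (he : e ∈ atlas (EuclideanSpace ℝ (Fin n)) M)
    (he' : e' ∈ atlas (EuclideanSpace ℝ (Fin n)) M) (l p : Fin n) :
    ContDiffOn ℝ ∞ (fun y => (fderiv ℝ (chg e e') y (EuclideanSpace.single p 1)) l) (dom e e') := by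
  have h1 : ContDiffOn ℝ ∞ (fun y => fderiv ℝ (chg e e') y (EuclideanSpace.single p (1:ℝ)))
      (dom e e') :=
    ((chg_smooth he he').fderiv_of_isOpen (isOpen_dom e e') (by norm_num)).clm_apply
      contDiffOn_const
  exact (EuclideanSpace.proj l : EuclideanSpace ℝ (Fin n) →L[ℝ] ℝ).contDiff.comp_contDiffOn h1

theorem qm_smooth (i j : Idx n M) (b a : Fin 3) :
    ContDiffOn ℝ ∞ (fun y => qm Q i j (i.e.symm y) b a) (dom i.e j.e) := by
  simp only [qm, Matrix.of_apply, Matrix.trace, Matrix.diag_apply, Matrix.mul_apply]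
  refine contDiffOn_const.mul (ContDiffOn.sum fun l _ => ContDiffOn.sum fun r _ => ?_)
  refine ContDiffOn.mul (ContDiffOn.sum fun s _ => ?_) ?_
  · refine ContDiffOn.mul (ContDiffOn.sum fun t _ => ?_) ?_
    · refine ContDiffOn.mul ?_ ?_
      · exact (smooth_fderiv_chg i.he j.he l t).congr fun y hy => jac_chg i.he j.he hy l t
      · refine (((qk Q i).smooth a t s).mono fun y hy => hy.1).congr fun y hy => ?_
        rw [i.e.right_inv hy.1]
    · refine ((smooth_fderiv_chg j.he i.he s r).comp (chg_smooth i.he j.he)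
        fun y hy => chg_mem hy).congr fun y hy => ?_
      exact jac_chg' i.he j.he hy s r
  · exact ((qk Q j).smooth b r l).comp (chg_smooth i.he j.he) fun y hy => (chg_mem hy).1

theorem qm_cont (i j : Idx n M) (b a : Fin 3) :
    ContinuousOn (fun p => qm Q i j p b a) (i.e.source ∩ j.e.source) := by
  have h := (qm_smooth Q i j b a).continuousOn
  have h2 : ContinuousOn (fun p => qm Q i j (i.e.symm (i.e p)) b a) (i.e.source ∩ j.e.source) :=
    h.comp (i.e.continuousOn.mono inter_subset_left) fun p hp => mem_dom hp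
  exact h2.congr fun p hp => by simp only [i.e.left_inv hp.1]

/-- **the cocycle of the bundle of spheres** -/
def coc (hn : n ≠ 0) : Coc M (Idx n M) where
  U k := k.e.source
  isOpen_U k := k.e.open_source
  idx p := ⟨chartAt (EuclideanSpace ℝ (Fin n)) p, chart_mem_atlas _ p, true⟩
  mem_idx p := mem_chart_source _ p
  q i j p := qm Q i j p
  orth _ _ _ hp := (qm_so Q hn hp.1 hp.2).orth
  self _ _ hp := qm_self Q hn hp
  comp _ _ _ _ hp := qm_comp Q hn hp.1.1 hp.1.2 hp.2
  cont i j a b := qm_cont Q i j a b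

end manifold

end Crest.Agent.R260.Tw_979
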