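import Crest.Agent.R260.Tw3_979
import Crest.Agent.R260.Tw5_979
import Crest.Agent.R260.Qk8_151
import Crest.Agent.R260.ACM_580

/-!
Row 260, leaf TW-Z (helper979), part 6: the charts of the twistor space and the almost complex
manifold `acm`.
-/

set_option autoImplicit false

open scoped Manifold ContDiff Topology
open Filter Set Complex Matrix
open Crest.GeometryTopology.CoordMetric
open Crest.GeometryTopology.ChartRiem

noncomputable section

namespace Crest.Agent.R260.Tw_979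

open Crest.Agent.R202.Tens
open Crest.Agent.R260.Qk3_151 Crest.Agent.R260.Qk4_151 Crest.Agent.R260.Qk7_151

variable {n : ℕ}

local notation "𝔼" => EuclideanSpace ℝ (Fin n)

/-! ### the connection vector of a frame -/

/-- contraction of the connection coefficients with a tangent vector -/
def Cx (g : MetricField n) (J : Fin 3 → EuclideanSpace ℝ (Fin n) → Matrix (Fin n) (Fin n) ℝ)
    (y X : EuclideanSpace ℝ (Fin n)) (a b : Fin 3) : ℝ := ∑ i, X i * cf g J y i a b

/-- the pairs of indices defining `Θ` -/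
def ti : Fin 3 → Fin 3 × Fin 3 := ![(2, 1), (0, 2), (1, 0)]

/-- the connection form `Θ = (cf 2 1, cf 0 2, cf 1 0)` -/
def Th (g : MetricField n) (J : Fin 3 → EuclideanSpace ℝ (Fin n) → Matrix (Fin n) (Fin n) ℝ)
    (y : EuclideanSpace ℝ (Fin n)) (a : Fin 3) : EuclideanSpace ℝ (Fin n) →L[ℝ] ℝ :=
  ∑ i, cf g J y i (ti a).1 (ti a).2 • (EuclideanSpace.proj i : EuclideanSpace ℝ (Fin n) →L[ℝ] ℝ)

lemma Th_apply (g : MetricField n) (J : Fin 3 → 𝔼 → Matrix (Fin n) (Fin n) ℝ) (y X : 𝔼)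
    (a : Fin 3) : Th g J y a X = Cx g J y X (ti a).1 (ti a).2 := by
  simp only [Th, Cx, _root_.sum_apply, _root_.smul_apply, smul_eq_mul]
  exact Finset.sum_congr rfl fun i _ => mul_comm _ _

lemma Cx_antisymm {g : MetricField n} {J : Fin 3 → 𝔼 → Matrix (Fin n) (Fin n) ℝ} {U : Set 𝔼}
    (h : QKOn g J U) {y : 𝔼} (hy : y ∈ U) (X : 𝔼) (a b : Fin 3) :
    Cx g J y X a b = -Cx g J y X b a := by
  simp only [Cx]
  rw [← Finset.sum_neg_distrib]
  refine Finset.sum_congr rfl fun i _ => ?_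
  rw [h.cf_antisymm hy i a b]
  ring

lemma sum_Cx {g : MetricField n} {J : Fin 3 → 𝔼 → Matrix (Fin n) (Fin n) ℝ} {U : Set 𝔼}
    (h : QKOn g J U) {y : 𝔼} (hy : y ∈ U) (X : 𝔼) (x : Fin 3 → ℝ) (b : Fin 3) :
    ∑ a, x a * Cx g J y X a b = -cr (thv (Th g J) y X) x b := by
  have h0 : ∀ a, Cx g J y X a a = 0 := fun a => by
    have := Cx_antisymm h hy X a a; linarith
  have t0 : thv (Th g J) y X 0 = Cx g J y X 2 1 := Th_apply g J y X 0
  have t1 : thv (Th g J) y X 1 = Cx g J y X 0 2 := Th_apply g J y X 1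
  have t2 : thv (Th g J) y X 2 = Cx g J y X 1 0 := Th_apply g J y X 2
  have a01 := Cx_antisymm h hy X 0 1
  have a12 := Cx_antisymm h hy X 1 2
  have a20 := Cx_antisymm h hy X 2 0
  fin_cases b
  · simp only [Fin.sum_univ_three, cr, t0, t1, t2, h0, Fin.zero_eta, Matrix.cons_val_zero]
    rw [a20]; ring
  · simp only [Fin.sum_univ_three, cr, t0, t1, t2, h0, Fin.mk_one, Matrix.cons_val_one,
      Matrix.cons_val_zero]
    rw [a01]; ring
  · simp only [Fin.sum_univ_three, cr, t0, t1, t2, h0, Fin.reduceFinMk, Matrix.cons_val]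
    rw [a12]; ring

section manifold

variable {M : Type} [TopologicalSpace M] [ChartedSpace (EuclideanSpace ℝ (Fin n)) M]
  [IsManifold 𝓘(ℝ, EuclideanSpace ℝ (Fin n)) ∞ M]
  {G : ChartMetric n M} (Q : QuaternionicStructure n M G)

/-- the two frames `i`, `j` as a pair in the sense of 151 -/
lemma pair (hn : n ≠ 0) (i j : Idx n M) : Qk8_151.Pair (G.g i.e) (G.g j.e) (fr Q i) (fr Q j)
    (chg i.e j.e) (dom i.e j.e) j.e.target where
  pull := pull_chart G i.he j.he
  qk := by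
    have h := qk Q i
    exact
    { riem := (pull_chart G i.he j.he).riem'
      smooth := fun a l p => (h.smooth a l p).mono fun y hy => hy.1
      sq := fun x hx => h.sq x hx.1
      mul := fun x hx => h.mul x hx.1
      orth := fun x hx => h.orth x hx.1
      par := fun x hx => h.par x hx.1 }
  qk' := qk Q j
  span := by
    intro y hy a
    have h := qm_spec Q hn (k := i) (k' := j) (p := i.e.symm y) (i.e.map_target hy.1) hy.2 a
    rw [i.e.right_inv hy.1] at h
    have h2 : jacobianMatrix n M i.e j.e (i.e.symm y) = Qk8_151.jm (chg i.e j.e) y := by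
      ext l p
      rw [jac_chg i.he j.he hy, Qk8_151.jm_coord (chg_diff i.he j.he hy)]
    rw [h2] at h
    exact ⟨_, h⟩

lemma qm_eq (hn : n ≠ 0) (i j : Idx n M) {y : 𝔼} (hy : y ∈ dom i.e j.e) (b a : Fin 3) :
    Qk8_151.qm (G.g i.e) (G.g j.e) (fr Q i) (fr Q j) (chg i.e j.e) y b a =
      qm Q i j (i.e.symm y) b a := by
  refine (pair Q hn i j).qm_unique hy hn (r := fun b => qm Q i j (i.e.symm y) b a) ?_ b
  have h := qm_spec Q hn (k := i) (k' := j) (p := i.e.symm y) (i.e.map_target hy.1) hy.2 a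
  rw [i.e.right_inv hy.1] at h
  have h2 : jacobianMatrix n M i.e j.e (i.e.symm y) = Qk8_151.jm (chg i.e j.e) y := by
    ext l p
    rw [jac_chg i.he j.he hy, Qk8_151.jm_coord (chg_diff i.he j.he hy)]
  rw [h2] at h
  exact h

/-- the transition matrix in the chart `i` -/
def qc (i j : Idx n M) (y : EuclideanSpace ℝ (Fin n)) : Matrix (Fin 3) (Fin 3) ℝ :=
  qm Q i j (i.e.symm y)

lemma qc_diff (i j : Idx n M) {y : 𝔼} (hy : y ∈ dom i.e j.e) (b a : Fin 3) :
    DifferentiableAt ℝ (fun y => qc Q i j y b a) y :=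
  ((qm_smooth Q i j b a).contDiffAt ((isOpen_dom _ _).mem_nhds hy)).differentiableAt (by norm_num)

lemma qc_so (hn : n ≠ 0) (i j : Idx n M) {y : 𝔼} (hy : y ∈ dom i.e j.e) : SO (qc Q i j y) :=
  qm_so Q hn (i.e.map_target hy.1) hy.2

/-- transformation law of the connection -/
theorem Cx_trans (hn : n ≠ 0) (i j : Idx n M) {y : 𝔼} (hy : y ∈ dom i.e j.e) (X : 𝔼)
    (a d : Fin 3) : ∑ b, Cx (G.g i.e) (fr Q i) y X a b * qc Q i j y d b =
      fderiv ℝ (fun z => qc Q i j z d a) y X + ∑ b, qc Q i j y b a *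
        Cx (G.g j.e) (fr Q j) (chg i.e j.e y) (fderiv ℝ (chg i.e j.e) y X) b d := by
  have h := fun l => (pair Q hn i j).cf_trans hy hn l a d
  simp only [qm_eq Q hn i j hy] at h
  have hd : (fun z => Qk8_151.qm (G.g i.e) (G.g j.e) (fr Q i) (fr Q j) (chg i.e j.e) z d a)
      =ᶠ[𝓝 y] fun z => qc Q i j z d a := by
    filter_upwards [(isOpen_dom _ _).mem_nhds hy] with z hz using qm_eq Q hn i j hz d a
  simp only [Qk3_151.pderiv_congr hd] at h
  have e1 : ∑ b, Cx (G.g i.e) (fr Q i) y X a b * qc Q i j y d b =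
      ∑ l, X l * ∑ b, cf (G.g i.e) (fr Q i) y l a b * qm Q i j (i.e.symm y) d b := by
    simp only [Cx, Finset.sum_mul, Finset.mul_sum, qc]
    rw [Finset.sum_comm]
    exact Finset.sum_congr rfl fun l _ => Finset.sum_congr rfl fun b _ => by ring
  rw [e1]
  simp only [h, mul_add, Finset.sum_add_distrib]
  congr 1
  · rw [fderiv_eq_sum]
  · have hP : ∀ k, (fderiv ℝ (chg i.e j.e) y X) k = ∑ l, Qk8_151.jm (chg i.e j.e) y k l * X l := by
      intro k
      rw [Qk8_151.jm_eq (chg_diff i.he j.he hy)]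
      rfl
    simp only [Cx, hP, Finset.mul_sum, Finset.sum_mul, qc]
    rw [Finset.sum_comm]
    refine Finset.sum_congr rfl fun b _ => ?_
    rw [Finset.sum_comm]
    exact Finset.sum_congr rfl fun k _ => Finset.sum_congr rfl fun l _ => by ring

theorem hT (hn : n ≠ 0) (i j : Idx n M) {y : 𝔼} (hy : y ∈ dom i.e j.e) (X : 𝔼)
    (x : Fin 3 → ℝ) :
    cr (thv (Th (G.g j.e) (fr Q j)) (chg i.e j.e y) (fderiv ℝ (chg i.e j.e) y X))
      (qc Q i j y *ᵥ x) =
    qc Q i j y *ᵥ cr (thv (Th (G.g i.e) (fr Q i)) y X) x +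
      (Matrix.of fun a b => fderiv ℝ (fun z => qc Q i j z a b) y X) *ᵥ x := by
  funext d
  have h := fun a => Cx_trans Q hn i j hy X a d
  have h1 : ∑ a, x a * ∑ b, Cx (G.g i.e) (fr Q i) y X a b * qc Q i j y d b =
      -(qc Q i j y *ᵥ cr (thv (Th (G.g i.e) (fr Q i)) y X) x) d := by
    have h2 := fun b => sum_Cx (qk Q i) hy.1 X x b
    simp only [Matrix.mulVec, dotProduct]
    rw [← Finset.sum_neg_distrib]
    simp only [Finset.mul_sum]
    rw [Finset.sum_comm]
    refine Finset.sum_congr rfl fun b _ => ?_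
    rw [← mul_neg, ← h2 b, Finset.mul_sum]
    exact Finset.sum_congr rfl fun a _ => by ring
  have h3 : ∑ a, x a * ∑ b, qc Q i j y b a * Cx (G.g j.e) (fr Q j) (chg i.e j.e y)
      (fderiv ℝ (chg i.e j.e) y X) b d =
      -(cr (thv (Th (G.g j.e) (fr Q j)) (chg i.e j.e y) (fderiv ℝ (chg i.e j.e) y X))
      (qc Q i j y *ᵥ x)) d := by
    rw [← sum_Cx (qk Q j) (chg_mem hy).1]
    simp only [Matrix.mulVec, dotProduct, Finset.mul_sum, Finset.sum_mul]
    rw [Finset.sum_comm]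
    exact Finset.sum_congr rfl fun a _ => Finset.sum_congr rfl fun b _ => by ring
  have h4 : ∑ a, x a * fderiv ℝ (fun z => qc Q i j z d a) y X =
      ((Matrix.of fun a b => fderiv ℝ (fun z => qc Q i j z a b) y X) *ᵥ x) d := by
    simp only [Matrix.mulVec, dotProduct, Matrix.of_apply]
    exact Finset.sum_congr rfl fun a _ => mul_comm _ _
  simp only [h, mul_add, Finset.sum_add_distrib] at h1
  rw [h3, h4] at h1
  rw [Pi.add_apply]
  linarith

/-! ### the almost complex structure in a chart -/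

/-- a matrix as a continuous linear map -/
def mc (A : Matrix (Fin n) (Fin n) ℝ) : EuclideanSpace ℝ (Fin n) →L[ℝ] EuclideanSpace ℝ (Fin n) :=
  LinearMap.toContinuousLinearMap (mL A)

lemma mc_apply (A : Matrix (Fin n) (Fin n) ℝ) (X : 𝔼) : mc A X = mL A X := rfl

lemma mc_eq_sum (A : Matrix (Fin n) (Fin n) ℝ) : mc A = ∑ l, ∑ p, A l p •
    (EuclideanSpace.proj p : 𝔼 →L[ℝ] ℝ).smulRight (EuclideanSpace.single l (1:ℝ)) := by
  refine ContinuousLinearMap.ext fun X => ?_
  ext k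
  rw [mc_apply, mL_apply]
  simp only [_root_.sum_apply, _root_.smul_apply, ContinuousLinearMap.smulRight_apply,
    WithLp.ofLp_sum, Finset.sum_apply, PiLp.smul_apply, smul_eq_mul, PiLp.single_apply]
  symm
  rw [Finset.sum_eq_single k]
  · refine Finset.sum_congr rfl fun p _ => ?_
    simp
  · intro b _ hb
    simp [hb.symm]
  · simp

/-- the operator fields of a frame -/
def Jop (J : Fin 3 → EuclideanSpace ℝ (Fin n) → Matrix (Fin n) (Fin n) ℝ)
    (y : EuclideanSpace ℝ (Fin n)) (a : Fin 3) :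
    EuclideanSpace ℝ (Fin n) →L[ℝ] EuclideanSpace ℝ (Fin n) := mc (J a y)

/-- **the almost complex structure of the twistor space in a frame** -/
def JT (g : MetricField n) (J : Fin 3 → EuclideanSpace ℝ (Fin n) → Matrix (Fin n) (Fin n) ℝ) :
    EuclideanSpace ℝ (Fin n) × ℂ →
      (EuclideanSpace ℝ (Fin n) × ℂ →L[ℝ] EuclideanSpace ℝ (Fin n) × ℂ) := JZ (Jop J) (Th g J)

theorem hJ (hn : n ≠ 0) (i j : Idx n M) {y : 𝔼} (hy : y ∈ dom i.e j.e) (a : Fin 3) (X : 𝔼) :
    fderiv ℝ (chg i.e j.e) y (Jop (fr Q i) y a X) =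
      ∑ b, qc Q i j y b a • Jop (fr Q j) (chg i.e j.e y) b (fderiv ℝ (chg i.e j.e) y X) := by
  have h := (pair Q hn i j).qm_spec hy hn a
  simp only [qm_eq Q hn i j hy] at h
  have h1 := congrArg (fun A => mL A X) h
  simp only [mL_mul] at h1
  rw [Qk8_151.jm_eq (chg_diff i.he j.he hy), Qk8_151.jm_eq (chg_diff i.he j.he hy)]
  simp only [Jop, mc_apply]
  rw [h1, mL_sum, LinearMap.sum_apply]
  refine Finset.sum_congr rfl fun b _ => ?_
  rw [mL_smul, LinearMap.smul_apply]
  rfl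

/-- **`J` commutes with the differentials of the transition maps** -/
theorem JT_compat (hn : n ≠ 0) (i j : Idx n M) {z : 𝔼 × ℂ} (hz : z.1 ∈ dom i.e j.e)
    (hd : tdom (qc Q i j) z) (v : 𝔼 × ℂ) :
    fderiv ℝ (trn (chg i.e j.e) (qc Q i j)) z (JT (G.g i.e) (fr Q i) z v) =
      JT (G.g j.e) (fr Q j) (trn (chg i.e j.e) (qc Q i j) z)
        (fderiv ℝ (trn (chg i.e j.e) (qc Q i j)) z v) := by
  refine JZ_compat (chg_diff i.he j.he hz) (fun a b => qc_diff Q i j hz a b) ?_
    (qc_so Q hn i j hz) hd (fun a X => hJ Q hn i j hz a X) (fun X x => hT Q hn i j hz X x) v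
  filter_upwards [(isOpen_dom i.e j.e).mem_nhds hz] with y hy using (qc_so Q hn i j hy).orth

/-! ### the charts -/

/-- the chart of the twistor space given by the frame `k` and the stereographic coordinate -/
def ch (hn : n ≠ 0) (k : Idx n M) :
    OpenPartialHomeomorph (coc Q hn).Z (EuclideanSpace ℝ (Fin n) × ℂ) :=
  ((coc Q hn).core.localTriv k).toOpenPartialHomeomorph.trans (k.e.prod ster)

lemma ch_apply (hn : n ≠ 0) (k : Idx n M) (z : (coc Q hn).Z) :
    ch Q hn k z = (k.e ((coc Q hn).pr z), st ((coc Q hn).fc k z).1) := rfl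

lemma ch_symm_apply (hn : n ≠ 0) (k : Idx n M) (z : 𝔼 × ℂ) :
    (ch Q hn k).symm z = (coc Q hn).mz k (k.e.symm z.1) (pt z.2) := rfl

lemma mem_ch_source (hn : n ≠ 0) (k : Idx n M) (z : (coc Q hn).Z) :
    z ∈ (ch Q hn k).source ↔
      (coc Q hn).pr z ∈ k.e.source ∧ 1 + ((coc Q hn).fc k z).1 0 ≠ 0 := by
  rw [ch, OpenPartialHomeomorph.trans_source]
  constructor
  · rintro ⟨h1, h2, h3⟩
    exact ⟨h2, h3⟩
  · rintro ⟨h1, h2⟩
    exact ⟨h1, h1, h2⟩

lemma mem_ch_target (hn : n ≠ 0) (k : Idx n M) (z : 𝔼 × ℂ) :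
    z ∈ (ch Q hn k).target ↔ z.1 ∈ k.e.target := by
  rw [ch, OpenPartialHomeomorph.trans_target]
  constructor
  · rintro ⟨⟨h1, -⟩, -⟩
    exact h1
  · intro h
    refine ⟨⟨h, mem_univ _⟩, ?_⟩
    show (k.e.symm z.1, pt z.2) ∈ ((coc Q hn).core.localTriv k).target
    rw [(coc Q hn).mem_target]
    exact k.e.map_target h

end manifold

end Crest.Agent.R260.Tw_979
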