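import Mathlib
import Crest.Agent.R260.Tw1_979

/-!
Row 260, leaf TW-LOC (helper847), part 1: the almost complex structure of the twistor space in the
local model `E × ℂ` and its integrability.

* `TwData`      : local quaternion-Kähler data in operator form;
* `Iw`, `bt`    : the complex structure `I_w = ∑ xx_a(w) J_a`, the horizontal lift `beta_w`;
* `JZ`          : the almost complex structure `J_Z(X,eta) = (I_w X, i eta + beta(I_w X) - i beta(X))`;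
* `JZ_sq`, `JZ_smooth`, `Nij_JZ`.
-/

set_option autoImplicit false
set_option linter.unusedSimpArgs false

open Complex Matrix
open scoped ContDiff Topology

noncomputable section

namespace Crest.Agent.R260.TwL_847

open Crest.Agent.R260.Tw_979

/-! ## Fibre calculus -/

/-- the derivative of `xx a` at `w` -/
def dxx (w : ℂ) (a : Fin 3) : ℂ →L[ℝ] ℝ :=
  (2 / den w ^ 2) • (reCLM.comp (ContinuousLinearMap.mul ℝ ℂ ((starRingEnd ℂ) (nn w a))))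

lemma dxx_apply (w : ℂ) (a : Fin 3) (z : ℂ) :
    dxx w a z = 2 / den w ^ 2 * ((starRingEnd ℂ) (nn w a) * z).re := by
  simp [dxx]

lemma nn_0 (w : ℂ) : nn w 0 = -2 * w := rfl
lemma nn_1 (w : ℂ) : nn w 1 = 1 - w ^ 2 := rfl
lemma nn_2 (w : ℂ) : nn w 2 = I * (1 + w ^ 2) := rfl
lemma nd_0 (w : ℂ) : nd w 0 = -2 := rfl
lemma nd_1 (w : ℂ) : nd w 1 = -2 * w := rfl
lemma nd_2 (w : ℂ) : nd w 2 = 2 * I * w := rfl
lemma xx_0 (w : ℂ) : xx w 0 = (1 - normSq w) / den w := rfl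
lemma xx_1 (w : ℂ) : xx w 1 = 2 * w.re / den w := rfl
lemma xx_2 (w : ℂ) : xx w 2 = 2 * w.im / den w := rfl

lemma hasDerivAt_nn (w : ℂ) (a : Fin 3) : HasDerivAt (fun z => nn z a) (nd w a) w := by
  fin_cases a
  · have h := (hasDerivAt_id w).const_mul (-2 : ℂ)
    rw [mul_one] at h
    exact h
  · have h := (hasDerivAt_pow 2 w).const_sub 1
    refine (h.congr_deriv ?_ : HasDerivAt (fun z : ℂ => 1 - z ^ 2) (-2 * w) w)
    push_cast; ring
  · have h := ((hasDerivAt_pow 2 w).const_add 1).const_mul I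
    refine (h.congr_deriv ?_ : HasDerivAt (fun z : ℂ => I * (1 + z ^ 2)) (2 * I * w) w)
    push_cast; ring

lemma hasFDerivAt_nn (w : ℂ) (a : Fin 3) :
    HasFDerivAt (fun z => nn z a) (ContinuousLinearMap.mul ℝ ℂ (nd w a)) w := by
  have h := (hasDerivAt_nn w a).hasFDerivAt.restrictScalars ℝ
  refine h.congr_fderiv ?_
  ext z
  simp [mul_comm]

lemma hasFDerivAt_re (w : ℂ) : HasFDerivAt (fun z : ℂ => z.re) reCLM w := reCLM.hasFDerivAt
lemma hasFDerivAt_im (w : ℂ) : HasFDerivAt (fun z : ℂ => z.im) imCLM w := imCLM.hasFDerivAt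

lemma hasFDerivAt_normSq (w : ℂ) :
    HasFDerivAt (fun z : ℂ => normSq z) ((2 * w.re) • reCLM + (2 * w.im) • imCLM) w := by
  have h1 := (hasFDerivAt_re w).mul (hasFDerivAt_re w)
  have h2 := (hasFDerivAt_im w).mul (hasFDerivAt_im w)
  have h := h1.add h2
  have e : (fun z : ℂ => normSq z) = ((fun z : ℂ => z.re) * fun z => z.re) +
      ((fun z : ℂ => z.im) * fun z => z.im) := by
    funext z; simp [normSq_apply]
  rw [e]
  refine h.congr_fderiv ?_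
  module

lemma hasFDerivAt_den (w : ℂ) :
    HasFDerivAt (fun z : ℂ => den z) ((2 * w.re) • reCLM + (2 * w.im) • imCLM) w := by
  have h := (hasFDerivAt_normSq w).const_add 1
  exact h

lemma hasFDerivAt_den_inv (w : ℂ) :
    HasFDerivAt (fun z : ℂ => (den z)⁻¹)
      ((-(den w ^ 2)⁻¹) • ((2 * w.re) • reCLM + (2 * w.im) • imCLM)) w := by
  have h := (hasDerivAt_inv (den_ne w)).comp_hasFDerivAt w (hasFDerivAt_den w)
  exact h

lemma hasFDerivAt_xx (w : ℂ) (a : Fin 3) : HasFDerivAt (fun z => xx z a) (dxx w a) w := by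
  have hd := den_ne w
  fin_cases a
  · have h := ((hasFDerivAt_normSq w).const_sub 1).mul (hasFDerivAt_den_inv w)
    refine (h.congr_fderiv ?_ : HasFDerivAt (fun z : ℂ => (1 - normSq z) / den z) (dxx w 0) w)
    ext z
    rw [dxx_apply, nn_0]
    simp
    field_simp
    simp only [den, normSq_apply]; ring
  · have h := ((hasFDerivAt_re w).const_mul 2).mul (hasFDerivAt_den_inv w)
    refine (h.congr_fderiv ?_ : HasFDerivAt (fun z : ℂ => 2 * z.re / den z) (dxx w 1) w)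
    ext z
    rw [dxx_apply, nn_1]
    simp [pow_two]
    field_simp
    simp only [den, normSq_apply]; ring
  · have h := ((hasFDerivAt_im w).const_mul 2).mul (hasFDerivAt_den_inv w)
    refine (h.congr_fderiv ?_ : HasFDerivAt (fun z : ℂ => 2 * z.im / den z) (dxx w 2) w)
    ext z
    rw [dxx_apply, nn_2]
    simp [pow_two]
    field_simp
    simp only [den, normSq_apply]; ring

/-- `x · dx(z) = 0` -/
lemma xx_dxx (w z : ℂ) : xx w 0 * dxx w 0 z + xx w 1 * dxx w 1 z + xx w 2 * dxx w 2 z = 0 := by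
  have hd := den_ne w
  simp only [dxx_apply, nn_0, nn_1, nn_2, xx_0, xx_1, xx_2]
  simp [pow_two]
  field_simp
  simp only [den, normSq_apply]; ring

/-- `x × dx(z) = dx(i z)` -/
lemma cr_xx_dxx (w z : ℂ) (a : Fin 3) :
    cr (xx w) (fun b => dxx w b z) a = dxx w a (I * z) := by
  have hd := den_ne w
  fin_cases a
  · show xx w 1 * dxx w 2 z - xx w 2 * dxx w 1 z = dxx w 0 (I * z)
    simp only [dxx_apply, nn_0, nn_1, nn_2, xx_0, xx_1, xx_2]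
    simp [pow_two]
    field_simp
    simp only [den, normSq_apply]; ring
  · show xx w 2 * dxx w 0 z - xx w 0 * dxx w 2 z = dxx w 1 (I * z)
    simp only [dxx_apply, nn_0, nn_1, nn_2, xx_0, xx_1, xx_2]
    simp [pow_two]
    field_simp
    simp only [den, normSq_apply]; ring
  · show xx w 0 * dxx w 1 z - xx w 1 * dxx w 0 z = dxx w 2 (I * z)
    simp only [dxx_apply, nn_0, nn_1, nn_2, xx_0, xx_1, xx_2]
    simp [pow_two]
    field_simp
    simp only [den, normSq_apply]; ring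

/-- `dx(-(i/2) n·T) = - x × T` for real `T` -/
lemma dxx_lift (w : ℂ) (T : Fin 3 → ℝ) (a : Fin 3) :
    dxx w a (-(I / 2) * (nn w 0 * T 0 + nn w 1 * T 1 + nn w 2 * T 2)) = - cr (xx w) T a := by
  have hd := den_ne w
  fin_cases a
  · show dxx w 0 (-(I / 2) * (nn w 0 * T 0 + nn w 1 * T 1 + nn w 2 * T 2)) =
      -(xx w 1 * T 2 - xx w 2 * T 1)
    simp only [dxx_apply, nn_0, nn_1, nn_2, xx_0, xx_1, xx_2]
    simp [pow_two]
    field_simp
    simp only [den, normSq_apply]; ring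
  · show dxx w 1 (-(I / 2) * (nn w 0 * T 0 + nn w 1 * T 1 + nn w 2 * T 2)) =
      -(xx w 2 * T 0 - xx w 0 * T 2)
    simp only [dxx_apply, nn_0, nn_1, nn_2, xx_0, xx_1, xx_2]
    simp [pow_two]
    field_simp
    simp only [den, normSq_apply]; ring
  · show dxx w 2 (-(I / 2) * (nn w 0 * T 0 + nn w 1 * T 1 + nn w 2 * T 2)) =
      -(xx w 0 * T 1 - xx w 1 * T 0)
    simp only [dxx_apply, nn_0, nn_1, nn_2, xx_0, xx_1, xx_2]
    simp [pow_two]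
    field_simp
    simp only [den, normSq_apply]; ring

/-! ## Local data -/

variable {E : Type*} [NormedAddCommGroup E] [NormedSpace ℝ E]

/-- local quaternion-Kähler data in operator form: `J a` quaternionic triple, `Th` the connection
form (`∇_X J = Th(X) × J`), `Ga` the (symmetric) Christoffel form, `g` the metric; the last field is
`dTh - Th × Th = - nu omega`, `omega_c(X,Y) = g(X, J_c Y)`. -/
structure TwData (J : Fin 3 → E → E →L[ℝ] E) (Th : Fin 3 → E → E →L[ℝ] ℝ)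
    (Ga : E → E →L[ℝ] E →L[ℝ] E) (g : E → E →L[ℝ] E →L[ℝ] ℝ) (nu : ℝ) (U : Set E) : Prop where
  isOpen : IsOpen U
  Jsm : ∀ a, ContDiffOn ℝ ∞ (J a) U
  Tsm : ∀ a, ContDiffOn ℝ ∞ (Th a) U
  gsm : ContDiffOn ℝ ∞ g U
  quat : ∀ x ∈ U, QT (fun a => J a x)
  gsymm : ∀ x ∈ U, ∀ X Y, g x X Y = g x Y X
  gJ : ∀ x ∈ U, ∀ a X Y, g x (J a x X) Y = - g x X (J a x Y)
  gpos : ∀ x ∈ U, ∀ X, X ≠ 0 → 0 < g x X X
  Gsymm : ∀ x ∈ U, ∀ X Y, Ga x X Y = Ga x Y X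
  par : ∀ x ∈ U, ∀ X Y,
    fderiv ℝ (J 0) x X Y = J 0 x (Ga x X Y) - Ga x X (J 0 x Y)
      + (Th 1 x X • J 2 x Y - Th 2 x X • J 1 x Y) ∧
    fderiv ℝ (J 1) x X Y = J 1 x (Ga x X Y) - Ga x X (J 1 x Y)
      + (Th 2 x X • J 0 x Y - Th 0 x X • J 2 x Y) ∧
    fderiv ℝ (J 2) x X Y = J 2 x (Ga x X Y) - Ga x X (J 2 x Y)
      + (Th 0 x X • J 1 x Y - Th 1 x X • J 0 x Y)
  main : ∀ x ∈ U, ∀ X Y c,
    fderiv ℝ (Th c) x X Y - fderiv ℝ (Th c) x Y X =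
      cr (fun a => Th a x X) (fun a => Th a x Y) c - nu * g x X (J c x Y)

/-- `I_w = ∑ xx_a(w) J_a(x)` at `p = (x,w)` -/
def Iw (J : Fin 3 → E → E →L[ℝ] E) (p : E × ℂ) : E →L[ℝ] E := ∑ a, xx p.2 a • J a p.1

/-- `∑ z_a Th_a(x)` as a complex valued form -/
def zt (Th : Fin 3 → E → E →L[ℝ] ℝ) (x : E) (z : Fin 3 → ℂ) : E →L[ℝ] ℂ :=
  ∑ a, z a • (ofRealCLM.comp (Th a x))

/-- the horizontal lift `beta_w(X) = -(i/2) nn(w)·Th(X)` -/
def bt (Th : Fin 3 → E → E →L[ℝ] ℝ) (p : E × ℂ) : E →L[ℝ] ℂ := (-(I / 2)) • zt Th p.1 (nn p.2)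

/-- `beta'_w(X) = -(i/2) nd(w)·Th(X)` -/
def bp (Th : Fin 3 → E → E →L[ℝ] ℝ) (p : E × ℂ) : E →L[ℝ] ℂ := (-(I / 2)) • zt Th p.1 (nd p.2)

/-- the almost complex structure of the twistor space -/
def JZ (J : Fin 3 → E → E →L[ℝ] E) (Th : Fin 3 → E → E →L[ℝ] ℝ) (p : E × ℂ) :
    (E × ℂ) →L[ℝ] (E × ℂ) :=
  (ContinuousLinearMap.inl ℝ E ℂ).comp ((Iw J p).comp (ContinuousLinearMap.fst ℝ E ℂ)) +
  (ContinuousLinearMap.inr ℝ E ℂ).comp (I • ContinuousLinearMap.snd ℝ E ℂ +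
    ((bt Th p).comp (Iw J p)).comp (ContinuousLinearMap.fst ℝ E ℂ) -
    I • (bt Th p).comp (ContinuousLinearMap.fst ℝ E ℂ))

variable {J : Fin 3 → E → E →L[ℝ] E} {Th : Fin 3 → E → E →L[ℝ] ℝ}
  {Ga : E → E →L[ℝ] E →L[ℝ] E} {g : E → E →L[ℝ] E →L[ℝ] ℝ} {nu : ℝ} {U : Set E}

lemma Iw_apply (p : E × ℂ) (X : E) : Iw J p X =
    xx p.2 0 • J 0 p.1 X + xx p.2 1 • J 1 p.1 X + xx p.2 2 • J 2 p.1 X := by
  simp [Iw, Fin.sum_univ_three]

lemma zt_apply (x : E) (z : Fin 3 → ℂ) (X : E) :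
    zt Th x z X = z 0 * Th 0 x X + z 1 * Th 1 x X + z 2 * Th 2 x X := by
  simp [zt, Fin.sum_univ_three]

lemma bt_apply (p : E × ℂ) (X : E) : bt Th p X =
    -(I / 2) * (nn p.2 0 * Th 0 p.1 X + nn p.2 1 * Th 1 p.1 X + nn p.2 2 * Th 2 p.1 X) := by
  simp [bt, zt_apply]

lemma bp_apply (p : E × ℂ) (X : E) : bp Th p X =
    -(I / 2) * (nd p.2 0 * Th 0 p.1 X + nd p.2 1 * Th 1 p.1 X + nd p.2 2 * Th 2 p.1 X) := by
  simp [bp, zt_apply]

lemma JZ_apply (p v : E × ℂ) : JZ J Th p v =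
    (Iw J p v.1, I * v.2 + bt Th p (Iw J p v.1) - I * bt Th p v.1) := by
  simp [JZ]

/-- multiplication table of a quaternionic triple of operators, evaluated -/
lemma qt_app {A : Fin 3 → E →L[ℝ] E} (hq : QT A) :
    (∀ X, A 0 (A 0 X) = -X) ∧ (∀ X, A 1 (A 1 X) = -X) ∧ (∀ X, A 2 (A 2 X) = -X) ∧
    (∀ X, A 0 (A 1 X) = A 2 X) ∧ (∀ X, A 1 (A 0 X) = -(A 2 X)) ∧ (∀ X, A 1 (A 2 X) = A 0 X) ∧
    (∀ X, A 2 (A 1 X) = -(A 0 X)) ∧ (∀ X, A 2 (A 0 X) = A 1 X) ∧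
    (∀ X, A 0 (A 2 X) = -(A 1 X)) := by
  refine ⟨fun X => ?_, fun X => ?_, fun X => ?_, fun X => ?_, fun X => ?_, fun X => ?_,
    fun X => ?_, fun X => ?_, fun X => ?_⟩
  · exact congrArg (fun f : E →L[ℝ] E => f X) (hq.sq 0)
  · exact congrArg (fun f : E →L[ℝ] E => f X) (hq.sq 1)
  · exact congrArg (fun f : E →L[ℝ] E => f X) (hq.sq 2)
  · exact congrArg (fun f : E →L[ℝ] E => f X) hq.m01
  · exact congrArg (fun f : E →L[ℝ] E => f X) hq.m10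
  · exact congrArg (fun f : E →L[ℝ] E => f X) hq.m12
  · exact congrArg (fun f : E →L[ℝ] E => f X) hq.m21
  · exact congrArg (fun f : E →L[ℝ] E => f X) hq.m20
  · exact congrArg (fun f : E →L[ℝ] E => f X) hq.m02

/-- `(x·J)² = -1` -/
lemma Iw_sq {p : E × ℂ} (hq : QT (fun a => J a p.1)) (X : E) :
    Iw J p (Iw J p X) = -X := by
  obtain ⟨h00, h11, h22, h01, h10, h12, h21, h20, h02⟩ := qt_app hq
  simp only [Iw_apply, map_add, map_smul, h00, h11, h22, h01, h10, h12, h21, h20, h02]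
  have hx := xx_sq p.2
  have h3 : (-(xx p.2 0 ^ 2 + xx p.2 1 ^ 2 + xx p.2 2 ^ 2)) • X = -X := by rw [hx]; simp
  refine Eq.trans (b := (-(xx p.2 0 ^ 2 + xx p.2 1 ^ 2 + xx p.2 2 ^ 2)) • X) ?_ h3
  module

theorem JZ_sq {p : E × ℂ} (hq : QT (fun a => J a p.1)) (v : E × ℂ) :
    JZ J Th p (JZ J Th p v) = -v := by
  rw [JZ_apply, JZ_apply]
  simp only [Iw_sq hq]
  refine Prod.ext rfl ?_
  simp only [map_neg, Prod.snd_neg]
  linear_combination (v.2 - bt Th p v.1) * I_sq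

/-! ## Smoothness -/

lemma contDiff_nn (a : Fin 3) : ContDiff ℝ ∞ (fun w => nn w a) := by
  fin_cases a
  · show ContDiff ℝ ∞ (fun w : ℂ => -2 * w); fun_prop
  · show ContDiff ℝ ∞ (fun w : ℂ => 1 - w ^ 2); fun_prop
  · show ContDiff ℝ ∞ (fun w : ℂ => I * (1 + w ^ 2)); fun_prop

lemma contDiff_nd (a : Fin 3) : ContDiff ℝ ∞ (fun w => nd w a) := by
  fin_cases a
  · show ContDiff ℝ ∞ (fun _ : ℂ => (-2 : ℂ)); fun_prop
  · show ContDiff ℝ ∞ (fun w : ℂ => -2 * w); fun_prop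
  · show ContDiff ℝ ∞ (fun w : ℂ => 2 * I * w); fun_prop

lemma contDiff_re : ContDiff ℝ ∞ (fun w : ℂ => w.re) := reCLM.contDiff
lemma contDiff_im : ContDiff ℝ ∞ (fun w : ℂ => w.im) := imCLM.contDiff

lemma contDiff_normSq : ContDiff ℝ ∞ (fun w : ℂ => normSq w) := by
  have : (fun w : ℂ => normSq w) = fun w => w.re * w.re + w.im * w.im := by
    funext w; rw [normSq_apply]
  rw [this]
  exact (contDiff_re.mul contDiff_re).add (contDiff_im.mul contDiff_im)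

lemma contDiff_den : ContDiff ℝ ∞ (fun w : ℂ => den w) := contDiff_const.add contDiff_normSq

lemma contDiff_xx (a : Fin 3) : ContDiff ℝ ∞ (fun w => xx w a) := by
  fin_cases a
  · show ContDiff ℝ ∞ (fun w : ℂ => (1 - normSq w) / den w)
    exact (contDiff_const.sub contDiff_normSq).div contDiff_den den_ne
  · show ContDiff ℝ ∞ (fun w : ℂ => 2 * w.re / den w)
    exact (contDiff_const.mul contDiff_re).div contDiff_den den_ne
  · show ContDiff ℝ ∞ (fun w : ℂ => 2 * w.im / den w)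
    exact (contDiff_const.mul contDiff_im).div contDiff_den den_ne

lemma Iw_smooth (hJ : ∀ a, ContDiffOn ℝ ∞ (J a) U) :
    ContDiffOn ℝ ∞ (Iw J) (U ×ˢ (Set.univ : Set ℂ)) := by
  unfold Iw
  refine ContDiffOn.sum fun a _ => ContDiffOn.fun_smul ?_ ?_
  · exact ((contDiff_xx a).comp contDiff_snd).contDiffOn
  · exact (hJ a).comp contDiff_fst.contDiffOn fun p hp => hp.1

lemma zt_smooth (hT : ∀ a, ContDiffOn ℝ ∞ (Th a) U) {z : Fin 3 → ℂ → ℂ}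
    (hz : ∀ a, ContDiff ℝ ∞ (z a)) :
    ContDiffOn ℝ ∞ (fun p : E × ℂ => zt Th p.1 (fun a => z a p.2)) (U ×ˢ (Set.univ : Set ℂ)) := by
  unfold zt
  refine ContDiffOn.sum fun a _ => ContDiffOn.fun_smul ?_ ?_
  · exact ((hz a).comp contDiff_snd).contDiffOn
  · exact contDiffOn_const.clm_comp ((hT a).comp contDiff_fst.contDiffOn fun p hp => hp.1)

lemma bt_smooth (hT : ∀ a, ContDiffOn ℝ ∞ (Th a) U) :
    ContDiffOn ℝ ∞ (bt Th) (U ×ˢ (Set.univ : Set ℂ)) :=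
  contDiffOn_const.fun_smul (zt_smooth hT (z := fun a w => nn w a) contDiff_nn)

lemma bp_smooth (hT : ∀ a, ContDiffOn ℝ ∞ (Th a) U) :
    ContDiffOn ℝ ∞ (bp Th) (U ×ˢ (Set.univ : Set ℂ)) :=
  contDiffOn_const.fun_smul (zt_smooth hT (z := fun a w => nd w a) contDiff_nd)

theorem JZ_smooth (hJ : ∀ a, ContDiffOn ℝ ∞ (J a) U) (hT : ∀ a, ContDiffOn ℝ ∞ (Th a) U) :
    ContDiffOn ℝ ∞ (JZ J Th) (U ×ˢ (Set.univ : Set ℂ)) := by
  have h1 := Iw_smooth hJ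
  have h2 := bt_smooth hT
  unfold JZ
  refine ContDiffOn.add ?_ ?_
  · exact contDiffOn_const.clm_comp (h1.clm_comp contDiffOn_const)
  · refine contDiffOn_const.clm_comp (ContDiffOn.sub (ContDiffOn.add contDiffOn_const ?_) ?_)
    · exact (h2.clm_comp h1).clm_comp contDiffOn_const
    · exact contDiffOn_const.fun_smul (h2.clm_comp contDiffOn_const)

/-! ## Derivatives -/

lemma fderiv_Iw {p : E × ℂ} (hJ : ∀ a, DifferentiableAt ℝ (J a) p.1) :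
    ∃ D : E × ℂ →L[ℝ] E →L[ℝ] E, HasFDerivAt (Iw J) D p ∧ ∀ v Y, D v Y =
      (xx p.2 0 • fderiv ℝ (J 0) p.1 v.1 Y + dxx p.2 0 v.2 • J 0 p.1 Y) +
      (xx p.2 1 • fderiv ℝ (J 1) p.1 v.1 Y + dxx p.2 1 v.2 • J 1 p.1 Y) +
      (xx p.2 2 • fderiv ℝ (J 2) p.1 v.1 Y + dxx p.2 2 v.2 • J 2 p.1 Y) := by
  have h : ∀ a, HasFDerivAt (fun q : E × ℂ => xx q.2 a • J a q.1)
      (xx p.2 a • (fderiv ℝ (J a) p.1).comp (ContinuousLinearMap.fst ℝ E ℂ) +
        ((dxx p.2 a).comp (ContinuousLinearMap.snd ℝ E ℂ)).smulRight (J a p.1)) p := fun a =>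
    ((hasFDerivAt_xx p.2 a).comp p hasFDerivAt_snd).fun_smul
      ((hJ a).hasFDerivAt.comp p hasFDerivAt_fst)
  have h2 := HasFDerivAt.fun_sum (u := Finset.univ) fun a _ => h a
  refine ⟨_, h2, ?_⟩
  intro v Y
  simp [Fin.sum_univ_three]

lemma fderiv_zt {p : E × ℂ} (hT : ∀ a, DifferentiableAt ℝ (Th a) p.1) {z z' : ℂ → Fin 3 → ℂ}
    (hz : ∀ a, HasFDerivAt (fun w => z w a) (ContinuousLinearMap.mul ℝ ℂ (z' p.2 a)) p.2) :
    ∃ D : E × ℂ →L[ℝ] E →L[ℝ] ℂ, HasFDerivAt (fun q : E × ℂ => zt Th q.1 (z q.2)) D p ∧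
      ∀ v Y, D v Y =
      (z p.2 0 * fderiv ℝ (Th 0) p.1 v.1 Y + z p.2 1 * fderiv ℝ (Th 1) p.1 v.1 Y +
        z p.2 2 * fderiv ℝ (Th 2) p.1 v.1 Y) + v.2 *
      (z' p.2 0 * Th 0 p.1 Y + z' p.2 1 * Th 1 p.1 Y + z' p.2 2 * Th 2 p.1 Y) := by
  have h0 : ∀ a, HasFDerivAt (fun q : E × ℂ => ofRealCLM.comp (Th a q.1))
      ((ContinuousLinearMap.compL ℝ E ℝ ℂ ofRealCLM).comp
        ((fderiv ℝ (Th a) p.1).comp (ContinuousLinearMap.fst ℝ E ℂ))) p := fun a =>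
    (ContinuousLinearMap.compL ℝ E ℝ ℂ ofRealCLM).hasFDerivAt.comp p
      ((hT a).hasFDerivAt.comp p hasFDerivAt_fst)
  have h : ∀ a, HasFDerivAt (fun q : E × ℂ => z q.2 a • ofRealCLM.comp (Th a q.1))
      (z p.2 a • ((ContinuousLinearMap.compL ℝ E ℝ ℂ ofRealCLM).comp
        ((fderiv ℝ (Th a) p.1).comp (ContinuousLinearMap.fst ℝ E ℂ))) +
        (((ContinuousLinearMap.mul ℝ ℂ (z' p.2 a))).comp
          (ContinuousLinearMap.snd ℝ E ℂ)).smulRight (ofRealCLM.comp (Th a p.1))) p := fun a =>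
    ((hz a).comp p hasFDerivAt_snd).fun_smul (h0 a)
  have h2 := HasFDerivAt.fun_sum (u := Finset.univ) fun a _ => h a
  refine ⟨_, h2, ?_⟩
  intro v Y
  simp [Fin.sum_univ_three]
  ring

/-- the derivative of `J_Z` from those of `I_w` and `beta_w` -/
lemma fderiv_JZ {p : E × ℂ} {DI : E × ℂ →L[ℝ] E →L[ℝ] E} {Db : E × ℂ →L[ℝ] E →L[ℝ] ℂ}
    (hI : HasFDerivAt (Iw J) DI p) (hb : HasFDerivAt (bt Th) Db p) (v v' : E × ℂ) :
    fderiv ℝ (JZ J Th) p v v' =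
      (DI v v'.1, Db v (Iw J p v'.1) + bt Th p (DI v v'.1) - I * Db v v'.1) := by
  have h1 := ((hasFDerivAt_const (ContinuousLinearMap.inl ℝ E ℂ) p).clm_comp
    (hI.clm_comp (hasFDerivAt_const (ContinuousLinearMap.fst ℝ E ℂ) p)))
  have h2 := (hb.clm_comp hI).clm_comp (hasFDerivAt_const (ContinuousLinearMap.fst ℝ E ℂ) p)
  have h3 := (hb.clm_comp (hasFDerivAt_const (ContinuousLinearMap.fst ℝ E ℂ) p)).const_smul I
  have h4 := ((hasFDerivAt_const (I • ContinuousLinearMap.snd ℝ E ℂ) p).fun_add h2).fun_sub h3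
  have h5 := (hasFDerivAt_const (ContinuousLinearMap.inr ℝ E ℂ) p).clm_comp h4
  have h6 := h1.fun_add h5
  have h7 : HasFDerivAt (JZ J Th) _ p := h6
  rw [h7.fderiv]
  refine Prod.ext ?_ ?_
  · simp
  · simp
    exact add_comm _ _

/-- the vertical derivative of `I_w` -/
def dI (J : Fin 3 → E → E →L[ℝ] E) (p : E × ℂ) (z : ℂ) : E →L[ℝ] E :=
  ∑ a, dxx p.2 a z • J a p.1

lemma dI_apply (p : E × ℂ) (z : ℂ) (X : E) : dI J p z X =
    dxx p.2 0 z • J 0 p.1 X + dxx p.2 1 z • J 1 p.1 X + dxx p.2 2 z • J 2 p.1 X := by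
  simp [dI, Fin.sum_univ_three]

/-- `d_{i z} I = I d_z I` -/
lemma dI_I {p : E × ℂ} (hq : QT (fun a => J a p.1)) (z : ℂ) (X : E) :
    dI J p (I * z) X = Iw J p (dI J p z X) := by
  obtain ⟨h00, h11, h22, h01, h10, h12, h21, h20, h02⟩ := qt_app hq
  have e0 := cr_xx_dxx p.2 z 0
  have e1 := cr_xx_dxx p.2 z 1
  have e2 := cr_xx_dxx p.2 z 2
  rw [dI_apply, ← e0, ← e1, ← e2]
  simp only [Iw_apply, dI_apply, map_add, map_smul, h00, h11, h22, h01, h10, h12, h21, h20, h02]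
  have hx := xx_dxx p.2 z
  have h3 : (-(xx p.2 0 * dxx p.2 0 z + xx p.2 1 * dxx p.2 1 z + xx p.2 2 * dxx p.2 2 z)) • X = 0 := by
    rw [hx]; simp
  simp only [cr, Matrix.cons_val_zero, Matrix.cons_val_one, Matrix.cons_val]
  rw [← sub_eq_zero]
  refine Eq.trans (b := -((-(xx p.2 0 * dxx p.2 0 z + xx p.2 1 * dxx p.2 1 z +
    xx p.2 2 * dxx p.2 2 z)) • X)) ?_ (by rw [h3, neg_zero])
  module

lemma DI_form (h : TwData J Th Ga g nu U) {p : E × ℂ} (hp : p.1 ∈ U) :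
    ∃ D : E × ℂ →L[ℝ] E →L[ℝ] E, HasFDerivAt (Iw J) D p ∧ ∀ v Y, D v Y =
      Iw J p (Ga p.1 v.1 Y) - Ga p.1 v.1 (Iw J p Y) + dI J p (v.2 - bt Th p v.1) Y := by
  have hJ : ∀ a, DifferentiableAt ℝ (J a) p.1 := fun a =>
    ((h.Jsm a).contDiffAt (h.isOpen.mem_nhds hp)).differentiableAt (by simp)
  obtain ⟨D, hD, hv⟩ := fderiv_Iw hJ
  refine ⟨D, hD, fun v Y => ?_⟩
  rw [hv]
  obtain ⟨p0, p1, p2⟩ := h.par p.1 hp v.1 Y
  rw [p0, p1, p2]
  have l : ∀ a, dxx p.2 a (v.2 - bt Th p v.1) = dxx p.2 a v.2 +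
      cr (xx p.2) (fun c => Th c p.1 v.1) a := by
    intro a
    rw [map_sub, bt_apply, dxx_lift p.2 (fun c => Th c p.1 v.1) a]
    ring
  simp only [Iw_apply, dI_apply, l, map_add, map_smul]
  simp only [cr, Matrix.cons_val_zero, Matrix.cons_val_one, Matrix.cons_val]
  module

/-- horizontal derivative of `beta` -/
def Bf (Th : Fin 3 → E → E →L[ℝ] ℝ) (p : E × ℂ) (X Y : E) : ℂ :=
  -(I / 2) * (nn p.2 0 * fderiv ℝ (Th 0) p.1 X Y + nn p.2 1 * fderiv ℝ (Th 1) p.1 X Y +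
    nn p.2 2 * fderiv ℝ (Th 2) p.1 X Y) + bt Th p X * bp Th p Y

lemma Db_form (hT : ∀ a, ContDiffOn ℝ ∞ (Th a) U) (hU : IsOpen U) {p : E × ℂ} (hp : p.1 ∈ U) :
    ∃ D : E × ℂ →L[ℝ] E →L[ℝ] ℂ, HasFDerivAt (bt Th) D p ∧ ∀ v Y, D v Y =
      Bf Th p v.1 Y + (v.2 - bt Th p v.1) * bp Th p Y := by
  have hT' : ∀ a, DifferentiableAt ℝ (Th a) p.1 := fun a =>
    ((hT a).contDiffAt (hU.mem_nhds hp)).differentiableAt (by simp)
  obtain ⟨D, hD, hv⟩ := fderiv_zt (p := p) hT' (z := nn) (z' := nd) (hasFDerivAt_nn p.2)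
  refine ⟨(-(I / 2)) • D, hD.fun_const_smul (-(I / 2)), fun v Y => ?_⟩
  have e : ((-(I / 2)) • D) v Y = (-(I / 2)) * D v Y := rfl
  rw [e, hv, Bf, bp_apply]
  ring

/-- the `(0,2)`-type form `nn(w)·omega(X,Y) = g(X,(nn(w)·J) Y)` -/
def gn (J : Fin 3 → E → E →L[ℝ] E) (g : E → E →L[ℝ] E →L[ℝ] ℝ) (p : E × ℂ) (X Y : E) : ℂ :=
  nn p.2 0 * g p.1 X (J 0 p.1 Y) + nn p.2 1 * g p.1 X (J 1 p.1 Y) + nn p.2 2 * g p.1 X (J 2 p.1 Y)

lemma Bf_sub (h : TwData J Th Ga g nu U) {p : E × ℂ} (hp : p.1 ∈ U) (X Y : E) :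
    Bf Th p X Y - Bf Th p Y X = (I / 2) * nu * gn J g p X Y := by
  have m : ∀ c, ((fderiv ℝ (Th c) p.1 X Y : ℝ) : ℂ) = fderiv ℝ (Th c) p.1 Y X +
      (cr (fun a => Th a p.1 X) (fun a => Th a p.1 Y) c - nu * g p.1 X (J c p.1 Y) : ℝ) := by
    intro c
    rw [← h.main p.1 hp X Y c]; push_cast; ring
  have c0 := congrFun (cr_nn_nd p.2) 0
  have c1 := congrFun (cr_nn_nd p.2) 1
  have c2 := congrFun (cr_nn_nd p.2) 2
  simp only [cr, Matrix.cons_val_zero, Matrix.cons_val_one, Matrix.cons_val, Pi.smul_apply,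
    smul_eq_mul] at c0 c1 c2
  unfold Bf gn
  rw [m 0, m 1, m 2, bt_apply, bt_apply, bp_apply, bp_apply]
  simp only [cr, Matrix.cons_val_zero, Matrix.cons_val_one, Matrix.cons_val]
  push_cast
  generalize (Th 0 p.1 X : ℝ) = a0 at *
  generalize (Th 1 p.1 X : ℝ) = a1 at *
  generalize (Th 2 p.1 X : ℝ) = a2 at *
  generalize (Th 0 p.1 Y : ℝ) = b0 at *
  generalize (Th 1 p.1 Y : ℝ) = b1 at *
  generalize (Th 2 p.1 Y : ℝ) = b2 at *
  have hI := I_sq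
  linear_combination (I / 2) ^ 2 * (c0 * (a1 * b2 - a2 * b1) + c1 * (a2 * b0 - a0 * b2) +
    c2 * (a0 * b1 - a1 * b0)) + (-(I / 2)) * hI * (nn p.2 0 * (a1 * b2 - a2 * b1) +
    nn p.2 1 * (a2 * b0 - a0 * b2) + nn p.2 2 * (a0 * b1 - a1 * b0))

lemma gn_I (h : TwData J Th Ga g nu U) {p : E × ℂ} (hp : p.1 ∈ U) (X Y : E) :
    gn J g p X (Iw J p Y) = I * gn J g p X Y := by
  obtain ⟨h00, h11, h22, h01, h10, h12, h21, h20, h02⟩ := qt_app (h.quat p.1 hp)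
  have x0 := congrFun (cr_xx_nn p.2) 0
  have x1 := congrFun (cr_xx_nn p.2) 1
  have x2 := congrFun (cr_xx_nn p.2) 2
  have xn := xx_nn p.2
  simp only [cr, dt, cx, Matrix.cons_val_zero, Matrix.cons_val_one, Matrix.cons_val, Pi.smul_apply,
    smul_eq_mul] at x0 x1 x2 xn
  unfold gn
  simp only [Iw_apply, map_add, map_smul, smul_eq_mul, map_neg, h00, h11, h22, h01, h10, h12, h21,
    h20, h02]
  push_cast
  linear_combination (-((g p.1 X Y : ℝ) : ℂ)) * xn - x0 * g p.1 X (J 0 p.1 Y)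
    - x1 * g p.1 X (J 1 p.1 Y) - x2 * g p.1 X (J 2 p.1 Y)

lemma gn_skew (h : TwData J Th Ga g nu U) {p : E × ℂ} (hp : p.1 ∈ U) (X Y : E) :
    gn J g p X Y = - gn J g p Y X := by
  have e : ∀ a, g p.1 X (J a p.1 Y) = - g p.1 Y (J a p.1 X) := fun a => by
    rw [← neg_eq_iff_eq_neg.2 (h.gJ p.1 hp a X Y), h.gsymm p.1 hp]
  unfold gn
  rw [e 0, e 1, e 2]; push_cast; ring

lemma gn_I' (h : TwData J Th Ga g nu U) {p : E × ℂ} (hp : p.1 ∈ U) (X Y : E) :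
    gn J g p (Iw J p X) Y = I * gn J g p X Y := by
  rw [gn_skew h hp, gn_I h hp, gn_skew h hp]; ring

/-- **Integrability of `J_Z`.** -/
theorem Nij_JZ (h : TwData J Th Ga g nu U) {p : E × ℂ} (hp : p.1 ∈ U) (v v' : E × ℂ) :
    fderiv ℝ (JZ J Th) p (JZ J Th p v) v' - fderiv ℝ (JZ J Th) p (JZ J Th p v') v
      - JZ J Th p (fderiv ℝ (JZ J Th) p v v') + JZ J Th p (fderiv ℝ (JZ J Th) p v' v) = 0 := by
  obtain ⟨DI, hDI, eI⟩ := DI_form h hp
  obtain ⟨Db, hDb, eb⟩ := Db_form h.Tsm h.isOpen hp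
  have hq := h.quat p.1 hp
  have vert : ∀ u : E × ℂ, (JZ J Th p u).2 - bt Th p (JZ J Th p u).1 =
      I * (u.2 - bt Th p u.1) := by
    intro u; rw [JZ_apply]; ring
  have fst : ∀ u : E × ℂ, (JZ J Th p u).1 = Iw J p u.1 := by intro u; rw [JZ_apply]
  have vert' : ∀ u : E × ℂ, (JZ J Th p u).2 - bt Th p (Iw J p u.1) =
      I * (u.2 - bt Th p u.1) := by
    intro u; rw [JZ_apply]; ring
  -- first component
  have N1 : DI (JZ J Th p v) v'.1 - DI (JZ J Th p v') v.1 - Iw J p (DI v v'.1)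
      + Iw J p (DI v' v.1) = 0 := by
    rw [eI, eI, eI, eI, vert, vert, fst, fst, dI_I hq, dI_I hq]
    simp only [map_add, map_sub, Iw_sq hq]
    rw [h.Gsymm p.1 hp (Iw J p v'.1) v.1, h.Gsymm p.1 hp v'.1 v.1,
      h.Gsymm p.1 hp v'.1 (Iw J p v.1), h.Gsymm p.1 hp (Iw J p v'.1) (Iw J p v.1)]
    abel
  have R := Bf_sub h hp
  rw [fderiv_JZ hDI hDb, fderiv_JZ hDI hDb, fderiv_JZ hDI hDb, fderiv_JZ hDI hDb]
  refine Prod.ext ?_ ?_
  · simpa only [JZ_apply, Prod.fst_add, Prod.fst_sub, Prod.fst_zero] using N1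
  · have N1' := congrArg (bt Th p) N1
    simp only [map_add, map_sub, map_zero] at N1'
    simp only [JZ_apply _ (DI v v'.1, _), JZ_apply _ (DI v' v.1, _), Prod.snd_add, Prod.snd_sub,
      Prod.snd_zero]
    simp only [eb, fst, vert']
    have r1 := R (Iw J p v.1) (Iw J p v'.1)
    have r2 := R (Iw J p v.1) v'.1
    have r3 := R v.1 (Iw J p v'.1)
    have r4 := R v.1 v'.1
    rw [gn_I h hp, gn_I' h hp] at r1
    rw [gn_I' h hp] at r2
    rw [gn_I h hp] at r3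
    linear_combination N1' + r1 - I * r2 - I * r3 - r4 +
      ((Bf Th p v.1 v'.1 - Bf Th p v'.1 v.1) - I / 2 * nu * gn J g p v.1 v'.1) * I_sq

end Crest.Agent.R260.TwL_847
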