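import Crest.Agent.R260.Tw6_979
import Crest.Agent.R260.TwL1_847

/-!
Row 260, leaf TW-Z (helper979), part 7: the almost complex manifold `acm Q hn : ACM (E × ℂ) Z`.
-/

set_option autoImplicit false

open scoped Manifold ContDiff Topology
open Filter Set Complex Matrix
open Crest.GeometryTopology.CoordMetric
open Crest.GeometryTopology.ChartRiem

noncomputable section

namespace Crest.Agent.R260.Tw_979

open Crest.Agent.R202.Tens
open Crest.Agent.R260.Qk3_151 Crest.Agent.R260.Qk4_151 Crest.Agent.R260.Qk7_151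

variable {n : ℕ}

local notation "𝔼" => EuclideanSpace ℝ (Fin n)

/-- the same structure in the notation of 847 -/
lemma JT_eq (g : MetricField n) (J : Fin 3 → 𝔼 → Matrix (Fin n) (Fin n) ℝ) :
    JT g J = TwL_847.JZ (fun a y => Jop J y a) (fun a y => Th g J y a) := by
  funext p
  refine ContinuousLinearMap.ext fun v => ?_
  rw [TwL_847.JZ_apply]
  refine Prod.ext rfl ?_
  show (JZ (Jop J) (Th g J) p v).2 = _
  have h1 : ∀ X, bec (Th g J) p X = TwL_847.bt (fun a y => Th g J y a) p X := by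
    intro X
    rw [bec_apply, TwL_847.bt_apply]
    rfl
  rw [JZ_snd, h1, h1]
  show _ = I * v.2 + _ - _
  rw [add_sub_assoc]
  rfl

lemma mc_mul (A B : Matrix (Fin n) (Fin n) ℝ) : mc (A * B) = mc A * mc B := by
  refine ContinuousLinearMap.ext fun X => ?_
  exact mL_mul A B X

lemma mc_neg (A : Matrix (Fin n) (Fin n) ℝ) : mc (-A) = -mc A := by
  refine ContinuousLinearMap.ext fun X => ?_
  simp only [mc_apply, mL_neg, LinearMap.neg_apply]
  rfl

lemma mc_one : mc (1 : Matrix (Fin n) (Fin n) ℝ) = 1 := by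
  refine ContinuousLinearMap.ext fun X => ?_
  simp only [mc_apply, mL_one]
  rfl

section loc

variable {g : MetricField n} {J : Fin 3 → EuclideanSpace ℝ (Fin n) → Matrix (Fin n) (Fin n) ℝ}
  {U : Set (EuclideanSpace ℝ (Fin n))}

lemma qt_Jop (h : QKOn g J U) {y : 𝔼} (hy : y ∈ U) : QT (fun a => Jop J y a) where
  sq a := by simp only [Jop, ← mc_mul, h.sq y hy a, mc_neg, mc_one]
  m01 := by simp only [Jop, ← mc_mul, h.mul01 hy]
  m10 := by simp only [Jop, ← mc_mul, h.mul10 hy, mc_neg]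

lemma mc_smooth {A : 𝔼 → Matrix (Fin n) (Fin n) ℝ}
    (h : ∀ l p, ContDiffOn ℝ ∞ (fun y => A y l p) U) : ContDiffOn ℝ ∞ (fun y => mc (A y)) U := by
  simp only [mc_eq_sum]
  exact ContDiffOn.sum fun l _ => ContDiffOn.sum fun p _ => (h l p).smul contDiffOn_const

lemma Jop_smooth (h : QKOn g J U) (a : Fin 3) : ContDiffOn ℝ ∞ (fun y => Jop J y a) U :=
  mc_smooth (h.smooth a)

lemma Th_smooth (h : QKOn g J U) (a : Fin 3) : ContDiffOn ℝ ∞ (fun y => Th g J y a) U :=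
  ContDiffOn.sum fun i _ => (h.cf_smooth i _ _).smul contDiffOn_const

lemma JT_smooth (h : QKOn g J U) : ContDiffOn ℝ ∞ (JT g J) (U ×ˢ univ) := by
  rw [JT_eq]
  exact TwL_847.JZ_smooth (fun a => Jop_smooth h a) (fun a => Th_smooth h a)

lemma JT_sq (h : QKOn g J U) {z : 𝔼 × ℂ} (hz : z.1 ∈ U) (v : 𝔼 × ℂ) :
    JT g J z (JT g J z v) = -v := by
  rw [JT_eq]
  exact TwL_847.JZ_sq (J := fun a y => Jop J y a) (Th := fun a y => Th g J y a) (qt_Jop h hz) v

end loc

section manifold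

variable {M : Type} [TopologicalSpace M] [ChartedSpace (EuclideanSpace ℝ (Fin n)) M]
  [IsManifold 𝓘(ℝ, EuclideanSpace ℝ (Fin n)) ∞ M]
  {G : ChartMetric n M} (Q : QuaternionicStructure n M G) (hn : n ≠ 0)

lemma ch_target (k : Idx n M) : (ch Q hn k).target = k.e.target ×ˢ univ := by
  ext z
  rw [mem_ch_target, mem_prod]
  simp

/-- the fibre coordinate of the point with coordinates `z` of the chart `i` in the frame `j` -/
lemma fc_ch {i j : Idx n M} {z : 𝔼 × ℂ} (hz : z.1 ∈ dom i.e j.e) :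
    ((coc Q hn).fc j ((ch Q hn i).symm z)).1 = qc Q i j z.1 *ᵥ xx z.2 := by
  have hi : (coc Q hn).pr ((ch Q hn i).symm z) ∈ (coc Q hn).U i := i.e.map_target hz.1
  have hj : (coc Q hn).pr ((ch Q hn i).symm z) ∈ (coc Q hn).U j := hz.2
  rw [(coc Q hn).fc_val hi hj, ch_symm_apply]
  have hi' : i.e.symm z.1 ∈ (coc Q hn).U i := hi
  rw [(coc Q hn).fc_mz hi', (coc Q hn).pr_mz]
  rfl

/-- the transition maps -/
lemma ch_ch {i j : Idx n M} {z : 𝔼 × ℂ} (hz : z.1 ∈ dom i.e j.e) :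
    ch Q hn j ((ch Q hn i).symm z) = trn (chg i.e j.e) (qc Q i j) z := by
  rw [ch_apply, fc_ch Q hn hz]
  rfl

lemma mem_ov {i j : Idx n M} {z : 𝔼 × ℂ} :
    (z ∈ (ch Q hn i).target ∧ (ch Q hn i).symm z ∈ (ch Q hn j).source) ↔
      z.1 ∈ dom i.e j.e ∧ tdom (qc Q i j) z := by
  rw [mem_ch_target, mem_ch_source]
  constructor
  · rintro ⟨h1, h2, h3⟩
    have hz : z.1 ∈ dom i.e j.e := ⟨h1, h2⟩
    rw [fc_ch Q hn hz] at h3
    exact ⟨hz, h3⟩
  · rintro ⟨hz, h3⟩
    refine ⟨hz.1, hz.2, ?_⟩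
    rw [fc_ch Q hn hz]
    exact h3

lemma ch_cover (z : (coc Q hn).Z) : ∃ k, z ∈ (ch Q hn k).source := by
  set p := (coc Q hn).pr z with hp
  set e := chartAt (EuclideanSpace ℝ (Fin n)) p with he
  have hpe : p ∈ e.source := mem_chart_source _ p
  set k : Idx n M := ⟨e, chart_mem_atlas _ p, true⟩ with hk
  set k' : Idx n M := ⟨e, chart_mem_atlas _ p, false⟩ with hk'
  by_cases h : 1 + ((coc Q hn).fc k z).1 0 ≠ 0
  · exact ⟨k, (mem_ch_source Q hn k z).2 ⟨hpe, h⟩⟩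
  · refine ⟨k', (mem_ch_source Q hn k' z).2 ⟨hpe, ?_⟩⟩
    push Not at h
    have h1 := (coc Q hn).fc_val (i := k) (j := k') (z := z) hpe hpe
    have h2 : (coc Q hn).q k k' (coc Q hn |>.pr z) = Matrix.diagonal ![-1, 1, -1] := by
      refine qm_unique' Q hn (k := k) (k' := k') hpe hpe fun u => ?_
      rw [jac_self k.he hpe, Matrix.one_mul, Matrix.mul_one]
      simp only [uJ, fr, flip, Fin.sum_univ_three, Matrix.mulVec_diagonal, smul_smul]
      simp [hk, hk', sg]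
    rw [h2] at h1
    rw [h1, Matrix.mulVec_diagonal]
    simp only [Matrix.cons_val_zero]
    linarith

lemma trn_smooth (i j : Idx n M) : ContDiffOn ℝ ∞ (trn (chg i.e j.e) (qc Q i j))
    {z | z.1 ∈ dom i.e j.e ∧ tdom (qc Q i j) z} := by
  intro z hz
  refine ContDiffAt.contDiffWithinAt ?_
  have hφ : ContDiffAt ℝ ∞ (chg i.e j.e) z.1 :=
    (chg_smooth i.he j.he).contDiffAt ((isOpen_dom _ _).mem_nhds hz.1)
  have hq : ∀ a b, ContDiffAt ℝ ∞ (fun y => qc Q i j y a b) z.1 := fun a b =>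
    (qm_smooth Q i j a b).contDiffAt ((isOpen_dom _ _).mem_nhds hz.1)
  have h1 : ContDiffAt ℝ ∞ (fun z : 𝔼 × ℂ => chg i.e j.e z.1) z :=
    ContDiffAt.comp (g := chg i.e j.e) (f := fun z : 𝔼 × ℂ => z.1) z hφ contDiffAt_fst
  have h2 : ContDiffAt ℝ ∞ (fun z : 𝔼 × ℂ => qc Q i j z.1 *ᵥ xx z.2) z := by
    rw [contDiffAt_pi]
    intro a
    simp only [Matrix.mulVec, dotProduct]
    refine ContDiffAt.sum fun b _ => ContDiffAt.mul ?_ ?_
    · exact ContDiffAt.comp (g := fun y => qc Q i j y a b) (f := fun z : 𝔼 × ℂ => z.1) z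
        (hq a b) contDiffAt_fst
    · have h3 : ContDiff ℝ ∞ (fun w : ℂ => xx w b) := (contDiff_pi.1 contDiff_xx) b
      exact ContDiffAt.comp (g := fun w => xx w b) (f := fun z : 𝔼 × ℂ => z.2) z
        h3.contDiffAt contDiffAt_snd
  exact h1.prodMk (ContDiffAt.comp (g := st) (f := fun z : 𝔼 × ℂ => qc Q i j z.1 *ᵥ xx z.2) z
    (contDiffAt_st hz.2) h2)

include hn in
lemma isOpen_ov (i j : Idx n M) : IsOpen {z : 𝔼 × ℂ | z.1 ∈ dom i.e j.e ∧ tdom (qc Q i j) z} := by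
  have h : {z : 𝔼 × ℂ | z.1 ∈ dom i.e j.e ∧ tdom (qc Q i j) z} =
      (ch Q hn i).target ∩ (ch Q hn i).symm ⁻¹' (ch Q hn j).source := by
    ext z
    exact (mem_ov Q hn).symm
  rw [h]
  exact (ch Q hn i).isOpen_inter_preimage_symm (ch Q hn j).open_source

/-- **the twistor space as an almost complex manifold** -/
def acm : ACM_580.ACM (EuclideanSpace ℝ (Fin n) × ℂ) (coc Q hn).Z where
  ι := Idx n M
  e := ch Q hn
  cover := ch_cover Q hn
  sm i j := by
    have h := trn_smooth Q i j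
    refine (h.congr fun z hz => ch_ch Q hn hz.1).mono fun z hz => (mem_ov Q hn).1 hz
  J k := JT (G.g k.e) (fr Q k)
  J_sm k := by
    rw [ch_target]
    exact JT_smooth (qk Q k)
  J_sq k z hz v := JT_sq (qk Q k) ((mem_ch_target Q hn k z).1 hz) v
  J_tr i j z hz hz' v := by
    obtain ⟨h1, h2⟩ := (mem_ov Q hn).1 ⟨hz, hz'⟩
    have hev : (fun z => ch Q hn j ((ch Q hn i).symm z)) =ᶠ[𝓝 z]
        trn (chg i.e j.e) (qc Q i j) := by
      filter_upwards [(isOpen_ov Q hn i j).mem_nhds ⟨h1, h2⟩] with y hy using ch_ch Q hn hy.1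
    rw [hev.fderiv_eq, JT_compat Q hn i j h1 h2, ch_ch Q hn h1]

end manifold

end Crest.Agent.R260.Tw_979
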