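import Mathlib
import Crest.Agent.R260.TwL1_847

/-!
Row 260, leaf TW-LOC (helper847), part 2: connection of the line bundle `L` and the contact form in
the local model `E × ℂ` of the twistor space.

* `tau p v = v.2 - beta(v.1)`  : the contact form `theta = tau ⊗ e*` (type `(1,0)`);
* `au`  : `∇ e = au e` for the frame `e` of `L⁻¹`;  `A = im au` (unitary frame);
* `dA_eq` : curvature, `dA_J` : type `(1,1)`, `dA_pos` : positivity;
* `dtau_eq` : `d^∇ theta = -(i/2) nu nn·omega`, `gn_nondeg` : nondegeneracy.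
-/

set_option autoImplicit false
set_option linter.unusedSimpArgs false

open Complex Matrix
open scoped ContDiff Topology

noncomputable section

namespace Crest.Agent.R260.TwL_847

open Crest.Agent.R260.Tw_979

variable {E : Type*} [NormedAddCommGroup E] [NormedSpace ℝ E]
variable {J : Fin 3 → E → E →L[ℝ] E} {Th : Fin 3 → E → E →L[ℝ] ℝ}
  {Ga : E → E →L[ℝ] E →L[ℝ] E} {g : E → E →L[ℝ] E →L[ℝ] ℝ} {nu : ℝ} {U : Set E}

/-! ## The contact form -/

/-- the contact form in the frame `e*`: `tau(X,eta) = eta - beta(X)` -/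
def tau (Th : Fin 3 → E → E →L[ℝ] ℝ) (p : E × ℂ) : (E × ℂ) →L[ℝ] ℂ :=
  ContinuousLinearMap.snd ℝ E ℂ - (bt Th p).comp (ContinuousLinearMap.fst ℝ E ℂ)

lemma tau_apply (p v : E × ℂ) : tau Th p v = v.2 - bt Th p v.1 := rfl

lemma tau_J (p v : E × ℂ) : tau Th p (JZ J Th p v) = I * tau Th p v := by
  rw [tau_apply, tau_apply, JZ_apply]; ring

lemma JZ_fst (p v : E × ℂ) : (JZ J Th p v).1 = Iw J p v.1 := by rw [JZ_apply]

lemma tau_smooth (hT : ∀ a, ContDiffOn ℝ ∞ (Th a) U) :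
    ContDiffOn ℝ ∞ (tau Th) (U ×ˢ (Set.univ : Set ℂ)) := by
  unfold tau
  exact contDiffOn_const.sub ((bt_smooth hT).clm_comp contDiffOn_const)

/-- the connection form: `∇ e = au e` for the tautological frame `e` of `L⁻¹` -/
def au (Th : Fin 3 → E → E →L[ℝ] ℝ) (p : E × ℂ) : (E × ℂ) →L[ℝ] ℂ :=
  (2 * (starRingEnd ℂ) p.2 / (den p.2 : ℂ)) • ContinuousLinearMap.snd ℝ E ℂ +
    (I • zt Th p.1 (cx (xx p.2))).comp (ContinuousLinearMap.fst ℝ E ℂ)

lemma au_apply (p v : E × ℂ) : au Th p v = 2 * (starRingEnd ℂ) p.2 / (den p.2 : ℂ) * v.2 +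
    I * (xx p.2 0 * Th 0 p.1 v.1 + xx p.2 1 * Th 1 p.1 v.1 + xx p.2 2 * Th 2 p.1 v.1) := by
  simp [au, zt_apply, cx]

/-- `au = 2 w̄ tau / (1+|w|²) + beta'` -/
lemma au_eq (p v : E × ℂ) : au Th p v =
    2 * (starRingEnd ℂ) p.2 / (den p.2 : ℂ) * tau Th p v + bp Th p v.1 := by
  have h0 := congrFun (xx_sub p.2) 0
  have h1 := congrFun (xx_sub p.2) 1
  have h2 := congrFun (xx_sub p.2) 2
  rw [← cx_den] at h0 h1 h2
  simp only [Pi.sub_apply, Pi.smul_apply, smul_eq_mul, cx] at h0 h1 h2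
  rw [au_apply, tau_apply, bt_apply, bp_apply]
  linear_combination I * (h0 * Th 0 p.1 v.1 + h1 * Th 1 p.1 v.1 + h2 * Th 2 p.1 v.1)

/-- the `(0,1)`-part of the connection form is polynomial in `w` -/
lemma au_add_I (p v : E × ℂ) : au Th p v + I * au Th p (JZ J Th p v) =
    bp Th p v.1 + I * bp Th p (Iw J p v.1) := by
  rw [au_eq, au_eq, tau_J, JZ_fst]
  linear_combination 2 * (starRingEnd ℂ) p.2 / (den p.2 : ℂ) * tau Th p v * I_sq

lemma au_re (p v : E × ℂ) : (au Th p v).re =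
    (den p.2)⁻¹ * (2 * p.2.re * v.2.re + 2 * p.2.im * v.2.im) := by
  have hd := den_ne p.2
  rw [au_apply]
  have e : 2 * (starRingEnd ℂ) p.2 / (den p.2 : ℂ) * v.2 =
      (((den p.2)⁻¹ : ℝ) : ℂ) * (2 * (starRingEnd ℂ) p.2 * v.2) := by
    push_cast; ring
  rw [e, add_re, re_ofReal_mul]
  simp

/-- the real part of `au` is `d log (1+|w|²)` -/
lemma hasFDerivAt_log_den (p : E × ℂ) : HasFDerivAt (fun q : E × ℂ => Real.log (den q.2))
    (reCLM.comp (au Th p)) p := by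
  have h := ((hasFDerivAt_den p.2).comp p hasFDerivAt_snd).log (den_ne p.2)
  refine h.congr_fderiv ?_
  ext v
  · simp [au_re]
  · simp [au_re]
    ring

/-- the real connection form in the unitary frame -/
def A (Th : Fin 3 → E → E →L[ℝ] ℝ) (p : E × ℂ) : (E × ℂ) →L[ℝ] ℝ :=
  (2 * (den p.2)⁻¹) • ((imCLM.comp (ContinuousLinearMap.mul ℝ ℂ ((starRingEnd ℂ) p.2))).comp
    (ContinuousLinearMap.snd ℝ E ℂ)) +
  ∑ a, xx p.2 a • (Th a p.1).comp (ContinuousLinearMap.fst ℝ E ℂ)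

lemma A_apply (p v : E × ℂ) : A Th p v = 2 * (den p.2)⁻¹ * ((starRingEnd ℂ) p.2 * v.2).im +
    (xx p.2 0 * Th 0 p.1 v.1 + xx p.2 1 * Th 1 p.1 v.1 + xx p.2 2 * Th 2 p.1 v.1) := by
  simp [A, Fin.sum_univ_three]

lemma au_im (p v : E × ℂ) : (au Th p v).im = A Th p v := by
  rw [au_apply, A_apply]
  have e : 2 * (starRingEnd ℂ) p.2 / (den p.2 : ℂ) * v.2 =
      ((2 * (den p.2)⁻¹ : ℝ) : ℂ) * ((starRingEnd ℂ) p.2 * v.2) := by
    push_cast; ring
  rw [e, add_im, im_ofReal_mul]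
  simp

lemma A_smooth (hT : ∀ a, ContDiffOn ℝ ∞ (Th a) U) :
    ContDiffOn ℝ ∞ (A Th) (U ×ˢ (Set.univ : Set ℂ)) := by
  unfold A
  refine ContDiffOn.add (ContDiffOn.fun_smul ?_ ?_) ?_
  · exact (contDiff_const.mul ((contDiff_den.inv den_ne).comp contDiff_snd)).contDiffOn
  · have h1 : ContDiff ℝ ∞ (fun q : E × ℂ => ContinuousLinearMap.mul ℝ ℂ ((starRingEnd ℂ) q.2)) :=
      (ContinuousLinearMap.contDiff (ContinuousLinearMap.mul ℝ ℂ)).comp
        (conjCLE.contDiff.comp contDiff_snd)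
    exact ((contDiff_const.clm_comp h1).clm_comp contDiff_const).contDiffOn
  · refine ContDiffOn.sum fun a _ => ContDiffOn.fun_smul ?_ ?_
    · exact ((contDiff_xx a).comp contDiff_snd).contDiffOn
    · exact ((hT a).comp contDiff_fst.contDiffOn fun p hp => hp.1).clm_comp contDiffOn_const

lemma fderiv_A {p : E × ℂ} (hT : ∀ a, DifferentiableAt ℝ (Th a) p.1) (v v' : E × ℂ) :
    fderiv ℝ (A Th) p v v' =
      2 * (den p.2)⁻¹ * ((starRingEnd ℂ) v.2 * v'.2).im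
      - 2 * (den p.2 ^ 2)⁻¹ * (2 * p.2.re * v.2.re + 2 * p.2.im * v.2.im) *
        ((starRingEnd ℂ) p.2 * v'.2).im
      + ((xx p.2 0 * fderiv ℝ (Th 0) p.1 v.1 v'.1 + dxx p.2 0 v.2 * Th 0 p.1 v'.1) +
        (xx p.2 1 * fderiv ℝ (Th 1) p.1 v.1 v'.1 + dxx p.2 1 v.2 * Th 1 p.1 v'.1) +
        (xx p.2 2 * fderiv ℝ (Th 2) p.1 v.1 v'.1 + dxx p.2 2 v.2 * Th 2 p.1 v'.1)) := by
  have h1 : HasFDerivAt (fun q : E × ℂ => ((starRingEnd ℂ) q.2 : ℂ))
      ((conjCLE : ℂ →L[ℝ] ℂ).comp (ContinuousLinearMap.snd ℝ E ℂ)) p :=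
    (conjCLE : ℂ →L[ℝ] ℂ).hasFDerivAt.comp p hasFDerivAt_snd
  have h2 := (ContinuousLinearMap.mul ℝ ℂ).hasFDerivAt.comp p h1
  have h3 := ((hasFDerivAt_const imCLM p).clm_comp h2).clm_comp
    (hasFDerivAt_const (ContinuousLinearMap.snd ℝ E ℂ) p)
  have h4 := (((hasFDerivAt_den_inv p.2).comp p hasFDerivAt_snd).const_mul 2).fun_smul h3
  have h5 : ∀ a, HasFDerivAt (fun q : E × ℂ => xx q.2 a • (Th a q.1).comp
      (ContinuousLinearMap.fst ℝ E ℂ)) _ p := fun a =>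
    ((hasFDerivAt_xx p.2 a).comp p hasFDerivAt_snd).fun_smul
      ((((hT a).hasFDerivAt.comp p hasFDerivAt_fst)).clm_comp
        (hasFDerivAt_const (ContinuousLinearMap.fst ℝ E ℂ) p))
  have h6 := HasFDerivAt.fun_sum (u := Finset.univ) fun a _ => h5 a
  have h7 : HasFDerivAt (A Th) _ p := h4.fun_add h6
  rw [h7.fderiv]
  simp [Fin.sum_univ_three]
  ring

/-- Fubini-Study part -/
lemma fs_eq (w e e' : ℂ) :
    (2 * (den w)⁻¹ * ((starRingEnd ℂ) e * e').im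
      - 2 * (den w ^ 2)⁻¹ * (2 * w.re * e.re + 2 * w.im * e.im) * ((starRingEnd ℂ) w * e').im)
    - (2 * (den w)⁻¹ * ((starRingEnd ℂ) e' * e).im
      - 2 * (den w ^ 2)⁻¹ * (2 * w.re * e'.re + 2 * w.im * e'.im) * ((starRingEnd ℂ) w * e).im) =
    4 * ((starRingEnd ℂ) e * e').im / den w ^ 2 := by
  have hd := den_ne w
  simp only [mul_im, conj_re, conj_im]
  field_simp
  simp only [den, normSq_apply]
  ring

/-- the fibre identity behind the curvature formula -/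
lemma fib_eq (w e e' : ℂ) (T T' : Fin 3 → ℝ) :
    4 * ((starRingEnd ℂ) e * e').im / den w ^ 2 +
      ((dxx w 0 e * T' 0 - dxx w 0 e' * T 0) + (dxx w 1 e * T' 1 - dxx w 1 e' * T 1) +
        (dxx w 2 e * T' 2 - dxx w 2 e' * T 2)) +
      (xx w 0 * cr T T' 0 + xx w 1 * cr T T' 1 + xx w 2 * cr T T' 2) =
    4 * ((starRingEnd ℂ) (e - -(I / 2) * (nn w 0 * T 0 + nn w 1 * T 1 + nn w 2 * T 2)) *
      (e' - -(I / 2) * (nn w 0 * T' 0 + nn w 1 * T' 1 + nn w 2 * T' 2))).im / den w ^ 2 := by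
  have hd := den_ne w
  simp only [cr, Matrix.cons_val_zero, Matrix.cons_val_one, Matrix.cons_val]
  simp only [dxx_apply, nn_0, nn_1, nn_2, xx_0, xx_1, xx_2]
  simp only [mul_im, mul_re, conj_re, conj_im]
  simp [pow_two]
  field_simp
  simp only [den, normSq_apply]
  ring

/-- the curvature form `i F_L = dA` -/
def dA (Th : Fin 3 → E → E →L[ℝ] ℝ) (p v v' : E × ℂ) : ℝ :=
  fderiv ℝ (A Th) p v v' - fderiv ℝ (A Th) p v' v

theorem dA_eq (h : TwData J Th Ga g nu U) {p : E × ℂ} (hp : p.1 ∈ U) (v v' : E × ℂ) :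
    dA Th p v v' = 4 * ((starRingEnd ℂ) (tau Th p v) * tau Th p v').im / den p.2 ^ 2
      - nu * g p.1 v.1 (Iw J p v'.1) := by
  have hT' : ∀ a, DifferentiableAt ℝ (Th a) p.1 := fun a =>
    ((h.Tsm a).contDiffAt (h.isOpen.mem_nhds hp)).differentiableAt (by simp)
  unfold dA
  rw [fderiv_A hT', fderiv_A hT']
  have m0 := h.main p.1 hp v.1 v'.1 0
  have m1 := h.main p.1 hp v.1 v'.1 1
  have m2 := h.main p.1 hp v.1 v'.1 2
  have e1 := fs_eq p.2 v.2 v'.2
  have e2 := fib_eq p.2 v.2 v'.2 (fun a => Th a p.1 v.1) (fun a => Th a p.1 v'.1)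
  rw [tau_apply, tau_apply, bt_apply, bt_apply, ← e2, Iw_apply]
  simp only [map_add, map_smul, smul_eq_mul]
  linear_combination e1 + xx p.2 0 * m0 + xx p.2 1 * m1 + xx p.2 2 * m2

lemma g_Iw (h : TwData J Th Ga g nu U) {p : E × ℂ} (hp : p.1 ∈ U) (X Y : E) :
    g p.1 (Iw J p X) Y = - g p.1 X (Iw J p Y) := by
  rw [Iw_apply, Iw_apply]
  simp only [map_add, map_smul, smul_eq_mul, _root_.add_apply, _root_.smul_apply,
    h.gJ p.1 hp]
  ring

/-- `dA` is of type `(1,1)` -/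
theorem dA_J (h : TwData J Th Ga g nu U) {p : E × ℂ} (hp : p.1 ∈ U) (v v' : E × ℂ) :
    dA Th p (JZ J Th p v) (JZ J Th p v') = dA Th p v v' := by
  rw [dA_eq h hp, dA_eq h hp, tau_J, tau_J, JZ_fst, JZ_fst, g_Iw h hp, Iw_sq (h.quat p.1 hp)]
  simp only [map_neg]
  have e : (starRingEnd ℂ) (I * tau Th p v) * (I * tau Th p v') =
      (starRingEnd ℂ) (tau Th p v) * tau Th p v' := by
    rw [map_mul, conj_I]
    linear_combination (-(starRingEnd ℂ) (tau Th p v) * tau Th p v') * I_sq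
  rw [e]; ring

theorem dA_self_J (h : TwData J Th Ga g nu U) {p : E × ℂ} (hp : p.1 ∈ U) (v : E × ℂ) :
    dA Th p v (JZ J Th p v) = 4 * normSq (tau Th p v) / den p.2 ^ 2 + nu * g p.1 v.1 v.1 := by
  rw [dA_eq h hp, tau_J, JZ_fst, Iw_sq (h.quat p.1 hp), map_neg]
  have e : ((starRingEnd ℂ) (tau Th p v) * (I * tau Th p v)).im = normSq (tau Th p v) := by
    simp [normSq_apply]
  rw [e]; ring

/-- **positivity of `i F_L`** -/
theorem dA_pos (h : TwData J Th Ga g nu U) (hnu : 0 < nu) {p : E × ℂ} (hp : p.1 ∈ U) {v : E × ℂ}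
    (hv : v ≠ 0) : 0 < dA Th p v (JZ J Th p v) := by
  rw [dA_self_J h hp]
  have h1 : 0 ≤ 4 * normSq (tau Th p v) / den p.2 ^ 2 := by
    have := normSq_nonneg (tau Th p v)
    positivity
  by_cases hX : v.1 = 0
  · have h2 : tau Th p v = v.2 := by rw [tau_apply, hX]; simp
    have h3 : v.2 ≠ 0 := fun h0 => hv (Prod.ext hX h0)
    rw [h2, hX]
    have h4 : 0 < normSq v.2 := normSq_pos.2 h3
    have h5 := den_pos p.2
    simp only [map_zero, mul_zero, add_zero]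
    positivity
  · have := h.gpos p.1 hp v.1 hX
    have := mul_pos hnu this
    linarith

/-! ## The derivative of the contact form -/

/-- `d^∇ theta = -(i/2) nu nn·omega` : no `(1,1)`-part and no `(0,2)`-part -/
theorem dtau_eq (h : TwData J Th Ga g nu U) {p : E × ℂ} (hp : p.1 ∈ U) (v v' : E × ℂ) :
    fderiv ℝ (tau Th) p v v' - fderiv ℝ (tau Th) p v' v =
      (au Th p v * tau Th p v' - au Th p v' * tau Th p v) -
        (I / 2) * nu * gn J g p v.1 v'.1 := by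
  obtain ⟨Db, hDb, eb⟩ := Db_form h.Tsm h.isOpen hp
  have h1 := (hasFDerivAt_const (ContinuousLinearMap.snd ℝ E ℂ) p).fun_sub
    (hDb.clm_comp (hasFDerivAt_const (ContinuousLinearMap.fst ℝ E ℂ) p))
  have h2 : HasFDerivAt (tau Th) _ p := h1
  have e : ∀ u u', fderiv ℝ (tau Th) p u u' = - Db u u'.1 := by
    intro u u'
    rw [h2.fderiv]
    simp
  rw [e, e, eb, eb, au_eq, au_eq]
  have R := Bf_sub h hp v.1 v'.1
  simp only [tau_apply]
  linear_combination -R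

/-- nondegeneracy of `d^∇ theta` on `ker theta` -/
theorem gn_nondeg (h : TwData J Th Ga g nu U) {p : E × ℂ} (hp : p.1 ∈ U) {X : E}
    (hX : ∀ Y, gn J g p X Y = 0) : X = 0 := by
  by_contra hne
  have hpos := h.gpos p.1 hp X hne
  obtain ⟨h00, h11, h22, h01, h10, h12, h21, h20, h02⟩ := qt_app (h.quat p.1 hp)
  have key := congrArg Complex.re (hX ((nn p.2 0).re • J 0 p.1 X + (nn p.2 1).re • J 1 p.1 X +
    (nn p.2 2).re • J 2 p.1 X))
  unfold gn at key
  simp only [map_add, map_smul, smul_eq_mul, map_neg, h00, h11, h22, h01, h10, h12, h21,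
    h20, h02] at key
  simp at key
  have e : ((nn p.2 0).re ^ 2 + (nn p.2 1).re ^ 2 + (nn p.2 2).re ^ 2) * g p.1 X X = 0 := by
    linear_combination -key
  have e2 : (nn p.2 0).re ^ 2 + (nn p.2 1).re ^ 2 + (nn p.2 2).re ^ 2 = den p.2 ^ 2 := by
    simp only [nn_0, nn_1, nn_2]
    simp [pow_two]
    simp only [den, normSq_apply]
    ring
  rw [e2] at e
  have := den_pos p.2
  have h3 : 0 < den p.2 ^ 2 * g p.1 X X := by positivity
  linarith

end Crest.Agent.R260.TwL_847
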