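import Crest.Agent.R260.Tw7_979
import Crest.Agent.R260.TwL2_847

/-!
Row 260, leaf TW-Z (helper979), part 8: the cocycle `lam` of the contact line bundle `L`, the
transformation of the contact form and of the Hermitian metric.

`lamq q w * nn w' = q (nn w)`, `w' = st (q (xx w))`.
-/

set_option autoImplicit false

open scoped Manifold ContDiff Topology
open Filter Set Complex Matrix
open Crest.GeometryTopology.CoordMetric
open Crest.GeometryTopology.ChartRiem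

noncomputable section

namespace Crest.Agent.R260.Tw_979

/-! ### complexification of a real matrix -/

/-- action of a real matrix on `ℂ³` -/
def cmv (q : Matrix (Fin 3) (Fin 3) ℝ) (u : Fin 3 → ℂ) : Fin 3 → ℂ :=
  fun a => ∑ b, (q a b : ℂ) * u b

lemma cmv_cx (q : Matrix (Fin 3) (Fin 3) ℝ) (x : Fin 3 → ℝ) : cmv q (cx x) = cx (q *ᵥ x) := by
  funext a
  simp [cmv, cx, Matrix.mulVec, dotProduct]

lemma cmv_smul (q : Matrix (Fin 3) (Fin 3) ℝ) (c : ℂ) (u : Fin 3 → ℂ) :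
    cmv q (c • u) = c • cmv q u := by
  funext a
  simp only [cmv, Pi.smul_apply, smul_eq_mul, Finset.mul_sum]
  exact Finset.sum_congr rfl fun b _ => by ring

/-- the value of the cocycle of `L` -/
def lamq (q : Matrix (Fin 3) (Fin 3) ℝ) (w : ℂ) : ℂ := (cmv q (nn w) 1 - I * cmv q (nn w) 2) / 2

/-- a vector with `x × n = - i n` is a multiple of `nn w`, `x = xx w` -/
lemma null_eq {w : ℂ} {n : Fin 3 → ℂ} (h : cr (cx (xx w)) n = (-I) • n) :
    n = ((n 1 - I * n 2) / 2) • nn w := by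
  have hd := cden_ne w
  have e0 : cx (xx w) 1 * n 2 - cx (xx w) 2 * n 1 = -I * n 0 := congrFun h 0
  have e1 : cx (xx w) 2 * n 0 - cx (xx w) 0 * n 2 = -I * n 1 := congrFun h 1
  have e2 : cx (xx w) 0 * n 1 - cx (xx w) 1 * n 0 = -I * n 2 := congrFun h 2
  rw [xx_c] at e0 e1 e2
  simp only [Pi.smul_apply, smul_eq_mul, Matrix.cons_val_zero, Matrix.cons_val_one,
    Matrix.cons_val] at e0 e1 e2
  set c := (starRingEnd ℂ) w with hc
  have hI := I_sq
  have k1 : (w + c) * n 0 - (1 - w * c) * n 1 - I * (1 + w * c) * n 2 = 0 := by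
    field_simp at e2
    linear_combination -e2
  have k2 : -I * (w - c) * n 0 - (1 - w * c) * n 2 + I * (1 + w * c) * n 1 = 0 := by
    field_simp at e1
    linear_combination e1
  have k3 : (w + c) * n 2 + I * (w - c) * n 1 + I * (1 + w * c) * n 0 = 0 := by
    field_simp at e0
    linear_combination e0
  have b1 : n 0 = -w * (n 1 - I * n 2) := by
    linear_combination (-I) * k3 + ((w - c) * n 1 + (1 + w * c) * n 0) * hI -
      (c / 2) * (k1 + I * k2) + (c / 2) * (-(w - c) * n 0 + (1 + w * c) * n 1) * hI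
  have b2 : n 1 + I * n 2 = w * n 0 := by
    linear_combination (-1 / 2 : ℂ) * (k1 + I * k2) +
      (1 / 2) * (-(w - c) * n 0 + (1 + w * c) * n 1) * hI
  funext a
  fin_cases a
  · simp [nn]; linear_combination b1
  · simp [nn]
    rw [b1] at b2
    linear_combination b2 / 2
  · simp [nn]
    rw [b1] at b2
    linear_combination (-I / 2) * b2 + n 2 * hI

lemma cmv_re (q : Matrix (Fin 3) (Fin 3) ℝ) (u : Fin 3 → ℂ) (a : Fin 3) :
    (cmv q u a).re = (q *ᵥ fun a => (u a).re) a := by simp [cmv, Matrix.mulVec, dotProduct]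

lemma cmv_im (q : Matrix (Fin 3) (Fin 3) ℝ) (u : Fin 3 → ℂ) (a : Fin 3) :
    (cmv q u a).im = (q *ᵥ fun a => (u a).im) a := by simp [cmv, Matrix.mulVec, dotProduct]

lemma cr_cx_re (x : Fin 3 → ℝ) (u : Fin 3 → ℂ) (a : Fin 3) :
    (cr (cx x) u a).re = cr x (fun a => (u a).re) a := by
  fin_cases a <;> simp [cr, cx]

lemma cr_cx_im (x : Fin 3 → ℝ) (u : Fin 3 → ℂ) (a : Fin 3) :
    (cr (cx x) u a).im = cr x (fun a => (u a).im) a := by
  fin_cases a <;> simp [cr, cx]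

lemma cr_cmv {q : Matrix (Fin 3) (Fin 3) ℝ} (hq : SO q) (x : Fin 3 → ℝ) (u : Fin 3 → ℂ) :
    cr (cx (q *ᵥ x)) (cmv q u) = cmv q (cr (cx x) u) := by
  have hr := hq.cr x (fun a => (u a).re)
  have hi := hq.cr x (fun a => (u a).im)
  funext a
  apply Complex.ext
  · simp only [cr_cx_re, cmv_re]
    exact congrFun hr a
  · simp only [cr_cx_im, cmv_im]
    exact congrFun hi a

/-- **the defining property of the cocycle** -/
theorem lamq_spec {q : Matrix (Fin 3) (Fin 3) ℝ} (hq : SO q) {w : ℂ}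
    (h : 1 + (q *ᵥ xx w) 0 ≠ 0) : cmv q (nn w) = lamq q w • nn (st (q *ᵥ xx w)) := by
  refine null_eq ?_
  rw [xx_trn hq.orth h, cr_cmv hq, cr_xx_nn, cmv_smul]

/-- the Hermitian square norm on `ℂ³` -/
def hn3 (u : Fin 3 → ℂ) : ℝ := ∑ a, normSq (u a)

lemma hn3_cmv {q : Matrix (Fin 3) (Fin 3) ℝ} (hq : qᵀ * q = 1) (u : Fin 3 → ℂ) :
    hn3 (cmv q u) = hn3 u := by
  have h1 := Coc.norm_mulVec hq (fun a => (u a).re)
  have h2 := Coc.norm_mulVec hq (fun a => (u a).im)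
  simp only [hn3, Fin.sum_univ_three, normSq_eq, cmv_re, cmv_im]
  linarith

lemma hn3_smul (c : ℂ) (u : Fin 3 → ℂ) : hn3 (c • u) = ‖c‖ ^ 2 * hn3 u := by
  simp only [hn3, Pi.smul_apply, smul_eq_mul, normSq_mul, Finset.mul_sum]
  rw [Complex.sq_norm]

lemma hn3_nn (w : ℂ) : hn3 (nn w) = 2 * den w ^ 2 := by
  have hden : den w = 1 + (w.re ^ 2 + w.im ^ 2) := by rw [den, normSq_eq]
  rw [hden]
  simp [hn3, Fin.sum_univ_three, nn, normSq_apply, pow_two]
  ring

/-- Hermitian weights transform by `|lam|²` -/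
theorem den_trn {q : Matrix (Fin 3) (Fin 3) ℝ} (hq : SO q) {w : ℂ}
    (h : 1 + (q *ᵥ xx w) 0 ≠ 0) : den w ^ 2 = ‖lamq q w‖ ^ 2 * den (st (q *ᵥ xx w)) ^ 2 := by
  have h1 := hn3_cmv hq.orth (nn w)
  rw [lamq_spec hq h, hn3_smul, hn3_nn, hn3_nn] at h1
  linarith

theorem lamq_ne {q : Matrix (Fin 3) (Fin 3) ℝ} (hq : SO q) {w : ℂ}
    (h : 1 + (q *ᵥ xx w) 0 ≠ 0) : lamq q w ≠ 0 := by
  intro h0
  have h1 := den_trn hq h
  rw [h0] at h1
  have := den_pos w
  simp at h1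
  exact den_ne w h1

lemma dt_cmv {q : Matrix (Fin 3) (Fin 3) ℝ} (hq : qᵀ * q = 1) (u v : Fin 3 → ℂ) :
    dt (cmv q u) (cmv q v) = dt u v := by
  have h : ∀ a b, ∑ c, q c a * q c b = if a = b then 1 else 0 := by
    intro a b
    have := congrFun (congrFun hq a) b
    rw [Matrix.mul_apply, Matrix.one_apply] at this
    exact this
  have hc : ∀ a b, ∑ c, (q c a : ℂ) * (q c b : ℂ) = if a = b then 1 else 0 := by
    intro a b
    have := congrArg (fun r : ℝ => (r : ℂ)) (h a b)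
    push_cast at this
    rw [this]
    split_ifs <;> simp
  have h00 := hc 0 0
  have h01 := hc 0 1
  have h02 := hc 0 2
  have h11 := hc 1 1
  have h12 := hc 1 2
  have h22 := hc 2 2
  simp only [Fin.sum_univ_three] at h00 h01 h02 h11 h12 h22
  simp at h00 h01 h02 h11 h12 h22
  simp only [dt, cmv, Fin.sum_univ_three]
  linear_combination (u 0 * v 0) * h00 + (u 1 * v 1) * h11 + (u 2 * v 2) * h22 +
    (u 0 * v 1 + u 1 * v 0) * h01 + (u 0 * v 2 + u 2 * v 0) * h02 + (u 1 * v 2 + u 2 * v 1) * h12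

/-! ### the contact form -/

open Crest.Agent.R202.Tens
open Crest.Agent.R260.Qk3_151 Crest.Agent.R260.Qk4_151 Crest.Agent.R260.Qk7_151

variable {n : ℕ}

local notation "𝔼" => EuclideanSpace ℝ (Fin n)

/-- the contact form in the frame `e*` of `L`: `tauT (X, η) = η - β_w(X)` -/
def tauT (g : MetricField n) (J : Fin 3 → EuclideanSpace ℝ (Fin n) → Matrix (Fin n) (Fin n) ℝ) :
    EuclideanSpace ℝ (Fin n) × ℂ → (EuclideanSpace ℝ (Fin n) × ℂ →L[ℝ] ℂ) :=
  TwL_847.tau (fun a y => Th g J y a)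

lemma tauT_apply (g : MetricField n) (J : Fin 3 → 𝔼 → Matrix (Fin n) (Fin n) ℝ) (z v : 𝔼 × ℂ) :
    tauT g J z v = v.2 - be z.2 (thv (Th g J) z.1 v.1) := by
  rw [tauT, TwL_847.tau_apply, TwL_847.bt_apply]
  rfl

lemma lin_mulVec_sub (q : Matrix (Fin 3) (Fin 3) ℝ) (u v : Fin 3 → ℝ) :
    q *ᵥ (u - v) = q *ᵥ u - q *ᵥ v := Matrix.mulVec_sub q u v

section manifold

variable {M : Type} [TopologicalSpace M] [ChartedSpace (EuclideanSpace ℝ (Fin n)) M]
  [IsManifold 𝓘(ℝ, EuclideanSpace ℝ (Fin n)) ∞ M]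
  {G : ChartMetric n M} (Q : QuaternionicStructure n M G) (hn : n ≠ 0)

include hn in
/-- **the contact form transforms by `lam`** -/
theorem tau_trn (i j : Idx n M) {z : 𝔼 × ℂ} (hz : z.1 ∈ dom i.e j.e)
    (hd : tdom (qc Q i j) z) (v : 𝔼 × ℂ) :
    tauT (G.g i.e) (fr Q i) z v = lamq (qc Q i j z.1) z.2 *
      tauT (G.g j.e) (fr Q j) (trn (chg i.e j.e) (qc Q i j) z)
        (fderiv ℝ (trn (chg i.e j.e) (qc Q i j)) z v) := by
  have hso := qc_so Q hn i j hz
  have hev : ∀ᶠ y in 𝓝 z.1, (qc Q i j y)ᵀ * qc Q i j y = 1 := by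
    filter_upwards [(isOpen_dom i.e j.e).mem_nhds hz] with y hy using (qc_so Q hn i j hy).orth
  obtain ⟨h1, h2⟩ := fderiv_trn (chg_diff i.he j.he hz) (fun a b => qc_diff Q i j hz a b) hev hd v
  have hx : xx (trn (chg i.e j.e) (qc Q i j) z).2 = qc Q i j z.1 *ᵥ xx z.2 := xx_trn hso.orth hd
  have key : dxx (trn (chg i.e j.e) (qc Q i j) z).2 (tauT (G.g j.e) (fr Q j)
      (trn (chg i.e j.e) (qc Q i j) z) (fderiv ℝ (trn (chg i.e j.e) (qc Q i j)) z v)) =
      qc Q i j z.1 *ᵥ dxx z.2 (tauT (G.g i.e) (fr Q i) z v) := by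
    rw [tauT_apply, tauT_apply, map_sub, map_sub, dxx_be, dxx_be, h2, hx, h1]
    have e1 : (trn (chg i.e j.e) (qc Q i j) z).1 = chg i.e j.e z.1 := rfl
    rw [e1, hT Q hn i j hz, dqx, Matrix.mulVec_sub]
    abel
  have h3 := eta_eq (trn (chg i.e j.e) (qc Q i j) z).2 (tauT (G.g j.e) (fr Q j)
      (trn (chg i.e j.e) (qc Q i j) z) (fderiv ℝ (trn (chg i.e j.e) (qc Q i j)) z v))
  rw [key, ← cmv_cx] at h3
  have h4 := eta_eq z.2 (tauT (G.g i.e) (fr Q i) z v)
  rw [← dt_cmv hso.orth, lamq_spec hso hd] at h4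
  have h5 : ∀ (c : ℂ) (a b : Fin 3 → ℂ), dt (c • a) b = c * dt a b := by
    intro c a b; simp only [dt, Pi.smul_apply, smul_eq_mul]; ring
  rw [h5] at h4
  have h6 : (trn (chg i.e j.e) (qc Q i j) z).2 = st (qc Q i j z.1 *ᵥ xx z.2) := rfl
  rw [h6] at h3
  rw [h3] at h4
  have h7 : (2 : ℂ) ≠ 0 := two_ne_zero
  have h8 : (2 : ℂ) * tauT (G.g i.e) (fr Q i) z v = 2 * (lamq (qc Q i j z.1) z.2 *
      tauT (G.g j.e) (fr Q j) (trn (chg i.e j.e) (qc Q i j) z)
        (fderiv ℝ (trn (chg i.e j.e) (qc Q i j)) z v)) := by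
    rw [← h4]
    have : trn (chg i.e j.e) (qc Q i j) z = (chg i.e j.e z.1, st (qc Q i j z.1 *ᵥ xx z.2)) := rfl
    ring
  exact mul_left_cancel₀ h7 h8

end manifold

end Crest.Agent.R260.Tw_979
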