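import Crest.Agent.R260.TwL2_847
import Crest.Agent.R260.Qk7_151
import Crest.Agent.R260.QKk_838

/-!
Row 260, leaf TW-LOC (helper847), part 3: the operator data `TwData` from helper151's chart data
`QKOn g J U` (matrices, `cf`, `Fc`).
-/

set_option autoImplicit false
set_option linter.unusedSimpArgs false

open Complex
open scoped ContDiff Topology
open Crest.GeometryTopology.CoordMetric Crest.GeometryTopology.ChartRiem

noncomputable section

namespace Crest.Agent.R260.TwL_847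

open Crest.Agent.R260.Tw_979 Crest.Agent.R260.Qk3_151 Crest.Agent.R260.Qk4_151
open Crest.Agent.R202.Tens

variable {n : ℕ}

local notation "𝔼" => EuclideanSpace ℝ (Fin n)

/-! ## matrices as operators -/

/-- the operator of a matrix -/
def mc (A : Matrix (Fin n) (Fin n) ℝ) : 𝔼 →L[ℝ] 𝔼 :=
  ∑ i, ∑ k, A i k • ((EuclideanSpace.proj k : 𝔼 →L[ℝ] ℝ).smulRight
    (EuclideanSpace.single i (1:ℝ)))

lemma mc_apply (A : Matrix (Fin n) (Fin n) ℝ) (X : 𝔼) (i : Fin n) :
    mc A X i = ∑ k, A i k * X k := by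
  simp only [mc, _root_.sum_apply, _root_.smul_apply,
    ContinuousLinearMap.smulRight_apply, PiLp.smul_apply, smul_eq_mul, WithLp.ofLp_sum,
    Finset.sum_apply, prj_apply, PiLp.single_apply]
  rw [Finset.sum_eq_single i]
  · simp
  · intro b _ hb
    simp [hb.symm]
  · simp

lemma mc_eq_mL (A : Matrix (Fin n) (Fin n) ℝ) (X : 𝔼) : mc A X = mL A X := by
  ext i; rw [mc_apply, mL_apply]

lemma mc_mul (A B : Matrix (Fin n) (Fin n) ℝ) : mc A * mc B = mc (A * B) := by
  refine ContinuousLinearMap.ext fun X => ?_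
  show mc A (mc B X) = mc (A * B) X
  rw [mc_eq_mL, mc_eq_mL, mc_eq_mL, mL_mul]

lemma mc_neg (A : Matrix (Fin n) (Fin n) ℝ) : mc (-A) = - mc A := by
  refine ContinuousLinearMap.ext fun X => ?_
  show mc (-A) X = -(mc A X)
  rw [mc_eq_mL, mc_eq_mL, mL_neg]; rfl

lemma mc_one : mc (1 : Matrix (Fin n) (Fin n) ℝ) = 1 := by
  refine ContinuousLinearMap.ext fun X => ?_
  rw [mc_eq_mL, mL_one]; rfl

lemma hasFDerivAt_mc {A : 𝔼 → Matrix (Fin n) (Fin n) ℝ} {x : 𝔼} (hA : DM A x) :
    HasFDerivAt (fun y => mc (A y)) (∑ i, ∑ k, (fderiv ℝ (fun y => A y i k) x).smulRight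
      ((EuclideanSpace.proj k : 𝔼 →L[ℝ] ℝ).smulRight (EuclideanSpace.single i (1:ℝ)))) x :=
  hasFDerivAt_sum2 (F := 𝔼 →L[ℝ] 𝔼) (fun i j => (hA i j).hasFDerivAt) _

lemma fderiv_mc {A : 𝔼 → Matrix (Fin n) (Fin n) ℝ} {x : 𝔼} (hA : DM A x) (X Y : 𝔼) (l : Fin n) :
    fderiv ℝ (fun y => mc (A y)) x X Y l = ∑ i, ∑ k, X i * (pd i A x l k * Y k) := by
  rw [(hasFDerivAt_mc hA).fderiv]
  simp only [_root_.sum_apply, ContinuousLinearMap.smulRight_apply,
    _root_.smul_apply, PiLp.smul_apply, smul_eq_mul, WithLp.ofLp_sum,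
    Finset.sum_apply, prj_apply, PiLp.single_apply]
  rw [Finset.sum_eq_single l]
  · simp only [if_true, mul_one, fderiv_eq_sum, pd_apply]
    rw [Finset.sum_comm' (s := Finset.univ) (t := fun _ => Finset.univ) (t' := Finset.univ)
      (s' := fun _ => Finset.univ) (by simp)]
    refine Finset.sum_congr rfl fun k _ => ?_
    rw [Finset.sum_mul]
    exact Finset.sum_congr rfl fun i _ => by ring
  · intro b _ hb
    simp [hb.symm]
  · simp

lemma mc_smooth {A : 𝔼 → Matrix (Fin n) (Fin n) ℝ} {U : Set 𝔼}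
    (hA : ∀ i k, ContDiffOn ℝ ∞ (fun y => A y i k) U) : ContDiffOn ℝ ∞ (fun y => mc (A y)) U := by
  unfold mc
  exact ContDiffOn.sum fun i _ => ContDiffOn.sum fun k _ => (hA i k).smul_const _

/-! ## the connection form -/

/-- `Theta_a(i)` in terms of `cf` : `(cf 2 1, cf 0 2, cf 1 0)` -/
def tc (c : Fin 3 → Fin 3 → ℝ) : Fin 3 → ℝ := ![c 2 1, c 0 2, c 1 0]

/-- the connection form `Theta_a` as a field of linear forms -/
def Tv (g : MetricField n) (J : Fin 3 → EuclideanSpace ℝ (Fin n) → Matrix (Fin n) (Fin n) ℝ)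
    (a : Fin 3) (x : EuclideanSpace ℝ (Fin n)) : EuclideanSpace ℝ (Fin n) →L[ℝ] ℝ :=
  ∑ i, tc (cf g J x i) a • (EuclideanSpace.proj i : EuclideanSpace ℝ (Fin n) →L[ℝ] ℝ)

variable {g : MetricField n} {J : Fin 3 → EuclideanSpace ℝ (Fin n) → Matrix (Fin n) (Fin n) ℝ}
  {U : Set (EuclideanSpace ℝ (Fin n))}

lemma Tv_apply (a : Fin 3) (x X : 𝔼) : Tv g J a x X = ∑ i, tc (cf g J x i) a * X i := by
  simp only [Tv, _root_.sum_apply, _root_.smul_apply, smul_eq_mul, prj_apply]

lemma tc_smooth (h : QKOn g J U) (i : Fin n) (a : Fin 3) :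
    ContDiffOn ℝ ∞ (fun y => tc (cf g J y i) a) U := by
  fin_cases a
  · exact h.cf_smooth i 2 1
  · exact h.cf_smooth i 0 2
  · exact h.cf_smooth i 1 0

lemma Tv_smooth (h : QKOn g J U) (a : Fin 3) : ContDiffOn ℝ ∞ (Tv g J a) U := by
  unfold Tv
  exact ContDiffOn.sum fun i _ => (tc_smooth h i a).smul_const _

lemma fderiv_Tv (h : QKOn g J U) {x : 𝔼} (hx : x ∈ U) (a : Fin 3) (X Y : 𝔼) :
    fderiv ℝ (Tv g J a) x X Y =
      ∑ i, ∑ j, pderiv i (fun y => tc (cf g J y j) a) x * (X i * Y j) := by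
  have hd : ∀ i, DifferentiableAt ℝ (fun y => tc (cf g J y i) a) x := fun i =>
    ((tc_smooth h i a).contDiffAt (h.isOpen.mem_nhds hx)).differentiableAt (by simp)
  have h1 : HasFDerivAt (Tv g J a) (∑ j, (fderiv ℝ (fun y => tc (cf g J y j) a) x).smulRight
      (EuclideanSpace.proj j : 𝔼 →L[ℝ] ℝ)) x :=
    HasFDerivAt.fun_sum fun j _ => (hd j).hasFDerivAt.smul_const
      (EuclideanSpace.proj j : EuclideanSpace ℝ (Fin n) →L[ℝ] ℝ)
  rw [h1.fderiv]
  simp only [_root_.sum_apply, ContinuousLinearMap.smulRight_apply,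
    _root_.smul_apply, smul_eq_mul, prj_apply, fderiv_eq_sum, Finset.sum_mul]
  rw [Finset.sum_comm]
  exact Finset.sum_congr rfl fun i _ => Finset.sum_congr rfl fun j _ => by ring

/-- `Σ_b cf i a b J_b = (Theta(i) × J)_a` -/
lemma cf_cross (h : QKOn g J U) {x : 𝔼} (hx : x ∈ U) (i : Fin n) :
    (∑ b, cf g J x i 0 b • J b x = tc (cf g J x i) 1 • J 2 x - tc (cf g J x i) 2 • J 1 x) ∧
    (∑ b, cf g J x i 1 b • J b x = tc (cf g J x i) 2 • J 0 x - tc (cf g J x i) 0 • J 2 x) ∧
    (∑ b, cf g J x i 2 b • J b x = tc (cf g J x i) 0 • J 1 x - tc (cf g J x i) 1 • J 0 x) := by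
  have t0 : tc (cf g J x i) 0 = cf g J x i 2 1 := rfl
  have t1 : tc (cf g J x i) 1 = cf g J x i 0 2 := rfl
  have t2 : tc (cf g J x i) 2 = cf g J x i 1 0 := rfl
  have a1 := h.cf_antisymm hx i 0 1
  have a2 := h.cf_antisymm hx i 1 2
  have a3 := h.cf_antisymm hx i 2 0
  refine ⟨?_, ?_, ?_⟩
  · rw [Fin.sum_univ_three, h.cf_self hx, t1, t2, a1]; module
  · rw [Fin.sum_univ_three, h.cf_self hx, t0, t2, a2]; module
  · rw [Fin.sum_univ_three, h.cf_self hx, t0, t1, a3]; module

/-- the curvature equation for `Theta`, in coordinates -/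
lemma tc_main {m : ℕ} (hm : 2 ≤ m) (hnm : n = 4 * m) (h : QKOn g J U) {x : 𝔼} (hx : x ∈ U)
    (i j : Fin n) (c : Fin 3) :
    pderiv i (fun y => tc (cf g J y j) c) x - pderiv j (fun y => tc (cf g J y i) c) x =
      cr (tc (cf g J x i)) (tc (cf g J x j)) c -
        Crest.Agent.R260.Qk5_151.nu g m x * (g x * J c x) i j := by
  have F := fun a b => Crest.Agent.R260.Qk5_151.Fc_eq hm hnm h hx i j a b
  have a01 := h.cf_antisymm hx i 0 1
  have a12 := h.cf_antisymm hx i 1 2
  have a20 := h.cf_antisymm hx i 2 0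
  have b01 := h.cf_antisymm hx j 0 1
  have b12 := h.cf_antisymm hx j 1 2
  have b20 := h.cf_antisymm hx j 2 0
  have s := fun a => h.cf_self hx i a
  have s' := fun a => h.cf_self hx j a
  fin_cases c
  · have := F 2 1
    simp only [Fc, Fin.sum_univ_three, eps] at this
    simp [s, s'] at this
    show pderiv i (fun y => cf g J y j 2 1) x - pderiv j (fun y => cf g J y i 2 1) x = _
    simp only [cr, tc, Matrix.cons_val_zero, Matrix.cons_val_one, Matrix.cons_val, Fin.zero_eta]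
    rw [a20, b20, a01, b01] at this
    linarith
  · have := F 0 2
    simp only [Fc, Fin.sum_univ_three, eps] at this
    simp [s, s'] at this
    show pderiv i (fun y => cf g J y j 0 2) x - pderiv j (fun y => cf g J y i 0 2) x = _
    simp only [cr, tc, Matrix.cons_val_zero, Matrix.cons_val_one, Matrix.cons_val, Fin.mk_one]
    rw [a12, b12, a01, b01] at this
    linarith
  · have := F 1 0
    simp only [Fc, Fin.sum_univ_three, eps] at this
    simp [s, s'] at this
    show pderiv i (fun y => cf g J y j 1 0) x - pderiv j (fun y => cf g J y i 1 0) x = _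
    simp only [cr, tc, Matrix.cons_val_zero, Matrix.cons_val_one, Matrix.cons_val,
      Fin.reduceFinMk]
    rw [a12, b12, a20, b20] at this
    linarith

/-! ## `TwData` -/

lemma bil_neg (M : Matrix (Fin n) (Fin n) ℝ) (X Y : EuclideanSpace ℝ (Fin n)) :
    bil (-M) X Y = - bil M X Y := by
  rw [bil_apply, bil_apply]
  simp [Finset.sum_neg_distrib]

lemma mc_sub (A B : Matrix (Fin n) (Fin n) ℝ) (Y : EuclideanSpace ℝ (Fin n)) :
    mc (A - B) Y = mc A Y - mc B Y := by
  rw [mc_eq_mL, mc_eq_mL, mc_eq_mL, mL_sub]; rfl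

lemma mc_smul (c : ℝ) (A : Matrix (Fin n) (Fin n) ℝ) (Y : EuclideanSpace ℝ (Fin n)) :
    mc (c • A) Y = c • mc A Y := by
  rw [mc_eq_mL, mc_eq_mL, mL_smul]; rfl

lemma mc_mul_apply (A B : Matrix (Fin n) (Fin n) ℝ) (Y : EuclideanSpace ℝ (Fin n)) :
    mc (A * B) Y = mc A (mc B Y) := by
  rw [← mc_mul]; rfl

lemma fderiv_mc' {A : EuclideanSpace ℝ (Fin n) → Matrix (Fin n) (Fin n) ℝ}
    {x : EuclideanSpace ℝ (Fin n)} (hA : DM A x) (X Y : EuclideanSpace ℝ (Fin n)) :
    fderiv ℝ (fun y => mc (A y)) x X Y = ∑ i, X i • mc (pd i A x) Y := by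
  ext l
  rw [fderiv_mc hA]
  simp only [WithLp.ofLp_sum, Finset.sum_apply, PiLp.smul_apply, smul_eq_mul, mc_apply,
    Finset.mul_sum]

lemma mc_chr (g : MetricField n) (x Y : EuclideanSpace ℝ (Fin n)) (i : Fin n) :
    mc (christoffelMatrix g x i) Y = Gam g x (EuclideanSpace.single i 1) Y := by
  ext l
  rw [mc_apply, Gam_single_left]
  rfl

lemma Gam_sum (g : MetricField n) (x X Y : EuclideanSpace ℝ (Fin n)) :
    Gam g x X Y = ∑ i, X i • Gam g x (EuclideanSpace.single i 1) Y := by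
  conv_lhs => rw [eq_sum_single X]
  simp only [map_sum, map_smul, _root_.sum_apply, _root_.smul_apply]

lemma par_aux (h : QKOn g J U) {x : EuclideanSpace ℝ (Fin n)} (hx : x ∈ U) (a b c : Fin 3)
    (hc : ∀ i, ∑ d, cf g J x i a d • J d x = tc (cf g J x i) b • J c x - tc (cf g J x i) c • J b x)
    (X Y : EuclideanSpace ℝ (Fin n)) :
    fderiv ℝ (fun y => mc (J a y)) x X Y = mc (J a x) (Gam g x X Y) - Gam g x X (mc (J a x) Y) +
      (Tv g J b x X • mc (J c x) Y - Tv g J c x X • mc (J b x) Y) := by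
  rw [fderiv_mc' (h.DM_J hx a)]
  have e : ∀ i, pd i (J a) x = tc (cf g J x i) b • J c x - tc (cf g J x i) c • J b x -
      (christoffelMatrix g x i * J a x - J a x * christoffelMatrix g x i) := by
    intro i
    rw [← hc, ← h.cf_spec hx, covDerivEndo_eq]
    abel
  simp only [e, mc_sub, mc_smul, mc_mul_apply, mc_chr]
  rw [Gam_sum g x X Y, Gam_sum g x X (mc (J a x) Y), Tv_apply, Tv_apply, map_sum, Finset.sum_smul,
    Finset.sum_smul, ← Finset.sum_sub_distrib, ← Finset.sum_sub_distrib, ← Finset.sum_add_distrib]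
  refine Finset.sum_congr rfl fun i _ => ?_
  rw [map_smul]
  module

lemma cd_sum2 {ι κ E F : Type*} [Fintype ι] [Fintype κ] [NormedAddCommGroup E]
    [NormedSpace ℝ E] [NormedAddCommGroup F] [NormedSpace ℝ F] {f : ι → κ → E → ℝ} {U : Set E}
    (hf : ∀ i j, ContDiffOn ℝ ∞ (f i j) U) (L : ι → κ → F) :
    ContDiffOn ℝ ∞ (fun y => ∑ i, ∑ j, f i j y • L i j) U :=
  ContDiffOn.sum fun i _ => ContDiffOn.sum fun j _ =>
    ContDiffOn.fun_smul (hf i j) contDiffOn_const

/-- **the operator data of a quaternion-Kähler chart** -/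
theorem twData {m : ℕ} (hm : 2 ≤ m) (hnm : n = 4 * m) {ν : ℝ} (h : QKOn g J U)
    (hν : ∀ x ∈ U, Crest.Agent.R260.Qk5_151.nu g m x = ν) :
    TwData (fun a x => mc (J a x)) (Tv g J) (Gam g) (Gf g) ν U where
  isOpen := h.isOpen
  Jsm a := mc_smooth (h.smooth a)
  Tsm := Tv_smooth h
  gsm := by
    unfold Gf bil
    exact cd_sum2 (F := EuclideanSpace ℝ (Fin n) →L[ℝ] EuclideanSpace ℝ (Fin n) →L[ℝ] ℝ)
      (fun i j => h.riem.contDiffOn i j) eij
  quat x hx :=
    { sq := fun a => by rw [mc_mul, h.sq x hx, mc_neg, mc_one]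
      m01 := by rw [mc_mul, h.mul01 hx]
      m10 := by rw [mc_mul, h.mul10 hx, mc_neg] }
  gsymm x hx X Y := bil_symm h.riem hx X Y
  gJ x hx a X Y := by
    show bil (g x) (mc (J a x) X) Y = - bil (g x) X (mc (J a x) Y)
    rw [mc_eq_mL, mc_eq_mL, Crest.Agent.R260.Qk5_151.bil_mL_left,
      Crest.Agent.R260.Qk5_151.bil_mL_right,
      Crest.Agent.R260.QKk_838.orth_skew (h.sq x hx a) (h.orth x hx a), bil_neg]
  gpos x hx X hX := bil_pos h.riem hx hX
  Gsymm x hx X Y := by
    ext l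
    rw [Gam_apply, Gam_apply, Finset.sum_comm]
    refine Finset.sum_congr rfl fun i _ => Finset.sum_congr rfl fun j _ => ?_
    rw [christoffel_symm h.riem hx l j i]; ring
  par x hx X Y := by
    have hc := fun i => cf_cross h hx i
    refine ⟨?_, ?_, ?_⟩
    · exact par_aux h hx 0 1 2 (fun i => (hc i).1) X Y
    · exact par_aux h hx 1 2 0 (fun i => (hc i).2.1) X Y
    · exact par_aux h hx 2 0 1 (fun i => (hc i).2.2) X Y
  main x hx X Y c := by
    rw [fderiv_Tv h hx, fderiv_Tv h hx]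
    have e1 : Gf g x X (mc (J c x) Y) = ∑ i, ∑ j, (g x * J c x) i j * (X i * Y j) := by
      show bil (g x) X (mc (J c x) Y) = _
      rw [mc_eq_mL, Crest.Agent.R260.Qk5_151.bil_mL_right, bil_apply]
      exact Finset.sum_congr rfl fun i _ => Finset.sum_congr rfl fun j _ => by ring
    have e2 : cr (fun a => Tv g J a x X) (fun a => Tv g J a x Y) c =
        ∑ i, ∑ j, cr (tc (cf g J x i)) (tc (cf g J x j)) c * (X i * Y j) := by
      have key : ∀ a b : Fin 3, Tv g J a x X * Tv g J b x Y =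
          ∑ i, ∑ j, tc (cf g J x i) a * tc (cf g J x j) b * (X i * Y j) := by
        intro a b
        rw [Tv_apply, Tv_apply, Finset.sum_mul_sum]
        exact Finset.sum_congr rfl fun i _ => Finset.sum_congr rfl fun j _ => by ring
      fin_cases c
      all_goals
        simp only [cr, Matrix.cons_val_zero, Matrix.cons_val_one, Matrix.cons_val, Fin.zero_eta,
          Fin.mk_one, Fin.reduceFinMk, key, ← Finset.sum_sub_distrib, sub_mul]
    have e3 : ∑ i, ∑ j, pderiv i (fun y => tc (cf g J y j) c) x * (Y i * X j) =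
        ∑ i, ∑ j, pderiv j (fun y => tc (cf g J y i) c) x * (X i * Y j) := by
      rw [Finset.sum_comm]
      exact Finset.sum_congr rfl fun i _ => Finset.sum_congr rfl fun j _ => by ring
    rw [e1, e2, e3, Finset.mul_sum, ← Finset.sum_sub_distrib, ← Finset.sum_sub_distrib]
    refine Finset.sum_congr rfl fun i _ => ?_
    rw [Finset.mul_sum, ← Finset.sum_sub_distrib, ← Finset.sum_sub_distrib]
    refine Finset.sum_congr rfl fun j _ => ?_
    have := tc_main hm hnm h hx i j c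
    rw [hν x hx] at this
    linear_combination (X i * Y j) * this

end Crest.Agent.R260.TwL_847
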