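import Crest.Agent.R260.Tw8_979
import Crest.Agent.R260.TwL3_847

/-!
Row 260, leaf TW-Z (helper979), part 9: integrability of the twistor space.
-/

set_option autoImplicit false

open scoped Manifold ContDiff Topology
open Filter Set Complex Matrix
open Crest.GeometryTopology.CoordMetric
open Crest.GeometryTopology.ChartRiem

noncomputable section

namespace Crest.Agent.R260.Tw_979

open Crest.Agent.R202.Tens
open Crest.Agent.R260.Qk3_151 Crest.Agent.R260.Qk4_151 Crest.Agent.R260.Qk7_151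

variable {n : ℕ}

local notation "𝔼" => EuclideanSpace ℝ (Fin n)

lemma mc_eq' (A : Matrix (Fin n) (Fin n) ℝ) : mc A = TwL_847.mc A := by
  refine ContinuousLinearMap.ext fun X => ?_
  rw [TwL_847.mc_eq_mL]
  rfl

lemma Jop_eq' (J : Fin 3 → 𝔼 → Matrix (Fin n) (Fin n) ℝ) :
    (fun a y => Jop J y a) = fun a x => TwL_847.mc (J a x) := by
  funext a y
  exact mc_eq' _

lemma Th_eq' (g : MetricField n) (J : Fin 3 → 𝔼 → Matrix (Fin n) (Fin n) ℝ) :
    (fun a y => Th g J y a) = TwL_847.Tv g J := by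
  funext a y
  fin_cases a <;> rfl

section loc

variable {g : MetricField n} {J : Fin 3 → EuclideanSpace ℝ (Fin n) → Matrix (Fin n) (Fin n) ℝ}
  {U : Set (EuclideanSpace ℝ (Fin n))}

/-- 847's operator data in my notation -/
theorem twd {m : ℕ} (hm : 2 ≤ m) (hnm : n = 4 * m) {ν : ℝ} (h : QKOn g J U)
    (hν : ∀ x ∈ U, Qk5_151.nu g m x = ν) :
    TwL_847.TwData (fun a y => Jop J y a) (fun a y => Th g J y a) (Gam g) (Gf g) ν U := by
  rw [Jop_eq', Th_eq']
  exact TwL_847.twData hm hnm h hν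

end loc

section manifold

variable {M : Type} [TopologicalSpace M] [ChartedSpace (EuclideanSpace ℝ (Fin n)) M]
  [IsManifold 𝓘(ℝ, EuclideanSpace ℝ (Fin n)) ∞ M]
  {G : ChartMetric n M} (Q : QuaternionicStructure n M G) (hn : n ≠ 0)

/-- **the twistor space is integrable** -/
theorem acm_int {m : ℕ} (hm : 2 ≤ m) (hnm : n = 4 * m) {ν : ℝ}
    (hν : ∀ e ∈ atlas (EuclideanSpace ℝ (Fin n)) M, ∀ x ∈ e.target, Qk5_151.nu (G.g e) m x = ν) :
    (acm Q hn).Int := by
  intro k z hz v w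
  have hz1 : z.1 ∈ k.e.target := (mem_ch_target Q hn k z).1 hz
  have h := TwL_847.Nij_JZ (twd hm hnm (qk Q k) (hν k.e k.he)) hz1 v w
  show ACM_580.Nij (JT (G.g k.e) (fr Q k)) z v w = 0
  rw [JT_eq]
  exact h

end manifold

end Crest.Agent.R260.Tw_979
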