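import Crest.Agent.R260.TwL3_847
import Crest.Agent.R260.Tw7_979

/-!
Row 260, leaf TW-LOC (helper847), part 4: the local fields of helper254's contact data `CD` in one
chart of the twistor space, for helper979's structure `JT g J`.

* `thL`, `hL`, `alL` : contact form, weight and connection form in the frame `e*` of `L`;
* `JT_int`, `thL_*`, `hL_*`, `alL_*`.
-/

set_option autoImplicit false
set_option linter.unusedSimpArgs false

open Complex
open scoped ContDiff Topology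
open Crest.GeometryTopology.CoordMetric Crest.GeometryTopology.ChartRiem

noncomputable section

namespace Crest.Agent.R260.TwL_847

open Crest.Agent.R260.Tw_979 Crest.Agent.R260.Qk3_151 Crest.Agent.R260.Qk4_151
open Crest.Agent.R202.Tens

/-! ## Complements on `TwData` -/

section abs

variable {E : Type*} [NormedAddCommGroup E] [NormedSpace ℝ E]
variable {J : Fin 3 → E → E →L[ℝ] E} {Th : Fin 3 → E → E →L[ℝ] ℝ}
  {Ga : E → E →L[ℝ] E →L[ℝ] E} {g : E → E →L[ℝ] E →L[ℝ] ℝ} {nu : ℝ} {U : Set E}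

lemma contDiff_cden : ContDiff ℝ ∞ (fun w : ℂ => (den w : ℂ)) :=
  ofRealCLM.contDiff.comp contDiff_den

lemma cden_ne' (w : ℂ) : (den w : ℂ) ≠ 0 := ofReal_ne_zero.2 (den_ne w)

lemma au_smooth (hT : ∀ a, ContDiffOn ℝ ∞ (Th a) U) :
    ContDiffOn ℝ ∞ (au Th) (U ×ˢ (Set.univ : Set ℂ)) := by
  have e : au Th = fun p : E × ℂ =>
      (2 * (starRingEnd ℂ) p.2 * (den p.2 : ℂ)⁻¹) • tau Th p +
        (bp Th p).comp (ContinuousLinearMap.fst ℝ E ℂ) := by
    funext p
    refine ContinuousLinearMap.ext fun v => ?_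
    rw [au_eq]
    simp [div_eq_mul_inv]
  rw [e]
  refine ContDiffOn.add (ContDiffOn.fun_smul ?_ (tau_smooth hT)) ?_
  · refine ContDiff.contDiffOn ?_
    refine (contDiff_const.mul (conjCLE.contDiff.comp contDiff_snd)).mul ?_
    exact (contDiff_cden.comp contDiff_snd).inv fun p => cden_ne' p.2
  · exact (bp_smooth hT).clm_comp contDiffOn_const

/-- the exterior derivative of `au` is `i dA` -/
lemma dau_eq (hT : ∀ a, ContDiffOn ℝ ∞ (Th a) U) (hU : IsOpen U) {p : E × ℂ} (hp : p.1 ∈ U)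
    (v v' : E × ℂ) :
    fderiv ℝ (au Th) p v v' - fderiv ℝ (au Th) p v' v = I * dA Th p v v' := by
  have ho : IsOpen (U ×ˢ (Set.univ : Set ℂ)) := hU.prod isOpen_univ
  have hm : U ×ˢ (Set.univ : Set ℂ) ∈ 𝓝 p := ho.mem_nhds ⟨hp, Set.mem_univ _⟩
  have hd : DifferentiableAt ℝ (au Th) p :=
    ((au_smooth hT).contDiffAt hm).differentiableAt (by simp)
  have ev : ∀ u u', fderiv ℝ (fun q => au Th q u') p u = fderiv ℝ (au Th) p u u' := by
    intro u u'
    rw [fderiv_clm_apply hd (differentiableAt_const _)]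
    simp
  have hre : ∀ u u', (fderiv ℝ (au Th) p u u').re =
      fderiv ℝ (fun q => reCLM.comp (au Th q)) p u u' := by
    intro u u'
    have h1 := ((ContinuousLinearMap.compL ℝ (E × ℂ) ℂ ℝ reCLM).hasFDerivAt.comp p
      hd.hasFDerivAt).fderiv
    have h2 : ((ContinuousLinearMap.compL ℝ (E × ℂ) ℂ ℝ reCLM) ∘ au Th) =
      fun q => reCLM.comp (au Th q) := rfl
    rw [h2] at h1
    rw [h1]
    simp
  have him : ∀ u u', (fderiv ℝ (au Th) p u u').im = fderiv ℝ (A Th) p u u' := by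
    intro u u'
    have h1 := ((ContinuousLinearMap.compL ℝ (E × ℂ) ℂ ℝ imCLM).hasFDerivAt.comp p
      hd.hasFDerivAt).fderiv
    have h2 : ((ContinuousLinearMap.compL ℝ (E × ℂ) ℂ ℝ imCLM) ∘ au Th) = A Th := by
      funext q
      refine ContinuousLinearMap.ext fun v => ?_
      exact au_im q v
    rw [h2] at h1
    rw [h1]
    simp
  have hclosed : (fun q : E × ℂ => reCLM.comp (au Th q)) =
      fderiv ℝ (fun q : E × ℂ => Real.log (den q.2)) := by
    funext q
    exact (hasFDerivAt_log_den q).fderiv.symm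
  have hs : ContDiffAt ℝ 2 (fun q : E × ℂ => Real.log (den q.2)) p := by
    have h1 : ContDiff ℝ 2 (fun q : E × ℂ => den q.2) :=
      (contDiff_den.comp contDiff_snd).of_le (WithTop.coe_le_coe.2 le_top)
    exact h1.contDiffAt.log (den_ne p.2)
  have hsymm : ∀ u u', fderiv ℝ (fderiv ℝ (fun q : E × ℂ => Real.log (den q.2))) p u u' =
      fderiv ℝ (fderiv ℝ (fun q : E × ℂ => Real.log (den q.2))) p u' u :=
    (hs.isSymmSndFDerivAt (by simp)).eq
  apply Complex.ext
  · rw [sub_re, hre, hre, hclosed, hsymm v v']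
    simp
  · rw [sub_im, him, him]
    simp [dA]

/-- the weight `|e*|²` -/
def hw (p : E × ℂ) : ℝ := (2 * den p.2 ^ 2)⁻¹

omit [NormedAddCommGroup E] [NormedSpace ℝ E] in
lemma hw_pos (p : E × ℂ) : 0 < hw p := by
  have := den_pos p.2
  unfold hw; positivity

lemma hw_smooth (U : Set (E × ℂ)) : ContDiffOn ℝ ∞ (hw : E × ℂ → ℝ) U := by
  refine ContDiff.contDiffOn ?_
  unfold hw
  refine ContDiff.inv ?_ fun p => ?_
  · exact contDiff_const.mul ((contDiff_den.comp contDiff_snd).pow 2)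
  · have := den_pos p.2
    positivity

lemma hw_deriv (p v : E × ℂ) : fderiv ℝ hw p v = 2 * (-(au Th p v)).re * hw p := by
  have hd := den_ne p.2
  have h1 : HasFDerivAt (fun q : E × ℂ => 2 * den q.2 ^ 2) _ p :=
    (((hasFDerivAt_den p.2).comp p hasFDerivAt_snd).pow 2).const_mul 2
  have h2 : HasFDerivAt (hw : E × ℂ → ℝ) _ p :=
    (hasDerivAt_inv (by positivity : (2 * den p.2 ^ 2) ≠ 0)).comp_hasFDerivAt p h1
  rw [h2.fderiv, neg_re, au_re, hw]
  simp
  field_simp
  ring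

/-- `∂̄ theta = 0` -/
lemma tau_db (h : TwData J Th Ga g nu U) {p : E × ℂ} (hp : p.1 ∈ U) (v v' : E × ℂ) :
    (fderiv ℝ (tau Th) p v v' - fderiv ℝ (tau Th) p v' v) +
      I * (fderiv ℝ (tau Th) p (JZ J Th p v) v' - fderiv ℝ (tau Th) p v' (JZ J Th p v)) =
    (au Th p v + I * au Th p (JZ J Th p v)) * tau Th p v' := by
  rw [dtau_eq h hp, dtau_eq h hp, tau_J, JZ_fst, gn_I' h hp]
  linear_combination (-(au Th p v' * tau Th p v) - (I / 2) * nu * gn J g p v.1 v'.1) * I_sq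

lemma tau_nondeg (h : TwData J Th Ga g nu U) (hnu : nu ≠ 0) {p : E × ℂ} (hp : p.1 ∈ U)
    {v : E × ℂ} (hv : tau Th p v = 0)
    (hd : ∀ w, tau Th p w = 0 → fderiv ℝ (tau Th) p v w - fderiv ℝ (tau Th) p w v = 0) :
    v = 0 := by
  have hX : v.1 = 0 := by
    refine gn_nondeg h hp fun Y => ?_
    have h1 : tau Th p (Y, bt Th p Y) = 0 := by rw [tau_apply]; simp
    have h2 := hd _ h1
    rw [dtau_eq h hp, hv, h1] at h2
    have h3 : (I / 2) * nu * gn J g p v.1 Y = 0 := by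
      linear_combination -h2
    have h4 : (I / 2) * (nu : ℂ) ≠ 0 := by
      refine mul_ne_zero (div_ne_zero I_ne_zero two_ne_zero) ?_
      exact_mod_cast hnu
    exact (mul_eq_zero.1 h3).resolve_left h4
  have h2 : v.2 = 0 := by
    rw [tau_apply, hX] at hv
    simpa using hv
  exact Prod.ext hX h2

end abs

/-! ## The fields for `JT g J` -/

variable {n : ℕ}

/-- the contact form in the frame `e*` -/
def thL (g : MetricField n) (J : Fin 3 → EuclideanSpace ℝ (Fin n) → Matrix (Fin n) (Fin n) ℝ)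
    (z : EuclideanSpace ℝ (Fin n) × ℂ) : (EuclideanSpace ℝ (Fin n) × ℂ) →L[ℝ] ℂ :=
  tau (fun a y => Th g J y a) z

/-- the weight `|e*|²` -/
def hL (z : EuclideanSpace ℝ (Fin n) × ℂ) : ℝ := hw z

/-- the connection form of `L` in the frame `e*` -/
def alL (g : MetricField n) (J : Fin 3 → EuclideanSpace ℝ (Fin n) → Matrix (Fin n) (Fin n) ℝ)
    (z : EuclideanSpace ℝ (Fin n) × ℂ) : (EuclideanSpace ℝ (Fin n) × ℂ) →L[ℝ] ℂ :=
  -(au (fun a y => Th g J y a) z)

variable {g : MetricField n} {J : Fin 3 → EuclideanSpace ℝ (Fin n) → Matrix (Fin n) (Fin n) ℝ}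
  {U : Set (EuclideanSpace ℝ (Fin n))}

lemma Jop_eq : (fun (a : Fin 3) (y : EuclideanSpace ℝ (Fin n)) => Jop J y a) =
    fun a y => mc (J a y) := by
  funext a y
  refine ContinuousLinearMap.ext fun X => ?_
  show Tw_979.mc (J a y) X = mc (J a y) X
  rw [mc_eq_mL, Tw_979.mc_apply]

lemma Th_eq : (fun (a : Fin 3) (y : EuclideanSpace ℝ (Fin n)) => Th g J y a) = Tv g J := by
  funext a y
  refine ContinuousLinearMap.ext fun X => ?_
  rw [Tv_apply]
  simp only [Th, _root_.sum_apply, _root_.smul_apply, smul_eq_mul]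
  refine Finset.sum_congr rfl fun i _ => ?_
  fin_cases a <;> rfl

/-- **the operator data in helper979's notation** -/
theorem twData' {m : ℕ} (hm : 2 ≤ m) (hnm : n = 4 * m) {ν : ℝ} (h : QKOn g J U)
    (hν : ∀ x ∈ U, Crest.Agent.R260.Qk5_151.nu g m x = ν) :
    TwData (fun a y => Jop J y a) (fun a y => Th g J y a) (Gam g) (Gf g) ν U := by
  rw [Jop_eq, Th_eq]
  exact twData hm hnm h hν

section fields

variable {m : ℕ} (hm : 2 ≤ m) (hnm : n = 4 * m) {ν : ℝ} (h : QKOn g J U)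
  (hν : ∀ x ∈ U, Crest.Agent.R260.Qk5_151.nu g m x = ν)

include hm hnm h hν in
/-- **integrability** -/
theorem JT_int {z : EuclideanSpace ℝ (Fin n) × ℂ} (hz : z.1 ∈ U)
    (v w : EuclideanSpace ℝ (Fin n) × ℂ) : ACM_580.Nij (JT g J) z v w = 0 := by
  rw [JT_eq]
  exact Nij_JZ (twData' hm hnm h hν) hz v w

include h in
theorem thL_sm : ContDiffOn ℝ ∞ (thL g J) (U ×ˢ Set.univ) :=
  tau_smooth fun a => Th_smooth h a

theorem thL_J (z v : EuclideanSpace ℝ (Fin n) × ℂ) :
    thL g J z (JT g J z v) = I * thL g J z v := by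
  rw [JT_eq]
  exact tau_J z v

theorem thL_ne (z : EuclideanSpace ℝ (Fin n) × ℂ) : ∃ v, thL g J z v ≠ 0 :=
  ⟨(0, 1), by rw [thL, tau_apply]; simp⟩

theorem hL_sm (V : Set (EuclideanSpace ℝ (Fin n) × ℂ)) : ContDiffOn ℝ ∞ hL V := hw_smooth V

theorem hL_pos (z : EuclideanSpace ℝ (Fin n) × ℂ) : 0 < hL z := hw_pos z

include h in
theorem alL_sm : ContDiffOn ℝ ∞ (alL g J) (U ×ˢ Set.univ) :=
  (au_smooth fun a => Th_smooth h a).neg

theorem alL_h (z v : EuclideanSpace ℝ (Fin n) × ℂ) :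
    fderiv ℝ hL z v = 2 * (alL g J z v).re * hL z := hw_deriv z v

include hm hnm h hν in
theorem thL_db {z : EuclideanSpace ℝ (Fin n) × ℂ} (hz : z.1 ∈ U)
    (v w : EuclideanSpace ℝ (Fin n) × ℂ) :
    (fderiv ℝ (thL g J) z v w - fderiv ℝ (thL g J) z w v) +
      I * (fderiv ℝ (thL g J) z (JT g J z v) w - fderiv ℝ (thL g J) z w (JT g J z v)) =
    -(alL g J z v + I * alL g J z (JT g J z v)) * thL g J z w := by
  rw [JT_eq]
  refine (tau_db (twData' hm hnm h hν) hz v w).trans ?_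
  simp only [alL, thL, _root_.neg_apply]
  ring

lemma dd_alL (h : QKOn g J U) {z : EuclideanSpace ℝ (Fin n) × ℂ} (hz : z.1 ∈ U)
    (v w : EuclideanSpace ℝ (Fin n) × ℂ) :
    I * (fderiv ℝ (alL g J) z v w - fderiv ℝ (alL g J) z w v) =
      dA (fun a y => Th g J y a) z v w := by
  have e : ∀ u u', fderiv ℝ (alL g J) z u u' =
      -(fderiv ℝ (au (fun a y => Th g J y a)) z u u') := by
    intro u u'
    have : alL g J = -(au (fun a y => Th g J y a)) := rfl
    rw [this, fderiv_neg]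
    rfl
  rw [e, e]
  have h1 := dau_eq (Th := fun a y => Th g J y a) (fun a => Th_smooth h a) h.isOpen hz v w
  linear_combination (-I) * h1 - (dA (fun a y => Th g J y a) z v w : ℂ) * I_sq

include hm hnm h hν in
/-- **positivity of the curvature** -/
theorem alL_pos (hν0 : 0 < ν) {z : EuclideanSpace ℝ (Fin n) × ℂ} (hz : z.1 ∈ U)
    {v : EuclideanSpace ℝ (Fin n) × ℂ} (hv : v ≠ 0) :
    0 < (I * (fderiv ℝ (alL g J) z v (JT g J z v) - fderiv ℝ (alL g J) z (JT g J z v) v)).re := by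
  rw [dd_alL h hz, JT_eq, ofReal_re]
  exact dA_pos (twData' hm hnm h hν) hν0 hz hv

include hm hnm h hν in
theorem thL_nondeg (hν0 : 0 < ν) {z : EuclideanSpace ℝ (Fin n) × ℂ} (hz : z.1 ∈ U)
    {v : EuclideanSpace ℝ (Fin n) × ℂ} (hv : thL g J z v = 0)
    (hd : ∀ w, thL g J z w = 0 →
      fderiv ℝ (thL g J) z v w - fderiv ℝ (thL g J) z w v = 0) : v = 0 :=
  tau_nondeg (twData' hm hnm h hν) hν0.ne' hz hv hd

include hm hnm h hν in
/-- curvature formula -/
theorem dd_alL_eq {z : EuclideanSpace ℝ (Fin n) × ℂ} (hz : z.1 ∈ U)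
    (v w : EuclideanSpace ℝ (Fin n) × ℂ) :
    I * (fderiv ℝ (alL g J) z v w - fderiv ℝ (alL g J) z w v) =
      ((4 * ((starRingEnd ℂ) (thL g J z v) * thL g J z w).im / den z.2 ^ 2
      - ν * bil (g z.1) v.1 (TwL_847.Iw (fun a y => Jop J y a) z w.1) : ℝ) : ℂ) := by
  rw [dd_alL h hz, dA_eq (twData' hm hnm h hν) hz]
  rfl

include hm hnm h hν in
/-- the curvature is of type `(1,1)` -/
theorem dd_alL_J {z : EuclideanSpace ℝ (Fin n) × ℂ} (hz : z.1 ∈ U)
    (v w : EuclideanSpace ℝ (Fin n) × ℂ) :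
    fderiv ℝ (alL g J) z (JT g J z v) (JT g J z w) - fderiv ℝ (alL g J) z (JT g J z w) (JT g J z v)
      = fderiv ℝ (alL g J) z v w - fderiv ℝ (alL g J) z w v := by
  have h1 := dd_alL h hz (JT g J z v) (JT g J z w)
  have h2 := dd_alL h hz v w
  have h3 : dA (fun a y => Th g J y a) z (JT g J z v) (JT g J z w) =
      dA (fun a y => Th g J y a) z v w := by
    rw [JT_eq]
    exact dA_J (twData' hm hnm h hν) hz v w
  rw [h3, ← h2] at h1
  exact mul_left_cancel₀ I_ne_zero h1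

end fields

end Crest.Agent.R260.TwL_847
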