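import Crest.Agent.R260.Tw4_979

/-!
Row 260 (helper389): transition laws of the line bundle `L` of the twistor space under a change of
frame `trn φ q` (same hypotheses as `Tw_979.JZ_compat`).

* `lmb q w = ((q nn w)₁ - i (q nn w)₂) / 2`, `q_nn : q nn(w) = lmb q w • nn(w')`, `lmb_ne`;
* `h_tr` : `hw w' = ‖lmb q w‖² hw w`, `hw w = 1/(2 (1+|w|²)²)`;
* `th_tr` : `η - β_w(X) = lmb q w * (η' - β'_{w'}(X'))`, `(X', η') = D(trn φ q)(X, η)`;
* `lmb_comp` : cocycle relation.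
-/

set_option autoImplicit false

open Complex Matrix Set Topology
open scoped ContDiff

noncomputable section

namespace Crest.Agent.R260.TwLt_389

open Crest.Agent.R260.Tw_979

/-- complexified action of a real `3 × 3` matrix -/
def qc (q : Matrix (Fin 3) (Fin 3) ℝ) (u : Fin 3 → ℂ) : Fin 3 → ℂ :=
  fun a => ∑ b, (q a b : ℂ) * u b

lemma qc_re (q : Matrix (Fin 3) (Fin 3) ℝ) (u : Fin 3 → ℂ) (a : Fin 3) :
    (qc q u a).re = (q *ᵥ fun b => (u b).re) a := by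
  simp [qc, Matrix.mulVec, dotProduct]

lemma qc_im (q : Matrix (Fin 3) (Fin 3) ℝ) (u : Fin 3 → ℂ) (a : Fin 3) :
    (qc q u a).im = (q *ᵥ fun b => (u b).im) a := by
  simp [qc, Matrix.mulVec, dotProduct]

lemma qc_cx (q : Matrix (Fin 3) (Fin 3) ℝ) (u : Fin 3 → ℝ) : qc q (cx u) = cx (q *ᵥ u) := by
  funext a
  simp [qc, cx, Matrix.mulVec, dotProduct]

lemma qc_smul (q : Matrix (Fin 3) (Fin 3) ℝ) (k : ℂ) (u : Fin 3 → ℂ) :
    qc q (k • u) = k • qc q u := by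
  funext a
  simp only [qc, Pi.smul_apply, smul_eq_mul, Finset.mul_sum]
  exact Finset.sum_congr rfl fun b _ => by ring

lemma qc_mul (q q' : Matrix (Fin 3) (Fin 3) ℝ) (u : Fin 3 → ℂ) :
    qc (q' * q) u = qc q' (qc q u) := by
  funext a
  simp only [qc, Matrix.mul_apply, Complex.ofReal_sum, Complex.ofReal_mul, Finset.sum_mul,
    Finset.mul_sum]
  rw [Finset.sum_comm]
  exact Finset.sum_congr rfl fun b _ => Finset.sum_congr rfl fun c _ => by ring

lemma dt_comm (u v : Fin 3 → ℂ) : dt u v = dt v u := by simp only [dt]; ring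

/-- decomposition into real and imaginary parts -/
lemma re_im (u : Fin 3 → ℂ) : u = cx (fun a => (u a).re) + I • cx (fun a => (u a).im) := by
  funext a
  simp only [Pi.add_apply, Pi.smul_apply, cx, smul_eq_mul]
  rw [mul_comm]; exact (Complex.re_add_im (u a)).symm

lemma cr_add_l {R : Type*} [CommRing R] (u v w : Fin 3 → R) :
    cr (u + v) w = cr u w + cr v w := by
  funext a; fin_cases a <;> simp [cr] <;> ring

lemma cr_smul_l {R : Type*} [CommRing R] (u v : Fin 3 → R) (c : R) :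
    cr (c • u) v = c • cr u v := by
  funext a; fin_cases a <;> simp [cr] <;> ring

lemma cr_cx (u v : Fin 3 → ℝ) : cr (cx u) (cx v) = cx (cr u v) := by
  funext a; fin_cases a <;> simp [cr, cx]

lemma qc_add (q : Matrix (Fin 3) (Fin 3) ℝ) (u v : Fin 3 → ℂ) : qc q (u + v) = qc q u + qc q v := by
  funext a
  simp [qc, mul_add, Finset.sum_add_distrib]

/-- the complexified cross product is preserved by `SO(3)` (first factor real) -/
lemma qc_cr {q : Matrix (Fin 3) (Fin 3) ℝ} (hq : SO q) (x : Fin 3 → ℝ) (u : Fin 3 → ℂ) :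
    cr (cx (q *ᵥ x)) (qc q u) = qc q (cr (cx x) u) := by
  have h1 := re_im u
  set r : Fin 3 → ℝ := fun a => (u a).re
  set s : Fin 3 → ℝ := fun a => (u a).im
  rw [h1, qc_add, qc_smul, qc_cx, qc_cx, cr_add_right, cr_smul_right, cr_cx, cr_cx, hq.cr, hq.cr,
    cr_add_right, cr_smul_right, cr_cx, cr_cx, qc_add, qc_smul, qc_cx, qc_cx]

lemma dot_cx (u v : Fin 3 → ℝ) : dt (cx u) (cx v) = ((u ⬝ᵥ v : ℝ) : ℂ) := by
  simp [dt, cx, dotProduct, Fin.sum_univ_three]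

/-- the complexified scalar product is preserved -/
lemma qc_dt {q : Matrix (Fin 3) (Fin 3) ℝ} (hq : qᵀ * q = 1) (u v : Fin 3 → ℂ) :
    dt (qc q u) (qc q v) = dt u v := by
  have key : ∀ a b : Fin 3, ∑ c, q c a * q c b = if a = b then 1 else 0 := by
    intro a b
    have := congrFun (congrFun hq a) b
    rw [Matrix.mul_apply] at this
    simpa [Matrix.transpose_apply, Matrix.one_apply] using this
  have e : ∀ u v : Fin 3 → ℂ, dt u v = ∑ c, u c * v c := by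
    intro u v; simp [dt, Fin.sum_univ_three]
  rw [e, e]
  simp only [qc]
  have h1 : ∀ c, (∑ a, (q c a : ℂ) * u a) * (∑ b, (q c b : ℂ) * v b) =
      ∑ a, ∑ b, ((q c a * q c b : ℝ) : ℂ) * (u a * v b) := by
    intro c
    rw [Finset.sum_mul_sum]
    exact Finset.sum_congr rfl fun a _ => Finset.sum_congr rfl fun b _ => by push_cast; ring
  simp only [h1]
  rw [Finset.sum_comm]
  refine Finset.sum_congr rfl fun a _ => ?_
  rw [Finset.sum_comm]
  have h2 : ∀ b, ∑ c, ((q c a * q c b : ℝ) : ℂ) * (u a * v b) =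
      (if a = b then 1 else 0 : ℂ) * (u a * v b) := by
    intro b
    rw [← Finset.sum_mul, ← Complex.ofReal_sum, key]
    split_ifs <;> simp
  simp only [h2]
  rw [Finset.sum_eq_single a]
  · simp
  · intro b _ hb; simp [Ne.symm hb]
  · intro h; exact absurd (Finset.mem_univ a) h

/-- the `-i` eigenspace of `x ×` is spanned by `nn w` -/
lemma null_unique {w : ℂ} {u : Fin 3 → ℂ} (h : cr (cx (xx w)) u = (-I) • u) :
    u = ((u 1 - I * u 2) / 2) • nn w := by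
  have hd := cden_ne w
  have h0 := congrFun h 0
  have h1 := congrFun h 1
  have h2 := congrFun h 2
  rw [xx_c] at h0 h1 h2
  simp only [cr, Pi.smul_apply, smul_eq_mul, Matrix.cons_val_zero, Matrix.cons_val_one,
    Matrix.cons_val] at h0 h1 h2
  set c := (starRingEnd ℂ) w with hc
  have hI := I_sq
  have k0 : (w + c) * u 2 + I * (w - c) * u 1 + I * (1 + w * c) * u 0 = 0 := by
    field_simp at h0
    linear_combination h0
  have k1 : -I * (w - c) * u 0 - (1 - w * c) * u 2 + I * (1 + w * c) * u 1 = 0 := by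
    field_simp at h1
    linear_combination h1
  have k2 : (1 - w * c) * u 1 - (w + c) * u 0 + I * (1 + w * c) * u 2 = 0 := by
    field_simp at h2
    linear_combination h2
  have e0 : u 0 + w * (u 1 - I * u 2) = 0 := by
    have key : (1 + w * c) ^ 2 * (u 0 + w * (u 1 - I * u 2)) = 0 := by
      linear_combination (-I) * k0 + (-I * ((2 * w + w ^ 2 * c + c) / 2)) * k1 +
        ((-2 * w - w ^ 2 * c + c) / 2) * k2 +
        (((1 + w * c) - (2 * w + w ^ 2 * c + c) / 2 * (w - c)) * u 0 +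
          ((w - c) + (2 * w + w ^ 2 * c + c) / 2 * (1 + w * c)) * u 1) * hI
    exact (mul_eq_zero.1 key).resolve_left (pow_ne_zero 2 hd)
  have e1 : (1 + w ^ 2) * u 1 + I * (1 - w ^ 2) * u 2 = 0 := by
    have key : (1 + w * c) ^ 2 * ((1 + w ^ 2) * u 1 + I * (1 - w ^ 2) * u 2) = 0 := by
      linear_combination (-I * (w * (1 - w * c))) * k0 +
        (I * ((-1 - 3 * (w * c) - 3 * w ^ 2 - w ^ 3 * c) / 2)) * k1 +
        ((1 + 3 * (w * c) - 3 * w ^ 2 - w ^ 3 * c) / 2) * k2 +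
        ((w * (1 - w * c) * (1 + w * c) +
            (-1 - 3 * (w * c) - 3 * w ^ 2 - w ^ 3 * c) / 2 * (w - c)) * u 0 +
          (w * (1 - w * c) * (w - c) -
            (-1 - 3 * (w * c) - 3 * w ^ 2 - w ^ 3 * c) / 2 * (1 + w * c)) * u 1) * hI
    exact (mul_eq_zero.1 key).resolve_left (pow_ne_zero 2 hd)
  funext a
  fin_cases a
  · simp only [nn, Pi.smul_apply, smul_eq_mul, Fin.zero_eta, Matrix.cons_val_zero]
    linear_combination e0
  · simp only [nn, Pi.smul_apply, smul_eq_mul, Fin.mk_one, Matrix.cons_val_one,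
      Matrix.cons_val_zero]
    linear_combination (1 / 2 : ℂ) * e1
  · simp only [nn, Pi.smul_apply, smul_eq_mul, Fin.reduceFinMk, Matrix.cons_val]
    linear_combination (-I / 2 : ℂ) * e1 + (u 2 * (1 - w ^ 2) / 2 + (1 + w ^ 2) * u 2 / 2) * hI

/-- transition function of `L` (frame dual to `e_k = nn(w) · J`) -/
def lmb (q : Matrix (Fin 3) (Fin 3) ℝ) (w : ℂ) : ℂ := (qc q (nn w) 1 - I * qc q (nn w) 2) / 2

variable {q : Matrix (Fin 3) (Fin 3) ℝ} {w : ℂ}

/-- **`q nn(w) = lmb • nn(w')`** -/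
theorem q_nn (hq : SO q) (hd : 1 + (q *ᵥ xx w) 0 ≠ 0) :
    qc q (nn w) = lmb q w • nn (st (q *ᵥ xx w)) := by
  refine null_unique ?_
  rw [xx_trn hq.orth hd, qc_cr hq, cr_xx_nn, qc_smul]

lemma cj_cx (u : Fin 3 → ℝ) (a : Fin 3) : (starRingEnd ℂ) (cx u a) = cx u a := by
  simp [cx]

lemma qc_conj (q : Matrix (Fin 3) (Fin 3) ℝ) (u : Fin 3 → ℂ) (a : Fin 3) :
    (starRingEnd ℂ) (qc q u a) = qc q (fun b => (starRingEnd ℂ) (u b)) a := by
  simp [qc]

/-- `|nn|² = 2 (1 + |w|²)²` -/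
lemma nn_norm (w : ℂ) : dt (nn w) (fun b => (starRingEnd ℂ) (nn w b)) = 2 * (den w : ℂ) ^ 2 := by
  rw [cx_den]
  simp only [dt, nn, Matrix.cons_val_zero, Matrix.cons_val_one, Matrix.cons_val, map_mul, map_sub,
    map_add, map_neg, map_pow, map_one, conj_I, map_ofNat]
  linear_combination (-(1 + w ^ 2) * (1 + (starRingEnd ℂ) w ^ 2)) * I_sq

/-- **norm law** `den(w)² = |lmb|² den(w')²` -/
theorem norm_lmb (hq : SO q) (hd : 1 + (q *ᵥ xx w) 0 ≠ 0) :
    den w ^ 2 = ‖lmb q w‖ ^ 2 * den (st (q *ᵥ xx w)) ^ 2 := by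
  have h1 := qc_dt hq.orth (nn w) (fun b => (starRingEnd ℂ) (nn w b))
  have h2 : qc q (fun b => (starRingEnd ℂ) (nn w b)) =
      fun a => (starRingEnd ℂ) (lmb q w) * (starRingEnd ℂ) (nn (st (q *ᵥ xx w)) a) := by
    funext a
    rw [← qc_conj, q_nn hq hd]
    simp
  rw [h2, q_nn hq hd] at h1
  have h3 : dt (lmb q w • nn (st (q *ᵥ xx w)))
      (fun a => (starRingEnd ℂ) (lmb q w) * (starRingEnd ℂ) (nn (st (q *ᵥ xx w)) a)) =
      (lmb q w * (starRingEnd ℂ) (lmb q w)) *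
        dt (nn (st (q *ᵥ xx w))) (fun a => (starRingEnd ℂ) (nn (st (q *ᵥ xx w)) a)) := by
    simp only [dt, Pi.smul_apply, smul_eq_mul]; ring
  rw [h3, nn_norm, nn_norm, mul_conj, normSq_eq_norm_sq] at h1
  have h4 : ((‖lmb q w‖ ^ 2 * den (st (q *ᵥ xx w)) ^ 2 : ℝ) : ℂ) = ((den w ^ 2 : ℝ) : ℂ) := by
    push_cast at h1 ⊢
    linear_combination (1 / 2 : ℂ) * h1
  exact_mod_cast h4.symm

theorem lmb_ne (hq : SO q) (hd : 1 + (q *ᵥ xx w) 0 ≠ 0) : lmb q w ≠ 0 := by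
  intro h
  have := norm_lmb hq hd
  rw [h] at this
  simp at this
  exact den_ne w this

/-- the Hermitian metric `h = 1 / (2 (1+|w|²)²)` -/
def hw (w : ℂ) : ℝ := 1 / (2 * (1 + normSq w) ^ 2)

theorem hw_tr (hq : SO q) (hd : 1 + (q *ᵥ xx w) 0 ≠ 0) :
    hw (st (q *ᵥ xx w)) = ‖lmb q w‖ ^ 2 * hw w := by
  have h := norm_lmb hq hd
  have h1 := den_ne w
  have h2 := den_ne (st (q *ᵥ xx w))
  have e : ∀ w, hw w = 1 / (2 * den w ^ 2) := fun w => rfl
  rw [e, e]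
  field_simp
  linear_combination h

/-- cocycle relation -/
theorem lmb_comp {q' : Matrix (Fin 3) (Fin 3) ℝ} (hq : SO q) (hd : 1 + (q *ᵥ xx w) 0 ≠ 0) :
    lmb (q' * q) w = lmb q w * lmb q' (st (q *ᵥ xx w)) := by
  have h1 : qc (q' * q) (nn w) = lmb q w • qc q' (nn (st (q *ᵥ xx w))) := by
    rw [qc_mul, q_nn hq hd, qc_smul]
  have h2 : lmb (q' * q) w = (qc (q' * q) (nn w) 1 - I * qc (q' * q) (nn w) 2) / 2 := rfl
  have h3 : lmb q' (st (q *ᵥ xx w)) = (qc q' (nn (st (q *ᵥ xx w))) 1 -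
    I * qc q' (nn (st (q *ᵥ xx w))) 2) / 2 := rfl
  rw [h2, h1, h3]
  simp only [Pi.smul_apply, smul_eq_mul]
  ring

lemma qc_one (u : Fin 3 → ℂ) : qc 1 u = u := by
  funext a
  fin_cases a <;> simp [qc, Fin.sum_univ_three, Matrix.one_apply]

lemma lmb_one (w : ℂ) : lmb 1 w = 1 := by
  simp only [lmb, qc_one, nn, Matrix.cons_val_one, Matrix.cons_val_zero, Matrix.cons_val]
  linear_combination (-(1 + w ^ 2) / 2) * I_sq

section th

variable {E : Type*} [NormedAddCommGroup E] [NormedSpace ℝ E]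
variable {Th Th' : E → Fin 3 → (E →L[ℝ] ℝ)}

/-- the contact form `η - β_w(Θ(X))` in a frame -/
def tht (Th : E → Fin 3 → (E →L[ℝ] ℝ)) (z : E × ℂ) : E × ℂ →L[ℝ] ℂ :=
  ContinuousLinearMap.snd ℝ E ℂ - (bec Th z).comp (ContinuousLinearMap.fst ℝ E ℂ)

lemma tht_apply (z v : E × ℂ) : tht Th z v = v.2 - be z.2 (thv Th z.1 v.1) := by
  simp [tht, bec_apply]

lemma cx_add (u v : Fin 3 → ℝ) : cx (u + v) = cx u + cx v := by funext a; simp [cx]

lemma cx_sub (u v : Fin 3 → ℝ) : cx (u - v) = cx u - cx v := by funext a; simp [cx]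

lemma dt_smul (c : ℂ) (u v : Fin 3 → ℂ) : dt (c • u) v = c * dt u v := by
  simp only [dt, Pi.smul_apply, smul_eq_mul]; ring

/-- `2 (η - β_w(Θ)) = nn(w) · (Dx η - Θ × x)` -/
lemma th_eq (w η : ℂ) (Θ : Fin 3 → ℝ) :
    dt (nn w) (cx (dxx w η - cr Θ (xx w))) = 2 * (η - be w Θ) := by
  rw [← dxx_be, ← map_sub, eta_eq]

/-- **transition law of the contact form** -/
theorem th_tr {φ : E → E} {q : E → Matrix (Fin 3) (Fin 3) ℝ} {z : E × ℂ}
    (hφ : DifferentiableAt ℝ φ z.1) (hq : ∀ a b, DifferentiableAt ℝ (fun y => q y a b) z.1)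
    (ho : ∀ᶠ y in 𝓝 z.1, (q y)ᵀ * q y = 1) (hso : SO (q z.1)) (hd : tdom q z)
    (hT : ∀ X x, cr (thv Th' (φ z.1) (fderiv ℝ φ z.1 X)) (q z.1 *ᵥ x) =
      q z.1 *ᵥ cr (thv Th z.1 X) x + (Matrix.of fun a b => fderiv ℝ (fun y => q y a b) z.1 X) *ᵥ x)
    (v : E × ℂ) :
    tht Th z v = lmb (q z.1) z.2 * tht Th' (trn φ q z) (fderiv ℝ (trn φ q) z v) := by
  have hx : xx (trn φ q z).2 = q z.1 *ᵥ xx z.2 := xx_trn hso.orth hd
  obtain ⟨h1, h2⟩ := fderiv_trn hφ hq ho hd v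
  rw [tht_apply, tht_apply]
  set η' := (fderiv ℝ (trn φ q) z v).2
  set X' := (fderiv ℝ (trn φ q) z v).1
  have e1 : (trn φ q z).1 = φ z.1 := rfl
  have k1 := th_eq (trn φ q z).2 η' (thv Th' (trn φ q z).1 X')
  have k2 := th_eq z.2 v.2 (thv Th z.1 v.1)
  have k3 : dxx (trn φ q z).2 η' - cr (thv Th' (trn φ q z).1 X') (xx (trn φ q z).2) =
      q z.1 *ᵥ (dxx z.2 v.2 - cr (thv Th z.1 v.1) (xx z.2)) := by
    rw [h2, h1, hx, e1, hT, dqx, Matrix.mulVec_sub]
    abel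
  rw [k3, ← qc_cx] at k1
  have k4 : (2 : ℂ) * (v.2 - be z.2 (thv Th z.1 v.1)) =
      2 * (lmb (q z.1) z.2 * (η' - be (trn φ q z).2 (thv Th' (trn φ q z).1 X'))) := by
    have k5 : qc (q z.1) (nn z.2) = lmb (q z.1) z.2 • nn (trn φ q z).2 := q_nn hso hd
    calc (2 : ℂ) * (v.2 - be z.2 (thv Th z.1 v.1))
        = dt (nn z.2) (cx (dxx z.2 v.2 - cr (thv Th z.1 v.1) (xx z.2))) := k2.symm
      _ = dt (qc (q z.1) (nn z.2))
            (qc (q z.1) (cx (dxx z.2 v.2 - cr (thv Th z.1 v.1) (xx z.2)))) :=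
          (qc_dt hso.orth _ _).symm
      _ = lmb (q z.1) z.2 * dt (nn (trn φ q z).2)
            (qc (q z.1) (cx (dxx z.2 v.2 - cr (thv Th z.1 v.1) (xx z.2)))) := by
          rw [k5, dt_smul]
      _ = _ := by rw [k1]; ring
  exact mul_left_cancel₀ two_ne_zero k4

end th

/-- change of sign frame: `q = diag (-1, 1, -1)` -/
def qpm : Matrix (Fin 3) (Fin 3) ℝ := Matrix.diagonal ![-1, 1, -1]

lemma qpm_mulVec (x : Fin 3 → ℝ) : qpm *ᵥ x = ![-x 0, x 1, -x 2] := by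
  funext a
  fin_cases a <;> simp [qpm, Matrix.mulVec_diagonal]

lemma SO_qpm : SO qpm := by
  refine ⟨?_, fun u v => ?_⟩
  · rw [qpm, Matrix.diagonal_transpose, Matrix.diagonal_mul_diagonal, ← Matrix.diagonal_one]
    congr 1
    funext a; fin_cases a <;> simp
  · rw [qpm_mulVec, qpm_mulVec, qpm_mulVec]
    funext a; fin_cases a <;> simp [cr] <;> ring

lemma lmb_qpm (w : ℂ) : lmb qpm w = -w ^ 2 := by
  have h : ∀ a, qc qpm (nn w) a = ![-nn w 0, nn w 1, -nn w 2] a := by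
    intro a
    fin_cases a <;> simp [qc, qpm, Fin.sum_univ_three, Matrix.diagonal_apply]
  rw [lmb, h, h]
  simp only [nn, Matrix.cons_val_one, Matrix.cons_val_zero, Matrix.cons_val]
  linear_combination ((1 + w ^ 2) / 2) * I_sq

end Crest.Agent.R260.TwLt_389
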