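import Mathlib
import Crest.Agent.R260.Tw1_979

/-!
Row 260, leaf TW-PEN (helper389), part A: pointwise algebra and the fibre direction.

* `alg` : `∑ ζ_a ζ_b J_aᵀ τ_b = 0` on the null vectors `ζ = nn w` iff `τ_b = G J_b K`.
* `fib` : an entire function of growth `|w|²` is `∑ s_a nn_a(w)`, with explicit `s_a`.
* `lam`, `mu` : `∑ ζ_a c_ab = lam ζ_b + mu ζ'_b` for skew `c`.
-/

set_option autoImplicit false
set_option linter.unusedSectionVars false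
set_option linter.unusedSimpArgs false

open Complex Matrix
open scoped ContDiff Topology
open Crest.Agent.R260.Tw_979

noncomputable section

namespace Crest.Agent.R260.TwPen_389

section Alg

variable {ι : Type*} [Fintype ι] [DecidableEq ι]

/-- `N(ζ) = ∑ ζ_a J_a` -/
def Nq (J : Fin 3 → Matrix ι ι ℂ) (z : Fin 3 → ℂ) : Matrix ι ι ℂ := ∑ a, z a • J a

lemma Nq_apply (J : Fin 3 → Matrix ι ι ℂ) (z : Fin 3 → ℂ) (i j : ι) :
    Nq J z i j = ∑ a, z a * J a i j := by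
  simp [Nq, Matrix.sum_apply]

/-- the quadratic expression `∑ ζ_a ζ_b J_aᵀ τ_b` -/
def qd (J : Fin 3 → Matrix ι ι ℂ) (τ : Fin 3 → ι → ℂ) (z : Fin 3 → ℂ) : ι → ℂ :=
  (Nq J z)ᵀ *ᵥ (∑ b, z b • τ b)

lemma qd_apply (J : Fin 3 → Matrix ι ι ℂ) (τ : Fin 3 → ι → ℂ) (z : Fin 3 → ℂ) (j : ι) :
    qd J τ z j = ∑ i, Nq J z i j * ∑ b, z b * τ b i := by
  simp [qd, Matrix.mulVec, dotProduct, Matrix.transpose_apply]

lemma qd_eq (J : Fin 3 → Matrix ι ι ℂ) (τ : Fin 3 → ι → ℂ) (z : Fin 3 → ℂ) :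
    qd J τ z = ∑ a, ∑ b, (z a * z b) • ((J a)ᵀ *ᵥ τ b) := by
  unfold qd Nq
  rw [Matrix.transpose_sum, Matrix.sum_mulVec]
  refine Finset.sum_congr rfl fun a _ => ?_
  rw [Matrix.transpose_smul, Matrix.smul_mulVec, Matrix.mulVec_sum, Finset.smul_sum]
  refine Finset.sum_congr rfl fun b _ => ?_
  rw [Matrix.mulVec_smul, smul_smul]

/-- **Algebra of the `(0,1)`-part**: existence. -/
theorem alg {G : Matrix ι ι ℂ} (hG : IsUnit G.det) {J : Fin 3 → Matrix ι ι ℂ}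
    (hsq : ∀ a, J a * J a = -1) (hadj : ∀ a, (J a)ᵀ * G = -(G * J a)) {τ : Fin 3 → ι → ℂ}
    (h1 : qd J τ (nn 1) = 0) (h2 : qd J τ (nn (-1)) = 0)
    (h3 : qd J τ (nn I) = 0) (h4 : qd J τ (nn (-I)) = 0) (b : Fin 3) :
    τ b = (G * J b) *ᵥ (-(J 0 *ᵥ (G⁻¹ *ᵥ τ 0))) := by
  have hGG : G * G⁻¹ = 1 := Matrix.mul_nonsing_inv G hG
  have e1 : (J 0)ᵀ *ᵥ τ 0 = (J 2)ᵀ *ᵥ τ 2 := by
    rw [qd_eq] at h1 h2
    have h := congrArg₂ (· + ·) h1 h2
    simp only [Fin.sum_univ_three, nn, Matrix.cons_val_zero, Matrix.cons_val_one,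
      Matrix.cons_val, add_zero] at h
    funext i
    have hi := congrFun h i
    simp only [Pi.add_apply, Pi.smul_apply, smul_eq_mul, Pi.zero_apply] at hi
    have h8 : (8 : ℂ) * (((J 0)ᵀ *ᵥ τ 0) i - ((J 2)ᵀ *ᵥ τ 2) i) = 0 := by
      linear_combination hi - 8 * ((J 2)ᵀ *ᵥ τ 2) i * I_sq
    have : ((J 0)ᵀ *ᵥ τ 0) i - ((J 2)ᵀ *ᵥ τ 2) i = 0 := by
      rcases mul_eq_zero.1 h8 with h | h
      · norm_num at h
      · exact h
    exact sub_eq_zero.1 this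
  have e2 : (J 0)ᵀ *ᵥ τ 0 = (J 1)ᵀ *ᵥ τ 1 := by
    rw [qd_eq] at h3 h4
    have h := congrArg₂ (· + ·) h3 h4
    simp only [Fin.sum_univ_three, nn, Matrix.cons_val_zero, Matrix.cons_val_one,
      Matrix.cons_val, add_zero, neg_sq, I_sq] at h
    funext i
    have hi := congrFun h i
    simp only [Pi.add_apply, Pi.smul_apply, smul_eq_mul, Pi.zero_apply] at hi
    have h8 : (8 : ℂ) * (((J 0)ᵀ *ᵥ τ 0) i - ((J 1)ᵀ *ᵥ τ 1) i) = 0 := by
      linear_combination -hi + 8 * ((J 0)ᵀ *ᵥ τ 0) i * I_sq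
    have : ((J 0)ᵀ *ᵥ τ 0) i - ((J 1)ᵀ *ᵥ τ 1) i = 0 := by
      rcases mul_eq_zero.1 h8 with h | h
      · norm_num at h
      · exact h
    exact sub_eq_zero.1 this
  have hJT : ∀ a, (J a)ᵀ * (J a)ᵀ = -1 := by
    intro a
    rw [← Matrix.transpose_mul, hsq, Matrix.transpose_neg, Matrix.transpose_one]
  have hall : ∀ b, (J b)ᵀ *ᵥ τ b = (J 0)ᵀ *ᵥ τ 0 := by
    intro b
    fin_cases b
    · rfl
    · exact e2.symm
    · exact e1.symm
  -- `τ_b = - J_bᵀ (J_0ᵀ τ_0)`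
  have hb : τ b = -((J b)ᵀ *ᵥ ((J 0)ᵀ *ᵥ τ 0)) := by
    rw [← hall b, Matrix.mulVec_mulVec, hJT b, Matrix.neg_mulVec, Matrix.one_mulVec, neg_neg]
  have h0 : (J 0)ᵀ *ᵥ τ 0 = -(G *ᵥ (J 0 *ᵥ (G⁻¹ *ᵥ τ 0))) := by
    have : (J 0)ᵀ *ᵥ τ 0 = ((J 0)ᵀ * G) *ᵥ (G⁻¹ *ᵥ τ 0) := by
      rw [Matrix.mulVec_mulVec, Matrix.mul_assoc, hGG, Matrix.mul_one]
    rw [this, hadj 0, Matrix.neg_mulVec]
    simp only [Matrix.mulVec_mulVec, Matrix.mul_assoc]
  rw [hb, h0]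
  have : (J b)ᵀ *ᵥ (-(G *ᵥ (J 0 *ᵥ (G⁻¹ *ᵥ τ 0)))) =
      -(((J b)ᵀ * G) *ᵥ (J 0 *ᵥ (G⁻¹ *ᵥ τ 0))) := by
    rw [Matrix.mulVec_neg, Matrix.mulVec_mulVec]
  rw [this, hadj b, Matrix.neg_mulVec, Matrix.mulVec_neg]
  simp

/-- `K` is determined by `τ 0`. -/
theorem alg_uniq {G : Matrix ι ι ℂ} (hG : IsUnit G.det) {J : Fin 3 → Matrix ι ι ℂ}
    (hsq : ∀ a, J a * J a = -1) {τ : Fin 3 → ι → ℂ} {K : ι → ℂ} {b : Fin 3}
    (h : τ b = (G * J b) *ᵥ K) : K = -(J b *ᵥ (G⁻¹ *ᵥ τ b)) := by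
  have hGG : G⁻¹ * G = 1 := Matrix.nonsing_inv_mul G hG
  have h2 : J b * (G⁻¹ * (G * J b)) = -1 := by
    rw [← Matrix.mul_assoc G⁻¹, hGG, Matrix.one_mul, hsq]
  rw [h]
  simp only [Matrix.mulVec_mulVec, Matrix.mul_assoc]
  rw [h2, Matrix.neg_mulVec, Matrix.one_mulVec, neg_neg]

/-- **Converse**: on null vectors. -/
theorem alg_conv {G : Matrix ι ι ℂ} {J : Fin 3 → Matrix ι ι ℂ}
    (hsq : ∀ a, J a * J a = -1) (h01 : J 0 * J 1 + J 1 * J 0 = 0)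
    (h02 : J 0 * J 2 + J 2 * J 0 = 0) (h12 : J 1 * J 2 + J 2 * J 1 = 0)
    (hadj : ∀ a, (J a)ᵀ * G = -(G * J a)) {τ : Fin 3 → ι → ℂ} {K : ι → ℂ}
    (h : ∀ b, τ b = (G * J b) *ᵥ K) {z : Fin 3 → ℂ} (hz : dt z z = 0) :
    qd J τ z = 0 := by
  have hN : Nq J z * Nq J z = 0 := by
    have : Nq J z * Nq J z = (z 0 * z 0) • (J 0 * J 0) + (z 1 * z 1) • (J 1 * J 1)
        + (z 2 * z 2) • (J 2 * J 2) + (z 0 * z 1) • (J 0 * J 1 + J 1 * J 0)
        + (z 0 * z 2) • (J 0 * J 2 + J 2 * J 0) + (z 1 * z 2) • (J 1 * J 2 + J 2 * J 1) := by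
      simp only [Nq, Fin.sum_univ_three, Matrix.add_mul, Matrix.mul_add, Matrix.smul_mul,
        Matrix.mul_smul, smul_smul, smul_add]
      rw [mul_comm (z 1) (z 0), mul_comm (z 2) (z 0), mul_comm (z 2) (z 1)]
      abel
    rw [this, h01, h02, h12, hsq, hsq, hsq]
    simp only [smul_zero, add_zero, smul_neg, ← neg_add, ← add_smul]
    have hz' : z 0 * z 0 + z 1 * z 1 + z 2 * z 2 = 0 := hz
    rw [hz', zero_smul, neg_zero]
  have hs : ∑ b, z b • τ b = (G * Nq J z) *ᵥ K := by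
    unfold Nq
    rw [Matrix.mul_sum, Matrix.sum_mulVec]
    refine Finset.sum_congr rfl fun b _ => ?_
    rw [h b, Matrix.mul_smul, Matrix.smul_mulVec]
  have hNG : (Nq J z)ᵀ * G = -(G * Nq J z) := by
    unfold Nq
    rw [Matrix.transpose_sum, Matrix.sum_mul, Matrix.mul_sum, ← Finset.sum_neg_distrib]
    refine Finset.sum_congr rfl fun b _ => ?_
    rw [Matrix.transpose_smul, Matrix.smul_mul, hadj, Matrix.mul_smul, smul_neg]
  unfold qd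
  rw [hs, Matrix.mulVec_mulVec, ← Matrix.mul_assoc, hNG, Matrix.neg_mul, Matrix.mul_assoc, hN,
    Matrix.mul_zero, neg_zero, Matrix.zero_mulVec]

end Alg

section Fibre

/-- an entire function with `|f w| ≤ C (1 + |w|²)` is a polynomial of degree `≤ 2`. -/
theorem quad {f : ℂ → ℂ} (hf : Differentiable ℂ f) {C : ℝ}
    (hC : ∀ w, ‖f w‖ ≤ C * (1 + ‖w‖ ^ 2)) :
    ∃ a0 a1 a2 : ℂ, ∀ w, f w = a0 + a1 * w + a2 * w ^ 2 := by
  have hd : ∀ h : ℂ → ℂ, Differentiable ℂ h → Differentiable ℂ (dslope h 0) := by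
    intro h hh
    have := (Complex.differentiableOn_dslope (s := Set.univ) (c := (0 : ℂ)) (f := h)
      Filter.univ_mem).2 hh.differentiableOn
    exact differentiableOn_univ.1 this
  have hC0 : 0 ≤ C := by
    have := (norm_nonneg _).trans (hC 0)
    simpa using this
  set f1 := dslope f 0 with hf1
  set f2 := dslope f1 0 with hf2
  have hf1d := hd f hf
  have hf2d := hd f1 hf1d
  have e1 : ∀ w, f w = f 0 + w * f1 w := by
    intro w
    have := sub_smul_dslope f 0 w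
    rw [smul_eq_mul, sub_zero] at this
    rw [hf1, this]; ring
  have e2 : ∀ w, f1 w = f1 0 + w * f2 w := by
    intro w
    have := sub_smul_dslope f1 0 w
    rw [smul_eq_mul, sub_zero] at this
    rw [hf2, this]; ring
  -- `f2` is bounded
  obtain ⟨B, hB⟩ := (isCompact_closedBall (0 : ℂ) 1).exists_bound_of_continuousOn
    hf2d.continuous.continuousOn
  have hbd : ∀ w, ‖f2 w‖ ≤ max B (2 * C + ‖f 0‖ + ‖f1 0‖) := by
    intro w
    by_cases hw : ‖w‖ ≤ 1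
    · exact (hB w (by simpa using hw)).trans (le_max_left _ _)
    · push Not at hw
      refine le_trans ?_ (le_max_right _ _)
      have hw0 : w ≠ 0 := by
        rintro rfl; simp at hw; linarith
      have hwn : 0 < ‖w‖ := norm_pos_iff.2 hw0
      have h3 : w ^ 2 * f2 w = f w - f 0 - w * f1 0 := by
        rw [e1 w, e2 w]; ring
      have h4 : ‖w‖ ^ 2 * ‖f2 w‖ ≤ C * (1 + ‖w‖ ^ 2) + ‖f 0‖ + ‖w‖ * ‖f1 0‖ := by
        have : ‖w‖ ^ 2 * ‖f2 w‖ = ‖f w - f 0 - w * f1 0‖ := by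
          rw [← h3, norm_mul, norm_pow]
        rw [this]
        calc ‖f w - f 0 - w * f1 0‖ ≤ ‖f w - f 0‖ + ‖w * f1 0‖ := norm_sub_le _ _
          _ ≤ ‖f w‖ + ‖f 0‖ + ‖w‖ * ‖f1 0‖ := by
              rw [norm_mul]; gcongr; exact norm_sub_le _ _
          _ ≤ _ := by gcongr; exact hC w
      have hsq : 1 ≤ ‖w‖ ^ 2 := one_le_pow₀ hw.le
      have hle : ‖w‖ ≤ ‖w‖ ^ 2 := by nlinarith
      have h5 : ‖w‖ ^ 2 * ‖f2 w‖ ≤ ‖w‖ ^ 2 * (2 * C + ‖f 0‖ + ‖f1 0‖) := by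
        refine h4.trans ?_
        have a1 : C * (1 + ‖w‖ ^ 2) ≤ ‖w‖ ^ 2 * (2 * C) := by nlinarith
        have a2 : ‖f 0‖ ≤ ‖w‖ ^ 2 * ‖f 0‖ := by nlinarith [norm_nonneg (f 0)]
        have a3 : ‖w‖ * ‖f1 0‖ ≤ ‖w‖ ^ 2 * ‖f1 0‖ :=
          mul_le_mul_of_nonneg_right hle (norm_nonneg _)
        linarith
      exact le_of_mul_le_mul_left h5 (by positivity)
  have hconst : ∀ w, f2 w = f2 0 := by
    intro w
    refine hf2d.apply_eq_apply_of_bounded ?_ w 0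
    rw [isBounded_iff_forall_norm_le]
    exact ⟨_, by rintro _ ⟨w, rfl⟩; exact hbd w⟩
  refine ⟨f 0, f1 0, f2 0, fun w => ?_⟩
  rw [e1 w, e2 w, hconst w]; ring

/-- the three coefficients of the quadratic `f` in the basis `nn` -/
def co (f : ℂ → ℂ) : Fin 3 → ℂ :=
  ![-(f 1 - f (-1)) / 4, f 0 - (f 1 + f (-1)) / 4, -I * (f 1 + f (-1)) / 4]

theorem fib_poly {f : ℂ → ℂ} {a0 a1 a2 : ℂ} (h : ∀ w, f w = a0 + a1 * w + a2 * w ^ 2) (w : ℂ) :
    f w = ∑ a, co f a * nn w a := by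
  simp only [Fin.sum_univ_three, co, nn, Matrix.cons_val_zero, Matrix.cons_val_one,
    Matrix.cons_val]
  rw [h w, h 1, h (-1), h 0]
  linear_combination (a0 + a2) / 2 * (1 + w ^ 2) * I_sq

theorem fib {f : ℂ → ℂ} (hf : Differentiable ℂ f) {C : ℝ}
    (hC : ∀ w, ‖f w‖ ≤ C * (1 + ‖w‖ ^ 2)) (w : ℂ) : f w = ∑ a, co f a * nn w a := by
  obtain ⟨a0, a1, a2, h⟩ := quad hf hC
  exact fib_poly h w

/-- `co` recovers the coefficients. -/
theorem co_sum (s : Fin 3 → ℂ) : co (fun w => ∑ a, s a * nn w a) = s := by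
  funext b
  fin_cases b
  · simp [co, nn, Fin.sum_univ_three]; ring
  · simp [co, nn, Fin.sum_univ_three]; ring_nf; 
  · simp [co, nn, Fin.sum_univ_three]; ring_nf; simp [I_sq]

theorem sum_nn_inj {s t : Fin 3 → ℂ} (h : ∀ w, ∑ a, s a * nn w a = ∑ a, t a * nn w a) :
    s = t := by
  rw [← co_sum s, ← co_sum t]
  congr 1
  funext w
  exact h w

/-- growth from the chart at infinity -/
theorem growth {f k : ℂ → ℂ} (hf : Continuous f) (hk : ContinuousOn k (Metric.closedBall 0 1))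
    (h : ∀ w, w ≠ 0 → f w = w ^ 2 * k (w⁻¹)) : ∃ C : ℝ, ∀ w, ‖f w‖ ≤ C * (1 + ‖w‖ ^ 2) := by
  obtain ⟨A, hA⟩ := (isCompact_closedBall (0 : ℂ) 1).exists_bound_of_continuousOn hf.continuousOn
  obtain ⟨B, hB⟩ := (isCompact_closedBall (0 : ℂ) 1).exists_bound_of_continuousOn hk
  refine ⟨max A B, fun w => ?_⟩
  have hA0 : 0 ≤ A := (norm_nonneg _).trans (hA 0 (by simp))
  by_cases hw : ‖w‖ ≤ 1
  · have h1 := hA w (by simpa using hw)
    have h2 : A ≤ max A B := le_max_left _ _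
    nlinarith [sq_nonneg ‖w‖]
  · push Not at hw
    have hw0 : w ≠ 0 := by
      rintro rfl; simp at hw; linarith
    have hin : ‖w⁻¹‖ ≤ 1 := by rw [norm_inv]; exact inv_le_one_of_one_le₀ hw.le
    have h1 := hB w⁻¹ (by simpa using hin)
    have h2 : B ≤ max A B := le_max_right _ _
    have h3 : A ≤ max A B := le_max_left _ _
    rw [h w hw0, norm_mul, norm_pow]
    have : ‖w‖ ^ 2 * ‖k w⁻¹‖ ≤ ‖w‖ ^ 2 * max A B :=
      mul_le_mul_of_nonneg_left (h1.trans h2) (by positivity)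
    nlinarith

end Fibre

section Lam

/-- `lam` for a skew `c` -/
def lam (c : Fin 3 → Fin 3 → ℝ) (w : ℂ) : ℂ :=
  -w * (c 0 1 : ℂ) + I * w * (c 0 2 : ℂ) - I * (c 1 2 : ℂ)

/-- `mu` for a skew `c` -/
def mu (c : Fin 3 → Fin 3 → ℝ) (w : ℂ) : ℂ :=
  (1 + w ^ 2) / 2 * (c 0 1 : ℂ) + I * (1 - w ^ 2) / 2 * (c 0 2 : ℂ) + I * w * (c 1 2 : ℂ)

theorem sum_nn_c {c : Fin 3 → Fin 3 → ℝ} (hc : ∀ a b, c a b = -c b a) (w : ℂ) (b : Fin 3) :
    ∑ a, nn w a * (c a b : ℂ) = lam c w * nn w b + mu c w * nd w b := by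
  have h00 : c 0 0 = 0 := by linarith [hc 0 0]
  have h11 : c 1 1 = 0 := by linarith [hc 1 1]
  have h22 : c 2 2 = 0 := by linarith [hc 2 2]
  have h10 := hc 1 0
  have h20 := hc 2 0
  have h21 := hc 2 1
  fin_cases b
  · simp only [Fin.sum_univ_three, lam, mu, nn, nd, Matrix.cons_val_zero, Matrix.cons_val_one,
      Matrix.cons_val, h00, h10, h20, Fin.zero_eta]
    push_cast
    ring
  · simp only [Fin.sum_univ_three, lam, mu, nn, nd, Matrix.cons_val_zero, Matrix.cons_val_one,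
      Matrix.cons_val, h11, h10, h21, Fin.mk_one]
    push_cast
    ring
  · simp only [Fin.sum_univ_three, lam, mu, nn, nd, Matrix.cons_val_zero, Matrix.cons_val_one,
      Matrix.cons_val, h22, h10, h21, Fin.reduceFinMk]
    push_cast
    linear_combination (-(w + w ^ 3) * (c 0 2 : ℂ) + (1 + w ^ 2) * (c 1 2 : ℂ) 
      - w * (1 - w ^ 2) * (c 0 2 : ℂ) - 2 * w ^ 2 * (c 1 2 : ℂ)) * I_sq

/-- `nn`, `nd` are linearly independent. -/
theorem nn_nd_indep {w x y : ℂ} (h : ∀ b, x * nn w b + y * nd w b = 0) : x = 0 ∧ y = 0 := by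
  have h0 := h 0
  have h1 := h 1
  have h2 := h 2
  simp only [nn, nd, Matrix.cons_val_zero, Matrix.cons_val_one, Matrix.cons_val] at h0 h1 h2
  have hx : x = 0 := by
    linear_combination h1 / 2 - I * h2 / 2 + (x * (1 + w ^ 2) / 2 + y * w) * I_sq
  refine ⟨hx, ?_⟩
  rw [hx] at h0
  linear_combination -h0 / 2

end Lam

end Crest.Agent.R260.TwPen_389
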