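import Crest.Agent.R260.TwPenA_389
import Crest.Prelude.Def_ChartRiemQK

/-!
Row 260, leaf TW-PEN (helper389), part B: a holomorphic section of `L` over `U × ℙ¹` is
`f x w = ∑ s_a(x) nn_a(w)` with `s` a solution of the twistor equation
`∇_i s_b = g(∂_i, J_b K)`.
-/

set_option autoImplicit false

open Complex Matrix
open scoped ContDiff Topology
open Crest.GeometryTopology.CoordMetric Crest.GeometryTopology.ChartRiem
open Crest.Agent.R260.Tw_979

noncomputable section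

namespace Crest.Agent.R260.TwPen_389

variable {n : ℕ}

/-- complexification of a real matrix -/
def cm (A : Matrix (Fin n) (Fin n) ℝ) : Matrix (Fin n) (Fin n) ℂ := A.map (fun r : ℝ => (r : ℂ))

lemma cm_apply (A : Matrix (Fin n) (Fin n) ℝ) (i j : Fin n) : cm A i j = (A i j : ℂ) := rfl

lemma cm_mul (A B : Matrix (Fin n) (Fin n) ℝ) : cm (A * B) = cm A * cm B := by
  ext i j
  simp [cm, Matrix.mul_apply]

lemma cm_neg (A : Matrix (Fin n) (Fin n) ℝ) : cm (-A) = -cm A := by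
  ext i j
  simp [cm]

lemma cm_one : cm (1 : Matrix (Fin n) (Fin n) ℝ) = 1 := by
  ext i j
  by_cases h : i = j
  · subst h; simp [cm]
  · simp [cm, h]

lemma cm_transpose (A : Matrix (Fin n) (Fin n) ℝ) : cm Aᵀ = (cm A)ᵀ := rfl

lemma cm_inv {A : Matrix (Fin n) (Fin n) ℝ} (h : IsUnit A.det) : (cm A)⁻¹ = cm A⁻¹ := by
  apply Matrix.inv_eq_right_inv
  rw [← cm_mul, Matrix.mul_nonsing_inv A h, cm_one]

lemma cm_det {A : Matrix (Fin n) (Fin n) ℝ} (h : IsUnit A.det) : IsUnit (cm A).det := by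
  rw [← Matrix.isUnit_iff_isUnit_det]
  refine IsUnit.of_mul_eq_one (cm A⁻¹) ?_
  rw [← cm_mul, Matrix.mul_nonsing_inv A h, cm_one]

/-- complex valued partial derivative -/
def cpd (i : Fin n) (f : EuclideanSpace ℝ (Fin n) → ℂ) (x : EuclideanSpace ℝ (Fin n)) : ℂ :=
  fderiv ℝ f x (EuclideanSpace.single i 1)

/-- local data: a metric, a quaternionic frame and its connection coefficients -/
structure QH (g : MetricField n) (J : Fin 3 → EuclideanSpace ℝ (Fin n) → Matrix (Fin n) (Fin n) ℝ)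
    (c : EuclideanSpace ℝ (Fin n) → Fin n → Fin 3 → Fin 3 → ℝ)
    (U : Set (EuclideanSpace ℝ (Fin n))) : Prop where
  riem : IsRiemannianOn g U
  smooth : ∀ a l p, ContDiffOn ℝ ∞ (fun y => J a y l p) U
  sq : ∀ x ∈ U, ∀ a, J a x * J a x = -1
  mul : ∀ x ∈ U, J 0 x * J 1 x = J 2 x ∧ J 1 x * J 0 x = -J 2 x
  orth : ∀ x ∈ U, ∀ a, (J a x)ᵀ * g x * J a x = g x
  skew : ∀ x ∈ U, ∀ i a b, c x i a b = -c x i b a
  csm : ∀ i a b, ContDiffOn ℝ ∞ (fun y => c y i a b) U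

namespace QH

variable {g : MetricField n} {J : Fin 3 → EuclideanSpace ℝ (Fin n) → Matrix (Fin n) (Fin n) ℝ}
  {c : EuclideanSpace ℝ (Fin n) → Fin n → Fin 3 → Fin 3 → ℝ}
  {U : Set (EuclideanSpace ℝ (Fin n))} {x : EuclideanSpace ℝ (Fin n)}

lemma isOpen (h : QH g J c U) : IsOpen U := h.riem.isOpen

lemma det (h : QH g J c U) (hx : x ∈ U) : IsUnit (g x).det :=
  isUnit_iff_ne_zero.2 (h.riem.posDef x hx).det_pos.ne'

lemma cdet (h : QH g J c U) (hx : x ∈ U) : IsUnit (cm (g x)).det := cm_det (h.det hx)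

lemma csq (h : QH g J c U) (hx : x ∈ U) (a : Fin 3) : cm (J a x) * cm (J a x) = -1 := by
  rw [← cm_mul, h.sq x hx, cm_neg, cm_one]

lemma adj (h : QH g J c U) (hx : x ∈ U) (a : Fin 3) : (J a x)ᵀ * g x = -(g x * J a x) := by
  have h1 : (J a x)ᵀ * g x * J a x * J a x = g x * J a x := by rw [h.orth x hx]
  rw [Matrix.mul_assoc ((J a x)ᵀ * g x), h.sq x hx] at h1
  rw [← h1]; simp

lemma cadj (h : QH g J c U) (hx : x ∈ U) (a : Fin 3) :
    (cm (J a x))ᵀ * cm (g x) = -(cm (g x) * cm (J a x)) := by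
  rw [← cm_transpose, ← cm_mul, h.adj hx, cm_neg, cm_mul]

lemma qt (h : QH g J c U) (hx : x ∈ U) : QT (fun a => J a x) :=
  ⟨h.sq x hx, (h.mul x hx).1, (h.mul x hx).2⟩

lemma a01 (h : QH g J c U) (hx : x ∈ U) :
    cm (J 0 x) * cm (J 1 x) + cm (J 1 x) * cm (J 0 x) = 0 := by
  rw [← cm_mul, ← cm_mul, (h.mul x hx).1, (h.mul x hx).2, cm_neg]; simp

lemma a02 (h : QH g J c U) (hx : x ∈ U) :
    cm (J 0 x) * cm (J 2 x) + cm (J 2 x) * cm (J 0 x) = 0 := by
  have e1 : J 0 x * J 2 x = -J 1 x := (h.qt hx).m02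
  have e2 : J 2 x * J 0 x = J 1 x := (h.qt hx).m20
  rw [← cm_mul, ← cm_mul, e1, e2, cm_neg]; simp

lemma a12 (h : QH g J c U) (hx : x ∈ U) :
    cm (J 1 x) * cm (J 2 x) + cm (J 2 x) * cm (J 1 x) = 0 := by
  have e1 : J 1 x * J 2 x = J 0 x := (h.qt hx).m12
  have e2 : J 2 x * J 1 x = -J 0 x := (h.qt hx).m21
  rw [← cm_mul, ← cm_mul, e1, e2, cm_neg]; simp

lemma mono {V : Set (EuclideanSpace ℝ (Fin n))} (h : QH g J c U) (hV : IsOpen V) (hVU : V ⊆ U) :
    QH g J c V where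
  riem := ⟨hV, fun i j => (h.riem.contDiffOn i j).mono hVU, fun x hx => h.riem.posDef x (hVU hx)⟩
  smooth a l p := (h.smooth a l p).mono hVU
  sq x hx := h.sq x (hVU hx)
  mul x hx := h.mul x (hVU hx)
  orth x hx := h.orth x (hVU hx)
  skew x hx := h.skew x (hVU hx)
  csm i a b := (h.csm i a b).mono hVU

end QH

/-- `(∇_i s)_b` -/
def nab (c : EuclideanSpace ℝ (Fin n) → Fin n → Fin 3 → Fin 3 → ℝ)
    (s : Fin 3 → EuclideanSpace ℝ (Fin n) → ℂ) (x : EuclideanSpace ℝ (Fin n)) (b : Fin 3)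
    (i : Fin n) : ℂ :=
  cpd i (s b) x + ∑ a, s a x * (c x i a b : ℂ)

/-- complex solutions `(s, K)` of the twistor equation on `U` -/
structure IsTw (g : MetricField n)
    (J : Fin 3 → EuclideanSpace ℝ (Fin n) → Matrix (Fin n) (Fin n) ℝ)
    (c : EuclideanSpace ℝ (Fin n) → Fin n → Fin 3 → Fin 3 → ℝ)
    (U : Set (EuclideanSpace ℝ (Fin n))) (s : Fin 3 → EuclideanSpace ℝ (Fin n) → ℂ)
    (K : EuclideanSpace ℝ (Fin n) → Fin n → ℂ) : Prop where
  ssm : ∀ a, ContDiffOn ℝ ∞ (s a) U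
  ksm : ∀ k, ContDiffOn ℝ ∞ (fun x => K x k) U
  eq : ∀ x ∈ U, ∀ b i, nab c s x b i = ∑ k, ((g x * J b x) i k : ℂ) * K x k

/-- the horizontal derivative of a section of `L` in the frame `nn` -/
def hor (c : EuclideanSpace ℝ (Fin n) → Fin n → Fin 3 → Fin 3 → ℝ)
    (f : EuclideanSpace ℝ (Fin n) → ℂ → ℂ) (x : EuclideanSpace ℝ (Fin n)) (w : ℂ) (i : Fin n) : ℂ :=
  cpd i (fun y => f y w) x - mu (c x i) w * deriv (f x) w - lam (c x i) w * f x w

/-- holomorphic sections of `L` over `U × ℙ¹` -/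
structure HSec (J : Fin 3 → EuclideanSpace ℝ (Fin n) → Matrix (Fin n) (Fin n) ℝ)
    (c : EuclideanSpace ℝ (Fin n) → Fin n → Fin 3 → Fin 3 → ℝ)
    (U : Set (EuclideanSpace ℝ (Fin n))) (f : EuclideanSpace ℝ (Fin n) → ℂ → ℂ) : Prop where
  sm : ∀ w, ContDiffOn ℝ ∞ (fun x => f x w) U
  ent : ∀ x ∈ U, Differentiable ℂ (f x)
  gr : ∀ x ∈ U, ∃ C : ℝ, ∀ w, ‖f x w‖ ≤ C * (1 + ‖w‖ ^ 2)
  eq : ∀ x ∈ U, ∀ w j, ∑ i, Nq (fun a => cm (J a x)) (nn w) i j * hor c f x w i = 0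

section Calc

lemma hasDerivAt_nn (w : ℂ) (a : Fin 3) : HasDerivAt (fun w => nn w a) (nd w a) w := by
  fin_cases a
  · simp only [nn, nd, Fin.zero_eta, Matrix.cons_val_zero]
    simpa using (hasDerivAt_id w).const_mul (-2 : ℂ)
  · simp only [nn, nd, Fin.mk_one, Matrix.cons_val_one, Matrix.cons_val_zero]
    have := ((hasDerivAt_id w).pow 2).const_sub (1 : ℂ)
    refine (this.congr_deriv ?_)
    simp
  · simp only [nn, nd, Fin.reduceFinMk, Matrix.cons_val]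
    have := (((hasDerivAt_id w).pow 2).const_add (1 : ℂ)).const_mul I
    refine (this.congr_deriv ?_)
    simp; ring

lemma deriv_sum_nn (s : Fin 3 → ℂ) (w : ℂ) :
    deriv (fun w => ∑ a, s a * nn w a) w = ∑ a, s a * nd w a := by
  refine HasDerivAt.deriv ?_
  refine HasDerivAt.fun_sum fun a _ => ?_
  exact (hasDerivAt_nn w a).const_mul (s a)

lemma cpd_sum {s : Fin 3 → EuclideanSpace ℝ (Fin n) → ℂ} {x : EuclideanSpace ℝ (Fin n)}
    (h : ∀ a, DifferentiableAt ℝ (s a) x) (i : Fin n) (z : Fin 3 → ℂ) :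
    cpd i (fun y => ∑ a, s a y * z a) x = ∑ a, cpd i (s a) x * z a := by
  unfold cpd
  rw [fderiv_fun_sum (fun a _ => (h a).mul_const (z a))]
  rw [_root_.sum_apply]
  refine Finset.sum_congr rfl fun a _ => ?_
  have : HasFDerivAt (fun y => s a y * z a) (z a • fderiv ℝ (s a) x) x :=
    (h a).hasFDerivAt.mul_const (z a)
  rw [this.fderiv]
  simp [mul_comm]

lemma cpd_congr {f k : EuclideanSpace ℝ (Fin n) → ℂ} {x : EuclideanSpace ℝ (Fin n)}
    (h : f =ᶠ[𝓝 x] k) (i : Fin n) : cpd i f x = cpd i k x := by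
  unfold cpd; rw [h.fderiv_eq]

/-- **horizontal derivative of `∑ s_a nn_a`** -/
theorem hor_sum {c : EuclideanSpace ℝ (Fin n) → Fin n → Fin 3 → Fin 3 → ℝ}
    {U : Set (EuclideanSpace ℝ (Fin n))} (hU : IsOpen U)
    {f : EuclideanSpace ℝ (Fin n) → ℂ → ℂ} {s : Fin 3 → EuclideanSpace ℝ (Fin n) → ℂ}
    (hf : ∀ x ∈ U, ∀ w, f x w = ∑ a, s a x * nn w a)
    {x : EuclideanSpace ℝ (Fin n)} (hx : x ∈ U) (hs : ∀ a, DifferentiableAt ℝ (s a) x)
    (hc : ∀ i a b, c x i a b = -c x i b a) (w : ℂ) (i : Fin n) :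
    hor c f x w i = ∑ b, nn w b * nab c s x b i := by
  have h1 : cpd i (fun y => f y w) x = ∑ a, cpd i (s a) x * nn w a := by
    rw [← cpd_sum hs]
    apply cpd_congr
    filter_upwards [hU.mem_nhds hx] with y hy
    exact hf y hy w
  have h2 : deriv (f x) w = ∑ a, s a x * nd w a := by
    rw [← deriv_sum_nn]
    congr 1
    funext w
    exact hf x hx w
  have h3 := fun b => sum_nn_c (c := c x i) (fun a b => hc i a b) w b
  unfold hor nab
  rw [h1, h2, hf x hx w]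
  have h4 : mu (c x i) w * ∑ a, s a x * nd w a + lam (c x i) w * ∑ a, s a x * nn w a =
      ∑ b, s b x * ∑ a, nn w a * (c x i a b : ℂ) := by
    rw [Finset.mul_sum, Finset.mul_sum, ← Finset.sum_add_distrib]
    refine Finset.sum_congr rfl fun b _ => ?_
    rw [h3 b]; ring
  have h5 : ∑ b, s b x * ∑ a, nn w a * (c x i a b : ℂ) =
      -∑ b, nn w b * ∑ a, s a x * (c x i a b : ℂ) := by
    simp only [Finset.mul_sum]
    rw [Finset.sum_comm, ← Finset.sum_neg_distrib]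
    refine Finset.sum_congr rfl fun b _ => ?_
    rw [← Finset.sum_neg_distrib]
    refine Finset.sum_congr rfl fun a _ => ?_
    rw [hc i b a]; push_cast; ring
  have h6 : ∑ a, cpd i (s a) x * nn w a = ∑ b, nn w b * cpd i (s b) x :=
    Finset.sum_congr rfl fun b _ => mul_comm _ _
  simp only [mul_add, Finset.sum_add_distrib]
  rw [h6]
  linear_combination -h4 - h5

end Calc

section Smooth

variable {U : Set (EuclideanSpace ℝ (Fin n))}

lemma contDiffOn_det {m : ℕ} {A : EuclideanSpace ℝ (Fin n) → Matrix (Fin m) (Fin m) ℝ}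
    (h : ∀ i j, ContDiffOn ℝ ∞ (fun x => A x i j) U) :
    ContDiffOn ℝ ∞ (fun x => (A x).det) U := by
  simp only [Matrix.det_apply]
  refine ContDiffOn.sum fun σ _ => ?_
  refine ContDiffOn.const_smul _ ?_
  exact contDiffOn_prod fun i _ => h _ _

lemma contDiffOn_inv {A : EuclideanSpace ℝ (Fin n) → Matrix (Fin n) (Fin n) ℝ}
    (h : ∀ i j, ContDiffOn ℝ ∞ (fun x => A x i j) U) (hdet : ∀ x ∈ U, (A x).det ≠ 0)
    (i j : Fin n) : ContDiffOn ℝ ∞ (fun x => (A x)⁻¹ i j) U := by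
  have h1 : ∀ x, (A x)⁻¹ i j = ((A x).det)⁻¹ * (A x).adjugate i j := by
    intro x
    rw [Matrix.inv_def, Ring.inverse_eq_inv']
    rfl
  simp only [h1]
  refine ((contDiffOn_det h).inv hdet).mul ?_
  simp only [Matrix.adjugate_apply]
  refine contDiffOn_det fun a b => ?_
  by_cases ha : a = j
  · subst ha
    simp only [Matrix.updateRow_self]
    exact contDiffOn_const
  · simp only [Matrix.updateRow_ne ha]
    exact h a b

lemma ofReal_sm {f : EuclideanSpace ℝ (Fin n) → ℝ} (h : ContDiffOn ℝ ∞ f U) :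
    ContDiffOn ℝ ∞ (fun x => (f x : ℂ)) U := Complex.ofRealCLM.contDiff.comp_contDiffOn h

lemma cpd_sm (hU : IsOpen U) {f : EuclideanSpace ℝ (Fin n) → ℂ} (h : ContDiffOn ℝ ∞ f U)
    (i : Fin n) : ContDiffOn ℝ ∞ (fun x => cpd i f x) U :=
  (h.fderiv_of_isOpen hU (m := ∞) (by simp)).clm_apply contDiffOn_const

lemma nab_sm (hU : IsOpen U) {c : EuclideanSpace ℝ (Fin n) → Fin n → Fin 3 → Fin 3 → ℝ}
    (hc : ∀ i a b, ContDiffOn ℝ ∞ (fun y => c y i a b) U)
    {s : Fin 3 → EuclideanSpace ℝ (Fin n) → ℂ} (hs : ∀ a, ContDiffOn ℝ ∞ (s a) U)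
    (b : Fin 3) (i : Fin n) : ContDiffOn ℝ ∞ (fun x => nab c s x b i) U := by
  unfold nab
  refine (cpd_sm hU (hs b) i).add (ContDiffOn.sum fun a _ => ?_)
  exact (hs a).mul (ofReal_sm (hc i a b))

end Smooth

/-- the vector field attached to a solution of the twistor equation -/
def KK (g : MetricField n) (J : Fin 3 → EuclideanSpace ℝ (Fin n) → Matrix (Fin n) (Fin n) ℝ)
    (c : EuclideanSpace ℝ (Fin n) → Fin n → Fin 3 → Fin 3 → ℝ)
    (s : Fin 3 → EuclideanSpace ℝ (Fin n) → ℂ) (x : EuclideanSpace ℝ (Fin n)) : Fin n → ℂ :=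
  -(cm (J 0 x) *ᵥ (cm (g x)⁻¹ *ᵥ nab c s x 0))

section Main

variable {g : MetricField n} {J : Fin 3 → EuclideanSpace ℝ (Fin n) → Matrix (Fin n) (Fin n) ℝ}
  {c : EuclideanSpace ℝ (Fin n) → Fin n → Fin 3 → Fin 3 → ℝ}
  {U : Set (EuclideanSpace ℝ (Fin n))}

lemma KK_sm (h : QH g J c U) {s : Fin 3 → EuclideanSpace ℝ (Fin n) → ℂ}
    (hs : ∀ a, ContDiffOn ℝ ∞ (s a) U) (k : Fin n) :
    ContDiffOn ℝ ∞ (fun x => KK g J c s x k) U := by
  have e : (fun x => KK g J c s x k) =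
      fun x => -∑ l, (J 0 x k l : ℂ) * ∑ p, (((g x)⁻¹ l p : ℝ) : ℂ) * nab c s x 0 p := by
    funext x
    rfl
  rw [e]
  refine ContDiffOn.neg (ContDiffOn.sum fun l _ => ?_)
  refine (ofReal_sm (h.smooth 0 k l)).mul (ContDiffOn.sum fun p _ => ?_)
  refine (ofReal_sm ?_).mul (nab_sm h.isOpen h.csm hs 0 p)
  exact contDiffOn_inv h.riem.contDiffOn (fun x hx => (h.riem.posDef x hx).det_pos.ne') l p

lemma mulVec_cm (x : EuclideanSpace ℝ (Fin n)) (b : Fin 3) (K : Fin n → ℂ) (i : Fin n) :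
    ((cm (g x) * cm (J b x)) *ᵥ K) i = ∑ k, ((g x * J b x) i k : ℂ) * K k := by
  rw [← cm_mul]
  simp [Matrix.mulVec, dotProduct, cm_apply]

/-- the equation at one point, from the four test vectors -/
theorem tw_of_qd (h : QH g J c U) {s : Fin 3 → EuclideanSpace ℝ (Fin n) → ℂ}
    {x : EuclideanSpace ℝ (Fin n)} (hx : x ∈ U)
    (hq : ∀ w, qd (fun a => cm (J a x)) (fun b => nab c s x b) (nn w) = 0) (b : Fin 3)
    (i : Fin n) : nab c s x b i = ∑ k, ((g x * J b x) i k : ℂ) * KK g J c s x k := by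
  have := alg (h.cdet hx) (fun a => h.csq hx a) (fun a => h.cadj hx a)
    (hq 1) (hq (-1)) (hq I) (hq (-I)) b
  rw [← mulVec_cm, KK, ← cm_inv (h.det hx)]
  exact congrFun this i

/-- **THE PENROSE TRANSFORM** (local, `H⁰(U × ℙ¹, L)`). -/
theorem pen (h : QH g J c U) {f : EuclideanSpace ℝ (Fin n) → ℂ → ℂ} (hf : HSec J c U f) :
    (∀ x ∈ U, ∀ w, f x w = ∑ a, co (f x) a * nn w a) ∧
      IsTw g J c U (fun a x => co (f x) a) (KK g J c (fun a x => co (f x) a)) := by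
  have h1 : ∀ x ∈ U, ∀ w, f x w = ∑ a, co (f x) a * nn w a := by
    intro x hx w
    obtain ⟨C, hC⟩ := hf.gr x hx
    exact fib (hf.ent x hx) hC w
  have h2 : ∀ a, ContDiffOn ℝ ∞ (fun x => co (f x) a) U := by
    intro a
    fin_cases a
    · simp only [co, Fin.zero_eta, Matrix.cons_val_zero]
      exact ((((hf.sm 1).sub (hf.sm (-1))).neg).div_const 4)
    · simp only [co, Fin.mk_one, Matrix.cons_val_one, Matrix.cons_val_zero]
      exact (hf.sm 0).sub (((hf.sm 1).add (hf.sm (-1))).div_const 4)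
    · simp only [co, Fin.reduceFinMk, Matrix.cons_val]
      exact (contDiffOn_const.mul ((hf.sm 1).add (hf.sm (-1)))).div_const 4
  refine ⟨h1, h2, KK_sm h h2, ?_⟩
  intro x hx b i
  refine tw_of_qd h hx (fun w => ?_) b i
  funext j
  rw [qd_apply]
  have := hf.eq x hx w j
  rw [Pi.zero_apply, ← this]
  refine Finset.sum_congr rfl fun i _ => ?_
  rw [hor_sum h.isOpen h1 hx (fun a => ((h2 a).contDiffAt (h.isOpen.mem_nhds hx)).differentiableAt
    (by simp)) (fun i a b => h.skew x hx i a b)]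

/-- **Converse.** -/
theorem pen_conv (h : QH g J c U) {s : Fin 3 → EuclideanSpace ℝ (Fin n) → ℂ}
    {K : EuclideanSpace ℝ (Fin n) → Fin n → ℂ} (hs : IsTw g J c U s K) :
    HSec J c U (fun x w => ∑ a, s a x * nn w a) where
  sm w := ContDiffOn.sum fun a _ => (hs.ssm a).mul contDiffOn_const
  ent x _ w := (HasDerivAt.fun_sum fun a _ =>
    (hasDerivAt_nn w a).const_mul (s a x)).differentiableAt
  gr x _ := by
    refine ⟨2 * (‖s 0 x‖ + ‖s 1 x‖ + ‖s 2 x‖), fun w => ?_⟩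
    have hw : ‖w‖ ≤ 1 + ‖w‖ ^ 2 := by nlinarith [sq_nonneg (‖w‖ - 1), norm_nonneg w]
    have h0 : ‖nn w 0‖ ≤ 2 * (1 + ‖w‖ ^ 2) := by
      simp only [nn, Matrix.cons_val_zero, norm_mul, norm_neg, Complex.norm_ofNat]
      linarith
    have h1 : ‖nn w 1‖ ≤ 2 * (1 + ‖w‖ ^ 2) := by
      simp only [nn, Matrix.cons_val_one, Matrix.cons_val_zero]
      refine (norm_sub_le _ _).trans ?_
      rw [norm_one, norm_pow]; nlinarith [sq_nonneg ‖w‖]
    have h2 : ‖nn w 2‖ ≤ 2 * (1 + ‖w‖ ^ 2) := by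
      simp only [nn, Matrix.cons_val]
      rw [norm_mul, norm_I, one_mul]
      refine (norm_add_le _ _).trans ?_
      rw [norm_one, norm_pow]; nlinarith [sq_nonneg ‖w‖]
    calc ‖∑ a, s a x * nn w a‖ ≤ ∑ a, ‖s a x * nn w a‖ := norm_sum_le _ _
      _ = ‖s 0 x‖ * ‖nn w 0‖ + ‖s 1 x‖ * ‖nn w 1‖ + ‖s 2 x‖ * ‖nn w 2‖ := by
          simp [Fin.sum_univ_three]
      _ ≤ ‖s 0 x‖ * (2 * (1 + ‖w‖ ^ 2)) + ‖s 1 x‖ * (2 * (1 + ‖w‖ ^ 2)) +
          ‖s 2 x‖ * (2 * (1 + ‖w‖ ^ 2)) := by gcongr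
      _ = _ := by ring
  eq x hx w j := by
    have hd : ∀ a, DifferentiableAt ℝ (s a) x := fun a =>
      ((hs.ssm a).contDiffAt (h.isOpen.mem_nhds hx)).differentiableAt (by simp)
    have hh : ∀ i, hor c (fun x w => ∑ a, s a x * nn w a) x w i =
        ∑ b, nn w b * nab c s x b i := fun i =>
      hor_sum h.isOpen (fun _ _ _ => rfl) hx hd (fun i a b => h.skew x hx i a b) w i
    have h0 : qd (fun a => cm (J a x)) (fun b => nab c s x b) (nn w) = 0 := by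
      refine alg_conv (G := cm (g x)) (K := K x) (fun a => h.csq hx a) (h.a01 hx) (h.a02 hx)
        (h.a12 hx) (fun a => h.cadj hx a) (fun b => ?_) (nn_nn w)
      funext i
      rw [mulVec_cm]
      exact hs.eq x hx b i
    have := congrFun h0 j
    rw [qd_apply] at this
    rw [Pi.zero_apply] at this
    rw [← this]
    refine Finset.sum_congr rfl fun i _ => ?_
    rw [hh i]

/-- `K` is determined by `s`. -/
theorem K_uniq (h : QH g J c U) {s : Fin 3 → EuclideanSpace ℝ (Fin n) → ℂ}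
    {K : EuclideanSpace ℝ (Fin n) → Fin n → ℂ} (hs : IsTw g J c U s K)
    {x : EuclideanSpace ℝ (Fin n)} (hx : x ∈ U) : K x = KK g J c s x := by
  rw [KK, ← cm_inv (h.det hx)]
  refine alg_uniq (h.cdet hx) (J := fun a => cm (J a x)) (τ := fun b => nab c s x b)
    (fun a => h.csq hx a) ?_
  funext i
  rw [mulVec_cm]
  exact hs.eq x hx 0 i

end Main

end Crest.Agent.R260.TwPen_389
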