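import Crest.Agent.R260.TwPenB_389

/-!
Row 260, leaf TW-PEN (helper389), part C.

* `hor_local`, `pen_local` : the Penrose transform when `f x w = ∑ s_a(x) nn_a(w)` and the
  horizontal equation are only known for `w` near some `w₀(x)`.
* `JZ`, `hol_real` : the equation `D f(v) + i D f(J_Z v) = (β'(X) + i β'(I_w X)) f` for real
  tangent vectors `v = (X, η)` gives complex differentiability in `w` and the horizontal equation.
-/

set_option autoImplicit false

open Complex Matrix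
open scoped ContDiff Topology
open Crest.GeometryTopology.CoordMetric Crest.GeometryTopology.ChartRiem
open Crest.Agent.R260.Tw_979

noncomputable section

namespace Crest.Agent.R260.TwPen_389

variable {n : ℕ}

section Ext

lemma differentiable_nn (a : Fin 3) : Differentiable ℂ (fun w => nn w a) :=
  fun w => (hasDerivAt_nn w a).differentiableAt

/-- an entire function which vanishes near a point vanishes -/
lemma ent_zero {F : ℂ → ℂ} (hF : Differentiable ℂ F) {w0 : ℂ} (h : ∀ᶠ w in 𝓝 w0, F w = 0)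
    (w : ℂ) : F w = 0 := by
  have hA : AnalyticOnNhd ℂ F Set.univ := fun z _ => hF.analyticAt z
  have hB : AnalyticOnNhd ℂ (fun _ : ℂ => (0 : ℂ)) Set.univ := fun z _ => analyticAt_const
  exact congrFun (hA.eq_of_eventuallyEq hB h) w

lemma sum_nn_zero {R : Fin 3 → ℂ} {w0 : ℂ} (h : ∀ᶠ w in 𝓝 w0, ∑ a, R a * nn w a = 0) : R = 0 := by
  have hd : Differentiable ℂ (fun w => ∑ a, R a * nn w a) :=
    Differentiable.fun_sum fun a _ => (differentiable_nn a).const_mul (R a)
  refine sum_nn_inj fun w => ?_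
  rw [ent_zero hd h w]; simp

lemma qd_ext {J : Fin 3 → Matrix (Fin n) (Fin n) ℂ} {τ : Fin 3 → Fin n → ℂ} {w0 : ℂ}
    (h : ∀ᶠ w in 𝓝 w0, ∀ j, qd J τ (nn w) j = 0) (w : ℂ) : qd J τ (nn w) = 0 := by
  funext j
  have hd : Differentiable ℂ (fun w => qd J τ (nn w) j) := by
    simp only [qd_apply, Nq_apply]
    refine Differentiable.fun_sum fun i _ => ?_
    refine Differentiable.mul ?_ ?_
    · exact Differentiable.fun_sum fun a _ => (differentiable_nn a).mul_const _
    · exact Differentiable.fun_sum fun a _ => (differentiable_nn a).mul_const _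
  exact ent_zero hd (h.mono fun w hw => hw j) w

end Ext

section Local

variable {g : MetricField n} {J : Fin 3 → EuclideanSpace ℝ (Fin n) → Matrix (Fin n) (Fin n) ℝ}
  {c : EuclideanSpace ℝ (Fin n) → Fin n → Fin 3 → Fin 3 → ℝ}
  {U : Set (EuclideanSpace ℝ (Fin n))}

/-- `hor` only depends on the germ -/
lemma hor_congr {f k : EuclideanSpace ℝ (Fin n) → ℂ → ℂ} {x : EuclideanSpace ℝ (Fin n)} {w : ℂ}
    (h : ∀ᶠ p : EuclideanSpace ℝ (Fin n) × ℂ in 𝓝 (x, w), f p.1 p.2 = k p.1 p.2) (i : Fin n) :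
    hor c f x w i = hor c k x w i := by
  have h1 : (fun y => f y w) =ᶠ[𝓝 x] fun y => k y w := by
    have hc : Filter.Tendsto (fun y : EuclideanSpace ℝ (Fin n) => (y, w)) (𝓝 x) (𝓝 (x, w)) :=
      (Continuous.prodMk_left w).tendsto x
    exact hc.eventually h
  have h2 : f x =ᶠ[𝓝 w] k x := by
    have hc : Filter.Tendsto (fun u : ℂ => (x, u)) (𝓝 w) (𝓝 (x, w)) :=
      (Continuous.prodMk_right x).tendsto w
    exact hc.eventually h
  have h3 : f x w = k x w := h2.self_of_nhds
  unfold hor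
  rw [cpd_congr h1, h2.deriv_eq, h3]

/-- local version of `hor_sum` -/
theorem hor_local {f : EuclideanSpace ℝ (Fin n) → ℂ → ℂ}
    {s : Fin 3 → EuclideanSpace ℝ (Fin n) → ℂ} {x : EuclideanSpace ℝ (Fin n)} {w : ℂ}
    (hf : ∀ᶠ p : EuclideanSpace ℝ (Fin n) × ℂ in 𝓝 (x, w),
      f p.1 p.2 = ∑ a, s a p.1 * nn p.2 a)
    (hs : ∀ a, DifferentiableAt ℝ (s a) x) (hc : ∀ i a b, c x i a b = -c x i b a) (i : Fin n) :
    hor c f x w i = ∑ b, nn w b * nab c s x b i := by
  rw [hor_congr (k := fun x w => ∑ a, s a x * nn w a) hf]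
  exact hor_sum isOpen_univ (fun _ _ _ => rfl) (Set.mem_univ x) hs hc w i

/-- **Penrose transform, local in the fibre.** -/
theorem pen_local (h : QH g J c U) {f : EuclideanSpace ℝ (Fin n) → ℂ → ℂ}
    {s : Fin 3 → EuclideanSpace ℝ (Fin n) → ℂ} (hs : ∀ a, ContDiffOn ℝ ∞ (s a) U)
    (hf : ∀ x ∈ U, ∃ w0, ∀ᶠ w in 𝓝 w0,
      (∀ᶠ p : EuclideanSpace ℝ (Fin n) × ℂ in 𝓝 (x, w), f p.1 p.2 = ∑ a, s a p.1 * nn p.2 a) ∧
      ∀ j, ∑ i, Nq (fun a => cm (J a x)) (nn w) i j * hor c f x w i = 0) :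
    IsTw g J c U s (KK g J c s) := by
  refine ⟨hs, KK_sm h hs, ?_⟩
  intro x hx b i
  obtain ⟨w0, hw0⟩ := hf x hx
  have hd : ∀ a, DifferentiableAt ℝ (s a) x := fun a =>
    ((hs a).contDiffAt (h.isOpen.mem_nhds hx)).differentiableAt (by simp)
  refine tw_of_qd h hx (fun w => ?_) b i
  refine qd_ext (w0 := w0) ?_ w
  filter_upwards [hw0] with w hw j
  rw [qd_apply, ← hw.2 j]
  refine Finset.sum_congr rfl fun i _ => ?_
  rw [hor_local hw.1 hd (h.skew x hx) i]

end Local

section Real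

variable (J : Fin 3 → EuclideanSpace ℝ (Fin n) → Matrix (Fin n) (Fin n) ℝ)
  (c : EuclideanSpace ℝ (Fin n) → Fin n → Fin 3 → Fin 3 → ℝ)

/-- `I_w = ∑ xx_a(w) J_a` -/
def Iw (x : EuclideanSpace ℝ (Fin n)) (w : ℂ) : Matrix (Fin n) (Fin n) ℝ := ∑ a, xx w a • J a x

/-- `I_w X` as an element of `EuclideanSpace` -/
def IwX (x : EuclideanSpace ℝ (Fin n)) (w : ℂ) (X : EuclideanSpace ℝ (Fin n)) :
    EuclideanSpace ℝ (Fin n) := WithLp.toLp 2 (Iw J x w *ᵥ (X : Fin n → ℝ))

/-- the connection form `β_w(X)` of the horizontal lift `(X, β_w(X))` -/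
def bet (x : EuclideanSpace ℝ (Fin n)) (w : ℂ) (X : EuclideanSpace ℝ (Fin n)) : ℂ :=
  -∑ i, (X i : ℂ) * mu (c x i) w

/-- the connection form `β'_w(X)` of `L⁻¹` in the frame `nn` (on `T^(0,1)`) -/
def bet' (x : EuclideanSpace ℝ (Fin n)) (w : ℂ) (X : EuclideanSpace ℝ (Fin n)) : ℂ :=
  ∑ i, (X i : ℂ) * lam (c x i) w

/-- `J_Z (X, η) = (I_w X, i η + β(I_w X) - i β(X))` -/
def JZ (x : EuclideanSpace ℝ (Fin n)) (w : ℂ) (v : EuclideanSpace ℝ (Fin n) × ℂ) :
    EuclideanSpace ℝ (Fin n) × ℂ :=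
  (IwX J x w v.1, I * v.2 + bet c x w (IwX J x w v.1) - I * bet c x w v.1)

variable {J c} {g : MetricField n} {U : Set (EuclideanSpace ℝ (Fin n))}

lemma cm_Iw (x : EuclideanSpace ℝ (Fin n)) (w : ℂ) :
    cm (Iw J x w) = Nq (fun a => cm (J a x)) (cx (xx w)) := by
  ext i j
  simp [Iw, cm_apply, Nq_apply, cx, Matrix.sum_apply]

/-- `(u·J)(v·J) = -(u·v) + (u × v)·J` -/
lemma Nq_mul (h : QH g J c U) {x : EuclideanSpace ℝ (Fin n)} (hx : x ∈ U) (u v : Fin 3 → ℂ) :
    Nq (fun a => cm (J a x)) u * Nq (fun a => cm (J a x)) v =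
      -(dt u v • (1 : Matrix (Fin n) (Fin n) ℂ)) + Nq (fun a => cm (J a x)) (cr u v) := by
  have e01 : cm (J 0 x) * cm (J 1 x) = cm (J 2 x) := by rw [← cm_mul, (h.mul x hx).1]
  have e10 : cm (J 1 x) * cm (J 0 x) = -cm (J 2 x) := by rw [← cm_mul, (h.mul x hx).2, cm_neg]
  have m12 : J 1 x * J 2 x = J 0 x := (h.qt hx).m12
  have m21 : J 2 x * J 1 x = -J 0 x := (h.qt hx).m21
  have m20 : J 2 x * J 0 x = J 1 x := (h.qt hx).m20
  have m02 : J 0 x * J 2 x = -J 1 x := (h.qt hx).m02
  have e12 : cm (J 1 x) * cm (J 2 x) = cm (J 0 x) := by rw [← cm_mul, m12]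
  have e21 : cm (J 2 x) * cm (J 1 x) = -cm (J 0 x) := by rw [← cm_mul, m21, cm_neg]
  have e20 : cm (J 2 x) * cm (J 0 x) = cm (J 1 x) := by rw [← cm_mul, m20]
  have e02 : cm (J 0 x) * cm (J 2 x) = -cm (J 1 x) := by rw [← cm_mul, m02, cm_neg]
  simp only [Nq, Fin.sum_univ_three, Matrix.add_mul, Matrix.mul_add, Matrix.smul_mul,
    Matrix.mul_smul, h.csq hx, e01, e10, e12, e21, e20, e02, dt, cr, Matrix.cons_val_zero,
    Matrix.cons_val_one, Matrix.cons_val]
  module

/-- `I_w N = - i N` for `N = nn(w)·J` -/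
lemma Iw_N (h : QH g J c U) {x : EuclideanSpace ℝ (Fin n)} (hx : x ∈ U) (w : ℂ) :
    cm (Iw J x w) * Nq (fun a => cm (J a x)) (nn w) =
      (-I) • Nq (fun a => cm (J a x)) (nn w) := by
  rw [cm_Iw, Nq_mul h hx, xx_nn, cr_xx_nn]
  simp [Nq, Finset.smul_sum, smul_smul]

/-- **From the real form to the complex form.** -/
theorem hol_real (h : QH g J c U) {x : EuclideanSpace ℝ (Fin n)} (hx : x ∈ U) {w : ℂ}
    {f : EuclideanSpace ℝ (Fin n) → ℂ → ℂ}
    (hd : DifferentiableAt ℝ (fun p : EuclideanSpace ℝ (Fin n) × ℂ => f p.1 p.2) (x, w))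
    (hR : ∀ v : EuclideanSpace ℝ (Fin n) × ℂ,
      fderiv ℝ (fun p : EuclideanSpace ℝ (Fin n) × ℂ => f p.1 p.2) (x, w) v +
        I * fderiv ℝ (fun p : EuclideanSpace ℝ (Fin n) × ℂ => f p.1 p.2) (x, w) (JZ J c x w v) =
      (bet' c x w v.1 + I * bet' c x w (IwX J x w v.1)) * f x w) :
    DifferentiableAt ℂ (f x) w ∧
      ∀ j, ∑ i, Nq (fun a => cm (J a x)) (nn w) i j * hor c f x w i = 0 := by
  set D := fderiv ℝ (fun p : EuclideanSpace ℝ (Fin n) × ℂ => f p.1 p.2) (x, w) with hD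
  have hDf := hd.hasFDerivAt
  rw [← hD] at hDf
  -- the fibre derivative
  have hfib : HasFDerivAt (f x) (D.comp (ContinuousLinearMap.inr ℝ _ ℂ)) w := by
    have h1 : HasFDerivAt (fun u : ℂ => (x, u)) (ContinuousLinearMap.inr ℝ _ ℂ) w :=
      hasFDerivAt_prodMk_right x w
    exact hDf.comp w h1
  have hbase : HasFDerivAt (fun y => f y w) (D.comp (ContinuousLinearMap.inl ℝ _ ℂ)) x := by
    have h1 : HasFDerivAt (fun y : EuclideanSpace ℝ (Fin n) => (y, w))
        (ContinuousLinearMap.inl ℝ _ ℂ) x := hasFDerivAt_prodMk_left x w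
    exact hDf.comp x h1
  have hI0 : IwX J x w 0 = 0 := by
    simp [IwX]
  have hb0 : bet c x w 0 = 0 := by simp [bet]
  have hb0' : bet' c x w 0 = 0 := by simp [bet']
  have hfI : ∀ η : ℂ, D (0, I * η) = I * D (0, η) := by
    intro η
    have h1 := hR (0, η)
    simp only [JZ, hI0, hb0, hb0', mul_zero, add_zero, sub_zero, zero_mul] at h1
    have h2 : I * (D (0, η) + I * D (0, I * η)) = 0 := by rw [h1, mul_zero]
    linear_combination -h2 + D (0, I * η) * I_sq
  have hcd : DifferentiableAt ℂ (f x) w := by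
    rw [differentiableAt_complex_iff_differentiableAt_real]
    refine ⟨hfib.differentiableAt, ?_⟩
    rw [hfib.fderiv]
    simp only [ContinuousLinearMap.comp_apply, ContinuousLinearMap.inr_apply, smul_eq_mul]
    have := hfI 1
    rwa [mul_one] at this
  refine ⟨hcd, ?_⟩
  have hder : ∀ η : ℂ, D (0, η) = η * deriv (f x) w := by
    intro η
    have h1 : fderiv ℝ (f x) w = (fderiv ℂ (f x) w).restrictScalars ℝ :=
      hcd.fderiv_restrictScalars ℝ
    have h2 : D (0, η) = fderiv ℝ (f x) w η := by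
      rw [hfib.fderiv]; simp
    rw [h2, h1]
    simp only [ContinuousLinearMap.coe_restrictScalars']
    rw [fderiv_eq_smul_deriv, smul_eq_mul]
  have hcp : ∀ i, D (EuclideanSpace.single i 1, 0) = cpd i (fun y => f y w) x := by
    intro i
    unfold cpd
    rw [hbase.fderiv]
    simp
  -- `h(X) = D (X, β X) - β' X f`
  have hH : ∀ X : EuclideanSpace ℝ (Fin n), D (X, bet c x w X) - bet' c x w X * f x w =
      ∑ i, (X i : ℂ) * hor c f x w i := by
    intro X
    have h1 : D (X, bet c x w X) = D (X, 0) + D (0, bet c x w X) := by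
      rw [← map_add]; simp
    have h2 : D (X, 0) = ∑ i, (X i : ℂ) * cpd i (fun y => f y w) x := by
      have hX : X = ∑ i, X i • EuclideanSpace.single i (1 : ℝ) := by
        ext j
        simp [Finset.sum_apply, Pi.single_apply]
      have h3 : D (X, 0) = (D.comp (ContinuousLinearMap.inl ℝ _ ℂ)) X := by simp
      rw [h3]
      conv_lhs => rw [hX]
      rw [map_sum]
      refine Finset.sum_congr rfl fun i _ => ?_
      rw [map_smul]
      simp only [ContinuousLinearMap.comp_apply, ContinuousLinearMap.inl_apply, hcp i]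
      rw [Complex.real_smul]
    rw [h1, h2, hder]
    unfold bet bet' hor
    simp only [mul_sub, Finset.sum_sub_distrib]
    have h4 : (-∑ i, (X i : ℂ) * mu (c x i) w) * deriv (f x) w =
        -∑ i, (X i : ℂ) * (mu (c x i) w * deriv (f x) w) := by
      rw [neg_mul, Finset.sum_mul]
      congr 1
      exact Finset.sum_congr rfl fun i _ => by ring
    have h5 : (∑ i, (X i : ℂ) * lam (c x i) w) * f x w =
        ∑ i, (X i : ℂ) * (lam (c x i) w * f x w) := by
      rw [Finset.sum_mul]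
      exact Finset.sum_congr rfl fun i _ => by ring
    rw [h4, h5]; ring
  -- the equation for horizontal vectors
  have hE : ∀ X : EuclideanSpace ℝ (Fin n), ∑ i, (X i : ℂ) * hor c f x w i +
      I * ∑ i, ((IwX J x w X) i : ℂ) * hor c f x w i = 0 := by
    intro X
    have h1 := hR (X, bet c x w X)
    simp only [JZ] at h1
    have h2 : I * bet c x w X + bet c x w (IwX J x w X) - I * bet c x w X =
        bet c x w (IwX J x w X) := by ring
    rw [h2] at h1
    have h3 := hH X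
    have h4 := hH (IwX J x w X)
    rw [← h3, ← h4]
    linear_combination h1
  -- real basis vectors
  have hk : ∀ k, hor c f x w k + I * ∑ i, ((Iw J x w i k : ℝ) : ℂ) * hor c f x w i = 0 := by
    intro k
    have h1 := hE (EuclideanSpace.single k 1)
    have h2 : ∑ i, (((EuclideanSpace.single k (1 : ℝ) : EuclideanSpace ℝ (Fin n)) i : ℝ) : ℂ) *
        hor c f x w i = hor c f x w k := by
      rw [Finset.sum_eq_single k]
      · simp
      · intro b _ hb
        simp [hb]
      · intro hk; exact absurd (Finset.mem_univ k) hk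
    have h3 : ∀ i, (IwX J x w (EuclideanSpace.single k 1)) i = Iw J x w i k := by
      intro i
      simp [IwX]
    rw [h2] at h1
    simp only [h3] at h1
    exact h1
  intro j
  have hN := Iw_N h hx w
  have h1 : ∀ i, ∑ k, ((Iw J x w i k : ℝ) : ℂ) * Nq (fun a => cm (J a x)) (nn w) k j =
      -I * Nq (fun a => cm (J a x)) (nn w) i j := by
    intro i
    have := congrFun (congrFun hN i) j
    rw [Matrix.mul_apply] at this
    simpa [cm_apply] using this
  have h2 : ∑ k, Nq (fun a => cm (J a x)) (nn w) k j * (hor c f x w k +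
      I * ∑ i, ((Iw J x w i k : ℝ) : ℂ) * hor c f x w i) = 0 :=
    Finset.sum_eq_zero fun k _ => by rw [hk k, mul_zero]
  have h3 : ∑ k, Nq (fun a => cm (J a x)) (nn w) k j *
      (I * ∑ i, ((Iw J x w i k : ℝ) : ℂ) * hor c f x w i) =
      ∑ i, Nq (fun a => cm (J a x)) (nn w) i j * hor c f x w i := by
    calc ∑ k, Nq (fun a => cm (J a x)) (nn w) k j *
        (I * ∑ i, ((Iw J x w i k : ℝ) : ℂ) * hor c f x w i)
        = ∑ k, ∑ i, I * (((Iw J x w i k : ℝ) : ℂ) * Nq (fun a => cm (J a x)) (nn w) k j) *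
          hor c f x w i := by
          refine Finset.sum_congr rfl fun k _ => ?_
          rw [Finset.mul_sum, Finset.mul_sum]
          exact Finset.sum_congr rfl fun i _ => by ring
      _ = ∑ i, I * (∑ k, ((Iw J x w i k : ℝ) : ℂ) * Nq (fun a => cm (J a x)) (nn w) k j) *
          hor c f x w i := by
          rw [Finset.sum_comm]
          refine Finset.sum_congr rfl fun i _ => ?_
          rw [Finset.mul_sum, Finset.sum_mul]
      _ = _ := by
          refine Finset.sum_congr rfl fun i _ => ?_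
          rw [h1 i]
          linear_combination (-(Nq (fun a => cm (J a x)) (nn w) i j * hor c f x w i)) * I_sq
  simp only [mul_add, Finset.sum_add_distrib] at h2
  rw [h3] at h2
  have h4 : (2 : ℂ) * ∑ i, Nq (fun a => cm (J a x)) (nn w) i j * hor c f x w i = 0 := by
    linear_combination h2
  rcases mul_eq_zero.1 h4 with h5 | h5
  · norm_num at h5
  · exact h5

end Real

end Crest.Agent.R260.TwPen_389
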