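import Crest.Agent.R260.TwPenC_389
import Crest.Agent.R260.EndDefs_919

/-!
Row 260, leaf TW-PEN (helper389), part D: the two-point version.

`Phi x w y u` holomorphic in `(x, w)` and in `(y, u)` on an open set, equal to
`∑ G_ab(x,y) nn_a(w) nn_b(u)`, canonical on the diagonal: then `Re (G / κ)` is a `TwoPt` tensor
(input of 919's END-2PT).
-/

set_option autoImplicit false

open Complex Matrix
open scoped ContDiff Topology
open Crest.GeometryTopology.CoordMetric Crest.GeometryTopology.ChartRiem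
open Crest.Agent.R260.Tw_979

noncomputable section

namespace Crest.Agent.R260.TwPen_389

variable {n : ℕ}

section Re

variable {g : MetricField n} {J : Fin 3 → EuclideanSpace ℝ (Fin n) → Matrix (Fin n) (Fin n) ℝ}
  {c : EuclideanSpace ℝ (Fin n) → Fin n → Fin 3 → Fin 3 → ℝ}
  {U : Set (EuclideanSpace ℝ (Fin n))}

lemma pderiv_re {f : EuclideanSpace ℝ (Fin n) → ℂ} {x : EuclideanSpace ℝ (Fin n)}
    (h : DifferentiableAt ℝ f x) (i : Fin n) :
    pderiv i (fun y => (f y).re) x = (cpd i f x).re := by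
  have h1 : HasFDerivAt (fun y => (f y).re) (reCLM.comp (fderiv ℝ f x)) x :=
    reCLM.hasFDerivAt.comp x h.hasFDerivAt
  unfold pderiv cpd
  rw [h1.fderiv]; rfl

lemma pderiv_im {f : EuclideanSpace ℝ (Fin n) → ℂ} {x : EuclideanSpace ℝ (Fin n)}
    (h : DifferentiableAt ℝ f x) (i : Fin n) :
    pderiv i (fun y => (f y).im) x = (cpd i f x).im := by
  have h1 : HasFDerivAt (fun y => (f y).im) (imCLM.comp (fderiv ℝ f x)) x :=
    imCLM.hasFDerivAt.comp x h.hasFDerivAt
  unfold pderiv cpd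
  rw [h1.fderiv]; rfl

lemma cpd_const_mul {f : EuclideanSpace ℝ (Fin n) → ℂ} {x : EuclideanSpace ℝ (Fin n)}
    (h : DifferentiableAt ℝ f x) (k : ℂ) (i : Fin n) :
    cpd i (fun y => k * f y) x = k * cpd i f x := by
  unfold cpd
  rw [(h.hasFDerivAt.const_mul k).fderiv]; rfl

/-- real part of the equation at a point (in 919's shape) -/
lemma eq_re {s : Fin 3 → EuclideanSpace ℝ (Fin n) → ℂ} {x : EuclideanSpace ℝ (Fin n)}
    (hs : ∀ a, DifferentiableAt ℝ (s a) x) {b : Fin 3} {i : Fin n} {K : Fin n → ℂ} (k : ℂ)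
    (h : nab c s x b i = ∑ k, ((g x * J b x) i k : ℂ) * K k) :
    pderiv i (fun y => (k * s b y).re) x + ∑ a, (k * s a x).re * c x i a b =
      ∑ l, ∑ p, g x i l * J b x l p * (k * K p).re := by
  rw [pderiv_re ((hs b).const_mul k), cpd_const_mul (hs b)]
  have h1 := congrArg (fun z : ℂ => (k * z).re) h
  simp only [nab, mul_add, add_re, Finset.mul_sum, Complex.re_sum] at h1
  have h2 : ∀ a, (k * (s a x * (c x i a b : ℂ))).re = (k * s a x).re * c x i a b := fun a => by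
    rw [← mul_assoc]; simp
  have h3 : ∀ p, (k * (((g x * J b x) i p : ℝ) * K p)).re =
      ∑ l, g x i l * J b x l p * (k * K p).re := fun p => by
    have : k * (((g x * J b x) i p : ℝ) * K p) = (((g x * J b x) i p : ℝ) : ℂ) * (k * K p) := by
      ring
    rw [this, Complex.re_ofReal_mul, Matrix.mul_apply, Finset.sum_mul]
  simp only [h2, h3] at h1
  rw [h1, Finset.sum_comm]

end Re

section Two

variable {g g' : MetricField n}
  {J J' : Fin 3 → EuclideanSpace ℝ (Fin n) → Matrix (Fin n) (Fin n) ℝ}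
  {c c' : EuclideanSpace ℝ (Fin n) → Fin n → Fin 3 → Fin 3 → ℝ}
  {U : Set (EuclideanSpace ℝ (Fin n))}

/-- linear version of `KK`: the value of `K` as a function of `τ₀` -/
def Kl (g : MetricField n) (J : Fin 3 → EuclideanSpace ℝ (Fin n) → Matrix (Fin n) (Fin n) ℝ)
    (x : EuclideanSpace ℝ (Fin n)) (t : Fin n → ℂ) : Fin n → ℂ :=
  -(cm (J 0 x) *ᵥ (cm (g x)⁻¹ *ᵥ t))

lemma Kl_sum (x : EuclideanSpace ℝ (Fin n)) (z : Fin 3 → ℂ) (t : Fin 3 → Fin n → ℂ) :
    Kl g J x (∑ b, z b • t b) = ∑ b, z b • Kl g J x (t b) := by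
  unfold Kl
  rw [Matrix.mulVec_sum, Matrix.mulVec_sum, ← Finset.sum_neg_distrib]
  refine Finset.sum_congr rfl fun b _ => ?_
  rw [Matrix.mulVec_smul, Matrix.mulVec_smul, smul_neg]

lemma KK_eq (s : Fin 3 → EuclideanSpace ℝ (Fin n) → ℂ) (x : EuclideanSpace ℝ (Fin n)) :
    KK g J c s x = Kl g J x (nab c s x 0) := rfl

/-- **(T1) for a function of the first variable with parameters `u` in the second fibre** -/
theorem t1_aux (h : QH g J c U) {x : EuclideanSpace ℝ (Fin n)} (hx : x ∈ U)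
    {G : Fin 3 → Fin 3 → EuclideanSpace ℝ (Fin n) → ℂ}
    (hG : ∀ a b, DifferentiableAt ℝ (G a b) x)
    {Φ : EuclideanSpace ℝ (Fin n) → ℂ → ℂ → ℂ} {w0 u0 : ℂ}
    (hΦ : ∀ᶠ q : ℂ × ℂ in 𝓝 (w0, u0),
      (∀ᶠ p : EuclideanSpace ℝ (Fin n) × ℂ in 𝓝 (x, q.1),
        Φ p.1 p.2 q.2 = ∑ a, ∑ b, G a b p.1 * nn p.2 a * nn q.2 b) ∧
      ∀ j, ∑ i, Nq (fun a => cm (J a x)) (nn q.1) i j *
        hor c (fun x w => Φ x w q.2) x q.1 i = 0) (b : Fin 3) :
    ∀ a i, nab c (fun a x => G a b x) x a i =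
      ∑ k, ((g x * J a x) i k : ℂ) * Kl g J x (nab c (fun a x => G a b x) x 0) k := by
  -- for `u` near `u0`
  have hev : ∀ᶠ u in 𝓝 u0, ∀ᶠ w in 𝓝 w0,
      (∀ᶠ p : EuclideanSpace ℝ (Fin n) × ℂ in 𝓝 (x, w),
        Φ p.1 p.2 u = ∑ a, ∑ b, G a b p.1 * nn p.2 a * nn u b) ∧
      ∀ j, ∑ i, Nq (fun a => cm (J a x)) (nn w) i j * hor c (fun x w => Φ x w u) x w i = 0 := by
    have h1 : ∀ᶠ q : ℂ × ℂ in 𝓝 u0 ×ˢ 𝓝 w0,
        (∀ᶠ p : EuclideanSpace ℝ (Fin n) × ℂ in 𝓝 (x, q.2),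
          Φ p.1 p.2 q.1 = ∑ a, ∑ b, G a b p.1 * nn p.2 a * nn q.1 b) ∧
        ∀ j, ∑ i, Nq (fun a => cm (J a x)) (nn q.2) i j *
          hor c (fun x w => Φ x w q.1) x q.2 i = 0 := by
      rw [← nhds_prod_eq]
      have hsw : Filter.Tendsto (fun q : ℂ × ℂ => (q.2, q.1)) (𝓝 (u0, w0)) (𝓝 (w0, u0)) :=
        (continuous_snd.prodMk continuous_fst).tendsto (u0, w0)
      exact hsw.eventually hΦ
    exact h1.curry
  -- the equation for the combination
  have hcomb : ∀ᶠ u in 𝓝 u0, ∀ a i, ∑ b, nn u b * (nab c (fun a x => G a b x) x a i -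
      ∑ k, ((g x * J a x) i k : ℂ) * Kl g J x (nab c (fun a x => G a b x) x 0) k) = 0 := by
    filter_upwards [hev] with u hu a i
    set s : Fin 3 → EuclideanSpace ℝ (Fin n) → ℂ := fun a x => ∑ b, G a b x * nn u b with hs
    have hsd : ∀ a, DifferentiableAt ℝ (s a) x := fun a =>
      DifferentiableAt.fun_sum fun b _ => (hG a b).mul_const (nn u b)
    have hnab : ∀ a i, nab c s x a i = ∑ b, nn u b * nab c (fun a x => G a b x) x a i := by
      intro a i
      unfold nab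
      have e1 : cpd i (s a) x = ∑ b, cpd i (G a b) x * nn u b :=
        cpd_sum (s := fun b => G a b) (fun b => hG a b) i (nn u)
      rw [e1]
      simp only [hs, Finset.sum_mul, mul_add, Finset.sum_add_distrib, Finset.mul_sum]
      congr 1
      · exact Finset.sum_congr rfl fun b _ => mul_comm _ _
      · rw [Finset.sum_comm]
        refine Finset.sum_congr rfl fun b _ => Finset.sum_congr rfl fun d _ => ?_
        ring
    have hq : ∀ w, qd (fun a => cm (J a x)) (fun b => nab c s x b) (nn w) = 0 := by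
      refine qd_ext (w0 := w0) ?_
      filter_upwards [hu] with w hw j
      rw [qd_apply, ← hw.2 j]
      refine Finset.sum_congr rfl fun i _ => ?_
      rw [hor_local (s := s) ?_ hsd (h.skew x hx) i]
      filter_upwards [hw.1] with p hp
      rw [hp]
      refine Finset.sum_congr rfl fun a _ => ?_
      simp only [hs]
      rw [Finset.sum_mul]
      exact Finset.sum_congr rfl fun b _ => by ring
    have h2 := tw_of_qd h hx hq a i
    have h3 : nab c s x 0 = ∑ b, nn u b • nab c (fun a x => G a b x) x 0 := by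
      funext i
      rw [hnab]
      simp
    rw [hnab, KK_eq, h3, Kl_sum] at h2
    simp only [mul_sub, Finset.sum_sub_distrib]
    rw [h2]
    rw [sub_eq_zero]
    simp only [Finset.sum_apply, Pi.smul_apply, smul_eq_mul, Finset.mul_sum]
    rw [Finset.sum_comm]
    refine Finset.sum_congr rfl fun b _ => Finset.sum_congr rfl fun k _ => ?_
    ring
  intro a i
  have h4 : (fun b => nab c (fun a x => G a b x) x a i -
      ∑ k, ((g x * J a x) i k : ℂ) * Kl g J x (nab c (fun a x => G a b x) x 0) k) = 0 := by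
    refine sum_nn_zero (w0 := u0) ?_
    filter_upwards [hcomb] with u hu
    rw [← hu a i]
    exact Finset.sum_congr rfl fun b _ => mul_comm _ _
  exact sub_eq_zero.1 (congrFun h4 b)

end Two

section Diag

/-- bilinear version of `sum_nn_zero` -/
lemma sum_nn_nn_zero {M : Fin 3 → Fin 3 → ℂ} {w0 u0 : ℂ}
    (h : ∀ᶠ q : ℂ × ℂ in 𝓝 (w0, u0), ∑ a, ∑ b, M a b * nn q.1 a * nn q.2 b = 0) : M = 0 := by
  have h1 : ∀ᶠ u in 𝓝 u0, ∀ᶠ w in 𝓝 w0, ∑ a, ∑ b, M a b * nn w a * nn u b = 0 := by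
    have h2 : ∀ᶠ q : ℂ × ℂ in 𝓝 u0 ×ˢ 𝓝 w0, ∑ a, ∑ b, M a b * nn q.2 a * nn q.1 b = 0 := by
      rw [← nhds_prod_eq]
      have hsw : Filter.Tendsto (fun q : ℂ × ℂ => (q.2, q.1)) (𝓝 (u0, w0)) (𝓝 (w0, u0)) :=
        (continuous_snd.prodMk continuous_fst).tendsto (u0, w0)
      exact hsw.eventually h
    exact h2.curry
  have h3 : ∀ᶠ u in 𝓝 u0, ∀ a, ∑ b, M a b * nn u b = 0 := by
    filter_upwards [h1] with u hu
    have h4 : (fun a => ∑ b, M a b * nn u b) = 0 := by
      refine sum_nn_zero (w0 := w0) ?_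
      filter_upwards [hu] with w hw
      rw [← hw]
      refine Finset.sum_congr rfl fun a _ => ?_
      rw [Finset.sum_mul]
      exact Finset.sum_congr rfl fun b _ => by ring
    exact fun a => congrFun h4 a
  funext a
  refine sum_nn_zero (w0 := u0) ?_
  filter_upwards [h3] with u hu
  exact hu a

/-- an entire function vanishing at real points near a real point vanishes -/
lemma ent_zero_real {F : ℂ → ℂ} (hF : Differentiable ℂ F) {t0 : ℝ}
    (h : ∀ᶠ t : ℝ in 𝓝 t0, F t = 0) (w : ℂ) : F w = 0 := by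
  have hA : AnalyticOnNhd ℂ F Set.univ := fun z _ => hF.analyticAt z
  have hB : AnalyticOnNhd ℂ (fun _ : ℂ => (0 : ℂ)) Set.univ := fun z _ => analyticAt_const
  refine congrFun (hA.eq_of_frequently_eq (z₀ := (t0 : ℂ)) hB ?_) w
  have h1 : Filter.Tendsto (fun t : ℝ => (t : ℂ)) (𝓝[≠] t0) (𝓝[≠] (t0 : ℂ)) := by
    refine tendsto_nhdsWithin_iff.2 ⟨?_, ?_⟩
    · exact (Complex.continuous_ofReal.tendsto t0).mono_left nhdsWithin_le_nhds
    · filter_upwards [self_mem_nhdsWithin] with t ht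
      simpa using ht
  refine h1.frequently ?_
  refine Filter.Eventually.frequently ?_
  exact h.filter_mono nhdsWithin_le_nhds

/-- **Antidiagonal version**: `∑ M_ab nn_a(w) nn_b(w̄)`, `w` near `w₀`, determines `M`. -/
lemma sum_nn_conj_zero {M : Fin 3 → Fin 3 → ℂ} {w0 : ℂ}
    (h : ∀ᶠ w in 𝓝 w0, ∑ a, ∑ b, M a b * nn w a * nn ((starRingEnd ℂ) w) b = 0) : M = 0 := by
  set P : ℂ → ℂ → ℂ := fun w v => ∑ a, ∑ b, M a b * nn w a * nn v b with hP
  have hdiff : ∀ α β : ℂ → ℂ, Differentiable ℂ α → Differentiable ℂ β →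
      Differentiable ℂ (fun t => P (α t) (β t)) := by
    intro α β hα hβ
    refine Differentiable.fun_sum fun a _ => Differentiable.fun_sum fun b _ => ?_
    exact (((differentiable_nn a).comp hα).const_mul (M a b)).mul ((differentiable_nn b).comp hβ)
  -- real coordinates
  have h1 : ∀ᶠ q : ℝ in 𝓝 w0.im, ∀ᶠ p : ℝ in 𝓝 w0.re,
      P ((p : ℂ) + I * (q : ℂ)) ((p : ℂ) - I * (q : ℂ)) = 0 := by
    have h2 : ∀ᶠ r : ℝ × ℝ in 𝓝 w0.im ×ˢ 𝓝 w0.re,
        P ((r.2 : ℂ) + I * (r.1 : ℂ)) ((r.2 : ℂ) - I * (r.1 : ℂ)) = 0 := by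
      rw [← nhds_prod_eq]
      have hc : Filter.Tendsto (fun r : ℝ × ℝ => ((r.2 : ℂ) + I * (r.1 : ℂ)))
          (𝓝 (w0.im, w0.re)) (𝓝 w0) := by
        have hcont : Continuous (fun r : ℝ × ℝ => ((r.2 : ℂ) + I * (r.1 : ℂ))) := by fun_prop
        have := hcont.tendsto (w0.im, w0.re)
        have e : ((w0.re : ℂ) + I * (w0.im : ℂ)) = w0 := by
          rw [mul_comm]; exact Complex.re_add_im w0
        simpa only [e] using this
      filter_upwards [hc.eventually h] with r hr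
      have e : (starRingEnd ℂ) ((r.2 : ℂ) + I * (r.1 : ℂ)) = (r.2 : ℂ) - I * (r.1 : ℂ) := by
        simp [sub_eq_add_neg]
      rw [e] at hr
      exact hr
    exact h2.curry
  have h3 : ∀ᶠ q : ℝ in 𝓝 w0.im, ∀ p : ℂ, P (p + I * (q : ℂ)) (p - I * (q : ℂ)) = 0 := by
    filter_upwards [h1] with q hq
    refine ent_zero_real (t0 := w0.re) (hdiff (fun p => p + I * (q : ℂ)) (fun p => p - I * (q : ℂ))
      (by fun_prop) (by fun_prop)) hq
  have h4 : ∀ p q : ℂ, P (p + I * q) (p - I * q) = 0 := by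
    intro p
    refine ent_zero_real (t0 := w0.im) (hdiff (fun q => p + I * q) (fun q => p - I * q)
      (by fun_prop) (by fun_prop)) ?_
    filter_upwards [h3] with q hq
    exact hq p
  have h5 : ∀ w v : ℂ, P w v = 0 := by
    intro w v
    have := h4 ((w + v) / 2) ((w - v) / (2 * I))
    have e1 : (w + v) / 2 + I * ((w - v) / (2 * I)) = w := by
      field_simp; ring
    have e2 : (w + v) / 2 - I * ((w - v) / (2 * I)) = v := by
      field_simp; ring
    rwa [e1, e2] at this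
  exact sum_nn_nn_zero (w0 := 0) (u0 := 0) (Filter.Eventually.of_forall fun q => h5 q.1 q.2)

/-- the antipodal null vector -/
lemma nn_anti {w : ℂ} (hw : w ≠ 0) (a : Fin 3) :
    nn (-1 / (starRingEnd ℂ) w) a =
      -((starRingEnd ℂ) w)⁻¹ ^ 2 * (starRingEnd ℂ) (nn w a) := by
  have hc : (starRingEnd ℂ) w ≠ 0 := by simpa using hw
  have h2 : (starRingEnd ℂ) 2 = 2 := map_ofNat _ 2
  fin_cases a
  · simp [nn, h2]; field_simp
  · simp [nn]; field_simp; ring
  · simp [nn]; field_simp; ring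

lemma conj_nn (w : ℂ) (a : Fin 3) : (starRingEnd ℂ) (nn w a) =
    (if a = 2 then -1 else 1 : ℂ) * nn ((starRingEnd ℂ) w) a := by
  have h2 : (starRingEnd ℂ) 2 = 2 := map_ofNat _ 2
  fin_cases a <;> simp [nn, h2]

/-- `∑ M_ab nn_a(w) conj (nn_b(w)) = 0` near `w₀` implies `M = 0` -/
lemma sum_herm_zero {M : Fin 3 → Fin 3 → ℂ} {w0 : ℂ}
    (h : ∀ᶠ w in 𝓝 w0, ∑ a, ∑ b, M a b * nn w a * (starRingEnd ℂ) (nn w b) = 0) : M = 0 := by
  have h1 : (fun a b => M a b * (if b = 2 then -1 else 1 : ℂ)) = (0 : Fin 3 → Fin 3 → ℂ) := by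
    refine sum_nn_conj_zero (w0 := w0) ?_
    filter_upwards [h] with w hw
    rw [← hw]
    refine Finset.sum_congr rfl fun a _ => Finset.sum_congr rfl fun b _ => ?_
    rw [conj_nn]; ring
  funext a b
  have h2 := congrFun (congrFun h1 a) b
  simp only [Pi.zero_apply] at h2
  by_cases hb : b = 2
  · simpa [hb] using h2
  · simpa [hb] using h2

/-- `nn(w)·nn(u) = -2 (w - u)²` -/
lemma dt_nn_nn (w u : ℂ) : dt (nn w) (nn u) = -2 * (w - u) ^ 2 := by
  simp only [dt, nn, Matrix.cons_val_zero, Matrix.cons_val_one, Matrix.cons_val]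
  linear_combination (1 + w ^ 2) * (1 + u ^ 2) * I_sq

end Diag

end Crest.Agent.R260.TwPen_389
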