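import Crest.Agent.R260.TwPenD_389

/-!
Row 260, leaf TW-PEN (helper389), part E: assembly, output `End_919.TwoPt`.
-/

set_option autoImplicit false

open Complex Matrix
open scoped ContDiff Topology
open Crest.GeometryTopology.CoordMetric Crest.GeometryTopology.ChartRiem
open Crest.Agent.R260.Tw_979

noncomputable section

namespace Crest.Agent.R260.TwPen_389

variable {n : ℕ}

section DiagOf

lemma delta_sum (κ : ℂ) (u v : Fin 3 → ℂ) :
    ∑ a, ∑ b, (if a = b then κ else 0 : ℂ) * u a * v b = κ * ∑ a, u a * v a := by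
  rw [Finset.mul_sum]
  refine Finset.sum_congr rfl fun a _ => ?_
  rw [Finset.sum_eq_single a]
  · rw [if_pos rfl]; ring
  · intro b _ hb
    rw [if_neg (Ne.symm hb)]; ring
  · intro h; exact absurd (Finset.mem_univ a) h

theorem diag_of_near {M : Fin 3 → Fin 3 → ℂ} {κ w0 u0 : ℂ}
    (h : ∀ᶠ q : ℂ × ℂ in 𝓝 (w0, u0),
      ∑ a, ∑ b, M a b * nn q.1 a * nn q.2 b = κ * ∑ a, nn q.1 a * nn q.2 a) (a b : Fin 3) :
    M a b = if a = b then κ else 0 := by
  have h1 : (fun a b => M a b - if a = b then κ else 0) = (0 : Fin 3 → Fin 3 → ℂ) := by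
    refine sum_nn_nn_zero (w0 := w0) (u0 := u0) ?_
    filter_upwards [h] with q hq
    have h2 := delta_sum κ (nn q.1) (nn q.2)
    simp only [sub_mul, Finset.sum_sub_distrib]
    rw [hq, h2, sub_self]
  exact sub_eq_zero.1 (congrFun (congrFun h1 a) b)

/-- the canonical form `κ |nn|²` on the antidiagonal -/
theorem diag_of_herm {M : Fin 3 → Fin 3 → ℂ} {κ w0 : ℂ}
    (h : ∀ᶠ w in 𝓝 w0, ∑ a, ∑ b, M a b * nn w a * (starRingEnd ℂ) (nn w b) =
      κ * ∑ a, nn w a * (starRingEnd ℂ) (nn w a)) (a b : Fin 3) :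
    M a b = if a = b then κ else 0 := by
  have h1 : (fun a b => M a b - if a = b then κ else 0) = (0 : Fin 3 → Fin 3 → ℂ) := by
    refine sum_herm_zero (w0 := w0) ?_
    filter_upwards [h] with w hw
    have h2 := delta_sum κ (nn w) (fun a => (starRingEnd ℂ) (nn w a))
    simp only [sub_mul, Finset.sum_sub_distrib]
    rw [hw, h2, sub_self]
  exact sub_eq_zero.1 (congrFun (congrFun h1 a) b)

/-- the antidiagonal `u = -1/w̄` in affine coordinates -/
theorem diag_of_anti {M : Fin 3 → Fin 3 → ℂ} {κ w0 : ℂ} (hw0 : w0 ≠ 0)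
    (h : ∀ᶠ w in 𝓝 w0, ∑ a, ∑ b, M a b * nn w a * nn (-1 / (starRingEnd ℂ) w) b =
      κ * ∑ a, nn w a * nn (-1 / (starRingEnd ℂ) w) a) (a b : Fin 3) :
    M a b = if a = b then κ else 0 := by
  refine diag_of_herm (w0 := w0) ?_ a b
  filter_upwards [h, isOpen_ne.mem_nhds hw0] with w hw hne
  have hc : (starRingEnd ℂ) w ≠ 0 := by simpa using hne
  simp only [nn_anti hne] at hw
  have hk : -((starRingEnd ℂ) w)⁻¹ ^ 2 ≠ 0 := neg_ne_zero.2 (pow_ne_zero _ (inv_ne_zero hc))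
  refine mul_left_cancel₀ hk ?_
  have e1 : -((starRingEnd ℂ) w)⁻¹ ^ 2 *
      ∑ a, ∑ b, M a b * nn w a * (starRingEnd ℂ) (nn w b) =
      ∑ a, ∑ b, M a b * nn w a * (-((starRingEnd ℂ) w)⁻¹ ^ 2 * (starRingEnd ℂ) (nn w b)) := by
    rw [Finset.mul_sum]
    refine Finset.sum_congr rfl fun a _ => ?_
    rw [Finset.mul_sum]
    exact Finset.sum_congr rfl fun b _ => by ring
  have e2 : -((starRingEnd ℂ) w)⁻¹ ^ 2 * (κ * ∑ a, nn w a * (starRingEnd ℂ) (nn w a)) =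
      κ * ∑ a, nn w a * (-((starRingEnd ℂ) w)⁻¹ ^ 2 * (starRingEnd ℂ) (nn w a)) := by
    rw [Finset.mul_sum, Finset.mul_sum, Finset.mul_sum]
    exact Finset.sum_congr rfl fun b _ => by ring
  rw [e1, e2, hw]

end DiagOf

section Asm

variable {g : MetricField n} {J : Fin 3 → EuclideanSpace ℝ (Fin n) → Matrix (Fin n) (Fin n) ℝ}
  {c : EuclideanSpace ℝ (Fin n) → Fin n → Fin 3 → Fin 3 → ℝ}
  {U : Set (EuclideanSpace ℝ (Fin n))}

lemma contDiffAt_left {G : Fin 3 → Fin 3 → EuclideanSpace ℝ (Fin n) → EuclideanSpace ℝ (Fin n) → ℂ}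
    (hU : IsOpen U)
    (hG : ∀ a b, ContDiffOn ℝ ∞ (fun z : EuclideanSpace ℝ (Fin n) × EuclideanSpace ℝ (Fin n) =>
      G a b z.1 z.2) (U ×ˢ U)) {x y : EuclideanSpace ℝ (Fin n)} (hx : x ∈ U) (hy : y ∈ U)
    (a b : Fin 3) : ContDiffAt ℝ ∞ (fun x' => G a b x' y) x := by
  have h1 : ContDiffAt ℝ ∞ (fun z : EuclideanSpace ℝ (Fin n) × EuclideanSpace ℝ (Fin n) =>
      G a b z.1 z.2) (x, y) := (hG a b).contDiffAt ((hU.prod hU).mem_nhds ⟨hx, hy⟩)
  exact h1.comp x (contDiffAt_id.prodMk contDiffAt_const)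

lemma contDiffAt_right {G : Fin 3 → Fin 3 → EuclideanSpace ℝ (Fin n) → EuclideanSpace ℝ (Fin n) → ℂ}
    (hU : IsOpen U)
    (hG : ∀ a b, ContDiffOn ℝ ∞ (fun z : EuclideanSpace ℝ (Fin n) × EuclideanSpace ℝ (Fin n) =>
      G a b z.1 z.2) (U ×ˢ U)) {x y : EuclideanSpace ℝ (Fin n)} (hx : x ∈ U) (hy : y ∈ U)
    (a b : Fin 3) : ContDiffAt ℝ ∞ (fun y' => G a b x y') y := by
  have h1 : ContDiffAt ℝ ∞ (fun z : EuclideanSpace ℝ (Fin n) × EuclideanSpace ℝ (Fin n) =>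
      G a b z.1 z.2) (x, y) := (hG a b).contDiffAt ((hU.prod hU).mem_nhds ⟨hx, hy⟩)
  exact h1.comp y (contDiffAt_const.prodMk contDiffAt_id)

/-- **Two-point Penrose transform** (complex form of the equations as input). -/
theorem twoPt_of (h : QH g J c U)
    {G : Fin 3 → Fin 3 → EuclideanSpace ℝ (Fin n) → EuclideanSpace ℝ (Fin n) → ℂ}
    (hG : ∀ a b, ContDiffOn ℝ ∞ (fun z : EuclideanSpace ℝ (Fin n) × EuclideanSpace ℝ (Fin n) =>
      G a b z.1 z.2) (U ×ˢ U))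
    {Φ : EuclideanSpace ℝ (Fin n) → ℂ → EuclideanSpace ℝ (Fin n) → ℂ → ℂ}
    (h1 : ∀ x ∈ U, ∀ y ∈ U, ∃ w0 u0, ∀ᶠ q : ℂ × ℂ in 𝓝 (w0, u0),
      (∀ᶠ p : EuclideanSpace ℝ (Fin n) × ℂ in 𝓝 (x, q.1),
        Φ p.1 p.2 y q.2 = ∑ a, ∑ b, G a b p.1 y * nn p.2 a * nn q.2 b) ∧
      ∀ j, ∑ i, Nq (fun a => cm (J a x)) (nn q.1) i j *
        hor c (fun x w => Φ x w y q.2) x q.1 i = 0)
    (h2 : ∀ x ∈ U, ∀ y ∈ U, ∃ w0 u0, ∀ᶠ q : ℂ × ℂ in 𝓝 (w0, u0),
      (∀ᶠ p : EuclideanSpace ℝ (Fin n) × ℂ in 𝓝 (y, q.2),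
        Φ x q.1 p.1 p.2 = ∑ a, ∑ b, G a b x p.1 * nn q.1 a * nn p.2 b) ∧
      ∀ j, ∑ i, Nq (fun a => cm (J a y)) (nn q.2) i j *
        hor c (fun y u => Φ x q.1 y u) y q.2 i = 0)
    {κ : ℂ} (hκ : κ ≠ 0) (hD : ∀ x ∈ U, ∀ a b, G a b x x = if a = b then κ else 0) :
    End_919.TwoPt g U J c (fun a b x y => (κ⁻¹ * G a b x y).re) where
  smG a b := by
    have h3 : ContDiffOn ℝ ∞ (fun z : EuclideanSpace ℝ (Fin n) × EuclideanSpace ℝ (Fin n) =>
        κ⁻¹ * G a b z.1 z.2) (U ×ˢ U) := contDiffOn_const.mul (hG a b)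
    exact Complex.reCLM.contDiff.comp_contDiffOn h3
  t1 x hx y hy b := by
    obtain ⟨w0, u0, hq⟩ := h1 x hx y hy
    have hdiff : ∀ a b, DifferentiableAt ℝ (fun x' => G a b x' y) x := fun a b =>
      (contDiffAt_left h.isOpen hG hx hy a b).differentiableAt (by simp)
    have key := t1_aux h hx (G := fun a b x' => G a b x' y) hdiff
      (Φ := fun x w u => Φ x w y u) hq b
    refine ⟨fun k => (κ⁻¹ * Kl g J x (nab c (fun a x => G a b x y) x 0) k).re, fun i a => ?_⟩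
    exact eq_re (s := fun a x => G a b x y) (fun a => hdiff a b) κ⁻¹ (key a i)
  t2 x hx y hy a := by
    obtain ⟨w0, u0, hq⟩ := h2 x hx y hy
    have hdiff : ∀ a b, DifferentiableAt ℝ (fun y' => G a b x y') y := fun a b =>
      (contDiffAt_right h.isOpen hG hx hy a b).differentiableAt (by simp)
    have hq' : ∀ᶠ q : ℂ × ℂ in 𝓝 (u0, w0),
        (∀ᶠ p : EuclideanSpace ℝ (Fin n) × ℂ in 𝓝 (y, q.1),
          Φ x q.2 p.1 p.2 = ∑ b, ∑ a, G a b x p.1 * nn p.2 b * nn q.2 a) ∧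
        ∀ j, ∑ i, Nq (fun a => cm (J a y)) (nn q.1) i j *
          hor c (fun y u => Φ x q.2 y u) y q.1 i = 0 := by
      have hsw : Filter.Tendsto (fun q : ℂ × ℂ => (q.2, q.1)) (𝓝 (u0, w0)) (𝓝 (w0, u0)) :=
        (continuous_snd.prodMk continuous_fst).tendsto (u0, w0)
      filter_upwards [hsw.eventually hq] with q hq
      refine ⟨?_, hq.2⟩
      filter_upwards [hq.1] with p hp
      rw [hp, Finset.sum_comm]
      exact Finset.sum_congr rfl fun b _ => Finset.sum_congr rfl fun a _ => by ring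
    have key := t1_aux h hy (G := fun b a y' => G a b x y') (fun b a => hdiff a b)
      (Φ := fun y u w => Φ x w y u) hq' a
    refine ⟨fun k => (κ⁻¹ * Kl g J y (nab c (fun b y => G a b x y) y 0) k).re, fun i b => ?_⟩
    exact eq_re (s := fun b y => G a b x y) (fun b => hdiff a b) κ⁻¹ (key b i)
  diag x hx a b := by
    rw [hD x hx a b]
    by_cases hab : a = b
    · simp [hab, hκ]
    · simp [hab]

/-- **Two-point Penrose transform, real `J_Z` form on an open set `O`.**  `Φ` is a function of two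
points `z = (x, w)`, `z' = (y, u)` of the chart `E × ℂ` of the twistor space. -/
theorem twoPt_of_open (h : QH g J c U)
    {G : Fin 3 → Fin 3 → EuclideanSpace ℝ (Fin n) → EuclideanSpace ℝ (Fin n) → ℂ}
    (hG : ∀ a b, ContDiffOn ℝ ∞ (fun z : EuclideanSpace ℝ (Fin n) × EuclideanSpace ℝ (Fin n) =>
      G a b z.1 z.2) (U ×ˢ U))
    {O : Set ((EuclideanSpace ℝ (Fin n) × ℂ) × (EuclideanSpace ℝ (Fin n) × ℂ))} (hO : IsOpen O)
    (hne : ∀ x ∈ U, ∀ y ∈ U, ∃ w u, ((x, w), (y, u)) ∈ O)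
    {Φ : EuclideanSpace ℝ (Fin n) × ℂ → EuclideanSpace ℝ (Fin n) × ℂ → ℂ}
    (hΦ : ∀ p ∈ O, Φ p.1 p.2 = ∑ a, ∑ b, G a b p.1.1 p.2.1 * nn p.1.2 a * nn p.2.2 b)
    (h1 : ∀ p ∈ O, ∀ v : EuclideanSpace ℝ (Fin n) × ℂ,
      fderiv ℝ (fun z => Φ z p.2) p.1 v +
        I * fderiv ℝ (fun z => Φ z p.2) p.1 (JZ J c p.1.1 p.1.2 v) =
      (bet' c p.1.1 p.1.2 v.1 + I * bet' c p.1.1 p.1.2 (IwX J p.1.1 p.1.2 v.1)) * Φ p.1 p.2)
    (h2 : ∀ p ∈ O, ∀ v : EuclideanSpace ℝ (Fin n) × ℂ,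
      fderiv ℝ (fun z => Φ p.1 z) p.2 v +
        I * fderiv ℝ (fun z => Φ p.1 z) p.2 (JZ J c p.2.1 p.2.2 v) =
      (bet' c p.2.1 p.2.2 v.1 + I * bet' c p.2.1 p.2.2 (IwX J p.2.1 p.2.2 v.1)) * Φ p.1 p.2)
    {κ : ℂ} (hκ : κ ≠ 0) (hD : ∀ x ∈ U, ∀ a b, G a b x x = if a = b then κ else 0) :
    End_919.TwoPt g U J c (fun a b x y => (κ⁻¹ * G a b x y).re) := by
  have hnn : ∀ a : Fin 3, Differentiable ℝ (fun w => nn w a) := fun a =>
    (differentiable_nn a).restrictScalars ℝ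
  refine twoPt_of h hG (Φ := fun x w y u => Φ (x, w) (y, u)) ?_ ?_ hκ hD
  · intro x hx y hy
    obtain ⟨w0, u0, hp0⟩ := hne x hx y hy
    refine ⟨w0, u0, ?_⟩
    have hc : Filter.Tendsto (fun q : ℂ × ℂ => ((x, q.1), (y, q.2))) (𝓝 (w0, u0))
        (𝓝 ((x, w0), (y, u0))) := by
      have : Continuous (fun q : ℂ × ℂ => ((x, q.1), (y, q.2))) := by fun_prop
      exact this.tendsto (w0, u0)
    filter_upwards [hc.eventually (hO.mem_nhds hp0)] with q hq
    have hc2 : Filter.Tendsto (fun p : EuclideanSpace ℝ (Fin n) × ℂ => (p, (y, q.2)))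
        (𝓝 (x, q.1)) (𝓝 ((x, q.1), (y, q.2))) := by
      have : Continuous (fun p : EuclideanSpace ℝ (Fin n) × ℂ => (p, (y, q.2))) := by fun_prop
      exact this.tendsto (x, q.1)
    have hloc : ∀ᶠ p : EuclideanSpace ℝ (Fin n) × ℂ in 𝓝 (x, q.1),
        Φ (p.1, p.2) (y, q.2) = ∑ a, ∑ b, G a b p.1 y * nn p.2 a * nn q.2 b := by
      filter_upwards [hc2.eventually (hO.mem_nhds hq)] with p hp
      exact hΦ _ hp
    refine ⟨hloc, ?_⟩
    have hd : DifferentiableAt ℝ (fun p : EuclideanSpace ℝ (Fin n) × ℂ => Φ (p.1, p.2) (y, q.2))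
        (x, q.1) := by
      refine DifferentiableAt.congr_of_eventuallyEq ?_ hloc
      refine DifferentiableAt.fun_sum fun a _ => DifferentiableAt.fun_sum fun b _ => ?_
      refine DifferentiableAt.mul_const (DifferentiableAt.mul ?_ ?_) _
      · exact DifferentiableAt.comp (g := fun x' => G a b x' y)
          (f := fun p : EuclideanSpace ℝ (Fin n) × ℂ => p.1) (x, q.1)
          ((contDiffAt_left h.isOpen hG hx hy a b).differentiableAt (by simp)) differentiableAt_fst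
      · exact DifferentiableAt.comp (g := fun w => nn w a)
          (f := fun p : EuclideanSpace ℝ (Fin n) × ℂ => p.2) (x, q.1)
          ((hnn a) q.1) differentiableAt_snd
    exact (hol_real h hx (f := fun x w => Φ (x, w) (y, q.2)) hd (h1 _ hq)).2
  · intro x hx y hy
    obtain ⟨w0, u0, hp0⟩ := hne x hx y hy
    refine ⟨w0, u0, ?_⟩
    have hc : Filter.Tendsto (fun q : ℂ × ℂ => ((x, q.1), (y, q.2))) (𝓝 (w0, u0))
        (𝓝 ((x, w0), (y, u0))) := by
      have : Continuous (fun q : ℂ × ℂ => ((x, q.1), (y, q.2))) := by fun_prop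
      exact this.tendsto (w0, u0)
    filter_upwards [hc.eventually (hO.mem_nhds hp0)] with q hq
    have hc2 : Filter.Tendsto (fun p : EuclideanSpace ℝ (Fin n) × ℂ => ((x, q.1), p))
        (𝓝 (y, q.2)) (𝓝 ((x, q.1), (y, q.2))) := by
      have : Continuous (fun p : EuclideanSpace ℝ (Fin n) × ℂ => ((x, q.1), p)) := by fun_prop
      exact this.tendsto (y, q.2)
    have hloc : ∀ᶠ p : EuclideanSpace ℝ (Fin n) × ℂ in 𝓝 (y, q.2),
        Φ (x, q.1) (p.1, p.2) = ∑ a, ∑ b, G a b x p.1 * nn q.1 a * nn p.2 b := by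
      filter_upwards [hc2.eventually (hO.mem_nhds hq)] with p hp
      exact hΦ _ hp
    refine ⟨hloc, ?_⟩
    have hd : DifferentiableAt ℝ (fun p : EuclideanSpace ℝ (Fin n) × ℂ => Φ (x, q.1) (p.1, p.2))
        (y, q.2) := by
      refine DifferentiableAt.congr_of_eventuallyEq ?_ hloc
      refine DifferentiableAt.fun_sum fun a _ => DifferentiableAt.fun_sum fun b _ => ?_
      refine DifferentiableAt.mul (DifferentiableAt.mul_const ?_ _) ?_
      · exact DifferentiableAt.comp (g := fun y' => G a b x y')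
          (f := fun p : EuclideanSpace ℝ (Fin n) × ℂ => p.1) (y, q.2)
          ((contDiffAt_right h.isOpen hG hx hy a b).differentiableAt (by simp)) differentiableAt_fst
      · exact DifferentiableAt.comp (g := fun w => nn w b)
          (f := fun p : EuclideanSpace ℝ (Fin n) × ℂ => p.2) (y, q.2)
          ((hnn b) q.2) differentiableAt_snd
    exact (hol_real h hy (f := fun y u => Φ (x, q.1) (y, u)) hd (h2 _ hq)).2

end Asm

end Crest.Agent.R260.TwPen_389
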