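import Crest.Agent.R273.KosGen_313

/-!
# R260 (S0398), leaf ZTAN+SURJ, part 1 (helper313): relative Koszul generation

* `kosgen_rel` : Koszul generation starting from a smooth lift which is holomorphic on an open set
  `W` (outside `W` the sections `ℓ j` have no common zero); the corrections are combinations of
  the `ℓ k`;
* `relgen`     : `ℓ j` sections of `O` whose only common zero is `x0`; a holomorphic section `s` of
  `N 0` which near `x0` is `∑ ℓ j * h j` is globally `∑ ℓ j * w j` with `w j (x0) = h j (x0)`.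
-/

set_option autoImplicit false
set_option linter.unusedSectionVars false

open Set Filter Topology Complex
open scoped ContDiff Matrix ComplexConjugate Kronecker

namespace Crest.Agent.R260.Zt_313

open Crest.Agent.R275 Crest.Agent.R275.Geo Crest.Agent.R275.Core144 Crest.Agent.R275.Dg199
open Crest.Agent.R275.Kos798
open Crest.Agent.R273.LamN127 Crest.Agent.R273.KosAb_619 Crest.Agent.R273.SerA_945
open Crest.Agent.R273.SerB_945 Crest.Agent.R273.KosGen_313

noncomputable section

variable {n : ℕ} {M : Type} [TopologicalSpace M] {A : Atl n M} {r : ℕ}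

/-- **relative Koszul generation** -/
theorem kosgen_rel [T2Space M] (O : LB A) (N : ℕ → LB A) (hN : ∀ p, N (p + 1) * O = N p)
    (ℓ : Fin r → Fn A) (hℓ : ∀ j, IsHS O univ (ℓ j)) (θ : Fin r → Fn A)
    (hθ : ∀ j, SmS O⁻¹ (θ j)) {W : Set M} (hW : IsOpen W)
    (h1 : ∀ i, ∀ x ∈ (A.e i).source, x ∉ W → ∑ j, θ j i x * ℓ j i x = 1)
    (ex : ∀ q, 1 ≤ q → q ≤ n → Solv (N (q + 1)) q) {s : Fn A} (hs : IsHS (N 0) univ s)
    (y : Fin r → Fn A) (hy : ∀ j, SmS (N 1) (y j))
    (hyo : ∀ j i, ∀ x ∉ (A.e i).source, y j i x = 0)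
    (hys : ∀ i, ∀ x ∈ (A.e i).source, ∑ j, ℓ j i x * y j i x = s i x)
    (hyW : ∀ j i, HolAt A i W (y j i)) :
    ∃ w : Fin r → Fn A, (∀ j, IsHS (N 1) univ (w j)) ∧ s = ∑ j, ℓ j * w j ∧
      ∃ c : Fin r → Fin r → Fn A, ∀ j i x, w j i x = y j i x - ∑ k, ℓ k i x * c j k i x := by
  classical
  have hℓm : ∀ p q j, ∀ v ∈ FF (N (p + 1)) q, ℓ j • v ∈ FF (N p) q := by
    intro p q j v hv
    rw [← hN p]
    exact (IsHS.smS (hℓ j)).smul_mem hv
  have hθm : ∀ p q j, ∀ v ∈ FF (N p) q, θ j • v ∈ FF (N (p + 1)) q := by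
    intro p q j v hv
    have h2 : N (p + 1) = N p * O⁻¹ := by rw [← hN p, mul_inv_cancel_right]
    rw [h2]
    exact (hθ j).smul_mem hv
  let C : ℕ → ℕ → AddSubgroup (Finset (Fin r) → Raw A) := fun p q =>
    Deg (FF (N (p + 1)) q) (p + 1)
  let s' : Finset (Fin r) → Raw A := fun T => if T = ∅ then embN s else 0
  let y' : Finset (Fin r) → Raw A := fun T => ∑ j, if T = {j} then embN (y j) else 0
  have hs'0 : s' ∅ = embN s := if_pos rfl
  have hy'j : ∀ j : Fin r, y' {j} = embN (y j) := by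
    intro j
    show (∑ k, if ({j} : Finset (Fin r)) = {k} then embN (y k) else 0) = embN (y j)
    rw [Finset.sum_eq_single j]
    · exact if_pos rfl
    · intro k _ hk
      exact if_neg fun h => hk (Finset.singleton_injective h).symm
    · intro h
      exact absurd (Finset.mem_univ _) h
  have hy'n : ∀ T : Finset (Fin r), T.card ≠ 1 → y' T = 0 := by
    intro T hT
    refine Finset.sum_eq_zero fun j _ => if_neg fun h => hT ?_
    rw [h, Finset.card_singleton]
  have hyF : ∀ j, embN (y j) ∈ FF (N 1) 0 := fun j => embN_mem (hy j) (hyo j)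
  have hy0 : y' ∈ Deg (FF (N 1) 0) 1 := by
    refine ⟨fun T hT => ?_, hy'n⟩
    obtain ⟨j, rfl⟩ := Finset.card_eq_one.1 hT
    rw [hy'j]
    exact hyF j
  have hKy0 : kop 0 ℓ y' = s' := by
    funext T
    rw [kop_apply]
    by_cases hT : T = ∅
    · subst hT
      rw [hs'0]
      have e : ∀ j : Fin r, (sgn (Fn A) j (∅ : Finset (Fin r)) * cf (0 : Fin r → Fn A) ℓ j ∅) •
          y' (tog ∅ j) = ℓ j • embN (y j) := by
        intro j
        have h5 : tog (∅ : Finset (Fin r)) j = {j} := by simp [tog]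
        have h6 : cf (0 : Fin r → Fn A) ℓ j ∅ = ℓ j := by simp [cf]
        have h7 : sgn (Fn A) j (∅ : Finset (Fin r)) = 1 := by simp [sgn]
        rw [h5, h6, h7, one_mul, hy'j]
      rw [Finset.sum_congr rfl fun j _ => e j]
      funext i x k
      rw [Finset.sum_apply, Finset.sum_apply, Finset.sum_apply]
      have e2 : ∀ j : Fin r, (ℓ j • embN (y j)) i x k =
          if k.1 = ∅ then ℓ j i x * y j i x else 0 := by
        intro j
        rw [smul_apply']
        show ℓ j i x * (if k.1 = ∅ then y j i x else 0) = _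
        split_ifs <;> simp
      rw [Finset.sum_congr rfl fun j _ => e2 j]
      show _ = if k.1 = ∅ then s i x else 0
      by_cases hk : k.1 = ∅
      · rw [if_pos hk, Finset.sum_congr rfl fun j _ => if_pos hk]
        by_cases hx : x ∈ (A.e i).source
        · exact hys i x hx
        · rw [hs.off i x hx]
          exact Finset.sum_eq_zero fun j _ => by rw [hyo j i x hx, mul_zero]
      · rw [if_neg hk, Finset.sum_congr rfl fun j _ => if_neg hk, Finset.sum_const_zero]
    · have h2 : s' T = 0 := if_neg hT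
      rw [h2]
      refine Finset.sum_eq_zero fun j _ => ?_
      by_cases hj : j ∈ T
      · rw [cf, if_pos hj]; simp
      · have h3 : (tog T j).card ≠ 1 := by
          rw [card_tog_of_notMem hj]
          intro h
          exact hT (Finset.card_eq_zero.1 (by omega))
        rw [hy'n _ h3, smul_zero]
  have hDs' : DF s' = 0 := by
    funext T
    by_cases hT : T = ∅
    · have h2 : s' T = embN s := if_pos hT
      show Db (s' T) = 0
      rw [h2]
      exact Db_embN_hol hs
    · have h2 : s' T = 0 := if_neg hT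
      show Db (s' T) = 0
      rw [h2, Db_zero]
  have hη : DF y' ∈ C 0 1 := DF_mem hy0
  have hηZ : DF y' ∈ ZF r A W := by
    intro T i x hx
    show Db (y' T) i x = 0
    by_cases hT : T.card = 1
    · obtain ⟨j, rfl⟩ := Finset.card_eq_one.1 hT
      rw [hy'j]
      exact Db_embN_zero (hy j) (hyo j) hW (hyW j) i x hx
    · rw [hy'n T hT, Db_zero]
      rfl
  have hKη : kop 0 ℓ (DF y') = 0 := by
    rw [kop_DF (L := O) (fun j => hℓ j) hy0, hKy0, hDs']
  have DDF : ∀ p q (u : Finset (Fin r) → Raw A), u ∈ Deg (FF (N p) q) p → DF (DF u) = 0 := by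
    intro p q u hu
    funext T
    by_cases hT : T.card = p
    · exact Db_Db (hu.1 T hT)
    · show Db (Db (u T)) = 0
      rw [hu.2 T hT, Db_zero, Db_zero]
  have DFs : ∀ p q (u : Finset (Fin r) → Raw A), u ∈ Deg (FF (N p) q) p →
      ∀ v ∈ Deg (FF (N p) q) p, DF (u - v) = DF u - DF v := by
    intro p q u hu v hv
    funext T
    by_cases hT : T.card = p
    · exact Db_sub (hu.1 T hT) (hv.1 T hT)
    · show Db (u T - v T) = Db (u T) - Db (v T)
      rw [hu.2 T hT, hv.2 T hT, sub_zero, Db_zero, sub_zero]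
  obtain ⟨w, hw, hDw⟩ := zig n C (ZF r A W)
    (kop 0 ℓ : (Finset (Fin r) → Raw A) →ₗ[Fn A] _).toAddMonoidHom
    (kop θ 0 : (Finset (Fin r) → Raw A) →ₗ[Fn A] _).toAddMonoidHom DF
    (fun p q u hu => contr_mem (fun j v hv => hℓm (p + 1) q j v hv) hu)
    (fun p q u hu => DF_mem hu)
    (fun p q u hu hz => DF_Z hW hz)
    (fun p q u hu hz => wedge_mem (fun j v hv => hθm (p + 1) q j v hv) hu)
    (fun p q u hu hz => kop_Z θ 0 hz)
    (fun p q u hu => kop_DF (L := O) (fun j => hℓ j) hu)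
    (fun p q u hu => DDF (p + 1) q u hu)
    (fun p q u hu v hv => DFs (p + 1) q u hu v hv)
    (fun p q u hu hz hKu => by
      have h2 := anticomm θ ℓ u
      have h3 : kop 0 ℓ u = 0 := hKu
      rw [h3, map_zero, zero_add] at h2
      refine h2.trans ?_
      funext T i x k
      show (∑ j, θ j * ℓ j) i x * u T i x k = u T i x k
      have h4 : (∑ j, θ j * ℓ j) i x = ∑ j, θ j i x * ℓ j i x := by
        rw [Finset.sum_apply, Finset.sum_apply]
        rfl
      by_cases hx : x ∈ (A.e i).source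
      · by_cases hxW : x ∈ W
        · rw [hz T i x hxW]
          exact mul_zero _
        · rw [h4, h1 i x hx hxW, one_mul]
      · have h5 : u T i x = 0 := by
          by_cases hT : T.card = p + 1
          · exact FF.off (hu.1 T hT) hx
          · rw [hu.2 T hT]
            rfl
        rw [h5]
        exact mul_zero _)
    (fun u => contr_contr ℓ u)
    (fun p q hq u hu => funext fun T => by
      by_cases hT : T.card = p + 1
      · exact FF_top hq (hu.1 T hT)
      · exact hu.2 T hT)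
    (fun q hq hqn u hu hDu => by
      have h2 : ∀ T : Finset (Fin r), ∃ v : Raw A, (T.card = q + 1 → v ∈ FF (N (q + 1)) (q - 1)) ∧
          (T.card ≠ q + 1 → v = 0) ∧ Db v = u T := by
        intro T
        by_cases hT : T.card = q + 1
        · obtain ⟨v, hv, hDv⟩ := ex q hq hqn (u T) (hu.1 T hT) (congrFun hDu T)
          exact ⟨v, fun _ => hv, fun h => absurd hT h, hDv⟩
        · exact ⟨0, fun h => absurd h hT, fun _ => rfl, by rw [Db_zero, hu.2 T hT]⟩
      choose v hv1 hv2 hv3 using h2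
      exact ⟨v, ⟨fun T hT => hv1 T hT, fun T hT => hv2 T hT⟩, funext hv3⟩)
    (DF y') hη hηZ hKη (DDF 1 0 _ hy0)
  have hKw : kop 0 ℓ w ∈ Deg (FF (N 1) 0) 1 :=
    contr_mem (fun j v hv => hℓm 1 0 j v hv) (show w ∈ Deg (FF (N 2) 0) 2 from hw)
  have hDw' : DF (kop 0 ℓ w) = DF y' := hDw
  have hym := AddSubgroup.sub_mem _ hy0 hKw
  have hDy : DF (y' - kop 0 ℓ w) = 0 := by
    rw [DFs 1 0 _ hy0 _ hKw, hDw', sub_self]
  have hKy : kop 0 ℓ (y' - kop 0 ℓ w) = s' := by
    rw [map_sub, hKy0, contr_contr, sub_zero]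
  set z := y' - kop 0 ℓ w with hzd
  have hzj : ∀ j : Fin r, z {j} ∈ FF (N 1) 0 := fun j => hym.1 {j} (Finset.card_singleton j)
  refine ⟨fun j i x => z {j} i x (∅, ()), fun j =>
    isHS_of_closed (hzj j) (congrFun hDy {j}), ?_, ?_⟩
  · have h2 := congrFun hKy ∅
    rw [hs'0, kop_apply] at h2
    funext i x
    have h3 := congrFun (congrFun (congrFun h2 i) x) (∅, ())
    have h4 : embN s i x (∅, ()) = s i x := if_pos rfl
    rw [h4] at h3
    rw [← h3, Finset.sum_apply, Finset.sum_apply, Finset.sum_apply, Finset.sum_apply,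
      Finset.sum_apply]
    refine Finset.sum_congr rfl fun j _ => ?_
    have h5 : tog (∅ : Finset (Fin r)) j = {j} := by simp [tog]
    have h6 : cf (0 : Fin r → Fn A) ℓ j ∅ = ℓ j := by simp [cf]
    have h7 : sgn (Fn A) j (∅ : Finset (Fin r)) = 1 := by simp [sgn]
    rw [h5, h6, h7, one_mul]
    rfl
  · refine ⟨fun j k i x => if k ∈ ({j} : Finset (Fin r)) then 0 else
      sgn ℂ k ({j} : Finset (Fin r)) * w (tog {j} k) i x (∅, ()), fun j i x => ?_⟩
    show z {j} i x (∅, ()) = _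
    have h2 : z {j} i x (∅, ()) = y' {j} i x (∅, ()) - kop 0 ℓ w {j} i x (∅, ()) := rfl
    have h3 : y' {j} i x (∅, ()) = y j i x := by
      rw [hy'j]
      exact if_pos rfl
    rw [h2, h3, kop_apply, Finset.sum_apply, Finset.sum_apply, Finset.sum_apply]
    congr 1
    refine Finset.sum_congr rfl fun k _ => ?_
    rw [smul_apply']
    show _ = ℓ k i x * (if k ∈ ({j} : Finset (Fin r)) then (0 : ℂ) else
      sgn ℂ k ({j} : Finset (Fin r)) * w (tog {j} k) i x (∅, ()))
    by_cases hk : k ∈ ({j} : Finset (Fin r))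
    · rw [if_pos hk, cf, if_pos hk]
      simp
    · rw [if_neg hk, cf, if_neg hk]
      have h7 : (sgn (Fn A) k ({j} : Finset (Fin r)) * ℓ k) i x =
          sgn ℂ k ({j} : Finset (Fin r)) * ℓ k i x := by
        rw [sgn_mul_eq]
        rfl
      rw [h7]
      ring

/-! ### a single common zero -/

section One

variable [T2Space M]

open Classical in
/-- a local function, cut off, in the frame of the chart `i0` -/
def cutH (L : LB A) (χ : M → ℝ) (i0 : A.ι) (h : M → ℂ) : Fn A := fun i x =>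
  if x ∈ (A.e i).source then (χ x : ℂ) * L.g i i0 x * h x else 0

theorem cutH_eq (L : LB A) (χ : M → ℝ) {i0 i : A.ι} (h : M → ℂ) {x : M}
    (hx : x ∈ (A.e i).source) : cutH L χ i0 h i x = (χ x : ℂ) * L.g i i0 x * h x := if_pos hx

theorem cutH_off (L : LB A) (χ : M → ℝ) (i0 i : A.ι) (h : M → ℂ) : ∀ x ∉ (A.e i).source,
    cutH L χ i0 h i x = 0 := fun _ hx => if_neg hx

theorem smS_cutH (L : LB A) {χ : M → ℝ} {i0 : A.ι} (hχ : ∀ q, SmN A χ q) {U : Set M}
    (hU : U ⊆ (A.e i0).source) (hs : tsupport χ ⊆ U) {h : M → ℂ}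
    (hh : ∀ q ∈ U, SmN A h q) : SmS L (cutH L χ i0 h) := by
  have hz : ∀ x ∉ (A.e i0).source, χ x = 0 := fun x hx =>
    image_eq_zero_of_notMem_tsupport fun h => hx (hU (hs h))
  refine SmS.of_smN (fun i p hp => ?_) (fun i j x hx => ?_)
  · by_cases hp0 : p ∈ tsupport χ
    · refine ((((hχ p).ofReal).mul (smN_g L ⟨hp, hU (hs hp0)⟩)).mul (hh p (hs hp0))).congr ?_
      filter_upwards [(A.e i).open_source.mem_nhds hp] with x hx
      exact cutH_eq L χ h hx
    · refine (smN_const (A := A) (0 : ℂ) p).congr ?_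
      filter_upwards [(A.e i).open_source.mem_nhds hp,
        (isClosed_tsupport χ).isOpen_compl.mem_nhds hp0] with x hx hx1
      rw [cutH_eq L χ h hx, image_eq_zero_of_notMem_tsupport hx1]
      simp
  · rw [cutH_eq L χ h hx.1, cutH_eq L χ h hx.2]
    by_cases hx0 : x ∈ (A.e i0).source
    · rw [← L.mul i j i0 x ⟨hx, hx0⟩]
      ring
    · rw [hz x hx0]
      simp

/-- **relative generation at a single common zero** -/
theorem relgen (O : LB A) (N : ℕ → LB A) (hN : ∀ p, N (p + 1) * O = N p)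
    (ℓ : Fin r → Fn A) (hℓ : ∀ j, IsHS O univ (ℓ j)) {x0 : M} (h0 : ∀ j i, ℓ j i x0 = 0)
    (hne : ∀ i, ∀ x ∈ (A.e i).source, x ≠ x0 → ∃ j, ℓ j i x ≠ 0)
    (ex : ∀ q, 1 ≤ q → q ≤ n → Solv (N (q + 1)) q) {s : Fn A} (hs : IsHS (N 0) univ s)
    {i0 : A.ι} (hi0 : x0 ∈ (A.e i0).source) (h : Fin r → M → ℂ) {U : Set M} (hU : IsOpen U)
    (hxU : x0 ∈ U) (hh : ∀ j, HolAt A i0 U (h j))
    (hsh : ∀ x ∈ U, x ∈ (A.e i0).source → s i0 x = ∑ j, ℓ j i0 x * h j x) :
    ∃ w : Fin r → Fn A, (∀ j, IsHS (N 1) univ (w j)) ∧ s = ∑ j, ℓ j * w j ∧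
      ∀ j, w j i0 x0 = h j x0 := by
  obtain ⟨χ, hχ, hχ1, hχs, -, -, -⟩ := exists_bump A (Filter.inter_mem
    ((A.e i0).open_source.mem_nhds hi0) (hU.mem_nhds hxU))
  obtain ⟨W, hWs, hW, hxWm⟩ := _root_.mem_nhds_iff.1
    (Filter.inter_mem hχ1 (Filter.inter_mem ((A.e i0).open_source.mem_nhds hi0)
      (hU.mem_nhds hxU)))
  obtain ⟨ρ, hρ, hρ1, hρs, -, -, -⟩ := exists_bump A (hW.mem_nhds hxWm)
  have hh' : ∀ j, ∀ q ∈ (A.e i0).source ∩ U, SmN A (h j) q := by
    intro j q hq
    refine (smN_iff hq.1).2 ?_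
    have h1 := (hh j).contDiffOn hU
    refine h1.contDiffAt ?_
    exact (((A.e i0).isOpen_inter_preimage_symm hU).mem_nhds
      ⟨(A.e i0).map_source hq.1, by
        show (A.e i0).symm (A.e i0 q) ∈ U
        rw [(A.e i0).left_inv hq.1]
        exact hq.2⟩)
  let y : Fin r → Fn A := fun j i x => cutH (N 1) χ i0 (h j) i x + dualF ℓ χ j i x * s i x
  have hneχ : ∀ i, ∀ x ∈ (A.e i).source, (∀ᶠ y in 𝓝 x, χ y = 1) ∨ ∃ j, ℓ j i x ≠ 0 := by
    intro i x hx
    by_cases hxx : x = x0
    · left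
      rw [hxx]
      exact hχ1
    · exact Or.inr (hne i x hx hxx)
  have hds : ∀ j, SmS (N 1) (fun i x => dualF ℓ χ j i x * s i x) := by
    intro j
    have h1 := smS_dualF hℓ hχ hneχ j
    have h2 := IsHS.smS hs
    refine ⟨fun i => (h1.sm i).mul (h2.sm i), fun i k x hx => ?_⟩
    rw [h1.tr i k x hx, h2.tr i k x hx, ← hN 0]
    show (O⁻¹).g i k x * dualF ℓ χ j k x * ((N 1 * O).g i k x * s k x) = _
    rw [LB.inv_g, LB.mul_g]
    have h3 := O.ne_zero i k x
    field_simp
  have hch := fun j => smS_cutH (N 1) (i0 := i0) hχ inter_subset_left hχs (hh' j)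
  have hy : ∀ j, SmS (N 1) (y j) := fun j =>
    ⟨fun i => ((hch j).sm i).add ((hds j).sm i), fun i k x hx => by
      show cutH (N 1) χ i0 (h j) i x + dualF ℓ χ j i x * s i x = (N 1).g i k x *
        (cutH (N 1) χ i0 (h j) k x + dualF ℓ χ j k x * s k x)
      rw [(hch j).tr i k x hx, mul_add]
      congr 1
      exact (hds j).tr i k x hx⟩
  have hyo : ∀ j i, ∀ x ∉ (A.e i).source, y j i x = 0 := by
    intro j i x hx
    show cutH (N 1) χ i0 (h j) i x + dualF ℓ χ j i x * s i x = 0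
    rw [cutH_off (N 1) χ i0 i (h j) x hx, hs.off i x hx, mul_zero, add_zero]
  have hys : ∀ i, ∀ x ∈ (A.e i).source, ∑ j, ℓ j i x * y j i x = s i x := by
    intro i x hx
    have e1 : ∑ j, ℓ j i x * y j i x = ∑ j, ℓ j i x * cutH (N 1) χ i0 (h j) i x +
        (∑ j, dualF ℓ χ j i x * ℓ j i x) * s i x := by
      rw [Finset.sum_mul, ← Finset.sum_add_distrib]
      refine Finset.sum_congr rfl fun j _ => ?_
      show ℓ j i x * (cutH (N 1) χ i0 (h j) i x + dualF ℓ χ j i x * s i x) = _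
      ring
    have e2 : ∑ j, ℓ j i x * cutH (N 1) χ i0 (h j) i x = (χ x : ℂ) * s i x := by
      by_cases hxt : x ∈ tsupport χ
      · have hx0 := (hχs hxt).1
        rw [hs.tr i i0 x ⟨hx, hx0⟩ (mem_univ x), hsh x (hχs hxt).2 hx0, Finset.mul_sum,
          Finset.mul_sum]
        refine Finset.sum_congr rfl fun j _ => ?_
        rw [cutH_eq (N 1) χ (h j) hx, (hℓ j).tr i i0 x ⟨hx, hx0⟩ (mem_univ x), ← hN 0]
        show _ = (χ x : ℂ) * ((N 1 * O).g i i0 x * (ℓ j i0 x * h j x))
        rw [LB.mul_g]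
        ring
      · rw [image_eq_zero_of_notMem_tsupport hxt]
        simp only [ofReal_zero, zero_mul]
        refine Finset.sum_eq_zero fun j _ => ?_
        rw [cutH_eq (N 1) χ (h j) hx, image_eq_zero_of_notMem_tsupport hxt]
        simp
    have e3 : (∑ j, dualF ℓ χ j i x * ℓ j i x) * s i x = (1 - (χ x : ℂ)) * s i x := by
      by_cases hxx : ∃ j, ℓ j i x ≠ 0
      · have h3 := sqs_ne hxx
        have h2 : ∀ j, dualF ℓ χ j i x * ℓ j i x =
            (1 - (χ x : ℂ)) * ((ℓ j i x * conj (ℓ j i x)) * (sqs ℓ i x)⁻¹) := by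
          intro j
          rw [dualF]
          ring
        rw [Finset.sum_congr rfl fun j _ => h2 j, ← Finset.mul_sum, ← Finset.sum_mul]
        congr 1
        rw [show ∑ j, ℓ j i x * conj (ℓ j i x) = sqs ℓ i x from rfl, mul_inv_cancel₀ h3, mul_one]
      · have hx0 : x = x0 := by
          by_contra hxn
          exact hxx (hne i x hx hxn)
        have h4 : χ x = 1 := by
          rw [hx0]
          exact hχ1.self_of_nhds
        rw [h4]
        have h5 : ∀ j, dualF ℓ χ j i x * ℓ j i x = 0 := by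
          intro j
          rw [dualF, h4]
          simp
        rw [Finset.sum_eq_zero fun j _ => h5 j]
        simp
    rw [e1, e2, e3]
    ring
  have hyW : ∀ j i, HolAt A i W (y j i) := by
    intro j i z hz
    have hx := (A.e i).map_target hz.1
    have hxW : (A.e i).symm z ∈ W := hz.2
    have h1 : HolAt A i0 W (h j) := (hh j).mono fun x hx => (hWs hx).2.2
    have h2 : HolAt A i W (h j) := by
      have h3 := h1.chg hW i
      exact h3.mono fun x hx => ⟨hx, (hWs hx).2.1⟩
    have h3 : HolAt A i W (fun x => (N 1).g i i0 x * h j x) :=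
      (((N 1).hol i i0).mono fun x hx => (hWs hx).2.1).mul h2
    have h4 : HolAt A i W (y j i) := by
      refine h3.congr fun x hx hxW => ?_
      show (N 1).g i i0 x * h j x = cutH (N 1) χ i0 (h j) i x + dualF ℓ χ j i x * s i x
      rw [cutH_eq (N 1) χ (h j) hx, dualF, (hWs hxW).1]
      simp
    exact h4 z hz
  obtain ⟨w, hw, hws, c, hc⟩ := kosgen_rel O N hN ℓ hℓ (dualF ℓ ρ)
    (smS_dualF hℓ hρ fun i x hx => by
      by_cases hxx : x = x0
      · left
        rw [hxx]
        exact hρ1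
      · exact Or.inr (hne i x hx hxx)) hW
    (fun i x hx hxW => sum_dualF ℓ ρ
      (image_eq_zero_of_notMem_tsupport fun h => hxW (hρs h))
      (hne i x hx fun h => hxW (by rw [h]; exact hxWm))) ex hs y hy hyo hys hyW
  refine ⟨w, hw, hws, fun j => ?_⟩
  rw [hc j i0 x0, Finset.sum_eq_zero fun k _ => by rw [h0 k i0, zero_mul], sub_zero]
  show cutH (N 1) χ i0 (h j) i0 x0 + dualF ℓ χ j i0 x0 * s i0 x0 = h j x0
  rw [cutH_eq (N 1) χ (h j) hi0, dualF, hχ1.self_of_nhds, (N 1).self i0 x0]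
  simp

end One

end

end Crest.Agent.R260.Zt_313
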