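import Mathlib

/-!
# R260 (S0398), leaf ZTAN+SURJ, part 2 (helper313): local division

* `exists_hadamard` : `f z = f z0 + L z (z - z0)` with `L` analytic;
* `local_div`       : `f` analytic, `f z0 = 0`, `g k` analytic, vanishing at `z0`, immersive at
  `z0` ⟹ `f = ∑ g k * h k` near `z0`, with `h k z0 = 0` if `f` vanishes to second order.
-/

set_option autoImplicit false

open Filter Topology

namespace Crest.Agent.R260.Zt_313

noncomputable section

variable {E : Type*} [NormedAddCommGroup E] [NormedSpace ℂ E]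

/-- **Hadamard's lemma** (complex analytic) -/
theorem exists_hadamard {f : E → ℂ} {z0 : E} (hf : AnalyticAt ℂ f z0) :
    ∃ L : E → (E →L[ℂ] ℂ), AnalyticAt ℂ L z0 ∧ (∀ᶠ z in 𝓝 z0, f z = f z0 + L z (z - z0)) ∧
      L z0 = fderiv ℂ f z0 := by
  obtain ⟨p, r, hp⟩ := hf
  have hq : p.shift.radius = p.radius := p.radius_shift
  have hqr : r ≤ p.shift.radius := hq ▸ hp.r_le
  have hr := hp.r_pos
  let L : E → (E →L[ℂ] ℂ) := fun z => p.shift.sum (z - z0)
  have hL : HasFPowerSeriesOnBall L p.shift z0 r := by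
    have h1 : HasFPowerSeriesOnBall p.shift.sum p.shift 0 p.shift.radius :=
      p.shift.hasFPowerSeriesOnBall (lt_of_lt_of_le hr hqr)
    have h2 := (h1.mono hr hqr).comp_sub z0
    simpa [L] using h2
  have hu := hL.unshift (z := f z0)
  have hpe : p.shift.unshift (f z0) = p := by
    ext n v
    cases n with
    | zero =>
      have h1 := hp.coeff_zero v
      simp [FormalMultilinearSeries.unshift, h1]
    | succ n =>
      simp [FormalMultilinearSeries.unshift, FormalMultilinearSeries.shift]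
  rw [hpe] at hu
  have heq : Set.EqOn f (fun y => f z0 + L y (y - z0)) (Metric.eball z0 r) := hp.unique hu
  have hev : ∀ᶠ z in 𝓝 z0, f z = f z0 + L z (z - z0) := by
    filter_upwards [Metric.eball_mem_nhds z0 hr] with z hz using heq hz
  refine ⟨L, hL.analyticAt, hev, ?_⟩
  have h1 : fderiv ℂ f z0 = fderiv ℂ (fun z => f z0 + L z (z - z0)) z0 :=
    Filter.EventuallyEq.fderiv_eq hev
  have hLd : HasFDerivAt L (fderiv ℂ L z0) z0 := hL.analyticAt.differentiableAt.hasFDerivAt
  have h2 : HasFDerivAt (fun z => f z0 + L z (z - z0))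
      ((L z0).comp (ContinuousLinearMap.id ℂ E) + (fderiv ℂ L z0).flip (z0 - z0)) z0 :=
    (hLd.clm_apply ((hasFDerivAt_id z0).sub_const z0)).const_add (f z0)
  rw [h1, h2.fderiv]
  simp

/-- **local division** -/
theorem local_div [FiniteDimensional ℂ E] {r : ℕ} {f : E → ℂ} {g : Fin r → E → ℂ} {z0 : E}
    (hf : AnalyticAt ℂ f z0) (hg : ∀ k, AnalyticAt ℂ (g k) z0) (hf0 : f z0 = 0)
    (hg0 : ∀ k, g k z0 = 0) (himm : ∀ v, (∀ k, fderiv ℂ (g k) z0 v = 0) → v = 0) :
    ∃ h : Fin r → E → ℂ, (∀ k, AnalyticAt ℂ (h k) z0) ∧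
      (∀ᶠ z in 𝓝 z0, f z = ∑ k, g k z * h k z) ∧ (fderiv ℂ f z0 = 0 → ∀ k, h k z0 = 0) := by
  have : CompleteSpace E := FiniteDimensional.complete ℂ E
  obtain ⟨Lf, hLf, hLe, hL0⟩ := exists_hadamard hf
  choose G hG hGe hG0 using fun k => exists_hadamard (hg k)
  -- the linear map of the derivatives
  let T : E →ₗ[ℂ] (Fin r → ℂ) := LinearMap.pi fun k => (fderiv ℂ (g k) z0 : E →ₗ[ℂ] ℂ)
  have hT : LinearMap.ker T = ⊥ := by
    refine LinearMap.ker_eq_bot'.2 fun v hv => himm v fun k => ?_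
    exact congrFun hv k
  obtain ⟨P, hP⟩ := T.exists_leftInverse_of_injective hT
  let p : Fin r → E := fun k => P (Pi.single k 1)
  let V : E → (E →L[ℂ] E) := fun z =>
    ∑ k, (ContinuousLinearMap.toSpanSingleton ℂ (p k)).comp (G k z)
  have hV : AnalyticAt ℂ V z0 := by
    refine Finset.analyticAt_fun_sum _ fun k _ => ?_
    exact (((ContinuousLinearMap.compL ℂ E ℂ E)
      (ContinuousLinearMap.toSpanSingleton ℂ (p k))).analyticAt _).comp (hG k)
  have hVa : ∀ z v, V z v = ∑ k, G k z v • p k := by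
    intro z v
    simp [V]
  have hV0 : V z0 = 1 := by
    ext v
    rw [hVa]
    have h1 : ∑ k, G k z0 v • p k = P (T v) := by
      have h2 : T v = ∑ k, G k z0 v • (Pi.single k (1 : ℂ) : Fin r → ℂ) := by
        funext j
        rw [Finset.sum_apply, Finset.sum_eq_single j]
        · rw [hG0]
          simp [T]
        · intro k _ hk
          rw [Pi.smul_apply, Pi.single_eq_of_ne hk.symm, smul_zero]
        · intro h
          exact absurd (Finset.mem_univ _) h
      rw [h2, map_sum]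
      exact Finset.sum_congr rfl fun k _ => by rw [map_smul]
    rw [h1]
    exact LinearMap.congr_fun hP v
  let U : E → (E →L[ℂ] E) := fun z => Ring.inverse (V z)
  have hU : AnalyticAt ℂ U z0 := by
    have h1 : AnalyticAt ℂ (Ring.inverse : (E →L[ℂ] E) → (E →L[ℂ] E)) (V z0) := by
      rw [hV0]
      exact analyticAt_inverse (1 : (E →L[ℂ] E)ˣ)
    exact h1.comp hV
  have hUV : ∀ᶠ z in 𝓝 z0, U z * V z = 1 := by
    have h1 : ∀ᶠ z in 𝓝 z0, IsUnit (V z) := by
      refine hV.continuousAt.eventually ?_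
      rw [hV0]
      exact Units.nhds (1 : (E →L[ℂ] E)ˣ)
    filter_upwards [h1] with z hz using Ring.inverse_mul_cancel _ hz
  refine ⟨fun k z => Lf z (U z (p k)), fun k => ?_, ?_, fun h k => ?_⟩
  · have h1 : AnalyticAt ℂ (fun z => U z (p k)) z0 :=
      ((ContinuousLinearMap.id ℂ (E →L[ℂ] E)).analyticAt_bilinear (U z0, p k)).comp₂ hU
        analyticAt_const
    exact ((ContinuousLinearMap.id ℂ (E →L[ℂ] ℂ)).analyticAt_bilinear (Lf z0, U z0 (p k))).comp₂
      hLf h1
  · have h1 : ∀ᶠ z in 𝓝 z0, ∀ k, g k z = g k z0 + G k z (z - z0) := eventually_all.2 hGe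
    filter_upwards [hLe, h1, hUV] with z hz hz1 hz2
    have h3 : z - z0 = ∑ k, g k z • U z (p k) := by
      have h4 : U z (V z (z - z0)) = z - z0 := by
        exact DFunLike.congr_fun hz2 (z - z0)
      refine h4.symm.trans ?_
      rw [hVa, map_sum]
      refine Finset.sum_congr rfl fun k _ => ?_
      rw [map_smul]
      congr 1
      rw [hz1 k, hg0 k, zero_add]
    rw [hz, hf0, zero_add]
    conv_lhs => rw [h3]
    rw [map_sum]
    exact Finset.sum_congr rfl fun k _ => by rw [map_smul, smul_eq_mul]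
  · show Lf z0 (U z0 (p k)) = 0
    rw [hL0, h]
    rfl

end

end Crest.Agent.R260.Zt_313
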