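import Crest.Agent.R260.Zt1_313
import Crest.Agent.R260.Zt2_313
import Crest.Agent.R273.SerC_945
import Crest.Agent.R273.ChowI_313

/-!
# R260 (S0398), leaf ZTAN+SURJ, part 3 (helper313): division at a point of a projective manifold

* `div_at` : `D : FD O` injective; `s ∈ H^0(L' O^(m+1))`, `s(x0) = 0`, `m` large ⟹
  `s = ∑ ℓ k * w k`, `ℓ k` the linear forms vanishing at `x0`, and `w k (x0) = 0` if `s` vanishes
  to second order at `x0`.
-/

set_option autoImplicit false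
set_option linter.unusedSectionVars false

open Set Filter Topology Complex
open scoped ContDiff Matrix ComplexConjugate Kronecker

namespace Crest.Agent.R260.Zt_313

open Crest.Agent.R275 Crest.Agent.R275.Geo Crest.Agent.R275.Core144 Crest.Agent.R275.Dg199
open Crest.Agent.R275.Kos798
open Crest.Agent.R273.LamN127 Crest.Agent.R273.KosAb_619 Crest.Agent.R273.SerA_945
open Crest.Agent.R273.SerB_945 Crest.Agent.R273.KosGen_313 Crest.Agent.R273.SerC_945

noncomputable section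

variable {n : ℕ} {M : Type} [TopologicalSpace M] {A : Atl n M} {O : LB A}

theorem analyticAt_of_holAt {i : A.ι} {U : Set M} (hU : IsOpen U) {f : M → ℂ}
    (h : HolAt A i U f) {x : M} (hx : x ∈ (A.e i).source) (hxU : x ∈ U) :
    AnalyticAt ℂ (fun z => f ((A.e i).symm z)) (A.e i x) := by
  have h1 := Crest.Agent.R266.SCV.contDiffOn_omega_of_differentiableOn (isOpen_ti hU) h
  have h2 : (A.e i).target ∩ (A.e i).symm ⁻¹' U ∈ 𝓝 (A.e i x) :=
    (isOpen_ti hU).mem_nhds ⟨(A.e i).map_source hx, by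
      rw [mem_preimage, (A.e i).left_inv hx]; exact hxU⟩
  exact (h1.contDiffAt h2).analyticAt

section LF

variable (D : FD O) {i0 : A.ι} {x0 : M} {k0 : Fin (D.N + 1)}

theorem lform_zero (k : Fin (D.N + 1)) (i : A.ι) :
    D.lform (fun k => D.F k i0 x0) k0 k i x0 = 0 := by
  rw [FD.lform_apply]
  by_cases hi : x0 ∈ (A.e i).source
  · by_cases hi0 : x0 ∈ (A.e i0).source
    · rw [(D.hs k).tr i i0 x0 ⟨hi, hi0⟩ (mem_univ _), (D.hs k0).tr i i0 x0 ⟨hi, hi0⟩ (mem_univ _)]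
      ring
    · rw [(D.hs k).off i0 x0 hi0, (D.hs k0).off i0 x0 hi0]
      ring
  · rw [(D.hs k).off i x0 hi, (D.hs k0).off i x0 hi]
    ring

theorem lform_ne (inj : ∀ x y, Rel D.F x y → x = y) (hi0 : x0 ∈ (A.e i0).source)
    (hk0 : D.F k0 i0 x0 ≠ 0) (i : A.ι) (x : M) (hx : x ∈ (A.e i).source) (hne : x ≠ x0) :
    ∃ k, D.lform (fun k => D.F k i0 x0) k0 k i x ≠ 0 := by
  by_contra h
  push Not at h
  refine hne (inj x0 x ((rel_iff D.hs hi0 hx).2
    ⟨D.F k0 i x / D.F k0 i0 x0, fun k => ?_⟩)).symm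
  have h1 : D.F k0 i0 x0 * D.F k i x - D.F k i0 x0 * D.F k0 i x = 0 := h k
  rw [sub_eq_zero] at h1
  rw [div_mul_eq_mul_div, eq_div_iff hk0, mul_comm, h1, mul_comm]

theorem lform_imm (hi0 : x0 ∈ (A.e i0).source) (hk0 : D.F k0 i0 x0 ≠ 0) (v : Cn n)
    (hv : ∀ k, fderiv ℂ (fun w => D.lform (fun k => D.F k i0 x0) k0 k i0 ((A.e i0).symm w))
      (A.e i0 x0) v = 0) : v = 0 := by
  have hFd : ∀ k, DifferentiableAt ℂ (fun w => D.F k i0 ((A.e i0).symm w)) (A.e i0 x0) := fun k =>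
    ((D.hs k).hol i0).diffAt isOpen_univ hi0 (mem_univ _)
  have h1 : ∀ k, D.F k0 i0 x0 * fderiv ℂ (fun w => D.F k i0 ((A.e i0).symm w)) (A.e i0 x0) v =
      D.F k i0 x0 * fderiv ℂ (fun w => D.F k0 i0 ((A.e i0).symm w)) (A.e i0 x0) v := by
    intro k
    have h2 : fderiv ℂ (fun w => D.lform (fun k => D.F k i0 x0) k0 k i0 ((A.e i0).symm w))
        (A.e i0 x0) = D.F k0 i0 x0 • fderiv ℂ (fun w => D.F k i0 ((A.e i0).symm w)) (A.e i0 x0) -
          D.F k i0 x0 • fderiv ℂ (fun w => D.F k0 i0 ((A.e i0).symm w)) (A.e i0 x0) :=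
      (((hFd k).hasFDerivAt.const_mul _).sub ((hFd k0).hasFDerivAt.const_mul _)).fderiv
    have h3 := hv k
    rw [h2] at h3
    exact sub_eq_zero.1 h3
  refine D.imm i0 (A.e i0 x0) ((A.e i0).map_source hi0) v
    ⟨fderiv ℂ (fun w => D.F k0 i0 ((A.e i0).symm w)) (A.e i0 x0) v / D.F k0 i0 x0, fun k => ?_⟩
  rw [(A.e i0).left_inv hi0, div_mul_eq_mul_div, eq_div_iff hk0, mul_comm, h1 k]
  ring

end LF

/-- the twisted sequence of line bundles -/
def NN (L' O : LB A) (m p : ℕ) : LB A := L' * O ^ m * O⁻¹ ^ p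

theorem NN_succ (L' O : LB A) (m p : ℕ) : NN L' O m (p + 1) * O = NN L' O m p := by
  rw [NN, NN, pow_succ O⁻¹, ← mul_assoc, inv_mul_cancel_right]

theorem NN_eq (L' O : LB A) {m q : ℕ} (hq : q ≤ m) : NN L' O m q = L' * O ^ (m - q) := by
  have e1 : O ^ m = O ^ (m - q) * O ^ q := by
    rw [← pow_add, Nat.sub_add_cancel hq]
  rw [NN, e1, mul_assoc, mul_assoc, inv_pow, mul_inv_cancel, mul_one]

/-- **division by the linear forms at a point** -/
theorem div_at [T2Space M] (D : FD O) (inj : ∀ x y, Rel D.F x y → x = y) (L' : LB A) {m0 m : ℕ}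
    (hm : m0 + n ≤ m) (hV : ∀ m, m0 ≤ m → ∀ q, 1 ≤ q → Solv (L' * O ^ m) q)
    {i0 : A.ι} {x0 : M} (hi0 : x0 ∈ (A.e i0).source) {k0 : Fin (D.N + 1)}
    (hk0 : D.F k0 i0 x0 ≠ 0) {s : Fn A} (hs : IsHS (L' * O ^ (m + 1)) univ s)
    (hs0 : s i0 x0 = 0) :
    ∃ w : Fin (D.N + 1) → Fn A, (∀ k, IsHS (L' * O ^ m) univ (w k)) ∧
      s = ∑ k, D.lform (fun k => D.F k i0 x0) k0 k * w k ∧
      (fderiv ℂ (fun w => s i0 ((A.e i0).symm w)) (A.e i0 x0) = 0 → ∀ k, w k i0 x0 = 0) := by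
  have hsa := analyticAt_of_holAt isOpen_univ (hs.hol i0) hi0 (mem_univ _)
  have hga : ∀ k, AnalyticAt ℂ (fun z => D.lform (fun k => D.F k i0 x0) k0 k i0
      ((A.e i0).symm z)) (A.e i0 x0) := fun k =>
    analyticAt_of_holAt isOpen_univ ((D.isHS_lform _ _ _).hol i0) hi0 (mem_univ _)
  obtain ⟨h, hh, hhe, hh0⟩ := local_div hsa hga
    (by rw [(A.e i0).left_inv hi0]; exact hs0)
    (fun k => by rw [(A.e i0).left_inv hi0]; exact lform_zero D k i0)
    (lform_imm D hi0 hk0)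
  -- a neighbourhood
  have hev : ∀ᶠ z in 𝓝 (A.e i0 x0), (∀ k, AnalyticAt ℂ (h k) z) ∧
      s i0 ((A.e i0).symm z) = ∑ k, D.lform (fun k => D.F k i0 x0) k0 k i0 ((A.e i0).symm z) *
        h k z := by
    refine (eventually_all.2 fun k => (hh k).eventually_analyticAt).and hhe
  obtain ⟨B, hB, hBo, hxB⟩ := _root_.mem_nhds_iff.1 hev
  have hU : IsOpen ((A.e i0).source ∩ (A.e i0) ⁻¹' B) := (A.e i0).isOpen_inter_preimage hBo
  obtain ⟨w, hw, hws, hw0⟩ := relgen O (NN L' O (m + 1)) (NN_succ L' O (m + 1))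
    (fun k => D.lform (fun k => D.F k i0 x0) k0 k) (fun k => D.isHS_lform _ _ _)
    (x0 := x0) (fun k i => lform_zero D k i)
    (fun i x hx hne => lform_ne D inj hi0 hk0 i x hx hne)
    (fun q hq hqn => by
      rw [NN_eq L' O (by omega)]
      exact hV _ (by omega) q hq)
    (s := s) (by rw [NN_eq L' O (Nat.zero_le _)]; exact hs) hi0
    (fun k x => h k (A.e i0 x)) hU ⟨hi0, hxB⟩
    (fun k => by
      intro z hz
      have h1 : A.e i0 ((A.e i0).symm z) = z := (A.e i0).right_inv hz.1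
      have h2 : z ∈ B := by
        have h3 := hz.2.2
        rw [mem_preimage, h1] at h3
        exact h3
      have h4 : DifferentiableAt ℂ (h k) z := ((hB h2).1 k).differentiableAt
      refine (h4.differentiableWithinAt).congr (fun y hy => ?_) ?_
      · show h k (A.e i0 ((A.e i0).symm y)) = h k y
        rw [(A.e i0).right_inv hy.1]
      · show h k (A.e i0 ((A.e i0).symm z)) = h k z
        rw [h1])
    (fun x hx _ => by
      have h1 := (hB hx.2).2
      rw [(A.e i0).left_inv hx.1] at h1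
      exact h1)
  refine ⟨w, fun k => ?_, hws, fun hd k => ?_⟩
  · have h1 := hw k
    rw [NN_eq L' O (by omega)] at h1
    exact h1
  · rw [hw0 k]
    exact hh0 hd k

end

end Crest.Agent.R260.Zt_313
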